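import Vale.Agent.P140.Basic

/-! Definitions for the avalanche construction. -/

namespace Vale.Agent.P140

open MeasureTheory Set Filter Topology
open scoped ENNReal RealInnerProductSpace

noncomputable section

/-- Representative in `[-1/2, 1/2)`. -/
def rep (a : UnitAddCircle) : ℝ := (AddCircle.equivIco 1 (-(1 / 2)) a : ℝ)

/-- Horizontal position. -/
def X (x : T3) : ℂ := ⟨rep (x 0), rep (x 1)⟩

/-- Horizontal velocity. -/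
def tp (v : V) : ℂ := ⟨v 0, v 1⟩

/-- Velocity with given horizontal and vertical parts. -/
def mkV (u : ℂ) (s : ℝ) : V := !₂[u.re, u.im, s]

/-- Horizontal position at time zero of the characteristic through `z` at time `t`. -/
def xi (t : ℝ) (z : Ph) : ℂ := X (fl (-t) z).1

/-- Projection on the closed disc of radius `c`. -/
def pj (c : ℝ) (y : ℂ) : ℂ := if ‖y‖ ≤ c then y else ((c / ‖y‖ : ℝ) : ℂ) * y

/-- Direction. -/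
def hat (p : ℂ) : ℂ := p / (‖p‖ : ℂ)

/-- Sector function. -/
def sec (M : ℕ) (σ : ℝ) (p : ℂ) : ℝ := σ * (hat p ^ M).re

/-- Velocity spread as a function of the distance. -/
def Ef (e0 ρ : ℝ) : ℝ := e0 * (max 0 (min ρ (1 / 8 - ρ))) ^ 2

/-- Reference horizontal velocity at `(t, x)`. -/
def uf (c t : ℝ) (x : T3) : ℂ := pj c (X x / (t : ℂ))

/-- Reference velocity of the stream `σ` at `(t, x)`. -/
def Uf (c σ t : ℝ) (x : T3) : V := mkV (uf c t x) σ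

/-- Reference horizontal velocity along a lifted characteristic. -/
def upath (c t : ℝ) (ξ : ℂ) (v : V) : ℂ := pj c ((ξ + (t : ℂ) * tp v) / (t : ℂ))

/-- Horizontal distance to the reference velocity along a lifted characteristic. -/
def dperp (c t : ℝ) (ξ : ℂ) (v : V) : ℝ := ‖tp v - upath c t ξ v‖

/-- Distance to the stream velocity along a lifted characteristic. -/
def dsig (c σ t : ℝ) (ξ : ℂ) (v : V) : ℝ := ‖v - mkV (upath c t ξ v) σ‖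

/-- Time-dependent Gaussian. -/
def mt (t : ℝ) (v : V) : ℝ := Real.exp (-(1 / 4 - t) * ‖v‖ ^ 2)

/-- Singular factor. -/
def sing (u : ℂ) (v : V) : ℝ≥0∞ :=
  ENNReal.ofReal ‖v - mkV u 1‖ ^ (-(3 / 2) : ℝ) + ENNReal.ofReal ‖v - mkV u (-1)‖ ^ (-(3 / 2) : ℝ)
    + ENNReal.ofReal ‖tp v - u‖ ^ (-(1 / 2) : ℝ)

/-- Weight on one velocity fiber. -/
def Wf (t : ℝ) (u : ℂ) (R : ℝ) (v : V) : ℝ≥0∞ :=
  ENNReal.ofReal (mt t v) * (1 + if ‖v‖ ≤ R then sing u v else 0)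

/-- Shape factor along a lifted characteristic. -/
def Sg (c R t : ℝ) (ξ : ℂ) (v : V) : ℝ≥0∞ :=
  1 + if ‖v‖ ≤ R ∧ ‖ξ‖ ≤ 1 / 4 then sing (upath c t ξ v) v else 0

/-- The weight on phase space. -/
def W (c R t : ℝ) (z : Ph) : ℝ≥0∞ := ENNReal.ofReal (mt t z.2) * Sg c R t (xi t z) z.2

/-- Parameters of the cold datum. -/
structure CP where
  c : ℝ
  K : ℝ
  M : ℕ
  e0 : ℝ
  r1 : ℝ

/-- Standing assumptions on the parameters. -/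
structure CP.Ok (P : CP) : Prop where
  c_pos : 0 < P.c
  c_le : P.c ≤ 1 / 2
  K_pos : 0 < P.K
  e_pos : 0 < P.e0
  e_le : P.e0 ≤ 1
  r_nonneg : 0 ≤ P.r1
  Me : P.M * P.e0 ≤ P.c

/-- One cold stream at time zero. -/
def cold1 (P : CP) (σ : ℝ) (z : Ph) : ℝ :=
  if P.r1 ≤ ‖X z.1‖ ∧ ‖X z.1‖ ≤ 1 / 20 ∧ 1 / 10 ≤ sec P.M σ (X z.1) ∧
      ‖z.2 - mkV ((P.c : ℂ) * hat (X z.1)) σ‖ ≤ P.e0 * ‖X z.1‖ ^ 2 then
    P.K / (‖X z.1‖ * (P.e0 * ‖X z.1‖ ^ 2) ^ 3) else 0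

/-- The cold datum. -/
def cold (P : CP) (z : Ph) : ℝ := cold1 P 1 z + cold1 P (-1) z

/-- Free transport of one stream. -/
def cf1 (P : CP) (σ t : ℝ) (z : Ph) : ℝ := cold1 P σ (fl (-t) z)

/-- Free transport of the cold datum. -/
def cf (P : CP) (t : ℝ) (z : Ph) : ℝ := cold P (fl (-t) z)

/-- Local velocity spread. -/
def epsf (c e0 t : ℝ) (x : T3) : ℝ := Ef e0 (‖X x‖ - c * t)

/-- Narrow profile on one fiber. -/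
def Nf (P : ℕ) (ε a : ℝ) (U : V) (w : V) : ℝ≥0∞ :=
  if ‖w‖ ≤ 3 then ENNReal.ofReal (ε ^ P / (‖w - U‖ + a + ε) ^ (P + 3)) else 0

/-- The narrow majorant exported by the barrier. -/
def Nar (c e0 t : ℝ) (z : Ph) : ℝ≥0∞ :=
  Nf 50 (epsf c e0 t z.1) 0 (Uf c 1 t z.1) z.2 + Nf 50 (epsf c e0 t z.1) 0 (Uf c (-1) t z.1) z.2

/-- Defect from the sector. -/
def aS (M : ℕ) (σ : ℝ) (p : ℂ) : ℝ := max 0 (1 / 10 - sec M σ p)

/-- Largest future defect from the sector. -/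
def Xi (M : ℕ) (σ t : ℝ) (ξ : ℂ) (v : V) : ℝ :=
  sSup ((fun s : ℝ => aS M σ (ξ + (s : ℂ) * tp v)) '' Icc t (1 / 8))

/-- Narrow barrier along a lifted characteristic. -/
def Shp (P M : ℕ) (c e0 σ t : ℝ) (ξ : ℂ) (v : V) : ℝ≥0∞ :=
  if ‖v‖ ≤ 3 ∧ ‖ξ‖ ≤ 1 / 4 then ENNReal.ofReal
    (Ef e0 ‖ξ‖ ^ P / (dsig c σ t ξ v + Xi M σ t ξ v + Ef e0 ‖ξ‖) ^ (P + 3)) else 0

/-- Narrow barrier, both streams, on phase space. -/
def Sh (P M : ℕ) (c e0 t : ℝ) (z : Ph) : ℝ≥0∞ :=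
  Shp P M c e0 1 t (xi t z) z.2 + Shp P M c e0 (-1) t (xi t z) z.2

/-- Length scale of the broad barrier. -/
def ell (b : ℕ) (t : ℝ) (ξ : ℂ) (v : V) : ℝ := b * t + ‖ξ‖ + t * ‖v‖

/-- Amplitude of the broad barrier. -/
def om (b : ℕ) (t : ℝ) (ξ : ℂ) (v : V) : ℝ := (ell b t ξ v / (1 + ell b t ξ v)) ^ b

/-- Logarithmic growth rate of `om * mt` along a characteristic. -/
def Dm (b : ℕ) (t : ℝ) (ξ : ℂ) (v : V) : ℝ :=
  b * (b + ‖v‖) / (ell b t ξ v * (1 + ell b t ξ v)) + ‖v‖ ^ 2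

/-- The barrier for label one. -/
def Ub (P M b : ℕ) (c e0 R e1 e2 t : ℝ) (z : Ph) : ℝ≥0∞ :=
  ENNReal.ofReal (e2 * t) * Sh P M c e0 t z + ENNReal.ofReal (e1 * om b t (xi t z) z.2) * W c R t z

/-- The main part of the linear gain of label two. -/
def Lop (P : CP) (R σL l₀ t₀ : ℝ) (g : ℝ → Ph → ℝ≥0∞) (t : ℝ) (z : Ph) : ℝ≥0∞ :=
  if ‖z.2‖ ≤ R then ∫⁻ s in Ioc (max t₀ (l₀ * t)) t,
    (if σL * s ≤ ‖X (fl (s - t) z).1‖ - P.c * s then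
      2 * Qe (fun u => ENNReal.ofReal (cf P s ((fl (s - t) z).1, u)))
        (fun u => g s ((fl (s - t) z).1, u)) z.2 else 0) else 0

/-- Velocities away from both streams. -/
def Hot (ζ : ℝ) : Set Ph := {z | ζ ≤ |z.2 2 - 1| ∧ ζ ≤ |z.2 2 + 1|}

/-- Support of the seed. -/
def seedSet (t₀ : ℝ) : Set Ph :=
  {z | ‖X z.1 - (t₀ : ℂ)‖ ≤ t₀ / 8 ∧ ‖z.2 - mkV Complex.I 0‖ ≤ 1 / 8}

/-- Parameters of the growth estimate. -/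
structure GP where
  c : ℝ
  K : ℝ
  M : ℕ
  R : ℝ
  τ : ℝ
  ζ2 : ℝ
  ζ4 : ℝ
  ζ5 : ℝ
  y3 : ℝ
  σ' : ℝ
  R_ge : 20 ≤ R
  pov : ∀ v w : V, R ≤ ‖v‖ → ‖w‖ ≤ 2 →
    ∫ ω, |ca v w ω| * (‖vp v w ω‖ ^ 4 + ‖wp v w ω‖ ^ 4) ∂sig
      ≤ 9 / 10 * ‖v‖ ^ 4 * (2 * Real.pi * ‖v - w‖)
  τ_pos : 0 < τ
  τ_le : τ ≤ 1 / 1300
  ζ5_pos : 0 < ζ5
  ζ5_le : ζ5 ≤ 1 / 10 ^ 8
  ζ2_pos : 0 < ζ2
  ζ2_le : ζ2 ≤ 1 / 2
  bad : ∀ (g e : V) (s : ℝ), ‖e‖ = 1 → ζ5 ≤ ‖g‖ →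
    ∫⁻ ω in {ω : S2 | |s + ⟪g, (ω : V)⟫ * ⟪e, (ω : V)⟫| ≤ ζ2},
      ENNReal.ofReal |⟪g, (ω : V)⟫| ∂sig ≤ ENNReal.ofReal (‖g‖ / 50)
  c_pos : 0 < c
  c_le : 16 * c ≤ ζ2 * τ
  K_ge : 8000 * (4 * R) ≤ K * τ
  ζ4_pos : 0 < ζ4
  ζ4_le : ζ4 ≤ 1
  ζ4_K : 15000 * K * ζ4 ≤ c
  y3_ge : 4 * R ≤ y3
  y3_K : 3 * (2 * (2 + (2 * R ^ 2 + 4) ^ 2)) * (2 * Real.pi * (2 * R + 2) * 256 * K) ≤ ζ4 ^ 2 * y3
  σ'_pos : 0 < σ'
  σ'_le : σ' ≤ 1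
  layer : K / c * (4 * R * (y3 / R) * Real.sqrt (8 * σ') / ζ2) ≤ 500
  osc : K * (y3 * (y3 / R) * (3 + 4 * y3 * (y3 / R) / (c * σ'))) ≤ 125 * (M * c * ζ2)

/-- Length of the longest flight, relative to the starting time. -/
def GP.lw (p : GP) : ℝ := p.y3 / p.R

/-- The constant bounding the test function after one collision. -/
def GP.C1 (p : GP) : ℝ := 2 * (2 + (2 * p.R ^ 2 + 4) ^ 2)

/-- Bound for `t` times the cold collision rate at moderate speed. -/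
def GP.Cr (p : GP) : ℝ := 2 * Real.pi * (2 * p.R + 2) * 256 * p.K / p.c

/-- Spatial weight. -/
def GP.chi (p : GP) (y : ℝ) : ℝ := if y ≤ p.y3 then (4 * p.R / max y (4 * p.R)) ^ 242 else 0

/-- Smallest nonzero value of the spatial weight. -/
def GP.chi0 (p : GP) : ℝ := (4 * p.R / p.y3) ^ 242

/-- Energy weight. -/
def GP.ff (p : GP) (E : ℝ) : ℝ := max 0 (min 1 (2 - E / p.R ^ 2))

/-- Survival factor on the last window. -/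
def GP.q (p : GP) : ℝ := Real.exp (-(p.Cr * p.lw + 1))

/-- The cold parameters attached to growth parameters. -/
def GP.cp (p : GP) (e0 r1 : ℝ) : CP := ⟨p.c, p.K, p.M, e0, r1⟩

/-- Rate of fast collisions with the cold label. -/
def rf (p : GP) (n : ℝ) (c h k : ℝ → Ph → ℝ) (t : ℝ) (z : Ph) : ℝ :=
  th n (tot c h k t) z *
    nuN n (fun w => if p.ζ5 ≤ ‖z.2 - w‖ then reg n (tot c h k t) (c t) (z.1, w) else 0) z.2

/-- The same rate at moderate speed. -/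
def rf2 (p : GP) (n : ℝ) (c h k : ℝ → Ph → ℝ) (t : ℝ) (z : Ph) : ℝ :=
  if ‖z.2‖ ^ 2 ≤ 2 * p.R ^ 2 then rf p n c h k t z else 0

/-- The same rate at moderate speed and moderate distance. -/
def rf1 (p : GP) (n : ℝ) (c h k : ℝ → Ph → ℝ) (t : ℝ) (z : Ph) : ℝ :=
  if ‖X z.1‖ / t ≤ p.y3 then rf2 p n c h k t z else 0

/-- Source of the value function. -/
def gg (p : GP) (n : ℝ) (c h k : ℝ → Ph → ℝ) (t : ℝ) (z : Ph) : ℝ :=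
  8 / 5 * p.chi (‖X z.1‖ / t) * p.ff (‖z.2‖ ^ 2) * rf p n c h k t z

/-- Value function of the first fast collision. -/
def Gt (p : GP) (n Tf : ℝ) (c h k : ℝ → Ph → ℝ) (t : ℝ) (z : Ph) : ℝ :=
  ∫ r in t..Tf, (r ^ 121)⁻¹ * gg p n c h k r (fl r (fl (-t) z))
    * Real.exp (-Lam (fun s => lam n (tot c h k s)) t r (fl (-t) z))

/-- Survival of hot velocities until the final time. -/
def G2 (p : GP) (n Tf : ℝ) (c h k : ℝ → Ph → ℝ) (t : ℝ) (z : Ph) : ℝ :=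
  if (p.ζ2 ≤ |z.2 2 - 1| ∧ p.ζ2 ≤ |z.2 2 + 1|) ∧ ‖z.2‖ ^ 2 ≤ 2 * p.R ^ 2 + 4 then
    Real.exp (-Lam (fun s => lam n (tot c h k s)) t Tf (fl (-t) z)) else 0

/-- The confining test function. -/
def phi0 (p : GP) (t : ℝ) (z : Ph) : ℝ :=
  (if ‖z.2‖ ≤ 3 ∧ ‖xi t z‖ ≤ 1 / 4 then
      min (min (dsig p.c 1 t (xi t z) z.2 ^ 2) (dsig p.c (-1) t (xi t z) z.2 ^ 2)) 1 else 1)
    + p.ζ4 ^ 2 + max 0 (‖z.2‖ ^ 4 - (p.R / 2) ^ 4)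

/-- The regime in which the growth estimate holds. -/
structure Reg (p : GP) (μ e0 r1 n t₀ Tf : ℝ) (c h k : ℝ → Ph → ℝ) : Prop where
  sys : Sys n t₀ c h k
  e_pos : 0 < e0
  r_pos : 0 < r1
  t_pos : 0 < t₀
  r_le : 2 * r1 ≤ p.σ' * p.c * t₀
  t_le : p.lw * t₀ ≤ Tf
  n_ge : 4 * p.R ≤ n
  init : ∀ z, c t₀ z = cf (p.cp e0 r1) t₀ z
  mom : ∀ t ∈ Icc t₀ Tf, ∀ x : T3,
    ∫⁻ w, ENNReal.ofReal ((1 + ‖w‖) ^ 5 * (h t (x, w) + k t (x, w))) ≤ ENNReal.ofReal μ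
  theta : ∀ t ∈ Icc t₀ Tf, ∀ (x : T3) (w : V), ‖w‖ ≤ 2 * p.R →
    e0 * r1 ^ 2 / 4 ≤ ‖tp w - uf p.c t x‖ → 99 / 100 ≤ th n (tot c h k t) (x, w)

/-- A statement about the regime that holds when the spread and the final time are small. -/
def ForSmall (p : GP) (μ : ℝ)
    (Q : ℝ → ℝ → ℝ → ℝ → ℝ → (ℝ → Ph → ℝ) → (ℝ → Ph → ℝ) → (ℝ → Ph → ℝ) → Prop) : Prop :=
  ∃ sb : ℝ, 0 < sb ∧ ∀ e0 r1 n t₀ Tf c h k, e0 ≤ sb → Tf ≤ sb →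
    Reg p μ e0 r1 n t₀ Tf c h k → Q e0 r1 n t₀ Tf c h k

/-- Integral over the partner velocity and the scattering direction. -/
def cInt (n : ℝ) (v : V) (H : V → S2 → ℝ) : ℝ :=
  ∫ q : V × S2, Bn n v q.1 q.2 * H q.1 q.2 ∂(volume.prod sig)

end

end Vale.Agent.P140
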