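import Vale.Agent.P140.Basic

/-! One-dimensional calculus for primitives of integrable functions. -/

namespace Vale.Agent.P140

open MeasureTheory Set Filter Topology
open scoped ENNReal RealInnerProductSpace

noncomputable section

variable {y z q r l β β' : ℝ → ℝ} {a b : ℝ}

theorem ode_ac_lip (hy : AbsolutelyContinuousOnInterval y a b) {K : ℝ}
    (h : ∀ s ∈ uIcc a b, ∀ t ∈ uIcc a b, dist (z s) (z t) ≤ K * dist (y s) (y t)) :
    AbsolutelyContinuousOnInterval z a b := by
  have h1 := Tendsto.const_mul K hy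
  rw [mul_zero] at h1
  refine squeeze_zero' (Eventually.of_forall fun E => Finset.sum_nonneg fun _ _ => dist_nonneg)
    ?_ h1
  refine eventually_inf_principal.2 (Eventually.of_forall fun E hE => ?_)
  rw [Finset.mul_sum]
  exact Finset.sum_le_sum fun i hi => h _ (hE.1 i hi).1 _ (hE.1 i hi).2

theorem Prim.ode_ac (h : Prim y q a b) : AbsolutelyContinuousOnInterval y a b := by
  refine ode_ac_lip (h.int.absolutelyContinuousOnInterval_intervalIntegral left_mem_uIcc)
    (K := 1) fun s hs t ht => ?_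
  rw [uIcc_of_le h.le] at hs ht
  rw [h.eq s hs, h.eq t ht, dist_add_left, one_mul]

theorem Prim.ode_deriv (h : Prim y q a b) : ∀ᵐ t, t ∈ Ioo a b → HasDerivAt y (q t) t := by
  filter_upwards [h.int.ae_hasDerivAt_integral] with t ht hm
  have h1 := (ht (by rw [uIcc_of_le h.le]; exact Ioo_subset_Icc_self hm) a
    left_mem_uIcc).const_add (y a)
  refine h1.congr_of_eventuallyEq ?_
  filter_upwards [Icc_mem_nhds hm.1 hm.2] with s hs using h.eq s hs

theorem ode_prim (hab : a ≤ b) (hy : AbsolutelyContinuousOnInterval y a b)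
    (h : ∀ᵐ t, t ∈ Ioo a b → HasDerivAt y (q t) t) : Prim y q a b := by
  have h1 : ∀ᵐ t, t ∈ Ioc a b → deriv y t = q t := by
    have h2 : ∀ᵐ t : ℝ, t ≠ b := by simp [ae_iff]
    filter_upwards [h, h2] with t h3 h4 h5 using (h3 ⟨h5.1, lt_of_le_of_ne h5.2 h4⟩).deriv
  refine ⟨hab, hy.intervalIntegrable_deriv.congr_ae ?_, fun t ht => ?_⟩
  · rw [uIoc_of_le hab]
    exact (ae_restrict_iff' measurableSet_Ioc).2 h1
  · have h2 := (hy.mono (uIcc_subset_uIcc_left (by rwa [uIcc_of_le hab]))).integral_deriv_eq_sub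
    rw [intervalIntegral.integral_congr_ae (g := q)] at h2
    · linarith
    · filter_upwards [h1] with s hs hm
      rw [uIoc_of_le ht.1] at hm
      exact hs ⟨hm.1, hm.2.trans ht.2⟩

theorem Prim.ode_sub (h : Prim y q a b) {t : ℝ} (ht : t ∈ Icc a b) :
    IntervalIntegrable q volume a t :=
  h.int.mono_set (uIcc_subset_uIcc_left (by rwa [uIcc_of_le h.le]))

theorem Prim.continuousOn (h : Prim y q a b) : ContinuousOn y (Icc a b) := by
  have := h.ode_ac.continuousOn
  rwa [uIcc_of_le h.le] at this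

theorem Prim.mono (h : Prim y q a b) {c d : ℝ} (hac : a ≤ c) (hcd : c ≤ d) (hdb : d ≤ b) :
    Prim y q c d := by
  have hc : c ∈ Icc a b := ⟨hac, hcd.trans hdb⟩
  refine ⟨hcd, (h.ode_sub hc).symm.trans (h.ode_sub ⟨hac.trans hcd, hdb⟩), fun t ht => ?_⟩
  have ht' : t ∈ Icc a b := ⟨hac.trans ht.1, ht.2.trans hdb⟩
  rw [h.eq t ht', h.eq c hc,
    ← intervalIntegral.integral_interval_sub_left (h.ode_sub ht') (h.ode_sub hc)]
  ring

theorem Prim.congr (h : Prim y q a b) (hy : ∀ t ∈ Icc a b, z t = y t)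
    (hq : ∀ᵐ t ∂(volume.restrict (Ioc a b)), r t = q t) : Prim z r a b := by
  refine ⟨h.le, h.int.congr_ae ?_, fun t ht => ?_⟩
  · rw [uIoc_of_le h.le]
    exact EventuallyEq.symm hq
  · rw [hy t ht, hy a (left_mem_Icc.2 h.le), h.eq t ht]
    congr 1
    refine intervalIntegral.integral_congr_ae ?_
    filter_upwards [(ae_restrict_iff' measurableSet_Ioc).1 hq] with s hs hm
    rw [uIoc_of_le ht.1] at hm
    exact (hs ⟨hm.1, hm.2.trans ht.2⟩).symm

theorem Prim.of_integral (hab : a ≤ b) (hq : IntervalIntegrable q volume a b) (c : ℝ) :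
    Prim (fun t => c + ∫ s in a..t, q s) q a b := by
  exact ⟨hab, hq, fun t _ => by simp⟩

theorem Prim.of_hasDerivAt (hab : a ≤ b) (h : ∀ t ∈ Icc a b, HasDerivAt y (q t) t)
    (hq : ContinuousOn q (Icc a b)) : Prim y q a b := by
  have hi : IntervalIntegrable q volume a b := hq.intervalIntegrable_of_Icc hab
  refine ⟨hab, hi, fun t ht => ?_⟩
  rw [intervalIntegral.integral_eq_sub_of_hasDerivAt (f := y) (fun s hs => h s ?_)
    (hi.mono_set (uIcc_subset_uIcc_left (by rwa [uIcc_of_le hab])))]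
  · ring
  · rw [uIcc_of_le ht.1] at hs
    exact ⟨hs.1, hs.2.trans ht.2⟩

theorem Prim.add (h : Prim y q a b) (h' : Prim z r a b) :
    Prim (fun t => y t + z t) (fun t => q t + r t) a b := by
  refine ⟨h.le, h.int.add h'.int, fun t ht => ?_⟩
  rw [intervalIntegral.integral_add (h.ode_sub ht) (h'.ode_sub ht), h.eq t ht, h'.eq t ht]
  ring

theorem Prim.const_mul (h : Prim y q a b) (c : ℝ) :
    Prim (fun t => c * y t) (fun t => c * q t) a b := by
  refine ⟨h.le, h.int.const_mul c, fun t ht => ?_⟩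
  rw [intervalIntegral.integral_const_mul, h.eq t ht]
  ring

theorem Prim.mul (h : Prim y q a b) (h' : Prim z r a b) :
    Prim (fun t => y t * z t) (fun t => q t * z t + y t * r t) a b := by
  refine ode_prim h.le (h.ode_ac.mul h'.ode_ac) ?_
  filter_upwards [h.ode_deriv, h'.ode_deriv] with t h1 h2 ht using (h1 ht).mul (h2 ht)

theorem Prim.ode_comp (h : Prim y q a b) {s : Set ℝ} (hy : ∀ t ∈ Icc a b, y t ∈ s)
    (hβ : ∀ u ∈ s, HasDerivWithinAt β (β' u) s u) (hβ' : ContinuousOn β' s) :
    Prim (fun t => β (y t)) (fun t => β' (y t) * q t) a b := by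
  have hs : y '' Icc a b ⊆ s := by
    rintro _ ⟨t, ht, rfl⟩
    exact hy t ht
  obtain ⟨C, hC⟩ := (isCompact_Icc.image_of_continuousOn
    h.continuousOn).exists_bound_of_continuousOn (hβ'.mono hs)
  have hc : Convex ℝ (y '' Icc a b) := (isPreconnected_Icc.image y h.continuousOn).convex
  refine ode_prim h.le (ode_ac_lip h.ode_ac (K := C) fun u hu t ht => ?_) ?_
  · rw [uIcc_of_le h.le] at hu ht
    rw [dist_eq_norm, dist_eq_norm]
    exact hc.norm_image_sub_le_of_norm_hasDerivWithin_le
      (fun x hx => (hβ x (hs hx)).mono hs) hC ⟨t, ht, rfl⟩ ⟨u, hu, rfl⟩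
  · filter_upwards [h.ode_deriv] with t h1 ht
    refine (hβ _ (hy t (Ioo_subset_Icc_self ht))).comp_hasDerivAt t (h1 ht) ?_
    filter_upwards [Icc_mem_nhds ht.1 ht.2] with u hu using hy u hu

theorem Prim.comp (h : Prim y q a b) {s : Set ℝ} (hs : IsOpen s) (hy : ∀ t ∈ Icc a b, y t ∈ s)
    (hβ : ∀ u ∈ s, HasDerivAt β (β' u) u) (hβ' : ContinuousOn β' s) :
    Prim (fun t => β (y t)) (fun t => β' (y t) * q t) a b := by
  exact h.ode_comp hy (fun u hu => (hβ u hu).hasDerivWithinAt) hβ'

theorem Prim.comp_Ici (h : Prim y q a b) (hy : ∀ t ∈ Icc a b, 0 ≤ y t)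
    (hβ : ∀ u, 0 ≤ u → HasDerivWithinAt β (β' u) (Ici 0) u) (hβ' : ContinuousOn β' (Ici 0)) :
    Prim (fun t => β (y t)) (fun t => β' (y t) * q t) a b := by
  exact h.ode_comp (s := Ici 0) hy hβ hβ'

theorem ode_exp (hl : IntervalIntegrable l volume a b) (hab : a ≤ b) {t y₀ : ℝ}
    (ht : t ∈ Icc a b) : y₀ * Real.exp (-∫ s in a..t, l s)
      + ∫ s in a..t, q s * Real.exp (-∫ u in s..t, l u) =
      Real.exp (-∫ s in a..t, l s) * (y₀ + ∫ s in a..t, q s * Real.exp (∫ u in a..s, l u)) := by
  rw [mul_add, mul_comm, ← intervalIntegral.integral_const_mul]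
  congr 1
  refine intervalIntegral.integral_congr fun s hs => ?_
  have h1 : IntervalIntegrable l volume a t :=
    hl.mono_set (uIcc_subset_uIcc_left (by rwa [uIcc_of_le hab]))
  rw [← intervalIntegral.integral_interval_sub_left h1 (h1.mono_set (uIcc_subset_uIcc_left hs)),
    mul_left_comm, ← Real.exp_add]
  congr 2
  ring

/-- Exponential form of a linear equation. -/
theorem Prim.expForm (h : Prim y (fun s => q s - l s * y s) a b)
    (hl : IntervalIntegrable l volume a b) (hq : IntervalIntegrable q volume a b) :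
    ∀ t ∈ Icc a b, y t = y a * Real.exp (-∫ s in a..t, l s)
      + ∫ s in a..t, q s * Real.exp (-∫ u in s..t, l u) := by
  intro t ht
  have h1 := (Prim.of_integral h.le hl 0).comp isOpen_univ (fun _ _ => mem_univ _)
    (fun u _ => Real.hasDerivAt_exp u) Real.continuous_exp.continuousOn
  have h2 := (h.mul h1).eq t ht
  simp only [zero_add, intervalIntegral.integral_same, Real.exp_zero, mul_one] at h2
  rw [ode_exp hl h.le ht, ← h2.trans (by
    congr 1
    exact intervalIntegral.integral_congr fun s _ => by ring :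
      _ = y a + ∫ s in a..t, q s * Real.exp (∫ u in a..s, l u)), Real.exp_neg]
  field_simp

/-- Converse of the exponential form. -/
theorem Prim.of_expForm (hab : a ≤ b) (hl : IntervalIntegrable l volume a b)
    (hq : IntervalIntegrable q volume a b) (y₀ : ℝ)
    (hy : ∀ t, y t = y₀ * Real.exp (-∫ s in a..t, l s)
      + ∫ s in a..t, q s * Real.exp (-∫ u in s..t, l u)) :
    Prim y (fun s => q s - l s * y s) a b := by
  have h0 := Prim.of_integral hab hl 0
  have h1 := h0.comp isOpen_univ (fun _ _ => mem_univ _)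
    (fun u _ => (hasDerivAt_neg u).exp) (by fun_prop)
  have h2 := Prim.of_integral hab (hq.mul_continuousOn (g := fun s => Real.exp (∫ u in a..s, l u))
    (by
      have := h0.continuousOn.rexp
      simp only [zero_add] at this
      rwa [uIcc_of_le hab])) y₀
  have h3 := h1.mul h2
  simp only [zero_add] at h3
  refine h3.congr (fun t ht => by rw [hy t, ode_exp hl hab ht]) ?_
  refine (ae_restrict_iff' measurableSet_Ioc).2 (Eventually.of_forall fun t ht => ?_)
  rw [hy t, ode_exp hl hab (Ioc_subset_Icc_self ht), Real.exp_neg]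
  field_simp
  ring

/-- Integrating a family of primitives in the parameter. -/
theorem Prim.integral_family {α : Type} [MeasurableSpace α] {μ : Measure α} [SFinite μ]
    {Y Q : ℝ → α → ℝ} (h : ∀ᵐ x ∂μ, Prim (fun t => Y t x) (fun t => Q t x) a b) (hab : a ≤ b)
    (hQ : Integrable (fun p : ℝ × α => Q p.1 p.2) ((volume.restrict (Ioc a b)).prod μ))
    (hY : Integrable (Y a) μ) :
    Integrable (Y b) μ ∧ ∫ x, Y b x ∂μ = ∫ x, Y a x ∂μ
      + ∫ p, Q p.1 p.2 ∂((volume.restrict (Ioc a b)).prod μ) := by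
  have h1 : Y b =ᵐ[μ] fun x => Y a x + ∫ t in Ioc a b, Q t x := by
    filter_upwards [h] with x hx
    rw [← intervalIntegral.integral_of_le hab]
    exact hx.eq b (right_mem_Icc.2 hab)
  have h2 := hQ.integral_prod_right
  refine ⟨(hY.add h2).congr h1.symm, ?_⟩
  rw [integral_congr_ae h1, integral_add hY h2, integral_prod_symm _ hQ]

/-- Gronwall inequality for a bounded family, without measurability of the supremum. -/
theorem gronwall_sup {ι : Type} (u : ι → ℝ → ℝ) {A L C : ℝ} (hA : 0 ≤ A) (hL : 0 ≤ L)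
    (hC : ∀ i, ∀ t ∈ Icc a b, u i t ≤ C)
    (step : ∀ w : ℝ → ℝ, Continuous w → (∀ t ∈ Icc a b, 0 ≤ w t) →
      (∀ i, ∀ t ∈ Icc a b, u i t ≤ w t) →
      ∀ i, ∀ t ∈ Icc a b, u i t ≤ A + L * ∫ s in a..t, w s) :
    ∀ i, ∀ t ∈ Icc a b, u i t ≤ A * Real.exp (L * (t - a)) := by
  let w : ℕ → ℝ → ℝ := fun m t =>
    A * Real.exp (L * (t - a)) + max C 0 * ((L * (t - a)) ^ m / m.factorial)
  have hw : ∀ m, Continuous (w m) := fun m => by fun_prop
  have hd : ∀ m t, HasDerivAt (w (m + 1)) (L * w m t) t := fun m t => by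
    have h1 : HasDerivAt (fun t => L * (t - a)) L t := by
      simpa using ((hasDerivAt_id t).sub_const a).const_mul L
    have h2 := (h1.exp.const_mul A).add
      (((h1.pow (m + 1)).div_const ((m + 1).factorial : ℝ)).const_mul (max C 0))
    refine h2.congr_deriv ?_
    simp only [w, Nat.factorial_succ, Nat.add_sub_cancel]
    push_cast
    field_simp
  have key : ∀ m, ∀ i, ∀ t ∈ Icc a b, u i t ≤ w m t := fun m => by
    induction m with
    | zero =>
      intro i t ht
      have : 0 ≤ A * Real.exp (L * (t - a)) := by positivity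
      simp only [w, pow_zero, Nat.factorial_zero, Nat.cast_one, div_one, mul_one]
      linarith [hC i t ht, le_max_left C 0]
    | succ m ih =>
      intro i t ht
      refine (step (w m) (hw m) (fun s hs => ?_) ih i t ht).trans (le_of_eq ?_)
      · have := sub_nonneg.2 hs.1
        have := le_max_right C 0
        positivity
      · rw [← intervalIntegral.integral_const_mul, intervalIntegral.integral_eq_sub_of_hasDerivAt
          (fun s _ => hd m s) (((hw m).const_mul L).intervalIntegrable _ _)]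
        simp [w]
  intro i t ht
  have h1 := ((FloorSemiring.tendsto_pow_div_factorial_atTop (L * (t - a))).const_mul
    (max C 0)).const_add (A * Real.exp (L * (t - a)))
  rw [mul_zero, add_zero] at h1
  exact ge_of_tendsto' h1 fun m => key m i t ht

/-- A nonnegative primitive whose derivative is bounded above by an extended-valued function. -/
theorem Prim.ofReal_le (h : Prim y (fun s => q s - l s) a b)
    (hq : IntervalIntegrable q volume a b) (hq0 : ∀ s ∈ Icc a b, 0 ≤ q s)
    (hl0 : ∀ s ∈ Icc a b, 0 ≤ l s) :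
    ENNReal.ofReal (y b) ≤ ENNReal.ofReal (y a) + ∫⁻ s in Ioc a b, ENNReal.ofReal (q s) := by
  have h1 : y b ≤ y a + ∫ s in Ioc a b, q s := by
    rw [h.eq b (right_mem_Icc.2 h.le), ← intervalIntegral.integral_of_le h.le]
    exact add_le_add le_rfl (intervalIntegral.integral_mono_on h.le h.int hq
      fun s hs => sub_le_self _ (hl0 s hs))
  rw [← ofReal_integral_eq_lintegral_ofReal hq.1 ((ae_restrict_iff' measurableSet_Ioc).2
    (Eventually.of_forall fun s hs => hq0 s (Ioc_subset_Icc_self hs)))]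
  exact (ENNReal.ofReal_le_ofReal h1).trans ENNReal.ofReal_add_le

end

end Vale.Agent.P140
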