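import Vale.Agent.P140.QApi
import Vale.Agent.P140.Ode

/-! Basic consequences of the mild formulation of the regularized equation. -/

namespace Vale.Agent.P140

open MeasureTheory Set Filter Topology
open scoped ENNReal RealInnerProductSpace

noncomputable section

section Appr

variable {n : ℝ} {F : ℝ → Ph → ℝ}

theorem Appr.meas_t (h : Appr n F) (t : ℝ) : Measurable (F t) :=
  h.meas.comp (measurable_const.prodMk measurable_id)

theorem Appr.gain_nonneg (hn : 0 < n) (h : Appr n F) (t : ℝ) (z : Ph) :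
    0 ≤ gainN n (til n (F t)) (til n (F t)) z :=
  QN_nonneg (fun _ => til_nonneg hn (h.nonneg t _)) (fun _ => til_nonneg hn (h.nonneg t _)) _

theorem Appr.gain_le (hn : 0 < n) (h : Appr n F) (t : ℝ) (z : Ph) :
    gainN n (til n (F t)) (til n (F t)) z ≤ 4 * Real.pi * n * n * n * Mx z.2 :=
  (le_abs_self _).trans (abs_QN_le hn.le (bddV_til hn (h.meas_t t) (h.nonneg t) z.1)
    (bddV_til hn (h.meas_t t) (h.nonneg t) z.1) z.2)


theorem ApprApi_int {q : ℝ → ℝ} (hq : Measurable q) {a b C : ℝ}
    (h : ∀ s ∈ uIoc a b, |q s| ≤ C) : IntervalIntegrable q volume a b := by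
  rw [intervalIntegrable_iff]
  refine Measure.integrableOn_of_bounded (M := C) ?_ hq.aestronglyMeasurable
    ((ae_restrict_iff' measurableSet_uIoc).2 (Eventually.of_forall h))
  exact measure_Ioc_lt_top.ne



theorem Appr.gain_int (hn : 0 < n) (h : Appr n F) (a b : ℝ) (z : Ph) : IntervalIntegrable
    (fun s => gainN n (til n (F s)) (til n (F s)) (fl s z)) volume a b := by
  have m : Measurable fun p : ℝ × Ph => til n (F p.1) p.2 :=
    measurable_til n (F := fun p : ℝ × Ph => F p.1)
      (QMeas_app h.meas measurable_fst.fst measurable_snd) measurable_snd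
  refine ApprApi_int (measurable_gainN n (f := fun s => til n (F s)) (g := fun s => til n (F s))
    m m (measurable_fl_left z)) (C := 4 * Real.pi * n * n * n * Mx z.2) fun s _ => ?_
  rw [abs_of_nonneg (h.gain_nonneg hn s _)]
  exact h.gain_le hn s _

theorem Appr.lam_int (hn : 0 < n) (h : Appr n F) (a b : ℝ) (z : Ph) :
    IntervalIntegrable (fun s => lam n (F s) (fl s z)) volume a b := by
  refine ApprApi_int (measurable_lam n h.meas (measurable_fl_left z))
    (C := 4 * Real.pi * n * n) fun s _ => ?_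
  rw [abs_of_nonneg (lam_nonneg hn (h.nonneg s))]
  exact lam_le hn (h.meas_t s) (h.nonneg s)

theorem Appr.prim (hn : 0 < n) (h : Appr n F) {T : ℝ} (hT : 0 ≤ T) (z : Ph) :
    Prim (fun s => F s (fl s z)) (fun s => gainN n (til n (F s)) (til n (F s)) (fl s z)
      - lam n (F s) (fl s z) * F s (fl s z)) 0 T := by
  obtain ⟨C, hC⟩ := h.upp T
  refine ⟨hT, (h.gain_int hn 0 T z).sub ?_, fun t ht => by simpa using h.mild t ht.1 z⟩
  refine ApprApi_int (q := fun s => lam n (F s) (fl s z) * F s (fl s z))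
    ((measurable_lam n h.meas (measurable_fl_left z)).mul
    (QMeas_app h.meas measurable_id (measurable_fl_left z)))
    (C := 4 * Real.pi * n * n * (C * Mx z.2)) fun s hs => ?_
  rw [uIoc_of_le hT] at hs
  rw [abs_of_nonneg (mul_nonneg (lam_nonneg hn (h.nonneg s)) (h.nonneg s _))]
  exact mul_le_mul (lam_le hn (h.meas_t s) (h.nonneg s)) (hC s ⟨hs.1.le, hs.2⟩ (fl s z))
    (h.nonneg s _) (by positivity)

theorem Appr.expForm (hn : 0 < n) (h : Appr n F) {s t : ℝ} (hs : 0 ≤ s) (hst : s ≤ t) (z : Ph) :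
    F t (fl t z) = F s (fl s z) * Real.exp (-Lam (fun τ => lam n (F τ)) s t z)
      + ∫ τ in s..t, gainN n (til n (F τ)) (til n (F τ)) (fl τ z)
          * Real.exp (-Lam (fun τ => lam n (F τ)) τ t z) :=
  ((h.prim hn (hs.trans hst) z).mono hs hst le_rfl).expForm (h.lam_int hn s t z)
    (h.gain_int hn s t z) t ⟨hst, le_rfl⟩

theorem Appr.integrable_mul (h : Appr n F) {t C : ℝ} (ht : 0 ≤ t) {φ : Ph → ℝ}
    (hφ : Measurable φ) (hC : ∀ z : Ph, |φ z| ≤ C * (1 + ‖z.2‖) ^ 4) :
    Integrable (fun z => F t z * φ z) := by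
  obtain ⟨D, hD⟩ := h.upp t
  refine ((integrable_pow_Mx_Ph 4).const_mul (D * C)).mono'
    ((h.meas_t t).mul hφ).aestronglyMeasurable (Eventually.of_forall fun z => ?_)
  rw [Real.norm_eq_abs, abs_mul, abs_of_nonneg (h.nonneg t z)]
  have h1 := hD t ⟨ht, le_rfl⟩ z
  exact (mul_le_mul h1 (hC z) (abs_nonneg _) ((h.nonneg t z).trans h1)).trans_eq (by ring)

theorem Appr.integrable (h : Appr n F) {t : ℝ} (ht : 0 ≤ t) : Integrable (F t) := by
  simpa using h.integrable_mul ht (C := 1) (φ := fun _ => 1) measurable_const fun z => by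
    rw [abs_one, one_mul]
    exact one_le_pow₀ (by linarith [norm_nonneg z.2])

end Appr

end

end Vale.Agent.P140
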