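import Vale.Agent.P140.Ode

/-! Bootstrap, monotone pairings and the abstract growth lemma. -/

namespace Vale.Agent.P140

open MeasureTheory Set Filter Topology
open scoped ENNReal RealInnerProductSpace

noncomputable section

/-- Continuity induction with a monotone barrier. -/
theorem boot {ι : Type} {y U : ι → ℝ → ℝ≥0∞} {m : ι → ℝ≥0∞} {a b μ L : ℝ} (hμ : 0 < μ)
    (hL : 0 ≤ L) (hU : ∀ i s t, a ≤ s → s ≤ t → t ≤ b → U i s ≤ U i t)
    (hm : ∀ i, ∀ t ∈ Icc a b, ENNReal.ofReal μ * m i ≤ U i t)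
    (hy : ∀ i s t, a ≤ s → s ≤ t → t ≤ b → y i t ≤ y i s + ENNReal.ofReal (L * (t - s)) * m i)
    (h0 : ∀ i, y i a ≤ U i a)
    (step : ∀ t ∈ Icc a b, (∀ s ∈ Icc a t, ∀ i, y i s ≤ 2 * U i s) → ∀ i, y i t ≤ U i t) :
    ∀ t ∈ Icc a b, ∀ i, y i t ≤ U i t := by
  have hd : 0 < μ / (L + 1) := by positivity
  have key : ∀ j : ℕ, ∀ t ∈ Icc a b, t ≤ a + j * (μ / (L + 1)) → ∀ i, y i t ≤ U i t := by
    intro j
    induction j with
    | zero =>
      intro t ht h1 i
      have h2 : t = a := le_antisymm (by simpa using h1) ht.1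
      rw [h2]
      exact h0 i
    | succ j ih =>
      intro t ht h1
      refine step t ht fun s hs i => ?_
      have hsb : s ≤ b := hs.2.trans ht.2
      have hj : (0 : ℝ) ≤ j * (μ / (L + 1)) := by positivity
      have h2 : max a (s - μ / (L + 1)) ≤ s := max_le hs.1 (by linarith)
      have h3 : max a (s - μ / (L + 1)) ≤ a + j * (μ / (L + 1)) := by
        refine max_le (by linarith) ?_
        push_cast at h1
        linarith [hs.2]
      have h4 : L * (s - max a (s - μ / (L + 1))) ≤ μ := by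
        have h5 : s - max a (s - μ / (L + 1)) ≤ μ / (L + 1) := by
          linarith [le_max_right a (s - μ / (L + 1))]
        calc _ ≤ L * (μ / (L + 1)) := mul_le_mul_of_nonneg_left h5 hL
          _ ≤ (L + 1) * (μ / (L + 1)) := mul_le_mul_of_nonneg_right (by linarith) hd.le
          _ = μ := by field_simp
      calc y i s ≤ _ := hy i _ s (le_max_left _ _) h2 hsb
        _ ≤ U i s + U i s := by
          refine add_le_add ((ih _ ⟨le_max_left _ _, h2.trans hsb⟩ h3 i).trans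
            (hU i _ s (le_max_left _ _) h2 hsb)) ?_
          exact (mul_le_mul_left (ENNReal.ofReal_le_ofReal h4) _).trans (hm i s ⟨hs.1, hsb⟩)
        _ = 2 * U i s := (two_mul _).symm
  intro t ht
  obtain ⟨j, hj⟩ := exists_nat_ge ((t - a) / (μ / (L + 1)))
  refine key j t ht ?_
  rw [div_le_iff₀ hd] at hj
  linarith

variable {y q l r φ : ℝ → ℝ} {a b : ℝ}

theorem ode2_int {ψ : ℝ → ℝ} (hq : IntervalIntegrable q volume a b) (hab : a ≤ b)
    (hψ : Antitone ψ) (h0 : ∀ s, 0 ≤ ψ s) :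
    IntervalIntegrable (fun s => q s * ψ s) volume a b := by
  rw [intervalIntegrable_iff_integrableOn_Ioc_of_le hab] at hq ⊢
  refine Integrable.mul_bdd (c := ψ a) hq hψ.measurable.aestronglyMeasurable ?_
  refine (ae_restrict_iff' measurableSet_Ioc).2 (Eventually.of_forall fun s hs => ?_)
  rw [Real.norm_of_nonneg (h0 s)]
  exact hψ hs.1.le

theorem ode2_slice {ψ : ℝ → ℝ} (h : Prim y q a b) (h0 : ∀ t ∈ Icc a b, 0 ≤ y t)
    (hψ : Antitone ψ) (x : ℝ) :
    -y a ≤ ∫ s in Ioc a b, {s | x < ψ s}.indicator q s := by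
  have hms : MeasurableSet {s | x < ψ s} := measurableSet_lt measurable_const hψ.measurable
  set S : Set ℝ := insert a ({s | x < ψ s} ∩ Ioc a b) with hS
  have hSb : ∀ s ∈ S, s ≤ b := by
    rintro s (rfl | hs)
    · exact h.le
    · exact hs.2.2
  have hbd : BddAbove S := ⟨b, hSb⟩
  have hc : sSup S ∈ Icc a b :=
    ⟨le_csSup hbd (mem_insert _ _), csSup_le (insert_nonempty _ _) hSb⟩
  have h1 : ({s | x < ψ s} ∩ Ioc a b : Set ℝ) =ᵐ[volume] Ioc a (sSup S) := by
    have h2 : ∀ᵐ t : ℝ, t ≠ sSup S := by simp [ae_iff]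
    filter_upwards [h2] with t ht
    refine propext ⟨fun h3 => ⟨h3.2.1, le_csSup hbd (mem_insert_of_mem _ h3)⟩, fun h3 => ?_⟩
    obtain ⟨s, hs, hts⟩ := exists_lt_of_lt_csSup (insert_nonempty _ _) (lt_of_le_of_ne h3.2 ht)
    rcases hs with rfl | hs
    · exact absurd h3.1 (not_lt.2 hts.le)
    · exact ⟨lt_of_lt_of_le hs.1 (hψ hts.le), h3.1, hts.le.trans hs.2.2⟩
  rw [integral_indicator hms, Measure.restrict_restrict hms, setIntegral_congr_set h1,
    ← intervalIntegral.integral_of_le hc.1]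
  linarith [h.eq _ hc, h0 _ hc]

theorem ode2_layer {ψ : ℝ → ℝ} (h : Prim y q a b) (h0 : ∀ t ∈ Icc a b, 0 ≤ y t)
    (hψ : Antitone ψ) (hψ0 : ∀ s, 0 ≤ ψ s) : 0 ≤ y a * ψ a + ∫ s in a..b, q s * ψ s := by
  have hms : MeasurableSet {p : ℝ × ℝ | p.2 < ψ p.1} :=
    measurableSet_lt measurable_snd (hψ.measurable.comp measurable_fst)
  have hint : Integrable ({p : ℝ × ℝ | p.2 < ψ p.1}.indicator fun p => q p.1)
      ((volume.restrict (Ioc a b)).prod (volume.restrict (Ico 0 (ψ a)))) :=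
    (Integrable.comp_fst h.int.1 _).indicator hms
  have h1 : ∫ s in a..b, q s * ψ s = ∫ s in Ioc a b, ∫ x in Ico 0 (ψ a),
      {p : ℝ × ℝ | p.2 < ψ p.1}.indicator (fun p => q p.1) (s, x) := by
    rw [intervalIntegral.integral_of_le h.le]
    refine setIntegral_congr_fun measurableSet_Ioc fun s hs => ?_
    have h2 : (fun x => {p : ℝ × ℝ | p.2 < ψ p.1}.indicator (fun p => q p.1) (s, x))
        = (Iio (ψ s)).indicator fun _ => q s := by
      funext x
      rfl
    have h3 : Iio (ψ s) ∩ Ico 0 (ψ a) = Ico 0 (ψ s) := by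
      ext x
      simp only [mem_inter_iff, mem_Iio, mem_Ico]
      exact ⟨fun h4 => ⟨h4.2.1, h4.1⟩, fun h4 => ⟨h4.2, h4.1, h4.2.trans_le (hψ hs.1.le)⟩⟩
    rw [h2, integral_indicator measurableSet_Iio, Measure.restrict_restrict measurableSet_Iio, h3,
      setIntegral_const, Real.volume_real_Ico_of_le (hψ0 s), sub_zero, smul_eq_mul, mul_comm]
  have h2 : ∫ _ in Ico 0 (ψ a), -y a ≤ ∫ x in Ico 0 (ψ a), ∫ s in Ioc a b,
      {p : ℝ × ℝ | p.2 < ψ p.1}.indicator (fun p => q p.1) (s, x) :=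
    integral_mono (integrable_const _) hint.integral_prod_right fun x => ode2_slice h h0 hψ x
  rw [setIntegral_const, Real.volume_real_Ico_of_le (hψ0 a), sub_zero, smul_eq_mul] at h2
  rw [h1, integral_integral_swap (f := fun s x =>
    {p : ℝ × ℝ | p.2 < ψ p.1}.indicator (fun p => q p.1) (s, x)) hint]
  linarith

/-- A nonnegative primitive against an antitone function. -/
theorem Prim.mul_antitone_le (h : Prim y q a b) (h0 : ∀ t ∈ Icc a b, 0 ≤ y t)
    (hφ : AntitoneOn φ (Icc a b)) : y b * φ b ≤ y a * φ a + ∫ s in a..b, q s * φ s := by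
  have hab := h.le
  set ψ : ℝ → ℝ := fun s => φ (max a (min b s)) - φ b with hψ
  have hmem : ∀ s, max a (min b s) ∈ Icc a b := fun s =>
    ⟨le_max_left _ _, max_le hab (min_le_left _ _)⟩
  have hanti : Antitone ψ := fun s t hst =>
    sub_le_sub_right (hφ (hmem s) (hmem t) (max_le_max le_rfl (min_le_min le_rfl hst))) _
  have hψe : ∀ s ∈ Icc a b, ψ s = φ s - φ b := fun s hs => by
    simp only [hψ, min_eq_right hs.2, max_eq_right hs.1]
  have hψ0 : ∀ s, 0 ≤ ψ s := fun s =>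
    sub_nonneg.2 (hφ (hmem s) (right_mem_Icc.2 hab) (hmem s).2)
  have h1 := ode2_layer h h0 hanti hψ0
  have h2 : ∫ s in a..b, q s * φ s = (∫ s in a..b, q s * ψ s) + (∫ s in a..b, q s) * φ b := by
    rw [← intervalIntegral.integral_mul_const, ← intervalIntegral.integral_add
      (ode2_int h.int hab hanti hψ0) (h.int.mul_const _)]
    refine intervalIntegral.integral_congr fun s hs => ?_
    rw [uIcc_of_le hab] at hs
    simp only [hψe s hs]
    ring
  rw [h2, h.eq b (right_mem_Icc.2 hab)]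
  rw [hψe a (left_mem_Icc.2 hab)] at h1
  linarith

/-- Backward value function. -/
theorem Prim.backward (hab : a ≤ b) (hl : IntervalIntegrable l volume a b)
    (hq : IntervalIntegrable q volume a b)
    (hy : ∀ t, y t = ∫ s in t..b, q s * Real.exp (-∫ u in t..s, l u)) :
    Prim y (fun s => l s * y s - q s) a b := by
  have h0 := Prim.of_integral hab hl 0
  have h1 := h0.comp isOpen_univ (fun _ _ => mem_univ _)
    (fun u _ => Real.hasDerivAt_exp u) Real.continuous_exp.continuousOn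
  have hq' : IntervalIntegrable (fun s => q s * Real.exp (-∫ u in a..s, l u)) volume a b :=
    hq.mul_continuousOn (by
      have := h0.continuousOn.neg.rexp
      simp only [zero_add] at this
      rwa [uIcc_of_le hab])
  have h2 := Prim.of_integral hab hq'.neg (∫ s in a..b, q s * Real.exp (-∫ u in a..s, l u))
  have h3 := h1.mul h2
  simp only [zero_add] at h3
  have h4 : ∀ t ∈ Icc a b, y t = Real.exp (∫ u in a..t, l u) *
      ((∫ s in a..b, q s * Real.exp (-∫ u in a..s, l u))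
        + ∫ s in a..t, (-fun s => q s * Real.exp (-∫ u in a..s, l u)) s) := by
    intro t ht
    have hsub : uIcc a t ⊆ uIcc a b := uIcc_subset_uIcc_left (by rwa [uIcc_of_le hab])
    simp only [Pi.neg_apply]
    rw [intervalIntegral.integral_neg, ← sub_eq_add_neg,
      intervalIntegral.integral_interval_sub_left hq' (hq'.mono_set hsub), hy t,
      ← intervalIntegral.integral_const_mul]
    refine intervalIntegral.integral_congr fun s hs => ?_
    rw [uIcc_of_le ht.2] at hs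
    have hsub' : uIcc a s ⊆ uIcc a b :=
      uIcc_subset_uIcc_left (by rw [uIcc_of_le hab]; exact ⟨ht.1.trans hs.1, hs.2⟩)
    rw [← intervalIntegral.integral_interval_sub_left (hl.mono_set hsub') (hl.mono_set hsub),
      mul_left_comm, ← Real.exp_add]
    congr 2
    ring
  refine h3.congr h4 ?_
  refine (ae_restrict_iff' measurableSet_Ioc).2 (Eventually.of_forall fun t ht => ?_)
  rw [h4 t (Ioc_subset_Icc_self ht)]
  simp only [Pi.neg_apply, Real.exp_neg (∫ u in a..t, l u)]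
  field_simp
  ring

/-- Backward survival factor. -/
theorem Prim.survival (hab : a ≤ b) (hl : IntervalIntegrable l volume a b) (c : ℝ)
    (hy : ∀ t, y t = c * Real.exp (-∫ u in t..b, l u)) :
    Prim y (fun s => l s * y s - 0) a b := by
  have h1 := ((Prim.of_integral hab hl 0).comp isOpen_univ (fun _ _ => mem_univ _)
    (fun u _ => Real.hasDerivAt_exp u) Real.continuous_exp.continuousOn).const_mul
    (c * Real.exp (-∫ u in a..b, l u))
  simp only [zero_add] at h1
  have h4 : ∀ t ∈ Icc a b, y t = c * Real.exp (-∫ u in a..b, l u) *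
      Real.exp (∫ u in a..t, l u) := by
    intro t ht
    have hsub : uIcc a t ⊆ uIcc a b := uIcc_subset_uIcc_left (by rwa [uIcc_of_le hab])
    rw [hy t, ← intervalIntegral.integral_interval_sub_left hl (hl.mono_set hsub), mul_assoc,
      ← Real.exp_add]
    congr 2
    ring
  refine h1.congr h4 ?_
  refine (ae_restrict_iff' measurableSet_Ioc).2 (Eventually.of_forall fun t ht => ?_)
  rw [h4 t (Ioc_subset_Icc_self ht)]
  ring

/-- Probability that the first event is of the distinguished kind. -/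
theorem hazard (hab : a ≤ b) (hl : IntervalIntegrable l volume a b)
    (hr : IntervalIntegrable r volume a b) (h0 : ∀ s ∈ Icc a b, 0 ≤ r s)
    (hrl : ∀ s ∈ Icc a b, r s ≤ l s) {S A : ℝ} (hS : ∫ s in a..b, (l s - r s) ≤ S)
    (hA : A ≤ ∫ s in a..b, r s) :
    Real.exp (-S) * (1 - Real.exp (-A)) ≤ ∫ s in a..b, r s * Real.exp (-∫ u in a..s, l u) := by
  have h0r := Prim.of_integral hab hr 0
  have h0l := Prim.of_integral hab hl 0
  have h1 := h0r.comp isOpen_univ (fun _ _ => mem_univ _)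
    (fun u _ => (hasDerivAt_neg u).exp) (by fun_prop)
  have h2 := h1.eq b (right_mem_Icc.2 hab)
  simp only [zero_add, intervalIntegral.integral_same, neg_zero, Real.exp_zero] at h1 h2
  have h3 : ∫ s in a..b, Real.exp (-S) * -(Real.exp (-∫ u in a..s, r u) * -1 * r s)
      ≤ ∫ s in a..b, r s * Real.exp (-∫ u in a..s, l u) := by
    refine intervalIntegral.integral_mono_on hab (h1.int.neg.const_mul _)
      (hr.mul_continuousOn ?_) fun s hs => ?_
    · have := h0l.continuousOn.neg.rexp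
      simp only [zero_add] at this
      rwa [uIcc_of_le hab]
    · have hsub : uIcc a s ⊆ uIcc a b := uIcc_subset_uIcc_left (by rwa [uIcc_of_le hab])
      have h4 : ∫ u in a..s, (l u - r u) ≤ ∫ u in a..b, (l u - r u) :=
        intervalIntegral.integral_mono_interval le_rfl hs.1 hs.2
          ((ae_restrict_iff' measurableSet_Ioc).2 (Eventually.of_forall fun u hu =>
            sub_nonneg.2 (hrl u (Ioc_subset_Icc_self hu)))) (hl.sub hr)
      rw [intervalIntegral.integral_sub (hl.mono_set hsub) (hr.mono_set hsub)] at h4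
      have h5 : Real.exp (-S) * Real.exp (-∫ u in a..s, r u)
          ≤ Real.exp (-∫ u in a..s, l u) := by
        rw [← Real.exp_add]
        exact Real.exp_le_exp.2 (by linarith)
      calc _ = r s * (Real.exp (-S) * Real.exp (-∫ u in a..s, r u)) := by ring
        _ ≤ _ := mul_le_mul_of_nonneg_left h5 (h0 s hs)
  refine le_trans ?_ h3
  rw [intervalIntegral.integral_const_mul, intervalIntegral.integral_neg]
  refine mul_le_mul_of_nonneg_left ?_ (Real.exp_pos _).le
  have h6 : Real.exp (-∫ s in a..b, r s) ≤ Real.exp (-A) := Real.exp_le_exp.2 (by linarith)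
  linarith

theorem ode2_early {Y Φ I : ℝ → ℝ} {C : ℝ} (ha : 0 < a)
    (h : Prim Y (fun u => Φ u / u + C * I u) a b) (hI : IntervalIntegrable I volume a b)
    (h0 : ∀ t ∈ Icc a b, 0 ≤ Φ t) (h1 : ∀ t ∈ Icc a b, Φ t ≤ Y t) :
    Y b * (b ^ 121)⁻¹ ≤ Y a * (a ^ 121)⁻¹ + C * ∫ u in a..b, (u ^ 121)⁻¹ * I u := by
  have hne : ∀ t ∈ Icc a b, t ^ 121 ≠ 0 := fun t ht => (pow_pos (ha.trans_le ht.1) _).ne'
  have hc : ContinuousOn (fun t : ℝ => (t ^ 121)⁻¹) (Icc a b) :=
    (continuousOn_id.pow 121).inv₀ hne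
  have h2 : Prim (fun t => (t ^ 121)⁻¹) (fun t => -(121 * t ^ 120) / (t ^ 121) ^ 2) a b :=
    Prim.of_hasDerivAt h.le (fun t ht => (hasDerivAt_pow 121 t).fun_inv (hne t ht))
      (ContinuousOn.div (by fun_prop) (by fun_prop) fun t ht => pow_ne_zero _ (hne t ht))
  have h3 := h.mul h2
  rw [h3.eq b (right_mem_Icc.2 h.le), ← intervalIntegral.integral_const_mul]
  refine add_le_add le_rfl (intervalIntegral.integral_mono_on h.le h3.int
    ((hI.continuousOn_mul (by rwa [uIcc_of_le h.le])).const_mul C) fun t ht => ?_)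
  have htp : 0 < t := ha.trans_le ht.1
  have h4 : (Φ t / t + C * I t) * (t ^ 121)⁻¹ + Y t * (-(121 * t ^ 120) / (t ^ 121) ^ 2)
      = C * ((t ^ 121)⁻¹ * I t) - (121 * Y t - Φ t) / t ^ 122 := by
    field_simp
    ring
  rw [h4]
  exact sub_le_self _ (div_nonneg (by linarith [h0 t ht, h1 t ht]) (by positivity))

theorem ode2_late {c : ℝ} (h : Prim y q a b) (h1 : ∀ t ∈ Icc a b, q t ≤ c * y t) :
    y b ≤ y a * Real.exp (c * (b - a)) := by
  have h2 : Prim (fun t => Real.exp (-(c * (t - a))))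
      (fun t => Real.exp (-(c * (t - a))) * -c) a b :=
    Prim.of_hasDerivAt h.le (fun t _ => by
      simpa using (((hasDerivAt_id t).sub_const a).const_mul c).neg.exp) (by fun_prop)
  have h3 := (h.mul h2).eq b (right_mem_Icc.2 h.le)
  have h4 : ∫ t in a..b, (q t * Real.exp (-(c * (t - a)))
      + y t * (Real.exp (-(c * (t - a))) * -c)) ≤ 0 := by
    have h5 := intervalIntegral.integral_mono_on (g := fun _ => (0 : ℝ)) h.le (h.mul h2).int
      intervalIntegrable_const fun t ht => by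
        have h6 := mul_le_mul_of_nonneg_right (h1 t ht) (Real.exp_pos (-(c * (t - a)))).le
        linarith
    simpa using h5
  simp only [sub_self, mul_zero, neg_zero, Real.exp_zero, mul_one] at h3
  calc y b = y b * Real.exp (-(c * (b - a))) * Real.exp (c * (b - a)) := by
        rw [mul_assoc, ← Real.exp_add]
        simp
    _ ≤ _ := mul_le_mul_of_nonneg_right (by linarith) (Real.exp_pos _).le

/-- The real-variable core of the growth estimate. -/
theorem growth_abstract {m Φ Γ I : ℝ → ℝ} {t₀ T₁ Tf lw ζ κ C₁ Cr B H : ℝ} (ht₀ : 0 < t₀)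
    (h01 : t₀ ≤ T₁) (hlw : 1 ≤ lw) (hT : T₁ * lw = Tf) (hζ : 0 < ζ) (hκ : 0 < κ) (hC₁ : 0 < C₁)
    (hCr : 0 ≤ Cr) (hB : 0 ≤ B) (hH : 0 ≤ H) (hI : IntervalIntegrable I volume t₀ Tf)
    (hΦ : IntervalIntegrable Φ volume t₀ Tf)
    (hm : ∀ t ∈ Icc t₀ Tf, 0 ≤ m t ∧ ζ * m t ≤ Φ t)
    (hI0 : ∀ t ∈ Icc t₀ Tf, 0 ≤ I t ∧ I t ≤ Cr / t * m t)
    (hΓ : ∀ s t, t₀ ≤ s → s ≤ t → t ≤ T₁ → Γ s + κ * ∫ u in s..t, (u ^ 121)⁻¹ * I u ≤ Γ t)
    (hΦ' : ∀ s t, t₀ ≤ s → s ≤ t → t ≤ Tf → Φ t ≤ Φ s + ∫ u in s..t, (Φ u / u + C₁ * I u))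
    (hinit : κ / C₁ * ((t₀ ^ 121)⁻¹ * Φ t₀) ≤ Γ t₀) (hfin : Γ T₁ ≤ (T₁ ^ 121)⁻¹ * B * H) :
    ∀ t ∈ Icc t₀ Tf, m t ≤ C₁ / (κ * ζ) * Real.exp ((1 + C₁ * Cr / ζ) * lw) * lw ^ 121 * B
      * (t / Tf) ^ 121 * H := by
  have hT₁ : 0 < T₁ := ht₀.trans_le h01
  have h1f : T₁ ≤ Tf := by rw [← hT]; exact le_mul_of_one_le_right hT₁.le hlw
  have h0f : t₀ ≤ Tf := h01.trans h1f
  have hg : IntervalIntegrable (fun u => Φ u / u + C₁ * I u) volume t₀ Tf := by
    refine IntervalIntegrable.add ?_ (hI.const_mul _)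
    simp only [div_eq_mul_inv]
    refine hΦ.mul_continuousOn (continuousOn_id.inv₀ fun u hu => ?_)
    rw [uIcc_of_le h0f] at hu
    exact (ht₀.trans_le hu.1).ne'
  have hY := Prim.of_integral h0f hg (Φ t₀)
  set Y : ℝ → ℝ := fun t => Φ t₀ + ∫ u in t₀..t, (Φ u / u + C₁ * I u) with hYd
  have hΦY : ∀ t ∈ Icc t₀ Tf, Φ t ≤ Y t := fun t ht => hΦ' t₀ t le_rfl ht.1 ht.2
  have hΦ0 : ∀ t ∈ Icc t₀ Tf, 0 ≤ Φ t := fun t ht =>
    (mul_nonneg hζ.le (hm t ht).1).trans (hm t ht).2
  have hY0 : Y t₀ = Φ t₀ := by simp [hYd]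
  have hA : ∀ t ∈ Icc t₀ T₁, Y t ≤ C₁ / κ * (t / T₁) ^ 121 * B * H := by
    intro t ht
    have htf : t ≤ Tf := ht.2.trans h1f
    have h1 := ode2_early ht₀ (hY.mono le_rfl ht.1 htf)
      (hI.mono_set (uIcc_subset_uIcc_left (by rw [uIcc_of_le h0f]; exact ⟨ht.1, htf⟩)))
      (fun u hu => hΦ0 u ⟨hu.1, hu.2.trans htf⟩) (fun u hu => hΦY u ⟨hu.1, hu.2.trans htf⟩)
    rw [hY0] at h1
    have h2 := hΓ t₀ t le_rfl ht.1 ht.2
    have h3 := hΓ t T₁ ht.1 ht.2 le_rfl
    have h4 : 0 ≤ ∫ u in t..T₁, (u ^ 121)⁻¹ * I u :=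
      intervalIntegral.integral_nonneg ht.2 fun u hu => by
        have h5 : 0 < u := ht₀.trans_le (ht.1.trans hu.1)
        have h6 := (hI0 u ⟨ht.1.trans hu.1, hu.2.trans h1f⟩).1
        positivity
    have h5 : Γ t ≤ (T₁ ^ 121)⁻¹ * B * H := by nlinarith [mul_nonneg hκ.le h4]
    have htp : 0 < t := ht₀.trans_le ht.1
    have h6 : κ / C₁ * (Y t * (t ^ 121)⁻¹) ≤ (T₁ ^ 121)⁻¹ * B * H := by
      calc _ ≤ κ / C₁ * (Φ t₀ * (t₀ ^ 121)⁻¹ + C₁ * ∫ u in t₀..t, (u ^ 121)⁻¹ * I u) :=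
            mul_le_mul_of_nonneg_left h1 (by positivity)
        _ = κ / C₁ * ((t₀ ^ 121)⁻¹ * Φ t₀) + κ * ∫ u in t₀..t, (u ^ 121)⁻¹ * I u := by
            field_simp
        _ ≤ _ := by linarith
    calc Y t = C₁ / κ * t ^ 121 * (κ / C₁ * (Y t * (t ^ 121)⁻¹)) := by field_simp
      _ ≤ C₁ / κ * t ^ 121 * ((T₁ ^ 121)⁻¹ * B * H) :=
          mul_le_mul_of_nonneg_left h6 (by positivity)
      _ = _ := by rw [div_pow]; ring
  have hC3 : 0 ≤ 1 + C₁ * Cr / ζ := by positivity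
  have hE : 1 ≤ Real.exp ((1 + C₁ * Cr / ζ) * lw) := Real.one_le_exp (by positivity)
  have hB' : ∀ t ∈ Icc t₀ Tf, Y t ≤ C₁ / κ * (t / T₁) ^ 121 * B * H
      * Real.exp ((1 + C₁ * Cr / ζ) * lw) := by
    intro t ht
    have htp : 0 < t := ht₀.trans_le ht.1
    rcases le_total t T₁ with h | h
    · exact (hA t ⟨ht.1, h⟩).trans (le_mul_of_one_le_right (by positivity) hE)
    · have h1 := ode2_late (c := (1 + C₁ * Cr / ζ) / T₁) (hY.mono h01 h ht.2) fun u hu => by
        have hu' : u ∈ Icc t₀ Tf := ⟨h01.trans hu.1, hu.2.trans ht.2⟩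
        have hup : 0 < u := hT₁.trans_le hu.1
        have h2 : m u ≤ Φ u / ζ := by rw [le_div_iff₀ hζ]; linarith [(hm u hu').2]
        have h3 := hΦ0 u hu'
        calc Φ u / u + C₁ * I u ≤ Φ u / u + C₁ * (Cr / u * (Φ u / ζ)) := by
              gcongr
              exact (hI0 u hu').2.trans (mul_le_mul_of_nonneg_left h2 (by positivity))
          _ = (1 + C₁ * Cr / ζ) / u * Φ u := by field_simp
          _ ≤ (1 + C₁ * Cr / ζ) / T₁ * Y u :=
              mul_le_mul (div_le_div_of_nonneg_left hC3 hT₁ hu.1) (hΦY u hu') h3 (by positivity)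
      have h2 := hA T₁ ⟨h01, le_rfl⟩
      have h3 : (1 + C₁ * Cr / ζ) / T₁ * (t - T₁) ≤ (1 + C₁ * Cr / ζ) * lw := by
        rw [div_mul_eq_mul_div, mul_div_assoc]
        refine mul_le_mul_of_nonneg_left ?_ hC3
        rw [div_le_iff₀ hT₁]
        linarith [ht.2]
      have h4 : (T₁ / T₁) ^ 121 ≤ (t / T₁) ^ 121 := by gcongr
      have h5 : C₁ / κ * (T₁ / T₁) ^ 121 * B * H ≤ C₁ / κ * (t / T₁) ^ 121 * B * H :=
        mul_le_mul_of_nonneg_right (mul_le_mul_of_nonneg_right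
          (mul_le_mul_of_nonneg_left h4 (div_pos hC₁ hκ).le) hB) hH
      have h6 : 0 ≤ C₁ / κ * (t / T₁) ^ 121 * B * H :=
        mul_nonneg (mul_nonneg (mul_pos (div_pos hC₁ hκ) (pow_pos (div_pos htp hT₁) _)).le hB) hH
      exact h1.trans (mul_le_mul (h2.trans h5) (Real.exp_le_exp.2 h3) (Real.exp_pos _).le h6)
  intro t ht
  have h1 : m t ≤ Y t / ζ := by rw [le_div_iff₀ hζ]; linarith [(hm t ht).2, hΦY t ht]
  refine h1.trans ((div_le_div_of_nonneg_right (hB' t ht) hζ.le).trans (le_of_eq ?_))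
  have h2 : t / T₁ = lw * (t / Tf) := by
    rw [← hT]
    field_simp
  rw [h2, mul_pow]
  field_simp

end

end Vale.Agent.P140
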