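import Vale.Agent.P140.BarB
import Vale.Agent.P140.Ode2

/-! The barrier for label one. -/

namespace Vale.Agent.P140

open MeasureTheory Set Filter Topology
open scoped ENNReal RealInnerProductSpace

noncomputable section

theorem bar_Ub (P M b : ℕ) (c e0 R e1 e2 t : ℝ) (z : Ph) : Ub P M b c e0 R e1 e2 t (fl t z)
    = ENNReal.ofReal (e2 * t) * Sh P M c e0 t (fl t z)
      + ENNReal.ofReal (e1 * om b t (X z.1) z.2) * W c R t (fl t z) := by
  rw [Ub, xi_fl, fl_snd]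

theorem bar_mono {P : ℕ} (hP : 1 ≤ P) (M b : ℕ) {c e0 e1 e2 : ℝ} (R : ℝ) (hc : 0 ≤ c)
    (he : 0 ≤ e0) (h1 : 0 ≤ e1) (h2 : 0 ≤ e2) {s t : ℝ} (hs : 0 < s) (hst : s ≤ t)
    (ht : t ≤ 1 / 8) (z : Ph) :
    Ub P M b c e0 R e1 e2 s (fl s z) ≤ Ub P M b c e0 R e1 e2 t (fl t z) := by
  rw [bar_Ub, bar_Ub]
  exact add_le_add
    (mul_le_mul' (ENNReal.ofReal_le_ofReal (mul_le_mul_of_nonneg_left hst h2))
      (Sh_fl_mono hP M hc he hs hst ht z))
    (mul_le_mul' (ENNReal.ofReal_le_ofReal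
      (mul_le_mul_of_nonneg_left (om_mono b hs.le hst _ _) h1)) (W_fl_mono hc R hs hst z))

theorem bar_low (b : ℕ) (c R : ℝ) {e t₀ t : ℝ} (he : 0 ≤ e) (h0 : 0 ≤ t₀) (ht : t₀ ≤ t) (z : Ph) :
    ENNReal.ofReal (e * (b * t₀ / (1 + b * t₀)) ^ b) * ENNReal.ofReal (Mx z.2)
      ≤ ENNReal.ofReal (e * om b t (X z.1) z.2) * W c R t (fl t z) :=
  mul_le_mul' (ENNReal.ofReal_le_ofReal (mul_le_mul_of_nonneg_left
      ((om_ge b h0 _ _).trans (om_mono b h0 ht _ _)) he))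
    ((ENNReal.ofReal_le_ofReal (Mx_le_mt (h0.trans ht) _)).trans (mt_le_W c R t (fl t z)))

theorem bar_lip {n t₀ : ℝ} {cc h k : ℝ → Ph → ℝ} (hn : 0 < n) (S : Sys n t₀ cc h k) {s t : ℝ}
    (hs : t₀ ≤ s) (hst : s ≤ t) (z : Ph) : ENNReal.ofReal (h t (fl t z))
      ≤ ENNReal.ofReal (h s (fl s z))
        + ENNReal.ofReal (4 * Real.pi * n * n * n * (t - s)) * ENNReal.ofReal (Mx z.2) := by
  refine ((S.primh hn hs hst z).ofReal_le (S.gain1_int hn s t z)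
    (fun u _ => S.gain1_nonneg hn u _)
    (fun u _ => mul_nonneg (lam_nonneg hn (S.tot_nonneg u)) (S.h0 u _))).trans
    (add_le_add le_rfl ?_)
  refine (lintegral_mono fun u => ENNReal.ofReal_le_ofReal (S.gain1_le hn u (fl u z))).trans_eq ?_
  have h1 : 0 ≤ 4 * Real.pi * n * n * n := by positivity
  simp only [fl_snd]
  rw [setLIntegral_const, Real.volume_Ioc, ENNReal.ofReal_mul h1, ENNReal.ofReal_mul h1,
    mul_right_comm]

theorem bar_int {P b : ℕ} (hP : 1 ≤ P) (hb : 1 ≤ b) (M : ℕ) {c e0 e1 e2 : ℝ} (R : ℝ) (hc : 0 ≤ c)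
    (he : 0 ≤ e0) (h1 : 0 ≤ e1) (h2 : 0 ≤ e2) {t₀ t : ℝ} (h0 : 0 < t₀) (ht : t₀ ≤ t)
    (ht' : t ≤ 1 / 8) (z : Ph) {G : ℝ → ℝ≥0∞}
    (hG : ∀ s ∈ Ioc t₀ t, G s ≤ ENNReal.ofReal (e2 / 2) * Sh P M c e0 s (fl s z)
      + ENNReal.ofReal (e1 / 2 * (Dm b s (xi s (fl s z)) z.2 * om b s (xi s (fl s z)) z.2))
        * W c R s (fl s z)) :
    ∫⁻ s in Ioc t₀ t, G s ≤ ENNReal.ofReal (e2 * t) * Sh P M c e0 t (fl t z)
      + ENNReal.ofReal (e1 / 2 * om b t (X z.1) z.2) * W c R t (fl t z) := by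
  have h3 : 0 ≤ e1 / 2 := by positivity
  have hm : Measurable fun s : ℝ =>
      ENNReal.ofReal (Dm b s (X z.1) z.2 * om b s (X z.1) z.2 * mt s z.2) := by
    unfold Dm om ell mt
    fun_prop
  have key : ∀ s ∈ Ioc t₀ t, G s ≤ ENNReal.ofReal (e2 / 2) * Sh P M c e0 t (fl t z)
      + ENNReal.ofReal (Dm b s (X z.1) z.2 * om b s (X z.1) z.2 * mt s z.2)
        * (ENNReal.ofReal (e1 / 2) * Sg c R t (X z.1) z.2) := by
    intro s hs
    have hs0 := h0.trans hs.1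
    refine (hG s hs).trans (add_le_add
      (mul_le_mul_right (Sh_fl_mono hP M hc he hs0 hs.2 ht' z) _) ?_)
    rw [xi_fl, W_fl, ENNReal.ofReal_mul h3, ENNReal.ofReal_mul' (mt_pos s z.2).le]
    calc _ ≤ ENNReal.ofReal (e1 / 2) * ENNReal.ofReal (Dm b s (X z.1) z.2 * om b s (X z.1) z.2)
          * (ENNReal.ofReal (mt s z.2) * Sg c R t (X z.1) z.2) :=
          mul_le_mul_right (mul_le_mul_right (Sg_mono hc R hs0 hs.2 _ _) _) _
      _ = _ := by ring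
  refine (setLIntegral_mono' measurableSet_Ioc key).trans ?_
  rw [lintegral_add_left measurable_const, setLIntegral_const, lintegral_mul_const _ hm,
    Real.volume_Ioc]
  refine add_le_add ?_ ?_
  · rw [mul_right_comm, ← ENNReal.ofReal_mul (by positivity)]
    exact mul_le_mul_left (ENNReal.ofReal_le_ofReal (by nlinarith)) _
  · refine (mul_le_mul_left (lintegral_Dm hb h0 ht _ _) _).trans_eq ?_
    rw [W_fl, ENNReal.ofReal_mul h3, ENNReal.ofReal_mul' (mt_pos t z.2).le]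
    ring

theorem bar {c K R : ℝ} (M : ℕ) (hc : 0 < c) (hc' : c ≤ 1 / 2) (hK : 0 < K) (hR : 3 ≤ R) :
    ∃ sb : ℝ, 0 < sb ∧ sb ≤ 1 / 100 ∧ ∀ e0 ∈ Ioc (0 : ℝ) sb, ∀ t₀ ∈ Ioc (0 : ℝ) sb,
      ∃ θb : ℝ, 0 < θb ∧ ∀ (r1 n : ℝ) (cc h k : ℝ → Ph → ℝ), CP.Ok ⟨c, K, M, e0, r1⟩ → 0 < n →
        Sys n t₀ cc h k → (∀ z, cc t₀ z = cf ⟨c, K, M, e0, r1⟩ t₀ z) →
        (∀ z : Ph, h t₀ z ≤ θb * Mx z.2) → ∀ t ∈ Icc t₀ sb, ∀ z : Ph,
          ENNReal.ofReal (h t z)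
            ≤ Nar c e0 t z + ENNReal.ofReal (2 * e0 ^ 50) * W c R t z := by
  obtain ⟨P, b, C₂, s₁, hP, hb, hbP, hC₂, hs₁, hs₁', hpt⟩ := bar_pointwise M hc hc' hK hR
  obtain ⟨A, s₂, hA, hs₂, hfib⟩ := Ub_fiber hc hc' M R (by omega : 3 ≤ P) hb hbP hC₂
  have hAC : 0 < A * C₂ := by positivity
  obtain ⟨sb, hsb, l1, l2, l3⟩ : ∃ sb : ℝ, 0 < sb ∧ sb ≤ s₁ ∧ sb ≤ s₂ ∧ sb ≤ 1 / (A * C₂) :=
    ⟨min s₁ (min s₂ (1 / (A * C₂))), by positivity, min_le_left _ _,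
      (min_le_right _ _).trans (min_le_left _ _), (min_le_right _ _).trans (min_le_right _ _)⟩
  refine ⟨sb, hsb, l1.trans hs₁', fun e0 he t₀ ht₀ => ?_⟩
  have he0 := he.1
  have h0 := ht₀.1
  have he1 : e0 ≤ 1 := by linarith [he.2]
  have hb0 : (0 : ℝ) < b := Nat.cast_pos.2 hb
  have hP1 : 1 ≤ P := by omega
  have hE : 0 < e0 ^ P := by positivity
  have hE2 : 0 < C₂ * e0 := by positivity
  refine ⟨e0 ^ P / 2 * (b * t₀ / (1 + b * t₀)) ^ b, by positivity,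
    fun r1 n cc h k hok hn S hcc hh => ?_⟩
  have hinit : ∀ t, t₀ ≤ t → ∀ z : Ph, ENNReal.ofReal (h t₀ (fl t₀ z))
      ≤ ENNReal.ofReal (e0 ^ P / 2 * om b t (X z.1) z.2) * W c R t (fl t z) := fun t ht z => by
    refine le_trans ?_ (bar_low b c R (by positivity) h0.le ht z)
    rw [← ENNReal.ofReal_mul (by positivity)]
    exact ENNReal.ofReal_le_ofReal (hh (fl t₀ z))
  have hhalf : ∀ t, t₀ ≤ t → ∀ z : Ph, ENNReal.ofReal (e0 ^ P * om b t (X z.1) z.2)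
      = ENNReal.ofReal (e0 ^ P / 2 * om b t (X z.1) z.2)
        + ENNReal.ofReal (e0 ^ P / 2 * om b t (X z.1) z.2) := fun t ht z => by
    have h1 : 0 ≤ e0 ^ P / 2 * om b t (X z.1) z.2 :=
      mul_nonneg (by positivity) (om_mem b (h0.le.trans ht) _ _).1
    rw [← ENNReal.ofReal_add h1 h1]
    congr 1
    ring
  have main := boot (y := fun (z : Ph) s => ENNReal.ofReal (h s (fl s z)))
    (U := fun z s => Ub P M b c e0 R (e0 ^ P) (C₂ * e0) s (fl s z))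
    (m := fun z => ENNReal.ofReal (Mx z.2)) (a := t₀) (b := sb)
    (μ := e0 ^ P * (b * t₀ / (1 + b * t₀)) ^ b) (L := 4 * Real.pi * n * n * n)
    (by positivity) (by positivity)
    (fun z s t hs hst ht => bar_mono hP1 M b R hc.le he0.le hE.le hE2.le (h0.trans_le hs) hst
      (by linarith) z)
    (fun z t ht => by
      rw [bar_Ub]
      exact (bar_low b c R hE.le h0.le ht.1 z).trans le_add_self)
    (fun z s t hs hst _ => bar_lip hn S hs hst z)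
    (fun z => by
      rw [bar_Ub, hhalf t₀ le_rfl, add_mul]
      exact (hinit t₀ le_rfl z).trans (le_add_self.trans le_add_self))
    (fun t ht H z => by
      refine (S.h_le hn le_rfl ht.1 z).trans ((add_le_add (hinit t ht.1 z)
        (bar_int hP1 hb M R hc.le he0.le hE.le hE2.le h0 ht.1 (by linarith [ht.2]) z
          fun s hs => hpt e0 r1 hok (he.2.trans l1) s
            ⟨h0.trans hs.1, hs.2.trans (ht.2.trans l1)⟩ (fl s z).1 z.2 _ fun w => ?_)).trans_eq ?_)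
      · have h1 := H s ⟨hs.1.le, hs.2⟩ (fl (-s) ((fl s z).1, w))
        rw [fl_fl_neg] at h1
        exact ENNReal.ofReal_add_le.trans
          (add_le_add (ENNReal.ofReal_le_ofReal (S.c_le_cf hn hcc hs.1.le _)) h1)
      · rw [bar_Ub, hhalf t ht.1, add_mul, add_left_comm])
  intro t ht z
  have ht0 : 0 < t := h0.trans_le ht.1
  obtain ⟨σ, hσ, hsec⟩ : ∃ σ : ℝ, (σ = 1 ∨ σ = -1) ∧ 0 ≤ sec M σ (X z.1) := by
    rcases le_total 0 (sec M 1 (X z.1)) with h1 | h1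
    · exact ⟨1, Or.inl rfl, h1⟩
    · exact ⟨-1, Or.inr rfl, by rw [sec_neg]; exact neg_nonneg.2 h1⟩
  have h1 := main t ht (fl (-t) z)
  rw [fl_fl_neg] at h1
  refine h1.trans ((hfib e0 ⟨he0, he1⟩ t ⟨ht0, ht.2.trans l2⟩ z.1 σ hσ hsec z.2).trans
    (add_le_add ?_ (mul_le_mul_left (ENNReal.ofReal_le_ofReal ?_) _)))
  · have h2 : A * (C₂ * e0 * t) ≤ 1 := by
      have h3 := (le_div_iff₀ hAC).1 (ht.2.trans l3)
      nlinarith [mul_pos ht0 hAC]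
    refine (mul_le_of_le_one_left' (ENNReal.ofReal_le_one.2 h2)).trans
      ((Nf_le_Nf hP (Ef_nonneg he0.le _) (le_max_left _ _) _ _).trans ?_)
    rcases hσ with rfl | rfl
    · exact le_self_add
    · exact le_add_self
  · exact (mul_le_of_le_one_right (by positivity) (om_mem b ht0.le _ _).2).trans
      (mul_le_mul_of_nonneg_left (pow_le_pow_of_le_one he0.le he1 hP) two_pos.le)

end

end Vale.Agent.P140
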