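import Vale.Agent.P140.ApprApi

/-! The entropy inequality for the regularized equation. -/

namespace Vale.Agent.P140

open MeasureTheory Set Filter Topology
open scoped ENNReal RealInnerProductSpace

noncomputable section

variable {n G : ℝ} {F : ℝ → Ph → ℝ}

theorem hth_log (hn : 0 < n) (hG : 0 ≤ G) :
    Real.log (1 + G / n) = Real.log (n + G) - Real.log n := by
  rw [← Real.log_div (by positivity) hn.ne']
  congr 1
  field_simp

theorem eta_tangent (hn : 0 < n) (hG : 0 ≤ G) {ζ : ℝ} (hζ : 0 < ζ) :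
    eta n ζ + Real.log (ζ / (1 + ζ / n)) * (G - ζ) ≤ eta n G := by
  have hG' : 0 < n + G := by linarith
  have hζ' : 0 < n + ζ := by linarith
  have hr : 0 < (n + G) / (n + ζ) := div_pos hG' hζ'
  have h2 := Real.log_le_sub_one_of_pos hr
  have h1 : G * (Real.log ζ + Real.log ((n + G) / (n + ζ)) - Real.log G) ≤
      ζ * ((n + G) / (n + ζ)) - G := by
    rcases hG.eq_or_lt with rfl | hG
    · simpa using (mul_pos hζ hr).le
    · have h3 := Real.log_le_sub_one_of_pos (div_pos (mul_pos hζ hr) hG)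
      rw [Real.log_div (mul_pos hζ hr).ne' hG.ne', Real.log_mul hζ.ne' hr.ne'] at h3
      have h4 := mul_le_mul_of_nonneg_left h3 hG.le
      rwa [mul_sub G (_ / G), mul_div_cancel₀ _ hG.ne', mul_one] at h4
  have h3 : (n + ζ) * ((n + G) / (n + ζ)) = n + G := mul_div_cancel₀ _ hζ'.ne'
  have h4 := mul_le_mul_of_nonneg_left h2 hn.le
  rw [Real.log_div hζ.ne' (by positivity), eta, eta, hth_log hn hG, hth_log hn hζ.le]
  generalize (n + G) / (n + ζ) = r at h1 h3 h4 hr h2 ⊢
  have h5 : Real.log (n + G) = Real.log (n + ζ) + Real.log r := by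
    rw [← h3, Real.log_mul hζ'.ne' hr.ne']
  rw [h5]
  nlinarith

theorem eta_add_one_nonneg (hn : 2 ≤ n) (hG : 0 ≤ G) : 0 ≤ eta n G + 1 := by
  have h0 : 0 < n - 1 := by linarith
  have hn0 : 0 < n := by linarith
  have h1 := eta_tangent hn0 hG (div_pos hn0 h0)
  have h2 : 1 + n / (n - 1) / n = n / (n - 1) := by field_simp; ring
  rw [eta, h2, div_self (div_pos hn0 h0).ne', Real.log_one] at h1
  have h3 := Real.log_le_sub_one_of_pos (div_pos hn0 h0)
  have h4 : n * (n / (n - 1) - 1) ≤ 2 := by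
    have : n * (n / (n - 1) - 1) = n / (n - 1) := by field_simp; ring
    rw [this, div_le_iff₀ h0]
    linarith
  nlinarith

theorem eta_le (hn : 0 < n) (hG : 0 ≤ G) : eta n G ≤ G * Real.log G - G + 1 := by
  have h1 := Real.one_sub_inv_le_log_of_pos (x := 1 + G / n) (by positivity)
  have h2 : (n + G) * (1 - (1 + G / n)⁻¹) = G := by field_simp; ring
  have h3 := mul_le_mul_of_nonneg_left h1 (by positivity : 0 ≤ n + G)
  rw [eta]
  linarith

theorem eta_tail {L : ℝ} (hL : 0 < L) (hG : L ≤ G) (hn : L ≤ n) :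
    G * (Real.log (L / 2) - 1) ≤ eta n G := by
  have hn0 : 0 < n := by linarith
  have hG0 : 0 < G := by linarith
  have h1 := Real.log_le_sub_one_of_pos (x := 1 + G / n) (by positivity)
  have h2 : n * (1 + G / n - 1) = G := by field_simp; ring
  have h3 : Real.log (L / 2) ≤ Real.log (G / (1 + G / n)) := by
    refine Real.log_le_log (by positivity) ?_
    have h4 : L * (G / n) ≤ G := by
      rw [← mul_div_assoc, div_le_iff₀ hn0]
      nlinarith
    rw [le_div_iff₀ (by positivity)]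
    linarith
  rw [Real.log_div hG0.ne' (by positivity)] at h3
  rw [eta]
  nlinarith

theorem jd_of_pos {a b : ℝ} (ha : 0 < a) (hb : 0 < b) :
    jd a b = ENNReal.ofReal ((a - b) * Real.log (a / b)) := by
  rw [jd]
  split_ifs with h1 h2
  · simp [h1]
  · exact absurd h2 (not_or.2 ⟨ha.ne', hb.ne'⟩)
  · rfl

theorem jd_aux_nonneg {a b : ℝ} (ha : 0 < a) (hb : 0 < b) : 0 ≤ (a - b) * Real.log (a / b) := by
  rcases le_total a b with h | h
  · exact mul_nonneg_of_nonpos_of_nonpos (sub_nonpos.2 h)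
      (Real.log_nonpos (by positivity) ((div_le_one hb).2 h))
  · exact mul_nonneg (sub_nonneg.2 h) (Real.log_nonneg ((one_le_div hb).2 h))

theorem hth_deriv (hn : 0 < n) (hG : 0 < G) :
    HasDerivAt (eta n) (Real.log (G / (1 + G / n))) G := by
  have h1 := (hasDerivAt_id G).mul (Real.hasDerivAt_log hG.ne')
  have h2 := ((hasDerivAt_id G).const_add n).mul
    ((((hasDerivAt_id G).div_const n).const_add 1).log (by simp only [id]; positivity))
  refine ((h1.sub h2).add_const 1).congr_deriv ?_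
  rw [Real.log_div hG.ne' (by positivity)]
  simp only [id]
  field_simp
  ring

theorem hth_bound {a : ℝ} (hn : 0 < n) (ha : 0 < a) (C : ℝ) :
    ∃ B : ℝ, ∀ G, a ≤ G → G ≤ C → |Real.log (G / (1 + G / n))| ≤ B := by
  have hc : ContinuousOn (fun G : ℝ => Real.log (G / (1 + G / n))) (Icc a C) :=
    ContinuousOn.log (continuousOn_id.div (by fun_prop) fun u hu => by
      have := ha.trans_le hu.1; positivity) fun u hu => by have := ha.trans_le hu.1; positivity
  obtain ⟨B, hB⟩ := isCompact_Icc.exists_bound_of_continuousOn hc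
  exact ⟨B, fun G h1 h2 => hB G ⟨h1, h2⟩⟩

theorem hth_mM : Measurable fun z : Ph => ENNReal.ofReal (Mx z.2) :=
  (continuous_Mx.measurable.comp measurable_snd).ennreal_ofReal

theorem hth_Hm (h : Appr n F) : Hm (F 0) < ⊤ := by
  obtain ⟨C, hC⟩ := h.upp 0
  have h1 : Hm (F 0) ≤ ∫⁻ z : Ph, ENNReal.ofReal (C ^ 2 + 1) * ENNReal.ofReal (Mx z.2) := by
    refine lintegral_mono fun z => ?_
    rw [← ENNReal.ofReal_mul (by positivity)]
    refine ENNReal.ofReal_le_ofReal ?_
    have hM := Mx_pos z.2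
    have a0 : 0 ≤ F 0 z / Mx z.2 := div_nonneg (h.nonneg 0 z) hM.le
    have a1 : F 0 z / Mx z.2 ≤ C := (div_le_iff₀ hM).2 (hC 0 (left_mem_Icc.2 le_rfl) z)
    have a2 : F 0 z = F 0 z / Mx z.2 * Mx z.2 := (div_mul_cancel₀ _ hM.ne').symm
    have a3 := Real.log_le_self a0
    generalize F 0 z / Mx z.2 = G at a0 a1 a2 a3 ⊢
    have a4 : G * Real.log G ≤ C ^ 2 := by nlinarith
    rw [a2]
    nlinarith
  rw [lintegral_const_mul' _ _ ENNReal.ofReal_ne_top, lintegral_Mx_Ph, mul_one] at h1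
  exact h1.trans_lt ENNReal.ofReal_lt_top

/-- The entropy production density. -/
def hthK (n : ℝ) (g : Ph → ℝ) (z : Ph) : ℝ :=
  (gainN n g g z - g z * rateN n g z) * Real.log (g z / Mx z.2)

theorem hth_vel {f : V → ℝ} {B : ℝ} (hn : 0 < n) (hm : Measurable f) (hp : ∀ v, 0 < f v)
    (hA : ∀ v, f v ≤ n * Mx v) (hB : ∀ v, |Real.log (f v / Mx v)| ≤ B) :
    0 ≤ -∫ v, (QN n f f v - f v * nuN n f v) * Real.log (f v / Mx v) ∧
    ENNReal.ofReal (-∫ v, (QN n f f v - f v * nuN n f v) * Real.log (f v / Mx v)) =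
      4⁻¹ * ∫⁻ v, ∫⁻ w, ∫⁻ ω, ENNReal.ofReal (Bn n v w ω) *
        jd (f (vp v w ω) * f (wp v w ω)) (f v * f w) ∂sig := by
  have hB0 : 0 ≤ B := (abs_nonneg _).trans (hB 0)
  have hφ : Measurable fun v => Real.log (f v / Mx v) := (hm.div continuous_Mx.measurable).log
  have hb : BddV n f := ⟨hm, fun v => by rw [abs_of_pos (hp v)]; exact hA v⟩
  rw [weak_sym (C := B) hn.le hb hφ fun v => (hB v).trans
    (le_mul_of_one_le_right hB0 (one_le_pow₀ (by linarith [norm_nonneg v]))), neg_neg]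
  have hD : ∀ v w ω, Real.log (f (vp v w ω) / Mx (vp v w ω)) +
      Real.log (f (wp v w ω) / Mx (wp v w ω)) - Real.log (f v / Mx v) - Real.log (f w / Mx w) =
      Real.log (f (vp v w ω) * f (wp v w ω) / (f v * f w)) := fun v w ω => by
    have h1 := congrArg Real.log (Mx_post v w ω)
    rw [Real.log_mul (Mx_pos _).ne' (Mx_pos _).ne', Real.log_mul (Mx_pos _).ne' (Mx_pos _).ne'] at h1
    rw [Real.log_div (mul_pos (hp _) (hp _)).ne' (mul_pos (hp _) (hp _)).ne',
      Real.log_mul (hp _).ne' (hp _).ne', Real.log_mul (hp _).ne' (hp _).ne',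
      Real.log_div (hp _).ne' (Mx_pos _).ne', Real.log_div (hp _).ne' (Mx_pos _).ne',
      Real.log_div (hp _).ne' (Mx_pos _).ne', Real.log_div (hp _).ne' (Mx_pos _).ne']
    linarith
  have hD' : ∀ v w ω, |Real.log (f (vp v w ω) * f (wp v w ω) / (f v * f w))| ≤ 4 * B :=
    fun v w ω => by
      rw [← hD, abs_le]
      obtain ⟨a1, a2⟩ := abs_le.1 (hB (vp v w ω))
      obtain ⟨a3, a4⟩ := abs_le.1 (hB (wp v w ω))
      obtain ⟨a5, a6⟩ := abs_le.1 (hB v)
      obtain ⟨a7, a8⟩ := abs_le.1 (hB w)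
      constructor <;> linarith
  simp only [hD, mul_assoc (Bn n _ _ _)]
  have h0 : ∀ p : (V × V) × S2, 0 ≤ Bn n p.1.1 p.1.2 p.2 *
      ((f (vp p.1.1 p.1.2 p.2) * f (wp p.1.1 p.1.2 p.2) - f p.1.1 * f p.1.2) *
        Real.log (f (vp p.1.1 p.1.2 p.2) * f (wp p.1.1 p.1.2 p.2) / (f p.1.1 * f p.1.2))) :=
    fun p => mul_nonneg (Bn_nonneg _ _ _ _)
      (jd_aux_nonneg (mul_pos (hp _) (hp _)) (mul_pos (hp _) (hp _)))
  have m1 : Measurable fun p : (V × V) × S2 =>
      f (vp p.1.1 p.1.2 p.2) * f (wp p.1.1 p.1.2 p.2) :=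
    (hm.comp (measurable_vp measurable_fst.fst measurable_fst.snd measurable_snd)).mul
      (hm.comp (measurable_wp measurable_fst.fst measurable_fst.snd measurable_snd))
  have m2 : Measurable fun p : (V × V) × S2 => f p.1.1 * f p.1.2 :=
    (hm.comp measurable_fst.fst).mul (hm.comp measurable_fst.snd)
  have hI : Integrable (fun p : (V × V) × S2 => Bn n p.1.1 p.1.2 p.2 *
      ((f (vp p.1.1 p.1.2 p.2) * f (wp p.1.1 p.1.2 p.2) - f p.1.1 * f p.1.2) *
        Real.log (f (vp p.1.1 p.1.2 p.2) * f (wp p.1.1 p.1.2 p.2) / (f p.1.1 * f p.1.2))))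
      ((volume.prod volume).prod sig) := by
    refine (((integrable_Mx.mul_prod integrable_Mx).comp_fst sig).const_mul
      (n * (n * n) * (4 * B))).mono' ((measurable_Bn n measurable_fst.fst measurable_fst.snd
        measurable_snd).mul ((m1.sub m2).mul (m1.div m2).log)).aestronglyMeasurable
      (Eventually.of_forall fun p => ?_)
    have b1 : ∀ v w, f v * f w ≤ n * n * (Mx v * Mx w) := fun v w => by
      have := mul_le_mul (hA v) (hA w) (hp w).le ((hp v).le.trans (hA v))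
      linarith
    have b2 := b1 (vp p.1.1 p.1.2 p.2) (wp p.1.1 p.1.2 p.2)
    rw [Mx_post] at b2
    have b3 : |f (vp p.1.1 p.1.2 p.2) * f (wp p.1.1 p.1.2 p.2) - f p.1.1 * f p.1.2| ≤
        n * n * (Mx p.1.1 * Mx p.1.2) := by
      rw [abs_le]
      constructor <;> linarith [b1 p.1.1 p.1.2, mul_pos (hp p.1.1) (hp p.1.2),
        mul_pos (hp (vp p.1.1 p.1.2 p.2)) (hp (wp p.1.1 p.1.2 p.2))]
    rw [Real.norm_eq_abs, abs_mul, abs_mul, abs_of_nonneg (Bn_nonneg _ _ _ _)]
    calc _ ≤ n * (n * n * (Mx p.1.1 * Mx p.1.2) * (4 * B)) :=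
          mul_le_mul (Bn_le _ _ _ hn.le) (mul_le_mul b3 (hD' _ _ _) (abs_nonneg _)
            ((abs_nonneg _).trans b3)) (by positivity) hn.le
      _ = _ := by ring
  refine ⟨mul_nonneg (by norm_num) (integral_nonneg h0), ?_⟩
  rw [ENNReal.ofReal_mul (by norm_num), ofReal_integral_eq_lintegral_ofReal hI
    (Eventually.of_forall h0), lintegral_three, ENNReal.ofReal_inv_of_pos (by norm_num),
    ENNReal.ofReal_ofNat]
  · congr 1
    refine lintegral_congr fun p => ?_
    rw [ENNReal.ofReal_mul (Bn_nonneg _ _ _ _),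
      jd_of_pos (mul_pos (hp _) (hp _)) (mul_pos (hp _) (hp _))]
  · have a1 : Measurable fun p : V × V × S2 => p.2.1 := measurable_snd.fst
    have a2 : Measurable fun p : V × V × S2 => p.2.2 := measurable_snd.snd
    exact (measurable_Bn n measurable_fst a1 a2).ennreal_ofReal.mul (measurable_jd.comp
      (((hm.comp (measurable_vp measurable_fst a1 a2)).mul
        (hm.comp (measurable_wp measurable_fst a1 a2))).prodMk
        ((hm.comp measurable_fst).mul (hm.comp a1))))

theorem hth_slice {g : Ph → ℝ} {B : ℝ} (hn : 0 < n) (hm : Measurable g) (hp : ∀ z, 0 < g z)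
    (hA : ∀ z : Ph, g z ≤ n * Mx z.2) (hB : ∀ z : Ph, |Real.log (g z / Mx z.2)| ≤ B)
    (hK : Integrable (hthK n g)) :
    0 ≤ -∫ z, hthK n g z ∧ ENNReal.ofReal (-∫ z, hthK n g z) = DisN n g := by
  have h1 : ∀ x : T3, 0 ≤ -∫ v, hthK n g (x, v) ∧
      ENNReal.ofReal (-∫ v, hthK n g (x, v)) = 4⁻¹ * ∫⁻ v, EN n g (x, v) := fun x =>
    hth_vel (f := sl g x) hn (hm.comp measurable_prodMk_left) (fun v => hp _)
      (fun v => hA (x, v)) fun v => hB (x, v)
  rw [Measure.volume_eq_prod] at hK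
  rw [Measure.volume_eq_prod, integral_prod _ hK, ← integral_neg]
  refine ⟨integral_nonneg fun x => (h1 x).1, ?_⟩
  rw [ofReal_integral_eq_lintegral_ofReal hK.integral_prod_left.fun_neg
    (Eventually.of_forall fun x => (h1 x).1), DisN, Measure.volume_eq_prod, lintegral_prod _
      (measurable_EN n (g := fun _ : Ph => g) (hm.comp measurable_snd)
        measurable_id').aemeasurable,
    ← lintegral_const_mul' _ _ (by norm_num)]
  exact lintegral_congr fun x => (h1 x).2

/-- The entropy inequality. -/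
theorem Appr.entropy (hn : 2 ≤ n) (h : Appr n F) {t : ℝ} (ht : 0 ≤ t) :
    HN n (F t) + ∫⁻ s in Ioc 0 t, DisN n (til n (F s)) ≤ Hm (F 0) + 1 := by
  have hn0 : 0 < n := by linarith
  obtain ⟨a, ha, hlow⟩ := h.low t
  obtain ⟨C, hupp⟩ := h.upp t
  have hpos : ∀ s ∈ Icc 0 t, ∀ z : Ph, 0 < F s z := fun s hs z =>
    (mul_pos ha (Mx_pos _)).trans_le (hlow s hs z)
  obtain ⟨B, hB⟩ := hth_bound hn0 ha C
  have hlog : ∀ s ∈ Icc 0 t, ∀ z : Ph, |Real.log (til n (F s) z / Mx z.2)| ≤ B := fun s hs z => by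
    rw [til_div hn0 (h.nonneg s z)]
    exact hB _ ((le_div_iff₀ (Mx_pos _)).2 (hlow s hs z))
      ((div_le_iff₀ (Mx_pos _)).2 (hupp s hs z))
  have hMm : Measurable fun z : Ph => Mx z.2 := continuous_Mx.measurable.comp measurable_snd
  have hMi : Integrable fun z : Ph => Mx z.2 := by simpa using integrable_pow_Mx_Ph 0
  have hFm : Measurable fun p : (ℝ × Ph) × Ph => F p.1.1 p.2 :=
    h.meas.comp (measurable_fst.fst.prodMk measurable_snd)
  have hgm : Measurable fun p : (ℝ × Ph) × Ph => til n (F p.1.1) p.2 :=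
    measurable_til n (F := fun p : (ℝ × Ph) × Ph => F p.1.1)
      (h.meas.comp (measurable_fst.fst.fst.prodMk measurable_snd)) measurable_snd
  have hKm : Measurable fun p : ℝ × Ph => hthK n (til n (F p.1)) p.2 := by
    have h1 := measurable_gainN n (f := fun p : ℝ × Ph => til n (F p.1))
      (g := fun p : ℝ × Ph => til n (F p.1)) hgm hgm measurable_snd
    have h2 := measurable_rateN n (g := fun p : ℝ × Ph => til n (F p.1)) hgm measurable_snd
    have h3 := measurable_til n (F := fun p : ℝ × Ph => F p.1) hFm measurable_snd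
    exact (h1.sub (h3.mul h2)).mul (h3.div (hMm.comp measurable_snd)).log
  have hae : ∀ᵐ p ∂(mu3 t), p.1 ∈ Ioc 0 t :=
    Measure.quasiMeasurePreserving_fst.ae (ae_restrict_mem measurableSet_Ioc)
  have hK : Integrable (fun p : ℝ × Ph => hthK n (til n (F p.1)) p.2) (mu3 t) := by
    refine ((hMi.comp_snd _).const_mul (8 * Real.pi * n * n * n * B)).mono'
      hKm.aestronglyMeasurable ?_
    filter_upwards [hae] with p hp
    have a1 := hlog p.1 (Ioc_subset_Icc_self hp) p.2
    have a2 := h.gain_nonneg hn0 p.1 p.2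
    have a3 := h.gain_le hn0 p.1 p.2
    have a4 := abs_nuN_le hn0.le (bddV_til hn0 (h.meas_t p.1) (h.nonneg p.1) p.2.1) p.2.2
    have a5 : |til n (F p.1) p.2| ≤ n * Mx p.2.2 := by
      rw [abs_of_nonneg (til_nonneg hn0 (h.nonneg _ _))]
      exact til_le_Mx hn0 (h.nonneg _ _)
    have a6 : |til n (F p.1) p.2 * rateN n (til n (F p.1)) p.2| ≤
        n * Mx p.2.2 * (4 * Real.pi * n * n) := by
      rw [abs_mul]
      exact mul_le_mul a5 a4 (abs_nonneg _) ((abs_nonneg _).trans a5)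
    have a7 := abs_sub (gainN n (til n (F p.1)) (til n (F p.1)) p.2)
      (til n (F p.1) p.2 * rateN n (til n (F p.1)) p.2)
    rw [abs_of_nonneg a2] at a7
    rw [hthK, Real.norm_eq_abs, abs_mul]
    calc _ ≤ (8 * Real.pi * n * n * n * Mx p.2.2) * B :=
          mul_le_mul (by linarith) a1 (abs_nonneg _) (by have := Mx_pos p.2.2; positivity)
      _ = _ := by ring
  have hP : ∀ z : Ph, Prim (fun s => Mx z.2 * (eta n (F s (fl s z) / Mx z.2) + 1))
      (fun s => hthK n (til n (F s)) (fl s z)) 0 t := fun z => by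
    have hM := Mx_pos z.2
    have h1 := ((((h.prim hn0 ht z).const_mul (Mx z.2)⁻¹).comp (β := fun G => eta n G + 1)
      isOpen_Ioi (fun s hs => mul_pos (inv_pos.2 hM) (hpos s hs _))
      (fun u hu => (hth_deriv hn0 hu).add_const 1) (ContinuousOn.log (continuousOn_id.div
        (by fun_prop) fun u (hu : 0 < u) => by positivity)
        fun u (hu : 0 < u) => by positivity)).const_mul (Mx z.2))
    refine h1.congr (fun s _ => by rw [inv_mul_eq_div]) (Eventually.of_forall fun s => ?_)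
    rw [hthK, til_div hn0 (h.nonneg s _), lam_mul, fl_snd, inv_mul_eq_div, inv_mul_eq_div]
    have : reg n (F s) (F s) = til n (F s) := rfl
    rw [this]
    field_simp
  have hY0 : ∀ s z, 0 ≤ Mx z.2 * (eta n (F s z / Mx z.2) + 1) := fun s (z : Ph) =>
    mul_nonneg (Mx_pos _).le (eta_add_one_nonneg hn (div_nonneg (h.nonneg s z) (Mx_pos _).le))
  have hle : ∀ z : Ph, Mx z.2 * (eta n (F 0 z / Mx z.2) + 1) ≤
      (F 0 z * Real.log (F 0 z / Mx z.2) - F 0 z + Mx z.2) + Mx z.2 := fun z => by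
    have hM := Mx_pos z.2
    have h1 := mul_le_mul_of_nonneg_left (eta_le hn0 (div_nonneg (h.nonneg 0 z) hM.le)) hM.le
    have h2 : Mx z.2 * (F 0 z / Mx z.2) = F 0 z := mul_div_cancel₀ _ hM.ne'
    rw [mul_add, mul_sub, ← mul_assoc, h2] at h1
    linarith
  have hle' : ∫⁻ z : Ph, ENNReal.ofReal (Mx z.2 * (eta n (F 0 z / Mx z.2) + 1)) ≤ Hm (F 0) + 1 := by
    rw [← lintegral_Mx_Ph, Hm, ← lintegral_add_right _ hMm.ennreal_ofReal]
    exact lintegral_mono fun z => (ENNReal.ofReal_le_ofReal (hle z)).trans ENNReal.ofReal_add_le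
  have hI0 : Integrable fun z : Ph => Mx z.2 * (eta n (F 0 z / Mx z.2) + 1) := by
    refine ⟨Measurable.aestronglyMeasurable ?_, ?_⟩
    · have h1 := (h.meas_t 0).div hMm
      exact hMm.mul ((((h1.mul h1.log).sub ((h1.const_add n).mul
        ((h1.div_const n).const_add 1).log)).add_const 1).add_const 1)
    · rw [hasFiniteIntegral_iff_ofReal (Eventually.of_forall (hY0 0))]
      exact hle'.trans_lt (ENNReal.add_lt_top.2 ⟨hth_Hm h, ENNReal.one_lt_top⟩)
  obtain ⟨hI, hE⟩ := Prim.integral_family (μ := (volume : Measure Ph))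
    (Y := fun s z => Mx z.2 * (eta n (F s (fl s z) / Mx z.2) + 1))
    (Q := fun s z => hthK n (til n (F s)) (fl s z)) (Eventually.of_forall hP) ht
    ((integrable_flST _).2 hK) (by simpa only [fl_zero] using hI0)
  rw [integral_flST _ fun p => hthK n (til n (F p.1)) p.2, integral_prod _ hK] at hE
  simp only [fl_zero] at hE
  have hD : ∀ᵐ s ∂(muT t), 0 ≤ -∫ z, hthK n (til n (F s)) z ∧
      ENNReal.ofReal (-∫ z, hthK n (til n (F s)) z) = DisN n (til n (F s)) := by
    filter_upwards [hK.prod_right_ae, ae_restrict_mem measurableSet_Ioc] with s h1 hs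
    refine hth_slice hn0 (measurable_til n (F := fun _ : Ph => F s)
      ((h.meas_t s).comp measurable_snd) measurable_id)
      (fun z => mul_pos (th_pos hn0 (h.nonneg s z)) (hpos s (Ioc_subset_Icc_self hs) z))
      (fun z => til_le_Mx hn0 (h.nonneg s z)) (hlog s (Ioc_subset_Icc_self hs)) h1
  have e1 : ∫⁻ s in Ioc 0 t, DisN n (til n (F s)) =
      ENNReal.ofReal (∫ s in Ioc 0 t, -∫ z, hthK n (til n (F s)) z) := by
    rw [ofReal_integral_eq_lintegral_ofReal (f := fun s => -∫ z, hthK n (til n (F s)) z)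
      hK.integral_prod_left.neg (hD.mono fun s hs => hs.1)]
    exact lintegral_congr_ae (hD.mono fun s hs => hs.2.symm)
  have e2 : HN n (F t) =
      ENNReal.ofReal (∫ z : Ph, Mx z.2 * (eta n (F t (fl t z) / Mx z.2) + 1)) := by
    rw [ofReal_integral_eq_lintegral_ofReal hI (Eventually.of_forall fun z => hY0 t (fl t z)), HN,
      ← lintegral_fl t]
    rfl
  have e3 : 0 ≤ ∫ z : Ph, Mx z.2 * (eta n (F t (fl t z) / Mx z.2) + 1) :=
    integral_nonneg fun z => hY0 t (fl t z)
  rw [e1, e2, ← ENNReal.ofReal_add e3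
    (integral_nonneg_of_ae (hD.mono fun s hs => hs.1)), hE, integral_neg, add_neg_cancel_right,
    ofReal_integral_eq_lintegral_ofReal hI0 (Eventually.of_forall (hY0 0))]
  exact hle'

theorem Appr.Hm_lt_top (h : Appr n F) : Hm (F 0) < ⊤ := by
  exact hth_Hm h

theorem IsDatum.Hm_lt_top {F₀ : Ph → ℝ} (h : IsDatum F₀) : Hm F₀ < ⊤ := by
  have h1 : Hm F₀ ≤ 3 * Mom F₀ + 1 := by
    rw [← lintegral_Mx_Ph, Mom, ← lintegral_const_mul' _ _ (by norm_num),
      ← lintegral_add_right _ hth_mM]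
    refine lintegral_mono fun z => ?_
    rw [← ENNReal.ofReal_ofNat 3, ← ENNReal.ofReal_mul (by norm_num)]
    refine (ENNReal.ofReal_le_ofReal ?_).trans ENNReal.ofReal_add_le
    rcases (h.nonneg z).eq_or_lt with h0 | h0
    · simp [← h0]
    · rw [Real.log_div h0.ne' (Mx_pos _).ne']
      have a1 := (abs_le.1 (abs_log_Mx z.2)).1
      have a2 := le_abs_self (Real.log (F₀ z))
      have a3 : Real.log (F₀ z) - Real.log (Mx z.2) - 1 ≤
          3 * (1 + ‖z.2‖ ^ 2 + |Real.log (F₀ z)|) := by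
        nlinarith [abs_nonneg (Real.log (F₀ z)), sq_nonneg ‖z.2‖]
      have a4 := mul_le_mul_of_nonneg_left a3 h0.le
      linarith
  exact h1.trans_lt (ENNReal.add_lt_top.2 ⟨ENNReal.mul_lt_top (by norm_num) h.fin,
    ENNReal.one_lt_top⟩)

theorem IsDatum.mom2_lt_top {F₀ : Ph → ℝ} (h : IsDatum F₀) :
    ∫⁻ z : Ph, ENNReal.ofReal ((1 + ‖z.2‖ ^ 2) * F₀ z) < ⊤ := by
  refine lt_of_le_of_lt (lintegral_mono fun z => ENNReal.ofReal_le_ofReal ?_) h.fin
  nlinarith [h.nonneg z, abs_nonneg (Real.log (F₀ z))]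

theorem IsDatum.integrable {F₀ : Ph → ℝ} (h : IsDatum F₀) : Integrable F₀ := by
  refine ⟨h.meas.aestronglyMeasurable, ?_⟩
  rw [hasFiniteIntegral_iff_ofReal (Eventually.of_forall h.nonneg)]
  refine lt_of_le_of_lt (lintegral_mono fun z => ENNReal.ofReal_le_ofReal ?_) h.mom2_lt_top
  nlinarith [h.nonneg z, sq_nonneg ‖z.2‖]

theorem Mom_le {f : Ph → ℝ} (hm : Measurable f) (h0 : ∀ z, 0 ≤ f z) :
    Mom f ≤ Hm f + 5 * (∫⁻ z : Ph, ENNReal.ofReal ((1 + ‖z.2‖ ^ 2) * f z)) + 1 := by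
  have m1 : Measurable fun z : Ph => 5 * ENNReal.ofReal ((1 + ‖z.2‖ ^ 2) * f z) := by fun_prop
  rw [← lintegral_Mx_Ph, Hm, ← lintegral_const_mul' _ _ (by norm_num), ← lintegral_add_right _ m1,
    ← lintegral_add_right _ hth_mM]
  refine lintegral_mono fun z => ?_
  rw [← ENNReal.ofReal_ofNat 5, ← ENNReal.ofReal_mul (by norm_num)]
  refine (ENNReal.ofReal_le_ofReal ?_).trans
    (ENNReal.ofReal_add_le.trans (add_le_add ENNReal.ofReal_add_le le_rfl))
  have hM := Mx_pos z.2
  rcases (h0 z).eq_or_lt with h1 | h1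
  · simp only [← h1, zero_mul, mul_zero]
    linarith
  · have hG : 0 < f z / Mx z.2 := div_pos h1 hM
    have a1 : |Real.log (f z)| ≤ |Real.log (f z / Mx z.2)| + (3 + ‖z.2‖ ^ 2 / 2) := by
      have : Real.log (f z) = Real.log (f z / Mx z.2) + Real.log (Mx z.2) := by
        rw [Real.log_div h1.ne' hM.ne', sub_add_cancel]
      rw [this]
      exact (abs_add_le _ _).trans (add_le_add le_rfl (abs_log_Mx _))
    have a2 : f z * |Real.log (f z / Mx z.2)| ≤ f z * Real.log (f z / Mx z.2) + 2 * Mx z.2 := by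
      have b1 := Real.one_sub_inv_le_log_of_pos hG
      have b2 := mul_le_mul_of_nonneg_left b1 h1.le
      have b3 : f z * (1 - (f z / Mx z.2)⁻¹) = f z - Mx z.2 := by field_simp
      rcases abs_cases (Real.log (f z / Mx z.2)) with ⟨b4, -⟩ | ⟨b4, -⟩
      · rw [b4]; linarith
      · rw [b4]; linarith
    have a3 := mul_le_mul_of_nonneg_left a1 h1.le
    nlinarith [mul_nonneg h1.le (sq_nonneg ‖z.2‖)]

/-- Arkeryd's inequality. -/
theorem arkeryd (hn : 0 ≤ n) {g : Ph → ℝ} {A L : ℝ} (hm : Measurable g) (hp : ∀ z, 0 < g z)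
    (hA : ∀ z : Ph, g z ≤ A * Mx z.2) (hL : 1 < L) (z : Ph) :
    ENNReal.ofReal (gainN n g g z) ≤ ENNReal.ofReal (L * (g z * rateN n g z))
      + ENNReal.ofReal (1 / Real.log L) * EN n g z := by
  have hb : BddV A (sl g z.1) :=
    ⟨hm.comp measurable_prodMk_left, fun v => by
      rw [sl, abs_of_pos (hp _)]; exact hA (z.1, v)⟩
  have h0 : ∀ v, 0 ≤ sl g z.1 v := fun v => (hp _).le
  have hl : 0 < Real.log L := Real.log_pos hL
  have hLg : 0 ≤ L * g z := mul_nonneg (by linarith) (hp z).le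
  have m1 : Measurable fun p : V × S2 => ENNReal.ofReal (L * g z) *
      (ENNReal.ofReal (Bn n z.2 p.1 p.2) * ENNReal.ofReal (sl g z.1 p.1)) :=
    ((measurable_Bn n measurable_const measurable_fst measurable_snd).ennreal_ofReal.mul
      (hb.meas.comp measurable_fst).ennreal_ofReal).const_mul _
  rw [gainN, ofReal_QN hn hb hb h0 h0, ← mul_assoc, ENNReal.ofReal_mul hLg, rateN,
    ofReal_nuN hn hb h0, EN, QE, ← lintegral_const_mul' _ _ ENNReal.ofReal_ne_top,
    ← lintegral_const_mul' _ _ ENNReal.ofReal_ne_top]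
  simp only [← lintegral_const_mul' _ _ ENNReal.ofReal_ne_top]
  rw [← lintegral_add_left m1.lintegral_prod_right']
  refine lintegral_mono fun w => ?_
  have m2 : Measurable fun ω : S2 => ENNReal.ofReal (L * g z) *
      (ENNReal.ofReal (Bn n z.2 w ω) * ENNReal.ofReal (sl g z.1 w)) :=
    ((measurable_Bn n measurable_const measurable_const measurable_id').ennreal_ofReal.mul_const
      _).const_mul _
  simp only
  rw [← lintegral_add_left m2]
  refine lintegral_mono fun ω => ?_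
  simp only [sl]
  have ha := mul_pos (hp (z.1, vp z.2 w ω)) (hp (z.1, wp z.2 w ω))
  have hb' := mul_pos (hp z) (hp (z.1, w))
  rw [mul_left_comm (ENNReal.ofReal (L * _)), mul_left_comm (ENNReal.ofReal (1 / _)), ← mul_add,
    jd_of_pos ha hb',
    ← ENNReal.ofReal_mul (hp _).le, ← ENNReal.ofReal_mul hLg,
    ← ENNReal.ofReal_mul (one_div_pos.2 hl).le, ← ENNReal.ofReal_add (mul_nonneg hLg (hp _).le)
      (mul_nonneg (one_div_pos.2 hl).le (jd_aux_nonneg ha hb')), mul_assoc L]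
  refine mul_le_mul_right (ENNReal.ofReal_le_ofReal ?_) _
  have hj := jd_aux_nonneg ha hb'
  generalize g (z.1, vp z.2 w ω) * g (z.1, wp z.2 w ω) = a at ha hj ⊢
  generalize g z * g (z.1, w) = b at hb' hj ⊢
  rcases le_total a (L * b) with h1 | h1
  · exact h1.trans (le_add_of_nonneg_right (by positivity))
  · have h2 : Real.log L ≤ Real.log (a / b) :=
      Real.log_le_log (by linarith) ((le_div_iff₀ hb').2 h1)
    have h3 : b ≤ L * b := le_mul_of_one_le_left hb'.le hL.le
    have h4 : a - b ≤ 1 / Real.log L * ((a - b) * Real.log (a / b)) := by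
      rw [one_div, ← div_eq_inv_mul, le_div_iff₀ hl]
      exact mul_le_mul_of_nonneg_left h2 (by linarith)
    linarith

end

end Vale.Agent.P140
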