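import Vale.Agent.P140.Cold
import Vale.Agent.P140.Hth

/-! The datum and convergence of the approximate data. -/

namespace Vale.Agent.P140

open MeasureTheory Set Filter Topology
open scoped ENNReal RealInnerProductSpace

noncomputable section

/-- Approximate datum. -/
def dat (P : CP) (t θ σ : ℝ) (z : Ph) : ℝ :=
  cf P t z + θ * Mx z.2 + σ * (seedSet t).indicator (fun _ => (1 : ℝ)) z

theorem dat_sing (C : ℝ) :
    ∫⁻ x : T3, ENNReal.ofReal (C * ‖X x‖ ^ (-(3 / 2) : ℝ)) < ⊤ := by
  have m : Measurable fun p : ℂ => C * ‖p‖ ^ (-(3 / 2) : ℝ) :=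
    measurable_const.mul (measurable_norm.pow_const _)
  have hi : IntegrableOn (fun p : ℂ => C * ‖p‖ ^ (-(3 / 2) : ℝ)) (Metric.ball 0 1) :=
    integrableOn_ball_of_norm_le_rpow (C := |C|) (α := 3 / 2) (by simp) (by norm_num)
      (Eventually.of_forall fun p => by
        rw [norm_mul, Real.norm_eq_abs, Real.norm_of_nonneg (by positivity)])
      m.aestronglyMeasurable
  have e : ∀ x : T3, ENNReal.ofReal (C * ‖X x‖ ^ (-(3 / 2) : ℝ)) =
      (Metric.ball (0 : ℂ) 1).indicator
        (fun p => ENNReal.ofReal (C * ‖p‖ ^ (-(3 / 2) : ℝ))) (X x) := fun x => by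
    rw [indicator_of_mem]
    rw [mem_ball_zero_iff]
    linarith [norm_X_le x]
  simp only [e]
  rw [lintegral_X (m.ennreal_ofReal.indicator Metric.isOpen_ball.measurableSet)]
  refine (setLIntegral_le_lintegral _ _).trans_lt ?_
  rw [lintegral_indicator Metric.isOpen_ball.measurableSet]
  exact hi.lintegral_lt_top

theorem dat_log {r : ℝ} (h0 : 0 < r) (h1 : r ≤ 1) :
    r⁻¹ ≤ r ^ (-(3 / 2) : ℝ) ∧ r⁻¹ * |Real.log r| ≤ 2 * r ^ (-(3 / 2) : ℝ) := by
  have e : r ^ (-(3 / 2) : ℝ) = r⁻¹ * r ^ (-(1 / 2) : ℝ) := by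
    rw [← Real.rpow_neg_one, ← Real.rpow_add h0]
    norm_num
  have p : 0 < r⁻¹ := inv_pos.2 h0
  have h2 : 1 ≤ r ^ (-(1 / 2) : ℝ) := Real.one_le_rpow_of_pos_of_le_one_of_nonpos h0 h1 (by norm_num)
  have h3 := Real.log_le_sub_one_of_pos (Real.rpow_pos_of_pos h0 (-(1 / 2) : ℝ))
  rw [Real.log_rpow h0] at h3
  rw [e, abs_of_nonpos (Real.log_nonpos h0.le h1)]
  exact ⟨le_mul_of_one_le_right p.le h2, by nlinarith⟩

theorem dat_mom1 {P : CP} (hP : P.Ok) {σ : ℝ} (hσ : σ = 1 ∨ σ = -1) : Mom (cold1 P σ) < ⊤ := by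
  have hK := hP.K_pos
  have he := hP.e_pos
  have m := measurable_cold1 P σ
  have m1 : Measurable fun z : Ph => ENNReal.ofReal
      (cold1 P σ z * (1 + ‖z.2‖ ^ 2 + |Real.log (cold1 P σ z)|)) := by fun_prop
  unfold Mom
  rw [Measure.volume_eq_prod, lintegral_prod _ m1.aemeasurable]
  refine lt_of_le_of_lt (lintegral_mono fun x => ?_) (dat_sing (4 / 3 * Real.pi * P.K *
    (19 + |Real.log P.K| + 3 * |Real.log P.e0|)))
  rcases (norm_nonneg (X x)).eq_or_lt with h0 | h0
  · simp [cold1, ← h0]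
  have h1 : ‖X x‖ ≤ 1 := by linarith [norm_X_le x]
  have hD : 0 < P.K / (‖X x‖ * (P.e0 * ‖X x‖ ^ 2) ^ 3) := by positivity
  calc _ ≤ ∫⁻ v, (Metric.closedBall (mkV ((P.c : ℂ) * hat (X x)) σ) (P.e0 * ‖X x‖ ^ 2)).indicator
        (fun _ => ENNReal.ofReal (P.K / (‖X x‖ * (P.e0 * ‖X x‖ ^ 2) ^ 3) *
          (5 + |Real.log (P.K / (‖X x‖ * (P.e0 * ‖X x‖ ^ 2) ^ 3))|))) v := by
        refine lintegral_mono fun v => ?_
        by_cases hv : cold1 P σ (x, v) = 0
        · simp [hv]
        have h2 : ‖v‖ ≤ 2 := by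
          refine cold_supp hP (z := (x, v)) fun h => hv ?_
          have a1 := cold1_nonneg hP 1 (x, v)
          have a2 := cold1_nonneg hP (-1) (x, v)
          unfold cold at h
          rcases hσ with rfl | rfl <;> linarith
        simp only [cold1] at hv ⊢
        split_ifs at hv ⊢ with h3
        · rw [indicator_of_mem (mem_closedBall_iff_norm.2 h3.2.2.2)]
          refine ENNReal.ofReal_le_ofReal (mul_le_mul_of_nonneg_left ?_ hD.le)
          nlinarith [norm_nonneg v]
        · exact absurd rfl hv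
    _ ≤ _ := by
        rw [lintegral_indicator_const Metric.isClosed_closedBall.measurableSet,
          volume_closedBall_V _ (by positivity), ← ENNReal.ofReal_mul (by positivity)]
        refine ENNReal.ofReal_le_ofReal ?_
        obtain ⟨a1, a2⟩ := dat_log h0 h1
        have a3 : |Real.log (P.K / (‖X x‖ * (P.e0 * ‖X x‖ ^ 2) ^ 3))| ≤
            |Real.log P.K| + 3 * |Real.log P.e0| + 7 * |Real.log ‖X x‖| := by
          rw [Real.log_div hK.ne' (by positivity), Real.log_mul h0.ne' (by positivity),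
            Real.log_pow, Real.log_mul he.ne' (by positivity), Real.log_pow]
          push_cast
          have b1 := le_abs_self (Real.log P.K)
          have b2 := neg_abs_le (Real.log P.K)
          have b3 := le_abs_self (Real.log P.e0)
          have b4 := neg_abs_le (Real.log P.e0)
          have b5 := le_abs_self (Real.log ‖X x‖)
          have b6 := neg_abs_le (Real.log ‖X x‖)
          exact abs_le.2 ⟨by linarith, by linarith⟩
        generalize |Real.log (P.K / (‖X x‖ * (P.e0 * ‖X x‖ ^ 2) ^ 3))| = L at a3 ⊢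
        have e : P.K / (‖X x‖ * (P.e0 * ‖X x‖ ^ 2) ^ 3) * (5 + L) *
            (4 / 3 * Real.pi * (P.e0 * ‖X x‖ ^ 2) ^ 3) =
            4 / 3 * Real.pi * P.K * (‖X x‖⁻¹ * (5 + L)) := by
          field_simp
        rw [e, mul_assoc (4 / 3 * Real.pi * P.K)]
        refine mul_le_mul_of_nonneg_left ?_ (by positivity)
        have a4 := mul_le_mul_of_nonneg_left a3 (inv_pos.2 h0).le
        have a5 := mul_le_mul_of_nonneg_left a1
          (show 0 ≤ 5 + |Real.log P.K| + 3 * |Real.log P.e0| by positivity)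
        nlinarith

theorem isDatum_cold {P : CP} (hP : P.Ok) : IsDatum (cold P) := by
  refine ⟨measurable_cold P, cold_nonneg hP, lt_of_le_of_lt ?_
    (ENNReal.add_lt_top.2 ⟨dat_mom1 hP (Or.inl rfl), dat_mom1 hP (Or.inr rfl)⟩)⟩
  have m := measurable_cold1 P 1
  unfold Mom
  rw [← lintegral_add_left (by fun_prop)]
  refine lintegral_mono fun z => ?_
  have h : cold1 P 1 z = 0 ∨ cold1 P (-1) z = 0 := by
    unfold cold1
    split_ifs with h1 h2
    · have a1 := h1.2.2.1
      have a2 := h2.2.2.1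
      rw [sec_neg] at a2
      linarith
    · exact Or.inr rfl
    · exact Or.inl rfl
    · exact Or.inl rfl
  rcases h with h | h <;> simp [cold, h]

theorem dat_le {c K e0 r : ℝ} {M : ℕ} (hP : CP.Ok ⟨c, K, M, e0, 0⟩) (z : Ph) :
    cold ⟨c, K, M, e0, r⟩ z ≤ cold ⟨c, K, M, e0, 0⟩ z := by
  have h : ∀ σ, cold1 ⟨c, K, M, e0, r⟩ σ z ≤ cold1 ⟨c, K, M, e0, 0⟩ σ z := fun σ => by
    have h0 := cold1_nonneg hP σ z
    unfold cold1 at h0 ⊢
    split_ifs at h0 ⊢ with h1 h2 h2
    · exact le_rfl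
    · exact absurd ⟨norm_nonneg _, h1.2⟩ h2
    · exact h0
    · exact le_rfl
  exact add_le_add (h 1) (h (-1))

theorem dat_ev (c K e0 : ℝ) (M : ℕ) {r : ℕ → ℝ} (r0 : Tendsto r atTop (𝓝 0)) (z : Ph) :
    ∀ᶠ k in atTop, cold ⟨c, K, M, e0, r k⟩ z = cold ⟨c, K, M, e0, 0⟩ z := by
  rcases (norm_nonneg (X z.1)).eq_or_lt with h0 | h0
  · exact Eventually.of_forall fun k => by simp [cold, cold1, ← h0]
  · filter_upwards [r0.eventually (ge_mem_nhds h0)] with k hk
    simp only [cold, cold1, hk, h0.le]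

theorem dat_h {u g : ℝ} (hu : 0 ≤ u) (hg : 0 ≤ g) (h : g ≤ u + 33) :
    g * Real.log g - g + 1 ≤ 4291 + 2 * (u * Real.log u - u + 1) + 4 * u := by
  have h1 := Real.self_sub_one_le_mul_log hu
  rcases le_or_gt g 66 with h2 | h2
  · rcases hg.eq_or_lt with h3 | h3
    · rw [← h3]
      linarith
    · have h4 := mul_le_mul_of_nonneg_left (Real.log_le_sub_one_of_pos h3) hg
      nlinarith
  · have h3 : Real.log g ≤ 1 + Real.log u := by
      have a1 := Real.log_le_log (by linarith) (show g ≤ 2 * u by linarith)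
      rw [Real.log_mul (by norm_num) (by linarith)] at a1
      have a2 := Real.log_le_sub_one_of_pos (show (0 : ℝ) < 2 by norm_num)
      linarith
    have h4 := mul_le_mul (show g ≤ 2 * u by linarith) h3 (Real.log_nonneg (by linarith))
      (by linarith)
    linarith

theorem dat_H {u g m : ℝ} (hm : 0 < m) (hu : 0 ≤ u) (hg : 0 ≤ g) (h : g ≤ u + 33 * m) :
    g * Real.log (g / m) - g + m ≤ 4291 * m + (2 * (u * Real.log (u / m) - u + m) + 4 * u) := by
  have h1 := dat_h (div_nonneg hu hm.le) (div_nonneg hg hm.le) (by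
    rw [div_le_iff₀ hm, add_mul, div_mul_cancel₀ _ hm.ne']
    exact h)
  have h2 := mul_le_mul_of_nonneg_left h1 hm.le
  have e1 : m * (g / m) = g := mul_div_cancel₀ _ hm.ne'
  have e2 : m * (u / m) = u := mul_div_cancel₀ _ hm.ne'
  have e3 : m * (g / m * Real.log (g / m)) = g * Real.log (g / m) := by rw [← mul_assoc, e1]
  have e4 : m * (u / m * Real.log (u / m)) = u * Real.log (u / m) := by rw [← mul_assoc, e2]
  linarith

theorem dat_cont {m : ℝ} (hm : 0 < m) :
    Continuous fun g : ℝ => ENNReal.ofReal (g * Real.log (g / m) - g + m) := by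
  have h1 : Continuous fun g : ℝ => m * (g / m * Real.log (g / m)) :=
    continuous_const.mul (Real.continuous_mul_log.comp (continuous_id.div_const m))
  have h2 : Continuous fun g : ℝ => g * Real.log (g / m) :=
    h1.congr fun g => by rw [← mul_assoc, mul_div_cancel₀ _ hm.ne']
  exact ENNReal.continuous_ofReal.comp ((h2.sub continuous_id).add continuous_const)

theorem dat_ind (t : ℝ) (z : Ph) : 0 ≤ (seedSet t).indicator (fun _ => (1 : ℝ)) z :=
  indicator_nonneg (fun _ _ => zero_le_one) z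

theorem dat_meas (P : CP) (t θ σ : ℝ) : Measurable (dat P t θ σ) :=
  (((measurable_cf P).comp (measurable_const.prodMk measurable_id)).add
    (measurable_const.mul (continuous_Mx.measurable.comp measurable_snd))).add
    (measurable_const.mul (measurable_const.indicator (measurableSet_seedSet t)))

theorem dat_conv {c K e0 : ℝ} {M : ℕ} (hP : CP.Ok ⟨c, K, M, e0, 0⟩) {r t θ σ : ℕ → ℝ}
    (hr : ∀ k, 0 ≤ r k) (hθ : ∀ k, 0 ≤ θ k) (hσ : ∀ k, 0 ≤ σ k)
    (r0 : Tendsto r atTop (𝓝 0)) (t0 : Tendsto t atTop (𝓝 0)) (θ0 : Tendsto θ atTop (𝓝 0))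
    (σ0 : Tendsto σ atTop (𝓝 0)) :
    Tendsto (fun k => ∫⁻ z : Ph, ENNReal.ofReal
      (|dat ⟨c, K, M, e0, r k⟩ (t k) (θ k) (σ k) z - cold ⟨c, K, M, e0, 0⟩ z| * (1 + ‖z.2‖ ^ 2)))
      atTop (𝓝 0) ∧
    Tendsto (fun k => Hm (dat ⟨c, K, M, e0, r k⟩ (t k) (θ k) (σ k))) atTop
      (𝓝 (Hm (cold ⟨c, K, M, e0, 0⟩))) := by
  have hPk : ∀ k, CP.Ok ⟨c, K, M, e0, r k⟩ := fun k =>
    ⟨hP.c_pos, hP.c_le, hP.K_pos, hP.e_pos, hP.e_le, hr k, hP.Me⟩
  have hD := isDatum_cold hP
  have hle := fun k => dat_le (r := r k) hP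
  have hev := dat_ev c K e0 M r0
  have hk0 := fun k => cold_nonneg (hPk k)
  have hmk := fun k => measurable_cold ⟨c, K, M, e0, r k⟩
  have hs := fun z => cold_supp hP (z := z)
  have hd : ∀ k z, dat ⟨c, K, M, e0, r k⟩ (t k) (θ k) (σ k) z =
      cold ⟨c, K, M, e0, r k⟩ (fl (-t k) z) + θ k * Mx z.2 +
        σ k * (seedSet (t k)).indicator (fun _ => (1 : ℝ)) z := fun k z => rfl
  have hdm := fun k => dat_meas ⟨c, K, M, e0, r k⟩ (t k) (θ k) (σ k)
  generalize cold ⟨c, K, M, e0, 0⟩ = F at *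
  have hm := hD.meas
  have hfin : ∫⁻ z, ENNReal.ofReal (F z) ≠ ⊤ := hD.integrable.lintegral_lt_top.ne
  constructor
  · have hA : Tendsto (fun k => ∫⁻ z, ENNReal.ofReal (F z - cold ⟨c, K, M, e0, r k⟩ z)) atTop
        (𝓝 0) := by
      have := tendsto_lintegral_of_dominated_convergence (μ := volume)
        (F := fun k z => ENNReal.ofReal (F z - cold ⟨c, K, M, e0, r k⟩ z)) (f := fun _ => 0)
        (fun z => ENNReal.ofReal (F z)) (fun k => (hm.sub (hmk k)).ennreal_ofReal)
        (fun k => Eventually.of_forall fun z =>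
          ENNReal.ofReal_le_ofReal (sub_le_self _ (hk0 k z))) hfin
        (Eventually.of_forall fun z => tendsto_const_nhds.congr' (by
          filter_upwards [hev z] with k hk
          simp [hk]))
      simpa using this
    have hB : Tendsto (fun k => ∫⁻ z, ‖F (fl (-t k) z) - F z‖ₑ) atTop (𝓝 0) := by
      have := (tendsto_fl_L1 hD.integrable 0).comp (by simpa using t0.neg)
      simpa [Function.comp_def] using this
    have hC : Tendsto (fun k => ENNReal.ofReal (θ k + 32 * σ k) *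
        ∫⁻ z : Ph, ENNReal.ofReal ((1 + ‖z.2‖) ^ 2 * Mx z.2)) atTop (𝓝 0) := by
      have h1 : Tendsto (fun k => ENNReal.ofReal (θ k + 32 * σ k)) atTop (𝓝 0) := by
        simpa using ENNReal.tendsto_ofReal (θ0.add (σ0.const_mul 32))
      simpa using ENNReal.Tendsto.mul_const h1
        (Or.inr (integrable_pow_Mx_Ph 2).lintegral_lt_top.ne)
    have hT := ((ENNReal.Tendsto.const_mul (a := 5) hA (Or.inr (by norm_num))).add
      (ENNReal.Tendsto.const_mul (a := 5) hB (Or.inr (by norm_num)))).add hC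
    simp only [mul_zero, add_zero] at hT
    refine tendsto_of_tendsto_of_tendsto_of_le_of_le tendsto_const_nhds hT
      (fun _ => zero_le) fun k => ?_
    have mf := measurable_fl_right (-t k)
    have m1 : Measurable fun z => 5 * ENNReal.ofReal
        (F (fl (-t k) z) - cold ⟨c, K, M, e0, r k⟩ (fl (-t k) z)) :=
      ((hm.comp mf).sub ((hmk k).comp mf)).ennreal_ofReal.const_mul _
    have m2 : Measurable fun z => 5 * ‖F (fl (-t k) z) - F z‖ₑ :=
      ((hm.comp mf).sub hm).enorm.const_mul _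
    simp only []
    rw [← lintegral_fl (-t k) (fun z => ENNReal.ofReal (F z - cold ⟨c, K, M, e0, r k⟩ z)),
      ← lintegral_const_mul' _ _ (by norm_num), ← lintegral_const_mul' _ _ (by norm_num),
      ← lintegral_const_mul' _ _ ENNReal.ofReal_ne_top, ← lintegral_add_left m1,
      ← lintegral_add_left (m1.fun_add m2)]
    refine lintegral_mono fun z => ?_
    have p1 := hθ k
    have p2 := hσ k
    have p3 := Mx_pos z.2
    have p4 := dat_ind (t k) z
    have p5 := seed_le (t k) z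
    have p6 := sub_nonneg.2 (hle k (fl (-t k) z))
    rw [← ofReal_norm, ← ENNReal.ofReal_ofNat 5, ← ENNReal.ofReal_mul (by norm_num),
      ← ENNReal.ofReal_mul (by norm_num), ← ENNReal.ofReal_mul (by positivity),
      ← ENNReal.ofReal_add (by positivity) (by positivity),
      ← ENNReal.ofReal_add (by positivity) (by positivity), hd, Real.norm_eq_abs]
    refine ENNReal.ofReal_le_ofReal ?_
    have a1 : |cold ⟨c, K, M, e0, r k⟩ (fl (-t k) z) - F z| * (1 + ‖z.2‖ ^ 2) ≤
        5 * (F (fl (-t k) z) - cold ⟨c, K, M, e0, r k⟩ (fl (-t k) z)) +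
          5 * |F (fl (-t k) z) - F z| := by
      by_cases hv : ‖z.2‖ ≤ 2
      · have b1 := abs_sub_le (cold ⟨c, K, M, e0, r k⟩ (fl (-t k) z)) (F (fl (-t k) z)) (F z)
        rw [abs_sub_comm _ (F (fl (-t k) z)), abs_of_nonneg p6] at b1
        have b2 : 1 + ‖z.2‖ ^ 2 ≤ 5 := by nlinarith [norm_nonneg z.2]
        have b3 := mul_le_mul_of_nonneg_left b2
          (abs_nonneg (cold ⟨c, K, M, e0, r k⟩ (fl (-t k) z) - F z))
        linarith
      · have b1 : F z = 0 := by_contra fun h => hv (hs z h)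
        have b2 : F (fl (-t k) z) = 0 := by_contra fun h => hv (hs (fl (-t k) z) h)
        have b3 : cold ⟨c, K, M, e0, r k⟩ (fl (-t k) z) = 0 :=
          le_antisymm (b2 ▸ hle k _) (hk0 k _)
        simp [b1, b2, b3]
    have a2 : |cold ⟨c, K, M, e0, r k⟩ (fl (-t k) z) + θ k * Mx z.2 +
        σ k * (seedSet (t k)).indicator (fun _ => (1 : ℝ)) z - F z| ≤
        |cold ⟨c, K, M, e0, r k⟩ (fl (-t k) z) - F z| + (θ k + 32 * σ k) * Mx z.2 := by
      have b1 := le_abs_self (cold ⟨c, K, M, e0, r k⟩ (fl (-t k) z) - F z)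
      have b2 := neg_abs_le (cold ⟨c, K, M, e0, r k⟩ (fl (-t k) z) - F z)
      have b3 := mul_le_mul_of_nonneg_left p5 p2
      have b4 := mul_nonneg p2 p4
      have b5 := mul_nonneg p1 p3.le
      exact abs_le.2 ⟨by linarith, by linarith⟩
    have a3 := mul_le_mul_of_nonneg_right a2 (show 0 ≤ 1 + ‖z.2‖ ^ 2 by positivity)
    have a4 : (θ k + 32 * σ k) * Mx z.2 * (1 + ‖z.2‖ ^ 2) ≤
        (θ k + 32 * σ k) * Mx z.2 * (1 + ‖z.2‖) ^ 2 :=
      mul_le_mul_of_nonneg_left (by nlinarith [norm_nonneg z.2]) (by positivity)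
    linarith
  · have e : ∀ k, Hm (dat ⟨c, K, M, e0, r k⟩ (t k) (θ k) (σ k)) = ∫⁻ z, ENNReal.ofReal
        (dat ⟨c, K, M, e0, r k⟩ (t k) (θ k) (σ k) (fl (t k) z) *
          Real.log (dat ⟨c, K, M, e0, r k⟩ (t k) (θ k) (σ k) (fl (t k) z) / Mx z.2) -
          dat ⟨c, K, M, e0, r k⟩ (t k) (θ k) (σ k) (fl (t k) z) + Mx z.2) := fun k =>
      (lintegral_fl (t k) _).symm
    simp only [e]
    have mM : Measurable fun z : Ph => Mx z.2 := continuous_Mx.measurable.comp measurable_snd
    have m1 : Measurable fun z : Ph =>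
        ENNReal.ofReal (F z * Real.log (F z / Mx z.2) - F z + Mx z.2) := by fun_prop
    refine tendsto_lintegral_filter_of_dominated_convergence
      (fun z => 4291 * ENNReal.ofReal (Mx z.2) +
        (2 * ENNReal.ofReal (F z * Real.log (F z / Mx z.2) - F z + Mx z.2) +
          4 * ENNReal.ofReal (F z))) (Eventually.of_forall fun k => ?_) ?_ ?_
      (Eventually.of_forall fun z => ?_)
    · have m2 := (hdm k).comp (measurable_fl_right (t k))
      exact (((m2.mul (m2.div mM).log).sub m2).add mM).ennreal_ofReal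
    · filter_upwards [θ0.eventually (ge_mem_nhds one_pos), σ0.eventually (ge_mem_nhds one_pos)]
        with k h1 h2
      refine Eventually.of_forall fun z => ?_
      have p3 := Mx_pos z.2
      have p4 := dat_ind (t k) (fl (t k) z)
      have p5 := seed_le (t k) (fl (t k) z)
      have b1 := mul_nonneg (hσ k) p4
      have b2 := mul_nonneg (hθ k) p3.le
      have b3 := mul_le_mul_of_nonneg_right h1 p3.le
      have b4 := mul_le_mul_of_nonneg_right h2 p4
      have b5 := hk0 k z
      have b6 := hle k z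
      rw [fl_snd] at p5
      refine (ENNReal.ofReal_le_ofReal (dat_H p3 (hD.nonneg z) ?_ ?_)).trans
        (ENNReal.ofReal_add_le.trans (add_le_add ?_ (ENNReal.ofReal_add_le.trans
          (add_le_add ?_ ?_))))
      · rw [hd, fl_neg_fl, fl_snd]
        linarith
      · rw [hd, fl_neg_fl, fl_snd]
        linarith
      · rw [ENNReal.ofReal_mul (by norm_num), ENNReal.ofReal_ofNat]
      · rw [ENNReal.ofReal_mul (by norm_num), ENNReal.ofReal_ofNat]
      · rw [ENNReal.ofReal_mul (by norm_num), ENNReal.ofReal_ofNat]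
    · rw [lintegral_add_left (hth_mM.const_mul _), lintegral_add_left (m1.const_mul _),
        lintegral_const_mul' _ _ (by norm_num), lintegral_const_mul' _ _ (by norm_num),
        lintegral_const_mul' _ _ (by norm_num), lintegral_Mx_Ph]
      exact ENNReal.add_ne_top.2 ⟨by norm_num, ENNReal.add_ne_top.2
        ⟨ENNReal.mul_ne_top (by norm_num) hD.Hm_lt_top.ne, ENNReal.mul_ne_top (by norm_num) hfin⟩⟩
    · refine ((dat_cont (Mx_pos z.2)).tendsto (F z)).comp ?_
      simp only [hd, fl_neg_fl, fl_snd]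
      have h1 : Tendsto (fun k => cold ⟨c, K, M, e0, r k⟩ z) atTop (𝓝 (F z)) :=
        tendsto_const_nhds.congr' (by
          filter_upwards [hev z] with k hk
          exact hk.symm)
      have h2 : Tendsto (fun k => σ k * (seedSet (t k)).indicator (fun _ => (1 : ℝ))
          (fl (t k) z)) atTop (𝓝 0) := by
        refine squeeze_zero (fun k => mul_nonneg (hσ k) (dat_ind _ _)) (fun k => ?_) σ0
        exact mul_le_of_le_one_right (hσ k) (indicator_le_self' (fun _ _ => zero_le_one) _)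
      simpa using (h1.add (θ0.mul_const (Mx z.2))).add h2

end

end Vale.Agent.P140
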