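import Vale.Agent.P140.Basic

/-! The Maxwellian, the torus, the free flow and test functions. -/

namespace Vale.Agent.P140

open MeasureTheory Set Filter Topology
open scoped ENNReal RealInnerProductSpace

noncomputable section

theorem flow0_c : 1 ≤ (2 * Real.pi) ^ (3 / 2 : ℝ) ∧ (2 * Real.pi) ^ (3 / 2 : ℝ) ≤ 16 := by
  have h1 := Real.pi_gt_three
  have h2 := Real.pi_lt_d2
  refine ⟨Real.one_le_rpow (by linarith) (by norm_num), ?_⟩
  refine (abs_le_of_sq_le_sq' ?_ (by norm_num)).2
  rw [← Real.rpow_natCast, ← Real.rpow_mul (by positivity)]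
  have e : (3 / 2 : ℝ) * (2 : ℕ) = (3 : ℕ) := by norm_num
  rw [e, Real.rpow_natCast]
  calc (2 * Real.pi) ^ 3 ≤ (2 * 3.15) ^ 3 := by gcongr
    _ ≤ _ := by norm_num

theorem flow0_Mx (v : V) : Mx v = Real.exp (-‖v‖ ^ 2 / 2) / (2 * Real.pi) ^ (3 / 2 : ℝ) := by
  rw [Mx, Real.rpow_neg (by positivity), inv_mul_eq_div]

theorem flow0_gauss {b : ℝ} (hb : 0 < b) : Integrable fun v : V => Real.exp (-b * ‖v‖ ^ 2) := by
  refine Integrable.of_integral_ne_zero ?_
  rw [GaussianFourier.integral_rexp_neg_mul_sq_norm hb]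
  have := Real.pi_pos
  positivity

theorem Mx_pos (v : V) : 0 < Mx v := by
  have := Real.pi_pos
  unfold Mx
  positivity

theorem continuous_Mx : Continuous Mx := by
  unfold Mx
  fun_prop

theorem Mx_le_one (v : V) : Mx v ≤ 1 := by
  rw [flow0_Mx]
  refine (div_le_self (Real.exp_pos _).le flow0_c.1).trans (Real.exp_le_one_iff.2 ?_)
  linarith [sq_nonneg ‖v‖]

theorem Mx_le_exp (v : V) : Mx v ≤ Real.exp (-‖v‖ ^ 2 / 2) := by
  rw [flow0_Mx]
  exact div_le_self (Real.exp_pos _).le flow0_c.1

theorem exp_le_Mx (v : V) : Real.exp (-‖v‖ ^ 2 / 2) ≤ 16 * Mx v := by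
  rw [flow0_Mx, ← mul_div_assoc, le_div_iff₀ (lt_of_lt_of_le one_pos flow0_c.1), mul_comm]
  exact mul_le_mul_of_nonneg_right flow0_c.2 (Real.exp_pos _).le

theorem abs_log_Mx (v : V) : |Real.log (Mx v)| ≤ 3 + ‖v‖ ^ 2 / 2 := by
  have h0 := lt_of_lt_of_le one_pos flow0_c.1
  have h1 := Real.log_nonneg flow0_c.1
  have h2 : Real.log ((2 * Real.pi) ^ (3 / 2 : ℝ)) ≤ 3 := by
    rw [Real.log_le_iff_le_exp h0]
    refine flow0_c.2.trans ?_
    have h3 : Real.exp 3 = Real.exp 1 ^ 3 := by rw [← Real.exp_nat_mul]; norm_num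
    have h4 := Real.exp_one_gt_d9
    rw [h3]
    calc (16 : ℝ) ≤ 2.7182818283 ^ 3 := by norm_num
      _ ≤ _ := by gcongr
  rw [flow0_Mx, Real.log_div (Real.exp_pos _).ne' h0.ne', Real.log_exp, abs_le]
  constructor <;> linarith [sq_nonneg ‖v‖]

theorem integrable_pow_Mx (p : ℕ) : Integrable (fun v : V => (1 + ‖v‖) ^ p * Mx v) := by
  have hc : Continuous fun v : V => (1 + ‖v‖) ^ p * Mx v :=
    ((continuous_const.add continuous_norm).pow p).mul continuous_Mx
  refine ((flow0_gauss (b := 1 / 4) (by norm_num)).const_mul (Real.exp (p ^ 2))).mono'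
    hc.aestronglyMeasurable (Eventually.of_forall fun v => ?_)
  have h0 := Mx_pos v
  rw [Real.norm_of_nonneg (by positivity), ← Real.exp_add]
  calc (1 + ‖v‖) ^ p * Mx v ≤ Real.exp ‖v‖ ^ p * Real.exp (-‖v‖ ^ 2 / 2) := by
        gcongr
        · linarith [Real.add_one_le_exp ‖v‖]
        · exact Mx_le_exp v
    _ ≤ _ := by
        rw [← Real.exp_nat_mul, ← Real.exp_add, Real.exp_le_exp]
        nlinarith [sq_nonneg (‖v‖ / 2 - p)]

theorem integrable_Mx : Integrable Mx := by
  simpa using integrable_pow_Mx 0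

theorem integral_Mx : ∫ v, Mx v = 1 := by
  have h := GaussianFourier.integral_rexp_neg_mul_sq_norm (V := V) (b := 1 / 2) (by norm_num)
  have e : ∀ v : V, -‖v‖ ^ 2 / 2 = -(1 / 2) * ‖v‖ ^ 2 := fun v => by ring
  simp only [flow0_Mx, e]
  rw [integral_div, h, finrank_euclideanSpace_fin,
    div_eq_one_iff_eq (lt_of_lt_of_le one_pos flow0_c.1).ne']
  congr 1
  ring

theorem lintegral_Mx : ∫⁻ v, ENNReal.ofReal (Mx v) = 1 := by
  rw [← ofReal_integral_eq_lintegral_ofReal integrable_Mx
    (Eventually.of_forall fun v => (Mx_pos v).le), integral_Mx, ENNReal.ofReal_one]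

instance instProbT3 : IsProbabilityMeasure (volume : Measure T3) := by
  constructor
  rw [volume_pi, Measure.pi_univ]
  simp

theorem integrable_pow_Mx_Ph (p : ℕ) :
    Integrable (fun z : Ph => (1 + ‖z.2‖) ^ p * Mx z.2) := by
  exact (integrable_pow_Mx p).comp_snd (volume : Measure T3)

theorem lintegral_Mx_Ph : ∫⁻ z : Ph, ENNReal.ofReal (Mx z.2) = 1 := by
  have hm : Measurable fun z : Ph => ENNReal.ofReal (Mx z.2) :=
    (continuous_Mx.measurable.comp measurable_snd).ennreal_ofReal
  rw [Measure.volume_eq_prod, lintegral_prod _ hm.aemeasurable]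
  simp [lintegral_Mx]

theorem continuous_pr : Continuous pr := by
  unfold pr
  fun_prop

theorem pr_add (a b : V) : pr (a + b) = pr a + pr b := by
  funext i
  simp [pr]

theorem pr_zero : pr 0 = 0 := by
  funext i
  simp [pr]

theorem pr_surjective : Function.Surjective pr := by
  intro x
  choose y hy using fun i => QuotientAddGroup.mk_surjective (x i)
  exact ⟨WithLp.toLp 2 y, funext hy⟩

@[simp] theorem fl_snd (s : ℝ) (z : Ph) : (fl s z).2 = z.2 := rfl

@[simp] theorem fl_zero (z : Ph) : fl 0 z = z := by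
  simp [fl, pr_zero]

theorem fl_add (s t : ℝ) (z : Ph) : fl s (fl t z) = fl (s + t) z := by
  simp only [fl, add_smul, pr_add, add_assoc, add_comm (pr (t • z.2))]

@[simp] theorem fl_neg_fl (s : ℝ) (z : Ph) : fl (-s) (fl s z) = z := by
  rw [fl_add, neg_add_cancel, fl_zero]

@[simp] theorem fl_fl_neg (s : ℝ) (z : Ph) : fl s (fl (-s) z) = z := by
  rw [fl_add, add_neg_cancel, fl_zero]

theorem continuous_fl : Continuous (fun p : ℝ × Ph => fl p.1 p.2) := by
  exact (continuous_snd.fst.add
    (continuous_pr.comp (continuous_fst.smul continuous_snd.snd))).prodMk continuous_snd.snd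

theorem measurable_fl : Measurable (fun p : ℝ × Ph => fl p.1 p.2) := by
  exact continuous_fl.measurable

theorem measurable_fl_right (s : ℝ) : Measurable (fl s) := by
  exact measurable_fl.comp measurable_prodMk_left

theorem measurable_fl_left (z : Ph) : Measurable (fun s => fl s z) := by
  exact measurable_fl.comp measurable_prodMk_right

theorem measurePreserving_fl (s : ℝ) : MeasurePreserving (fl s) volume volume := by
  have h1 : MeasurePreserving (fun p : V × T3 => (p.1, p.2 + pr (s • p.1)))
      ((volume : Measure V).prod (volume : Measure T3)) (volume.prod volume) :=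
    (MeasurePreserving.id volume).skew_product (g := fun (v : V) (x : T3) => x + pr (s • v))
      (measurable_snd.add (continuous_pr.measurable.comp (measurable_fst.const_smul s)))
      (Eventually.of_forall fun v => map_add_right_eq_self volume _)
  exact (Measure.measurePreserving_swap.comp h1).comp Measure.measurePreserving_swap

/-- The free flow as a measurable equivalence. -/
def flEquiv (s : ℝ) : Ph ≃ᵐ Ph where
  toFun := fl s
  invFun := fl (-s)
  left_inv := fl_neg_fl s
  right_inv := fl_fl_neg s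
  measurable_toFun := measurable_fl_right s
  measurable_invFun := measurable_fl_right (-s)

@[simp] theorem flEquiv_apply (s : ℝ) (z : Ph) : flEquiv s z = fl s z := rfl

@[simp] theorem flEquiv_symm_apply (s : ℝ) (z : Ph) : (flEquiv s).symm z = fl (-s) z := rfl

theorem measurePreserving_flEquiv (s : ℝ) : MeasurePreserving (flEquiv s) volume volume :=
  measurePreserving_fl s

/-- The space-time free flow `(t, z) ↦ (t, fl t z)` as a measurable equivalence. -/
def flSTEquiv : ℝ × Ph ≃ᵐ ℝ × Ph where
  toFun p := (p.1, fl p.1 p.2)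
  invFun p := (p.1, fl (-p.1) p.2)
  left_inv p := by simp
  right_inv p := by simp
  measurable_toFun := measurable_fst.prodMk measurable_fl
  measurable_invFun :=
    measurable_fst.prodMk (measurable_fl.comp (measurable_fst.neg.prodMk measurable_snd))

@[simp] theorem flSTEquiv_apply (p : ℝ × Ph) : flSTEquiv p = (p.1, fl p.1 p.2) := rfl

@[simp] theorem flSTEquiv_symm_apply (p : ℝ × Ph) :
    flSTEquiv.symm p = (p.1, fl (-p.1) p.2) := rfl

theorem lintegral_fl (s : ℝ) (f : Ph → ℝ≥0∞) : ∫⁻ z, f (fl s z) = ∫⁻ z, f z := by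
  exact (measurePreserving_fl s).lintegral_comp_emb (flEquiv s).measurableEmbedding f

theorem integral_fl (s : ℝ) (f : Ph → ℝ) : ∫ z, f (fl s z) = ∫ z, f z := by
  exact (measurePreserving_fl s).integral_comp (flEquiv s).measurableEmbedding f

theorem integrable_fl (s : ℝ) {f : Ph → ℝ} : Integrable (fun z => f (fl s z)) ↔ Integrable f := by
  exact (measurePreserving_fl s).integrable_comp_emb (flEquiv s).measurableEmbedding

theorem measurePreserving_flST (μ : Measure ℝ) [SFinite μ] :
    MeasurePreserving (fun p : ℝ × Ph => (p.1, fl p.1 p.2)) (μ.prod volume) (μ.prod volume) := by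
  exact (MeasurePreserving.id μ).skew_product (g := fl) measurable_fl
    (Eventually.of_forall fun s => (measurePreserving_fl s).map_eq)

theorem measurePreserving_flST_neg (μ : Measure ℝ) [SFinite μ] :
    MeasurePreserving (fun p : ℝ × Ph => (p.1, fl (-p.1) p.2)) (μ.prod volume)
      (μ.prod volume) := by
  exact (MeasurePreserving.id μ).skew_product (g := fun s => fl (-s))
    (measurable_fl.comp (measurable_fst.neg.prodMk measurable_snd))
    (Eventually.of_forall fun s => (measurePreserving_fl (-s)).map_eq)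

theorem measurePreserving_flSTEquiv (μ : Measure ℝ) [SFinite μ] :
    MeasurePreserving flSTEquiv (μ.prod volume) (μ.prod volume) :=
  measurePreserving_flST μ

theorem measurePreserving_flSTEquiv_symm (μ : Measure ℝ) [SFinite μ] :
    MeasurePreserving flSTEquiv.symm (μ.prod volume) (μ.prod volume) :=
  measurePreserving_flST_neg μ

theorem lintegral_flST (μ : Measure ℝ) [SFinite μ] (f : ℝ × Ph → ℝ≥0∞) :
    ∫⁻ p, f (p.1, fl p.1 p.2) ∂(μ.prod volume) = ∫⁻ p, f p ∂(μ.prod volume) := by
  exact (measurePreserving_flST μ).lintegral_comp_emb flSTEquiv.measurableEmbedding f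

theorem integral_flST (μ : Measure ℝ) [SFinite μ] (f : ℝ × Ph → ℝ) :
    ∫ p, f (p.1, fl p.1 p.2) ∂(μ.prod volume) = ∫ p, f p ∂(μ.prod volume) := by
  exact (measurePreserving_flST μ).integral_comp flSTEquiv.measurableEmbedding f

theorem integrable_flST (μ : Measure ℝ) [SFinite μ] {f : ℝ × Ph → ℝ} :
    Integrable (fun p : ℝ × Ph => f (p.1, fl p.1 p.2)) (μ.prod volume) ↔
      Integrable f (μ.prod volume) := by
  exact (measurePreserving_flST μ).integrable_comp_emb flSTEquiv.measurableEmbedding

end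

end Vale.Agent.P140
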