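import Vale.Agent.P140.ADefs
import Vale.Agent.P140.Flow0

/-! Charts on the torus and splitting of velocity space. -/

namespace Vale.Agent.P140

open MeasureTheory Set Filter Topology
open scoped ENNReal RealInnerProductSpace

noncomputable section

theorem geo_rep_mem (a : UnitAddCircle) : rep a ∈ Ico (-(1 / 2) : ℝ) (1 / 2) := by
  have h := (AddCircle.equivIco 1 (-(1 / 2)) a).2
  exact ⟨h.1, h.2.trans_eq (by norm_num)⟩

theorem geo_coe_rep (a : UnitAddCircle) : ((rep a : ℝ) : UnitAddCircle) = a :=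
  AddCircle.coe_equivIco

theorem geo_rep_coe {s : ℝ} (hs : s ∈ Ico (-(1 / 2) : ℝ) (1 / 2)) :
    rep (s : UnitAddCircle) = s :=
  AddCircle.equivIco_coe_of_mem ⟨hs.1, hs.2.trans_eq (by norm_num)⟩

theorem geo_abs_rep_le (a : UnitAddCircle) : |rep a| ≤ 1 / 2 :=
  abs_le.2 ⟨(geo_rep_mem a).1, (geo_rep_mem a).2.le⟩

theorem geo_rep_le (s : ℝ) : |rep (s : UnitAddCircle)| ≤ |s| := by
  have h := (AddCircle.norm_coe_eq_abs_iff (1 : ℝ) (x := rep (s : UnitAddCircle)) one_ne_zero).2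
    (by rw [abs_one]; exact geo_abs_rep_le _)
  rw [← h, geo_coe_rep]
  exact QuotientAddGroup.norm_mk_le_norm

theorem geo_measurable_rep : Measurable rep :=
  measurable_subtype_coe.comp (AddCircle.measurableEquivIco 1 (-(1 / 2))).measurable

theorem geo_sq {a b : ℝ} (hb : 0 ≤ b) (h : a ^ 2 ≤ b ^ 2) : a ≤ b := (abs_le_of_sq_le_sq' h hb).2

theorem geo_norm_le {a b : ℂ} (h1 : |a.re| ≤ |b.re|) (h2 : |a.im| ≤ |b.im|) : ‖a‖ ≤ ‖b‖ := by
  rw [Complex.norm_eq_sqrt_sq_add_sq, Complex.norm_eq_sqrt_sq_add_sq]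
  exact Real.sqrt_le_sqrt (add_le_add (sq_le_sq.2 h1) (sq_le_sq.2 h2))

theorem geo_X_add (x : T3) (y : V) : X (x + pr y) =
    ⟨rep (((X x + tp y).re : ℝ) : UnitAddCircle), rep (((X x + tp y).im : ℝ) : UnitAddCircle)⟩ := by
  have h : ∀ i, (x + pr y) i = ((rep (x i) + y i : ℝ) : UnitAddCircle) := fun i => by
    rw [AddCircle.coe_add, geo_coe_rep]; rfl
  rw [X, h, h]
  rfl

theorem measurable_X : Measurable X := by
  have h : ∀ i : Fin 3, Measurable fun x : T3 => rep (x i) := fun i =>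
    geo_measurable_rep.comp (measurable_pi_apply i)
  exact Complex.measurableEquivRealProd.symm.measurable.comp ((h 0).prodMk (h 1))

theorem continuous_tp : Continuous tp :=
  Complex.equivRealProdCLM.symm.continuous.comp
    (by fun_prop : Continuous fun v : V => (v 0, v 1))

theorem continuous_mkV : Continuous (fun p : ℂ × ℝ => mkV p.1 p.2) := by
  unfold mkV
  fun_prop

theorem tp_add (v w : V) : tp (v + w) = tp v + tp w := rfl

theorem tp_sub (v w : V) : tp (v - w) = tp v - tp w := rfl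

theorem tp_smul (s : ℝ) (v : V) : tp (s • v) = (s : ℂ) * tp v := by
  apply Complex.ext <;> simp [tp]

@[simp] theorem tp_mkV (u : ℂ) (s : ℝ) : tp (mkV u s) = u := rfl

@[simp] theorem mkV_two (u : ℂ) (s : ℝ) : mkV u s 2 = s := rfl

theorem mkV_tp (v : V) : mkV (tp v) (v 2) = v := by
  ext i
  fin_cases i <;> rfl

theorem norm_sq_eq (v : V) : ‖v‖ ^ 2 = ‖tp v‖ ^ 2 + v 2 ^ 2 := by
  rw [EuclideanSpace.real_norm_sq_eq, Fin.sum_univ_three, Complex.sq_norm, Complex.normSq_apply]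
  simp only [tp]
  ring

theorem norm_sub_mkV_sq (v : V) (u : ℂ) (s : ℝ) :
    ‖v - mkV u s‖ ^ 2 = ‖tp v - u‖ ^ 2 + (v 2 - s) ^ 2 := norm_sq_eq _

theorem norm_tp_le (v : V) : ‖tp v‖ ≤ ‖v‖ :=
  geo_sq (norm_nonneg _) (by rw [norm_sq_eq v]; exact le_add_of_nonneg_right (sq_nonneg _))

theorem norm_tp_sub_le (v : V) (u : ℂ) (s : ℝ) : ‖tp v - u‖ ≤ ‖v - mkV u s‖ :=
  norm_tp_le (v - mkV u s)

theorem abs_two_sub_le (v : V) (u : ℂ) (s : ℝ) : |v 2 - s| ≤ ‖v - mkV u s‖ :=
  abs_le_of_sq_le_sq' (by rw [norm_sub_mkV_sq]; exact le_add_of_nonneg_left (sq_nonneg _))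
    (norm_nonneg _) |> abs_le.2

theorem norm_sub_mkV_le (v : V) (u : ℂ) (s : ℝ) : ‖v - mkV u s‖ ≤ ‖tp v - u‖ + |v 2 - s| := by
  refine geo_sq (by positivity) ?_
  rw [norm_sub_mkV_sq, add_sq, sq_abs]
  have : 0 ≤ 2 * ‖tp v - u‖ * |v 2 - s| := by positivity
  linarith

theorem norm_mkV_sub (u u' : ℂ) (s : ℝ) : ‖mkV u s - mkV u' s‖ = ‖u - u'‖ :=
  le_antisymm (by simpa using norm_sub_mkV_le (mkV u s) u' s) (norm_tp_sub_le (mkV u s) u' s)

theorem inner_mkV (u : ℂ) (s : ℝ) (v : V) :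
    ⟪mkV u s, v⟫ = ((starRingEnd ℂ) u * tp v).re + s * v 2 := by
  rw [PiLp.inner_apply, Fin.sum_univ_three]
  simp [mkV, tp]
  ring

theorem norm_X_le (x : T3) : ‖X x‖ ≤ 3 / 4 := by
  refine geo_sq (by norm_num) ?_
  rw [Complex.sq_norm, Complex.normSq_apply]
  have h0 := geo_rep_mem (x 0)
  have h1 := geo_rep_mem (x 1)
  simp only [X]
  nlinarith [h0.1, h0.2, h1.1, h1.2]

theorem norm_X_add_le (x : T3) (y : V) : ‖X (x + pr y)‖ ≤ ‖X x + tp y‖ := by
  rw [geo_X_add]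
  exact geo_norm_le (geo_rep_le _) (geo_rep_le _)

theorem X_add (x : T3) (y : V) (h : ‖X x + tp y‖ < 1 / 2) : X (x + pr y) = X x + tp y := by
  have h1 := abs_lt.1 ((Complex.abs_re_le_norm _).trans_lt h)
  have h2 := abs_lt.1 ((Complex.abs_im_le_norm _).trans_lt h)
  rw [geo_X_add, geo_rep_coe ⟨h1.1.le, h1.2⟩, geo_rep_coe ⟨h2.1.le, h2.2⟩]

theorem X_fl (s : ℝ) (z : Ph) (h : ‖X z.1 + (s : ℂ) * tp z.2‖ < 1 / 2) :
    X (fl s z).1 = X z.1 + (s : ℂ) * tp z.2 := by
  rw [← tp_smul] at h ⊢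
  exact X_add _ _ h

@[simp] theorem xi_fl (t : ℝ) (z : Ph) : xi t (fl t z) = X z.1 := by
  rw [xi, fl_neg_fl]

theorem measurable_xi : Measurable (fun p : ℝ × Ph => xi p.1 p.2) :=
  measurable_X.comp (measurable_fst.comp
    (measurable_fl.comp (measurable_fst.neg.prodMk measurable_snd)))

theorem norm_xi_le_one (t : ℝ) (z : Ph) : ‖xi t z‖ ≤ 3 / 4 := norm_X_le _

theorem geo_xi (t : ℝ) (x : T3) (w : V) : xi t (x, w) = X (x + pr ((-t) • w)) := rfl

theorem geo_back (t : ℝ) (x : T3) (w : V) : x + pr ((-t) • w) + pr (t • w) = x := by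
  rw [add_assoc, ← pr_add, ← add_smul, neg_add_cancel, zero_smul, pr_zero, add_zero]

theorem geo_tri (a : ℂ) (s : ℝ) (w : V) : ‖a + tp (s • w)‖ ≤ ‖a‖ + |s| * ‖w‖ :=
  (norm_add_le _ _).trans (add_le_add le_rfl ((norm_tp_le _).trans_eq (norm_smul s w)))

theorem norm_xi_le {t : ℝ} (ht : 0 ≤ t) (x : T3) (w : V) :
    ‖xi t (x, w)‖ ≤ ‖X x‖ + t * ‖w‖ := by
  have h := (norm_X_add_le x ((-t) • w)).trans (geo_tri _ _ _)
  rwa [abs_neg, abs_of_nonneg ht] at h

theorem norm_X_le_xi {t : ℝ} (ht : 0 ≤ t) (x : T3) (w : V) :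
    ‖X x‖ ≤ ‖xi t (x, w)‖ + t * ‖w‖ := by
  have h := (norm_X_add_le (x + pr ((-t) • w)) (t • w)).trans (geo_tri _ _ _)
  rwa [geo_back, abs_of_nonneg ht] at h

theorem norm_xi_le_xi {t : ℝ} (ht : 0 ≤ t) (x : T3) (v w : V) :
    ‖xi t (x, w)‖ ≤ ‖xi t (x, v)‖ + t * ‖v - w‖ := by
  have h := (norm_X_add_le (x + pr ((-t) • v)) (t • (v - w))).trans (geo_tri _ _ _)
  have e : (-t) • v + t • (v - w) = (-t) • w := by module
  rwa [add_assoc, ← pr_add, e, abs_of_nonneg ht] at h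

theorem xi_chart {t : ℝ} (ht : 0 ≤ t) (x : T3) (w : V) (h : ‖xi t (x, w)‖ + t * ‖w‖ < 1 / 2) :
    xi t (x, w) + (t : ℂ) * tp w = X x := by
  have h1 := X_add (x + pr ((-t) • w)) (t • w)
    ((geo_tri _ _ _).trans_lt (by rwa [abs_of_nonneg ht]))
  rw [geo_back, tp_smul] at h1
  exact h1.symm

theorem xi_chart' {t : ℝ} (ht : 0 ≤ t) (x : T3) (w : V) (h : ‖X x‖ + t * ‖w‖ < 1 / 2) :
    xi t (x, w) + (t : ℂ) * tp w = X x := by
  rw [geo_xi, X_add x _ ((geo_tri _ _ _).trans_lt (by rwa [abs_neg, abs_of_nonneg ht])), tp_smul]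
  push_cast
  ring

theorem geo_pi3 (α : Type) [MeasureSpace α] [SigmaFinite (volume : Measure α)] :
    MeasurePreserving (fun x : Fin 3 → α => ((x 0, x 1), x 2)) volume
      (((volume : Measure α).prod volume).prod volume) :=
  Measure.measurePreserving_swap.comp
    (((MeasurePreserving.id (volume : Measure α)).prod (volume_preserving_finTwoArrow α)).comp
      (volume_preserving_piFinSuccAbove (fun _ : Fin 3 => α) 2))

theorem geo_split : MeasurePreserving (fun v : V => (tp v, v 2)) volume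
    ((volume : Measure ℂ).prod volume) :=
  ((Complex.volume_preserving_equiv_real_prod.symm _).prod
    (MeasurePreserving.id (volume : Measure ℝ))).comp
      ((geo_pi3 ℝ).comp (PiLp.volume_preserving_ofLp (Fin 3)))

/-- Splitting velocity space into horizontal and vertical parts. -/
theorem lintegral_mkV {F : V → ℝ≥0∞} (hF : Measurable F) :
    ∫⁻ v, F v = ∫⁻ u : ℂ, ∫⁻ s : ℝ, F (mkV u s) := by
  have hm : Measurable fun p : ℂ × ℝ => F (mkV p.1 p.2) := hF.comp continuous_mkV.measurable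
  rw [← lintegral_prod _ hm.aemeasurable, ← geo_split.lintegral_comp hm]
  exact lintegral_congr fun v => by rw [mkV_tp]

theorem geo_mk : MeasurePreserving ((↑) : ℝ → UnitAddCircle)
    (volume.restrict (Ico (-(1 / 2) : ℝ) (1 / 2))) volume := by
  have h := UnitAddCircle.measurePreserving_mk (-(1 / 2))
  rwa [show (-(1 / 2) + 1 : ℝ) = 1 / 2 by norm_num, ← Measure.restrict_congr_set Ico_ae_eq_Ioc] at h

theorem geo_rep_mp :
    MeasurePreserving rep volume (volume.restrict (Ico (-(1 / 2) : ℝ) (1 / 2))) := by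
  refine ⟨geo_measurable_rep, ?_⟩
  rw [← geo_mk.map_eq, Measure.map_map geo_measurable_rep geo_mk.measurable]
  exact (Measure.map_congr (g := id) (ae_restrict_of_forall_mem measurableSet_Ico
    fun s hs => geo_rep_coe hs)).trans Measure.map_id

theorem geo_X_mp : MeasurePreserving X volume (volume.restrict
    {p : ℂ | p.re ∈ Ico (-(1 / 2) : ℝ) (1 / 2) ∧ p.im ∈ Ico (-(1 / 2) : ℝ) (1 / 2)}) := by
  have : IsProbabilityMeasure (volume : Measure UnitAddCircle) := ⟨UnitAddCircle.measure_univ⟩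
  have h1 := (geo_rep_mp.prod geo_rep_mp).comp
    (measurePreserving_fst.comp (geo_pi3 UnitAddCircle))
  rw [Measure.prod_restrict] at h1
  exact ((Complex.volume_preserving_equiv_real_prod.restrict_preimage
    (measurableSet_Ico.prod measurableSet_Ico)).symm _).comp h1

/-- The horizontal position is uniformly distributed on the unit square. -/
theorem lintegral_X {f : ℂ → ℝ≥0∞} (hf : Measurable f) : ∫⁻ x : T3, f (X x)
    = ∫⁻ p in {p : ℂ | p.re ∈ Ico (-(1 / 2) : ℝ) (1 / 2) ∧ p.im ∈ Ico (-(1 / 2) : ℝ) (1 / 2)},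
        f p := geo_X_mp.lintegral_comp hf

theorem geo_cube : MeasurableSet
    ((WithLp.ofLp : V → Fin 3 → ℝ) ⁻¹' univ.pi fun _ => Ico (-(1 / 2) : ℝ) (1 / 2)) :=
  (PiLp.volume_preserving_ofLp (Fin 3)).measurable
    (MeasurableSet.univ_pi fun _ => measurableSet_Ico)

theorem geo_pr_mp : MeasurePreserving pr (volume.restrict
    ((WithLp.ofLp : V → Fin 3 → ℝ) ⁻¹' univ.pi fun _ => Ico (-(1 / 2) : ℝ) (1 / 2))) volume := by
  have h1 := measurePreserving_pi (fun _ : Fin 3 => volume.restrict (Ico (-(1 / 2) : ℝ) (1 / 2)))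
    (fun _ => (volume : Measure UnitAddCircle)) (fun _ => geo_mk)
  rw [← Measure.restrict_pi_pi] at h1
  exact h1.comp ((PiLp.volume_preserving_ofLp (Fin 3)).restrict_preimage
    (MeasurableSet.univ_pi fun _ => measurableSet_Ico))

theorem geo_scale {g : V → ℝ≥0∞} (hg : Measurable g) {τ : ℝ} (hτ : τ ≠ 0) :
    ∫⁻ u, g (τ • u) = ENNReal.ofReal (1 / |τ| ^ 3) * ∫⁻ y, g y := by
  rw [← lintegral_map hg (measurable_const_smul τ), Measure.map_addHaar_smul volume hτ,
    lintegral_smul_measure, finrank_euclideanSpace_fin, abs_inv, abs_pow, one_div, smul_eq_mul]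

/-- Change of variables from velocities to positions. -/
theorem lintegral_ball_pr_le {ρ : T3 → ℝ≥0∞} (hρ : Measurable ρ) (x : T3) {τ R : ℝ} (hτ : τ ≠ 0)
    (h : |τ| * R < 1 / 2) : ∫⁻ u in Metric.closedBall (0 : V) R, ρ (x + pr (τ • u))
      ≤ ENNReal.ofReal (1 / |τ| ^ 3) * ∫⁻ y, ρ y := by
  have h1 : Measurable fun y : T3 => ρ (x + y) := hρ.comp (measurable_const_add x)
  have h2 : Measurable fun y : V => ρ (x + pr y) := h1.comp continuous_pr.measurable
  rw [← lintegral_add_left_eq_self ρ x, ← geo_pr_mp.lintegral_comp h1,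
    ← lintegral_indicator geo_cube, ← geo_scale (h2.indicator geo_cube) hτ,
    ← lintegral_indicator measurableSet_closedBall]
  refine lintegral_mono fun u => indicator_apply_le' (fun hu => ?_) (fun _ => zero_le)
  refine (indicator_of_mem ?_ fun y : V => ρ (x + pr y)).ge
  intro i _
  have h3 : |(τ • u) i| < 1 / 2 := by
    refine lt_of_le_of_lt ?_ h
    refine (PiLp.norm_apply_le (τ • u) i).trans ?_
    rw [norm_smul]
    exact mul_le_mul_of_nonneg_left (mem_closedBall_zero_iff.1 hu) (abs_nonneg τ)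
  exact ⟨(abs_lt.1 h3).1.le, (abs_lt.1 h3).2⟩

theorem volume_closedBall_V (a : V) {r : ℝ} (hr : 0 ≤ r) :
    volume (Metric.closedBall a r) = ENNReal.ofReal (4 / 3 * Real.pi * r ^ 3) := by
  rw [EuclideanSpace.volume_closedBall_fin_three, ← ENNReal.ofReal_pow hr,
    ← ENNReal.ofReal_mul (by positivity)]
  congr 1
  ring

theorem measurableSet_Hot (ζ : ℝ) : MeasurableSet (Hot ζ) := by
  have h1 : Measurable fun z : Ph => |z.2 2 - 1| := by fun_prop
  have h2 : Measurable fun z : Ph => |z.2 2 + 1| := by fun_prop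
  exact (measurableSet_le measurable_const h1).inter (measurableSet_le measurable_const h2)

theorem geo_seed (t : ℝ) : seedSet t = (X ⁻¹' Metric.closedBall (t : ℂ) (t / 8)) ×ˢ
    Metric.closedBall (mkV Complex.I 0) (1 / 8) := by
  ext z
  simp only [seedSet, mem_prod, mem_preimage, mem_closedBall_iff_norm]
  rfl

theorem measurableSet_seedSet (t : ℝ) : MeasurableSet (seedSet t) := by
  rw [geo_seed]
  exact (measurable_X measurableSet_closedBall).prod measurableSet_closedBall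

theorem seed_vol {t : ℝ} (ht : 0 < t) (ht' : t ≤ 1 / 4) :
    ENNReal.ofReal (t ^ 2 / 10 ^ 4) ≤ volume (seedSet t) := by
  have hsub : Metric.closedBall (t : ℂ) (t / 8) ⊆
      {p : ℂ | p.re ∈ Ico (-(1 / 2) : ℝ) (1 / 2) ∧ p.im ∈ Ico (-(1 / 2) : ℝ) (1 / 2)} := by
    intro p hp
    have h0 : ‖p‖ < 1 / 2 := by
      have h1 := norm_le_norm_add_norm_sub' p (t : ℂ)
      rw [Complex.norm_real, Real.norm_of_nonneg ht.le] at h1
      linarith [mem_closedBall_iff_norm.1 hp]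
    have h1 := abs_lt.1 ((Complex.abs_re_le_norm _).trans_lt h0)
    have h2 := abs_lt.1 ((Complex.abs_im_le_norm _).trans_lt h0)
    exact ⟨⟨h1.1.le, h1.2⟩, h2.1.le, h2.2⟩
  rw [geo_seed, Measure.volume_eq_prod, Measure.prod_prod,
    geo_X_mp.measure_preimage measurableSet_closedBall.nullMeasurableSet,
    Measure.restrict_apply measurableSet_closedBall, inter_eq_left.2 hsub,
    Complex.volume_closedBall, volume_closedBall_V _ (by norm_num),
    ← ENNReal.ofReal_pow (by positivity), ← ENNReal.ofReal_coe_nnreal, NNReal.coe_real_pi,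
    ← ENNReal.ofReal_mul (by positivity), ← ENNReal.ofReal_mul (by positivity)]
  refine ENNReal.ofReal_le_ofReal ?_
  have h1 : 9 ≤ Real.pi * Real.pi := by nlinarith [Real.pi_gt_three]
  nlinarith [mul_le_mul_of_nonneg_left h1 (sq_nonneg t), sq_nonneg t]

theorem seed_le (t : ℝ) (z : Ph) :
    (seedSet t).indicator (fun _ => (1 : ℝ)) z ≤ 32 * Mx z.2 := by
  have h0 := Mx_pos z.2
  refine indicator_apply_le' (fun hz => ?_) (fun _ => by positivity)
  have h1 : ‖mkV Complex.I 0‖ ≤ 1 := by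
    refine geo_sq zero_le_one ?_
    rw [norm_sq_eq]
    simp
  have h2 : ‖z.2‖ ≤ 9 / 8 := by
    linarith [norm_le_norm_add_norm_sub' z.2 (mkV Complex.I 0), hz.2]
  have h3 : ‖z.2‖ ^ 2 ≤ (9 / 8) ^ 2 := pow_le_pow_left₀ (norm_nonneg _) h2 2
  have h4 : Real.exp (-Real.log 2) ≤ Real.exp (-‖z.2‖ ^ 2 / 2) :=
    Real.exp_le_exp.2 (by linarith [Real.log_two_gt_d9])
  rw [Real.exp_neg, Real.exp_log two_pos] at h4
  linarith [exp_le_Mx z.2]

end

end Vale.Agent.P140
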