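import Vale.Agent.P140.SysApi

/-! Stability of the labelled system. -/

namespace Vale.Agent.P140

open MeasureTheory Set Filter Topology
open scoped ENNReal RealInnerProductSpace

noncomputable section

theorem stab_prim {y q y' q' w : ℝ → ℝ} {a b K : ℝ} (h : Prim y q a b) (h' : Prim y' q' a b)
    (hw : Continuous w) (hK : ∀ s ∈ Icc a b, q s - q' s ≤ K * w s) :
    y b - y' b ≤ y a - y' a + K * ∫ s in a..b, w s := by
  have := intervalIntegral.integral_mono_on h.le (h.int.sub h'.int)
    ((hw.intervalIntegrable a b).const_mul K) hK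
  rw [intervalIntegral.integral_sub h.int h'.int, intervalIntegral.integral_const_mul] at this
  linarith [h.eq b (right_mem_Icc.2 h.le), h'.eq b (right_mem_Icc.2 h.le)]

theorem stab_abs {y q y' q' w : ℝ → ℝ} {a b K : ℝ} (h : Prim y q a b) (h' : Prim y' q' a b)
    (hw : Continuous w) (hK : ∀ s ∈ Icc a b, |q s - q' s| ≤ K * w s) :
    |y b - y' b| ≤ |y a - y' a| + K * ∫ s in a..b, w s := by
  have h1 := stab_prim h h' hw fun s hs => (le_abs_self _).trans (hK s hs)
  have h2 := stab_prim h' h hw fun s hs => (le_abs_self _).trans ((abs_sub_comm _ _).trans_le (hK s hs))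
  exact abs_le.2 ⟨by linarith [neg_abs_le (y a - y' a)], by linarith [le_abs_self (y a - y' a)]⟩

theorem stab_reg {n : ℝ} (hn : 0 < n) {F F' f f' : Ph → ℝ} {z : Ph} (hF : 0 ≤ F z) (h0 : 0 ≤ f' z)
    (h1 : f' z ≤ F' z) : |reg n F f z - reg n F' f' z| ≤ |f z - f' z| + |F z - F' z| := by
  have hm : 0 < n * Mx z.2 := mul_pos hn (Mx_pos _)
  have t0 := th_pos hn hF
  have t1 := th_le_one hn hF
  have r0 := div_nonneg (reg_nonneg hn (h0.trans h1) h0) hm.le
  have r1 := (div_le_one hm).2 (reg_le_Mx hn h0 h1)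
  have e : reg n F f z - reg n F' f' z = th n F z * (f z - f' z) -
      th n F z * (reg n F' f' z / (n * Mx z.2)) * (F z - F' z) := by
    have := h0.trans h1
    simp only [reg, th]
    generalize n * Mx z.2 = m at *
    field_simp
    ring
  rw [e]
  refine (abs_sub _ _).trans (add_le_add ?_ ?_)
  · rw [abs_mul, abs_of_pos t0]
    exact mul_le_of_le_one_left (abs_nonneg _) t1
  · rw [abs_mul, abs_of_nonneg (mul_nonneg t0.le r0)]
    exact mul_le_of_le_one_left (abs_nonneg _) (mul_le_one₀ t1 r0 r1)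

theorem stab_Q {n D : ℝ} (hn : 0 < n) {f f' g g' : V → ℝ} (hf : BddV n f) (hf' : BddV n f')
    (hg : BddV n g) (hg' : BddV n g') (h1 : ∀ v, |f v - f' v| ≤ D * Mx v)
    (h2 : ∀ v, |g v - g' v| ≤ D * Mx v) (v : V) :
    |QN n f g v - QN n f' g' v| ≤ 8 * Real.pi * n * n * Mx v * D := by
  have k1 := abs_QN_le hn.le (f := fun u => f u - f' u) ⟨hf.meas.sub hf'.meas, h1⟩ hg v
  have k2 := abs_QN_le hn.le hf' (g := fun u => g u - g' u) ⟨hg.meas.sub hg'.meas, h2⟩ v
  rw [QN_sub_left hn.le hf hf' hg] at k1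
  rw [QN_sub_right hn.le hf' hg hg'] at k2
  linarith [abs_sub_le (QN n f g v) (QN n f' g v) (QN n f' g' v)]

theorem stab_lam {n D : ℝ} (hn : 0 < n) {F F' f f' : Ph → ℝ} {z : Ph}
    (hF : BddV n (sl (til n F) z.1)) (hF' : BddV n (sl (til n F') z.1))
    (hf' : BddV n (sl (reg n F' f') z.1))
    (h1 : ∀ z, |til n F z - til n F' z| ≤ D * Mx z.2)
    (h2 : ∀ z, |reg n F f z - reg n F' f' z| ≤ D * Mx z.2) :
    |lam n F z * f z - lam n F' z * f' z| ≤ 8 * Real.pi * n * n * Mx z.2 * D := by
  have k1 := abs_nuN_le hn.le hF z.2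
  have k2 := abs_nuN_le hn.le (g := fun u => sl (til n F) z.1 u - sl (til n F') z.1 u)
    ⟨hF.meas.sub hF'.meas, fun v => h1 (z.1, v)⟩ z.2
  rw [nuN_sub hn.le hF hF'] at k2
  have k3 := mul_le_mul (h2 z) k1 (abs_nonneg _) ((abs_nonneg _).trans (h2 z))
  have k0 : |reg n F' f' z| ≤ n * Mx z.2 := hf'.le z.2
  have k4 := mul_le_mul k0 k2 (abs_nonneg _) ((abs_nonneg _).trans k0)
  rw [← abs_mul] at k3 k4
  have := abs_add_le ((reg n F f z - reg n F' f' z) * nuN n (sl (til n F) z.1) z.2)
    (reg n F' f' z * (nuN n (sl (til n F) z.1) z.2 - nuN n (sl (til n F') z.1) z.2))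
  rw [lam_mul, lam_mul, rateN, rateN]
  ring_nf at this k3 k4 ⊢
  linarith

section Sys

variable {n t₀ : ℝ} {c h k : ℝ → Ph → ℝ}

/-- Linear growth bound for label two. -/
theorem Sys.k_small (hn : 0 < n) (S : Sys n t₀ c h k) {δ : ℝ} (hδ : 0 ≤ δ)
    (h0 : ∀ z : Ph, k t₀ z ≤ δ * Mx z.2) {t : ℝ} (ht : t₀ ≤ t) (z : Ph) :
    k t z ≤ δ * Real.exp (8 * Real.pi * n * n * (t - t₀)) * Mx z.2 := by
  have hM := Mx_pos z.2
  obtain ⟨C, hC⟩ := S.upp t
  have pi0 := Real.pi_pos
  have := gronwall_sup (a := t₀) (b := t) (fun z s => k s (fl s z) / Mx z.2) (C := C) hδ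
    (L := 8 * Real.pi * n * n) (by positivity)
    (fun z s hs => (div_le_iff₀ (Mx_pos _)).2 ((S.sys_k_le _ _).trans (hC s hs (fl s z))))
    (fun w hw w0 hu z s hs => by
      rw [div_le_iff₀ (Mx_pos _)]
      have := stab_prim (S.primk hn le_rfl hs.1 z)
        (Prim.of_integral hs.1 (q := fun _ => 0) intervalIntegrable_const 0) hw
        (K := 8 * Real.pi * n * n * Mx z.2) fun r hr => by
          have hr' : r ∈ Icc t₀ t := ⟨hr.1, hr.2.trans hs.2⟩
          have b1 : ∀ x, BddV (w r) (sl (reg n (tot c h k r) (k r)) x) := fun x =>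
            ⟨(S.sys_bddk hn r x).meas, fun v => by
              rw [abs_of_nonneg (S.sys_reg0 hn S.k0 r x v)]
              refine (reg_le hn (S.tot_nonneg r _) (S.k0 r _)).trans ?_
              simpa [fl_add, div_le_iff₀ (Mx_pos _)] using hu (fl (-r) (x, v)) r hr'⟩
          have h1 := (le_abs_self _).trans
            (abs_QN_le hn.le (S.sys_bddt hn r (fl r z).1) (b1 (fl r z).1) z.2)
          have h2 := (le_abs_self _).trans
            (abs_QN_le hn.le (b1 (fl r z).1) (S.sys_bdd2 hn r (fl r z).1) z.2)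
          have h3 := mul_nonneg (lam_nonneg (z := fl r z) hn (S.tot_nonneg r)) (S.k0 r (fl r z))
          simp only [gain2, gainN, fl_snd]
          linarith
      have h1 := h0 (fl t₀ z)
      simp only [intervalIntegral.integral_zero, fl_snd] at this h1
      linarith) (fl (-t) z) t (right_mem_Icc.2 ht)
  simpa [fl_add, div_le_iff₀ hM] using this

/-- Lipschitz dependence on the data. -/
theorem sys_stable (hn : 0 < n) (t₀ T : ℝ) : ∃ L : ℝ, 0 ≤ L ∧
    ∀ {c h k c' h' k' : ℝ → Ph → ℝ}, Sys n t₀ c h k → Sys n t₀ c' h' k' → ∀ δ : ℝ, 0 ≤ δ →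
      (∀ z : Ph, |c t₀ z - c' t₀ z| + |h t₀ z - h' t₀ z| + |k t₀ z - k' t₀ z| ≤ δ * Mx z.2) →
      ∀ t ∈ Icc t₀ T, ∀ z : Ph,
        |c t z - c' t z| + |h t z - h' t z| + |k t z - k' t z| ≤ L * δ * Mx z.2 := by
  have pi0 := Real.pi_pos
  refine ⟨Real.exp (96 * Real.pi * n * n * (T - t₀)), (Real.exp_pos _).le, ?_⟩
  intro c h k c' h' k' S S' δ hδ h0 t ht z
  have hM := Mx_pos z.2
  obtain ⟨C, hC⟩ := S.upp T
  obtain ⟨C', hC'⟩ := S'.upp T
  have := gronwall_sup (a := t₀) (b := T) (fun z s => (|c s (fl s z) - c' s (fl s z)| +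
      |h s (fl s z) - h' s (fl s z)| + |k s (fl s z) - k' s (fl s z)|) / Mx z.2) (C := C + C') hδ
    (L := 96 * Real.pi * n * n) (by positivity)
    (fun z s hs => (div_le_iff₀ (Mx_pos _)).2 (by
      have h1 := hC s hs (fl s z)
      have h2 := hC' s hs (fl s z)
      have k : ∀ a b : ℝ, 0 ≤ a → 0 ≤ b → |a - b| ≤ a + b := fun a b _ _ =>
        abs_le.2 ⟨by linarith, by linarith⟩
      simp only [tot, fl_snd] at h1 h2
      linarith [k _ _ (S.c0 s (fl s z)) (S'.c0 s (fl s z)), k _ _ (S.h0 s (fl s z)) (S'.h0 s (fl s z)),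
        k _ _ (S.k0 s (fl s z)) (S'.k0 s (fl s z))]))
    (fun w hw w0 hu z s hs => by
      rw [div_le_iff₀ (Mx_pos _)]
      have hu' : ∀ r ∈ Icc t₀ s, ∀ y : Ph,
          |c r y - c' r y| + |h r y - h' r y| + |k r y - k' r y| ≤ w r * Mx y.2 := fun r hr y => by
        simpa [fl_add, div_le_iff₀ (Mx_pos _)] using hu (fl (-r) y) r ⟨hr.1, hr.2.trans hs.2⟩
      have R : ∀ r ∈ Icc t₀ s, ∀ f f' : Ph → ℝ, (∀ y, 0 ≤ f' y) → (∀ y, f' y ≤ tot c' h' k' r y) →
          (∀ y, |f y - f' y| ≤ |c r y - c' r y| + |h r y - h' r y| + |k r y - k' r y|) →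
          ∀ y, |reg n (tot c h k r) f y - reg n (tot c' h' k' r) f' y| ≤ 2 * w r * Mx y.2 :=
        fun r hr f f' f0 f1 f2 y => by
          have h1 := stab_reg (f := f) hn (S.tot_nonneg r y) (f0 y) (f1 y)
          have h2 := abs_add_three (c r y - c' r y) (h r y - h' r y) (k r y - k' r y)
          rw [show c r y - c' r y + (h r y - h' r y) + (k r y - k' r y) =
            tot c h k r y - tot c' h' k' r y by simp only [tot]; ring] at h2
          linarith [hu' r hr y, f2 y]
      have cle : ∀ r y, c' r y ≤ tot c' h' k' r y := fun r y =>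
        (le_add_of_nonneg_right (S'.h0 r y)).trans (S'.sys_two_le r y)
      have hle : ∀ r y, h' r y ≤ tot c' h' k' r y := fun r y =>
        (le_add_of_nonneg_left (S'.c0 r y)).trans (S'.sys_two_le r y)
      have Rc := fun r hr => R r hr (c r) (c' r) (S'.c0 r) (cle r) fun y => by
        linarith [abs_nonneg (h r y - h' r y), abs_nonneg (k r y - k' r y)]
      have Rh := fun r hr => R r hr (h r) (h' r) (S'.h0 r) (hle r) fun y => by
        linarith [abs_nonneg (c r y - c' r y), abs_nonneg (k r y - k' r y)]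
      have Rk := fun r hr => R r hr (k r) (k' r) (S'.k0 r) (S'.sys_k_le r) fun y => by
        linarith [abs_nonneg (h r y - h' r y), abs_nonneg (c r y - c' r y)]
      have R2 := fun r hr => R r hr (two c h r) (two c' h' r) (S'.sys_two0 r) (S'.sys_two_le r)
        fun y => by
          have := abs_add_le (c r y - c' r y) (h r y - h' r y)
          rw [show c r y - c' r y + (h r y - h' r y) = two c h r y - two c' h' r y by
            simp only [two]; ring] at this
          linarith [abs_nonneg (k r y - k' r y)]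
      have Rt := fun r hr => R r hr (tot c h k r) (tot c' h' k' r) (S'.tot_nonneg r)
        (fun _ => le_rfl) fun y => by
          have := abs_add_three (c r y - c' r y) (h r y - h' r y) (k r y - k' r y)
          rwa [show c r y - c' r y + (h r y - h' r y) + (k r y - k' r y) =
            tot c h k r y - tot c' h' k' r y by simp only [tot]; ring] at this
      have e1 := stab_abs (S.primc hn le_rfl hs.1 z) (S'.primc hn le_rfl hs.1 z) hw
        (K := 16 * Real.pi * n * n * Mx z.2) fun r hr => by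
          have := stab_lam (z := fl r z) hn (S.sys_bddt hn r _) (S'.sys_bddt hn r _)
            (S'.sys_bdd hn S'.mc S'.c0 cle r _) (Rt r hr) (Rc r hr)
          rw [sub_sub_sub_cancel_left, abs_sub_comm]
          simp only [fl_snd] at this
          linarith
      have e2 := stab_abs (S.primh hn le_rfl hs.1 z) (S'.primh hn le_rfl hs.1 z) hw
        (K := 32 * Real.pi * n * n * Mx z.2) fun r hr => by
          have h1 := stab_lam (z := fl r z) hn (S.sys_bddt hn r _) (S'.sys_bddt hn r _)
            (S'.sys_bdd hn S'.mh S'.h0 hle r _) (Rt r hr) (Rh r hr)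
          have h2 := stab_Q hn (S.sys_bdd2 hn r (fl r z).1) (S'.sys_bdd2 hn r (fl r z).1)
            (S.sys_bdd2 hn r (fl r z).1) (S'.sys_bdd2 hn r (fl r z).1)
            (fun v => R2 r hr (_, v)) (fun v => R2 r hr (_, v)) z.2
          rw [sub_sub_sub_comm]
          refine (abs_sub _ _).trans ?_
          simp only [fl_snd, gain1, gainN] at h1 ⊢
          linarith
      have e3 := stab_abs (S.primk hn le_rfl hs.1 z) (S'.primk hn le_rfl hs.1 z) hw
        (K := 48 * Real.pi * n * n * Mx z.2) fun r hr => by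
          have h1 := stab_lam (z := fl r z) hn (S.sys_bddt hn r _) (S'.sys_bddt hn r _)
            (S'.sys_bddk hn r _) (Rt r hr) (Rk r hr)
          have h2 := stab_Q hn (S.sys_bddt hn r (fl r z).1) (S'.sys_bddt hn r (fl r z).1)
            (S.sys_bddk hn r (fl r z).1) (S'.sys_bddk hn r (fl r z).1)
            (fun v => Rt r hr (_, v)) (fun v => Rk r hr (_, v)) z.2
          have h3 := stab_Q hn (S.sys_bddk hn r (fl r z).1) (S'.sys_bddk hn r (fl r z).1)
            (S.sys_bdd2 hn r (fl r z).1) (S'.sys_bdd2 hn r (fl r z).1)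
            (fun v => Rk r hr (_, v)) (fun v => R2 r hr (_, v)) z.2
          rw [sub_sub_sub_comm]
          refine (abs_sub _ _).trans ?_
          simp only [fl_snd, gain2, gainN] at h1 ⊢
          rw [add_sub_add_comm]
          linarith [abs_add_le (QN n (sl (til n (tot c h k r)) (fl r z).1)
            (sl (reg n (tot c h k r) (k r)) (fl r z).1) z.2 - QN n (sl (til n (tot c' h' k' r))
            (fl r z).1) (sl (reg n (tot c' h' k' r) (k' r)) (fl r z).1) z.2)
            (QN n (sl (reg n (tot c h k r) (k r)) (fl r z).1)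
            (sl (reg n (tot c h k r) (two c h r)) (fl r z).1) z.2 -
            QN n (sl (reg n (tot c' h' k' r) (k' r)) (fl r z).1)
            (sl (reg n (tot c' h' k' r) (two c' h' r)) (fl r z).1) z.2)]
      have h1 := h0 (fl t₀ z)
      simp only [fl_snd] at h1
      linarith) (fl (-t) z) t ht
  simp only [fl_add, add_neg_cancel, fl_zero, fl_snd, div_le_iff₀ hM] at this
  refine this.trans (mul_le_mul_of_nonneg_right ?_ hM.le)
  rw [mul_comm]
  gcongr
  exact ht.2

end Sys

end

end Vale.Agent.P140
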