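import Vale.Agent.P140.Exist
import Vale.Agent.P140.Stab
import Vale.Agent.P140.Geo

/-! Normalization of the seed by the intermediate value theorem. -/

namespace Vale.Agent.P140

open MeasureTheory Set Filter Topology
open scoped ENNReal RealInnerProductSpace

noncomputable section

theorem exists_seeded {n t₀ Tf η : ℝ} (hn : 0 < n) (ht₀ : 0 < t₀) (hT : t₀ ≤ Tf)
    (hT' : Tf ≤ 1 / 4) (hη : 0 < η) {c₀ h₀ : Ph → ℝ} (mc : Measurable c₀) (mh : Measurable h₀)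
    (pc : ∀ z, 0 ≤ c₀ z) (ph : ∀ z, 0 ≤ h₀ z) {C : ℝ} (hC : ∀ z : Ph, c₀ z + h₀ z ≤ C * Mx z.2) :
    ∃ σ ∈ Icc (0 : ℝ) (10 ^ 4 * η * t₀ ^ 119), ∃ c h k : ℝ → Ph → ℝ, Sys n t₀ c h k ∧
      c t₀ = c₀ ∧ h t₀ = h₀ ∧
      k t₀ = (fun z => σ * (seedSet t₀).indicator (fun _ => (1 : ℝ)) z) ∧
      (∀ t ∈ Icc t₀ Tf, ∫ z, k t z ≤ η * t ^ 121) ∧
      ∃ t ∈ Icc t₀ Tf, η / 2 * t ^ 121 ≤ ∫ z, k t z := by
  have iM : Integrable fun z : Ph => Mx z.2 := by simpa using integrable_pow_Mx_Ph 0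
  have eM : ∫ z : Ph, Mx z.2 = 1 := by
    rw [← ENNReal.ofReal_eq_one, ofReal_integral_eq_lintegral_ofReal iM
      (ae_of_all _ fun z => (Mx_pos _).le), lintegral_Mx_Ph]
  have I1 := seed_le t₀
  have mS := measurableSet_seedSet t₀
  set I : Ph → ℝ := (seedSet t₀).indicator fun _ => (1 : ℝ) with hI
  have mI : Measurable I := measurable_const.indicator mS
  have I0 : ∀ z, 0 ≤ I z := fun z => indicator_nonneg (fun _ _ => zero_le_one) z
  have ex : ∀ σ : ℝ, ∃ c h k : ℝ → Ph → ℝ, Sys n t₀ c h k ∧ c t₀ = c₀ ∧ h t₀ = h₀ ∧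
      k t₀ = fun z => |σ| * I z := fun σ =>
    exists_sys hn t₀ mc mh (mI.const_mul _) pc ph (fun z => mul_nonneg (abs_nonneg _) (I0 z))
      (C := C + |σ| * 32) fun z => by
        nlinarith [hC z, mul_le_mul_of_nonneg_left (I1 z) (abs_nonneg σ)]
  choose c h k hS hc hh hk using ex
  obtain ⟨L, hL, hst⟩ := sys_stable hn t₀ Tf
  have ik : ∀ σ, ∀ t ∈ Icc t₀ Tf, Integrable (k σ t) := fun σ t ht => by
    obtain ⟨D, hD⟩ := (hS σ).upp Tf
    refine (iM.const_mul D).mono'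
      ((hS σ).mk'.comp (measurable_const.prodMk measurable_id)).aestronglyMeasurable
      (ae_of_all _ fun z => ?_)
    have h1 := hD t ht z
    rw [Real.norm_of_nonneg ((hS σ).k0 t z)]
    unfold tot at h1
    linarith [(hS σ).c0 t z, (hS σ).h0 t z]
  have lip : ∀ σ σ', ∀ t ∈ Icc t₀ Tf,
      ∫ z, k σ t z ≤ (∫ z, k σ' t z) + L * (32 * |σ - σ'|) := fun σ σ' t ht => by
    have h1 := hst (hS σ) (hS σ') (32 * |σ - σ'|) (by positivity) (fun z => by
      rw [hc, hc, hh, hh, hk, hk, sub_self, sub_self, abs_zero, zero_add, zero_add, ← sub_mul,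
        abs_mul, abs_of_nonneg (I0 z)]
      have h2 := mul_le_mul (abs_abs_sub_abs_le_abs_sub σ σ') (I1 z) (I0 z) (abs_nonneg _)
      linarith) t ht
    have h2 := integral_mono (ik σ t ht) ((ik σ' t ht).add (iM.const_mul (L * (32 * |σ - σ'|))))
      fun z => by
        have h3 := h1 z
        have h4 := le_abs_self (k σ t z - k σ' t z)
        simp only [Pi.add_apply]
        linarith [abs_nonneg (c σ t z - c σ' t z), abs_nonneg (h σ t z - h σ' t z)]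
    rw [integral_add' (ik σ' t ht) (iM.const_mul _), integral_const_mul, eM, mul_one] at h2
    exact h2
  let f : ℝ → ℝ → ℝ := fun σ t => (∫ z, k σ t z) / t ^ 121
  have lf : ∀ σ σ', ∀ t ∈ Icc t₀ Tf, f σ t ≤ f σ' t + L * 32 / t₀ ^ 121 * dist σ σ' :=
    fun σ σ' t ht => by
      have h1 : 0 < t := ht₀.trans_le ht.1
      have h2 : L * (32 * |σ - σ'|) / t ^ 121 ≤ L * (32 * |σ - σ'|) / t₀ ^ 121 :=
        div_le_div_of_nonneg_left (by positivity) (by positivity)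
          (pow_le_pow_left₀ ht₀.le ht.1 _)
      have h3 := div_le_div_of_nonneg_right (lip σ σ' t ht) (pow_pos h1 121).le
      rw [add_div] at h3
      have h4 : L * 32 / t₀ ^ 121 * dist σ σ' = L * (32 * |σ - σ'|) / t₀ ^ 121 := by
        rw [Real.dist_eq]
        ring
      simp only [f]
      linarith
  have f0 : ∀ t ∈ Icc t₀ Tf, f 0 t ≤ 0 := fun t ht => by
    refine div_nonpos_of_nonpos_of_nonneg (integral_nonpos fun z => ?_)
      (pow_pos (ht₀.trans_le ht.1) _).le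
    simpa using (hS 0).k_small hn le_rfl (fun z => by simp [hk]) ht.1 z
  have ne : ∀ σ, (f σ '' Icc t₀ Tf).Nonempty := fun σ => ⟨_, t₀, ⟨le_rfl, hT⟩, rfl⟩
  have bd : ∀ σ, BddAbove (f σ '' Icc t₀ Tf) := fun σ =>
    ⟨L * 32 / t₀ ^ 121 * dist σ 0, by
      rintro _ ⟨t, ht, rfl⟩
      linarith [lf σ 0 t ht, f0 t ht]⟩
  let S : ℝ → ℝ := fun σ => sSup (f σ '' Icc t₀ Tf)
  have le : ∀ σ, ∀ t ∈ Icc t₀ Tf, f σ t ≤ S σ := fun σ t ht => le_csSup (bd σ) ⟨t, ht, rfl⟩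
  have cS : Continuous S := (LipschitzWith.of_le_add_mul' (L * 32 / t₀ ^ 121) fun σ σ' =>
    csSup_le (ne σ) (by
      rintro _ ⟨t, ht, rfl⟩
      linarith [lf σ σ' t ht, le σ' t ht])).continuous
  have S0 : S 0 ≤ 0 := csSup_le (ne 0) (by
    rintro _ ⟨t, ht, rfl⟩
    exact f0 t ht)
  have hm : (0 : ℝ) ≤ 10 ^ 4 * η * t₀ ^ 119 := by positivity
  have S1 : η ≤ S (10 ^ 4 * η * t₀ ^ 119) := by
    refine le_trans ?_ (le _ t₀ ⟨le_rfl, hT⟩)
    have iI : Integrable I :=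
      (iM.const_mul 32).mono' mI.aestronglyMeasurable (ae_of_all _ fun z => by
        rw [Real.norm_of_nonneg (I0 z)]
        exact I1 z)
    have h1 : t₀ ^ 2 / 10 ^ 4 ≤ ∫ z, I z := by
      rw [← ENNReal.ofReal_le_ofReal_iff (integral_nonneg I0),
        ofReal_integral_eq_lintegral_ofReal iI (ae_of_all _ I0)]
      refine (seed_vol ht₀ (hT.trans hT')).trans_eq ?_
      rw [← lintegral_indicator_one mS]
      refine lintegral_congr fun z => ?_
      by_cases hz : z ∈ seedSet t₀ <;> simp [hI, hz]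
    simp only [f, hk]
    rw [integral_const_mul, abs_of_nonneg hm, le_div_iff₀ (by positivity)]
    refine le_trans (le_of_eq ?_) (mul_le_mul_of_nonneg_left h1 hm)
    field_simp
  obtain ⟨σ, hσ, e⟩ := intermediate_value_Icc hm cS.continuousOn
    (show 3 * η / 4 ∈ Icc (S 0) (S (10 ^ 4 * η * t₀ ^ 119)) from
      ⟨by linarith, le_trans (by linarith) S1⟩)
  refine ⟨σ, hσ, c σ, h σ, k σ, hS σ, hc σ, hh σ, by rw [hk, abs_of_nonneg hσ.1], fun t ht => ?_,
    ?_⟩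
  · rw [← div_le_iff₀ (pow_pos (ht₀.trans_le ht.1) _)]
    exact (le σ t ht).trans (by linarith)
  · obtain ⟨_, ⟨t, ht, rfl⟩, h1⟩ := exists_lt_of_lt_csSup (ne σ)
      (show η / 2 < S σ by linarith)
    exact ⟨t, ht, ((lt_div_iff₀ (pow_pos (ht₀.trans_le ht.1) _)).1 h1).le⟩

end

end Vale.Agent.P140
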