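import Vale.Agent.P140.One

/-! The iterated operator is controlled by the total mass. -/

namespace Vale.Agent.P140

open MeasureTheory Set Filter Topology
open scoped ENNReal RealInnerProductSpace

noncomputable section

theorem two_inv_le {u w : V} {k : ℝ} (hk : 0 < k) (h : w ∉ Metric.closedBall u k) :
    (ENNReal.ofReal ‖u - w‖)⁻¹ ≤ ENNReal.ofReal (1 / k) := by
  rw [Metric.mem_closedBall, dist_comm, dist_eq_norm, not_le] at h
  rw [one_div, ENNReal.ofReal_inv_of_pos hk]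
  exact ENNReal.inv_le_inv.2 (ENNReal.ofReal_le_ofReal h.le)

theorem two_split (f : V → ℝ≥0∞) (u : V) {k : ℝ} (hk : 0 < k) :
    ∫⁻ w, f w / ENNReal.ofReal ‖u - w‖
      ≤ (∫⁻ w in Metric.closedBall u k, f w / ENNReal.ofReal ‖u - w‖)
        + ENNReal.ofReal (1 / k) * ∫⁻ w, f w := by
  rw [← lintegral_add_compl (fun w => f w / ENNReal.ofReal ‖u - w‖)
    (measurableSet_closedBall (x := u) (ε := k))]
  refine add_le_add le_rfl ?_
  rw [← lintegral_const_mul' _ _ ENNReal.ofReal_ne_top]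
  refine le_trans (setLIntegral_mono' measurableSet_closedBall.compl fun w hw => ?_)
    (setLIntegral_le_lintegral _ _)
  rw [div_eq_mul_inv, mul_comm]
  exact mul_le_mul_left (two_inv_le hk hw) _

theorem two_outer {F G H : V → ℝ≥0∞} (v : V) {k R a : ℝ} (hk : 0 < k) (hv : ‖v‖ ≤ R)
    (ha : 0 ≤ a) (hG : ∀ u, F u ≤ G u)
    (hH : ∀ u, F u ≤ if ‖u‖ ≤ R then ENNReal.ofReal a + H u else 0) :
    ∫⁻ u, F u / ENNReal.ofReal ‖v - u‖
      ≤ (∫⁻ u in Metric.closedBall v k, G u / ENNReal.ofReal ‖v - u‖)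
        + (ENNReal.ofReal (a * (2 * Real.pi * (2 * R) ^ 2))
          + ENNReal.ofReal (1 / k) * ∫⁻ u in Metric.closedBall (0 : V) R, H u) := by
  have hR : 0 ≤ R := (norm_nonneg v).trans hv
  rw [← lintegral_add_compl (fun w => F w / ENNReal.ofReal ‖v - w‖)
    (measurableSet_closedBall (x := v) (ε := k))]
  refine add_le_add (lintegral_mono fun u => ENNReal.div_le_div_right (hG u) _) ?_
  have hm : Measurable fun u : V => ENNReal.ofReal a * (ENNReal.ofReal ‖v - u‖)⁻¹ :=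
    ((measurable_const.sub measurable_id).norm.ennreal_ofReal.inv).const_mul _
  calc ∫⁻ u in (Metric.closedBall v k)ᶜ, F u / ENNReal.ofReal ‖v - u‖
      ≤ ∫⁻ u in (Metric.closedBall v k)ᶜ,
          ((Metric.closedBall v (2 * R)).indicator
            (fun u => ENNReal.ofReal a * (ENNReal.ofReal ‖v - u‖)⁻¹) u
          + (Metric.closedBall (0 : V) R).indicator
            (fun u => ENNReal.ofReal (1 / k) * H u) u) := by
        refine setLIntegral_mono' measurableSet_closedBall.compl fun u hu => ?_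
        have h1 := hH u
        by_cases hu' : ‖u‖ ≤ R
        · rw [if_pos hu'] at h1
          have m1 : u ∈ Metric.closedBall v (2 * R) := by
            rw [Metric.mem_closedBall, dist_eq_norm]
            linarith [norm_sub_le u v]
          have m2 : u ∈ Metric.closedBall (0 : V) R := by simpa using hu'
          rw [indicator_of_mem m1, indicator_of_mem m2, div_eq_mul_inv]
          calc F u * (ENNReal.ofReal ‖v - u‖)⁻¹
              ≤ (ENNReal.ofReal a + H u) * (ENNReal.ofReal ‖v - u‖)⁻¹ := mul_le_mul_left h1 _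
            _ = ENNReal.ofReal a * (ENNReal.ofReal ‖v - u‖)⁻¹
                + (ENNReal.ofReal ‖v - u‖)⁻¹ * H u := by rw [add_mul, mul_comm (H u)]
            _ ≤ _ := add_le_add le_rfl (mul_le_mul_left (two_inv_le hk hu) _)
        · rw [if_neg hu'] at h1
          rw [le_zero_iff.1 h1, ENNReal.zero_div]
          exact zero_le
    _ ≤ ∫⁻ u, ((Metric.closedBall v (2 * R)).indicator
            (fun u => ENNReal.ofReal a * (ENNReal.ofReal ‖v - u‖)⁻¹) u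
          + (Metric.closedBall (0 : V) R).indicator
            (fun u => ENNReal.ofReal (1 / k) * H u) u) := setLIntegral_le_lintegral _ _
    _ = _ := by
        rw [lintegral_add_left (hm.indicator measurableSet_closedBall),
          lintegral_indicator measurableSet_closedBall,
          lintegral_indicator measurableSet_closedBall,
          lintegral_const_mul' _ _ ENNReal.ofReal_ne_top,
          lintegral_const_mul' _ _ ENNReal.ofReal_ne_top,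
          lintegral_inv_ball v (by positivity), ← ENNReal.ofReal_mul ha]

theorem two_time {J ρ : ℝ → ℝ≥0∞} {m s t t₀ k a b d : ℝ} (h0 : 0 ≤ t₀) (hm : t₀ ≤ m)
    (hs : s ≤ t) (ht : 0 ≤ t) (hk : 0 ≤ k) (ha : 0 ≤ a) (hb : 0 ≤ b)
    (h1 : ∀ r ∈ Ioc m s, J r ≤ ENNReal.ofReal a)
    (h2 : ∀ r ∈ Ioc m s, J r ≤ ENNReal.ofReal b + ENNReal.ofReal d * ρ r) :
    ∫⁻ r in Ioc m s, J r ≤ ENNReal.ofReal (k * a + t * b)
      + ENNReal.ofReal d * ∫⁻ r in Ioc t₀ (s - k), ρ r := by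
  calc ∫⁻ r in Ioc m s, J r
      ≤ ∫⁻ r in Ioc m s, (((Ioc (s - k) s).indicator (fun _ => ENNReal.ofReal a) r
          + (Ioc 0 t).indicator (fun _ => ENNReal.ofReal b) r)
          + (Ioc t₀ (s - k)).indicator (fun r => ENNReal.ofReal d * ρ r) r) := by
        refine setLIntegral_mono' measurableSet_Ioc fun r hr => ?_
        by_cases hrk : s - k < r
        · rw [indicator_of_mem (show r ∈ Ioc (s - k) s from ⟨hrk, hr.2⟩)]
          exact (h1 r hr).trans (le_self_add.trans le_self_add)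
        · rw [indicator_of_mem (show r ∈ Ioc 0 t from ⟨by linarith [hr.1], hr.2.trans hs⟩),
            indicator_of_mem (show r ∈ Ioc t₀ (s - k) from ⟨by linarith [hr.1], not_lt.1 hrk⟩)]
          exact (h2 r hr).trans (add_le_add le_add_self le_rfl)
    _ ≤ ∫⁻ r, (((Ioc (s - k) s).indicator (fun _ => ENNReal.ofReal a) r
          + (Ioc 0 t).indicator (fun _ => ENNReal.ofReal b) r)
          + (Ioc t₀ (s - k)).indicator (fun r => ENNReal.ofReal d * ρ r) r) :=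
        setLIntegral_le_lintegral _ _
    _ = _ := by
        rw [lintegral_add_left ((measurable_const.indicator measurableSet_Ioc).fun_add
            (measurable_const.indicator measurableSet_Ioc)),
          lintegral_add_left (measurable_const.indicator measurableSet_Ioc),
          lintegral_indicator measurableSet_Ioc, lintegral_indicator measurableSet_Ioc,
          lintegral_indicator measurableSet_Ioc, lintegral_const_mul' _ _ ENNReal.ofReal_ne_top,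
          setLIntegral_const, setLIntegral_const, Real.volume_Ioc, Real.volume_Ioc,
          ← ENNReal.ofReal_mul ha, ← ENNReal.ofReal_mul hb,
          ← ENNReal.ofReal_add (mul_nonneg ha (by linarith)) (mul_nonneg hb (by linarith))]
        have : a * (s - (s - k)) + b * (t - 0) = k * a + t * b := by ring
        rw [this]

theorem two_main {g : ℝ → Ph → ℝ≥0∞} (hg : Measurable (fun p : ℝ × Ph => g p.1 p.2)) (x : T3)
    {s t t₀ k R η : ℝ} (h0 : 0 < t₀) (hs : s ≤ t) (ht : 0 ≤ t) (hk : 0 < k) (hR : 0 ≤ R)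
    (htR : t * R ≤ 1 / 10) (hη : 0 ≤ η)
    (hm : ∀ r ∈ Icc t₀ t, ∫⁻ z, g r z ≤ ENNReal.ofReal (η * r ^ 121)) :
    ∫⁻ u in Metric.closedBall (0 : V) R, ∫⁻ r in Ioc t₀ (s - k),
        ∫⁻ w, g r ((fl (r - s) (x, u)).1, w)
      ≤ ENNReal.ofReal (t * (η * t ^ 121 / k ^ 3)) := by
  have m1 : Measurable fun p : V × ℝ => ∫⁻ w, g p.2 ((fl (p.2 - s) (x, p.1)).1, w) := by
    refine Measurable.lintegral_prod_right' (f := fun q : (V × ℝ) × V =>
      g q.1.2 ((fl (q.1.2 - s) (x, q.1.1)).1, q.2)) ?_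
    have m2 : Measurable fun q : (V × ℝ) × V => (fl (q.1.2 - s) (x, q.1.1)).1 :=
      (measurable_fl.comp ((measurable_fst.snd.sub measurable_const).prodMk
        (measurable_const.prodMk measurable_fst.fst))).fst
    exact hg.comp (measurable_fst.snd.prodMk (m2.prodMk measurable_snd))
  rw [lintegral_lintegral_swap m1.aemeasurable]
  calc ∫⁻ r in Ioc t₀ (s - k), ∫⁻ u in Metric.closedBall (0 : V) R,
          ∫⁻ w, g r ((fl (r - s) (x, u)).1, w)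
      ≤ ∫⁻ r in Ioc t₀ (s - k), ENNReal.ofReal (η * t ^ 121 / k ^ 3) := by
        refine setLIntegral_mono' measurableSet_Ioc fun r hr => ?_
        have hr1 := hr.1
        have hr2 := hr.2
        have mg : Measurable (g r) := hg.comp measurable_prodMk_left
        have mρ : Measurable fun y : T3 => ∫⁻ w, g r (y, w) := mg.lintegral_prod_right'
        have habs : |r - s| = s - r := by rw [abs_sub_comm, abs_of_nonneg (by linarith)]
        have h1 := lintegral_ball_pr_le mρ x (τ := r - s) (R := R) (by linarith)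
          (by rw [habs]; nlinarith)
        refine le_trans h1 ?_
        have h2 : ∫⁻ y : T3, ∫⁻ w, g r (y, w) = ∫⁻ z, g r z := by
          rw [Measure.volume_eq_prod, lintegral_prod _ mg.aemeasurable]
        rw [h2, habs]
        have h3 : 1 / (s - r) ^ 3 ≤ 1 / k ^ 3 :=
          one_div_le_one_div_of_le (by positivity) (pow_le_pow_left₀ hk.le (by linarith) 3)
        have h4 : η * r ^ 121 ≤ η * t ^ 121 :=
          mul_le_mul_of_nonneg_left (pow_le_pow_left₀ (by linarith) (by linarith) _) hη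
        calc ENNReal.ofReal (1 / (s - r) ^ 3) * ∫⁻ z, g r z
            ≤ ENNReal.ofReal (1 / k ^ 3) * ENNReal.ofReal (η * t ^ 121) :=
              mul_le_mul' (ENNReal.ofReal_le_ofReal h3)
                ((hm r ⟨hr1.le, by linarith⟩).trans (ENNReal.ofReal_le_ofReal h4))
          _ = _ := by
              rw [← ENNReal.ofReal_mul (by positivity)]
              congr 1
              ring
    _ ≤ _ := by
        rw [setLIntegral_const, Real.volume_Ioc, mul_comm t,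
          ENNReal.ofReal_mul (by positivity)]
        exact mul_le_mul_right (ENNReal.ofReal_le_ofReal (by linarith)) _

/-- Bound for the inner operator. -/
theorem two_inner {P : CP} (hP : P.Ok) {R σL l₀ t₀ t s A B k2 k3 Cn Ci : ℝ} (hσ : 0 < σL)
    (hl : 0 < l₀) (h0 : 0 < t₀) (hs0 : 0 < s) (hs : s ≤ t) (ht : t ≤ 1 / 100)
    (hR : 0 ≤ R) (htR : t * R ≤ 1 / 10) (hA : 0 ≤ A) (hk2 : 0 < k2) (hk3 : k3 ∈ Ioc (0 : ℝ) 1)
    (hCn0 : 0 < Cn) (hCi0 : 0 < Ci)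
    (hCn : ∀ t ∈ Icc (0 : ℝ) (1 / 8), ∀ (u : ℂ) (R : ℝ) (v : V),
      ∀ ρ ∈ Ioc (0 : ℝ) 1, ∫⁻ a in Metric.closedBall v ρ, Wf t u R a / ENNReal.ofReal ‖v - a‖
        ≤ ENNReal.ofReal (Cn * Real.sqrt ρ))
    (hCi : ∀ t ∈ Icc (0 : ℝ) (1 / 8), ∀ (u : ℂ) (v : V),
      ∫⁻ a, Wf t u R a / ENNReal.ofReal ‖v - a‖ ≤ ENNReal.ofReal Ci)
    (hB : 404 * P.K / (P.e0 * (σL * l₀ * s) ^ 3) ≤ B)
    {g : ℝ → Ph → ℝ≥0∞} (hg : Measurable (fun p : ℝ × Ph => g p.1 p.2))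
    (hgW : ∀ s ∈ Icc t₀ t, ∀ z, g s z ≤ ENNReal.ofReal (A * s ^ 2) * W P.c R s z)
    (x : T3) (u : V) :
    Lop P R σL l₀ t₀ g s (x, u) ≤ if ‖u‖ ≤ R then
      ENNReal.ofReal (k2 * (B * (A * t ^ 2 * Ci)) + t * (B * (A * t ^ 2 * (Cn * Real.sqrt k3))))
        + ENNReal.ofReal (B / k3) * ∫⁻ r in Ioc t₀ (s - k2),
          ∫⁻ w, g r ((fl (r - s) (x, u)).1, w) else 0 := by
  refine (Lop_kernel hP hσ hl hs0 (hs.trans ht) hg (x, u)).trans ?_
  have hB0 : 0 ≤ B := le_trans (by have := hP.K_pos; have := hP.e_pos; positivity) hB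
  by_cases hu : ‖u‖ ≤ R
  swap
  · rw [if_neg hu, if_neg hu]
  rw [if_pos hu, if_pos hu]
  have key : ∀ r ∈ Ioc (max t₀ (l₀ * s)) s, ∀ (y : T3) (w : V),
      g r (y, w) ≤ ENNReal.ofReal (A * t ^ 2) * Wf r (uf P.c r y) R w := by
    intro r hr y w
    have hr1 : t₀ < r := (le_max_left _ _).trans_lt hr.1
    have hr2 : r ≤ t := hr.2.trans hs
    refine (hgW r ⟨hr1.le, hr2⟩ (y, w)).trans (mul_le_mul' (ENNReal.ofReal_le_ofReal ?_)
      (W_le_Wf _ (h0.trans hr1) ?_ _ _))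
    · exact mul_le_mul_of_nonneg_left (pow_le_pow_left₀ (by linarith) hr2 _) hA
    · nlinarith
  have hI : ∀ r ∈ Ioc (max t₀ (l₀ * s)) s, r ∈ Icc (0 : ℝ) (1 / 8) := by
    intro r hr
    have hr1 : t₀ < r := (le_max_left _ _).trans_lt hr.1
    exact ⟨by linarith, by linarith [hr.2]⟩
  have hAt : 0 ≤ A * t ^ 2 := by positivity
  refine two_time h0.le (le_max_left _ _) hs (by linarith) hk2.le (by positivity) (by positivity)
    (fun r hr => ?_) (fun r hr => ?_)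
  · rw [ENNReal.ofReal_mul hB0, ENNReal.ofReal_mul hAt]
    refine mul_le_mul' (ENNReal.ofReal_le_ofReal hB) ?_
    refine le_trans ?_ (mul_le_mul_right (hCi r (hI r hr) (uf P.c r (fl (r - s) (x, u)).1) u) _)
    rw [← lintegral_const_mul' _ _ ENNReal.ofReal_ne_top]
    refine lintegral_mono fun w => ?_
    rw [← mul_div_assoc]
    exact ENNReal.div_le_div_right (key r hr _ w) _
  · rw [ENNReal.ofReal_mul hB0, ENNReal.ofReal_mul hAt, div_eq_mul_one_div B,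
      ENNReal.ofReal_mul hB0, mul_assoc (ENNReal.ofReal B), ← mul_add]
    refine mul_le_mul' (ENNReal.ofReal_le_ofReal hB) ?_
    refine (two_split _ u hk3.1).trans (add_le_add ?_ le_rfl)
    refine le_trans ?_
      (mul_le_mul_right (hCn r (hI r hr) (uf P.c r (fl (r - s) (x, u)).1) R u k3 hk3) _)
    rw [← lintegral_const_mul' _ _ ENNReal.ofReal_ne_top]
    refine lintegral_mono fun w => ?_
    rw [← mul_div_assoc]
    exact ENNReal.div_le_div_right (key r hr _ w) _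

/-- Bound for the outer velocity integral. -/
theorem two_mid {P : CP} (hP : P.Ok) {R σL l₀ t₀ t s A η B κ b Cn Ci : ℝ} (hσ : 0 < σL)
    (hl : 0 < l₀) (h0 : 0 < t₀) (hs0 : 0 < s) (hs : s ≤ t) (ht : t ≤ 1 / 100)
    (hR : 0 ≤ R) (htR : t * R ≤ 1 / 10) (hA : 0 ≤ A) (hη : 0 ≤ η) (hκ0 : 0 < κ) (hκ1 : κ ≤ 1)
    (hb : 0 < b) (hCn0 : 0 < Cn) (hCi0 : 0 < Ci)
    (hCn : ∀ t ∈ Icc (0 : ℝ) (1 / 8), ∀ (u : ℂ) (R : ℝ) (v : V),
      ∀ ρ ∈ Ioc (0 : ℝ) 1, ∫⁻ a in Metric.closedBall v ρ, Wf t u R a / ENNReal.ofReal ‖v - a‖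
        ≤ ENNReal.ofReal (Cn * Real.sqrt ρ))
    (hCi : ∀ t ∈ Icc (0 : ℝ) (1 / 8), ∀ (u : ℂ) (v : V),
      ∫⁻ a, Wf t u R a / ENNReal.ofReal ‖v - a‖ ≤ ENNReal.ofReal Ci)
    (hB : 404 * P.K / (P.e0 * (σL * l₀ * s) ^ 3) ≤ B)
    {g : ℝ → Ph → ℝ≥0∞} (hg : Measurable (fun p : ℝ × Ph => g p.1 p.2))
    (hgW : ∀ s ∈ Icc t₀ t, ∀ z, g s z ≤ ENNReal.ofReal (A * s ^ 2) * W P.c R s z)
    (hgm : ∀ r ∈ Icc t₀ t, ∫⁻ z, g r z ≤ ENNReal.ofReal (η * r ^ 121))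
    (x : T3) {v : V} (hv : ‖v‖ ≤ R)
    (hG : ∀ u, Lop P R σL l₀ t₀ g s (x, u)
      ≤ ENNReal.ofReal (b * A * t ^ 2) * Wf s (uf P.c s x) R u) :
    ∫⁻ u, Lop P R σL l₀ t₀ g s (x, u) / ENNReal.ofReal ‖v - u‖
      ≤ ENNReal.ofReal (b * A * t ^ 2 * (Cn * κ)
        + ((κ ^ 3 * (B * (A * t ^ 2 * Ci)) + t * (B * (A * t ^ 2 * (Cn * κ ^ 2))))
            * (2 * Real.pi * (2 * R) ^ 2)
          + 1 / κ ^ 2 * (B / κ ^ 4 * (t * (η * t ^ 121 / (κ ^ 3) ^ 3))))) := by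
  have ht0 : 0 < t := hs0.trans_le hs
  have hB0 : 0 ≤ B := le_trans (by have := hP.K_pos; have := hP.e_pos; positivity) hB
  have hsq2 : Real.sqrt (κ ^ 2) = κ := Real.sqrt_sq hκ0.le
  have hsq4 : Real.sqrt (κ ^ 4) = κ ^ 2 := by
    rw [show κ ^ 4 = (κ ^ 2) ^ 2 by ring]
    exact Real.sqrt_sq (by positivity)
  have hH := fun u => two_inner hP (k2 := κ ^ 3) (k3 := κ ^ 4) hσ hl h0 hs0 hs ht hR htR hA
    (by positivity) ⟨by positivity, pow_le_one₀ hκ0.le hκ1⟩ hCn0 hCi0 hCn hCi hB hg hgW x u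
  rw [hsq4] at hH
  obtain ⟨a, ha⟩ : ∃ a : ℝ, a = κ ^ 3 * (B * (A * t ^ 2 * Ci))
      + t * (B * (A * t ^ 2 * (Cn * κ ^ 2))) := ⟨_, rfl⟩
  have ha0 : 0 ≤ a := by rw [ha]; positivity
  rw [← ha] at hH ⊢
  refine (two_outer v (k := κ ^ 2) (by positivity) hv ha0 hG hH).trans ?_
  have hpi := Real.pi_pos
  rw [ENNReal.ofReal_add (by positivity) (by positivity),
    ENNReal.ofReal_add (by positivity) (by positivity)]
  refine add_le_add ?_ (add_le_add le_rfl ?_)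
  · have h1 := hCn s ⟨hs0.le, by linarith⟩ (uf P.c s x) R v (κ ^ 2)
      ⟨by positivity, pow_le_one₀ hκ0.le hκ1⟩
    rw [hsq2] at h1
    rw [ENNReal.ofReal_mul (p := b * A * t ^ 2) (by positivity)]
    refine le_trans ?_ (mul_le_mul_right h1 _)
    rw [← lintegral_const_mul' _ _ ENNReal.ofReal_ne_top]
    exact lintegral_mono fun w => (mul_div_assoc _ _ _).le
  · rw [ENNReal.ofReal_mul (p := 1 / κ ^ 2) (by positivity),
      ENNReal.ofReal_mul (p := B / κ ^ 4) (by positivity),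
      lintegral_const_mul' _ _ ENNReal.ofReal_ne_top]
    exact mul_le_mul_right (mul_le_mul_right
      (two_main hg x h0 hs ht0.le (by positivity) hR htR hη hgm) _) _

theorem two_arith {C0 b Cn Ci E k0 e0 t A η γ m : ℝ} (hC0 : 0 < C0) (hCn : 0 < Cn)
    (hCi : 0 < Ci) (hE : 0 < E) (hk0 : 0 < k0) (hk1 : k0 ≤ 1) (he : 0 < e0) (he1 : e0 ≤ 1)
    (ht : 0 < t) (ht1 : t ≤ 1) (hA : 0 ≤ A) (hη : 0 ≤ η) (hm : 0 < m)
    (hkγ : k0 * (C0 * b * Cn + E * C0 ^ 2 * (Ci + Cn)) ≤ γ * m) :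
    C0 / (e0 * t ^ 3) * (b * A * t ^ 2 * (Cn * (k0 * e0 * t ^ 2))
      + (((k0 * e0 * t ^ 2) ^ 3 * (C0 / (e0 * t ^ 3) * (A * t ^ 2 * Ci))
          + t * (C0 / (e0 * t ^ 3) * (A * t ^ 2 * (Cn * (k0 * e0 * t ^ 2) ^ 2)))) * E
        + 1 / (k0 * e0 * t ^ 2) ^ 2 * (C0 / (e0 * t ^ 3) / (k0 * e0 * t ^ 2) ^ 4
          * (t * (η * t ^ 121 / ((k0 * e0 * t ^ 2) ^ 3) ^ 3))))) * t
      ≤ (γ * A + C0 ^ 2 / (k0 ^ 15 * m) * η / e0 ^ 48) * t ^ 2 * m := by
  have e1 : C0 / (e0 * t ^ 3) * (b * A * t ^ 2 * (Cn * (k0 * e0 * t ^ 2))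
      + (((k0 * e0 * t ^ 2) ^ 3 * (C0 / (e0 * t ^ 3) * (A * t ^ 2 * Ci))
          + t * (C0 / (e0 * t ^ 3) * (A * t ^ 2 * (Cn * (k0 * e0 * t ^ 2) ^ 2)))) * E
        + 1 / (k0 * e0 * t ^ 2) ^ 2 * (C0 / (e0 * t ^ 3) / (k0 * e0 * t ^ 2) ^ 4
          * (t * (η * t ^ 121 / ((k0 * e0 * t ^ 2) ^ 3) ^ 3))))) * t
      = A * t ^ 2 * (k0 * (C0 * b * Cn + E * C0 ^ 2 * (k0 ^ 2 * e0 * t * Ci + k0 * Cn)))
        + C0 ^ 2 / k0 ^ 15 * η * t ^ 2 * (t ^ 85 / e0 ^ 17) := by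
    field_simp
    ring
  have e2 : (γ * A + C0 ^ 2 / (k0 ^ 15 * m) * η / e0 ^ 48) * t ^ 2 * m
      = A * t ^ 2 * (γ * m) + C0 ^ 2 / k0 ^ 15 * η * t ^ 2 * (1 / e0 ^ 48) := by
    field_simp
  rw [e1, e2]
  have h1 : k0 ^ 2 * e0 * t ≤ 1 := by
    have : k0 ^ 2 ≤ 1 := pow_le_one₀ hk0.le hk1
    calc k0 ^ 2 * e0 * t ≤ 1 * 1 * 1 := by gcongr
      _ = 1 := by norm_num
  have h2 : k0 ^ 2 * e0 * t * Ci + k0 * Cn ≤ Ci + Cn := by nlinarith
  have h3 : t ^ 85 / e0 ^ 17 ≤ 1 / e0 ^ 48 :=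
    div_le_div₀ zero_le_one (pow_le_one₀ ht.le ht1) (by positivity)
      (pow_le_pow_of_le_one he.le he1 (by norm_num))
  refine add_le_add (mul_le_mul_of_nonneg_left (le_trans ?_ hkγ) (by positivity))
    (mul_le_mul_of_nonneg_left h3 (by positivity))
  gcongr

theorem two_step {c K R σL l₀ γ : ℝ} (hc : 0 < c) (hK : 0 < K) (hR : 3 ≤ R) (hσ : 0 < σL)
    (hl : 0 < l₀) (hl' : l₀ ≤ 1) (hγ : 0 < γ) : ∃ C : ℝ, 0 < C ∧ ∀ (M : ℕ) (e0 r1 : ℝ),
      CP.Ok ⟨c, K, M, e0, r1⟩ → ∀ t₀ t : ℝ, 0 < t₀ → t₀ ≤ t → t ≤ 1 / 100 → t * R ≤ 1 / 10 →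
        ∀ (g : ℝ → Ph → ℝ≥0∞) (A η : ℝ), Measurable (fun p : ℝ × Ph => g p.1 p.2) → 0 ≤ A →
          0 ≤ η → (∀ s ∈ Icc t₀ t, ∀ z, g s z ≤ ENNReal.ofReal (A * s ^ 2) * W c R s z) →
          (∀ s ∈ Icc t₀ t, ∫⁻ z, g s z ≤ ENNReal.ofReal (η * s ^ 121)) → ∀ z : Ph,
            Lop ⟨c, K, M, e0, r1⟩ R σL l₀ t₀ (Lop ⟨c, K, M, e0, r1⟩ R σL l₀ t₀ g) t z
              ≤ ENNReal.ofReal ((γ * A + C * η / e0 ^ 48) * t ^ 2) * W c R t z := by
  obtain ⟨Cl, hCl0, hCl⟩ := Lop_norm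
  obtain ⟨Cn, hCn0, hCn⟩ := near_Wf
  obtain ⟨Ci, hCi0, hCi⟩ := inv_Wf R
  have hR0 : 0 < R := by linarith
  obtain ⟨C0, hC0⟩ : ∃ C0 : ℝ, C0 = 404 * K / (σL * l₀ ^ 2) ^ 3 := ⟨_, rfl⟩
  obtain ⟨b, hb⟩ : ∃ b : ℝ, b = Cl * (K / c) := ⟨_, rfl⟩
  obtain ⟨E, hE⟩ : ∃ E : ℝ, E = 2 * Real.pi * (2 * R) ^ 2 := ⟨_, rfl⟩
  obtain ⟨m, hm⟩ : ∃ m : ℝ, m = Real.exp (-R ^ 2 / 4) := ⟨_, rfl⟩
  have hC00 : 0 < C0 := by rw [hC0]; positivity
  have hb0 : 0 < b := by rw [hb]; positivity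
  have hE0 : 0 < E := by rw [hE]; have := Real.pi_pos; positivity
  have hm0 : 0 < m := by rw [hm]; positivity
  obtain ⟨k0, hk0, hk1, hkγ⟩ : ∃ k0 : ℝ, 0 < k0 ∧ k0 ≤ 1 ∧
      k0 * (C0 * b * Cn + E * C0 ^ 2 * (Ci + Cn)) ≤ γ * m := by
    have hD : 0 < C0 * b * Cn + E * C0 ^ 2 * (Ci + Cn) := by positivity
    refine ⟨min 1 (γ * m / (C0 * b * Cn + E * C0 ^ 2 * (Ci + Cn))),
      lt_min one_pos (by positivity), min_le_left _ _, ?_⟩
    rw [← le_div_iff₀ hD]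
    exact min_le_right _ _
  refine ⟨C0 ^ 2 / (k0 ^ 15 * m), by positivity, ?_⟩
  intro M e0 r1 hP t₀ t h0 h0t ht htR g A η hg hA hη hgW hgm z
  have he : 0 < e0 := hP.e_pos
  have he1 : e0 ≤ 1 := hP.e_le
  have ht0 : 0 < t := h0.trans_le h0t
  refine (Lop_kernel hP hσ hl ht0 ht (measurable_Lop hg) z).trans ?_
  by_cases hv : ‖z.2‖ ≤ R
  swap
  · rw [if_neg hv]
    exact zero_le
  rw [if_pos hv]
  obtain ⟨κ, hκ⟩ : ∃ κ : ℝ, κ = k0 * e0 * t ^ 2 := ⟨_, rfl⟩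
  have hκ0 : 0 < κ := by rw [hκ]; positivity
  have hκ1 : κ ≤ 1 := by
    have : t ^ 2 ≤ 1 := pow_le_one₀ ht0.le (by linarith)
    rw [hκ]
    calc k0 * e0 * t ^ 2 ≤ 1 * 1 * 1 := by gcongr
      _ = 1 := by norm_num
  obtain ⟨B, hB⟩ : ∃ B : ℝ, B = C0 / (e0 * t ^ 3) := ⟨_, rfl⟩
  have hB0 : 0 < B := by rw [hB]; positivity
  have hBs : ∀ s, l₀ * t ≤ s → 404 * K / (e0 * (σL * l₀ * s) ^ 3) ≤ B := by
    intro s hs
    have e : B = 404 * K / (e0 * (σL * l₀ * (l₀ * t)) ^ 3) := by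
      rw [hB, hC0]
      field_simp
    rw [e]
    gcongr
  obtain ⟨a, ha⟩ : ∃ a : ℝ, a = κ ^ 3 * (B * (A * t ^ 2 * Ci))
      + t * (B * (A * t ^ 2 * (Cn * κ ^ 2))) := ⟨_, rfl⟩
  have ha0 : 0 ≤ a := by rw [ha]; positivity
  obtain ⟨Y, hY⟩ : ∃ Y : ℝ, Y = b * A * t ^ 2 * (Cn * κ) + (a * E
      + 1 / κ ^ 2 * (B / κ ^ 4 * (t * (η * t ^ 121 / (κ ^ 3) ^ 3)))) := ⟨_, rfl⟩
  have hY0 : 0 ≤ Y := by rw [hY]; positivity
  have step : ∀ s ∈ Ioc (max t₀ (l₀ * t)) t, ∀ x : T3,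
      ∫⁻ u, Lop ⟨c, K, M, e0, r1⟩ R σL l₀ t₀ g s (x, u) / ENNReal.ofReal ‖z.2 - u‖
        ≤ ENNReal.ofReal Y := by
    intro s hs x
    have hs1 : t₀ < s := (le_max_left _ _).trans_lt hs.1
    have hs2 : l₀ * t < s := (le_max_right _ _).trans_lt hs.1
    have hs0 : 0 < s := h0.trans hs1
    have hsR : s * R ≤ 1 / 8 :=
      ((mul_le_mul_of_nonneg_right hs.2 hR0.le).trans htR).trans (by norm_num)
    rw [hY, ha, hE]
    refine two_mid hP hσ hl h0 hs0 hs.2 ht hR0.le htR hA hη hκ0 hκ1 hb0 hCn0 hCi0 hCn hCi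
      (hBs s hs2.le) hg hgW hgm x hv fun u => ?_
    refine (Lop_mono (g' := fun s y => ENNReal.ofReal (A * s ^ 2) * W c R s y)
      (fun r hr y => hgW r ⟨hr.1.le, hr.2.trans hs.2⟩ y) (x, u)).trans ?_
    refine (hCl _ hP R σL l₀ t₀ s A hR h0 hs0 (hs.2.trans ht) hsR hA (x, u)).trans ?_
    refine mul_le_mul' (ENNReal.ofReal_le_ofReal ?_) (W_le_Wf _ hs0 hsR _ _)
    rw [hb]
    exact mul_le_mul_of_nonneg_left (pow_le_pow_left₀ hs0.le hs.2 _) (by positivity)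
  calc ∫⁻ s in Ioc (max t₀ (l₀ * t)) t,
        ENNReal.ofReal (404 * K / (e0 * (σL * l₀ * t) ^ 3)) *
          ∫⁻ u, Lop ⟨c, K, M, e0, r1⟩ R σL l₀ t₀ g s ((fl (s - t) z).1, u)
            / ENNReal.ofReal ‖z.2 - u‖
      ≤ ∫⁻ s in Ioc (max t₀ (l₀ * t)) t, ENNReal.ofReal (B * Y) := by
        refine setLIntegral_mono' measurableSet_Ioc fun s hs => ?_
        rw [ENNReal.ofReal_mul hB0.le]
        exact mul_le_mul' (ENNReal.ofReal_le_ofReal (hBs t (mul_le_of_le_one_left ht0.le hl'))) (step s hs _)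
    _ ≤ ENNReal.ofReal (B * Y * t) := by
        rw [setLIntegral_const, Real.volume_Ioc, ENNReal.ofReal_mul (p := B * Y) (by positivity)]
        refine mul_le_mul_right (ENNReal.ofReal_le_ofReal ?_) _
        linarith [le_max_left t₀ (l₀ * t)]
    _ ≤ ENNReal.ofReal ((γ * A + C0 ^ 2 / (k0 ^ 15 * m) * η / e0 ^ 48) * t ^ 2 * m) := by
        refine ENNReal.ofReal_le_ofReal ?_
        rw [hY, ha, hB, hκ]
        exact two_arith hC00 hCn0 hCi0 hE0 hk0 hk1 he he1 ht0 (by linarith) hA hη hm0 hkγ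
    _ ≤ _ := by
        rw [ENNReal.ofReal_mul (by positivity)]
        refine mul_le_mul_right (le_trans (ENNReal.ofReal_le_ofReal ?_) (mt_le_W c R t z)) _
        rw [hm]
        exact mt_ge ht0.le hv

end

end Vale.Agent.P140
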