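import Vale.Agent.P140.One2
import Vale.Agent.P140.Two
import Vale.Agent.P140.Ode2

/-! Pointwise control of label two from its total mass. -/

namespace Vale.Agent.P140

open MeasureTheory Set Filter Topology
open scoped ENNReal RealInnerProductSpace

noncomputable section

theorem ly_M (c R : ℝ) {a b s : ℝ} (hb : 0 ≤ b) (hab : a ≤ b) (hs : 0 ≤ s) (z : Ph) :
    ENNReal.ofReal (a * Mx z.2) ≤ ENNReal.ofReal b * W c R s z := by
  refine le_trans ?_ (mul_le_mul_right (mt_le_W c R s z) _)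
  rw [← ENNReal.ofReal_mul hb]
  exact ENNReal.ofReal_le_ofReal (mul_le_mul hab (Mx_le_mt hs _) (Mx_pos _).le hb)

theorem ly_mass {n t₀ T : ℝ} {cc h k : ℝ → Ph → ℝ} (S : Sys n t₀ cc h k) {s : ℝ}
    (hs : s ∈ Icc t₀ T) : ∫⁻ z, ENNReal.ofReal (k s z) = ENNReal.ofReal (∫ z, k s z) := by
  obtain ⟨C, hC⟩ := S.upp T
  have hi : Integrable (fun z : Ph => C * Mx z.2) :=
    (integrable_Mx.comp_snd (volume : Measure T3)).const_mul C
  refine (ofReal_integral_eq_lintegral_ofReal (hi.mono'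
    (S.mk'.comp measurable_prodMk_left).aestronglyMeasurable (Eventually.of_forall fun z => ?_))
    (Eventually.of_forall fun z => S.k0 s z)).symm
  exact (Real.norm_of_nonneg (S.k0 s z)).trans_le ((S.sys_k_le s z).trans (hC s hs z))

theorem ly_lip {n t₀ : ℝ} {cc h k : ℝ → Ph → ℝ} (hn : 0 < n) (S : Sys n t₀ cc h k) (z : Ph)
    {s t : ℝ} (hs : t₀ ≤ s) (hst : s ≤ t) : ENNReal.ofReal (k t (fl t z))
      ≤ ENNReal.ofReal (k s (fl s z))
        + ENNReal.ofReal (8 * Real.pi * n * n * n * (t - s)) * ENNReal.ofReal (Mx z.2) := by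
  have hπ := Real.pi_pos
  refine (Prim.ofReal_le (S.primk hn hs hst z) (S.gain2_int hn s t z)
    (fun r _ => S.gain2_nonneg hn r _)
    (fun r _ => mul_nonneg (lam_nonneg hn (S.tot_nonneg r)) (S.k0 _ _))).trans
    (add_le_add le_rfl ?_)
  refine (lintegral_mono fun r => ENNReal.ofReal_le_ofReal (S.gain2_le hn r (fl r z))).trans ?_
  have hM := Mx_pos z.2
  have hts := sub_nonneg.2 hst
  simp only [fl_snd]
  rw [setLIntegral_const, Real.volume_Ioc, ← ENNReal.ofReal_mul (by positivity),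
    ← ENNReal.ofReal_mul (by positivity), mul_right_comm]

theorem ly_arith {b C e η A γ t : ℝ} (hb : 0 < b) (he : 0 < e) (he1 : e ≤ 1)
    (hη : 0 < η) (hγ : γ = 1 / (8 * (1 + b))) (hA : A = 2 * (1 + b + C) * η / e) :
    (η + γ * (2 * A)) * t ^ 2 + (b * (η + γ * (2 * A)) * t ^ 2
      + (1 / 8 * (2 * A) + C * η / e) * t ^ 2) ≤ A * t ^ 2 := by
  have h1 : (1 + b) * (γ * (2 * A)) = A / 4 := by
    rw [hγ]
    field_simp
    ring
  have h2 : η ≤ η / e := le_div_self hη.le he he1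
  have h3 : A / 2 = (1 + b) * (η / e) + C * η / e := by
    rw [hA]
    ring
  have h4 : (1 + b) * η ≤ (1 + b) * (η / e) := mul_le_mul_of_nonneg_left h2 (by linarith)
  rw [← add_mul, ← add_mul]
  refine mul_le_mul_of_nonneg_right ?_ (sq_nonneg t)
  nlinarith

theorem ly {c K : ℝ} (M : ℕ) (hc : 0 < c) (hc' : c ≤ 1 / 2) (hK : 0 < K) :
    ∃ R CL sb : ℝ, 4 ≤ R ∧ 0 < CL ∧ 0 < sb ∧ sb ≤ 1 / 100 ∧ sb * R ≤ 1 / 10 ∧
      ∀ e0 r1 : ℝ, CP.Ok ⟨c, K, M, e0, r1⟩ → e0 ≤ sb →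
        ∀ (n t₀ T η : ℝ) (cc h k : ℝ → Ph → ℝ), 0 < n → 0 < t₀ → T ≤ sb → 0 < η →
          CL * η / e0 ^ 48 ≤ 1 / 2 → Sys n t₀ cc h k →
          (∀ z, cc t₀ z = cf ⟨c, K, M, e0, r1⟩ t₀ z) →
          (∀ s ∈ Icc t₀ T, ∀ z, ENNReal.ofReal (h s z) ≤ Nar c e0 s z + W c R s z) →
          (∀ z : Ph, k t₀ z ≤ η * t₀ ^ 2 * Mx z.2) →
          (∀ s ∈ Icc t₀ T, ∫ z, k s z ≤ η * s ^ 121) →
          ∀ t ∈ Icc t₀ T, ∀ z, ENNReal.ofReal (k t z) ≤ W c R t z := by
  obtain ⟨Cl, hCl0, hCl⟩ := Lop_norm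
  obtain ⟨b, hb⟩ : ∃ b : ℝ, b = Cl * (K / c) := ⟨_, rfl⟩
  have hb0 : 0 < b := by rw [hb]; positivity
  obtain ⟨γ, hγ⟩ : ∃ γ : ℝ, γ = 1 / (8 * (1 + b)) := ⟨_, rfl⟩
  have hγ0 : 0 < γ := by rw [hγ]; positivity
  obtain ⟨R, σL, l₀, sb, hR, hσ, hl, hl1, hsb, hs1, hs2, h1⟩ := one_step M hc hc' hK hγ0
  have hR3 : 3 ≤ R := by linarith
  obtain ⟨C, hC0, h2⟩ := two_step (γ := 1 / 8) hc hK hR3 hσ hl hl1 (by norm_num)
  refine ⟨R, 2 * (1 + b + C), sb, hR, by positivity, hsb, hs1, hs2, ?_⟩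
  intro e0 r1 hP he n t₀ T η cc h k hn h0 hT hη hA S hcc hh hk0 hm
  have he0 : 0 < e0 := hP.e_pos
  have he48 : e0 ^ 48 ≤ 1 := pow_le_one₀ he0.le hP.e_le
  obtain ⟨A, hAd⟩ : ∃ A : ℝ, A = 2 * (1 + b + C) * η / e0 ^ 48 := ⟨_, rfl⟩
  rw [← hAd] at hA
  have hA0 : 0 < A := by rw [hAd]; positivity
  have hηA : η ≤ A := by
    rw [hAd]
    refine le_trans ?_ (le_div_self (by positivity) (by positivity) he48)
    nlinarith
  have mk : Measurable fun p : ℝ × Ph => ENNReal.ofReal (k p.1 p.2) := S.mk'.ennreal_ofReal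
  have main := boot (ι := Ph) (y := fun z s => ENNReal.ofReal (k s (fl s z)))
    (U := fun z s => ENNReal.ofReal (A * s ^ 2) * W c R s (fl s z))
    (m := fun z => ENNReal.ofReal (Mx z.2)) (a := t₀) (b := T) (μ := A * t₀ ^ 2)
    (L := 8 * Real.pi * n * n * n) (by positivity) (by have := Real.pi_pos; positivity)
    (fun z s t hs hst _ => mul_le_mul' (ENNReal.ofReal_le_ofReal (mul_le_mul_of_nonneg_left
      (pow_le_pow_left₀ (h0.le.trans hs) hst 2) hA0.le)) (W_fl_mono hc.le R (h0.trans_le hs) hst z))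
    (fun z t ht => by
      rw [← ENNReal.ofReal_mul (by positivity)]
      exact ly_M c R (by positivity) (mul_le_mul_of_nonneg_left
        (pow_le_pow_left₀ h0.le ht.1 2) hA0.le) (h0.le.trans ht.1) (fl t z))
    (fun z s t hs hst _ => ly_lip hn S z hs hst)
    (fun z => (ENNReal.ofReal_le_ofReal (hk0 _)).trans (ly_M c R (by positivity)
      (mul_le_mul_of_nonneg_right hηA (sq_nonneg _)) h0.le (fl t₀ z)))
    (fun t ht hb2 y => by
      have ht0 : 0 < t := h0.trans_le ht.1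
      have htsb : t ≤ sb := ht.2.trans hT
      have ht1 : t ≤ 1 / 100 := htsb.trans hs1
      have htR : t * R ≤ 1 / 10 := (mul_le_mul_of_nonneg_right htsb (by linarith)).trans hs2
      have hk : ∀ s ∈ Icc t₀ t, ∀ z,
          ENNReal.ofReal (k s z) ≤ ENNReal.ofReal (2 * A * s ^ 2) * W c R s z := by
        intro s hs z
        have := hb2 s hs (fl (-s) z)
        rw [fl_fl_neg] at this
        rwa [mul_assoc 2, ENNReal.ofReal_mul (by norm_num), ENNReal.ofReal_ofNat, mul_assoc]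
      have hone : ∀ s ∈ Icc t₀ t, ∀ z, ENNReal.ofReal (k s z)
          ≤ ENNReal.ofReal ((η + γ * (2 * A)) * s ^ 2) * W c R s z
            + Lop ⟨c, K, M, e0, r1⟩ R σL l₀ t₀ (fun s y => ENNReal.ofReal (k s y)) s z := by
        intro s hs z
        refine (h1 e0 r1 hP he n t₀ cc h k hn h0 S hcc s ⟨hs.1, hs.2.trans htsb⟩ (2 * A)
          ⟨by positivity, by linarith⟩
          (fun r hr => hh r ⟨hr.1, hr.2.trans (hs.2.trans ht.2)⟩)
          (fun r hr => hk r ⟨hr.1, hr.2.trans hs.2⟩) z).trans (add_le_add ?_ le_rfl)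
        rw [add_mul, ENNReal.ofReal_add (by positivity) (by positivity), add_mul]
        exact add_le_add ((ENNReal.ofReal_le_ofReal (hk0 _)).trans (ly_M c R (by positivity)
          (mul_le_mul_of_nonneg_left (pow_le_pow_left₀ h0.le hs.1 2) hη.le)
          (h0.le.trans hs.1) z)) le_rfl
      have m1 : Measurable fun p : ℝ × Ph =>
          ENNReal.ofReal ((η + γ * (2 * A)) * p.1 ^ 2) * W c R p.1 p.2 :=
        ((measurable_fst.pow_const 2).const_mul _).ennreal_ofReal.mul (measurable_W c R)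
      have a1 := Lop_mono (P := ⟨c, K, M, e0, r1⟩) (R := R) (σL := σL) (l₀ := l₀)
        (fun s hs z => hone s ⟨hs.1.le, hs.2⟩ z) (fl t y)
      rw [Lop_add (g := fun s z => ENNReal.ofReal ((η + γ * (2 * A)) * s ^ 2) * W c R s z)
        m1 (measurable_Lop mk)] at a1
      have a2 := hCl _ hP R σL l₀ t₀ t (η + γ * (2 * A)) hR3 h0 ht0 ht1 (by linarith)
        (by positivity) (fl t y)
      have a3 := h2 M e0 r1 hP t₀ t h0 ht.1 ht1 htR (fun s y => ENNReal.ofReal (k s y)) (2 * A) η mk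
        (by positivity) hη.le hk (fun s hs => by
          rw [ly_mass S (T := T) ⟨hs.1, hs.2.trans ht.2⟩]
          exact ENNReal.ofReal_le_ofReal (hm s ⟨hs.1, hs.2.trans ht.2⟩)) (fl t y)
      refine (hone t ⟨ht.1, le_rfl⟩ (fl t y)).trans
        ((add_le_add le_rfl (a1.trans (add_le_add a2 a3))).trans ?_)
      rw [← hb, ← add_mul, ← add_mul, ← ENNReal.ofReal_add (by positivity) (by positivity),
        ← ENNReal.ofReal_add (by positivity) (by positivity)]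
      exact mul_le_mul_left (ENNReal.ofReal_le_ofReal
        (ly_arith hb0 (by positivity) he48 hη hγ hAd)) _)
  intro t ht z
  have h3 := main t ht (fl (-t) z)
  rw [fl_fl_neg] at h3
  refine h3.trans (mul_le_of_le_one_left zero_le ?_)
  rw [ENNReal.ofReal_le_one]
  have h4 : t ^ 2 ≤ 1 := pow_le_one₀ (h0.le.trans ht.1) (by linarith [ht.2])
  nlinarith

end

end Vale.Agent.P140
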