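import Vale.Agent.P140.Coll
import Vale.Agent.P140.Geo

/-! The Carleman representation as an upper bound. -/

namespace Vale.Agent.P140

open MeasureTheory Set Filter Topology
open scoped ENNReal RealInnerProductSpace

noncomputable section

/-- The horizontal plane. -/
def carlPlane : ℂ →ₗᵢ[ℝ] V where
  toFun q := mkV q 0
  map_add' p q := by
    ext i
    fin_cases i <;> simp [mkV]
  map_smul' c q := by
    ext i
    fin_cases i <;> simp [mkV]
  norm_map' q := by
    have h : mkV 0 0 = 0 := by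
      ext i
      fin_cases i <;> rfl
    simpa [h] using norm_mkV_sub q 0 0

theorem carl_mkV (u : ℂ) (s : ℝ) : mkV u s = s • mkV 0 1 + carlPlane u := by
  show mkV u s = s • mkV 0 1 + mkV u 0
  ext i
  fin_cases i <;> simp [mkV]

theorem exists_frame {e : V} (he : ‖e‖ = 1) : ∃ ι : ℂ →ₗᵢ[ℝ] V, (∀ q, ⟪ι q, e⟫ = 0) ∧
    ∀ F : V → ℝ≥0∞, Measurable F → ∫⁻ y, F y = ∫⁻ a : ℝ, ∫⁻ q : ℂ, F (a • e + ι q) := by
  have h0 : ‖mkV 0 1‖ = ‖e‖ := by
    rw [he, ← sq_eq_sq₀ (norm_nonneg _) zero_le_one, norm_sq_eq]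
    simp
  obtain ⟨R, hR⟩ : ∃ R : V ≃ₗᵢ[ℝ] V, R (mkV 0 1) = e := ⟨_, Submodule.reflection_sub h0⟩
  refine ⟨R.toLinearIsometry.comp carlPlane, fun q => ?_, fun F hF => ?_⟩
  · rw [← hR]
    refine (R.inner_map_map (mkV q 0) (mkV 0 1)).trans ?_
    rw [inner_mkV]
    simp
  · have hm : Measurable fun y => F (R y) := hF.comp R.continuous.measurable
    have hm2 : Measurable (Function.uncurry fun (u : ℂ) (s : ℝ) => F (R (mkV u s))) :=
      hm.comp continuous_mkV.measurable
    rw [← R.measurePreserving.lintegral_comp hF, lintegral_mkV hm,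
      lintegral_lintegral_swap hm2.aemeasurable]
    refine lintegral_congr fun a => lintegral_congr fun q => ?_
    rw [carl_mkV, map_add, map_smul, hR]
    rfl

theorem carl_inner {H : V → V → ℝ≥0∞} (hH : Measurable (fun p : V × V => H p.1 p.2))
    {B : V → ℝ≥0∞} (v : V)
    (h : ∀ u, u ≠ v → ∀ ι : ℂ →ₗᵢ[ℝ] V, (∀ q, ⟪ι q, v - u⟫ = 0) → ∫⁻ q, H u (v - ι q) ≤ B u)
    (ω : S2) : ∫⁻ w, ENNReal.ofReal |ca v w ω| * H (vp v w ω) (wp v w ω)
      ≤ ∫⁻ a : ℝ, ENNReal.ofReal |a| * B (v - a • (ω : V)) := by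
  obtain ⟨ι, hι, hF⟩ := exists_frame (norm_S2 ω)
  have hm : Measurable fun w : V => ENNReal.ofReal |ca v w ω| * H (vp v w ω) (wp v w ω) :=
    (measurable_ca measurable_const measurable_id measurable_const).abs.ennreal_ofReal.mul
      (hH.comp ((measurable_vp measurable_const measurable_id measurable_const).prodMk
        (measurable_wp measurable_const measurable_id measurable_const)))
  have hm2 : Measurable fun x : V =>
      ENNReal.ofReal |ca v (v - x) ω| * H (vp v (v - x) ω) (wp v (v - x) ω) :=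
    hm.comp (measurable_const_sub v)
  rw [← lintegral_sub_left_eq_self _ v, hF _ hm2]
  refine lintegral_mono fun a => ?_
  have hc : ∀ q, ca v (v - (a • (ω : V) + ι q)) ω = a := fun q => by
    rw [ca, sub_sub_cancel, inner_add_left, real_inner_smul_left, coll_inner_self, hι, mul_one,
      add_zero]
  have hw : ∀ q, wp v (v - (a • (ω : V) + ι q)) ω = v - ι q := fun q => by
    rw [wp, hc]; abel
  simp only [vp, hc, hw]
  rw [lintegral_const_mul' _ _ ENNReal.ofReal_ne_top]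
  rcases eq_or_ne a 0 with rfl | ha
  · simp
  · refine mul_le_mul_right (h _ (fun h1 => ?_) ι fun q => ?_) _
    · have h2 := congrArg norm (sub_eq_self.1 h1)
      rw [norm_smul, norm_S2, mul_one, norm_zero, norm_eq_zero] at h2
      exact ha h2
    · rw [sub_sub_cancel, real_inner_smul_right, hι, mul_zero]

theorem carl_polar {B : V → ℝ≥0∞} (hB : Measurable B) (v : V) :
    ∫⁻ u, B u / ENNReal.ofReal ‖v - u‖
      = ∫⁻ ω : S2, (∫⁻ a : ℝ, ENNReal.ofReal a * B (v - a • (ω : V))) ∂sig := by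
  have hm : Measurable fun y : V => B (v - y) / ENNReal.ofReal ‖y‖ :=
    (hB.comp (measurable_const_sub v)).div measurable_norm.ennreal_ofReal
  rw [← lintegral_sub_left_eq_self _ v]
  simp only [sub_sub_cancel]
  rw [lintegral_polar3 hm]
  refine lintegral_congr fun ω => ?_
  rw [← setLIntegral_eq_of_support_subset (s := Ioi (0 : ℝ))
    (f := fun a : ℝ => ENNReal.ofReal a * B (v - a • (ω : V))) (fun a ha => by
      by_contra h
      exact ha (by simp only [ENNReal.ofReal_of_nonpos (not_lt.1 h), zero_mul]))]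
  refine setLIntegral_congr_fun measurableSet_Ioi fun r hr => ?_
  have hr' : (0 : ℝ) < r := hr
  have h0 : ENNReal.ofReal r ≠ 0 := (ENNReal.ofReal_pos.2 hr').ne'
  rw [norm_smul, norm_S2, mul_one, Real.norm_of_nonneg hr'.le, sq, ENNReal.ofReal_mul hr'.le,
    mul_assoc, ENNReal.mul_div_cancel h0 ENNReal.ofReal_ne_top]

theorem lintegral_coll_le {H : V → V → ℝ≥0∞} (hH : Measurable (fun p : V × V => H p.1 p.2))
    {B : V → ℝ≥0∞} (hB : Measurable B) (v : V)
    (h : ∀ u, u ≠ v → ∀ ι : ℂ →ₗᵢ[ℝ] V, (∀ q, ⟪ι q, v - u⟫ = 0) → ∫⁻ q, H u (v - ι q) ≤ B u) :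
    ∫⁻ w, ∫⁻ ω, ENNReal.ofReal |ca v w ω| * H (vp v w ω) (wp v w ω) ∂sig
      ≤ 2 * ∫⁻ u, B u / ENNReal.ofReal ‖v - u‖ := by
  have hm : Measurable fun p : V × S2 =>
      ENNReal.ofReal |ca v p.1 p.2| * H (vp v p.1 p.2) (wp v p.1 p.2) :=
    (measurable_ca measurable_const measurable_fst measurable_snd).abs.ennreal_ofReal.mul
      (hH.comp ((measurable_vp measurable_const measurable_fst measurable_snd).prodMk
        (measurable_wp measurable_const measurable_fst measurable_snd)))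
  have hk : Measurable fun p : V × ℝ => ENNReal.ofReal p.2 * B (v - p.2 • p.1) :=
    measurable_snd.ennreal_ofReal.mul (hB.comp (by fun_prop))
  have hK : Measurable fun ω : S2 => ∫⁻ a : ℝ, ENNReal.ofReal a * B (v - a • (ω : V)) :=
    hk.lintegral_prod_right'.comp measurable_subtype_coe
  have e1 : ∀ y : V, ∫⁻ a : ℝ, ENNReal.ofReal |a| * B (v - a • y)
      = (∫⁻ a : ℝ, ENNReal.ofReal a * B (v - a • y))
        + ∫⁻ a : ℝ, ENNReal.ofReal a * B (v - a • (-y)) := by
    intro y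
    have hy : Measurable fun a : ℝ => ENNReal.ofReal a * B (v - a • y) :=
      hk.comp (measurable_prodMk_left (x := y))
    rw [← lintegral_neg_eq_self fun a : ℝ => ENNReal.ofReal a * B (v - a • (-y)),
      ← lintegral_add_left hy]
    refine lintegral_congr fun a => ?_
    rw [neg_smul_neg, ← add_mul]
    rcases le_total 0 a with ha | ha
    · rw [abs_of_nonneg ha, ENNReal.ofReal_of_nonpos (neg_nonpos.2 ha), add_zero]
    · rw [abs_of_nonpos ha, ENNReal.ofReal_of_nonpos ha, zero_add]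
  have e2 := lintegral_sig_iso (LinearIsometryEquiv.neg ℝ)
    fun y : V => ∫⁻ a : ℝ, ENNReal.ofReal a * B (v - a • y)
  simp only [LinearIsometryEquiv.coe_neg] at e2
  rw [lintegral_lintegral_swap hm.aemeasurable, carl_polar hB, two_mul]
  refine (lintegral_mono fun ω => (carl_inner hH v h ω).trans_eq (e1 _)).trans_eq ?_
  rw [lintegral_add_left hK, e2]

theorem Qe_le_plane {f g : V → ℝ≥0∞} (hf : Measurable f) (hg : Measurable g) (v : V) {B : ℝ≥0∞}
    (h : ∀ u, u ≠ v → f u ≠ 0 → ∀ ι : ℂ →ₗᵢ[ℝ] V, (∀ q, ⟪ι q, v - u⟫ = 0) →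
      ∫⁻ q, g (v - ι q) ≤ B) :
    Qe f g v ≤ 2 * B * ∫⁻ u, f u / ENNReal.ofReal ‖v - u‖ := by
  have hm : Measurable fun u : V => f u / ENNReal.ofReal ‖v - u‖ :=
    hf.div (measurable_const_sub v).norm.ennreal_ofReal
  refine (lintegral_coll_le (H := fun u w => f u * g w) (B := fun u => B * f u)
    ((hf.comp measurable_fst).mul (hg.comp measurable_snd)) (hf.const_mul B) v
    fun u hu ι hι => ?_).trans_eq ?_
  · have hq : Measurable fun q : ℂ => g (v - ι q) :=
      hg.comp ((measurable_const_sub v).comp ι.continuous.measurable)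
    rw [lintegral_const_mul _ hq, mul_comm B]
    rcases eq_or_ne (f u) 0 with h0 | h0
    · rw [h0, zero_mul, zero_mul]
    · exact mul_le_mul_right (h u hu h0 ι hι) _
  · rw [mul_assoc, ← lintegral_const_mul _ hm]
    simp only [mul_div_assoc]

theorem Qe_eq_zero_of_supp {f g : V → ℝ≥0∞} {U v : V} {a b : ℝ} (hf : ∀ u, f u ≠ 0 → ‖u - U‖ ≤ a)
    (hg : ∀ u, g u ≠ 0 → ‖u - U‖ ≤ b) (hv : a ^ 2 + b ^ 2 < ‖v - U‖ ^ 2) : Qe f g v = 0 := by
  have key : ∀ w ω, f (vp v w ω) * g (wp v w ω) = 0 := by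
    intro w ω
    by_contra h
    have h1 := pow_le_pow_left₀ (norm_nonneg _) (hf _ (left_ne_zero_of_mul h)) 2
    have h2 := pow_le_pow_left₀ (norm_nonneg _) (hg _ (right_ne_zero_of_mul h)) 2
    have h3 := energy_post (v - U) (w - U) ω
    have hc : ca (v - U) (w - U) ω = ca v w ω := by rw [ca, ca, sub_sub_sub_cancel_right]
    have e1 : vp (v - U) (w - U) ω = vp v w ω - U := by rw [vp, vp, hc]; abel
    have e2 : wp (v - U) (w - U) ω = wp v w ω - U := by rw [wp, wp, hc]; abel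
    rw [e1, e2] at h3
    linarith [sq_nonneg ‖w - U‖]
  simp only [Qe, key, mul_zero, lintegral_zero]

/-- Distance from a point of a plane to a given point dominates the distance to its foot. -/
theorem exists_foot (ι : ℂ →ₗᵢ[ℝ] V) (y : V) : ∃ q₀ : ℂ, ∀ q, ‖q - q₀‖ ≤ ‖y - ι q‖ := by
  refine ⟨LinearMap.adjoint ι.toLinearMap y, fun q => ?_⟩
  generalize hd : q - LinearMap.adjoint ι.toLinearMap y = d
  have h1 : ‖d‖ * ‖d‖ = ⟪ι d, ι q - y⟫ := by
    rw [← real_inner_self_eq_norm_mul_norm, inner_sub_right, ι.inner_map_map]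
    conv_lhs => rw [← hd, inner_sub_right, hd, LinearMap.adjoint_inner_right]
    rfl
  have h2 := real_inner_le_norm (ι d) (ι q - y)
  rw [← h1, ι.norm_map, norm_sub_rev] at h2
  rcases (norm_nonneg d).eq_or_lt with h0 | h0
  · rw [← h0]; exact norm_nonneg _
  · exact le_of_mul_le_mul_left h2 h0

/-- Every plane contains a horizontal unit vector. -/
theorem exists_horizontal (ι : ℂ →ₗᵢ[ℝ] V) (y : ℂ) : ∃ (f : ℂ) (s₀ : ℝ), ‖f‖ = 1 ∧
    ∀ q, |((starRingEnd ℂ) f * q).re - s₀| ≤ ‖y - tp (ι q)‖ := by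
  obtain ⟨g, hg, hg0⟩ := Submodule.exists_mem_ne_zero_of_ne_bot
    (LinearMap.ker_ne_bot_of_finrank_lt
      (f := (EuclideanSpace.projₗ (𝕜 := ℝ) (2 : Fin 3)).comp ι.toLinearMap)
      (by rw [Complex.finrank_real_complex, Module.finrank_self]; norm_num))
  have hg2 : ι g 2 = 0 := hg
  obtain ⟨f, hf1, hf2⟩ : ∃ f : ℂ, ‖f‖ = 1 ∧ ι f 2 = 0 :=
    ⟨‖g‖⁻¹ • g, norm_smul_inv_norm hg0, by rw [map_smul, PiLp.smul_apply, hg2, smul_zero]⟩
  have h1 : ‖tp (ι f)‖ = 1 := by
    have := norm_sq_eq (ι f)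
    rw [ι.norm_map, hf1, hf2, zero_pow two_ne_zero, add_zero] at this
    exact (sq_eq_sq₀ (norm_nonneg _) zero_le_one).1 this.symm
  refine ⟨f, ((starRingEnd ℂ) (tp (ι f)) * y).re, hf1, fun q => ?_⟩
  have h2 : ((starRingEnd ℂ) f * q).re = ((starRingEnd ℂ) (tp (ι f)) * tp (ι q)).re := by
    have := inner_mkV (tp (ι f)) (ι f 2) (ι q)
    rw [mkV_tp, hf2, zero_mul, add_zero, ι.inner_map_map, Complex.inner, mul_comm] at this
    exact this
  rw [h2, ← Complex.sub_re, ← mul_sub]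
  refine (Complex.abs_re_le_norm _).trans_eq ?_
  rw [norm_mul, Complex.norm_conj, h1, one_mul, norm_sub_rev]

theorem lintegral_inv_ball (v : V) {ρ : ℝ} (hρ : 0 ≤ ρ) :
    ∫⁻ u in Metric.closedBall v ρ, (ENNReal.ofReal ‖v - u‖)⁻¹
      = ENNReal.ofReal (2 * Real.pi * ρ ^ 2) := by
  have h1 := carl_polar (B := (Metric.closedBall v ρ).indicator fun _ => 1)
    (measurable_const.indicator measurableSet_closedBall) v
  have h2 : ∀ ω : S2, ∫⁻ a : ℝ, ENNReal.ofReal a *
      (Metric.closedBall v ρ).indicator (fun _ => (1 : ℝ≥0∞)) (v - a • (ω : V))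
        = ENNReal.ofReal (ρ ^ 2 / 2) := by
    intro ω
    have e : ∫ a in Ioc 0 ρ, a = ρ ^ 2 / 2 := by
      rw [← intervalIntegral.integral_of_le hρ, integral_id]; ring
    have hi : Integrable (fun a : ℝ => a) (volume.restrict (Ioc 0 ρ)) :=
      continuous_id'.integrableOn_Icc.mono_set Ioc_subset_Icc_self
    rw [← e, ofReal_integral_eq_lintegral_ofReal hi
      (ae_restrict_of_forall_mem measurableSet_Ioc fun a ha => ha.1.le),
      ← lintegral_indicator measurableSet_Ioc]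
    refine lintegral_congr fun a => ?_
    rcases le_or_gt a 0 with ha | ha
    · rw [indicator_of_notMem (show a ∉ Ioc 0 ρ from fun h => h.1.not_ge ha),
        ENNReal.ofReal_of_nonpos ha, zero_mul]
    · have hm : v - a • (ω : V) ∈ Metric.closedBall v ρ ↔ a ≤ ρ := by
        rw [mem_closedBall_iff_norm', sub_sub_cancel, norm_smul, norm_S2, mul_one,
          Real.norm_of_nonneg ha.le]
      by_cases h : a ≤ ρ
      · rw [indicator_of_mem (hm.2 h), indicator_of_mem (show a ∈ Ioc 0 ρ from ⟨ha, h⟩), mul_one]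
      · rw [indicator_of_notMem (fun h' => h (hm.1 h')),
          indicator_of_notMem (show a ∉ Ioc 0 ρ from fun h' => h h'.2), mul_zero]
  simp only [h2] at h1
  rw [lintegral_const, sig_univ, ← ENNReal.ofReal_mul (by positivity)] at h1
  rw [← lintegral_indicator measurableSet_closedBall,
    show 2 * Real.pi * ρ ^ 2 = ρ ^ 2 / 2 * (4 * Real.pi) by ring, ← h1]
  refine lintegral_congr fun u => ?_
  by_cases hu : u ∈ Metric.closedBall v ρ
  · rw [indicator_of_mem hu, indicator_of_mem hu, one_div]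
  · rw [indicator_of_notMem hu, indicator_of_notMem hu, ENNReal.zero_div]

end

end Vale.Agent.P140
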