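import Vale.Agent.P140.Cold
import Vale.Agent.P140.Carl

/-! Integrated facts about the freely transported cold datum. -/

namespace Vale.Agent.P140

open MeasureTheory Set Filter Topology
open scoped ENNReal RealInnerProductSpace

noncomputable section

variable {P : CP} {σ t : ℝ}

/-- A box in velocity space adapted to the direction `e`. -/
def cold2B (e : ℂ) (I1 I2 I3 : Set ℝ) : Set V :=
  {w | ((starRingEnd ℂ) e * tp w).re ∈ I1 ∧ ((starRingEnd ℂ) e * tp w).im ∈ I2 ∧ w 2 ∈ I3}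

theorem cold2_meas (e : ℂ) {I1 I2 I3 : Set ℝ} (h1 : MeasurableSet I1) (h2 : MeasurableSet I2)
    (h3 : MeasurableSet I3) : MeasurableSet (cold2B e I1 I2 I3) := by
  have m : Measurable fun w : V => (starRingEnd ℂ) e * tp w :=
    (continuous_const.mul continuous_tp).measurable
  have m2 : Measurable fun w : V => w 2 := by fun_prop
  exact (Complex.measurable_re.comp m h1).inter ((Complex.measurable_im.comp m h2).inter (m2 h3))

theorem cold2_vol {e : ℂ} (he : ‖e‖ = 1) {I1 I2 I3 : Set ℝ} (h1 : MeasurableSet I1)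
    (h2 : MeasurableSet I2) (h3 : MeasurableSet I3) :
    volume (cold2B e I1 I2 I3) = volume I1 * volume I2 * volume I3 := by
  have hm := cold2_meas e h1 h2 h3
  have hB : MeasurableSet {u : ℂ | u.re ∈ I1 ∧ u.im ∈ I2} :=
    (Complex.measurable_re h1).inter (Complex.measurable_im h2)
  have he' : (starRingEnd ℂ) e ∈ Metric.sphere (0 : ℂ) 1 := by simpa using he
  have hr := (rotation ⟨_, he'⟩).measurePreserving.measure_preimage hB.nullMeasurableSet
  have hv := Complex.volume_preserving_equiv_real_prod.measure_preimage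
    (h1.prod h2).nullMeasurableSet
  have hA : MeasurableSet (rotation ⟨_, he'⟩ ⁻¹' {u : ℂ | u.re ∈ I1 ∧ u.im ∈ I2}) :=
    (rotation ⟨_, he'⟩).continuous.measurable hB
  rw [← lintegral_indicator_one hm, lintegral_mkV (measurable_one.indicator hm)]
  have e1 : ∀ u : ℂ, ∫⁻ s : ℝ, (cold2B e I1 I2 I3).indicator 1 (mkV u s) =
      (rotation ⟨_, he'⟩ ⁻¹' {u : ℂ | u.re ∈ I1 ∧ u.im ∈ I2}).indicator
        (fun _ => volume I3) u := by
    intro u
    by_cases hu : u ∈ rotation ⟨_, he'⟩ ⁻¹' {u : ℂ | u.re ∈ I1 ∧ u.im ∈ I2}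
    · rw [indicator_of_mem hu, ← lintegral_indicator_one h3]
      refine lintegral_congr fun s => ?_
      have hu' : ((starRingEnd ℂ) e * u).re ∈ I1 ∧ ((starRingEnd ℂ) e * u).im ∈ I2 := hu
      by_cases hs : s ∈ I3
      · rw [indicator_of_mem hs, indicator_of_mem]
        · rfl
        · simp only [cold2B, mem_ofPred_eq, tp_mkV, mkV_two]
          exact ⟨hu'.1, hu'.2, hs⟩
      · rw [indicator_of_notMem hs, indicator_of_notMem]
        simp only [cold2B, mem_ofPred_eq, tp_mkV, mkV_two]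
        exact fun h => hs h.2.2
    · rw [indicator_of_notMem hu]
      refine (lintegral_congr fun s => ?_).trans lintegral_zero
      rw [indicator_of_notMem]
      simp only [cold2B, mem_ofPred_eq, tp_mkV, mkV_two]
      exact fun h => hu ⟨h.1, h.2.1⟩
  simp only [e1]
  rw [lintegral_indicator_const hA, hr, mul_comm]
  congr 1
  rw [← Measure.prod_prod, ← Measure.volume_eq_prod, ← hv]
  rfl

theorem cold2_bound {α : Type} [MeasurableSpace α] (μ : Measure α) {f : α → ℝ} {B : Set α}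
    {C : ℝ} (hB : MeasurableSet B) (hs : ∀ a, f a ≠ 0 → a ∈ B) (hC : ∀ a, f a ≤ C) :
    ∫⁻ a, ENNReal.ofReal (f a) ∂μ ≤ ENNReal.ofReal C * μ B := by
  rw [← lintegral_indicator_const hB]
  refine lintegral_mono fun a => ?_
  by_cases h : f a = 0
  · simp [h]
  · rw [indicator_of_mem (hs a h)]
    exact ENNReal.ofReal_le_ofReal (hC a)

theorem cold2_re {e : ℂ} (he : ‖e‖ = 1) (u : ℂ) (c : ℝ) :
    |((starRingEnd ℂ) e * u).re - c| ≤ ‖u - (c : ℂ) * e‖ := by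
  have h1 : (starRingEnd ℂ) e * e = 1 := by
    rw [Complex.conj_mul', he]
    simp
  have h2 : ((starRingEnd ℂ) e * (u - (c : ℂ) * e)).re = ((starRingEnd ℂ) e * u).re - c := by
    rw [mul_sub, mul_left_comm, h1]
    simp
  rw [← h2]
  refine (Complex.abs_re_le_norm _).trans (le_of_eq ?_)
  rw [norm_mul, Complex.norm_conj, he, one_mul]

theorem cold2_hat (hP : P.Ok) (ht : 0 < t) {x : T3} (h : P.c * t < ‖X x‖) :
    0 < ‖X x‖ ∧ ‖hat (X x)‖ = 1 := by
  have h1 : 0 < ‖X x‖ := (mul_pos hP.c_pos ht).trans h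
  exact ⟨h1, norm_hat (norm_pos_iff.1 h1)⟩

theorem cf1_dens (hP : P.Ok) (hσ : σ = 1 ∨ σ = -1) (ht : 0 < t) (ht' : t ≤ 1 / 100) (x : T3) :
    ∫⁻ w, ENNReal.ofReal (cf1 P σ t (x, w))
      ≤ if P.c * t < ‖X x‖ then ENNReal.ofReal (256 * P.K / ‖X x‖) else 0 := by
  by_cases h0 : ∀ w, cf1 P σ t (x, w) = 0
  · simp [h0]
  push Not at h0
  obtain ⟨w0, hw0⟩ := h0
  obtain ⟨h1, -, h3, -⟩ := cf1_supp hP hσ ht ht' hw0
  obtain ⟨hr, he⟩ := cold2_hat hP ht h1
  have h1' := sub_pos.2 h1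
  have hK := hP.K_pos
  rw [if_pos h1]
  refine (cold2_bound volume (cold2_meas (hat (X x))
    (I1 := Icc (P.c - 4 * epsf P.c P.e0 t x) (P.c + 4 * epsf P.c P.e0 t x))
    (I2 := Icc (-(2 * epsf P.c P.e0 t x * (‖X x‖ - P.c * t) / ‖X x‖))
      (2 * epsf P.c P.e0 t x * (‖X x‖ - P.c * t) / ‖X x‖))
    (I3 := Icc (σ - 2 * epsf P.c P.e0 t x) (σ + 2 * epsf P.c P.e0 t x))
    measurableSet_Icc measurableSet_Icc measurableSet_Icc) (fun w hw => ?_)
    (cf1_le hP hσ ht ht' x)).trans (le_of_eq ?_)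
  · obtain ⟨-, -, -, -, a1, a2, a3, -⟩ := cf1_supp hP hσ ht ht' hw
    have a4 := cold2_re he (tp w) P.c
    rw [← uf_of_ge hP.c_pos ht h1.le] at a4
    have a5 := abs_le.1 (a4.trans ((norm_tp_sub_le w _ σ).trans a1))
    have a6 := abs_le.1 a2
    exact ⟨⟨by linarith [a5.1], by linarith [a5.2]⟩, abs_le.1 a3,
      ⟨by linarith [a6.1], by linarith [a6.2]⟩⟩
  · rw [cold2_vol he measurableSet_Icc measurableSet_Icc measurableSet_Icc, Real.volume_Icc,
      Real.volume_Icc, Real.volume_Icc]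
    generalize epsf P.c P.e0 t x = ε at h3 ⊢
    generalize ‖X x‖ - P.c * t = r0 at h1' ⊢
    have p2 : 0 ≤ 2 * ε * r0 / ‖X x‖ - -(2 * ε * r0 / ‖X x‖) := by
      rw [sub_neg_eq_add]
      positivity
    rw [← ENNReal.ofReal_mul (by linarith), ← ENNReal.ofReal_mul (mul_nonneg (by linarith) p2),
      ← ENNReal.ofReal_mul (by positivity)]
    congr 1
    field_simp
    ring

theorem cf_dens (hP : P.Ok) (ht : 0 < t) (ht' : t ≤ 1 / 100) (x : T3) :
    ∫⁻ w, ENNReal.ofReal (cf P t (x, w))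
      ≤ if P.c * t < ‖X x‖ then ENNReal.ofReal (256 * P.K / ‖X x‖) else 0 := by
  obtain ⟨σ, hσ, -, h⟩ := cf_one hP ht ht' x
  simp only [h]
  exact cf1_dens hP hσ ht ht' x

theorem cf1_inv_far (hP : P.Ok) (hσ : σ = 1 ∨ σ = -1) (ht : 0 < t) (ht' : t ≤ 1 / 100) (x : T3)
    (v : V) (h : 8 * epsf P.c P.e0 t x ≤ ‖v - Uf P.c σ t x‖) :
    ∫⁻ u, ENNReal.ofReal (cf1 P σ t (x, u)) / ENNReal.ofReal ‖v - u‖
      ≤ ENNReal.ofReal (512 * P.K / (‖X x‖ * ‖v - Uf P.c σ t x‖)) := by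
  by_cases h0 : ∀ w, cf1 P σ t (x, w) = 0
  · simp [h0]
  push Not at h0
  obtain ⟨w0, hw0⟩ := h0
  obtain ⟨h1, -, h3, -⟩ := cf1_supp hP hσ ht ht' hw0
  obtain ⟨hr, -⟩ := cold2_hat hP ht h1
  have hd : 0 < ‖v - Uf P.c σ t x‖ := by linarith
  have hK := hP.K_pos
  have h4 := cf1_dens hP hσ ht ht' x
  rw [if_pos h1] at h4
  calc _ ≤ ∫⁻ u, ENNReal.ofReal (cf1 P σ t (x, u)) *
        ENNReal.ofReal (2 / ‖v - Uf P.c σ t x‖) := by
        refine lintegral_mono fun u => ?_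
        by_cases hu : cf1 P σ t (x, u) = 0
        · simp [hu]
        obtain ⟨-, -, -, -, a1, -⟩ := cf1_supp hP hσ ht ht' hu
        have a2 : ‖v - Uf P.c σ t x‖ ≤ ‖v - u‖ + ‖u - Uf P.c σ t x‖ :=
          norm_sub_le_norm_sub_add_norm_sub _ _ _
        have a3 : 0 < ‖v - u‖ := by linarith
        rw [div_eq_mul_inv, ← ENNReal.ofReal_inv_of_pos a3]
        refine mul_le_mul_right (ENNReal.ofReal_le_ofReal ?_) _
        rw [inv_eq_one_div, div_le_div_iff₀ a3 hd]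
        linarith
    _ = (∫⁻ u, ENNReal.ofReal (cf1 P σ t (x, u))) * ENNReal.ofReal (2 / ‖v - Uf P.c σ t x‖) :=
        lintegral_mul_const' _ _ ENNReal.ofReal_ne_top
    _ ≤ ENNReal.ofReal (256 * P.K / ‖X x‖) * ENNReal.ofReal (2 / ‖v - Uf P.c σ t x‖) :=
        mul_le_mul_left h4 _
    _ = _ := by
        rw [← ENNReal.ofReal_mul (by positivity)]
        congr 1
        field_simp
        ring

theorem cf1_inv_near (hP : P.Ok) (hσ : σ = 1 ∨ σ = -1) (ht : 0 < t) (ht' : t ≤ 1 / 100) (x : T3)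
    (v : V) (h : ‖v - Uf P.c σ t x‖ ≤ 8 * epsf P.c P.e0 t x) :
    ∫⁻ u, ENNReal.ofReal (cf1 P σ t (x, u)) / ENNReal.ofReal ‖v - u‖
      ≤ ENNReal.ofReal (2000 * P.K / ((‖X x‖ - P.c * t) * epsf P.c P.e0 t x)) := by
  by_cases h0 : ∀ w, cf1 P σ t (x, w) = 0
  · simp [h0]
  push Not at h0
  obtain ⟨w0, hw0⟩ := h0
  obtain ⟨h1, -, h3, -⟩ := cf1_supp hP hσ ht ht' hw0
  have h1' := sub_pos.2 h1
  have hK := hP.K_pos
  calc _ ≤ ∫⁻ u, (Metric.closedBall v (12 * epsf P.c P.e0 t x)).indicator (fun u =>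
        ENNReal.ofReal (2 * P.K / ((‖X x‖ - P.c * t) * epsf P.c P.e0 t x ^ 3)) *
          (ENNReal.ofReal ‖v - u‖)⁻¹) u := by
        refine lintegral_mono fun u => ?_
        by_cases hu : cf1 P σ t (x, u) = 0
        · simp [hu]
        obtain ⟨-, -, -, -, a1, -⟩ := cf1_supp hP hσ ht ht' hu
        have a2 : ‖u - v‖ ≤ ‖u - Uf P.c σ t x‖ + ‖Uf P.c σ t x - v‖ :=
          norm_sub_le_norm_sub_add_norm_sub _ _ _
        rw [norm_sub_rev (Uf P.c σ t x) v] at a2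
        rw [indicator_of_mem (by rw [mem_closedBall_iff_norm]; linarith), div_eq_mul_inv]
        exact mul_le_mul_left (ENNReal.ofReal_le_ofReal (cf1_le hP hσ ht ht' x u)) _
    _ = ENNReal.ofReal (2 * P.K / ((‖X x‖ - P.c * t) * epsf P.c P.e0 t x ^ 3)) *
          ENNReal.ofReal (2 * Real.pi * (12 * epsf P.c P.e0 t x) ^ 2) := by
        rw [lintegral_indicator Metric.isClosed_closedBall.measurableSet,
          lintegral_const_mul' _ _ ENNReal.ofReal_ne_top, lintegral_inv_ball v (by positivity)]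
    _ ≤ _ := by
        rw [← ENNReal.ofReal_mul (by positivity)]
        refine ENNReal.ofReal_le_ofReal ?_
        generalize epsf P.c P.e0 t x = ε at h3 ⊢
        generalize ‖X x‖ - P.c * t = r0 at h1' ⊢
        have e : 2 * P.K / (r0 * ε ^ 3) * (2 * Real.pi * (12 * ε) ^ 2) =
            576 * Real.pi * P.K / (r0 * ε) := by
          field_simp
          ring
        rw [e]
        refine div_le_div_of_nonneg_right ?_ (by positivity)
        nlinarith [Real.pi_lt_d2]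

theorem cf1_inv (hP : P.Ok) (hσ : σ = 1 ∨ σ = -1) (ht : 0 < t) (ht' : t ≤ 1 / 100) (x : T3)
    (v : V) : ∫⁻ u, ENNReal.ofReal (cf1 P σ t (x, u)) / ENNReal.ofReal ‖v - u‖
      ≤ if P.c * t < ‖X x‖ ∧ ‖X x‖ ≤ 1 / 16 then
          ENNReal.ofReal (512 * P.K / ‖X x‖) * (ENNReal.ofReal ‖v - Uf P.c σ t x‖)⁻¹
            + ENNReal.ofReal (50000 * P.K * Real.sqrt P.e0)
              * ENNReal.ofReal ‖v - Uf P.c σ t x‖ ^ (-(3 / 2) : ℝ) else 0 := by
  by_cases h0 : ∀ w, cf1 P σ t (x, w) = 0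
  · simp [h0]
  push Not at h0
  obtain ⟨w0, hw0⟩ := h0
  obtain ⟨h1, h2, h3, h4, -⟩ := cf1_supp hP hσ ht ht' hw0
  obtain ⟨hr, -⟩ := cold2_hat hP ht h1
  have h1' := sub_pos.2 h1
  have hK := hP.K_pos
  have hs : 0 < Real.sqrt P.e0 := Real.sqrt_pos.2 hP.e_pos
  rw [if_pos ⟨h1, h2⟩]
  rcases le_total (8 * epsf P.c P.e0 t x) ‖v - Uf P.c σ t x‖ with h | h
  · refine (cf1_inv_far hP hσ ht ht' x v h).trans (le_trans (le_of_eq ?_) le_self_add)
    rw [← ENNReal.ofReal_inv_of_pos (by linarith), ← ENNReal.ofReal_mul (by positivity),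
      ← div_div, div_eq_mul_inv _ ‖v - Uf P.c σ t x‖]
  refine (cf1_inv_near hP hσ ht ht' x v h).trans (le_trans ?_ le_add_self)
  rcases (norm_nonneg (v - Uf P.c σ t x)).eq_or_lt with hd | hd
  · rw [← hd, ENNReal.ofReal_zero, ENNReal.zero_rpow_of_neg (by norm_num), ENNReal.mul_top]
    · exact le_top
    · exact (ENNReal.ofReal_pos.2 (by positivity)).ne'
  rw [ENNReal.ofReal_rpow_of_pos hd, ← ENNReal.ofReal_mul (by positivity)]
  refine ENNReal.ofReal_le_ofReal ?_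
  have e1 : ‖v - Uf P.c σ t x‖ ^ (-(3 / 2) : ℝ) =
      (‖v - Uf P.c σ t x‖ * Real.sqrt ‖v - Uf P.c σ t x‖)⁻¹ := by
    rw [Real.rpow_neg hd.le, Real.sqrt_eq_rpow, show (3 / 2 : ℝ) = 1 + 1 / 2 by norm_num,
      Real.rpow_add hd, Real.rpow_one]
  have e2 : Real.sqrt ‖v - Uf P.c σ t x‖ ≤ 3 * (Real.sqrt P.e0 * (‖X x‖ - P.c * t)) := by
    rw [Real.sqrt_le_left (by positivity), mul_pow, mul_pow, Real.sq_sqrt hP.e_pos.le, ← h4]
    linarith
  have e3 := Real.sqrt_pos.2 hd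
  rw [e1, ← div_eq_mul_inv, div_le_div_iff₀ (by positivity) (by positivity)]
  have e4 := mul_le_mul h e2 e3.le (by positivity)
  have e5 := mul_le_mul_of_nonneg_left e4 hK.le
  have e6 : 0 ≤ P.K * Real.sqrt P.e0 * ((‖X x‖ - P.c * t) * epsf P.c P.e0 t x) := by positivity
  nlinarith

theorem cf1_plane (hP : P.Ok) (hσ : σ = 1 ∨ σ = -1) (ht : 0 < t) (ht' : t ≤ 1 / 100) (x : T3)
    (y : V) (ι : ℂ →ₗᵢ[ℝ] V) : ∫⁻ q, ENNReal.ofReal (cf1 P σ t (x, y - ι q))
      ≤ ENNReal.ofReal (101 * P.K / (P.e0 * (‖X x‖ - P.c * t) ^ 3)) := by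
  by_cases h0 : ∀ w, cf1 P σ t (x, w) = 0
  · simp [h0]
  push Not at h0
  obtain ⟨w0, hw0⟩ := h0
  obtain ⟨h1, -, h3, h4, -⟩ := cf1_supp hP hσ ht ht' hw0
  have h1' := sub_pos.2 h1
  have hK := hP.K_pos
  have he := hP.e_pos
  obtain ⟨q0, hq⟩ := exists_foot ι (y - Uf P.c σ t x)
  refine (cold2_bound volume (B := Metric.closedBall q0 (4 * epsf P.c P.e0 t x))
    Metric.isClosed_closedBall.measurableSet (fun q hq' => ?_)
    (fun q => cf1_le hP hσ ht ht' x _)).trans ?_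
  · obtain ⟨-, -, -, -, a1, -⟩ := cf1_supp hP hσ ht ht' hq'
    rw [mem_closedBall_iff_norm]
    refine (hq q).trans (le_trans (le_of_eq ?_) a1)
    rw [sub_right_comm]
  · rw [Complex.volume_closedBall, ← ENNReal.ofReal_pow (by positivity),
      ← ENNReal.ofReal_coe_nnreal, NNReal.coe_real_pi, ← ENNReal.ofReal_mul (by positivity),
      ← ENNReal.ofReal_mul (by positivity)]
    refine ENNReal.ofReal_le_ofReal ?_
    rw [h4]
    generalize ‖X x‖ - P.c * t = r0 at h1' ⊢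
    have e : 2 * P.K / (r0 * (P.e0 * r0 ^ 2) ^ 3) * ((4 * (P.e0 * r0 ^ 2)) ^ 2 * Real.pi) =
        32 * Real.pi * P.K / (P.e0 * r0 ^ 3) := by
      field_simp
      ring
    rw [e]
    refine div_le_div_of_nonneg_right ?_ (by positivity)
    nlinarith [Real.pi_lt_d2]

theorem cf_plane (hP : P.Ok) (ht : 0 < t) (ht' : t ≤ 1 / 100) (x : T3)
    (y : V) (ι : ℂ →ₗᵢ[ℝ] V) : ∫⁻ q, ENNReal.ofReal (cf P t (x, y - ι q))
      ≤ ENNReal.ofReal (101 * P.K / (P.e0 * (‖X x‖ - P.c * t) ^ 3)) := by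
  obtain ⟨σ, hσ, -, h⟩ := cf_one hP ht ht' x
  simp only [h]
  exact cf1_plane hP hσ ht ht' x y ι

/-- Collisions inside one stream. -/
theorem Qe_cc (hP : P.Ok) (hσ : σ = 1 ∨ σ = -1) (ht : 0 < t) (ht' : t ≤ 1 / 100) (x : T3)
    (v : V) : Qe (fun u => ENNReal.ofReal (cf1 P σ t (x, u)))
        (fun u => ENNReal.ofReal (cf1 P σ t (x, u))) v
      ≤ if ‖v - Uf P.c σ t x‖ ≤ 6 * epsf P.c P.e0 t x then
          ENNReal.ofReal (404000 * P.K ^ 2 * P.e0 / epsf P.c P.e0 t x ^ 3) else 0 := by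
  by_cases h0 : ∀ w, cf1 P σ t (x, w) = 0
  · simp [h0, Qe]
  push Not at h0
  obtain ⟨w0, hw0⟩ := h0
  obtain ⟨h1, -, h3, h4, -⟩ := cf1_supp hP hσ ht ht' hw0
  have h1' := sub_pos.2 h1
  have hK := hP.K_pos
  have he := hP.e_pos
  have hm : Measurable fun u : V => ENNReal.ofReal (cf1 P σ t (x, u)) :=
    ((measurable_cf1 P σ).comp
      (measurable_const.prodMk (measurable_const.prodMk measurable_id))).ennreal_ofReal
  split_ifs with h
  · refine (Qe_le_plane hm hm v fun u _ _ ι _ => cf1_plane hP hσ ht ht' x v ι).trans ?_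
    refine (mul_le_mul_right (cf1_inv_near hP hσ ht ht' x v (by linarith)) _).trans
      (le_of_eq ?_)
    rw [← ENNReal.ofReal_ofNat 2, ← ENNReal.ofReal_mul (by norm_num),
      ← ENNReal.ofReal_mul (by positivity), h4]
    congr 1
    field_simp
    ring
  · have hs : ∀ u, ENNReal.ofReal (cf1 P σ t (x, u)) ≠ 0 →
        ‖u - Uf P.c σ t x‖ ≤ 4 * epsf P.c P.e0 t x := fun u hu =>
      (cf1_supp hP hσ ht ht' (w := u) fun h => hu (by simp [h])).2.2.2.2.1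
    refine (Qe_eq_zero_of_supp hs hs ?_).le
    have := not_le.1 h
    nlinarith

/-- Lower bound for the density on a set of velocities away from the singular line. -/
theorem cf1_low (hP : P.Ok) (hσ : σ = 1 ∨ σ = -1) (ht : 0 < t) (ht' : t ≤ 1 / 100) {x : T3}
    (h0 : P.c * t < ‖X x‖) (h1 : 2 * P.r1 ≤ ‖X x‖ - P.c * t) (h2 : ‖X x‖ ≤ 1 / 40)
    (h3 : 1 / 5 ≤ sec P.M σ (X x)) : ∃ B : Set V, MeasurableSet B ∧
      (∀ w ∈ B, P.e0 * P.r1 ^ 2 / 4 ≤ ‖tp w - uf P.c t x‖ ∧ ‖w‖ ≤ 2 ∧ |w 2 - σ| ≤ 1 / 100) ∧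
      ENNReal.ofReal (P.K / (600 * ‖X x‖)) ≤ ∫⁻ w in B, ENNReal.ofReal (cf1 P σ t (x, w)) := by
  obtain ⟨hr, he⟩ := cold2_hat hP ht h0
  have h0' := sub_pos.2 h0
  have hK := hP.K_pos
  have he0 := hP.e_pos
  have hct := mul_pos hP.c_pos ht
  have h4 : epsf P.c P.e0 t x = P.e0 * (‖X x‖ - P.c * t) ^ 2 :=
    Ef_eq _ h0'.le (by linarith)
  have h5 : 0 < epsf P.c P.e0 t x := by
    rw [h4]
    positivity
  have hm := cold2_meas (hat (X x))
    (I1 := Icc (P.c + epsf P.c P.e0 t x / 16) (P.c + epsf P.c P.e0 t x / 8))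
    (I2 := Icc (-(epsf P.c P.e0 t x * (‖X x‖ - P.c * t) / (16 * ‖X x‖)))
      (epsf P.c P.e0 t x * (‖X x‖ - P.c * t) / (16 * ‖X x‖)))
    (I3 := Icc (σ - epsf P.c P.e0 t x / 8) (σ + epsf P.c P.e0 t x / 8))
    measurableSet_Icc measurableSet_Icc measurableSet_Icc
  have hge : ∀ w ∈ cold2B (hat (X x))
      (Icc (P.c + epsf P.c P.e0 t x / 16) (P.c + epsf P.c P.e0 t x / 8))
      (Icc (-(epsf P.c P.e0 t x * (‖X x‖ - P.c * t) / (16 * ‖X x‖)))
        (epsf P.c P.e0 t x * (‖X x‖ - P.c * t) / (16 * ‖X x‖)))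
      (Icc (σ - epsf P.c P.e0 t x / 8) (σ + epsf P.c P.e0 t x / 8)),
      25 / 27 * P.K / ((‖X x‖ - P.c * t) * epsf P.c P.e0 t x ^ 3) ≤ cf1 P σ t (x, w) := by
    rintro w ⟨a1, a2, a3⟩
    exact cf1_ge hP hσ ht ht' h0 h1 h2 h3 ⟨by linarith [a1.1], by linarith [a1.2]⟩ (abs_le.2 a2)
      (abs_le.2 ⟨by linarith [a3.1], by linarith [a3.2]⟩)
  refine ⟨_, hm, fun w hw => ⟨?_, ?_, ?_⟩, ?_⟩
  · have a4 := cold2_re he (tp w) P.c
    rw [← uf_of_ge hP.c_pos ht h0.le] at a4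
    refine le_trans ?_ ((le_abs_self _).trans a4)
    have a1 := hw.1.1
    have a5 : (2 * P.r1) ^ 2 ≤ (‖X x‖ - P.c * t) ^ 2 :=
      pow_le_pow_left₀ (by linarith [hP.r_nonneg]) h1 2
    have a6 := mul_le_mul_of_nonneg_left a5 he0.le
    linarith
  · have a1 : 0 < cf1 P σ t (x, w) := lt_of_lt_of_le (by positivity) (hge w hw)
    exact (cf1_supp hP hσ ht ht' a1.ne').2.2.2.2.2.2.2.2.2
  · have a3 := hw.2.2
    have a4 : epsf P.c P.e0 t x ≤ P.e0 / 256 := Ef_le he0.le _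
    have := hP.e_le
    exact abs_le.2 ⟨by linarith [a3.1], by linarith [a3.2]⟩
  · refine le_trans ?_ (setLIntegral_mono' hm fun w hw => ENNReal.ofReal_le_ofReal (hge w hw))
    rw [setLIntegral_const, cold2_vol he measurableSet_Icc measurableSet_Icc measurableSet_Icc,
      Real.volume_Icc, Real.volume_Icc, Real.volume_Icc]
    generalize epsf P.c P.e0 t x = ε at h5 ⊢
    generalize ‖X x‖ - P.c * t = r0 at h0' ⊢
    have p2 : 0 ≤ ε * r0 / (16 * ‖X x‖) - -(ε * r0 / (16 * ‖X x‖)) := by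
      rw [sub_neg_eq_add]
      positivity
    rw [← ENNReal.ofReal_mul (by linarith), ← ENNReal.ofReal_mul (mul_nonneg (by linarith) p2),
      ← ENNReal.ofReal_mul (by positivity)]
    refine ENNReal.ofReal_le_ofReal ?_
    have e : 25 / 27 * P.K / (r0 * ε ^ 3) * ((P.c + ε / 8 - (P.c + ε / 16)) *
        (ε * r0 / (16 * ‖X x‖) - -(ε * r0 / (16 * ‖X x‖))) * (σ + ε / 8 - (σ - ε / 8))) =
        P.K / (13824 / 25 * ‖X x‖) := by
      field_simp
      ring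
    rw [e]
    exact div_le_div_of_nonneg_left hK.le (by positivity) (by linarith)

end

end Vale.Agent.P140
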