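import Vale.Agent.P140.Geo

/-! Projections, directions and the singular weight. -/

namespace Vale.Agent.P140

open MeasureTheory Set Filter Topology
open scoped ENNReal RealInnerProductSpace

noncomputable section

theorem norm_pj_le {c : ℝ} (hc : 0 ≤ c) (y : ℂ) : ‖pj c y‖ ≤ c := by
  unfold pj
  split_ifs with h
  · exact h
  · have h0 : 0 < ‖y‖ := lt_of_le_of_lt hc (not_le.mp h)
    rw [norm_mul, Complex.norm_real, Real.norm_eq_abs, abs_of_nonneg (div_nonneg hc h0.le),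
      div_mul_cancel₀ _ h0.ne']

theorem pj_of_le {c : ℝ} {y : ℂ} (h : ‖y‖ ≤ c) : pj c y = y := by
  unfold pj
  rw [if_pos h]

theorem pj_of_ge {c : ℝ} {y : ℂ} (hc : 0 < c) (h : c ≤ ‖y‖) : pj c y = (c : ℂ) * hat y := by
  have h0 : 0 < ‖y‖ := lt_of_lt_of_le hc h
  have h1 : (‖y‖ : ℂ) ≠ 0 := by exact_mod_cast h0.ne'
  unfold pj hat
  split_ifs with h'
  · have e : c = ‖y‖ := le_antisymm h h'
    rw [e]
    field_simp
  · push_cast
    field_simp

theorem norm_sub_pj {c : ℝ} {y : ℂ} (hc : 0 ≤ c) (h : c ≤ ‖y‖) : ‖y - pj c y‖ = ‖y‖ - c := by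
  unfold pj
  split_ifs with h'
  · have e : c = ‖y‖ := le_antisymm h h'
    rw [sub_self, norm_zero, e, sub_self]
  · have h0 : 0 < ‖y‖ := lt_of_le_of_lt hc (not_le.mp h')
    have e : y - ((c / ‖y‖ : ℝ) : ℂ) * y = ((1 - c / ‖y‖ : ℝ) : ℂ) * y := by
      push_cast
      ring
    have h2 : 0 ≤ 1 - c / ‖y‖ := by
      rw [sub_nonneg, div_le_one h0]
      exact h
    rw [e, norm_mul, Complex.norm_real, Real.norm_eq_abs, abs_of_nonneg h2]
    field_simp

theorem measurable_pj (c : ℝ) : Measurable (pj c) := by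
  unfold pj
  refine Measurable.ite (measurableSet_le measurable_norm measurable_const) measurable_id ?_
  exact (Complex.measurable_ofReal.comp (measurable_const.div measurable_norm)).mul measurable_id

theorem geo2_var {c : ℝ} (hc : 0 ≤ c) (y : ℂ) {q : ℂ} (hq : ‖q‖ ≤ c) :
    inner ℝ (y - pj c y) (q - pj c y) ≤ 0 := by
  unfold pj
  split_ifs with h'
  · rw [sub_self, inner_zero_left]
  · have h : c < ‖y‖ := not_le.mp h'
    have h0 : 0 < ‖y‖ := lt_of_le_of_lt hc h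
    have e : y - ((c / ‖y‖ : ℝ) : ℂ) * y = (1 - c / ‖y‖ : ℝ) • y := by
      rw [Complex.real_smul]
      push_cast
      ring
    have h2 : 0 ≤ 1 - c / ‖y‖ := by
      rw [sub_nonneg, div_le_one h0]
      exact h.le
    rw [e, ← Complex.real_smul, real_inner_smul_left, inner_sub_right, real_inner_smul_right,
      real_inner_self_eq_norm_sq]
    refine mul_nonpos_of_nonneg_of_nonpos h2 ?_
    have h3 : inner ℝ y q ≤ ‖y‖ * ‖q‖ := real_inner_le_norm y q
    have h4 : c / ‖y‖ * ‖y‖ ^ 2 = c * ‖y‖ := by field_simp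
    have h5 : ‖y‖ * ‖q‖ ≤ ‖y‖ * c := mul_le_mul_of_nonneg_left hq h0.le
    rw [h4]
    linarith

/-- Monotonicity of the distance to the projection along a ray. -/
theorem pj_ray_mono {c : ℝ} (hc : 0 ≤ c) (V ξ : ℂ) {a b : ℝ} (ha : 0 ≤ a) (hab : a ≤ b) :
    ‖V - pj c (V + (a : ℂ) * ξ)‖ ≤ ‖V - pj c (V + (b : ℂ) * ξ)‖ := by
  rcases hab.eq_or_lt with rfl | hlt
  · exact le_rfl
  set P1 := pj c (V + (a : ℂ) * ξ) with hP1
  set P2 := pj c (V + (b : ℂ) * ξ) with hP2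
  have h1 := geo2_var hc (V + (a : ℂ) * ξ) (norm_pj_le hc (V + (b : ℂ) * ξ))
  have h2 := geo2_var hc (V + (b : ℂ) * ξ) (norm_pj_le hc (V + (a : ℂ) * ξ))
  rw [← hP1, ← hP2] at h1 h2
  set d := P2 - P1 with hd
  set e := V - P1 with he
  have e1 : V + (a : ℂ) * ξ - P1 = e + a • ξ := by
    rw [he, Complex.real_smul]
    ring
  have e2 : V + (b : ℂ) * ξ - P2 = e - d + b • ξ := by
    rw [he, hd, Complex.real_smul]
    ring
  have e3 : P1 - P2 = -d := by
    rw [hd]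
    ring
  have e4 : V - P2 = e - d := by
    rw [he, hd]
    ring
  rw [e1, inner_add_left, real_inner_smul_left] at h1
  rw [e2, e3, inner_neg_right, inner_add_left, inner_sub_left, real_inner_smul_left,
    real_inner_self_eq_norm_sq] at h2
  rw [e4]
  have hD : 0 ≤ ‖d‖ ^ 2 := sq_nonneg _
  have hx : 0 ≤ inner ℝ ξ d := by
    by_contra hneg
    have hneg' : inner ℝ ξ d < 0 := not_le.mp hneg
    nlinarith
  have hp : inner ℝ e d ≤ 0 := by nlinarith
  refine (pow_le_pow_iff_left₀ (norm_nonneg _) (norm_nonneg _) two_ne_zero).mp ?_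
  rw [norm_sub_sq_real e d]
  linarith

theorem measurable_hat : Measurable hat := by
  unfold hat
  exact measurable_id.div (Complex.measurable_ofReal.comp measurable_norm)

theorem norm_hat_le (p : ℂ) : ‖hat p‖ ≤ 1 := by
  unfold hat
  rw [norm_div, Complex.norm_real, norm_norm]
  exact div_self_le_one _

theorem norm_hat {p : ℂ} (h : p ≠ 0) : ‖hat p‖ = 1 := by
  unfold hat
  rw [norm_div, Complex.norm_real, norm_norm]
  exact div_self (norm_ne_zero_iff.mpr h)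

theorem norm_mul_hat (p : ℂ) : (‖p‖ : ℂ) * hat p = p := by
  unfold hat
  by_cases h : p = 0
  · simp [h]
  · have h1 : (‖p‖ : ℂ) ≠ 0 := by exact_mod_cast norm_ne_zero_iff.mpr h
    field_simp

theorem hat_mul {a : ℝ} (ha : 0 < a) (p : ℂ) : hat ((a : ℂ) * p) = hat p := by
  unfold hat
  have h1 : (a : ℂ) ≠ 0 := by exact_mod_cast ha.ne'
  rw [norm_mul, Complex.norm_real, Real.norm_eq_abs, abs_of_pos ha]
  push_cast
  rw [mul_div_mul_left _ _ h1]

theorem hat_hat (p : ℂ) : hat (hat p) = hat p := by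
  by_cases h : p = 0
  · simp [h, hat]
  · have h1 := norm_hat h
    have e : hat (hat p) = hat p / (‖hat p‖ : ℂ) := rfl
    rw [e, h1]
    simp

theorem norm_hat_sub_le {a : ℂ} (ha : a ≠ 0) (b : ℂ) :
    ‖hat a - hat b‖ ≤ 2 * ‖a - b‖ / ‖a‖ := by
  have ha0 : 0 < ‖a‖ := norm_pos_iff.mpr ha
  by_cases hb : b = 0
  · subst hb
    have e : hat 0 = 0 := by simp [hat]
    rw [e, sub_zero, sub_zero, norm_hat ha, mul_div_assoc, div_self ha0.ne']
    norm_num
  · have hb0 : 0 < ‖b‖ := norm_pos_iff.mpr hb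
    have ha1 : (‖a‖ : ℂ) ≠ 0 := by exact_mod_cast ha0.ne'
    have hb1 : (‖b‖ : ℂ) ≠ 0 := by exact_mod_cast hb0.ne'
    have e : hat a - hat b = (a - b) / (‖a‖ : ℂ) + ((‖b‖ - ‖a‖ : ℝ) : ℂ) / (‖a‖ : ℂ) * hat b := by
      unfold hat
      push_cast
      field_simp
      ring
    rw [e]
    refine (norm_add_le _ _).trans ?_
    rw [norm_mul, norm_hat hb, mul_one, norm_div, norm_div, Complex.norm_real, norm_norm,
      Complex.norm_real, Real.norm_eq_abs]
    have h1 : |‖b‖ - ‖a‖| ≤ ‖a - b‖ := by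
      rw [norm_sub_rev]
      exact abs_norm_sub_norm_le b a
    rw [← add_div]
    refine div_le_div_of_nonneg_right ?_ ha0.le
    linarith

theorem measurable_sec (M : ℕ) (σ : ℝ) : Measurable (sec M σ) := by
  unfold sec
  exact measurable_const.mul (Complex.measurable_re.comp (measurable_hat.pow_const M))

theorem abs_sec_le (M : ℕ) {σ : ℝ} (hσ : σ = 1 ∨ σ = -1) (p : ℂ) : |sec M σ p| ≤ 1 := by
  unfold sec
  have h1 : |σ| = 1 := by rcases hσ with rfl | rfl <;> simp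
  rw [abs_mul, h1, one_mul]
  refine (Complex.abs_re_le_norm _).trans ?_
  rw [norm_pow]
  exact pow_le_one₀ (norm_nonneg _) (norm_hat_le p)

theorem sec_neg (M : ℕ) (σ : ℝ) (p : ℂ) : sec M (-σ) p = -sec M σ p := by
  unfold sec
  ring

theorem geo2_pow_sub {z w : ℂ} (hz : ‖z‖ ≤ 1) (hw : ‖w‖ ≤ 1) (M : ℕ) :
    ‖z ^ M - w ^ M‖ ≤ M * ‖z - w‖ := by
  induction M with
  | zero => simp
  | succ n ih =>
    have e : z ^ (n + 1) - w ^ (n + 1) = z * (z ^ n - w ^ n) + (z - w) * w ^ n := by ring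
    rw [e]
    refine (norm_add_le _ _).trans ?_
    rw [norm_mul, norm_mul, norm_pow]
    have h1 : ‖w‖ ^ n ≤ 1 := pow_le_one₀ (norm_nonneg _) hw
    have h2 : ‖z‖ * ‖z ^ n - w ^ n‖ ≤ 1 * ‖z ^ n - w ^ n‖ :=
      mul_le_mul_of_nonneg_right hz (norm_nonneg _)
    have h3 : ‖z - w‖ * ‖w‖ ^ n ≤ ‖z - w‖ * 1 := mul_le_mul_of_nonneg_left h1 (norm_nonneg _)
    push_cast
    linarith

theorem abs_sec_sub_le (M : ℕ) {σ : ℝ} (hσ : σ = 1 ∨ σ = -1) (a b : ℂ) :
    |sec M σ a - sec M σ b| ≤ M * ‖hat a - hat b‖ := by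
  unfold sec
  have h1 : |σ| = 1 := by rcases hσ with rfl | rfl <;> simp
  rw [← mul_sub, abs_mul, h1, one_mul, ← Complex.sub_re]
  exact (Complex.abs_re_le_norm _).trans (geo2_pow_sub (norm_hat_le a) (norm_hat_le b) M)

theorem Ef_nonneg {e0 : ℝ} (he : 0 ≤ e0) (ρ : ℝ) : 0 ≤ Ef e0 ρ := by
  unfold Ef
  positivity

theorem Ef_le {e0 : ℝ} (he : 0 ≤ e0) (ρ : ℝ) : Ef e0 ρ ≤ e0 / 256 := by
  unfold Ef
  have h1 : max 0 (min ρ (1 / 8 - ρ)) ≤ 1 / 16 := by
    refine max_le (by norm_num) ?_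
    rcases le_total ρ (1 / 16) with h | h
    · exact (min_le_left _ _).trans h
    · exact (min_le_right _ _).trans (by linarith)
  have h2 : (max 0 (min ρ (1 / 8 - ρ))) ^ 2 ≤ (1 / 16) ^ 2 :=
    pow_le_pow_left₀ (le_max_left _ _) h1 2
  have h3 := mul_le_mul_of_nonneg_left h2 he
  linarith

theorem Ef_le_sq {e0 : ℝ} (he : 0 ≤ e0) (ρ : ℝ) : Ef e0 ρ ≤ e0 * ρ ^ 2 := by
  unfold Ef
  have h1 : max 0 (min ρ (1 / 8 - ρ)) ≤ |ρ| :=
    max_le (abs_nonneg _) ((min_le_left _ _).trans (le_abs_self _))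
  have h2 : (max 0 (min ρ (1 / 8 - ρ))) ^ 2 ≤ |ρ| ^ 2 :=
    pow_le_pow_left₀ (le_max_left _ _) h1 2
  rw [sq_abs] at h2
  exact mul_le_mul_of_nonneg_left h2 he

theorem Ef_eq (e0 : ℝ) {ρ : ℝ} (h0 : 0 ≤ ρ) (h1 : ρ ≤ 1 / 16) : Ef e0 ρ = e0 * ρ ^ 2 := by
  unfold Ef
  rw [min_eq_left (by linarith), max_eq_right h0]

theorem Ef_pos_imp {e0 ρ : ℝ} (h : Ef e0 ρ ≠ 0) : 0 < ρ ∧ ρ < 1 / 8 := by
  by_contra hn
  apply h
  unfold Ef
  have h1 : min ρ (1 / 8 - ρ) ≤ 0 := by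
    rcases not_and_or.mp hn with h2 | h2
    · exact (min_le_left _ _).trans (not_lt.mp h2)
    · exact (min_le_right _ _).trans (by linarith [not_lt.mp h2])
  rw [max_eq_left h1]
  simp

theorem sqrt_Ef_le {e0 : ℝ} (he : 0 ≤ e0) (a b : ℝ) :
    Real.sqrt (Ef e0 a) ≤ Real.sqrt (Ef e0 b) + Real.sqrt e0 * |a - b| := by
  unfold Ef
  rw [Real.sqrt_mul he, Real.sqrt_mul he, Real.sqrt_sq (le_max_left _ _),
    Real.sqrt_sq (le_max_left _ _), ← mul_add]
  refine mul_le_mul_of_nonneg_left ?_ (Real.sqrt_nonneg _)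
  have h1 := le_abs_self (a - b)
  have h2 := neg_abs_le (a - b)
  have h0 := abs_nonneg (a - b)
  have h3 : min b (1 / 8 - b) ≤ max 0 (min b (1 / 8 - b)) := le_max_right _ _
  have h4 : 0 ≤ max 0 (min b (1 / 8 - b)) := le_max_left _ _
  refine max_le (by linarith) ?_
  have h5 := min_le_left a (1 / 8 - a)
  have h6 := min_le_right a (1 / 8 - a)
  rcases min_cases b (1 / 8 - b) with ⟨h7, _⟩ | ⟨h7, _⟩
  · linarith
  · linarith

theorem continuous_Ef (e0 : ℝ) : Continuous (Ef e0) := by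
  unfold Ef
  fun_prop

theorem uf_of_ge {c t : ℝ} (hc : 0 < c) (ht : 0 < t) {x : T3} (h : c * t ≤ ‖X x‖) :
    uf c t x = (c : ℂ) * hat (X x) := by
  unfold uf
  have e : X x / (t : ℂ) = ((t⁻¹ : ℝ) : ℂ) * X x := by
    push_cast
    ring
  have h1 : c ≤ ‖X x / (t : ℂ)‖ := by
    rw [norm_div, Complex.norm_real, Real.norm_eq_abs, abs_of_pos ht, le_div_iff₀ ht]
    exact h
  rw [pj_of_ge hc h1, e, hat_mul (inv_pos.mpr ht)]

theorem uf_of_le {c t : ℝ} (ht : 0 < t) {x : T3} (h : ‖X x‖ ≤ c * t) :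
    uf c t x = X x / (t : ℂ) := by
  unfold uf
  refine pj_of_le ?_
  rw [norm_div, Complex.norm_real, Real.norm_eq_abs, abs_of_pos ht, div_le_iff₀ ht]
  exact h

theorem norm_Uf_le {c σ : ℝ} (hc : 0 ≤ c) (hc' : c ≤ 1 / 2) (hσ : σ = 1 ∨ σ = -1) (t : ℝ)
    (x : T3) : ‖Uf c σ t x‖ ≤ 9 / 8 := by
  have h1 := norm_sq_eq (Uf c σ t x)
  have h2 : ‖uf c t x‖ ≤ c := norm_pj_le hc _
  have h3 : σ ^ 2 = 1 := by rcases hσ with rfl | rfl <;> norm_num
  unfold Uf at h1 ⊢
  rw [tp_mkV, mkV_two, h3] at h1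
  have h4 : ‖uf c t x‖ ^ 2 ≤ (1 / 2) ^ 2 := pow_le_pow_left₀ (norm_nonneg _) (h2.trans hc') 2
  refine (pow_le_pow_iff_left₀ (norm_nonneg _) (by norm_num) two_ne_zero).mp ?_
  rw [h1]
  linarith

theorem measurable_uf (c : ℝ) : Measurable (fun p : ℝ × T3 => uf c p.1 p.2) := by
  unfold uf
  exact (measurable_pj c).comp ((measurable_X.comp measurable_snd).div
    (Complex.measurable_ofReal.comp measurable_fst))

theorem geo2_meas_mkV {α : Type} [MeasurableSpace α] {u : α → ℂ} (hu : Measurable u) (σ : ℝ) :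
    Measurable (fun a => mkV (u a) σ) :=
  continuous_mkV.measurable.comp (hu.prodMk (measurable_const (a := σ)))

theorem measurable_Uf (c σ : ℝ) : Measurable (fun p : ℝ × T3 => Uf c σ p.1 p.2) := by
  unfold Uf
  exact geo2_meas_mkV (measurable_uf c) σ

theorem upath_xi (c : ℝ) {t : ℝ} {x : T3} {w : V} (h : xi t (x, w) + (t : ℂ) * tp w = X x) :
    upath c t (xi t (x, w)) w = uf c t x := by
  unfold upath uf
  rw [h]

theorem dsig_xi (c σ : ℝ) {t : ℝ} {x : T3} {w : V} (h : xi t (x, w) + (t : ℂ) * tp w = X x) :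
    dsig c σ t (xi t (x, w)) w = ‖w - Uf c σ t x‖ := by
  unfold dsig Uf
  rw [upath_xi c h]

theorem dperp_anti {c : ℝ} (hc : 0 ≤ c) {s t : ℝ} (hs : 0 < s) (hst : s ≤ t) (ξ : ℂ) (v : V) :
    dperp c t ξ v ≤ dperp c s ξ v := by
  unfold dperp upath
  have ht : 0 < t := lt_of_lt_of_le hs hst
  have e : ∀ r : ℝ, 0 < r → (ξ + (r : ℂ) * tp v) / (r : ℂ) = tp v + ((r⁻¹ : ℝ) : ℂ) * ξ := by
    intro r hr
    have h1 : (r : ℂ) ≠ 0 := by exact_mod_cast hr.ne'
    push_cast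
    field_simp
    ring
  rw [e t ht, e s hs]
  exact pj_ray_mono hc _ _ (inv_pos.mpr ht).le (inv_anti₀ hs hst)

theorem dsig_anti {c : ℝ} (hc : 0 ≤ c) (σ : ℝ) {s t : ℝ} (hs : 0 < s) (hst : s ≤ t) (ξ : ℂ)
    (v : V) : dsig c σ t ξ v ≤ dsig c σ s ξ v := by
  have h1 := dperp_anti hc hs hst ξ v
  unfold dperp at h1
  unfold dsig
  refine (pow_le_pow_iff_left₀ (norm_nonneg _) (norm_nonneg _) two_ne_zero).mp ?_
  rw [norm_sub_mkV_sq, norm_sub_mkV_sq]
  have h2 := pow_le_pow_left₀ (norm_nonneg _) h1 2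
  linarith

theorem dperp_le_dsig (c σ t : ℝ) (ξ : ℂ) (v : V) : dperp c t ξ v ≤ dsig c σ t ξ v := by
  unfold dperp dsig
  exact norm_tp_sub_le _ _ _

theorem geo2_meas_upath {α : Type} [MeasurableSpace α] (c : ℝ) {t : α → ℝ} {ξ : α → ℂ}
    {v : α → V} (ht : Measurable t) (hξ : Measurable ξ) (hv : Measurable v) :
    Measurable (fun a => upath c (t a) (ξ a) (v a)) := by
  unfold upath
  have h1 : Measurable (fun a => (t a : ℂ)) := Complex.measurable_ofReal.comp ht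
  have h2 : Measurable (fun a => tp (v a)) := continuous_tp.measurable.comp hv
  exact (measurable_pj c).comp ((hξ.add (h1.mul h2)).div h1)

theorem measurable_dsig (c σ : ℝ) :
    Measurable (fun p : ℝ × ℂ × V => dsig c σ p.1 p.2.1 p.2.2) := by
  unfold dsig
  exact (measurable_snd.snd.sub (geo2_meas_mkV
    (geo2_meas_upath c measurable_fst measurable_snd.fst measurable_snd.snd) σ)).norm

theorem mt_pos (t : ℝ) (v : V) : 0 < mt t v := by
  unfold mt
  exact Real.exp_pos _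

theorem mt_le_one {t : ℝ} (ht : t ≤ 1 / 4) (v : V) : mt t v ≤ 1 := by
  unfold mt
  rw [Real.exp_le_one_iff]
  have := sq_nonneg ‖v‖
  nlinarith

theorem mt_mono {s t : ℝ} (h : s ≤ t) (v : V) : mt s v ≤ mt t v := by
  unfold mt
  refine Real.exp_le_exp.mpr ?_
  have := sq_nonneg ‖v‖
  nlinarith

theorem Mx_le_mt {t : ℝ} (ht : 0 ≤ t) (v : V) : Mx v ≤ mt t v := by
  unfold Mx mt
  have h1 : (2 * Real.pi) ^ (-(3 / 2 : ℝ)) ≤ 1 :=
    Real.rpow_le_one_of_one_le_of_nonpos (by linarith [Real.pi_gt_three]) (by norm_num)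
  have h2 : Real.exp (-‖v‖ ^ 2 / 2) ≤ Real.exp (-(1 / 4 - t) * ‖v‖ ^ 2) := by
    refine Real.exp_le_exp.mpr ?_
    have := sq_nonneg ‖v‖
    nlinarith
  have h3 := mul_le_mul_of_nonneg_right h1 (Real.exp_pos (-‖v‖ ^ 2 / 2)).le
  linarith

theorem mt_ge {t R : ℝ} (ht : 0 ≤ t) {v : V} (hv : ‖v‖ ≤ R) :
    Real.exp (-R ^ 2 / 4) ≤ mt t v := by
  unfold mt
  refine Real.exp_le_exp.mpr ?_
  have h1 : ‖v‖ ^ 2 ≤ R ^ 2 := pow_le_pow_left₀ (norm_nonneg _) hv 2
  have := sq_nonneg ‖v‖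
  nlinarith

theorem lintegral_mt_le {a t : ℝ} (ha : 0 ≤ a) (hat : a ≤ t) (v : V) :
    ∫⁻ s in Ioc a t, ENNReal.ofReal ((1 + ‖v‖) * mt s v)
      ≤ ENNReal.ofReal ((t + Real.sqrt t) * mt t v) := by
  have hc : Continuous (fun s : ℝ => mt s v) := by
    unfold mt
    fun_prop
  have hc2 : Continuous (fun s : ℝ => (1 + ‖v‖) * mt s v) := continuous_const.mul hc
  have hint : IntegrableOn (fun s : ℝ => (1 + ‖v‖) * mt s v) (Ioc a t) :=
    (hc2.intervalIntegrable a t).1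
  rw [← ofReal_integral_eq_lintegral_ofReal hint (ae_of_all _ fun s =>
    mul_nonneg (by positivity) (mt_pos s v).le), ← intervalIntegral.integral_of_le hat,
    intervalIntegral.integral_const_mul]
  refine ENNReal.ofReal_le_ofReal ?_
  set I := ∫ s in a..t, mt s v with hI
  have hm := mt_pos t v
  have hI0 : 0 ≤ I := intervalIntegral.integral_nonneg hat fun s _ => (mt_pos s v).le
  have hI1 : I ≤ t * mt t v := by
    have h1 : I ≤ ∫ _s in a..t, mt t v :=
      intervalIntegral.integral_mono_on hat (hc.intervalIntegrable a t)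
        intervalIntegrable_const fun s hs => mt_mono hs.2 v
    rw [intervalIntegral.integral_const, smul_eq_mul] at h1
    nlinarith
  have hI2 : ‖v‖ ^ 2 * I ≤ mt t v := by
    have hd : ∀ s ∈ uIcc a t, HasDerivAt (fun s : ℝ => mt s v) (‖v‖ ^ 2 * mt s v) s := by
      intro s _
      have h1 : HasDerivAt (fun s : ℝ => -(1 / 4 - s) * ‖v‖ ^ 2) (‖v‖ ^ 2) s := by
        have h2 := (((hasDerivAt_id s).const_sub (1 / 4 : ℝ)).neg).mul_const (‖v‖ ^ 2)
        simpa using h2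
      have h3 := h1.exp
      rw [mul_comm] at h3
      exact h3
    have h4 := intervalIntegral.integral_eq_sub_of_hasDerivAt hd
      ((continuous_const.mul hc).intervalIntegrable a t)
    rw [intervalIntegral.integral_const_mul] at h4
    have h5 := mt_pos a v
    rw [hI]
    linarith
  have ht : 0 ≤ t := ha.trans hat
  have hI3 : ‖v‖ * I ≤ Real.sqrt t * mt t v := by
    refine (pow_le_pow_iff_left₀ (by positivity) (by positivity) two_ne_zero).mp ?_
    rw [mul_pow, mul_pow, Real.sq_sqrt ht]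
    have h1 := mul_le_mul hI2 hI1 hI0 hm.le
    nlinarith
  nlinarith

theorem one_le_Sg (c R t : ℝ) (ξ : ℂ) (v : V) : 1 ≤ Sg c R t ξ v := by
  unfold Sg
  exact le_self_add

theorem geo2_rpow_anti {a b : ℝ≥0∞} (h : a ≤ b) {p : ℝ} (hp : 0 ≤ p) :
    b ^ (-p) ≤ a ^ (-p) := by
  rw [ENNReal.rpow_neg, ENNReal.rpow_neg]
  exact ENNReal.inv_le_inv.mpr (ENNReal.rpow_le_rpow h hp)

theorem Sg_mono {c : ℝ} (hc : 0 ≤ c) (R : ℝ) {s t : ℝ} (hs : 0 < s) (hst : s ≤ t) (ξ : ℂ)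
    (v : V) : Sg c R s ξ v ≤ Sg c R t ξ v := by
  unfold Sg
  refine add_le_add le_rfl ?_
  split_ifs with h
  · unfold sing
    refine add_le_add (add_le_add ?_ ?_) ?_
    · exact geo2_rpow_anti (ENNReal.ofReal_le_ofReal (dsig_anti hc 1 hs hst ξ v)) (by norm_num)
    · exact geo2_rpow_anti (ENNReal.ofReal_le_ofReal (dsig_anti hc (-1) hs hst ξ v))
        (by norm_num)
    · exact geo2_rpow_anti (ENNReal.ofReal_le_ofReal (dperp_anti hc hs hst ξ v)) (by norm_num)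
  · exact le_rfl

theorem W_fl (c R t : ℝ) (z : Ph) :
    W c R t (fl t z) = ENNReal.ofReal (mt t z.2) * Sg c R t (X z.1) z.2 := by
  unfold W
  rw [xi_fl]
  rfl

theorem W_fl_mono {c : ℝ} (hc : 0 ≤ c) (R : ℝ) {s t : ℝ} (hs : 0 < s) (hst : s ≤ t) (z : Ph) :
    W c R s (fl s z) ≤ W c R t (fl t z) := by
  rw [W_fl, W_fl]
  exact mul_le_mul' (ENNReal.ofReal_le_ofReal (mt_mono hst _)) (Sg_mono hc R hs hst _ _)

theorem mt_le_W (c R t : ℝ) (z : Ph) : ENNReal.ofReal (mt t z.2) ≤ W c R t z := by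
  unfold W
  exact le_mul_of_one_le_right' (one_le_Sg _ _ _ _ _)

theorem W_le_Wf (c : ℝ) {R t : ℝ} (ht : 0 < t) (htR : t * R ≤ 1 / 8) (x : T3) (w : V) :
    W c R t (x, w) ≤ Wf t (uf c t x) R w := by
  unfold W Wf Sg
  refine mul_le_mul' le_rfl (add_le_add le_rfl ?_)
  by_cases h : ‖w‖ ≤ R ∧ ‖xi t (x, w)‖ ≤ 1 / 4
  · have h1 : t * ‖w‖ ≤ t * R := mul_le_mul_of_nonneg_left h.1 ht.le
    have h2 := xi_chart ht.le x w (by linarith [h.2])
    rw [if_pos h, if_pos h.1]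
    exact le_of_eq (congrArg (fun u => sing u w) (upath_xi c h2))
  · rw [if_neg h]
    exact zero_le

theorem W_eq_Wf (c : ℝ) {R t : ℝ} (ht : 0 < t) (x : T3) (h : ‖X x‖ + t * R ≤ 1 / 4) (w : V) :
    W c R t (x, w) = Wf t (uf c t x) R w := by
  unfold W Wf Sg
  by_cases hw : ‖w‖ ≤ R
  · have h1 : t * ‖w‖ ≤ t * R := mul_le_mul_of_nonneg_left hw ht.le
    have h2 := xi_chart' ht.le x w (by linarith)
    have h3 := norm_xi_le ht.le x w
    have h4 : ‖w‖ ≤ R ∧ ‖xi t (x, w)‖ ≤ 1 / 4 := ⟨hw, by linarith⟩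
    rw [if_pos h4, if_pos hw]
    exact congrArg (fun u => ENNReal.ofReal (mt t w) * (1 + sing u w)) (upath_xi c h2)
  · have h4 : ¬(‖w‖ ≤ R ∧ ‖xi t (x, w)‖ ≤ 1 / 4) := fun h5 => hw h5.1
    rw [if_neg h4, if_neg hw]

theorem geo2_inv_le (a : ℝ≥0∞) : a⁻¹ ≤ 1 + a ^ (-(3 / 2) : ℝ) := by
  rcases le_total 1 a with h | h
  · exact (ENNReal.inv_le_one.mpr h).trans le_self_add
  · refine le_trans ?_ le_add_self
    rw [← ENNReal.rpow_neg_one]
    exact ENNReal.rpow_le_rpow_of_exponent_ge h (by norm_num)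

theorem geo2_pow_le_sing {σ : ℝ} (hσ : σ = 1 ∨ σ = -1) (u : ℂ) (v : V) :
    ENNReal.ofReal ‖v - mkV u σ‖ ^ (-(3 / 2) : ℝ) ≤ sing u v := by
  unfold sing
  rcases hσ with rfl | rfl
  · exact le_self_add.trans le_self_add
  · exact le_add_self.trans le_self_add

theorem geo2_far {c R σ : ℝ} (hc : 0 ≤ c) (hc' : c ≤ 1 / 2) (hR : 3 ≤ R)
    (hσ : σ = 1 ∨ σ = -1) (t : ℝ) (x : T3) {v : V} (hv : ¬‖v‖ ≤ R) :
    1 ≤ ENNReal.ofReal ‖v - Uf c σ t x‖ := by
  have h1 := norm_Uf_le hc hc' hσ t x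
  have h2 := norm_sub_norm_le v (Uf c σ t x)
  have h3 := not_le.mp hv
  exact ENNReal.one_le_ofReal.mpr (by linarith)

theorem shape_inv {c R t σ : ℝ} (hc : 0 ≤ c) (hc' : c ≤ 1 / 2) (hR : 3 ≤ R) (ht : 0 < t)
    (hσ : σ = 1 ∨ σ = -1) (x : T3) (h : ‖X x‖ + t * R ≤ 1 / 4) (v : V) :
    ENNReal.ofReal (mt t v) * (ENNReal.ofReal ‖v - Uf c σ t x‖)⁻¹ ≤ W c R t (x, v) := by
  rw [W_eq_Wf c ht x h v]
  unfold Wf
  refine mul_le_mul' le_rfl ?_
  by_cases hv : ‖v‖ ≤ R
  · rw [if_pos hv]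
    exact (geo2_inv_le _).trans (add_le_add le_rfl (geo2_pow_le_sing hσ _ v))
  · rw [if_neg hv, add_zero]
    exact ENNReal.inv_le_one.mpr (geo2_far hc hc' hR hσ t x hv)

theorem shape_pow {c R t σ : ℝ} (hc : 0 ≤ c) (hc' : c ≤ 1 / 2) (hR : 3 ≤ R) (ht : 0 < t)
    (hσ : σ = 1 ∨ σ = -1) (x : T3) (h : ‖X x‖ + t * R ≤ 1 / 4) (v : V) :
    ENNReal.ofReal (mt t v) * ENNReal.ofReal ‖v - Uf c σ t x‖ ^ (-(3 / 2) : ℝ)
      ≤ W c R t (x, v) := by
  rw [W_eq_Wf c ht x h v]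
  unfold Wf
  refine mul_le_mul' le_rfl ?_
  by_cases hv : ‖v‖ ≤ R
  · rw [if_pos hv]
    exact (geo2_pow_le_sing hσ _ v).trans le_add_self
  · rw [if_neg hv, add_zero]
    exact ENNReal.rpow_le_one_of_one_le_of_neg (geo2_far hc hc' hR hσ t x hv) (by norm_num)

theorem geo2_meas_sing {α : Type} [MeasurableSpace α] {u : α → ℂ} {v : α → V}
    (hu : Measurable u) (hv : Measurable v) : Measurable (fun a => sing (u a) (v a)) := by
  unfold sing
  have h1 : ∀ σ : ℝ, Measurable (fun a => ENNReal.ofReal ‖v a - mkV (u a) σ‖) := fun σ =>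
    (hv.sub (geo2_meas_mkV hu σ)).norm.ennreal_ofReal
  have h3 : Measurable (fun a => tp (v a)) := continuous_tp.measurable.comp hv
  have h2 : Measurable (fun a => ENNReal.ofReal ‖tp (v a) - u a‖) :=
    (h3.sub hu).norm.ennreal_ofReal
  exact (((h1 1).pow_const _).add ((h1 (-1)).pow_const _)).add (h2.pow_const _)

theorem measurable_sing : Measurable (fun p : ℂ × V => sing p.1 p.2) := by
  exact geo2_meas_sing measurable_fst measurable_snd

theorem geo2_meas_mt {α : Type} [MeasurableSpace α] {t : α → ℝ} {v : α → V}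
    (ht : Measurable t) (hv : Measurable v) : Measurable (fun a => mt (t a) (v a)) := by
  unfold mt
  exact Real.measurable_exp.comp ((measurable_const.sub ht).neg.mul (hv.norm.pow_const 2))

theorem measurable_Wf (t : ℝ) (u : ℂ) (R : ℝ) : Measurable (Wf t u R) := by
  unfold Wf
  have h1 : Measurable (fun v : V => mt t v) := geo2_meas_mt measurable_const measurable_id
  have h2 : Measurable (fun v : V => sing u v) := geo2_meas_sing measurable_const measurable_id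
  exact h1.ennreal_ofReal.mul (measurable_const.add (Measurable.ite
    (measurableSet_le measurable_norm measurable_const) h2 measurable_const))

theorem measurable_W (c R : ℝ) : Measurable (fun p : ℝ × Ph => W c R p.1 p.2) := by
  unfold W Sg
  have hv : Measurable (fun p : ℝ × Ph => p.2.2) := measurable_snd.comp measurable_snd
  have h1 : Measurable (fun p : ℝ × Ph => mt p.1 p.2.2) :=
    geo2_meas_mt measurable_fst hv
  have h2 : Measurable (fun p : ℝ × Ph => upath c p.1 (xi p.1 p.2) p.2.2) :=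
    geo2_meas_upath c measurable_fst measurable_xi hv
  have h3 : Measurable (fun p : ℝ × Ph => sing (upath c p.1 (xi p.1 p.2) p.2.2) p.2.2) :=
    geo2_meas_sing h2 hv
  refine h1.ennreal_ofReal.mul (measurable_const.add (Measurable.ite ?_ h3 measurable_const))
  exact (measurableSet_le hv.norm measurable_const).inter
    (measurableSet_le measurable_xi.norm measurable_const)

theorem geo2_meas_Nf {α : Type} [MeasurableSpace α] (P : ℕ) {ε a : α → ℝ} {U w : α → V}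
    (hε : Measurable ε) (ha : Measurable a) (hU : Measurable U) (hw : Measurable w) :
    Measurable (fun x => Nf P (ε x) (a x) (U x) (w x)) := by
  unfold Nf
  refine Measurable.ite (measurableSet_le hw.norm measurable_const) ?_ measurable_const
  exact ((hε.pow_const P).div ((((hw.sub hU).norm.add ha).add hε).pow_const _)).ennreal_ofReal

theorem measurable_Nf (P : ℕ) (ε a : ℝ) (U : V) : Measurable (Nf P ε a U) := by
  exact geo2_meas_Nf P measurable_const measurable_const measurable_const measurable_id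

theorem measurable_Nar (c e0 : ℝ) : Measurable (fun p : ℝ × Ph => Nar c e0 p.1 p.2) := by
  unfold Nar
  have hv : Measurable (fun p : ℝ × Ph => p.2.2) := measurable_snd.comp measurable_snd
  have hx : Measurable (fun p : ℝ × Ph => p.2.1) := measurable_fst.comp measurable_snd
  have he : Measurable (fun p : ℝ × Ph => epsf c e0 p.1 p.2.1) := by
    unfold epsf
    exact (continuous_Ef e0).measurable.comp ((measurable_X.comp hx).norm.sub
      (measurable_const.mul measurable_fst))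
  have hU : ∀ σ : ℝ, Measurable (fun p : ℝ × Ph => Uf c σ p.1 p.2.1) := by
    intro σ
    unfold Uf uf
    have h1 : Measurable (fun p : ℝ × Ph => X p.2.1) := measurable_X.comp hx
    have h2 : Measurable (fun p : ℝ × Ph => (p.1 : ℂ)) :=
      Complex.measurable_ofReal.comp measurable_fst
    exact geo2_meas_mkV ((measurable_pj c).comp (h1.div h2)) σ
  exact (geo2_meas_Nf 50 he measurable_const (hU 1) hv).add
    (geo2_meas_Nf 50 he measurable_const (hU (-1)) hv)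

theorem Wf_le_of_far {t R d : ℝ} (ht : t ≤ 1 / 4) (hd : 0 < d) (hd' : d ≤ 1) {u : ℂ} {w : V}
    (h : d ≤ ‖tp w - u‖) : Wf t u R w ≤ ENNReal.ofReal (4 / d ^ 2) := by
  have hD : ENNReal.ofReal d ^ (-2 : ℝ) = ENNReal.ofReal (1 / d ^ 2) := by
    rw [ENNReal.ofReal_rpow_of_pos hd, Real.rpow_neg hd.le, one_div]
    norm_num
  have hd1 : ENNReal.ofReal d ≤ 1 := ENNReal.ofReal_le_one.mpr hd'
  have key : ∀ (r p : ℝ), d ≤ r → 0 ≤ p → p ≤ 2 →
      ENNReal.ofReal r ^ (-p) ≤ ENNReal.ofReal (1 / d ^ 2) := by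
    intro r p hr hp hp2
    rw [← hD]
    exact (geo2_rpow_anti (ENNReal.ofReal_le_ofReal hr) hp).trans
      (ENNReal.rpow_le_rpow_of_exponent_ge hd1 (by linarith))
  have h0 : (1 : ℝ≥0∞) ≤ ENNReal.ofReal (1 / d ^ 2) := by
    have h1 := key d 0 le_rfl le_rfl (by norm_num)
    rwa [neg_zero, ENNReal.rpow_zero] at h1
  have hs : sing u w ≤ ENNReal.ofReal (1 / d ^ 2) + ENNReal.ofReal (1 / d ^ 2)
      + ENNReal.ofReal (1 / d ^ 2) := by
    unfold sing
    exact add_le_add (add_le_add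
      (key _ _ (h.trans (norm_tp_sub_le w u 1)) (by norm_num) (by norm_num))
      (key _ _ (h.trans (norm_tp_sub_le w u (-1))) (by norm_num) (by norm_num)))
      (key _ _ h (by norm_num) (by norm_num))
  have hp : 0 ≤ 1 / d ^ 2 := by positivity
  unfold Wf
  have h2 : (if ‖w‖ ≤ R then sing u w else 0) ≤ sing u w := by
    split_ifs
    · exact le_rfl
    · exact zero_le
  calc ENNReal.ofReal (mt t w) * (1 + if ‖w‖ ≤ R then sing u w else 0)
      ≤ 1 * (ENNReal.ofReal (1 / d ^ 2) + (ENNReal.ofReal (1 / d ^ 2) + ENNReal.ofReal (1 / d ^ 2)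
        + ENNReal.ofReal (1 / d ^ 2))) :=
        mul_le_mul' (ENNReal.ofReal_le_one.mpr (mt_le_one ht w)) (add_le_add h0 (h2.trans hs))
    _ = ENNReal.ofReal (4 / d ^ 2) := by
        rw [one_mul, ← ENNReal.ofReal_add hp hp, ← ENNReal.ofReal_add (add_nonneg hp hp) hp,
          ← ENNReal.ofReal_add hp (add_nonneg (add_nonneg hp hp) hp)]
        congr 1
        ring

end

end Vale.Agent.P140
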