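import Vale.Agent.P140.Flow0

/-! The Maxwellian, the torus, the free flow and test functions. -/

namespace Vale.Agent.P140

open MeasureTheory Set Filter Topology
open scoped ENNReal RealInnerProductSpace

noncomputable section

/-- Continuity of the free flow in `L¹`. -/
theorem tendsto_fl_L1 {f : Ph → ℝ} (hf : Integrable f) (t : ℝ) :
    Tendsto (fun s => ∫⁻ z, ‖f (fl s z) - f (fl t z)‖ₑ) (𝓝 t) (𝓝 0) := by
  have : (volume : Measure Ph).Regular :=
    Measure.Regular.of_sigmaCompactSpace_of_isLocallyFiniteMeasure _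
  let g : C(ℝ, C(Ph, Ph)) := ContinuousMap.curry ⟨fun p : ℝ × Ph => fl p.1 p.2, continuous_fl⟩
  have hg : ∀ s, MeasurePreserving (g s) volume volume := measurePreserving_fl
  have h1 := (tendsto_const_nhds (x := hf.toL1 f) (f := 𝓝 t)).compMeasurePreservingLp
    (g.continuous.tendsto t) hg (hg t) ENNReal.one_ne_top
  rw [Lp.tendsto_Lp_iff_tendsto_eLpNorm'] at h1
  refine h1.congr fun s => ?_
  have e : ∀ s, (Lp.compMeasurePreserving (g s) (hg s) (hf.toL1 f) : Ph → ℝ) =ᵐ[volume]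
      fun z => f (fl s z) := fun s =>
    (Lp.coeFn_compMeasurePreserving _ _).trans
      ((hg s).quasiMeasurePreserving.ae_eq_comp hf.coeFn_toL1)
  rw [eLpNorm_congr_ae ((e s).sub (e t)), eLpNorm_one_eq_lintegral_enorm]
  rfl


theorem Flow_Ioc {X : Type} [MeasurableSpace X] {a b : X → ℝ} (ha : Measurable a)
    (hb : Measurable b) {G : X × ℝ → ℝ} (hG : Measurable G) :
    Measurable fun x => ∫ τ in Ioc (a x) (b x), G (x, τ) := by
  have h : Measurable fun p : X × ℝ => if a p.1 < p.2 ∧ p.2 ≤ b p.1 then G p else 0 :=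
    Measurable.ite ((measurableSet_lt (ha.comp measurable_fst) measurable_snd).inter
      (measurableSet_le measurable_snd (hb.comp measurable_fst))) hG measurable_const
  have e : (fun x => ∫ τ in Ioc (a x) (b x), G (x, τ)) =
      fun x => ∫ τ, if a x < τ ∧ τ ≤ b x then G (x, τ) else 0 := by
    ext x
    rw [← integral_indicator measurableSet_Ioc]
    simp only [indicator, mem_Ioc]
  rw [e]
  exact (h.stronglyMeasurable.integral_prod_right' (ν := volume)).measurable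



theorem measurable_Lam {ν : ℝ → Ph → ℝ} (hν : Measurable (fun p : ℝ × Ph => ν p.1 p.2)) :
    Measurable (fun p : ℝ × ℝ × Ph => Lam ν p.1 p.2.1 p.2.2) := by
  have hG : Measurable fun q : (ℝ × ℝ × Ph) × ℝ => ν q.2 (fl q.2 q.1.2.2) :=
    hν.comp (measurable_snd.prodMk
      (measurable_fl.comp (measurable_snd.prodMk measurable_fst.snd.snd)))
  exact (Flow_Ioc measurable_fst measurable_snd.fst hG).sub
    (Flow_Ioc measurable_snd.fst measurable_fst hG)


theorem Flow_pr : IsOpenQuotientMap pr :=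
  (IsOpenQuotientMap.piMap fun _ : Fin 3 => QuotientAddGroup.isOpenQuotientMap_mk).comp
    (PiLp.homeomorph 2 fun _ : Fin 3 => ℝ).isOpenQuotientMap

theorem Flow_desc {g : ℝ × Ph → ℝ}
    (h : Continuous fun p : ℝ × V × V => g (p.1, pr p.2.1, p.2.2)) : Continuous g :=
  (IsOpenQuotientMap.id.prodMap (Flow_pr.prodMap IsOpenQuotientMap.id)).continuous_comp_iff.1 h

theorem Flow_line {Ψ : ℝ × V × V → ℝ} (h : ContDiff ℝ (⊤ : ℕ∞) Ψ) (p d : ℝ × V × V) (t : ℝ) :
    HasDerivAt (fun s : ℝ => Ψ (p + s • d)) (fderiv ℝ Ψ (p + t • d) d) t := by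
  have h1 : HasDerivAt (fun s : ℝ => p + s • d) d t := by
    simpa using ((hasDerivAt_id t).smul_const d).const_add p
  exact (h.differentiable (by simp) _).hasFDerivAt.comp_hasDerivAt t h1

section lift

variable {φ : ℝ → T3 → V → ℝ}
  (h : ContDiff ℝ (⊤ : ℕ∞) fun p : ℝ × V × V => φ p.1 (pr p.2.1) p.2.2)
include h

theorem Flow_dT (t : ℝ) (y v : V) : dT (fun s x => φ s x v) t (pr y) =
    fderiv ℝ (fun p : ℝ × V × V => φ p.1 (pr p.2.1) p.2.2) (t, y, v) (1, 0, 0) := by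
  simpa [dT] using (Flow_line h (0, y, v) (1, 0, 0) t).deriv

theorem Flow_dX (i : Fin 3) (t : ℝ) (y v : V) : dX i (fun s x => φ s x v) t (pr y) =
    fderiv ℝ (fun p : ℝ × V × V => φ p.1 (pr p.2.1) p.2.2) (t, y, v)
      (0, EuclideanSpace.single i 1, 0) := by
  have e : ∀ s : ℝ, s • (EuclideanSpace.single i (1 : ℝ) : V) = EuclideanSpace.single i s :=
    fun s => by ext j; by_cases hj : j = i <;> simp [hj]
  simpa [dX, pr_add, e] using (Flow_line h (t, y, v) (0, EuclideanSpace.single i 1, 0) 0).deriv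

theorem Flow_deriv (t : ℝ) (z : Ph) :
    HasDerivAt (fun s => φ s (fl s z).1 z.2) (trans φ t (fl t z)) t := by
  obtain ⟨x, v⟩ := z
  obtain ⟨y, rfl⟩ := pr_surjective x
  have h1 := Flow_line h (0, y, v) (1, v, 0) t
  have e : ((1, v, 0) : ℝ × V × V) =
      (1, 0, 0) + ∑ i, v i • ((0, EuclideanSpace.single i 1, 0) : ℝ × V × V) := by
    refine Prod.ext ?_ (Prod.ext ?_ ?_)
    · simp [Prod.fst_sum]
    · ext j
      simp [Prod.fst_sum, Prod.snd_sum, Pi.single_apply]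
    · simp [Prod.snd_sum]
  have e2 : trans φ t (fl t (pr y, v)) =
      fderiv ℝ (fun p : ℝ × V × V => φ p.1 (pr p.2.1) p.2.2) (t, y + t • v, v) (1, v, 0) := by
    rw [e, map_add, map_sum]
    simp only [map_smul, smul_eq_mul, ← Flow_dT h, ← Flow_dX h, trans, fl, pr_add]
  rw [e2]
  simpa [fl, pr_add] using h1

theorem Flow_cont_dT : Continuous fun p : ℝ × Ph => dT (fun s x => φ s x p.2.2) p.1 p.2.1 := by
  refine Flow_desc ?_
  simp only [Flow_dT h]
  exact (h.continuous_fderiv (by simp)).clm_apply continuous_const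

theorem Flow_cont_dX (i : Fin 3) :
    Continuous fun p : ℝ × Ph => dX i (fun s x => φ s x p.2.2) p.1 p.2.1 := by
  refine Flow_desc ?_
  simp only [Flow_dX h]
  exact (h.continuous_fderiv (by simp)).clm_apply continuous_const

end lift

theorem Flow_zero {φ : ℝ → T3 → ℝ} {t : ℝ} (h : ∀ᶠ s in 𝓝 t, ∀ x, φ s x = 0) (x : T3) :
    φ t x = 0 ∧ dT φ t x = 0 ∧ ∀ i, dX i φ t x = 0 := by
  refine ⟨h.self_of_nhds x, ?_, fun i => by simp [dX, h.self_of_nhds]⟩
  have : (fun s => φ s x) =ᶠ[𝓝 t] fun _ => 0 := h.mono fun s hs => hs x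
  rw [dT, this.deriv_eq, deriv_const]

theorem Flow_bd {E : Type} [NormedAddCommGroup E] {g : ℝ × Ph → E} (hg : Continuous g) (R : ℝ) :
    ∃ C : ℝ, 0 ≤ C ∧ ∀ t (z : Ph), 0 ≤ t → t ≤ R → ‖z.2‖ ≤ R → ‖g (t, z)‖ ≤ C := by
  obtain ⟨C, hC⟩ := ((isCompact_Icc (a := (0 : ℝ)) (b := R)).prod ((isCompact_univ (X := T3)).prod
    (isCompact_closedBall (0 : V) R))).exists_bound_of_continuousOn hg.continuousOn
  exact ⟨max C 0, le_max_right _ _, fun t z h0 h1 h2 => (hC (t, z)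
    ⟨⟨h0, h1⟩, mem_univ _, mem_closedBall_zero_iff.2 h2⟩).trans (le_max_left _ _)⟩

theorem IsTestX.Flow_lift {φ : ℝ → T3 → ℝ} (h : IsTestX φ) :
    ContDiff ℝ (⊤ : ℕ∞) fun p : ℝ × V × V => (fun t x (_ : V) => φ t x) p.1 (pr p.2.1) p.2.2 :=
  h.smooth.comp (contDiff_fst.prodMk contDiff_snd.fst)



theorem IsTest.hasDerivAt {φ : ℝ → T3 → V → ℝ} (h : IsTest φ) (t : ℝ) (z : Ph) :
    HasDerivAt (fun s => φ s (fl s z).1 z.2) (trans φ t (fl t z)) t :=
  Flow_deriv h.smooth t z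

theorem IsTest.continuous {φ : ℝ → T3 → V → ℝ} (h : IsTest φ) :
    Continuous (fun p : ℝ × Ph => φ p.1 p.2.1 p.2.2) :=
  Flow_desc h.smooth.continuous

theorem IsTest.continuous_trans {φ : ℝ → T3 → V → ℝ} (h : IsTest φ) :
    Continuous (fun p : ℝ × Ph => trans φ p.1 p.2) :=
  (Flow_cont_dT h.smooth).add (continuous_finsetSum _ fun i _ =>
    (by fun_prop : Continuous fun p : ℝ × Ph => p.2.2 i).mul (Flow_cont_dX h.smooth i))

theorem IsTest.bounds {φ : ℝ → T3 → V → ℝ} (h : IsTest φ) : ∃ R C : ℝ, 0 < R ∧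
    (∀ t (z : Ph), 0 ≤ t → |φ t z.1 z.2| ≤ C ∧ |trans φ t z| ≤ C) ∧
    ∀ t (z : Ph), R ≤ t ∨ R ≤ ‖z.2‖ → φ t z.1 z.2 = 0 ∧ trans φ t z = 0 := by
  obtain ⟨R, hR⟩ := h.supp
  have h0 : ∀ t (z : Ph), max R 0 + 1 ≤ t ∨ max R 0 + 1 ≤ ‖z.2‖ →
      φ t z.1 z.2 = 0 ∧ trans φ t z = 0 := by
    intro t z htz
    have := Flow_zero (φ := fun s x => φ s x z.2) (t := t) (by
      rcases htz with e | e
      · filter_upwards [lt_mem_nhds (by linarith [le_max_left R 0] : R < t)] with s hs x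
        exact hR s x _ (Or.inl hs)
      · exact Eventually.of_forall fun s x => hR s x _ (Or.inr (by linarith [le_max_left R 0])))
      z.1
    exact ⟨this.1, by simp [trans, this.2.1, this.2.2]⟩
  obtain ⟨C, hC0, hC⟩ := Flow_bd (h.continuous.prodMk h.continuous_trans) (max R 0 + 1)
  refine ⟨max R 0 + 1, C, by positivity, fun t z ht => ?_, h0⟩
  by_cases e : max R 0 + 1 ≤ t ∨ max R 0 + 1 ≤ ‖z.2‖
  · simp [h0 t z e, hC0]
  · rw [not_or, not_le, not_le] at e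
    exact norm_prod_le_iff.1 (hC t z ht e.1.le e.2.le)

theorem IsTestX.hasDerivAt {φ : ℝ → T3 → ℝ} (h : IsTestX φ) (t : ℝ) (z : Ph) :
    HasDerivAt (fun s => φ s (fl s z).1) (transX φ t (fl t z)) t :=
  Flow_deriv (φ := fun t x _ => φ t x) h.Flow_lift t z

theorem IsTestX.continuous {φ : ℝ → T3 → ℝ} (h : IsTestX φ) :
    Continuous (fun p : ℝ × T3 => φ p.1 p.2) :=
  (IsOpenQuotientMap.id.prodMap Flow_pr).continuous_comp_iff.1 h.smooth.continuous

theorem IsTestX.continuous_dT {φ : ℝ → T3 → ℝ} (h : IsTestX φ) :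
    Continuous (fun p : ℝ × T3 => dT φ p.1 p.2) :=
  (Flow_cont_dT (φ := fun t x _ => φ t x) h.Flow_lift).comp
    (by fun_prop : Continuous fun p : ℝ × T3 => ((p.1, p.2, 0) : ℝ × Ph))

theorem IsTestX.continuous_dX {φ : ℝ → T3 → ℝ} (h : IsTestX φ) (i : Fin 3) :
    Continuous (fun p : ℝ × T3 => dX i φ p.1 p.2) :=
  (Flow_cont_dX (φ := fun t x _ => φ t x) h.Flow_lift i).comp
    (by fun_prop : Continuous fun p : ℝ × T3 => ((p.1, p.2, 0) : ℝ × Ph))

theorem IsTestX.bounds {φ : ℝ → T3 → ℝ} (h : IsTestX φ) : ∃ R C : ℝ, 0 < R ∧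
    (∀ t x, 0 ≤ t → |φ t x| ≤ C ∧ |dT φ t x| ≤ C ∧ ∀ i, |dX i φ t x| ≤ C) ∧
    ∀ t x, R ≤ t → φ t x = 0 ∧ dT φ t x = 0 ∧ ∀ i, dX i φ t x = 0 := by
  obtain ⟨R, hR⟩ := h.supp
  have h0 : ∀ t x, max R 0 + 1 ≤ t → φ t x = 0 ∧ dT φ t x = 0 ∧ ∀ i, dX i φ t x = 0 := by
    intro t x e
    refine Flow_zero ?_ x
    filter_upwards [lt_mem_nhds (by linarith [le_max_left R 0] : R < t)] with s hs x
    exact hR s x hs
  have hc : Continuous fun p : ℝ × Ph => (p.1, p.2.1) := by fun_prop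
  obtain ⟨C, hC0, hC⟩ := Flow_bd ((h.continuous.prodMk (h.continuous_dT.prodMk
    (continuous_pi h.continuous_dX))).comp hc) (max R 0 + 1)
  refine ⟨max R 0 + 1, C, by positivity, fun t x ht => ?_, h0⟩
  by_cases e : max R 0 + 1 ≤ t
  · simp [h0 t x e, hC0]
  · have h1 := norm_prod_le_iff.1 (hC t (x, 0) ht (not_le.1 e).le (by simp; positivity))
    have h2 := norm_prod_le_iff.1 h1.2
    exact ⟨h1.1, h2.1, fun i => (norm_le_pi_norm _ i).trans h2.2⟩

end

end Vale.Agent.P140
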