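import Vale.Agent.P140.QBd
import Vale.Agent.P140.Flow

/-! Extended-valued forms and weak forms of the collision operators. -/

namespace Vale.Agent.P140

open MeasureTheory Set Filter Topology
open scoped ENNReal RealInnerProductSpace

noncomputable section

section Bounds

variable {n A B : ℝ} {f f' g g' φ : V → ℝ}

theorem qapi_mB (n : ℝ) (v : V) : Measurable fun p : V × S2 => Bn n v p.1 p.2 :=
  measurable_Bn n measurable_const measurable_fst measurable_snd

theorem qapi_mvp (v : V) : Measurable fun p : V × S2 => vp v p.1 p.2 :=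
  measurable_vp measurable_const measurable_fst measurable_snd

theorem qapi_mwp (v : V) : Measurable fun p : V × S2 => wp v p.1 p.2 :=
  measurable_wp measurable_const measurable_fst measurable_snd

theorem qapi_mQ {f g : V → ℝ≥0∞} (hf : Measurable f) (hg : Measurable g) (v : V) :
    Measurable fun p : V × S2 =>
      ENNReal.ofReal |ca v p.1 p.2| * (f (vp v p.1 p.2) * g (wp v p.1 p.2)) :=
  (continuous_abs.measurable.comp
    (measurable_ca measurable_const measurable_fst measurable_snd)).ennreal_ofReal.mul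
    ((hf.comp (qapi_mvp v)).mul (hg.comp (qapi_mwp v)))

theorem qapi_Qe {f g : V → ℝ≥0∞} (hf : Measurable f) (hg : Measurable g) (v : V) :
    Qe f g v = ∫⁻ p : V × S2, ENNReal.ofReal |ca v p.1 p.2| *
      (f (vp v p.1 p.2) * g (wp v p.1 p.2)) ∂(volume.prod sig) :=
  (lintegral_prod _ (qapi_mQ hf hg v).aemeasurable).symm

theorem ofReal_QN (hn : 0 ≤ n) (hf : BddV A f) (hg : BddV B g) (hf0 : ∀ v, 0 ≤ f v)
    (hg0 : ∀ v, 0 ≤ g v) (v : V) : ENNReal.ofReal (QN n f g v)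
      = QE n (fun u => ENNReal.ofReal (f u)) (fun u => ENNReal.ofReal (g u)) v := by
  have hm : Measurable fun p : V × S2 => ENNReal.ofReal
      (Bn n v p.1 p.2 * (f (vp v p.1 p.2) * g (wp v p.1 p.2))) :=
    ((qapi_mB n v).mul ((hf.meas.comp (qapi_mvp v)).mul (hg.meas.comp (qapi_mwp v)))).ennreal_ofReal
  rw [QN, ofReal_integral_eq_lintegral_ofReal (QN_integrable hn hf hg v) (Eventually.of_forall
    fun p => mul_nonneg (Bn_nonneg _ _ _ _) (mul_nonneg (hf0 _) (hg0 _))),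
    lintegral_prod _ hm.aemeasurable, QE]
  refine lintegral_congr fun w => lintegral_congr fun ω => ?_
  rw [ENNReal.ofReal_mul (Bn_nonneg _ _ _ _), ENNReal.ofReal_mul (hf0 _)]

theorem nuN_eq (hn : 0 ≤ n) (hg : BddV B g) (v : V) :
    nuN n g v = ∫ w, (if ‖v - w‖ ≤ n then 2 * Real.pi * ‖v - w‖ else 0) * g w := by
  rw [nuN, integral_prod _ (nuN_integrable hn hg v)]
  refine integral_congr_ae (Eventually.of_forall fun w => ?_)
  simp only [integral_mul_const, integral_Bn]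

theorem ofReal_nuN (hn : 0 ≤ n) (hg : BddV B g) (hg0 : ∀ v, 0 ≤ g v) (v : V) :
    ENNReal.ofReal (nuN n g v)
      = ∫⁻ w, ∫⁻ ω, ENNReal.ofReal (Bn n v w ω) * ENNReal.ofReal (g w) ∂sig := by
  have hm : Measurable fun p : V × S2 => ENNReal.ofReal (Bn n v p.1 p.2 * g p.1) :=
    ((qapi_mB n v).mul (hg.meas.comp measurable_fst)).ennreal_ofReal
  rw [nuN, ofReal_integral_eq_lintegral_ofReal (nuN_integrable hn hg v) (Eventually.of_forall
    fun p => mul_nonneg (Bn_nonneg _ _ _ _) (hg0 _)), lintegral_prod _ hm.aemeasurable]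
  refine lintegral_congr fun w => lintegral_congr fun ω => ?_
  rw [ENNReal.ofReal_mul (Bn_nonneg _ _ _ _)]

theorem ofReal_nuN_le (hn : 0 ≤ n) (hg : BddV B g) (hg0 : ∀ v, 0 ≤ g v) (v : V) :
    ENNReal.ofReal (nuN n g v)
      ≤ ∫⁻ w, ENNReal.ofReal (2 * Real.pi * ‖v - w‖) * ENNReal.ofReal (g w) := by
  rw [ofReal_nuN hn hg hg0]
  refine lintegral_mono fun w => ?_
  rw [lintegral_mul_const' _ _ ENNReal.ofReal_ne_top, ← lintegral_abs_ca]
  exact mul_le_mul_left (lintegral_mono fun ω => ENNReal.ofReal_le_ofReal (Bn_le_abs _ _ _ _)) _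

theorem QE_le_Qe (n : ℝ) (f g : V → ℝ≥0∞) (v : V) : QE n f g v ≤ Qe f g v := by
  exact lintegral_mono fun w => lintegral_mono fun ω =>
    mul_le_mul_left (ENNReal.ofReal_le_ofReal (Bn_le_abs _ _ _ _)) _

theorem QE_mono (n : ℝ) {f g f' g' : V → ℝ≥0∞} (hf : ∀ v, f v ≤ f' v) (hg : ∀ v, g v ≤ g' v)
    (v : V) : QE n f g v ≤ QE n f' g' v := by
  exact lintegral_mono fun w => lintegral_mono fun ω =>
    mul_le_mul_right (mul_le_mul' (hf _) (hg _)) _

theorem Qe_mono {f g f' g' : V → ℝ≥0∞} (hf : ∀ v, f v ≤ f' v) (hg : ∀ v, g v ≤ g' v)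
    (v : V) : Qe f g v ≤ Qe f' g' v := by
  exact lintegral_mono fun w => lintegral_mono fun ω =>
    mul_le_mul_right (mul_le_mul' (hf _) (hg _)) _

theorem Qe_add_left {f f' g : V → ℝ≥0∞} (hf : Measurable f) (hf' : Measurable f')
    (hg : Measurable g) (v : V) : Qe (fun u => f u + f' u) g v = Qe f g v + Qe f' g v := by
  rw [qapi_Qe (hf.fun_add hf') hg, qapi_Qe hf hg, qapi_Qe hf' hg,
    ← lintegral_add_left (qapi_mQ hf hg v)]
  simp only [add_mul, mul_add]

theorem Qe_add_right {f g g' : V → ℝ≥0∞} (hf : Measurable f) (hg : Measurable g)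
    (hg' : Measurable g') (v : V) : Qe f (fun u => g u + g' u) v = Qe f g v + Qe f g' v := by
  rw [qapi_Qe hf (hg.fun_add hg'), qapi_Qe hf hg, qapi_Qe hf hg',
    ← lintegral_add_left (qapi_mQ hf hg v)]
  simp only [mul_add]

theorem Qe_const_mul {f g : V → ℝ≥0∞} (hf : Measurable f) (hg : Measurable g) (a b : ℝ≥0∞)
    (v : V) : Qe (fun u => a * f u) (fun u => b * g u) v = a * b * Qe f g v := by
  rw [qapi_Qe (hf.const_mul a) (hg.const_mul b), qapi_Qe hf hg,
    ← lintegral_const_mul _ (qapi_mQ hf hg v)]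
  refine lintegral_congr fun p => ?_
  ring

theorem Qp_eq_Qe (hf : ∀ v, 0 ≤ f v) (v : V) :
    Qp f v = Qe (fun u => ENNReal.ofReal (f u)) (fun u => ENNReal.ofReal (f u)) v := by
  refine lintegral_congr fun w => lintegral_congr fun ω => ?_
  rw [mul_assoc, ENNReal.ofReal_mul (abs_nonneg _), ENNReal.ofReal_mul (hf _)]

theorem Qm_eq (hf : Measurable f) (h0 : ∀ v, 0 ≤ f v)
    (hi : Integrable (fun w => (1 + ‖w‖) * f w)) (v : V) :
    Qm f v = ENNReal.ofReal (f v * ∫ w, 2 * Real.pi * ‖v - w‖ * f w) := by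
  have h1 : Integrable fun w => 2 * Real.pi * ‖v - w‖ * f w := by
    refine (hi.const_mul (2 * Real.pi * (1 + ‖v‖))).mono'
      ((((measurable_const.sub measurable_id).norm.const_mul _).mul hf).aestronglyMeasurable)
      (Eventually.of_forall fun w => ?_)
    have e1 : ‖v - w‖ ≤ (1 + ‖v‖) * (1 + ‖w‖) := by
      nlinarith [norm_sub_le v w, mul_nonneg (norm_nonneg v) (norm_nonneg w)]
    rw [Real.norm_of_nonneg (mul_nonneg (by positivity) (h0 w)), ← mul_assoc,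
      mul_assoc _ (1 + ‖v‖)]
    exact mul_le_mul_of_nonneg_right (mul_le_mul_of_nonneg_left e1 (by positivity)) (h0 w)
  rw [ENNReal.ofReal_mul (h0 v), ofReal_integral_eq_lintegral_ofReal h1 (Eventually.of_forall
    fun w => mul_nonneg (by positivity) (h0 w)), ← lintegral_const_mul' _ _ ENNReal.ofReal_ne_top]
  refine lintegral_congr fun w => ?_
  simp only [mul_assoc |ca v w _|, ENNReal.ofReal_mul (abs_nonneg _)]
  rw [lintegral_mul_const' _ _ ENNReal.ofReal_ne_top, lintegral_abs_ca,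
    ENNReal.ofReal_mul (h0 v), ENNReal.ofReal_mul (by positivity : 0 ≤ 2 * Real.pi * ‖v - w‖)]
  ring

/-- Integrability on the collision space for polynomially growing weights. -/
theorem coll_integrable {C : ℝ} {H : (V × V) × S2 → ℝ} (hn : 0 ≤ n) (hf : BddV A f)
    (hg : BddV B g) (hH : Measurable H)
    (hC : ∀ p, |H p| ≤ C * (1 + ‖p.1.1‖ + ‖p.1.2‖) ^ 4) :
    Integrable (fun p : (V × V) × S2 => Bn n p.1.1 p.1.2 p.2 * (f p.1.1 * g p.1.2) * H p)
      ((volume.prod volume).prod sig) := by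
  have hA := hf.nonneg
  have hB := hg.nonneg
  refine ((((integrable_pow_Mx 4).mul_prod (integrable_pow_Mx 4)).comp_fst sig).const_mul
    (n * (A * B) * C)).mono' (((measurable_Bn n measurable_fst.fst measurable_fst.snd
      measurable_snd).mul ((hf.meas.comp measurable_fst.fst).mul
        (hg.meas.comp measurable_fst.snd))).mul hH).aestronglyMeasurable
    (Eventually.of_forall fun p => ?_)
  have h0 : 0 ≤ C := nonneg_of_mul_nonneg_left ((abs_nonneg _).trans (hC p)) (by positivity)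
  have h1 : 1 + ‖p.1.1‖ + ‖p.1.2‖ ≤ (1 + ‖p.1.1‖) * (1 + ‖p.1.2‖) := by
    nlinarith [mul_nonneg (norm_nonneg p.1.1) (norm_nonneg p.1.2)]
  have h2 := Mx_pos p.1.1
  have h3 := Mx_pos p.1.2
  rw [Real.norm_eq_abs, abs_mul, abs_mul, abs_mul, abs_of_nonneg (Bn_nonneg _ _ _ _)]
  calc _ ≤ n * (A * Mx p.1.1 * (B * Mx p.1.2)) * (C * ((1 + ‖p.1.1‖) * (1 + ‖p.1.2‖)) ^ 4) := by
        refine mul_le_mul (mul_le_mul (Bn_le _ _ _ hn) (mul_le_mul (hf.le _) (hg.le _)
          (abs_nonneg _) (by positivity)) (by positivity) hn) ((hC p).trans ?_) (abs_nonneg _)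
          (by positivity)
        gcongr
    _ = _ := by ring

theorem qapi_fub {H : (V × V) × S2 → ℝ} (hH : Integrable H ((volume.prod volume).prod sig)) :
    Integrable (fun v => ∫ p : V × S2, H ((v, p.1), p.2) ∂(volume.prod sig)) ∧
      ∫ v, ∫ p : V × S2, H ((v, p.1), p.2) ∂(volume.prod sig)
        = ∫ p, H p ∂((volume.prod volume).prod sig) := by
  have h1 := (measurePreserving_prodAssoc (volume : Measure V) (volume : Measure V) sig).symm
    MeasurableEquiv.prodAssoc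
  have h2 := h1.integrable_comp_of_integrable hH
  exact ⟨h2.integral_prod_left, (integral_prod _ h2).symm.trans (h1.integral_comp' H)⟩

theorem qapi_grow {C : ℝ} (hC : ∀ v, |φ v| ≤ C * (1 + ‖v‖) ^ 4) {u v w : V}
    (h : ‖u‖ ≤ ‖v‖ + ‖w‖) : |φ u| ≤ C * (1 + ‖v‖ + ‖w‖) ^ 4 := by
  have h0 : 0 ≤ C := nonneg_of_mul_nonneg_left ((abs_nonneg _).trans (hC u)) (by positivity)
  refine (hC u).trans ?_
  rw [add_assoc]
  gcongr

theorem qapi_i1 {C : ℝ} (hn : 0 ≤ n) (hf : BddV A f) (hg : BddV B g) (hφ : Measurable φ)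
    (hC : ∀ v, |φ v| ≤ C * (1 + ‖v‖) ^ 4) : Integrable (fun p : (V × V) × S2 =>
      Bn n p.1.1 p.1.2 p.2 * (f p.1.1 * g p.1.2) * φ (vp p.1.1 p.1.2 p.2))
      ((volume.prod volume).prod sig) :=
  coll_integrable hn hf hg
    (hφ.comp (measurable_vp measurable_fst.fst measurable_fst.snd measurable_snd))
    fun _ => qapi_grow hC (norm_vp_le _ _ _)

theorem qapi_i2 {C : ℝ} (hn : 0 ≤ n) (hf : BddV A f) (hg : BddV B g) (hφ : Measurable φ)
    (hC : ∀ v, |φ v| ≤ C * (1 + ‖v‖) ^ 4) : Integrable (fun p : (V × V) × S2 =>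
      Bn n p.1.1 p.1.2 p.2 * (f p.1.1 * g p.1.2) * φ (wp p.1.1 p.1.2 p.2))
      ((volume.prod volume).prod sig) :=
  coll_integrable hn hf hg
    (hφ.comp (measurable_wp measurable_fst.fst measurable_fst.snd measurable_snd))
    fun _ => qapi_grow hC (norm_wp_le _ _ _)

theorem qapi_i3 {C : ℝ} (hn : 0 ≤ n) (hf : BddV A f) (hg : BddV B g) (hφ : Measurable φ)
    (hC : ∀ v, |φ v| ≤ C * (1 + ‖v‖) ^ 4) : Integrable (fun p : (V × V) × S2 =>
      Bn n p.1.1 p.1.2 p.2 * (f p.1.1 * g p.1.2) * φ p.1.1) ((volume.prod volume).prod sig) :=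
  coll_integrable hn hf hg (hφ.comp measurable_fst.fst)
    fun _ => qapi_grow hC (le_add_of_nonneg_right (norm_nonneg _))

theorem qapi_i4 {C : ℝ} (hn : 0 ≤ n) (hf : BddV A f) (hg : BddV B g) (hφ : Measurable φ)
    (hC : ∀ v, |φ v| ≤ C * (1 + ‖v‖) ^ 4) : Integrable (fun p : (V × V) × S2 =>
      Bn n p.1.1 p.1.2 p.2 * (f p.1.1 * g p.1.2) * φ p.1.2) ((volume.prod volume).prod sig) :=
  coll_integrable hn hf hg (hφ.comp measurable_fst.snd)
    fun _ => qapi_grow hC (le_add_of_nonneg_left (norm_nonneg _))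

theorem qapi_QN {C : ℝ} (hn : 0 ≤ n) (hf : BddV A f) (hg : BddV B g) (hφ : Measurable φ)
    (hC : ∀ v, |φ v| ≤ C * (1 + ‖v‖) ^ 4) : Integrable (fun v => QN n f g v * φ v) ∧
    ∫ v, QN n f g v * φ v
      = ∫ p : (V × V) × S2, Bn n p.1.1 p.1.2 p.2 * (f p.1.1 * g p.1.2) * φ (vp p.1.1 p.1.2 p.2)
        ∂((volume.prod volume).prod sig) := by
  have h := qapi_fub (measurePreserving_coll.integrable_comp_of_integrable
    (qapi_i1 hn hf hg hφ hC))
  replace h := And.intro h.1 (h.2.trans (integral_coll fun p : (V × V) × S2 =>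
    Bn n p.1.1 p.1.2 p.2 * (f p.1.1 * g p.1.2) * φ (vp p.1.1 p.1.2 p.2)))
  simpa only [Function.comp_apply, Bn_post, vp_post, integral_mul_const, QN] using h

theorem qapi_nuN {C : ℝ} (hn : 0 ≤ n) (hf : BddV A f) (hg : BddV B g) (hφ : Measurable φ)
    (hC : ∀ v, |φ v| ≤ C * (1 + ‖v‖) ^ 4) : Integrable (fun v => f v * nuN n g v * φ v) ∧
    ∫ v, f v * nuN n g v * φ v
      = ∫ p : (V × V) × S2, Bn n p.1.1 p.1.2 p.2 * (f p.1.1 * g p.1.2) * φ p.1.1
        ∂((volume.prod volume).prod sig) := by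
  have h := qapi_fub (qapi_i3 hn hf hg hφ hC)
  have e : ∀ v, ∫ p : V × S2, Bn n v p.1 p.2 * (f v * g p.1) * φ v ∂(volume.prod sig)
      = f v * nuN n g v * φ v := fun v => by
    rw [integral_mul_const, nuN, ← integral_const_mul]
    simp only [mul_left_comm]
  simpa only [e] using h

theorem weak_QN {C : ℝ} (hn : 0 ≤ n) (hf : BddV A f) (hg : BddV B g) (hφ : Measurable φ)
    (hC : ∀ v, |φ v| ≤ C * (1 + ‖v‖) ^ 4) : ∫ v, QN n f g v * φ v
      = ∫ p : (V × V) × S2, Bn n p.1.1 p.1.2 p.2 * (f p.1.1 * g p.1.2) * φ (vp p.1.1 p.1.2 p.2)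
        ∂((volume.prod volume).prod sig) := by
  exact (qapi_QN hn hf hg hφ hC).2

theorem weak_QN' {C : ℝ} (hn : 0 ≤ n) (hf : BddV A f) (hg : BddV B g) (hφ : Measurable φ)
    (hC : ∀ v, |φ v| ≤ C * (1 + ‖v‖) ^ 4) : ∫ v, QN n f g v * φ v
      = ∫ p : (V × V) × S2, Bn n p.1.1 p.1.2 p.2 * (g p.1.1 * f p.1.2) * φ (wp p.1.1 p.1.2 p.2)
        ∂((volume.prod volume).prod sig) := by
  rw [weak_QN hn hf hg hφ hC, ← integral_collSwap]
  refine integral_congr_ae (Eventually.of_forall fun p => ?_)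
  simp only [vp_swap, Bn_swap p.1.1, mul_comm (f p.1.2)]

theorem weak_nuN {C : ℝ} (hn : 0 ≤ n) (hf : BddV A f) (hg : BddV B g) (hφ : Measurable φ)
    (hC : ∀ v, |φ v| ≤ C * (1 + ‖v‖) ^ 4) : ∫ v, f v * nuN n g v * φ v
      = ∫ p : (V × V) × S2, Bn n p.1.1 p.1.2 p.2 * (f p.1.1 * g p.1.2) * φ p.1.1
        ∂((volume.prod volume).prod sig) := by
  exact (qapi_nuN hn hf hg hφ hC).2

/-- Fully symmetrized weak form. -/
theorem weak_sym {C : ℝ} (hn : 0 ≤ n) (hf : BddV A f) (hφ : Measurable φ)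
    (hC : ∀ v, |φ v| ≤ C * (1 + ‖v‖) ^ 4) : ∫ v, (QN n f f v - f v * nuN n f v) * φ v
      = -(4⁻¹ * ∫ p : (V × V) × S2, Bn n p.1.1 p.1.2 p.2 *
          (f (vp p.1.1 p.1.2 p.2) * f (wp p.1.1 p.1.2 p.2) - f p.1.1 * f p.1.2) *
          (φ (vp p.1.1 p.1.2 p.2) + φ (wp p.1.1 p.1.2 p.2) - φ p.1.1 - φ p.1.2)
        ∂((volume.prod volume).prod sig)) := by
  have i1 := qapi_i1 hn hf hf hφ hC
  have i2 := qapi_i2 hn hf hf hφ hC
  have i3 := qapi_i3 hn hf hf hφ hC
  have i4 := qapi_i4 hn hf hf hφ hC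
  have e1 := weak_QN hn hf hf hφ hC
  have e2 := weak_QN' hn hf hf hφ hC
  have e3 := weak_nuN hn hf hf hφ hC
  have e4 : ∫ v, f v * nuN n f v * φ v = ∫ p : (V × V) × S2,
      Bn n p.1.1 p.1.2 p.2 * (f p.1.1 * f p.1.2) * φ p.1.2 ∂((volume.prod volume).prod sig) := by
    rw [e3, ← integral_collSwap]
    refine integral_congr_ae (Eventually.of_forall fun p => ?_)
    simp only [Bn_swap p.1.1, mul_comm (f p.1.2)]
  obtain ⟨H, hH⟩ : ∃ H : (V × V) × S2 → ℝ, ∀ p, H p =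
      Bn n p.1.1 p.1.2 p.2 * (f p.1.1 * f p.1.2) * φ (vp p.1.1 p.1.2 p.2)
        + Bn n p.1.1 p.1.2 p.2 * (f p.1.1 * f p.1.2) * φ (wp p.1.1 p.1.2 p.2)
        - Bn n p.1.1 p.1.2 p.2 * (f p.1.1 * f p.1.2) * φ p.1.1
        - Bn n p.1.1 p.1.2 p.2 * (f p.1.1 * f p.1.2) * φ p.1.2 := ⟨_, fun _ => rfl⟩
  have i5 : Integrable H ((volume.prod volume).prod sig) := by
    rw [funext hH]
    exact ((i1.add i2).sub i3).sub i4
  have e5 : ∫ p, H p ∂((volume.prod volume).prod sig)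
      = 2 * ((∫ v, QN n f f v * φ v) - ∫ v, f v * nuN n f v * φ v) := by
    simp only [hH]
    rw [integral_sub (by exact (i1.add i2).sub i3) i4, integral_sub (by exact i1.add i2) i3,
      integral_add i1 i2, ← e1, ← e2, ← e3, ← e4]
    ring
  have i6 : Integrable (fun p : (V × V) × S2 =>
      H ((vp p.1.1 p.1.2 p.2, wp p.1.1 p.1.2 p.2), p.2)) ((volume.prod volume).prod sig) :=
    measurePreserving_coll.integrable_comp_of_integrable i5
  have e6 : ∀ p : (V × V) × S2, Bn n p.1.1 p.1.2 p.2 *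
      (f (vp p.1.1 p.1.2 p.2) * f (wp p.1.1 p.1.2 p.2) - f p.1.1 * f p.1.2) *
      (φ (vp p.1.1 p.1.2 p.2) + φ (wp p.1.1 p.1.2 p.2) - φ p.1.1 - φ p.1.2)
      = -(H ((vp p.1.1 p.1.2 p.2, wp p.1.1 p.1.2 p.2), p.2) + H p) := fun p => by
    simp only [hH, Bn_post, vp_post, wp_post]
    ring
  simp only [e6, sub_mul]
  rw [integral_neg, integral_add i6 i5, integral_coll, e5,
    integral_sub (qapi_QN hn hf hf hφ hC).1 (qapi_nuN hn hf hf hφ hC).1]
  ring

end Bounds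

end

end Vale.Agent.P140
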