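import Vale.Agent.P140.Coll
import Vale.Agent.P140.Geo
import Vale.Agent.P140.Carl

/-! Exchange of the two outgoing velocities. -/

namespace Vale.Agent.P140

open MeasureTheory Set Filter Topology
open scoped ENNReal RealInnerProductSpace

noncomputable section

/-- Unit complex number of given argument. -/
def swapCis (φ : ℝ) : ℂ := Real.cos φ + Real.sin φ * Complex.I

theorem swap_norm_cis (φ : ℝ) : ‖swapCis φ‖ = 1 := by
  simp [swapCis]

theorem swap_polar {f : ℂ → ℝ≥0∞} (hf : Measurable f) :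
    ∫⁻ q, f q = ∫⁻ φ in Ioo (-Real.pi) Real.pi, ∫⁻ ρ : ℝ,
      ENNReal.ofReal ρ * f (ρ • swapCis φ) := by
  rw [← Complex.lintegral_comp_polarCoord_symm, polarCoord_target, Measure.volume_eq_prod,
    ← Measure.prod_restrict, lintegral_prod_symm']
  · refine lintegral_congr fun φ => ?_
    rw [← lintegral_indicator measurableSet_Ioi]
    refine lintegral_congr fun ρ => ?_
    by_cases h : ρ ∈ Ioi (0 : ℝ)
    · rw [indicator_of_mem h, Complex.polarCoord_symm_apply]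
      rfl
    · rw [indicator_of_notMem h, ENNReal.ofReal_of_nonpos (not_lt.1 h), zero_mul]
  · simp_rw [Complex.polarCoord_symm_apply]
    exact measurable_fst.ennreal_ofReal.mul (hf.comp (by fun_prop))

theorem swap_meas_cis : Measurable swapCis := by unfold swapCis; fun_prop

/-- Polar coordinates with a signed radius. -/
theorem swap_polarR {f : ℂ → ℝ≥0∞} (hf : Measurable f) :
    2 * ∫⁻ q, f q = ∫⁻ φ in Ioo (-Real.pi) Real.pi, ∫⁻ ρ : ℝ,
      ENNReal.ofReal |ρ| * f (ρ • swapCis φ) := by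
  have h1 := swap_polar hf
  have h2 := swap_polar (f := fun q => f (-q)) (hf.comp measurable_neg)
  rw [lintegral_neg_eq_self] at h2
  have hm : Measurable fun p : ℝ × ℝ => ENNReal.ofReal p.2 * f (p.2 • swapCis p.1) :=
    measurable_snd.ennreal_ofReal.mul
      (hf.comp (measurable_snd.smul (swap_meas_cis.comp measurable_fst)))
  rw [two_mul]
  conv_lhs => rw [h1]; congr; rfl; rw [← h1, h2]
  rw [← lintegral_add_left hm.lintegral_prod_right']
  refine lintegral_congr fun φ => ?_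
  have hm' : Measurable fun ρ : ℝ => ENNReal.ofReal ρ * f (ρ • swapCis φ) :=
    hm.comp measurable_prodMk_left
  rw [← lintegral_neg_eq_self fun ρ : ℝ => ENNReal.ofReal ρ * f (-(ρ • swapCis φ)),
    ← lintegral_add_left hm']
  refine lintegral_congr fun ρ => ?_
  simp only [neg_smul, neg_neg]
  rw [← add_mul]
  congr 1
  rcases le_total 0 ρ with h | h
  · rw [abs_of_nonneg h, ENNReal.ofReal_of_nonpos (neg_nonpos.2 h), add_zero]
  · rw [abs_of_nonpos h, ENNReal.ofReal_of_nonpos h, zero_add]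

/-- Radial weight. -/
def swapG (r : ℝ) : ℝ≥0∞ := if r ≤ 1 then ENNReal.ofReal (1 / r ^ 3) else 0

/-- Lift of the sphere integrand to the whole space. -/
def swapF (g : V) (Ψ : V → ℝ≥0∞) (y : V) : ℝ≥0∞ :=
  ENNReal.ofReal |⟪g, y⟫| * swapG ‖y‖ * Ψ ((⟪g, y⟫ / ‖y‖ ^ 2) • y)

theorem swap_meas_F (g : V) {Ψ : V → ℝ≥0∞} (hΨ : Measurable Ψ) : Measurable (swapF g Ψ) := by
  have h1 : Measurable fun y : V => ⟪g, y⟫ := by fun_prop
  have h2 : Measurable swapG :=
    Measurable.ite measurableSet_Iic (by fun_prop) measurable_const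
  exact (h1.abs.ennreal_ofReal.mul (h2.comp measurable_norm)).mul
    (hΨ.comp ((h1.div (measurable_norm.pow_const 2)).smul measurable_id))

theorem swap_lift (g : V) {Ψ : V → ℝ≥0∞} (hΨ : Measurable Ψ) :
    ∫⁻ y, swapF g Ψ y
      = ∫⁻ ω : S2, ENNReal.ofReal |⟪g, (ω : V)⟫| * Ψ (⟪g, (ω : V)⟫ • (ω : V)) ∂sig := by
  rw [lintegral_polar3 (swap_meas_F g hΨ)]
  refine lintegral_congr fun ω => ?_
  have h1 : ∀ r ∈ Ioi (0 : ℝ), ENNReal.ofReal (r ^ 2) * swapF g Ψ (r • (ω : V))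
      = (Iic (1 : ℝ)).indicator
        (fun _ => ENNReal.ofReal |⟪g, (ω : V)⟫| * Ψ (⟪g, (ω : V)⟫ • (ω : V))) r := by
    intro r hr
    have hr' : (0 : ℝ) < r := hr
    have h2 : ‖r • (ω : V)‖ = r := by rw [norm_smul, norm_S2, mul_one, Real.norm_of_nonneg hr'.le]
    have h3 : (r * ⟪g, (ω : V)⟫ / r ^ 2) • r • (ω : V) = ⟪g, (ω : V)⟫ • (ω : V) := by
      rw [smul_smul]
      congr 1
      field_simp
    rw [swapF, h2, inner_smul_right, h3, swapG]
    by_cases h : r ≤ 1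
    · rw [if_pos h, indicator_of_mem (mem_Iic.2 h), ← mul_assoc, ← mul_assoc,
        ← ENNReal.ofReal_mul (by positivity), ← ENNReal.ofReal_mul (by positivity), abs_mul,
        abs_of_pos hr']
      congr 2
      field_simp
    · rw [if_neg h, indicator_of_notMem (mem_Iic.not.2 h), mul_zero, zero_mul, mul_zero]
  rw [setLIntegral_congr_fun measurableSet_Ioi h1, lintegral_indicator_const measurableSet_Iic,
    Measure.restrict_apply measurableSet_Iic, inter_comm, Ioi_inter_Iic, Real.volume_Ioc]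
  simp

theorem swap_pt {e n : V} (he : ‖e‖ = 1) (hn : ‖n‖ = 1) (hne : ⟪n, e⟫ = 0) (γ : ℝ)
    (Ψ : V → ℝ≥0∞) (a ρ : ℝ) :
    ENNReal.ofReal |-a| * swapF (γ • e) Ψ (ρ • e + (-a) • n)
      = ENNReal.ofReal |ρ| * swapF (γ • e) (fun p => Ψ (γ • e - p)) (a • e + ρ • n) := by
  have hen : ⟪e, n⟫ = 0 := by rw [real_inner_comm, hne]
  have h1 : ∀ s t : ℝ, ⟪γ • e, s • e + t • n⟫ = γ * s := fun s t => by
    simp [inner_add_right, inner_smul_left, inner_smul_right, hen, he]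
    ring
  have h2 : ∀ s t : ℝ, ‖s • e + t • n‖ ^ 2 = s ^ 2 + t ^ 2 := fun s t => by
    rw [norm_add_sq_real, norm_smul, norm_smul, he, hn, inner_smul_left, inner_smul_right, hen]
    simp
  have h3 : ‖ρ • e + (-a) • n‖ = ‖a • e + ρ • n‖ :=
    (sq_eq_sq₀ (norm_nonneg _) (norm_nonneg _)).1 (by rw [h2, h2]; ring)
  rcases eq_or_ne (a ^ 2 + ρ ^ 2) 0 with h0 | h0
  · have ha : a = 0 := by nlinarith [sq_nonneg a, sq_nonneg ρ]
    have hρ : ρ = 0 := by nlinarith [sq_nonneg a, sq_nonneg ρ]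
    simp [ha, hρ]
  have h4 : (γ * ρ / (a ^ 2 + ρ ^ 2)) • (ρ • e + (-a) • n)
      = γ • e - (γ * a / (a ^ 2 + ρ ^ 2)) • (a • e + ρ • n) := by
    have h5 : γ * ρ / (a ^ 2 + ρ ^ 2) * ρ = γ - γ * a / (a ^ 2 + ρ ^ 2) * a := by
      field_simp; ring
    have h6 : γ * ρ / (a ^ 2 + ρ ^ 2) * -a = -(γ * a / (a ^ 2 + ρ ^ 2) * ρ) := by ring
    rw [smul_add, smul_add, smul_smul, smul_smul, smul_smul, smul_smul, h5, h6, sub_smul, neg_smul]
    abel
  rw [swapF, swapF, h1, h1, h3, h2, h4, ← mul_assoc, ← mul_assoc, ← mul_assoc, ← mul_assoc,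
    ← ENNReal.ofReal_mul (abs_nonneg _), ← ENNReal.ofReal_mul (abs_nonneg _), abs_neg, abs_mul,
    abs_mul]
  congr 3
  ring

theorem swap_plane {e n : V} (he : ‖e‖ = 1) (hn : ‖n‖ = 1) (hne : ⟪n, e⟫ = 0) (γ : ℝ)
    {Ψ : V → ℝ≥0∞} (hΨ : Measurable Ψ) :
    ∫⁻ a : ℝ, ∫⁻ ρ : ℝ, ENNReal.ofReal |ρ| * swapF (γ • e) Ψ (a • e + ρ • n)
      = ∫⁻ a : ℝ, ∫⁻ ρ : ℝ,
        ENNReal.ofReal |ρ| * swapF (γ • e) (fun p => Ψ (γ • e - p)) (a • e + ρ • n) := by
  have hm : Measurable fun p : ℝ × ℝ =>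
      ENNReal.ofReal |p.2| * swapF (γ • e) Ψ (p.1 • e + p.2 • n) :=
    measurable_snd.abs.ennreal_ofReal.mul ((swap_meas_F _ hΨ).comp (by fun_prop))
  rw [lintegral_lintegral_swap hm.aemeasurable, ← lintegral_neg_eq_self]
  simp_rw [swap_pt he hn hne]

theorem swap_two {e : V} {ι : ℂ →ₗᵢ[ℝ] V} {F : V → ℝ≥0∞} (hF : Measurable F) :
    2 * ∫⁻ a : ℝ, ∫⁻ q : ℂ, F (a • e + ι q) = ∫⁻ φ in Ioo (-Real.pi) Real.pi, ∫⁻ a : ℝ, ∫⁻ ρ : ℝ,
      ENNReal.ofReal |ρ| * F (a • e + ρ • ι (swapCis φ)) := by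
  have hι : Measurable ι := ι.continuous.measurable
  have hm : Measurable fun p : (ℝ × ℝ) × ℝ =>
      ENNReal.ofReal |p.2| * F (p.1.1 • e + p.2 • ι (swapCis p.1.2)) :=
    measurable_snd.abs.ennreal_ofReal.mul (hF.comp ((measurable_fst.fst.smul_const e).add
      (measurable_snd.smul (hι.comp (swap_meas_cis.comp measurable_fst.snd)))))
  rw [← lintegral_lintegral_swap (f := fun a φ => ∫⁻ ρ : ℝ,
      ENNReal.ofReal |ρ| * F (a • e + ρ • ι (swapCis φ))) hm.lintegral_prod_right'.aemeasurable,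
    ← lintegral_const_mul' _ _ ENNReal.ofNat_ne_top]
  refine lintegral_congr fun a => ?_
  rw [swap_polarR (f := fun q => F (a • e + ι q)) (hF.comp (measurable_const.add hι))]
  simp_rw [map_smul]

theorem swap_main {e : V} (he : ‖e‖ = 1) (γ : ℝ) {Ψ : V → ℝ≥0∞} (hΨ : Measurable Ψ) :
    ∫⁻ ω : S2, ENNReal.ofReal |⟪γ • e, (ω : V)⟫| * Ψ (⟪γ • e, (ω : V)⟫ • (ω : V)) ∂sig
      = ∫⁻ ω : S2, ENNReal.ofReal |⟪γ • e, (ω : V)⟫| *
        Ψ (γ • e - ⟪γ • e, (ω : V)⟫ • (ω : V)) ∂sig := by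
  have hΨ' : Measurable fun p => Ψ (γ • e - p) := hΨ.comp (measurable_const.sub measurable_id)
  obtain ⟨ι, h1, h2⟩ := exists_frame he
  rw [← swap_lift _ hΨ, ← swap_lift _ hΨ', h2 _ (swap_meas_F _ hΨ), h2 _ (swap_meas_F _ hΨ'),
    ← ENNReal.mul_right_inj two_ne_zero ENNReal.ofNat_ne_top, swap_two (swap_meas_F _ hΨ),
    swap_two (swap_meas_F _ hΨ')]
  exact lintegral_congr fun φ =>
    swap_plane he (by rw [ι.norm_map, swap_norm_cis]) (h1 _) γ hΨ

theorem lintegral_swapPost {H : V → V → ℝ≥0∞} (hH : Measurable (fun p : V × V => H p.1 p.2))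
    (v w : V) : ∫⁻ ω, ENNReal.ofReal |ca v w ω| * H (vp v w ω) (wp v w ω) ∂sig
      = ∫⁻ ω, ENNReal.ofReal |ca v w ω| * H (wp v w ω) (vp v w ω) ∂sig := by
  rcases eq_or_ne (v - w) 0 with h0 | h0
  · simp [ca, h0]
  have hΨ : Measurable fun p : V => H (v - p) (w + p) :=
    hH.comp ((measurable_const.sub measurable_id).prodMk (measurable_const.add measurable_id))
  have he : ‖(‖v - w‖⁻¹ : ℝ) • (v - w)‖ = 1 := norm_smul_inv_norm h0
  have h1 := swap_main he ‖v - w‖ hΨ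
  rw [smul_inv_smul₀ (norm_ne_zero_iff.2 h0)] at h1
  refine h1.trans (lintegral_congr fun ω => ?_)
  have h2 : v - (v - w - ⟪v - w, (ω : V)⟫ • (ω : V)) = wp v w ω := by
    unfold wp ca; abel
  have h3 : w + (v - w - ⟪v - w, (ω : V)⟫ • (ω : V)) = vp v w ω := by
    unfold vp ca; abel
  rw [h2, h3]
  rfl

theorem Qe_swap {f g : V → ℝ≥0∞} (hf : Measurable f) (hg : Measurable g) (v : V) :
    Qe f g v = Qe g f v := by
  refine lintegral_congr fun w => ?_
  rw [lintegral_swapPost (H := fun a b => f a * g b)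
    ((hf.comp measurable_fst).mul (hg.comp measurable_snd))]
  simp_rw [mul_comm (f _)]

end

end Vale.Agent.P140
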