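import Vale.Agent.P140.Carl
import Vale.Agent.P140.Swap
import Vale.Agent.P140.Geo2
import Vale.Agent.P140.QApi

/-! Integrals of the narrow profile. -/

namespace Vale.Agent.P140

open MeasureTheory Set Filter Topology
open scoped ENNReal RealInnerProductSpace

noncomputable section

theorem KN_tail {A D : ℝ} (h : 0 < A + D) (m : ℕ) :
    ∫⁻ s in Ioi D, ENNReal.ofReal (1 / (A + s) ^ (m + 2))
      ≤ ENNReal.ofReal (1 / (A + D) ^ (m + 1)) := by
  have hd : ∀ s ∈ Ici D, HasDerivAt (fun s => -((A + s) ^ (m + 1))⁻¹)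
      ((m + 1 : ℝ) / (A + s) ^ (m + 2)) s := fun s hs => by
    have h1 : 0 < A + s := h.trans_le (add_le_add_right hs A)
    have h2 := ((((hasDerivAt_id s).const_add A).pow (m + 1)).inv
      (pow_pos h1 _).ne').neg
    refine h2.congr_deriv ?_
    simp only [id, Pi.pow_apply, Nat.add_sub_cancel]
    push_cast
    field_simp
    ring
  have hp : ∀ s ∈ Ioi D, 0 ≤ (m + 1 : ℝ) / (A + s) ^ (m + 2) := fun s hs => by
    have h1 : 0 < A + s := h.trans (add_lt_add_right hs A)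
    positivity
  have ht : Tendsto (fun s : ℝ => -((A + s) ^ (m + 1))⁻¹) atTop (𝓝 0) := by
    have h1 := (tendsto_inv_atTop_zero.comp ((tendsto_pow_atTop (Nat.succ_ne_zero m)).comp
      (tendsto_atTop_add_const_left atTop A tendsto_id))).neg
    rw [neg_zero] at h1
    exact h1
  have h1 := integral_Ioi_of_hasDerivAt_of_nonneg' hd hp ht
  rw [zero_sub, neg_neg] at h1
  rw [one_div ((A + D) ^ (m + 1)), ← h1, ofReal_integral_eq_lintegral_ofReal
    (integrableOn_Ioi_deriv_of_nonneg' hd hp ht)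
    ((ae_restrict_iff' measurableSet_Ioi).2 (ae_of_all _ hp))]
  refine setLIntegral_mono' measurableSet_Ioi fun s hs => ENNReal.ofReal_le_ofReal ?_
  have h2 : 0 < A + s := h.trans (add_lt_add_right hs A)
  gcongr
  linarith [Nat.cast_nonneg (α := ℝ) m]

theorem KN_rad {A D : ℝ} (hA : 0 < A) (hD : 0 ≤ D) (P : ℕ) :
    ∫⁻ ρ : ℝ, ENNReal.ofReal ρ * ENNReal.ofReal (1 / (A + max ‖ρ‖ D) ^ (P + 3))
      ≤ ENNReal.ofReal (3 / 2 / (A + D) ^ (P + 1)) := by
  have h1 : ∀ ρ : ℝ, ENNReal.ofReal ρ * ENNReal.ofReal (1 / (A + max ‖ρ‖ D) ^ (P + 3))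
      ≤ (Ioc 0 D).indicator (fun ρ => ENNReal.ofReal (1 / (A + D) ^ (P + 3) * ρ)) ρ
        + (Ioi D).indicator (fun ρ => ENNReal.ofReal (1 / (A + ρ) ^ (P + 2))) ρ := fun ρ => by
    rcases le_or_gt ρ 0 with h | h
    · rw [ENNReal.ofReal_of_nonpos h, zero_mul]
      exact zero_le
    rw [← ENNReal.ofReal_mul h.le, Real.norm_of_nonneg h.le]
    rcases le_or_gt ρ D with h' | h'
    · rw [indicator_of_mem (mem_Ioc.2 ⟨h, h'⟩), max_eq_right h', mul_comm]
      exact le_self_add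
    · rw [indicator_of_mem (mem_Ioi.2 h'), max_eq_left h'.le]
      refine le_add_left (ENNReal.ofReal_le_ofReal ?_)
      rw [mul_one_div, div_le_div_iff₀ (by positivity) (by positivity), pow_succ _ (P + 2),
        one_mul, mul_comm]
      gcongr
      linarith
  have hc : Continuous fun ρ : ℝ => 1 / (A + D) ^ (P + 3) * ρ := by fun_prop
  have h2 : ∫⁻ ρ in Ioc 0 D, ENNReal.ofReal (1 / (A + D) ^ (P + 3) * ρ)
      = ENNReal.ofReal (1 / (A + D) ^ (P + 3) * (D ^ 2 / 2)) := by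
    rw [← ofReal_integral_eq_lintegral_ofReal hc.integrableOn_Ioc
      ((ae_restrict_iff' measurableSet_Ioc).2 (ae_of_all _ fun ρ hρ =>
        mul_nonneg (by positivity) hρ.1.le)), ← intervalIntegral.integral_of_le hD,
      intervalIntegral.integral_const_mul, integral_id]
    simp
  refine (lintegral_mono h1).trans ?_
  rw [lintegral_add_left (hc.measurable.ennreal_ofReal.indicator measurableSet_Ioc),
    lintegral_indicator measurableSet_Ioc, lintegral_indicator measurableSet_Ioi, h2]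
  refine (add_le_add_right (KN_tail (by positivity) P) _).trans ?_
  rw [← ENNReal.ofReal_add (by positivity) (by positivity)]
  refine ENNReal.ofReal_le_ofReal ?_
  have h3 : 1 / (A + D) ^ (P + 3) * (D ^ 2 / 2) ≤ 1 / (A + D) ^ (P + 3) * ((A + D) ^ 2 / 2) := by
    gcongr
    linarith
  refine (add_le_add_left h3 _).trans (le_of_eq ?_)
  field_simp
  ring

theorem plane_pow {A D : ℝ} (hA : 0 < A) (hD : 0 ≤ D) (P : ℕ) (y : V) (ι : ℂ →ₗᵢ[ℝ] V) :
    ∫⁻ q, ENNReal.ofReal (1 / (A + max ‖y - ι q‖ D) ^ (P + 3))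
      ≤ ENNReal.ofReal (3 * Real.pi / (A + D) ^ (P + 1)) := by
  obtain ⟨q₀, h0⟩ := exists_foot ι y
  have hm : Measurable fun q : ℂ => ENNReal.ofReal (1 / (A + max ‖q‖ D) ^ (P + 3)) := by
    fun_prop
  have h1 : ∫⁻ q, ENNReal.ofReal (1 / (A + max ‖y - ι q‖ D) ^ (P + 3))
      ≤ ∫⁻ q : ℂ, ENNReal.ofReal (1 / (A + max ‖q - q₀‖ D) ^ (P + 3)) := by
    refine lintegral_mono fun q => ENNReal.ofReal_le_ofReal ?_
    have h1 : 0 ≤ max ‖q - q₀‖ D := le_max_of_le_right hD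
    gcongr
    exact h0 q
  rw [lintegral_sub_right_eq_self
    (fun q : ℂ => ENNReal.ofReal (1 / (A + max ‖q‖ D) ^ (P + 3))) q₀, swap_polar hm] at h1
  refine h1.trans ?_
  have h2 : ∀ φ, ∫⁻ ρ : ℝ, ENNReal.ofReal ρ *
      ENNReal.ofReal (1 / (A + max ‖ρ • swapCis φ‖ D) ^ (P + 3))
        ≤ ENNReal.ofReal (3 / 2 / (A + D) ^ (P + 1)) := fun φ => by
    simp_rw [norm_smul, swap_norm_cis, mul_one]
    exact KN_rad hA hD P
  refine (lintegral_mono h2).trans (le_of_eq ?_)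
  rw [setLIntegral_const, Real.volume_Ioo, ← ENNReal.ofReal_mul (by positivity)]
  congr 1
  ring

theorem mass_pow {A : ℝ} (hA : 0 < A) {P : ℕ} (hP : 1 ≤ P) (U : V) :
    ∫⁻ w, ENNReal.ofReal (1 / (A + ‖w - U‖) ^ (P + 3))
      ≤ ENNReal.ofReal (4 * Real.pi / A ^ P) := by
  obtain ⟨m, rfl⟩ : ∃ m, P = m + 1 := ⟨P - 1, by omega⟩
  have hm : Measurable fun w : V => ENNReal.ofReal (1 / (A + ‖w‖) ^ (m + 1 + 3)) := by
    fun_prop
  rw [lintegral_sub_right_eq_self
    (fun w : V => ENNReal.ofReal (1 / (A + ‖w‖) ^ (m + 1 + 3))) U, lintegral_polar3 hm]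
  have h1 : ∀ ω : S2, ∫⁻ r in Ioi (0 : ℝ), ENNReal.ofReal (r ^ 2) *
      ENNReal.ofReal (1 / (A + ‖r • (ω : V)‖) ^ (m + 1 + 3))
        ≤ ENNReal.ofReal (1 / (A + 0) ^ (m + 1)) := fun ω => by
    refine le_trans (setLIntegral_mono' measurableSet_Ioi fun r hr => ?_)
      (KN_tail (by positivity) m)
    have hr' : (0 : ℝ) < r := hr
    rw [norm_smul, norm_S2, mul_one, Real.norm_of_nonneg hr'.le,
      ← ENNReal.ofReal_mul (by positivity)]
    refine ENNReal.ofReal_le_ofReal ?_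
    rw [mul_one_div, div_le_div_iff₀ (by positivity) (by positivity),
      show m + 1 + 3 = m + 2 + 2 by ring, pow_add _ (m + 2), one_mul, mul_comm]
    gcongr
    linarith
  refine (lintegral_mono h1).trans (le_of_eq ?_)
  rw [lintegral_const, sig_univ, ← ENNReal.ofReal_mul (by positivity), add_zero]
  congr 1
  ring

theorem Nf_zero {P : ℕ} (hP : 1 ≤ P) (a : ℝ) (U w : V) : Nf P 0 a U w = 0 := by
  simp [Nf, zero_pow (by omega : P ≠ 0)]

theorem Nf_supp {P : ℕ} {ε a : ℝ} {U w : V} (h : Nf P ε a U w ≠ 0) : ‖w‖ ≤ 3 := by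
  by_contra h1
  exact h (if_neg h1)

theorem Nf_le_Nf {P : ℕ} (hP : 50 ≤ P) {ε a : ℝ} (hε : 0 ≤ ε) (ha : 0 ≤ a) (U w : V) :
    Nf P ε a U w ≤ Nf 50 ε 0 U w := by
  rcases hε.eq_or_lt with rfl | hε'
  · rw [Nf_zero (by omega)]
    exact zero_le
  obtain ⟨k, rfl⟩ := Nat.exists_eq_add_of_le hP
  unfold Nf
  split_ifs
  · refine ENNReal.ofReal_le_ofReal ?_
    have h1 := norm_nonneg (w - U)
    rw [show 50 + k + 3 = 50 + 3 + k by ring, pow_add ε, pow_add _ (50 + 3), mul_div_mul_comm]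
    refine (mul_le_of_le_one_right (by positivity) ?_).trans ?_
    · rw [div_le_one (by positivity)]
      gcongr
      linarith
    · gcongr
  · exact le_rfl

theorem Nf_far (P : ℕ) {ε a d : ℝ} (hε : 0 ≤ ε) (ha : 0 ≤ a) (hd : 0 < d) {U w : V}
    (h : d ≤ ‖w - U‖ + a) :
    Nf P ε a U w ≤ if ‖w‖ ≤ 3 then ENNReal.ofReal (ε ^ P / d ^ (P + 3)) else 0 := by
  have _ := ha
  unfold Nf
  split_ifs
  · refine ENNReal.ofReal_le_ofReal ?_
    gcongr
    linarith
  · exact le_rfl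

theorem Nf_le_inv (P : ℕ) {ε a d : ℝ} (hε : 0 ≤ ε) (ha : 0 ≤ a) (hd : 0 < d) {U w : V}
    (h : d ≤ ‖w - U‖) : Nf P ε a U w ≤ ENNReal.ofReal (1 / d ^ 3) := by
  unfold Nf
  split_ifs
  · refine ENNReal.ofReal_le_ofReal ?_
    have h1 : 0 < ‖w - U‖ + a + ε := by linarith
    rw [pow_add, ← mul_one (ε ^ P), mul_div_mul_comm]
    refine (mul_le_of_le_one_left (by positivity) ?_).trans ?_
    · rw [div_le_one (by positivity)]
      gcongr
      linarith
    · gcongr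
      linarith
  · exact zero_le

theorem KN_le (P : ℕ) {ε : ℝ} (hε : 0 ≤ ε) (a : ℝ) (U w : V) : Nf P ε a U w
    ≤ ENNReal.ofReal (ε ^ P) * ENNReal.ofReal (1 / (a + ε + ‖w - U‖) ^ (P + 3)) := by
  unfold Nf
  split_ifs
  · rw [← ENNReal.ofReal_mul (by positivity), mul_one_div, add_comm (a + ε), add_assoc]
  · exact zero_le

theorem KN_mass {P : ℕ} (hP : 1 ≤ P) {ε a : ℝ} (hε : 0 < ε) (ha : 0 ≤ a) (U : V) :
    ∫⁻ w, Nf P ε a U w ≤ ENNReal.ofReal (4 * Real.pi) := by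
  refine (lintegral_mono (KN_le P hε.le a U)).trans ?_
  rw [lintegral_const_mul' _ _ ENNReal.ofReal_ne_top]
  refine (mul_le_mul_right (mass_pow (by positivity) hP U) _).trans ?_
  rw [← ENNReal.ofReal_mul (by positivity)]
  refine ENNReal.ofReal_le_ofReal ?_
  rw [mul_div_left_comm]
  refine mul_le_of_le_one_right (by positivity) ?_
  rw [div_le_one (by positivity)]
  gcongr
  linarith

theorem Nf_mom {P : ℕ} (hP : 1 ≤ P) {ε a : ℝ} (hε : 0 ≤ ε) (ha : 0 ≤ a) (U : V) :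
    ∫⁻ w, ENNReal.ofReal ((1 + ‖w‖) ^ 5) * Nf P ε a U w ≤ ENNReal.ofReal 13000 := by
  rcases hε.eq_or_lt with rfl | hε'
  · simp [Nf_zero hP]
  have h1 : ∀ w, ENNReal.ofReal ((1 + ‖w‖) ^ 5) * Nf P ε a U w
      ≤ ENNReal.ofReal (4 ^ 5) * Nf P ε a U w := fun w => by
    by_cases h : Nf P ε a U w = 0
    · simp [h]
    · have h1 := Nf_supp h
      gcongr
      linarith
  refine (lintegral_mono h1).trans ?_
  rw [lintegral_const_mul _ (measurable_Nf _ _ _ _)]
  refine (mul_le_mul_right (KN_mass hP hε' ha U) _).trans ?_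
  rw [← ENNReal.ofReal_mul (by positivity)]
  exact ENNReal.ofReal_le_ofReal (by linarith [Real.pi_lt_d2])

theorem Nf_inv {P : ℕ} (hP : 1 ≤ P) : ∃ C : ℝ, 0 < C ∧ ∀ ε a : ℝ, 0 < ε → 0 ≤ a → ∀ U v : V,
    ∫⁻ w, Nf P ε a U w / ENNReal.ofReal ‖v - w‖ ≤ ENNReal.ofReal (C / (‖v - U‖ + a + ε)) := by
  refine ⟨2 * (4 * Real.pi + 2 ^ P * (2 * Real.pi)), by positivity, fun ε a hε ha U v => ?_⟩
  obtain ⟨ρ, hρ⟩ : ∃ ρ, ‖v - U‖ + a + ε = 2 * ρ := ⟨(‖v - U‖ + a + ε) / 2, by ring⟩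
  have h0 := norm_nonneg (v - U)
  have hρ0 : 0 < ρ := by linarith
  have h1 : ∀ w, Nf P ε a U w / ENNReal.ofReal ‖v - w‖
      ≤ ENNReal.ofReal (1 / ρ) * Nf P ε a U w + (Metric.closedBall v ρ).indicator
        (fun w => ENNReal.ofReal (ε ^ P / ρ ^ (P + 3)) * (ENNReal.ofReal ‖v - w‖)⁻¹) w := by
    intro w
    by_cases h : w ∈ Metric.closedBall v ρ
    · rw [indicator_of_mem h, div_eq_mul_inv]
      refine le_add_left (mul_le_mul_left ?_ _)
      rw [mem_closedBall_iff_norm'] at h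
      have h2 := norm_sub_le_norm_sub_add_norm_sub v w U
      unfold Nf
      split_ifs
      · refine ENNReal.ofReal_le_ofReal ?_
        gcongr
        linarith
      · exact zero_le
    · rw [mem_closedBall_iff_norm', not_le] at h
      refine le_add_right ?_
      rw [div_eq_mul_inv, mul_comm, one_div, ENNReal.ofReal_inv_of_pos hρ0]
      gcongr
  refine (lintegral_mono h1).trans ?_
  rw [lintegral_add_left ((measurable_Nf _ _ _ _).const_mul _),
    lintegral_indicator measurableSet_closedBall, lintegral_const_mul' _ _ ENNReal.ofReal_ne_top,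
    lintegral_const_mul' _ _ ENNReal.ofReal_ne_top, lintegral_inv_ball v hρ0.le]
  refine (add_le_add_left (mul_le_mul_right (KN_mass hP hε ha U) _) _).trans ?_
  rw [← ENNReal.ofReal_mul (by positivity), ← ENNReal.ofReal_mul (by positivity),
    ← ENNReal.ofReal_add (by positivity) (by positivity), hρ]
  refine ENNReal.ofReal_le_ofReal ?_
  have h2 : ε ^ P / ρ ^ (P + 3) * (2 * Real.pi * ρ ^ 2)
      ≤ (2 * ρ) ^ P / ρ ^ (P + 3) * (2 * Real.pi * ρ ^ 2) := by
    gcongr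
    linarith
  refine (add_le_add_right h2 _).trans (le_of_eq ?_)
  rw [mul_pow]
  field_simp
  ring

theorem KN_two (x : ℝ) : 2 * ENNReal.ofReal x = ENNReal.ofReal (2 * x) := by
  rw [ENNReal.ofReal_mul zero_le_two, ENNReal.ofReal_ofNat]

theorem KN_meas {X : Type} [MeasurableSpace X] {f g : V → ℝ≥0∞} (hf : Measurable f)
    (hg : Measurable g) (v : V) {w : X → V} {ω : X → S2} (hw : Measurable w) (hω : Measurable ω) :
    Measurable fun x =>
      ENNReal.ofReal |ca v (w x) (ω x)| * (f (vp v (w x) (ω x)) * g (wp v (w x) (ω x))) := by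
  have h1 : Measurable fun x => ca v (w x) (ω x) := measurable_ca measurable_const hw hω
  have h2 : Measurable fun x => vp v (w x) (ω x) := measurable_vp measurable_const hw hω
  have h3 : Measurable fun x => wp v (w x) (ω x) := measurable_wp measurable_const hw hω
  fun_prop

theorem KN_add {f g f₁ g₁ f₂ g₂ : V → ℝ≥0∞} (hf : Measurable f₁) (hg : Measurable g₁) (v : V)
    (h : ∀ w ω, f (vp v w ω) * g (wp v w ω)
      ≤ f₁ (vp v w ω) * g₁ (wp v w ω) + f₂ (vp v w ω) * g₂ (wp v w ω)) :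
    Qe f g v ≤ Qe f₁ g₁ v + Qe f₂ g₂ v := by
  have hm1 : Measurable fun w => ∫⁻ ω,
      ENNReal.ofReal |ca v w ω| * (f₁ (vp v w ω) * g₁ (wp v w ω)) ∂sig :=
    Measurable.lintegral_prod_right
      (f := fun w ω => ENNReal.ofReal |ca v w ω| * (f₁ (vp v w ω) * g₁ (wp v w ω)))
      (KN_meas hf hg v measurable_fst measurable_snd)
  unfold Qe
  rw [← lintegral_add_left hm1]
  refine lintegral_mono fun w => ?_
  have hm2 : Measurable fun ω =>
      ENNReal.ofReal |ca v w ω| * (f₁ (vp v w ω) * g₁ (wp v w ω)) :=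
    KN_meas (w := fun _ => w) (ω := fun ω => ω) hf hg v measurable_const measurable_id
  refine le_trans (lintegral_mono fun ω => ?_) (lintegral_add_left hm2 _).le
  exact (mul_le_mul_right (h w ω) _).trans (mul_add _ _ _).le

theorem KN_energy (v w U : V) (ω : S2) :
    ‖v - U‖ / 2 ≤ ‖vp v w ω - U‖ ∨ ‖v - U‖ / 2 ≤ ‖wp v w ω - U‖ := by
  have h1 := energy_post (v - U) (w - U) ω
  have h2 : vp (v - U) (w - U) ω = vp v w ω - U := by
    unfold vp ca; rw [sub_sub_sub_cancel_right, sub_right_comm]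
  have h3 : wp (v - U) (w - U) ω = wp v w ω - U := by
    unfold wp ca; rw [sub_sub_sub_cancel_right, sub_add_eq_add_sub]
  rw [h2, h3] at h1
  by_contra h
  rw [not_or, not_le, not_le] at h
  have h4 := mul_self_le_mul_self (norm_nonneg _) h.1.le
  have h5 := mul_self_le_mul_self (norm_nonneg _) h.2.le
  have h6 := (norm_nonneg _).trans_lt h.1
  nlinarith [sq_nonneg ‖w - U‖]

theorem Qe_NN {P : ℕ} (hP : 1 ≤ P) : ∃ C : ℝ, 0 < C ∧ ∀ ε ∈ Icc (0 : ℝ) 1, ∀ a ∈ Icc (0 : ℝ) 2,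
    ∀ U v : V, ‖U‖ ≤ 2 → Qe (Nf P ε a U) (Nf P ε a U) v
      ≤ if ‖v‖ ≤ 5 then ENNReal.ofReal (C * (ε ^ P / (‖v - U‖ + a + ε) ^ (P + 3))) else 0 := by
  obtain ⟨C, hC, h0⟩ := Nf_inv hP
  refine ⟨120 * Real.pi * 2 ^ (P + 1) * C, by positivity, fun ε hε a ha U v hU => ?_⟩
  rcases hε.1.eq_or_lt with rfl | hε'
  · simp [Qe, Nf_zero hP]
  split_ifs with hv
  swap
  · refine (Qe_eq_zero_of_supp (U := 0) (a := 3) (b := 3) (fun u hu => ?_) (fun u hu => ?_) ?_).le
    · simpa using Nf_supp hu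
    · simpa using Nf_supp hu
    · rw [sub_zero]
      nlinarith [not_le.1 hv]
  have hA : 0 < a + ε := by linarith [ha.1]
  have hδ := norm_nonneg (v - U)
  let g : V → ℝ≥0∞ := fun w => ENNReal.ofReal (ε ^ P) *
    ENNReal.ofReal (1 / (a + ε + max ‖w - U‖ (‖v - U‖ / 2)) ^ (P + 3))
  have hg : Measurable g := by fun_prop
  have hN := measurable_Nf P ε a U
  have h1 : ∀ w, ‖v - U‖ / 2 ≤ ‖w - U‖ → Nf P ε a U w ≤ g w := fun w hw => by
    simp only [g, max_eq_left hw]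
    exact KN_le P hε.1 a U w
  have h2 := KN_add (f := Nf P ε a U) (g := Nf P ε a U) (f₂ := g) (g₂ := Nf P ε a U) hN hg v
    fun w ω => by
      rcases KN_energy v w U ω with h | h
      · exact le_add_left (mul_le_mul_left (h1 _ h) _)
      · exact le_add_right (mul_le_mul_right (h1 _ h) _)
  have h3 := Qe_le_plane hN hg v
    (B := ENNReal.ofReal (ε ^ P) * ENNReal.ofReal (3 * Real.pi / (a + ε + ‖v - U‖ / 2) ^ (P + 1)))
    fun u _ _ ι _ => by
      simp only [g, sub_right_comm v _ U]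
      rw [lintegral_const_mul' _ _ ENNReal.ofReal_ne_top]
      exact mul_le_mul_right (plane_pow hA (by positivity) P _ ι) _
  have h4 := h3.trans (mul_le_mul_right (h0 ε a hε' ha.1 U v) _)
  rw [Qe_swap hg hN] at h2
  refine (h2.trans (add_le_add h4 h4)).trans ?_
  rw [← ENNReal.ofReal_mul (by positivity), KN_two, ← ENNReal.ofReal_mul (by positivity),
    ← ENNReal.ofReal_add (by have := ha.1; positivity) (by have := ha.1; positivity)]
  refine ENNReal.ofReal_le_ofReal ?_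
  obtain ⟨s, hs⟩ : ∃ s, s = ‖v - U‖ + a + ε := ⟨_, rfl⟩
  rw [← hs]
  have hs0 : 0 < s := by linarith
  have hs1 : 1 ≤ 10 / s := by
    rw [le_div_iff₀ hs0]
    linarith [norm_sub_le v U, hε.2, ha.2]
  have h5 : 3 * Real.pi / (a + ε + ‖v - U‖ / 2) ^ (P + 1) ≤ 3 * Real.pi / (s / 2) ^ (P + 1) := by
    gcongr
    linarith
  have h6 : 2 * (ε ^ P * (3 * Real.pi / (a + ε + ‖v - U‖ / 2) ^ (P + 1))) * (C / s)
      ≤ 2 * (ε ^ P * (3 * Real.pi / (s / 2) ^ (P + 1))) * (C / s) * (10 / s) :=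
    le_trans (by gcongr) (le_mul_of_one_le_right (by positivity) hs1)
  refine (add_le_add h6 h6).trans (le_of_eq ?_)
  rw [div_pow]
  field_simp
  ring

theorem Qe_cN (P : ℕ) : ∃ C : ℝ, 0 < C ∧ ∀ ε a : ℝ, 0 < ε → 0 ≤ a → ∀ (U v : V)
    (f : V → ℝ≥0∞), Measurable f → (∀ u, f u ≠ 0 → ‖u - U‖ ≤ 4 * ε) →
      Qe f (Nf P ε a U) v ≤ ENNReal.ofReal (C * (ε ^ P / (‖v - U‖ + a + ε) ^ (P + 1)))
        * ∫⁻ u, f u / ENNReal.ofReal ‖v - u‖ := by
  refine ⟨6 * Real.pi * 9 ^ (P + 1), by positivity, fun ε a hε ha U v f hf hs => ?_⟩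
  have hA : 0 < a + ε := by linarith
  have hδ := norm_nonneg (v - U)
  have hD : 0 ≤ max (‖v - U‖ - 8 * ε) 0 := le_max_right _ _
  refine (Qe_le_plane hf (measurable_Nf P ε a U) v (B := ENNReal.ofReal (ε ^ P) *
    ENNReal.ofReal (3 * Real.pi / (a + ε + max (‖v - U‖ - 8 * ε) 0) ^ (P + 1)))
    fun u _ hu ι hι => ?_).trans (mul_le_mul_left ?_ _)
  · refine le_trans (lintegral_mono fun q => ?_) (le_trans
      (lintegral_const_mul' _ _ ENNReal.ofReal_ne_top).le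
        (mul_le_mul_right (plane_pow hA hD P (v - U) ι) _))
    have h1 : ‖v - u‖ ≤ ‖v - u - ι q‖ := by
      refine (sq_le_sq₀ (norm_nonneg _) (norm_nonneg _)).1 ?_
      rw [norm_sub_sq_real (v - u), real_inner_comm, hι]
      linarith [sq_nonneg ‖ι q‖]
    have h2 := norm_sub_le_norm_sub_add_norm_sub v u U
    have h3 := norm_sub_le_norm_sub_add_norm_sub (v - ι q) U u
    rw [norm_sub_rev U u, sub_right_comm v _ u, sub_right_comm v _ U] at h3
    have h4 := hs u hu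
    rw [max_eq_left (max_le (by linarith) (norm_nonneg _)), ← sub_right_comm]
    exact KN_le P hε.le a U _
  · rw [← ENNReal.ofReal_mul (by positivity), KN_two]
    refine ENNReal.ofReal_le_ofReal ?_
    have h1 : 2 * (ε ^ P * (3 * Real.pi / (a + ε + max (‖v - U‖ - 8 * ε) 0) ^ (P + 1)))
        ≤ 2 * (ε ^ P * (3 * Real.pi / ((‖v - U‖ + a + ε) / 9) ^ (P + 1))) := by
      gcongr
      linarith [le_max_left (‖v - U‖ - 8 * ε) 0]
    refine h1.trans (le_of_eq ?_)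
    rw [div_pow]
    field_simp
    ring

end

end Vale.Agent.P140
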