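import Vale.Agent.P140.KWW
import Vale.Agent.P140.KN
import Vale.Agent.P140.Cold2

/-! Moments, damping and hot mass from the pointwise bounds. -/

namespace Vale.Agent.P140

open MeasureTheory Set Filter Topology
open scoped ENNReal RealInnerProductSpace

noncomputable section

theorem regime_meas : Measurable fun w : V => ENNReal.ofReal ((1 + ‖w‖) ^ 5) := by
  fun_prop

theorem regime_mom (R : ℝ) : ∃ μ : ℝ, 0 ≤ μ ∧ ∀ c e0 t : ℝ, 0 ≤ e0 → 0 < t → t ≤ 1 / 100 →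
    t * R ≤ 1 / 10 → ∀ (x : T3) (f g : V → ℝ), (∀ w, 0 ≤ f w) → (∀ w, 0 ≤ g w) →
      (∀ w, ENNReal.ofReal (f w) ≤ Nar c e0 t (x, w) + W c R t (x, w)) →
      (∀ w, ENNReal.ofReal (g w) ≤ W c R t (x, w)) →
      ∫⁻ w, ENNReal.ofReal ((1 + ‖w‖) ^ 5 * (f w + g w)) ≤ ENNReal.ofReal μ := by
  obtain ⟨C, C0, hC⟩ := mom_Wf R
  refine ⟨13000 + 13000 + C + C, by positivity, fun c e0 t he t0 t1 tR x f g f0 g0 hf hg => ?_⟩
  have hW := W_le_Wf c t0 (by linarith : t * R ≤ 1 / 8) x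
  have e0' : 0 ≤ epsf c e0 t x := Ef_nonneg he _
  have h1 : ∀ w, ENNReal.ofReal ((1 + ‖w‖) ^ 5 * (f w + g w))
      ≤ ENNReal.ofReal ((1 + ‖w‖) ^ 5) * Nf 50 (epsf c e0 t x) 0 (Uf c 1 t x) w
        + ENNReal.ofReal ((1 + ‖w‖) ^ 5) * Nf 50 (epsf c e0 t x) 0 (Uf c (-1) t x) w
        + ENNReal.ofReal ((1 + ‖w‖) ^ 5) * Wf t (uf c t x) R w
        + ENNReal.ofReal ((1 + ‖w‖) ^ 5) * Wf t (uf c t x) R w := fun w => by
    rw [ENNReal.ofReal_mul (by positivity), ENNReal.ofReal_add (f0 w) (g0 w), ← mul_add,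
      ← mul_add, ← mul_add]
    exact mul_le_mul_right (add_le_add ((hf w).trans (add_le_add le_rfl (hW w)))
      ((hg w).trans (hW w))) _
  have m1 : ∀ σ : ℝ, Measurable fun w : V => ENNReal.ofReal ((1 + ‖w‖) ^ 5)
      * Nf 50 (epsf c e0 t x) 0 (Uf c σ t x) w :=
    fun σ => regime_meas.mul (measurable_Nf 50 (epsf c e0 t x) 0 (Uf c σ t x))
  have m2 : Measurable fun w : V => ENNReal.ofReal ((1 + ‖w‖) ^ 5) * Wf t (uf c t x) R w :=
    regime_meas.mul (measurable_Wf t (uf c t x) R)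
  have h2 := hC t ⟨t0.le, by linarith⟩ (uf c t x)
  have h3 := fun σ => Nf_mom (by norm_num : 1 ≤ 50) e0' le_rfl (Uf c σ t x)
  refine (lintegral_mono h1).trans ?_
  rw [lintegral_add_right _ m2, lintegral_add_right _ m2, lintegral_add_right _ (m1 _),
    ENNReal.ofReal_add (by positivity) C0.le, ENNReal.ofReal_add (by positivity) C0.le,
    ENNReal.ofReal_add (by positivity) (by positivity)]
  exact add_le_add (add_le_add (add_le_add (h3 _) (h3 _)) h2) h2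

theorem regime_theta {P : CP} (hP : P.Ok) (hr : 0 < P.r1) (hr' : P.r1 ≤ 1) (R R' : ℝ) :
    ∃ nb : ℝ, 0 < nb ∧ ∀ n, nb ≤ n → ∀ t : ℝ, 0 < t → t ≤ 1 / 100 → t * R ≤ 1 / 10 →
      ∀ (F : Ph → ℝ) (x : T3) (w : V), 0 ≤ F (x, w) →
        ENNReal.ofReal (F (x, w)) ≤ ENNReal.ofReal (cf P t (x, w)) + Nar P.c P.e0 t (x, w)
          + 2 * W P.c R t (x, w) → ‖w‖ ≤ R' → P.e0 * P.r1 ^ 2 / 4 ≤ ‖tp w - uf P.c t x‖ →
        99 / 100 ≤ th n F (x, w) := by
  have e0 := hP.e_pos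
  have K0 := hP.K_pos
  obtain ⟨d, hd⟩ : ∃ d, d = P.e0 * P.r1 ^ 2 / 4 := ⟨_, rfl⟩
  have d0 : 0 < d := by rw [hd]; positivity
  have d1 : d ≤ 1 := by
    have h1 : P.r1 ^ 2 ≤ 1 := pow_le_one₀ hr.le hr'
    have h2 := mul_le_one₀ hP.e_le (sq_nonneg _) h1
    linarith
  obtain ⟨B, hB⟩ : ∃ B, B = 2 * P.K / (P.r1 * (P.e0 * P.r1 ^ 2) ^ 3) := ⟨_, rfl⟩
  have B0 : 0 < B := by rw [hB]; positivity
  obtain ⟨A, hA⟩ : ∃ A, A = B + (1 / d ^ 3 + 1 / d ^ 3) + 2 * (4 / d ^ 2) := ⟨_, rfl⟩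
  have A0 : 0 < A := by rw [hA]; positivity
  have m0 := Real.exp_pos (-R' ^ 2 / 2)
  refine ⟨1600 * A / Real.exp (-R' ^ 2 / 2), by positivity,
    fun n hn t t0 t1 tR F x w F0 hF hw hx => ?_⟩
  have n0 : 0 < n := lt_of_lt_of_le (by positivity) hn
  rw [← hd] at hx
  have e0' : 0 ≤ epsf P.c P.e0 t x := Ef_nonneg e0.le _
  have h1 := fun σ => Nf_le_inv 50 e0' le_rfl d0 (U := Uf P.c σ t x) (w := w)
    (hx.trans (norm_tp_sub_le w _ σ))
  have h2 := (W_le_Wf P.c t0 (by linarith : t * R ≤ 1 / 8) x w).trans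
    (Wf_le_of_far (by linarith) d0 d1 hx)
  have h3 : F (x, w) ≤ A := by
    rw [← ENNReal.ofReal_le_ofReal_iff A0.le, hA,
      ENNReal.ofReal_add (by positivity) (by positivity),
      ENNReal.ofReal_add (by positivity) (by positivity),
      ENNReal.ofReal_add (by positivity) (by positivity), ENNReal.ofReal_mul zero_le_two,
      ENNReal.ofReal_ofNat, hB]
    exact hF.trans (add_le_add (add_le_add (ENNReal.ofReal_le_ofReal (cf_le_const hP hr t _))
      (add_le_add (h1 _) (h1 _))) (mul_le_mul_right h2 _))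
  have h4 : Real.exp (-R' ^ 2 / 2) ≤ 16 * Mx w := by
    refine le_trans (Real.exp_le_exp.2 ?_) (exp_le_Mx w)
    linarith [pow_le_pow_left₀ (norm_nonneg w) hw 2]
  have h5 := one_sub_th_le (z := (x, w)) n0 F0
  have h6 : F (x, w) / (n * Mx w) ≤ 1 / 100 := by
    have := Mx_pos w
    rw [div_le_iff₀ (by positivity)]
    rw [div_le_iff₀ m0] at hn
    linarith [mul_le_mul_of_nonneg_left h4 n0.le]
  linarith

theorem hot_small (R : ℝ) {ζ : ℝ} (hζ : 0 < ζ) : ∃ C : ℝ, 0 < C ∧ ∀ P : CP, P.Ok → P.e0 ≤ ζ →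
    ∀ t : ℝ, 0 < t → t ≤ 1 / 100 → t * R ≤ 1 / 10 → ∀ F : Ph → ℝ, Measurable F → (∀ z, 0 ≤ F z) →
      (∀ z, ENNReal.ofReal (F z) ≤ ENNReal.ofReal (cf P t z) + Nar P.c P.e0 t z
        + ENNReal.ofReal (2 * P.e0 ^ 50) * W P.c R t z) →
      ∫ z in Hot ζ, F z ≤ C * P.e0 ^ 50 := by
  obtain ⟨C, C0, hC⟩ := mom_Wf R
  have hpi := Real.pi_pos
  refine ⟨2 / ζ ^ 53 * (4 / 3 * Real.pi * 3 ^ 3) + 2 * C, by positivity,
    fun P hP he t t0 t1 tR F mF F0 hF => ?_⟩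
  have e0 := hP.e_pos
  rw [integral_eq_lintegral_of_nonneg_ae (Eventually.of_forall F0) mF.aestronglyMeasurable]
  refine ENNReal.toReal_le_of_le_ofReal (by positivity) ?_
  have h1 : ∀ z ∈ Hot ζ, ENNReal.ofReal (F z) ≤ (Metric.closedBall (0 : V) 3).indicator
      (fun _ => ENNReal.ofReal (2 * P.e0 ^ 50 / ζ ^ 53)) z.2 + ENNReal.ofReal (2 * P.e0 ^ 50) *
        (ENNReal.ofReal ((1 + ‖z.2‖) ^ 5) * Wf t (uf P.c t z.1) R z.2) := by
    rintro ⟨x, w⟩ hz
    have e1 : epsf P.c P.e0 t x ≤ P.e0 / 256 := Ef_le e0.le _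
    have e2 : 0 ≤ epsf P.c P.e0 t x := Ef_nonneg e0.le _
    have hz' : ∀ σ : ℝ, σ = 1 ∨ σ = -1 → ζ ≤ |w 2 - σ| := by
      rintro σ (rfl | rfl)
      · exact hz.1
      · rw [sub_neg_eq_add]
        exact hz.2
    have c1 : ∀ σ : ℝ, σ = 1 ∨ σ = -1 → cf1 P σ t (x, w) = 0 := fun σ hσ => by
      by_contra hc
      have := (cf1_supp hP hσ t0 t1 hc).2.2.2.2.2.1
      linarith [hz' σ hσ]
    have c2 : ∀ σ : ℝ, σ = 1 ∨ σ = -1 → Nf 50 (epsf P.c P.e0 t x) 0 (Uf P.c σ t x) w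
        ≤ if ‖w‖ ≤ 3 then ENNReal.ofReal (P.e0 ^ 50 / ζ ^ 53) else 0 := fun σ hσ => by
      refine (Nf_far 50 e2 le_rfl hζ (by
        rw [add_zero]
        exact (hz' σ hσ).trans (abs_two_sub_le w _ σ))).trans ?_
      split_ifs
      · refine ENNReal.ofReal_le_ofReal (div_le_div_of_nonneg_right ?_ (by positivity))
        exact pow_le_pow_left₀ e2 (by linarith) 50
      · exact le_rfl
    refine (hF _).trans (add_le_add ?_ (mul_le_mul_right ?_ _))
    · rw [cf_eq, c1 1 (Or.inl rfl), c1 (-1) (Or.inr rfl), add_zero, ENNReal.ofReal_zero, zero_add]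
      refine (add_le_add (c2 1 (Or.inl rfl)) (c2 (-1) (Or.inr rfl))).trans ?_
      simp only [indicator, mem_closedBall_zero_iff]
      split_ifs
      · rw [← ENNReal.ofReal_add (by positivity) (by positivity)]
        exact ENNReal.ofReal_le_ofReal (le_of_eq (by ring))
      · rw [add_zero]
    · refine (W_le_Wf P.c t0 (by linarith : t * R ≤ 1 / 8) x w).trans (le_mul_of_one_le_left' ?_)
      rw [← ENNReal.ofReal_one]
      exact ENNReal.ofReal_le_ofReal (one_le_pow₀ (by linarith [norm_nonneg w]))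
  refine ((setLIntegral_mono' (measurableSet_Hot ζ) h1).trans (setLIntegral_le_lintegral _ _)).trans
    ((lintegral_prod_le _).trans ?_)
  refine le_trans (lintegral_mono fun x => ?_)
    (le_of_eq (by rw [lintegral_const, measure_univ, mul_one]))
  simp only
  rw [lintegral_add_left (measurable_const.indicator measurableSet_closedBall),
    lintegral_indicator_const measurableSet_closedBall, volume_closedBall_V _ (by norm_num),
    lintegral_const_mul' _ _ ENNReal.ofReal_ne_top]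
  refine (add_le_add le_rfl (mul_le_mul_right (hC t ⟨t0.le, by linarith⟩ _) _)).trans ?_
  rw [← ENNReal.ofReal_mul (by positivity), ← ENNReal.ofReal_mul (by positivity),
    ← ENNReal.ofReal_add (by positivity) (by positivity)]
  exact ENNReal.ofReal_le_ofReal (le_of_eq (by ring))

end

end Vale.Agent.P140
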