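import Vale.Agent.P140.Coll
import Vale.Agent.P140.ADefs

/-! Two estimates on the sphere. -/

namespace Vale.Agent.P140

open MeasureTheory Set Filter Topology
open scoped ENNReal RealInnerProductSpace

noncomputable section

theorem sph_four {x y G : ℝ} (hx : 0 ≤ x) (hy : 0 ≤ y) (hyG : y ≤ G) (hG : 1 ≤ G)
    (h : x ≤ y + 2) : x ^ 4 ≤ y ^ 4 + 80 * G ^ 3 := by
  have h1 : x ^ 4 ≤ (y + 2) ^ 4 := pow_le_pow_left₀ hx h 4
  have h3 : y ^ 3 ≤ G ^ 3 := pow_le_pow_left₀ hy hyG 3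
  have h2 : y ^ 2 ≤ G ^ 2 := pow_le_pow_left₀ hy hyG 2
  have h4 : G ^ 2 ≤ G ^ 3 := pow_le_pow_right₀ hG (by norm_num)
  have h5 : G ^ 1 ≤ G ^ 3 := pow_le_pow_right₀ hG (by norm_num)
  have h6 : 1 ≤ G ^ 3 := one_le_pow₀ hG
  nlinarith

theorem sph_post (v w : V) (ω : S2) (hw : ‖w‖ ≤ 2) (hG : 1 ≤ ‖v - w‖) :
    ‖vp v w ω‖ ^ 4 + ‖wp v w ω‖ ^ 4 ≤ (‖v - w‖ ^ 2 - ca v w ω ^ 2) ^ 2 + ca v w ω ^ 4
      + 160 * ‖v - w‖ ^ 3 := by
  have e1 : ‖vp v w ω - w‖ ^ 2 = ‖v - w‖ ^ 2 - ca v w ω ^ 2 := by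
    have h1 : vp v w ω - w = (v - w) - ca v w ω • (ω : V) := by
      unfold vp
      abel
    have h2 : ⟪v - w, (ω : V)⟫ = ca v w ω := rfl
    rw [h1, norm_sub_sq_real, real_inner_smul_right, h2, norm_smul, norm_S2, Real.norm_eq_abs,
      mul_one, sq_abs]
    ring
  have e2 : ‖wp v w ω‖ ≤ |ca v w ω| + 2 := by
    unfold wp
    refine (norm_add_le _ _).trans ?_
    rw [norm_smul, norm_S2, Real.norm_eq_abs, mul_one]
    linarith
  have e3 : ‖vp v w ω‖ ≤ ‖vp v w ω - w‖ + 2 := by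
    linarith [norm_sub_norm_le (vp v w ω) w]
  have e4 : ‖vp v w ω - w‖ ≤ ‖v - w‖ := by
    refine (pow_le_pow_iff_left₀ (norm_nonneg _) (norm_nonneg _) two_ne_zero).mp ?_
    rw [e1]
    linarith [sq_nonneg (ca v w ω)]
  have h1 := sph_four (norm_nonneg _) (norm_nonneg _) e4 hG e3
  have h2 := sph_four (norm_nonneg _) (abs_nonneg _) (abs_ca_le v w ω) hG e2
  have h3 : |ca v w ω| ^ 4 = ca v w ω ^ 4 := by
    rw [show |ca v w ω| ^ 4 = (|ca v w ω| ^ 2) ^ 2 by ring, sq_abs]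
    ring
  have h4 : ‖vp v w ω - w‖ ^ 4 = (‖v - w‖ ^ 2 - ca v w ω ^ 2) ^ 2 := by
    rw [← e1]
    ring
  linarith

theorem povzner : ∃ R₀ : ℝ, ∀ v w : V, R₀ ≤ ‖v‖ → ‖w‖ ≤ 2 →
    ∫ ω, |ca v w ω| * (‖vp v w ω‖ ^ 4 + ‖wp v w ω‖ ^ 4) ∂sig
      ≤ 9 / 10 * ‖v‖ ^ 4 * (2 * Real.pi * ‖v - w‖) := by
  refine ⟨10000, fun v w hv hw => ?_⟩
  set G := ‖v - w‖ with hG
  have hG1 : ‖v‖ - 2 ≤ G := by linarith [norm_sub_norm_le v w]
  have hG2 : G ≤ ‖v‖ + 2 := by linarith [norm_sub_le v w]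
  have hG0 : 0 < G := by linarith
  set e : V := G⁻¹ • (v - w) with he
  have hen : ‖e‖ = 1 := by
    rw [he, norm_smul, norm_inv, Real.norm_eq_abs, abs_of_pos hG0, ← hG, inv_mul_cancel₀ hG0.ne']
  have hca : ∀ ω : S2, ca v w ω = G * ⟪e, (ω : V)⟫ := by
    intro ω
    rw [he, real_inner_smul_left, ← mul_assoc, mul_inv_cancel₀ hG0.ne', one_mul]
    rfl
  set φ : ℝ → ℝ := fun s => G * (s ^ 2 + 1 / 4) * (G ^ 4 * (1 - 2 * s ^ 2 + 2 * s ^ 4) + 160 * G ^ 3)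
    with hφ
  have hφc : Continuous φ := by
    rw [hφ]
    fun_prop
  have hφ0 : ∀ s, 0 ≤ φ s := by
    intro s
    have h1 : 0 ≤ 1 - 2 * s ^ 2 + 2 * s ^ 4 := by nlinarith [sq_nonneg (s ^ 2 - 1 / 2)]
    rw [hφ]
    positivity
  have hpt : ∀ ω : S2, |ca v w ω| * (‖vp v w ω‖ ^ 4 + ‖wp v w ω‖ ^ 4) ≤ φ ⟪e, (ω : V)⟫ := by
    intro ω
    have h1 := sph_post v w ω hw (by linarith)
    rw [← hG, hca ω] at h1
    rw [hca ω, abs_mul, abs_of_pos hG0]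
    set s := ⟪e, (ω : V)⟫
    have h2 : |s| ≤ s ^ 2 + 1 / 4 := by nlinarith [sq_nonneg (|s| - 1 / 2), sq_abs s]
    have h3 : G * |s| ≤ G * (s ^ 2 + 1 / 4) := mul_le_mul_of_nonneg_left h2 hG0.le
    refine mul_le_mul h3 (h1.trans (le_of_eq ?_)) (by positivity) (by positivity)
    ring
  have hint : ∫ s in Icc (-1 : ℝ) 1, φ s = G * (G ^ 4 * (169 / 210) + 160 * G ^ 3 * (7 / 6)) := by
    rw [integral_Icc_eq_integral_Ioc, ← intervalIntegral.integral_of_le (by norm_num)]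
    have hd : ∀ s ∈ uIcc (-1 : ℝ) 1, HasDerivAt (fun s : ℝ => G * (G ^ 4 *
        (s / 4 + s ^ 3 / 6 - 3 / 10 * s ^ 5 + 2 / 7 * s ^ 7) + 160 * G ^ 3 * (s ^ 3 / 3 + s / 4)))
        (φ s) s := by
      intro s _
      have h1 := hasDerivAt_id s
      have h3 := hasDerivAt_pow 3 s
      have h5 := hasDerivAt_pow 5 s
      have h7 := hasDerivAt_pow 7 s
      have h := ((((((h1.div_const 4).add (h3.div_const 6)).sub (h5.const_mul (3 / 10))).add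
        (h7.const_mul (2 / 7))).const_mul (G ^ 4)).add
        (((h3.div_const 3).add (h1.div_const 4)).const_mul (160 * G ^ 3))).const_mul G
      refine h.congr_deriv ?_
      rw [hφ]
      norm_num
      ring
    rw [intervalIntegral.integral_eq_sub_of_hasDerivAt hd (hφc.intervalIntegrable _ _)]
    ring
  have hcont : Continuous (fun ω : S2 => |ca v w ω| * (‖vp v w ω‖ ^ 4 + ‖wp v w ω‖ ^ 4)) := by
    unfold vp wp ca
    fun_prop
  have hfin : 2 * Real.pi * (G * (G ^ 4 * (169 / 210) + 160 * G ^ 3 * (7 / 6)))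
      ≤ 9 / 10 * ‖v‖ ^ 4 * (2 * Real.pi * G) := by
    have h1 : G ^ 4 * (169 / 210) + 160 * G ^ 3 * (7 / 6) ≤ 9 / 10 * ‖v‖ ^ 4 := by
      have h2 : G ≤ 1001 / 1000 * ‖v‖ := by linarith
      have h3 : G ^ 4 ≤ (1001 / 1000 * ‖v‖) ^ 4 := pow_le_pow_left₀ hG0.le h2 4
      have h4 : G ^ 3 * 9998 ≤ G ^ 3 * G := mul_le_mul_of_nonneg_left (by linarith) (by positivity)
      have h5 : 0 ≤ ‖v‖ ^ 4 := by positivity
      rw [mul_pow] at h3
      nlinarith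
    have h6 : 0 ≤ 2 * Real.pi * G := by positivity
    nlinarith [mul_le_mul_of_nonneg_left h1 h6]
  rw [integral_eq_lintegral_of_nonneg_ae (ae_of_all _ fun ω => by positivity)
    hcont.aestronglyMeasurable]
  refine ENNReal.toReal_le_of_le_ofReal (by positivity) ?_
  calc ∫⁻ ω, ENNReal.ofReal (|ca v w ω| * (‖vp v w ω‖ ^ 4 + ‖wp v w ω‖ ^ 4)) ∂sig
      ≤ ∫⁻ ω : S2, ENNReal.ofReal (φ ⟪e, (ω : V)⟫) ∂sig :=
        lintegral_mono fun ω => ENNReal.ofReal_le_ofReal (hpt ω)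
    _ = ENNReal.ofReal (2 * Real.pi) * ∫⁻ s in Icc (-1 : ℝ) 1, ENNReal.ofReal (φ s) :=
        lintegral_zonal hen (φ := fun s => ENNReal.ofReal (φ s)) hφc.measurable.ennreal_ofReal
    _ ≤ _ := by
        rw [← ofReal_integral_eq_lintegral_ofReal hφc.integrableOn_Icc (ae_of_all _ hφ0), hint,
          ← ENNReal.ofReal_mul (by positivity)]
        exact ENNReal.ofReal_le_ofReal hfin

theorem sph_line {A B D G η : ℝ} (hG : 0 < G) (hη : 0 < η) (hA : G / 4 ≤ |A|) :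
    volume {u : ℝ | |A * u ^ 2 + B * u + D| ≤ η ^ 2 / 8 * G} ≤ 2 * ENNReal.ofReal η := by
  have key : ∀ σ : ℝ, |σ| = 1 → volume {u : ℝ | |A * u ^ 2 + B * u + D| ≤ η ^ 2 / 8 * G ∧
      0 ≤ σ * (2 * A * u + B)} ≤ ENNReal.ofReal η := by
    intro σ hσ
    refine (Real.volume_le_diam _).trans (Metric.ediam_le fun x hx y hy => ?_)
    rw [edist_dist, Real.dist_eq]
    refine ENNReal.ofReal_le_ofReal ?_
    have h1 : |(x - y) * (A * (x + y) + B)| ≤ η ^ 2 / 4 * G := by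
      have e : (x - y) * (A * (x + y) + B)
          = (A * x ^ 2 + B * x + D) - (A * y ^ 2 + B * y + D) := by ring
      rw [e]
      linarith [abs_sub (A * x ^ 2 + B * x + D) (A * y ^ 2 + B * y + D), hx.1, hy.1]
    have h2 : |A| * |x - y| ≤ |A * (x + y) + B| := by
      have e1 : |A * (x + y) + B| = |σ * (A * (x + y) + B)| := by rw [abs_mul σ, hσ, one_mul]
      have e2 : |A| * |x - y| = |σ * (A * (x - y))| := by rw [abs_mul σ, hσ, one_mul, abs_mul]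
      rw [e1, e2]
      refine le_trans (abs_le.mpr ⟨?_, ?_⟩) (le_abs_self _)
      · linarith [hx.2, hy.2]
      · linarith [hx.2, hy.2]
    rw [abs_mul] at h1
    have h0 := abs_nonneg (x - y)
    have h3 : G / 4 * |x - y| ≤ |A| * |x - y| := mul_le_mul_of_nonneg_right hA h0
    have h4 : |x - y| * (G / 4 * |x - y|) ≤ η ^ 2 / 4 * G :=
      (mul_le_mul_of_nonneg_left (h3.trans h2) h0).trans h1
    refine (pow_le_pow_iff_left₀ h0 hη.le two_ne_zero).mp ?_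
    refine le_of_mul_le_mul_left ?_ (show 0 < G / 4 by positivity)
    linarith
  rw [two_mul]
  refine le_trans (measure_mono ?_) ((measure_union_le _ _).trans
    (add_le_add (key 1 abs_one) (key (-1) (by simp))))
  intro u hu
  rcases le_total 0 (2 * A * u + B) with h | h
  · exact Or.inl ⟨hu, by linarith⟩
  · exact Or.inr ⟨hu, by linarith⟩

theorem sph_avg {S : Set V} (hS : MeasurableSet S) (h1 : ∀ y ∈ S, ‖y‖ ≤ 1) {f : V}
    (hf : ‖f‖ ≤ 2) {a : ℝ≥0∞} (ha : ∀ y : V, volume {u : ℝ | y + u • f ∈ S} ≤ a) :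
    volume S ≤ a * volume (Metric.closedBall (0 : V) 3) := by
  have hm : Measurable (fun p : ℝ × V => S.indicator (fun _ => (1 : ℝ≥0∞)) (p.2 + p.1 • f)) :=
    (measurable_const.indicator hS).comp (measurable_snd.add (measurable_fst.smul_const f))
  have e1 : volume S = ∫⁻ u in Icc (0 : ℝ) 1, ∫⁻ y : V,
      S.indicator (fun _ => (1 : ℝ≥0∞)) (y + u • f) := by
    have h2 : ∀ u : ℝ, ∫⁻ y : V, S.indicator (fun _ => (1 : ℝ≥0∞)) (y + u • f) = volume S := by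
      intro u
      rw [lintegral_add_right_eq_self (fun y : V => S.indicator (fun _ => (1 : ℝ≥0∞)) y),
        lintegral_indicator_const hS, one_mul]
    simp_rw [h2]
    rw [setLIntegral_const, Real.volume_Icc]
    simp
  rw [e1, lintegral_lintegral_swap hm.aemeasurable,
    ← lintegral_indicator_const Metric.isClosed_closedBall.measurableSet]
  refine lintegral_mono fun y => ?_
  by_cases hy : y ∈ Metric.closedBall (0 : V) 3
  · rw [indicator_of_mem hy]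
    refine le_trans ?_ (ha y)
    have hm2 : MeasurableSet {u : ℝ | y + u • f ∈ S} :=
      (measurable_const.add (measurable_id.smul_const f)) hS
    rw [← one_mul (volume {u : ℝ | y + u • f ∈ S}), ← lintegral_indicator_const hm2]
    exact (setLIntegral_le_lintegral _ _).trans (le_of_eq rfl)
  · rw [indicator_of_notMem hy]
    refine le_of_eq ?_
    rw [setLIntegral_congr_fun measurableSet_Icc (g := fun _ => 0), lintegral_zero]
    intro u hu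
    refine indicator_of_notMem (fun hS' => hy ?_) _
    rw [mem_closedBall_zero_iff]
    have h2 := h1 _ hS'
    have h3 : ‖u • f‖ ≤ 2 := by
      rw [norm_smul, Real.norm_eq_abs, abs_of_nonneg hu.1]
      nlinarith [hu.1, hu.2, norm_nonneg f]
    have h4 := norm_sub_le (y + u • f) (u • f)
    rw [add_sub_cancel_right] at h4
    linarith

theorem sph_orth (g : V) : ∃ f : V, ‖f‖ = 1 ∧ ⟪g, f⟫ = 0 := by
  by_cases h : g 0 = 0
  · refine ⟨EuclideanSpace.single 0 1, by simp, ?_⟩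
    rw [EuclideanSpace.inner_single_right]
    simp [h]
  · set f : V := !₂[g 1, -g 0, 0] with hf
    have h0 : f ≠ 0 := by
      intro h1
      apply h
      have h2 : f 1 = 0 := by rw [h1]; rfl
      rw [hf] at h2
      simpa using h2
    have h1 : 0 < ‖f‖ := norm_pos_iff.mpr h0
    refine ⟨‖f‖⁻¹ • f, ?_, ?_⟩
    · rw [norm_smul, norm_inv, norm_norm, inv_mul_cancel₀ h1.ne']
    · have h2 : ⟪g, f⟫ = 0 := by
        rw [hf]
        simp [PiLp.inner_apply, Fin.sum_univ_three]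
        ring
      rw [real_inner_smul_right, h2, mul_zero]

theorem sph_dir (g e : V) (s : ℝ) (he : ‖e‖ = 1) : ∃ f : V, ‖f‖ ≤ 2 ∧
    ‖g‖ / 4 ≤ |s * ‖f‖ ^ 2 + ⟪g, f⟫ * ⟪e, f⟫| := by
  by_cases hs : ‖g‖ / 4 ≤ |s|
  · obtain ⟨f, hf, hgf⟩ := sph_orth g
    refine ⟨f, by linarith, ?_⟩
    rw [hf, hgf]
    simpa using hs
  have hs' : |s| < ‖g‖ / 4 := not_le.mp hs
  have hG : 0 < ‖g‖ := by linarith [abs_nonneg s]
  set u : V := ‖g‖⁻¹ • g with hu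
  have hun : ‖u‖ = 1 := by rw [hu, norm_smul, norm_inv, norm_norm, inv_mul_cancel₀ hG.ne']
  have hgu : g = ‖g‖ • u := by rw [hu, smul_smul, mul_inv_cancel₀ hG.ne', one_smul]
  have hin : ∀ y : V, ⟪g, y⟫ = ‖g‖ * ⟪u, y⟫ := by
    intro y
    rw [← real_inner_smul_left, ← hgu]
  have huu : ⟪u, u⟫ = (1 : ℝ) := by rw [real_inner_self_eq_norm_sq, hun, one_pow]
  have hee : ⟪e, e⟫ = (1 : ℝ) := by rw [real_inner_self_eq_norm_sq, he, one_pow]
  have hc : ⟪e, u⟫ = ⟪u, e⟫ := real_inner_comm _ _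
  obtain ⟨hs1, hs2⟩ := abs_lt.mp hs'
  rcases le_total 0 ⟪u, e⟫ with h | h
  · refine ⟨u + e, by linarith [norm_add_le u e], le_trans ?_ (le_abs_self _)⟩
    rw [norm_add_sq_real, hun, he, hin, inner_add_right, inner_add_right, huu, hee, hc]
    have h1 : ‖g‖ / 2 ≤ 2 * s + ‖g‖ * (1 + ⟪u, e⟫) := by nlinarith
    nlinarith
  · refine ⟨u - e, by linarith [norm_sub_le u e], le_trans ?_ (neg_le_abs _)⟩
    rw [norm_sub_sq_real, hun, he, hin, inner_sub_right, inner_sub_right, huu, hee, hc]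
    have h1 : ‖g‖ / 2 ≤ -(2 * s) + ‖g‖ * (1 - ⟪u, e⟫) := by nlinarith
    nlinarith

theorem bad_set {ε : ℝ} (hε : 0 < ε) : ∃ ρ : ℝ, 0 < ρ ∧ ∀ (g e : V) (s : ℝ), ‖e‖ = 1 →
    ∫⁻ ω in {ω : S2 | |s + ⟪g, (ω : V)⟫ * ⟪e, (ω : V)⟫| ≤ ρ * ‖g‖},
      ENNReal.ofReal |⟪g, (ω : V)⟫| ∂sig ≤ ENNReal.ofReal (ε * ‖g‖) := by
  set B : ℝ := (volume (Metric.closedBall (0 : V) 3)).toReal with hB
  have hB0 : 0 ≤ B := ENNReal.toReal_nonneg
  have hBe : volume (Metric.closedBall (0 : V) 3) = ENNReal.ofReal B :=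
    (ENNReal.ofReal_toReal measure_closedBall_lt_top.ne).symm
  set η : ℝ := ε / (6 * (B + 1)) with hη
  have hη0 : 0 < η := by positivity
  refine ⟨η ^ 2 / 8, by positivity, fun g e s he => ?_⟩
  by_cases hg : g = 0
  · subst hg
    simp
  have hG : 0 < ‖g‖ := norm_pos_iff.mpr hg
  set A : Set S2 := {ω : S2 | |s + ⟪g, (ω : V)⟫ * ⟪e, (ω : V)⟫| ≤ η ^ 2 / 8 * ‖g‖} with hA
  have hAm : MeasurableSet A := by
    refine (isClosed_le ?_ continuous_const).measurableSet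
    fun_prop
  set S : Set V := {y : V | ‖y‖ ≤ 1 ∧
    |s * ‖y‖ ^ 2 + ⟪g, y⟫ * ⟪e, y⟫| ≤ η ^ 2 / 8 * ‖g‖} with hS
  have hSm : MeasurableSet S := by
    have h1 : MeasurableSet {y : V | ‖y‖ ≤ 1} := measurableSet_le measurable_norm measurable_const
    have h2 : MeasurableSet {y : V | |s * ‖y‖ ^ 2 + ⟪g, y⟫ * ⟪e, y⟫| ≤ η ^ 2 / 8 * ‖g‖} := by
      refine (isClosed_le ?_ continuous_const).measurableSet
      fun_prop
    exact h1.inter h2
  obtain ⟨f, hf, hQ⟩ := sph_dir g e s he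
  have hvol : volume S ≤ 2 * ENNReal.ofReal η * ENNReal.ofReal B := by
    rw [← hBe]
    refine sph_avg hSm (fun y hy => hy.1) hf fun y => ?_
    refine le_trans (measure_mono ?_) (sph_line (B := 2 * s * ⟪y, f⟫ + ⟪g, y⟫ * ⟪e, f⟫
      + ⟪g, f⟫ * ⟪e, y⟫) (D := s * ‖y‖ ^ 2 + ⟪g, y⟫ * ⟪e, y⟫) hG hη0 hQ)
    intro u hu
    have h1 := hu.2
    rw [norm_add_sq_real, inner_add_right, inner_add_right, real_inner_smul_right,
      real_inner_smul_right, real_inner_smul_right, norm_smul, mul_pow, Real.norm_eq_abs,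
      sq_abs] at h1
    refine le_trans (le_of_eq ?_) h1
    congr 1
    ring
  have hsig : sig A ≤ 3 * volume S := by
    unfold sig
    rw [Measure.toSphere_apply' _ hAm, finrank_euclideanSpace_fin]
    refine mul_le_mul' (by norm_num) (measure_mono ?_)
    rintro y ⟨r, hr, z, ⟨ω, hω, rfl⟩, rfl⟩
    have hn : ‖r • (ω : V)‖ = r := by
      rw [norm_smul, norm_S2, mul_one, Real.norm_eq_abs, abs_of_pos hr.1]
    refine ⟨hn.le.trans hr.2.le, ?_⟩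
    have h1 : |s + ⟪g, (ω : V)⟫ * ⟪e, (ω : V)⟫| ≤ η ^ 2 / 8 * ‖g‖ := hω
    have e1 : s * ‖r • (ω : V)‖ ^ 2 + ⟪g, r • (ω : V)⟫ * ⟪e, r • (ω : V)⟫
        = r ^ 2 * (s + ⟪g, (ω : V)⟫ * ⟪e, (ω : V)⟫) := by
      rw [hn, real_inner_smul_right, real_inner_smul_right]
      ring
    have h2 : r ^ 2 ≤ 1 := pow_le_one₀ hr.1.le hr.2.le
    show |s * ‖r • (ω : V)‖ ^ 2 + ⟪g, r • (ω : V)⟫ * ⟪e, r • (ω : V)⟫| ≤ η ^ 2 / 8 * ‖g‖
    rw [e1, abs_mul, abs_of_nonneg (sq_nonneg r)]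
    exact (mul_le_of_le_one_left (abs_nonneg _) h2).trans h1
  calc ∫⁻ ω in A, ENNReal.ofReal |⟪g, (ω : V)⟫| ∂sig
      ≤ ∫⁻ _ω in A, ENNReal.ofReal ‖g‖ ∂sig := by
        refine lintegral_mono fun ω => ENNReal.ofReal_le_ofReal ?_
        have h1 := abs_real_inner_le_norm g (ω : V)
        rwa [norm_S2, mul_one] at h1
    _ = ENNReal.ofReal ‖g‖ * sig A := setLIntegral_const _ _
    _ ≤ ENNReal.ofReal ‖g‖ * (3 * (2 * ENNReal.ofReal η * ENNReal.ofReal B)) :=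
        mul_le_mul' le_rfl (hsig.trans (mul_le_mul' le_rfl hvol))
    _ = ENNReal.ofReal (‖g‖ * (3 * (2 * η * B))) := by
        rw [ENNReal.ofReal_mul hG.le, ENNReal.ofReal_mul (by norm_num),
          ENNReal.ofReal_mul (by positivity), ENNReal.ofReal_mul (by norm_num)]
        simp
    _ ≤ ENNReal.ofReal (ε * ‖g‖) := by
        refine ENNReal.ofReal_le_ofReal ?_
        rw [mul_comm ε]
        refine mul_le_mul_of_nonneg_left ?_ hG.le
        have h1 : η * (6 * (B + 1)) = ε := by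
          rw [hη]
          field_simp
        nlinarith

theorem exists_GP : Nonempty GP := by
  obtain ⟨R₀, hpov⟩ := povzner
  obtain ⟨ρ, hρ, hbad⟩ := bad_set (ε := 1 / 50) (by norm_num)
  obtain ⟨R, hR1, hR2⟩ : ∃ R : ℝ, 20 ≤ R ∧ R₀ ≤ R := ⟨max 20 R₀, le_max_left _ _, le_max_right _ _⟩
  have hR : 0 < R := by linarith
  obtain ⟨ζ2, hζ2, hζ2a, hζ2b⟩ : ∃ ζ2 : ℝ, 0 < ζ2 ∧ ζ2 ≤ 1 / 2 ∧ ζ2 ≤ ρ * (1 / 10 ^ 8) :=
    ⟨min (1 / 2) (ρ * (1 / 10 ^ 8)), by positivity, min_le_left _ _, min_le_right _ _⟩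
  obtain ⟨c, hc, hc'⟩ : ∃ c : ℝ, 0 < c ∧ 16 * c ≤ ζ2 * (1 / 1300) :=
    ⟨ζ2 * (1 / 1300) / 16, by positivity, le_of_eq (by ring)⟩
  obtain ⟨K, hK, hK'⟩ : ∃ K : ℝ, 0 < K ∧ 8000 * (4 * R) ≤ K * (1 / 1300) :=
    ⟨8000 * (4 * R) * 1300, by positivity, le_of_eq (by ring)⟩
  obtain ⟨ζ4, hζ4, hζ4a, hζ4b⟩ : ∃ ζ4 : ℝ, 0 < ζ4 ∧ ζ4 ≤ 1 ∧ 15000 * K * ζ4 ≤ c := by
    refine ⟨min 1 (c / (15000 * K)), by positivity, min_le_left _ _, ?_⟩
    have h1 := min_le_right 1 (c / (15000 * K))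
    rw [le_div_iff₀ (by positivity)] at h1
    linarith
  obtain ⟨y3, hy1, hy2⟩ : ∃ y3 : ℝ, 4 * R ≤ y3 ∧
      3 * (2 * (2 + (2 * R ^ 2 + 4) ^ 2)) * (2 * Real.pi * (2 * R + 2) * 256 * K)
        ≤ ζ4 ^ 2 * y3 := by
    refine ⟨max (4 * R) (3 * (2 * (2 + (2 * R ^ 2 + 4) ^ 2)) *
      (2 * Real.pi * (2 * R + 2) * 256 * K) / ζ4 ^ 2), le_max_left _ _, ?_⟩
    rw [← div_le_iff₀' (by positivity)]
    exact le_max_right _ _
  have hy : 0 < y3 := by linarith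
  obtain ⟨σ', hσ, hσa, hσb⟩ : ∃ σ' : ℝ, 0 < σ' ∧ σ' ≤ 1 ∧
      K / c * (4 * R * (y3 / R) * Real.sqrt (8 * σ') / ζ2) ≤ 500 := by
    set L : ℝ := K / c * (4 * R * (y3 / R) / ζ2) with hL
    have hL0 : 0 < L := by positivity
    refine ⟨min 1 ((500 / L) ^ 2 / 8), by positivity, min_le_left _ _, ?_⟩
    have h1 : Real.sqrt (8 * min 1 ((500 / L) ^ 2 / 8)) ≤ 500 / L := by
      refine Real.sqrt_le_iff.mpr ⟨by positivity, ?_⟩
      linarith [min_le_right 1 ((500 / L) ^ 2 / 8)]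
    rw [le_div_iff₀ hL0] at h1
    refine le_trans (le_of_eq ?_) h1
    rw [hL]
    ring
  obtain ⟨M, hM⟩ := exists_nat_ge
    (K * (y3 * (y3 / R) * (3 + 4 * y3 * (y3 / R) / (c * σ'))) / (125 * (c * ζ2)))
  rw [div_le_iff₀ (by positivity)] at hM
  refine ⟨⟨c, K, M, R, 1 / 1300, ζ2, ζ4, 1 / 10 ^ 8, y3, σ', hR1,
    fun v w hv hw => hpov v w (hR2.trans hv) hw, by norm_num, le_rfl, by norm_num, le_rfl,
    hζ2, hζ2a, fun g e s he hg => ?_, hc, hc', hK', hζ4, hζ4a, hζ4b, hy1, hy2, hσ, hσa, hσb,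
    hM.trans (le_of_eq (by ring))⟩⟩
  refine le_trans (lintegral_mono_set ?_) ((hbad g e s he).trans (le_of_eq ?_))
  · intro ω hω
    exact le_trans hω (hζ2b.trans (mul_le_mul_of_nonneg_left hg hρ.le))
  · congr 1
    ring

end

end Vale.Agent.P140
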