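import Vale.Agent.P140.Fun
import Vale.Agent.P140.Ivt
import Vale.Agent.P140.LY
import Vale.Agent.P140.Bar
import Vale.Agent.P140.Regime
import Vale.Agent.P140.Datum
import Vale.Agent.P140.Sph
import Vale.Agent.P140.ApprApi

/-! Two sequences of approximate solutions with the same limiting datum and different hot mass. -/

namespace Vale.Agent.P140

open MeasureTheory Set Filter Topology
open scoped ENNReal RealInnerProductSpace

noncomputable section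

theorem aval_slice {f : ℝ → Ph → ℝ} (hf : Measurable fun p : ℝ × Ph => f p.1 p.2) (t : ℝ) :
    Measurable (f t) := hf.comp measurable_prodMk_left

theorem aval_tot_le {P : CP} {n t₀ t : ℝ} {c h k : ℝ → Ph → ℝ} (hn : 0 < n) (S : Sys n t₀ c h k)
    (h0 : ∀ z, c t₀ z = cf P t₀ z) (ht : t₀ ≤ t) (z : Ph) :
    ENNReal.ofReal (tot c h k t z)
      ≤ ENNReal.ofReal (cf P t z) + ENNReal.ofReal (h t z) + ENNReal.ofReal (k t z) := by
  unfold tot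
  calc ENNReal.ofReal (c t z + h t z + k t z)
      ≤ ENNReal.ofReal (c t z + h t z) + ENNReal.ofReal (k t z) := ENNReal.ofReal_add_le
    _ ≤ ENNReal.ofReal (c t z) + ENNReal.ofReal (h t z) + ENNReal.ofReal (k t z) := by
        gcongr; exact ENNReal.ofReal_add_le
    _ ≤ _ := by gcongr; exact S.c_le_cf hn h0 ht z

theorem aval_hot_ge {n t₀ T η CG tB ζ : ℝ} {c h k : ℝ → Ph → ℝ} (S : Sys n t₀ c h k)
    (aB : Appr n (fun τ => tot c h k (t₀ + τ))) (hT : 0 < T) (ht₀ : 0 < t₀) (hη : 0 < η)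
    (hCG : 0 < CG) (htB : t₀ ≤ tB) (hlow : η / 2 * tB ^ 121 ≤ ∫ z, k tB z)
    (hfin : ∫ z, k tB z ≤ CG * (tB / (t₀ + T)) ^ 121 * ∫ z in Hot ζ, k (t₀ + T) z) :
    η / 2 * T ^ 121 / CG ≤ ∫ z in Hot ζ, tot c h k (t₀ + T) z := by
  have htB0 : 0 < tB := ht₀.trans_le htB
  have hint : Integrable (tot c h k (t₀ + T)) := aB.integrable hT.le
  have hkint : Integrable (k (t₀ + T)) := by
    refine hint.mono' (aval_slice S.mk' _).aestronglyMeasurable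
      (ae_of_all _ fun z => ?_)
    have h1 := S.c0 (t₀ + T) z
    have h2 := S.h0 (t₀ + T) z
    rw [Real.norm_of_nonneg (S.k0 _ z)]
    unfold tot; linarith
  have hmono : ∫ z in Hot ζ, k (t₀ + T) z ≤ ∫ z in Hot ζ, tot c h k (t₀ + T) z :=
    integral_mono hkint.integrableOn hint.integrableOn fun z => by
      have h1 := S.c0 (t₀ + T) z
      have h2 := S.h0 (t₀ + T) z
      unfold tot; linarith
  refine le_trans ?_ hmono
  have h1 := hlow.trans hfin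
  generalize (∫ z in Hot ζ, k (t₀ + T) z) = H at h1 ⊢
  have hTf : 0 < t₀ + T := by linarith
  have h2 : η / 2 * (t₀ + T) ^ 121 ≤ CG * H := by
    have h3 : 0 < (tB / (t₀ + T)) ^ 121 := by positivity
    have h4 : η / 2 * tB ^ 121 = (tB / (t₀ + T)) ^ 121 * (η / 2 * (t₀ + T) ^ 121) := by
      rw [div_pow]
      have : (t₀ + T) ^ 121 ≠ 0 := by positivity
      generalize (t₀ + T) ^ 121 = u at this
      field_simp
    rw [h4] at h1
    generalize (tB / (t₀ + T)) ^ 121 = u at h1 h3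
    generalize η / 2 * (t₀ + T) ^ 121 = y at h1
    have h5 : u * y ≤ u * (CG * H) := by linarith
    exact le_of_mul_le_mul_left h5 h3
  rw [div_le_iff₀ hCG]
  have h6 : T ^ 121 ≤ (t₀ + T) ^ 121 := pow_le_pow_left₀ hT.le (by linarith) _
  have h7 : η / 2 * T ^ 121 ≤ η / 2 * (t₀ + T) ^ 121 :=
    mul_le_mul_of_nonneg_left h6 (by positivity)
  exact (h7.trans h2).trans_eq (mul_comm _ _)

theorem aval_small {e0 : ℝ} (he : 0 < e0) (he5 : e0 ≤ 1 / 100) : 2 * e0 ^ 50 ≤ 1 := by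
  have : e0 ^ 50 ≤ e0 ^ 1 := pow_le_pow_of_le_one he.le (by linarith) (by norm_num)
  rw [pow_one] at this
  linarith

theorem aval_gap {e0 T CL CG CH : ℝ} (he : 0 < e0) (he5 : e0 ≤ 1 / 100) (hT : 0 < T)
    (hCL : 0 < CL) (hCG : 0 < CG) (hCH : 0 < CH)
    (h : e0 ≤ T ^ 121 / (4 * CL * (32 * 10 ^ 4) * CG * CH) / 2) :
    CH * e0 ^ 50 < e0 ^ 48 / (2 * CL * (32 * 10 ^ 4)) / 2 * T ^ 121 / CG := by
  have hu : 0 < T ^ 121 := by positivity
  generalize T ^ 121 = u at h hu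
  have hv : 0 < e0 ^ 48 := by positivity
  have h4 : e0 ^ 50 = e0 ^ 48 * e0 ^ 2 := by ring
  rw [h4]
  generalize e0 ^ 48 = v at hv
  have hD : 0 < u / (4 * CL * (32 * 10 ^ 4) * CG * CH) := by positivity
  have h3 : v / (2 * CL * (32 * 10 ^ 4)) / 2 * u / CG
      = CH * (v * (u / (4 * CL * (32 * 10 ^ 4) * CG * CH))) := by
    field_simp; ring
  rw [h3]
  generalize u / (4 * CL * (32 * 10 ^ 4) * CG * CH) = D at h hD
  have h2 : e0 ^ 2 < D := by nlinarith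
  gcongr

theorem aval_seed {σ η t₀ : ℝ} (hη : 0 < η) (ht₀ : 0 < t₀) (ht₁ : t₀ ≤ 1)
    (hσ : σ ∈ Icc (0 : ℝ) (10 ^ 4 * η * t₀ ^ 119)) (z : Ph) :
    σ * (seedSet t₀).indicator (fun _ => (1 : ℝ)) z ≤ 32 * 10 ^ 4 * η * t₀ ^ 2 * Mx z.2 := by
  have h1 := seed_le t₀ z
  have h2 : t₀ ^ 119 ≤ t₀ ^ 2 := pow_le_pow_of_le_one ht₀.le ht₁ (by norm_num)
  have h3 : σ ≤ 10 ^ 4 * η * t₀ ^ 2 := hσ.2.trans (by gcongr)
  have h4 := (Mx_pos z.2).le
  calc σ * (seedSet t₀).indicator (fun _ => (1 : ℝ)) z ≤ σ * (32 * Mx z.2) :=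
        mul_le_mul_of_nonneg_left h1 hσ.1
    _ ≤ (10 ^ 4 * η * t₀ ^ 2) * (32 * Mx z.2) := by gcongr
    _ = _ := by ring

theorem aval_appr {n t₀ θ : ℝ} {c h k : ℝ → Ph → ℝ} (hn : 0 < n) (hθ : 0 < θ)
    (S : Sys n t₀ c h k) (hh : h t₀ = fun z => θ * Mx z.2) :
    Appr n (fun τ => tot c h k (t₀ + τ)) :=
  S.appr hn hθ fun z => by
    have h1 := S.k0 t₀ z
    have h2 := S.c0 t₀ z
    unfold tot; rw [hh]; simp only; linarith

theorem aval_theta {P : CP} {R n t₀ t : ℝ} {c h k : ℝ → Ph → ℝ} (hn : 0 < n) (S : Sys n t₀ c h k)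
    (h0 : ∀ z, c t₀ z = cf P t₀ z) (ht : t₀ ≤ t) (z : Ph)
    (h1 : ENNReal.ofReal (h t z) ≤ Nar P.c P.e0 t z + W P.c R t z)
    (h2 : ENNReal.ofReal (k t z) ≤ W P.c R t z) : ENNReal.ofReal (tot c h k t z)
      ≤ ENNReal.ofReal (cf P t z) + Nar P.c P.e0 t z + 2 * W P.c R t z := by
  refine (aval_tot_le hn S h0 ht z).trans ?_
  calc _ ≤ ENNReal.ofReal (cf P t z) + (Nar P.c P.e0 t z + W P.c R t z) + W P.c R t z := by
        gcongr
    _ = _ := by rw [two_mul]; ring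

/-- One member of each sequence. -/
theorem aval_step : ∃ (p : GP) (e0 T η a b : ℝ), 0 < T ∧ 0 < η ∧ a < b ∧
    CP.Ok ⟨p.c, p.K, p.M, e0, 0⟩ ∧ ∀ t₀ N θm : ℝ, 0 < t₀ → p.lw * t₀ ≤ T → 0 < θm →
      ∃ (n θ σ : ℝ) (FA FB : ℝ → Ph → ℝ), N ≤ n ∧ 0 ≤ θ ∧ θ ≤ θm ∧ 0 ≤ σ ∧
        σ ≤ 10 ^ 4 * η * t₀ ^ 119 ∧ Appr n FA ∧ Appr n FB ∧
        FA 0 = dat ⟨p.c, p.K, p.M, e0, p.σ' * p.c * t₀ / 2⟩ t₀ θ 0 ∧
        FB 0 = dat ⟨p.c, p.K, p.M, e0, p.σ' * p.c * t₀ / 2⟩ t₀ θ σ ∧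
        ∫ z in Hot p.ζ2, FA T z ≤ a ∧ b ≤ ∫ z in Hot p.ζ2, FB T z := by
  obtain ⟨p⟩ := exists_GP
  obtain ⟨CG, hCG, hG⟩ := growth p
  have hc := p.c_pos
  have hc' := p.c_le_half
  have hK := p.K_pos
  obtain ⟨R, CL, sbL, hR, hCL, hsbL, hsbL', hsbR, hly⟩ := ly p.M hc hc' hK
  obtain ⟨sbB, hsbB, -, hbar⟩ := bar (R := R) p.M hc hc' hK (by linarith)
  obtain ⟨μ, hμ, hmom⟩ := regime_mom R
  obtain ⟨sbG, hsbG, hgr⟩ := hG μ hμ
  obtain ⟨CH, hCH, hhot⟩ := hot_small R p.ζ2_pos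
  obtain ⟨T, hT0, hT1, hT2, hT3⟩ : ∃ T : ℝ, 0 < T ∧ 2 * T ≤ sbL ∧ 2 * T ≤ sbB ∧ 2 * T ≤ sbG := by
    refine ⟨min sbL (min sbB sbG) / 2, half_pos (lt_min hsbL (lt_min hsbB hsbG)), ?_, ?_, ?_⟩
    · linarith [min_le_left sbL (min sbB sbG)]
    · linarith [min_le_right sbL (min sbB sbG), min_le_left sbB sbG]
    · linarith [min_le_right sbL (min sbB sbG), min_le_right sbB sbG]
  have hM : (0 : ℝ) ≤ p.M := Nat.cast_nonneg _
  obtain ⟨e0, he, he1, he2, he3, he4⟩ : ∃ e0 : ℝ, 0 < e0 ∧ e0 ≤ T ∧ e0 ≤ p.ζ2 ∧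
      e0 ≤ p.c / (p.M + 1) ∧ e0 ≤ T ^ 121 / (4 * CL * (32 * 10 ^ 4) * CG * CH) / 2 :=
    ⟨min (min T p.ζ2) (min (p.c / (p.M + 1)) (T ^ 121 / (4 * CL * (32 * 10 ^ 4) * CG * CH) / 2)),
      lt_min (lt_min hT0 p.ζ2_pos) (lt_min (by positivity) (by positivity)),
      (min_le_left _ _).trans (min_le_left _ _), (min_le_left _ _).trans (min_le_right _ _),
      (min_le_right _ _).trans (min_le_left _ _), (min_le_right _ _).trans (min_le_right _ _)⟩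
  have he5 : e0 ≤ 1 / 100 := by linarith
  have hMe : p.M * e0 ≤ p.c := by
    rw [le_div_iff₀ (by positivity)] at he3
    linarith
  have hok : ∀ r1, 0 ≤ r1 → CP.Ok ⟨p.c, p.K, p.M, e0, r1⟩ := fun r1 hr =>
    ⟨hc, hc', hK, he, by show e0 ≤ 1; linarith, hr, hMe⟩
  have hgap := aval_gap he he5 hT0 hCL hCG hCH he4
  obtain ⟨η, hη⟩ : ∃ η : ℝ, η = e0 ^ 48 / (2 * CL * (32 * 10 ^ 4)) := ⟨_, rfl⟩
  rw [← hη] at hgap
  have hη0 : 0 < η := by rw [hη]; positivity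
  have hηL : CL * (32 * 10 ^ 4 * η) / e0 ^ 48 ≤ 1 / 2 := by
    have hv : 0 < e0 ^ 48 := by positivity
    rw [hη]
    generalize e0 ^ 48 = v at hv
    exact le_of_eq (by field_simp)
  have h50 := aval_small he he5
  clear he3 he4 hη hG
  refine ⟨p, e0, T, η, _, _, hT0, hη0, hgap, hok 0 le_rfl, ?_⟩
  clear hgap
  intro t₀ N θm ht₀ hlw hθm
  have hlw4 := p.four_le_lw
  have ht₀T : t₀ ≤ T := le_trans (le_mul_of_one_le_left ht₀.le (by linarith)) hlw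
  obtain ⟨r1, hr1⟩ : ∃ r1 : ℝ, r1 = p.σ' * p.c * t₀ / 2 := ⟨_, rfl⟩
  rw [← hr1]
  have hσ' := p.σ'_pos
  have hr : 0 < r1 := by rw [hr1]; positivity
  have hr' : r1 ≤ 1 := by
    have h1 : p.σ' * p.c ≤ 1 * 1 := mul_le_mul p.σ'_le (by linarith) hc.le zero_le_one
    have h2 : p.σ' * p.c * t₀ ≤ 1 * 1 * t₀ := mul_le_mul_of_nonneg_right h1 ht₀.le
    rw [hr1]; linarith
  have hPok := hok r1 hr.le
  obtain ⟨θb, hθb, hbar'⟩ := hbar e0 ⟨he, by linarith⟩ t₀ ⟨ht₀, by linarith⟩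
  obtain ⟨nb, hnb, hth⟩ := regime_theta hPok hr hr' R (2 * p.R)
  obtain ⟨θ, hθ0, hθ1, hθ2⟩ : ∃ θ : ℝ, 0 < θ ∧ θ ≤ θb ∧ θ ≤ θm :=
    ⟨min θb θm, lt_min hθb hθm, min_le_left _ _, min_le_right _ _⟩
  obtain ⟨n, hnN, hnnb, hnR⟩ : ∃ n : ℝ, N ≤ n ∧ nb ≤ n ∧ 4 * p.R ≤ n :=
    ⟨max N (max nb (4 * p.R)), le_max_left _ _, (le_max_left _ _).trans (le_max_right _ _),
      (le_max_right _ _).trans (le_max_right _ _)⟩
  have hn0 : 0 < n := hnb.trans_le hnnb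
  have ht₀Tf : t₀ ≤ t₀ + T := by linarith
  have hTf0 : 0 < t₀ + T := by linarith
  have hTf1 : t₀ + T ≤ 1 / 100 := by linarith
  have hTfL : t₀ + T ≤ sbL := by linarith
  have hTfB : t₀ + T ≤ sbB := by linarith
  have hTfG : t₀ + T ≤ sbG := by linarith
  have htR : ∀ t, t ≤ t₀ + T → t * R ≤ 1 / 10 := fun t ht =>
    (mul_le_mul_of_nonneg_right (ht.trans hTfL) (by linarith)).trans hsbR
  obtain ⟨C, hC⟩ := cf_le_Mx hPok hr
  have mcf : Measurable (cf ⟨p.c, p.K, p.M, e0, r1⟩ t₀) :=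
    aval_slice (measurable_cf _) t₀
  have mM : Measurable (fun z : Ph => θ * Mx z.2) :=
    (continuous_Mx.measurable.comp measurable_snd).const_mul θ
  have pM : ∀ z : Ph, 0 ≤ θ * Mx z.2 := fun z => mul_nonneg hθ0.le (Mx_pos _).le
  have hCC : ∀ z : Ph, cf ⟨p.c, p.K, p.M, e0, r1⟩ t₀ z + θ * Mx z.2 ≤ (C + θ) * Mx z.2 :=
    fun z => by have := hC t₀ z; linarith
  have hθM : ∀ z : Ph, θ * Mx z.2 ≤ θb * Mx z.2 := fun z =>
    mul_le_mul_of_nonneg_right hθ1 (Mx_pos _).le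
  obtain ⟨cA, hA, kA, SA, hcA, hhA, hkA⟩ := exists_sys hn0 t₀ mcf mM
    (measurable_const (a := (0 : ℝ))) (cf_nonneg hPok t₀) pM (fun _ => le_rfl)
    (C := C + θ) (fun z => by rw [add_zero]; exact hCC z)
  obtain ⟨σ, hσ, cB, hB, kB, SB, hcB, hhB, hkB, hup, tB, htB, hlow⟩ :=
    exists_seeded hn0 ht₀ ht₀Tf (by linarith) hη0 mcf mM (cf_nonneg hPok t₀) pM hCC
  have iA := congrFun hcA
  have iB := congrFun hcB
  have bA := hbar' r1 n cA hA kA hPok hn0 SA iA (fun z => by rw [hhA]; exact hθM z)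
  have bB := hbar' r1 n cB hB kB hPok hn0 SB iB (fun z => by rw [hhB]; exact hθM z)
  have aA := aval_appr hn0 hθ0 SA hhA
  have aB := aval_appr hn0 hθ0 SB hhB
  refine ⟨n, θ, σ, _, _, hnN, hθ0.le, hθ2, hσ.1, hσ.2, aA, aB, ?_, ?_, ?_, ?_⟩
  · funext z
    simp only [add_zero, tot, dat, hcA, hhA, hkA, zero_mul]
  · funext z
    simp only [add_zero, tot, dat, hcB, hhB, hkB]
  · have hk0 : ∀ z, kA (t₀ + T) z = 0 := fun z => by
      have := SA.k_small hn0 (δ := 0) le_rfl (fun z => by rw [hkA]; simp) ht₀Tf z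
      have h2 := SA.k0 (t₀ + T) z
      simp only [zero_mul] at this
      linarith
    refine hhot _ hPok he2 _ hTf0 hTf1 (htR _ le_rfl) (tot cA hA kA (t₀ + T))
      (aval_slice SA.meas_tot _) (SA.tot_nonneg _) (fun z => ?_)
    refine (aval_tot_le hn0 SA iA ht₀Tf z).trans ?_
    rw [hk0 z, ENNReal.ofReal_zero, add_zero, add_assoc]
    exact add_le_add le_rfl (bA _ ⟨ht₀Tf, hTfB⟩ z)
  · have bB' : ∀ s ∈ Icc t₀ (t₀ + T), ∀ z,
        ENNReal.ofReal (hB s z) ≤ Nar p.c e0 s z + W p.c R s z := by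
      intro s hs z
      refine (bB s ⟨hs.1, hs.2.trans hTfB⟩ z).trans (add_le_add le_rfl ?_)
      exact (mul_le_mul_left (ENNReal.ofReal_le_one.2 h50) _).trans_eq (one_mul _)
    have kW := hly e0 r1 hPok (by linarith) n t₀ (t₀ + T) (32 * 10 ^ 4 * η) cB hB kB hn0 ht₀
      hTfL (by positivity) hηL SB iB bB'
      (fun z => by rw [hkB]; exact aval_seed hη0 ht₀ (by linarith) hσ z)
      (fun s hs => (hup s hs).trans (mul_le_mul_of_nonneg_right (by linarith)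
        (pow_pos (ht₀.trans_le hs.1) _).le))
    have hreg : Reg p μ e0 r1 n t₀ (t₀ + T) cB hB kB :=
      { sys := SB, e_pos := he, r_pos := hr, t_pos := ht₀, r_le := by rw [hr1]; linarith,
        t_le := by linarith, n_ge := hnR, init := iB,
        mom := fun t ht x => hmom p.c e0 t he.le (ht₀.trans_le ht.1) (ht.2.trans hTf1)
          (htR t ht.2) x (fun w => hB t (x, w)) (fun w => kB t (x, w)) (fun w => SB.h0 t _)
          (fun w => SB.k0 t _) (fun w => bB' t ht _) (fun w => kW t ht _),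
        theta := fun t ht x w hw hd => hth n hnnb t (ht₀.trans_le ht.1) (ht.2.trans hTf1)
          (htR t ht.2) _ x w (SB.tot_nonneg t _)
          (aval_theta hn0 SB iB ht.1 (x, w) (bB' t ht _) (kW t ht _)) hw hd }
    have hfin := hgr e0 r1 n t₀ (t₀ + T) cB hB kB (by linarith) hTfG hreg
      (fun z hz => by
        by_contra hz'
        exact hz (by rw [hkB]; simp [indicator_of_notMem hz'])) tB htB
    exact aval_hot_ge SB aB hT0 ht₀ hη0 hCG htB.1 hlow hfin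

theorem aval : ∃ (F₀ : Ph → ℝ) (SA SB : Seq F₀) (T a b : ℝ) (A : Set Ph), 0 < T ∧
    MeasurableSet A ∧ a < b ∧ (∀ k, ∫ z in A, SA.F k T z ≤ a) ∧
      ∀ k, b ≤ ∫ z in A, SB.F k T z := by
  obtain ⟨p, e0, T, η, a, b, hT, hη, hab, hok, hstep⟩ := aval_step
  have hlw : 0 < p.lw := by linarith [p.four_le_lw]
  set t : ℕ → ℝ := fun k => T / p.lw * (1 / ((k : ℝ) + 1)) with ht
  have ht0 : ∀ k, 0 < t k := fun k => by positivity
  have ht1 : ∀ k, p.lw * t k ≤ T := fun k => by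
    have h1 : 1 / ((k : ℝ) + 1) ≤ 1 := by
      rw [div_le_one (by positivity)]; linarith [Nat.cast_nonneg (α := ℝ) k]
    calc p.lw * t k = T * (1 / ((k : ℝ) + 1)) := by simp only [ht]; field_simp
      _ ≤ T * 1 := by gcongr
      _ = T := mul_one T
  have hlim : Tendsto (fun k : ℕ => 1 / ((k : ℝ) + 1)) atTop (𝓝 0) :=
    tendsto_one_div_add_atTop_nhds_zero_nat
  have htl : Tendsto t atTop (𝓝 0) := by
    have := hlim.const_mul (T / p.lw)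
    rwa [mul_zero] at this
  choose n θ σ FA FB hn hθ0 hθ1 hσ0 hσ1 aA aB iA iB hA hB using fun k : ℕ =>
    hstep (t k) ((k : ℝ) + 2) (1 / ((k : ℝ) + 1)) (ht0 k) (ht1 k) (by positivity)
  have hr0 : ∀ k, 0 ≤ p.σ' * p.c * t k / 2 := fun k => by
    have := p.σ'_pos; have := p.c_pos; have := ht0 k; positivity
  have hrl : Tendsto (fun k => p.σ' * p.c * t k / 2) atTop (𝓝 0) := by
    simpa using (htl.const_mul (p.σ' * p.c)).div_const 2
  have hθl : Tendsto θ atTop (𝓝 0) := squeeze_zero hθ0 hθ1 hlim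
  have hσl : Tendsto σ atTop (𝓝 0) := squeeze_zero hσ0 hσ1 (by
    simpa using (htl.pow 119).const_mul (10 ^ 4 * η))
  obtain ⟨cA1, cA2⟩ := dat_conv hok (σ := fun _ => 0) hr0 hθ0 (fun _ => le_rfl) hrl htl hθl
    tendsto_const_nhds
  obtain ⟨cB1, cB2⟩ := dat_conv hok hr0 hθ0 hσ0 hrl htl hθl hσl
  exact ⟨cold ⟨p.c, p.K, p.M, e0, 0⟩,
    ⟨n, FA, hn, aA, isDatum_cold hok, by simpa only [iA] using cA1, by simpa only [iA] using cA2⟩,
    ⟨n, FB, hn, aB, isDatum_cold hok, by simpa only [iB] using cB1, by simpa only [iB] using cB2⟩,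
    T, a, b, Hot p.ζ2, hT, measurableSet_Hot _, hab, hA, hB⟩

end

end Vale.Agent.P140
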