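import Vale.Agent.P140.Basic

/-! Jointly measurable versions and uniform convergence of equi-Lipschitz families. -/

namespace Vale.Agent.P140

open MeasureTheory Set Filter Topology
open scoped ENNReal RealInnerProductSpace

noncomputable section

/-- A curve that is continuous in `L¹` has a jointly measurable version. -/
theorem exists_version {α : Type} [MeasurableSpace α] {μ : Measure α} {f : ℝ → α → ℝ}
    (hm : ∀ t, Measurable (f t)) (h0 : ∀ t x, 0 ≤ f t x)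
    (hc : ∀ T ε : ℝ, 0 < ε → ∃ δ : ℝ, 0 < δ ∧ ∀ s ∈ Icc 0 T, ∀ t ∈ Icc 0 T, |s - t| ≤ δ →
      ∫⁻ x, ‖f t x - f s x‖ₑ ∂μ ≤ ENNReal.ofReal ε) :
    ∃ g : ℝ → α → ℝ, Measurable (fun p : ℝ × α => g p.1 p.2) ∧ (∀ t x, 0 ≤ g t x) ∧
      ∀ t, 0 ≤ t → g t =ᵐ[μ] f t := by
  choose δ hδ hδc using fun j : ℕ => hc j ((1 / 2) ^ j) (by positivity)
  have hj : ∀ j, Measurable fun p : ℝ × α => f (⌊p.1 / δ j⌋₊ * δ j) p.2 := fun j =>
    (measurable_from_prod_countable_left (f := fun q : α × ℕ => f (q.2 * δ j) q.1)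
      fun n => hm (n * δ j)).comp
      (measurable_snd.prodMk (Nat.measurable_floor.comp (measurable_fst.div_const _)))
  refine ⟨fun t x => (limsup (fun j => ENNReal.ofReal (f (⌊t / δ j⌋₊ * δ j) x)) atTop).toReal,
    (Measurable.limsup fun j => (hj j).ennreal_ofReal).ennreal_toReal,
    fun t x => ENNReal.toReal_nonneg, fun t ht => ?_⟩
  obtain ⟨N, hN⟩ := exists_nat_ge t
  have hb : ∀ j, ∫⁻ x, ‖f t x - f (⌊t / δ (j + N)⌋₊ * δ (j + N)) x‖ₑ ∂μ ≤
      ENNReal.ofReal ((1 / 2) ^ (j + N)) := by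
    intro j
    have h1 := hδ (j + N)
    have h2 : (⌊t / δ (j + N)⌋₊ : ℝ) * δ (j + N) ≤ t :=
      (le_div_iff₀ h1).1 (Nat.floor_le (by positivity))
    have h3 : t < (⌊t / δ (j + N)⌋₊ + 1 : ℝ) * δ (j + N) :=
      (div_lt_iff₀ h1).1 (Nat.lt_floor_add_one _)
    have h4 : t ≤ ((j + N : ℕ) : ℝ) := hN.trans (by exact_mod_cast Nat.le_add_left N j)
    refine hδc (j + N) _ ⟨by positivity, h2.trans h4⟩ t ⟨ht, h4⟩ ?_
    rw [abs_sub_comm, abs_of_nonneg (by linarith)]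
    linarith
  have hme : ∀ j, Measurable fun x => ‖f t x - f (⌊t / δ (j + N)⌋₊ * δ (j + N)) x‖ₑ := fun j =>
    ((hm _).sub (hm _)).enorm
  have hs : ∫⁻ x, ∑' j, ‖f t x - f (⌊t / δ (j + N)⌋₊ * δ (j + N)) x‖ₑ ∂μ ≠ ⊤ := by
    rw [lintegral_tsum fun j => (hme j).aemeasurable]
    refine ne_top_of_le_ne_top ?_ (ENNReal.tsum_le_tsum hb)
    exact ((summable_nat_add_iff N).2 summable_geometric_two).tsum_ofReal_ne_top
  filter_upwards [ae_lt_top (Measurable.tsum hme) hs] with x hx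
  have h1 := ENNReal.tendsto_atTop_zero_of_tsum_ne_top hx.ne
  have h2 : Tendsto (fun j => f (⌊t / δ (j + N)⌋₊ * δ (j + N)) x) atTop (𝓝 (f t x)) := by
    rw [tendsto_iff_edist_tendsto_0]
    simpa only [edist_comm _ (f t x), edist_eq_enorm_sub] using h1
  rw [tendsto_add_atTop_iff_nat (f := fun j => f (⌊t / δ j⌋₊ * δ j) x)] at h2
  rw [(ENNReal.tendsto_ofReal h2).limsup_eq, ENNReal.toReal_ofReal (h0 t x)]

theorem vers_unif {X ι : Type} [PseudoMetricSpace X] {l : Filter ι} {K : Set X}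
    (hK : IsCompact K) {u : ι → X → ℝ≥0∞} {L : ℝ}
    (hL : ∀ i, ∀ x ∈ K, ∀ y ∈ K, u i x ≤ u i y + ENNReal.ofReal (L * dist x y))
    (hp : ∀ x ∈ K, Tendsto (fun i => u i x) l (𝓝 0)) {ε : ℝ} (hε : 0 < ε) :
    ∀ᶠ i in l, ∀ x ∈ K, u i x ≤ ENNReal.ofReal ε := by
  have hL0 : 0 < |L| + 1 := by positivity
  obtain ⟨t, htK, ht, hcov⟩ :=
    finite_cover_balls_of_compact hK (e := ε / 2 / (|L| + 1)) (by positivity)
  have h1 : ∀ᶠ i in l, ∀ y ∈ t, u i y ≤ ENNReal.ofReal (ε / 2) :=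
    (eventually_all_finite ht).2 fun y hy =>
      (hp y (htK hy)).eventually (Iic_mem_nhds (by simpa using hε))
  filter_upwards [h1] with i hi x hx
  obtain ⟨y, hy, hxy⟩ := mem_iUnion₂.1 (hcov hx)
  have h2 : L * dist x y ≤ ε / 2 := by
    have h3 : dist x y * (|L| + 1) < ε / 2 := (lt_div_iff₀ hL0).1 hxy
    nlinarith [le_abs_self L, dist_nonneg (x := x) (y := y)]
  calc u i x ≤ u i y + ENNReal.ofReal (L * dist x y) := hL i x hx y (htK hy)
    _ ≤ ENNReal.ofReal (ε / 2) + ENNReal.ofReal (ε / 2) :=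
        add_le_add (hi y hy) (ENNReal.ofReal_le_ofReal h2)
    _ = _ := by rw [← ENNReal.ofReal_add (by positivity) (by positivity), add_halves]

/-- Pointwise convergence of an equi-Lipschitz family is uniform on compact sets. -/
theorem eventually_unif_of_lip {X ι : Type} [PseudoMetricSpace X] {l : Filter ι} {K : Set X}
    (hK : IsCompact K) {u : ι → X → ℝ} {L : ℝ}
    (hL : ∀ i, ∀ x ∈ K, ∀ y ∈ K, |u i x - u i y| ≤ L * dist x y)
    (hp : ∀ x ∈ K, Tendsto (fun i => u i x) l (𝓝 0)) {ε : ℝ} (hε : 0 < ε) :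
    ∀ᶠ i in l, ∀ x ∈ K, |u i x| ≤ ε := by
  have h := vers_unif hK (u := fun i x => ENNReal.ofReal |u i x|) (L := L) (l := l)
    (fun i x hx y hy => le_trans (ENNReal.ofReal_le_ofReal (by
      linarith [hL i x hx y hy, abs_sub_abs_le_abs_sub (u i x) (u i y)])) ENNReal.ofReal_add_le)
    (fun x hx => by simpa using ENNReal.tendsto_ofReal (hp x hx).abs) hε
  filter_upwards [h] with i hi x hx
  exact (ENNReal.ofReal_le_ofReal_iff hε.le).1 (hi x hx)

/-- Extended-valued version: `u i x ≤ u i y + L dist x y`. -/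
theorem eventually_unif_of_lip' {X ι : Type} [PseudoMetricSpace X] {l : Filter ι} {K : Set X}
    (hK : IsCompact K) {u : ι → X → ℝ≥0∞} {L : ℝ}
    (hL : ∀ i, ∀ x ∈ K, ∀ y ∈ K, u i x ≤ u i y + ENNReal.ofReal (L * dist x y))
    (hp : ∀ x ∈ K, Tendsto (fun i => u i x) l (𝓝 0)) {ε : ℝ} (hε : 0 < ε) :
    ∀ᶠ i in l, ∀ x ∈ K, u i x ≤ ENNReal.ofReal ε := by
  exact vers_unif hK hL hp hε

/-- Left endpoint of the cell of mesh `T / N` containing `t ∈ (0, T]`. -/
def cell (T : ℝ) (N : ℕ) (t : ℝ) : ℝ := ((⌈t * N / T⌉₊ : ℝ) - 1) * (T / N)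

theorem cell_mem {T t : ℝ} {N : ℕ} (hN : 0 < N) (ht : t ∈ Ioc 0 T) :
    cell T N t ∈ Icc 0 T ∧ |cell T N t - t| ≤ T / N := by
  have hT : 0 < T := ht.1.trans_le ht.2
  have hN' : (0 : ℝ) < N := by exact_mod_cast hN
  have h0 : 0 < t * N / T := by have := ht.1; positivity
  have h1 : (1 : ℝ) ≤ ⌈t * N / T⌉₊ := by exact_mod_cast Nat.ceil_pos.2 h0
  have h2 := Nat.le_ceil (t * N / T)
  have h3 := Nat.ceil_lt_add_one h0.le
  have hh : 0 < T / N := by positivity
  have e : t = t * N / T * (T / N) := by field_simp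
  have h4 : cell T N t ≤ t := by
    rw [cell]
    nlinarith
  have h5 : t - T / N ≤ cell T N t := by
    rw [cell]
    nlinarith
  refine ⟨⟨mul_nonneg (by linarith) hh.le, h4.trans ht.2⟩, ?_⟩
  rw [abs_le]
  constructor <;> linarith

theorem measurable_cell (T : ℝ) (N : ℕ) : Measurable (cell T N) := by
  unfold cell
  exact ((measurable_from_top.comp (Nat.measurable_ceil.comp
    ((measurable_id.mul_const _).div_const _))).sub_const _).mul_const _

theorem vers_cell {T t : ℝ} {N j : ℕ} (hT : 0 < T) (hN : 0 < N)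
    (ht : t ∈ Ioc (j * (T / N)) ((j + 1) * (T / N))) : cell T N t = j * (T / N) := by
  have hN' : (0 : ℝ) < N := by exact_mod_cast hN
  have hh : 0 < T / N := by positivity
  have e : t * N / T = t / (T / N) := by field_simp
  have h1 : ⌈t * N / T⌉₊ = j + 1 := by
    rw [Nat.ceil_eq_iff (Nat.succ_ne_zero j), e, lt_div_iff₀ hh, div_le_iff₀ hh]
    simpa using ht
  rw [cell, h1]
  push_cast
  ring

theorem vers_node {T : ℝ} {N j : ℕ} (hT : 0 < T) (hj : j < N) :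
    (j : ℝ) * (T / N) ∈ Icc 0 T := by
  have hN' : (0 : ℝ) < N := by exact_mod_cast (Nat.zero_lt_of_lt hj)
  have h1 : (j : ℝ) ≤ N := by exact_mod_cast hj.le
  refine ⟨by positivity, ?_⟩
  calc (j : ℝ) * (T / N) ≤ N * (T / N) := by gcongr
    _ = T := mul_div_cancel₀ _ hN'.ne'

/-- Splitting a time integral along the cells. -/
theorem lintegral_cell {T : ℝ} {N : ℕ} (hT : 0 < T) (hN : 0 < N) (u : ℝ → ℝ → ℝ≥0∞) :
    ∫⁻ t in Ioc 0 T, u (cell T N t) t
      = ∑ j ∈ Finset.range N, ∫⁻ t in Ioc (j * (T / N)) ((j + 1) * (T / N)), u (j * (T / N)) t := by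
  have hN' : (0 : ℝ) < N := by exact_mod_cast hN
  have hh : 0 < T / N := by positivity
  have key : ∀ n : ℕ, ∫⁻ t in Ioc 0 (n * (T / N)), u (cell T N t) t = ∑ j ∈ Finset.range n,
      ∫⁻ t in Ioc (j * (T / N)) ((j + 1) * (T / N)), u (j * (T / N)) t := by
    intro n
    induction n with
    | zero => simp
    | succ n ih =>
      rw [Finset.sum_range_succ, ← ih, Nat.cast_succ,
        ← Ioc_union_Ioc_eq_Ioc (b := n * (T / N)) (by positivity) (by nlinarith),
        lintegral_union measurableSet_Ioc (Ioc_disjoint_Ioc_of_le le_rfl)]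
      congr 1
      exact setLIntegral_congr_fun measurableSet_Ioc fun t ht => by rw [vers_cell hT hN ht]
  rw [← key N, mul_div_cancel₀ _ hN'.ne']

theorem vers_psi {α : Type} {ψ : ℝ × α → ℝ} {C : ℝ} (hC : ∀ p, |ψ p| ≤ C) (a b : ℝ) (x : α) :
    |∫ t in Ioc a b, ψ (t, x)| ≤ C * volume.real (Ioc a b) :=
  norm_setIntegral_le_of_norm_le_const (f := fun t => ψ (t, x)) measure_Ioc_lt_top
    fun t _ => hC (t, x)

theorem vers_sum {T : ℝ} {N : ℕ} (hT : 0 < T) (hN : 0 < N) (c : ℝ → ℝ) {φ : ℝ → ℝ}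
    (hφ : Measurable φ) {C : ℝ} (hC : ∀ t, |φ t| ≤ C) :
    ∫ t in Ioc 0 T, c (cell T N t) * φ t = ∑ j ∈ Finset.range N,
      c (j * (T / N)) * ∫ t in Ioc (j * (T / N)) ((j + 1) * (T / N)), φ t := by
  have hN' : (0 : ℝ) < N := by exact_mod_cast hN
  have hh : 0 < T / N := by positivity
  have hle : ∀ j : ℕ, (j : ℝ) * (T / N) ≤ ((j + 1 : ℕ) : ℝ) * (T / N) := fun j => by
    push_cast
    nlinarith
  have hcg : ∀ j : ℕ, EqOn (fun t => c (j * (T / N)) * φ t) (fun t => c (cell T N t) * φ t)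
      (Ioc (j * (T / N)) ((j + 1) * (T / N))) := fun j t ht => by
    simp only [vers_cell hT hN ht]
  have h1 := intervalIntegral.sum_integral_adjacent_intervals (μ := volume)
    (f := fun t => c (cell T N t) * φ t) (a := fun j : ℕ => (j : ℝ) * (T / N)) (n := N)
    fun j _ => by
      rw [intervalIntegrable_iff_integrableOn_Ioc_of_le (hle j), Nat.cast_succ]
      refine IntegrableOn.congr_fun ?_ (hcg j) measurableSet_Ioc
      exact (Measure.integrableOn_of_bounded measure_Ioc_lt_top.ne hφ.aestronglyMeasurable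
        (Eventually.of_forall hC)).const_mul _
  simp only [Nat.cast_zero, zero_mul, mul_div_cancel₀ _ hN'.ne'] at h1
  rw [← intervalIntegral.integral_of_le hT.le, ← h1]
  refine Finset.sum_congr rfl fun j _ => ?_
  rw [intervalIntegral.integral_of_le (hle j), Nat.cast_succ,
    ← setIntegral_congr_fun measurableSet_Ioc (hcg j), integral_const_mul]

theorem vers_approx {α : Type} [MeasurableSpace α] {μ : Measure α} [SFinite μ] {g : ℝ → α → ℝ}
    {T : ℝ} {N : ℕ} (hT : 0 < T) (hN : 0 < N) (hm : Measurable fun p : ℝ × α => g p.1 p.2)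
    (hi : ∀ t ∈ Icc 0 T, Integrable (g t) μ) {η : ℝ} (hη : 0 ≤ η)
    (hc : ∀ t ∈ Ioc 0 T, ∫⁻ x, ‖g t x - g (cell T N t) x‖ₑ ∂μ ≤ ENNReal.ofReal η)
    {ψ : ℝ × α → ℝ} (hψ : Measurable ψ) {C : ℝ} (hC0 : 0 ≤ C) (hC : ∀ p, |ψ p| ≤ C) :
    |∫ p, g p.1 p.2 * ψ p ∂((muT T).prod μ) - ∑ j ∈ Finset.range N, ∫ x, g (j * (T / N)) x *
      (∫ t in Ioc (j * (T / N)) ((j + 1) * (T / N)), ψ (t, x)) ∂μ| ≤ η * T * C := by
  have hm' : Measurable fun p : ℝ × α => g (cell T N p.1) p.2 :=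
    hm.comp (((measurable_cell T N).comp measurable_fst).prodMk measurable_snd)
  have i1 : Integrable (fun p : ℝ × α => g (cell T N p.1) p.2) ((muT T).prod μ) := by
    refine ⟨hm'.aestronglyMeasurable, ?_⟩
    rw [HasFiniteIntegral, lintegral_prod _ hm'.enorm.aemeasurable,
      lintegral_cell hT hN fun s _ => ∫⁻ x, ‖g s x‖ₑ ∂μ]
    refine ENNReal.sum_lt_top.2 fun j hj => ?_
    rw [setLIntegral_const]
    exact ENNReal.mul_lt_top (hi _ (vers_node hT (Finset.mem_range.1 hj))).2 measure_Ioc_lt_top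
  have hmd : Measurable fun p : ℝ × α => g p.1 p.2 - g (cell T N p.1) p.2 := hm.sub hm'
  have hd : ∫⁻ p, ‖g p.1 p.2 - g (cell T N p.1) p.2‖ₑ ∂((muT T).prod μ) ≤
      ENNReal.ofReal (η * T) := by
    rw [lintegral_prod _ hmd.enorm.aemeasurable]
    refine (setLIntegral_mono' measurableSet_Ioc hc).trans (le_of_eq ?_)
    rw [setLIntegral_const, Real.volume_Ioc, sub_zero, ENNReal.ofReal_mul hη]
  have i2 : Integrable (fun p : ℝ × α => g p.1 p.2 - g (cell T N p.1) p.2) ((muT T).prod μ) :=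
    ⟨hmd.aestronglyMeasurable, hd.trans_lt ENNReal.ofReal_lt_top⟩
  have i3 := i1.mul_bdd hψ.aestronglyMeasurable (Eventually.of_forall hC)
  have i4 := i2.mul_bdd hψ.aestronglyMeasurable (Eventually.of_forall hC)
  have e1 : ∫ p, g (cell T N p.1) p.2 * ψ p ∂((muT T).prod μ) = ∑ j ∈ Finset.range N,
      ∫ x, g (j * (T / N)) x * (∫ t in Ioc (j * (T / N)) ((j + 1) * (T / N)), ψ (t, x)) ∂μ := by
    rw [integral_prod_symm _ i3, ← integral_finsetSum _ fun j hj =>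
      (hi _ (vers_node hT (Finset.mem_range.1 hj))).mul_bdd
        hψ.stronglyMeasurable.integral_prod_left'.aestronglyMeasurable
        (Eventually.of_forall (vers_psi hC _ _))]
    refine integral_congr_ae (Eventually.of_forall fun x => ?_)
    exact vers_sum hT hN (fun s => g s x) (φ := fun t => ψ (t, x))
      (hψ.comp measurable_prodMk_right) fun t => hC (t, x)
  have e2 : ∫ p, g p.1 p.2 * ψ p ∂((muT T).prod μ) =
      ∫ p, (g p.1 p.2 - g (cell T N p.1) p.2) * ψ p ∂((muT T).prod μ) +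
        ∫ p, g (cell T N p.1) p.2 * ψ p ∂((muT T).prod μ) := by
    rw [← integral_add i4 i3]
    refine integral_congr_ae (Eventually.of_forall fun p => ?_)
    ring
  rw [← e1, e2, add_sub_cancel_right]
  have h1 : ∫ p, ‖g p.1 p.2 - g (cell T N p.1) p.2‖ ∂((muT T).prod μ) ≤ η * T := by
    rw [integral_norm_eq_lintegral_enorm hmd.aestronglyMeasurable]
    exact ENNReal.toReal_le_of_le_ofReal (by positivity) hd
  rw [← Real.norm_eq_abs]
  refine le_trans (norm_integral_le_of_norm_le (i2.norm.mul_const C)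
    (Eventually.of_forall fun p => ?_)) ?_
  · rw [norm_mul]
    exact mul_le_mul_of_nonneg_left (hC p) (norm_nonneg _)
  · rw [integral_mul_const]
    exact mul_le_mul_of_nonneg_right h1 hC0

/-- Space-time weak convergence from weak convergence at each time and equicontinuity. -/
theorem weakConv_prod {α ι : Type} [MeasurableSpace α] {μ : Measure α} [SFinite μ] {l : Filter ι}
    {f : ι → ℝ → α → ℝ} {f₀ : ℝ → α → ℝ} {T : ℝ}
    (hm : ∀ i, Measurable (fun p : ℝ × α => f i p.1 p.2))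
    (hm₀ : Measurable (fun p : ℝ × α => f₀ p.1 p.2))
    (hi : ∀ i, ∀ t ∈ Icc 0 T, Integrable (f i t) μ) (hi₀ : ∀ t ∈ Icc 0 T, Integrable (f₀ t) μ)
    (hw : ∀ t ∈ Icc 0 T, WeakConv μ l (fun i => f i t) (f₀ t))
    (hc : ∀ ε : ℝ, 0 < ε → ∃ δ : ℝ, 0 < δ ∧ ∀ s ∈ Icc 0 T, ∀ t ∈ Icc 0 T, |s - t| ≤ δ →
      (∀ i, ∫⁻ x, ‖f i t x - f i s x‖ₑ ∂μ ≤ ENNReal.ofReal ε) ∧
        ∫⁻ x, ‖f₀ t x - f₀ s x‖ₑ ∂μ ≤ ENNReal.ofReal ε) :
    WeakConv ((muT T).prod μ) l (fun i p => f i p.1 p.2) (fun p => f₀ p.1 p.2) := by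
  rintro ψ hψ ⟨C, hC⟩
  rcases le_or_gt T 0 with hT | hT
  · simp only [muT, Ioc_eq_empty_of_le hT, Measure.restrict_empty, Measure.zero_prod,
      integral_zero_measure]
    exact tendsto_const_nhds
  have hC' : ∀ p, |ψ p| ≤ |C| := fun p => (hC p).trans (le_abs_self C)
  rw [Metric.tendsto_nhds]
  intro ε hε
  obtain ⟨δ, hδ, hδc⟩ := hc (ε / 4 / (|C| * T + 1)) (by positivity)
  obtain ⟨N, hN⟩ := exists_nat_gt (T / δ)
  have hN' : (0 : ℝ) < N := lt_trans (by positivity) hN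
  have hN0 : 0 < N := by exact_mod_cast hN'
  have hh : T / N ≤ δ := by
    rw [div_le_iff₀ hN', mul_comm]
    exact ((div_lt_iff₀ hδ).1 hN).le
  have hcell := fun t (ht : t ∈ Ioc 0 T) => hδc _ (cell_mem hN0 ht).1 t (Ioc_subset_Icc_self ht)
    ((cell_mem hN0 ht).2.trans hh)
  have h1 := fun i => vers_approx hT hN0 (hm i) (hi i) (by positivity)
    (fun t ht => (hcell t ht).1 i) hψ (abs_nonneg C) hC'
  have h2 := vers_approx hT hN0 hm₀ hi₀ (by positivity) (fun t ht => (hcell t ht).2) hψ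
    (abs_nonneg C) hC'
  have h3 := tendsto_finsetSum (Finset.range N) fun j hj =>
    hw _ (vers_node hT (Finset.mem_range.1 hj))
      (fun x => ∫ t in Ioc (j * (T / N)) ((j + 1) * (T / N)), ψ (t, x))
      hψ.stronglyMeasurable.integral_prod_left'.measurable ⟨_, vers_psi hC' _ _⟩
  have h4 : ε / 4 / (|C| * T + 1) * T * |C| ≤ ε / 4 := by
    rw [mul_assoc, div_mul_eq_mul_div, div_le_iff₀ (by positivity)]
    nlinarith
  filter_upwards [Metric.tendsto_nhds.1 h3 (ε / 2) (by positivity)] with i h5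
  have h6 := h1 i
  rw [Real.dist_eq, abs_lt] at h5 ⊢
  rw [abs_le] at h2 h6
  constructor <;> linarith [h5.1, h5.2, h2.1, h2.2, h6.1, h6.2]

end

end Vale.Agent.P140
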