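import Vale.Agent.P140.Weak0

/-! Weak compactness in L1 along ultrafilters and product lemmas. -/

namespace Vale.Agent.P140

open MeasureTheory Set Filter Topology
open scoped ENNReal RealInnerProductSpace

noncomputable section

variable {α ι κ : Type} [MeasurableSpace α] {μ : Measure α} {l : Filter ι}
  {f g a : ι → α → ℝ} {f₀ g₀ a₀ : α → ℝ}

theorem wk_loc (ha : LocConv μ l a a₀) {g : α → ℝ} (hg : Integrable g μ) :
    Tendsto (fun i => ∫⁻ x, ‖a i x - a₀ x‖ₑ * ‖g x‖ₑ ∂μ) l (𝓝 0) :=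
  (ha _ hg.1.stronglyMeasurable_mk.measurable (hg.congr hg.1.ae_eq_mk)).congr fun i =>
    lintegral_congr_ae (by filter_upwards [hg.1.ae_eq_mk] with x hx; rw [hx])

theorem wk_ofReal_le (u : α → ℝ) : ENNReal.ofReal (∫ x, u x ∂μ) ≤ ∫⁻ x, ‖u x‖ₑ ∂μ :=
  (Real.ofReal_le_enorm _).trans (enorm_integral_le_lintegral_enorm _)

theorem wk_enorm_le {x c : ℝ} (h : |x| ≤ c) : ‖x‖ₑ ≤ ENNReal.ofReal c :=
  (ofReal_norm x).symm.trans_le (ENNReal.ofReal_le_ofReal h)

theorem wk_set (hw : WeakConv μ l f f₀) {A : Set α} (hA : MeasurableSet A) :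
    Tendsto (fun i => ∫ x in A, f i x ∂μ) l (𝓝 (∫ x in A, f₀ x ∂μ)) := by
  simpa only [w0_ind _ hA, mul_one] using hw (A.indicator fun _ => 1)
    (measurable_const.indicator hA) ⟨1, fun x => by by_cases hx : x ∈ A <;> simp [hx]⟩

/-- Product of a weakly convergent and a bounded locally convergent family. -/
theorem WeakConv.mul_locConv (hw : WeakConv μ l f f₀) (h : UI μ f) (hm : ∀ i, Measurable (f i))
    (ha : LocConv μ l a a₀) (ham : ∀ i, Measurable (a i)) (ham₀ : Measurable a₀) {C : ℝ}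
    (hC : ∀ i x, |a i x| ≤ C) (hC₀ : ∀ x, |a₀ x| ≤ C) :
    Tendsto (fun i => ∫ x, f i x * a i x ∂μ) l (𝓝 (∫ x, f₀ x * a₀ x ∂μ)) := by
  have hD : ∀ i x, |a i x - a₀ x| ≤ 2 * |C| := fun i x =>
    (abs_sub _ _).trans (by linarith [hC i x, hC₀ x, le_abs_self C])
  have h1 : Tendsto (fun i => ∫ x, f i x * (a i x - a₀ x) ∂μ) l (𝓝 0) := by
    refine Metric.tendsto_nhds.2 fun ε hε => ?_
    obtain ⟨g, hi, hb⟩ := w0_real h hm (ε := ε / 4 / (2 * |C| + 1)) (by positivity)
    filter_upwards [ENNReal.tendsto_nhds_zero.1 (wk_loc ha hi) (ENNReal.ofReal (ε / 4))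
      (by simpa using hε)] with i h3
    have h4 := hb i (fun x => a i x - a₀ x) _ ((ham i).sub ham₀) (by positivity) (hD i)
    have h5 : ∫ x, g x * |a i x - a₀ x| ∂μ ≤ ε / 4 := by
      refine (ENNReal.ofReal_le_ofReal_iff (by positivity)).1 ((wk_ofReal_le _).trans
        (le_trans (le_of_eq (lintegral_congr fun x => ?_)) h3))
      rw [enorm_mul, mul_comm, ← Real.norm_eq_abs, enorm_norm]
    have h6 : 2 * |C| * (ε / 4 / (2 * |C| + 1)) ≤ ε / 4 := by
      rw [← mul_div_assoc, div_le_iff₀ (by positivity)]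
      linarith
    rw [Real.dist_0_eq_abs]
    linarith
  have := h1.add (hw a₀ ham₀ ⟨C, hC₀⟩)
  rw [zero_add] at this
  refine this.congr fun i => ?_
  simp only [mul_sub]
  rw [integral_sub (w0_int (h.integrable hm i) (ham i) (hC i))
    (w0_int (h.integrable hm i) ham₀ hC₀), sub_add_cancel]

theorem locConv_of_exhaust {S : ℕ → Set α} (hS : ∀ m, MeasurableSet (S m)) (hmono : Monotone S)
    (hU : ∀ᵐ x ∂μ, ∃ m, x ∈ S m) (ham : ∀ i, Measurable (a i)) (ham₀ : Measurable a₀) {C : ℝ}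
    (hC : ∀ i x, |a i x| ≤ C) (hC₀ : ∀ x, |a₀ x| ≤ C)
    (h : ∀ m, Tendsto (fun i => ∫⁻ x in S m, ‖a i x - a₀ x‖ₑ ∂μ) l (𝓝 0)) :
    LocConv μ l a a₀ := by
  intro g hg hi
  have hT : ∀ m : ℕ, MeasurableSet (S m ∩ {x | |g x| ≤ m})ᶜ := fun m =>
    ((hS m).inter (measurableSet_le hg.abs measurable_const)).compl
  have h1 := tendsto_lintegral_of_dominated_convergence (μ := μ) (f := fun _ => 0)
    (F := fun (m : ℕ) => (S m ∩ {x | |g x| ≤ m})ᶜ.indicator fun x => ‖(C + C) * g x‖ₑ)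
    (fun x => ‖(C + C) * g x‖ₑ) (fun m => (hg.const_mul _).enorm.indicator (hT m))
    (fun m => ae_of_all _ fun x => indicator_le_self _ _ x) (hi.const_mul _).2.ne (by
      filter_upwards [hU] with x ⟨m, hm⟩
      refine tendsto_const_nhds.congr' ?_
      filter_upwards [eventually_ge_atTop m, tendsto_natCast_atTop_atTop.eventually_ge_atTop
        |g x|] with k h1 h2
      exact (indicator_of_notMem (not_not.2 ⟨hmono h1 hm, h2⟩) _).symm)
  rw [lintegral_zero] at h1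
  refine ENNReal.tendsto_nhds_zero.2 fun ε hε => ?_
  obtain ⟨m, h2⟩ := (ENNReal.tendsto_nhds_zero.1 h1 _ (ENNReal.half_pos hε.ne')).exists
  have h3 := ENNReal.Tendsto.const_mul (a := m) (h m) (Or.inr (ENNReal.natCast_ne_top m))
  rw [mul_zero] at h3
  filter_upwards [ENNReal.tendsto_nhds_zero.1 h3 _ (ENNReal.half_pos hε.ne')] with i h4
  rw [← ENNReal.add_halves ε]
  refine le_trans ?_ (add_le_add h4 h2)
  rw [← lintegral_const_mul' _ _ (ENNReal.natCast_ne_top m), ← lintegral_indicator (hS m),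
    ← lintegral_add_right _ ((hg.const_mul _).enorm.indicator (hT m))]
  refine lintegral_mono fun x => ?_
  by_cases hx : x ∈ S m ∩ {x | |g x| ≤ m}
  · rw [indicator_of_mem hx.1, mul_comm]
    refine le_add_right (mul_le_mul_left ?_ _)
    rw [← ENNReal.ofReal_natCast]
    exact wk_enorm_le hx.2
  · rw [indicator_of_mem (mem_compl hx), enorm_mul]
    refine le_add_left (mul_le_mul_left ((wk_enorm_le ((abs_sub _ _).trans
      (add_le_add (hC i x) (hC₀ x)))).trans (Real.ofReal_le_enorm _)) _)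

theorem LocConv.mul_bdd (ha : LocConv μ l a a₀) {b : α → ℝ} (hb : Measurable b) {C : ℝ}
    (hC : ∀ x, |b x| ≤ C) :
    LocConv μ l (fun i x => a i x * b x) (fun x => a₀ x * b x) := fun w hw hi => by
  refine (ha (fun x => w x * b x) (hw.mul hb) (w0_int hi hb hC)).congr fun i =>
    lintegral_congr fun x => ?_
  rw [← sub_mul, enorm_mul, enorm_mul]
  ring

theorem LocConv.mul (ha : LocConv μ l a a₀) (hg : LocConv μ l g g₀)
    (ham : ∀ i, Measurable (a i)) (ham₀ : Measurable a₀) {C : ℝ}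
    (hC : ∀ i x, |g i x| ≤ C) (hC₀ : ∀ x, |a₀ x| ≤ C) :
    LocConv μ l (fun i x => a i x * g i x) (fun x => a₀ x * g₀ x) := fun w hw hi => by
  have h1 := (ha _ (hw.const_mul C) (hi.const_mul C)).add
    (hg _ (hw.mul ham₀) (w0_int hi ham₀ hC₀))
  rw [add_zero] at h1
  refine tendsto_of_tendsto_of_tendsto_of_le_of_le tendsto_const_nhds h1 (fun i => zero_le)
    fun i => ?_
  dsimp only
  rw [← lintegral_add_left (f := fun x => ‖a i x - a₀ x‖ₑ * ‖C * w x‖ₑ)
    (((ham i).sub ham₀).enorm.mul (hw.const_mul C).enorm)]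
  refine lintegral_mono fun x => ?_
  have e : (a i x * g i x - a₀ x * g₀ x) * w x
      = (a i x - a₀ x) * (g i x * w x) + (g i x - g₀ x) * (w x * a₀ x) := by ring
  rw [← enorm_mul, e]
  refine (enorm_add_le _ _).trans ?_
  simp only [enorm_mul, Pi.mul_apply]
  gcongr
  exact (wk_enorm_le (hC i x)).trans (Real.ofReal_le_enorm _)

theorem LocConv.comp {β : Type} [MeasurableSpace β] {ν : Measure β} {e : β ≃ᵐ α}
    (he : MeasurePreserving e ν μ) (ha : LocConv μ l a a₀) :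
    LocConv ν l (fun i y => a i (e y)) (fun y => a₀ (e y)) := fun w hw hi => by
  refine (ha (fun x => w (e.symm x)) (hw.comp e.symm.measurable)
    (((he.symm e).integrable_comp_emb e.symm.measurableEmbedding).2 hi)).congr fun i => ?_
  rw [← he.lintegral_comp_emb e.measurableEmbedding]
  simp only [MeasurableEquiv.symm_apply_apply]

theorem WeakConv.comp {β : Type} [MeasurableSpace β] {ν : Measure β} {e : β ≃ᵐ α}
    (he : MeasurePreserving e ν μ) (hw : WeakConv μ l f f₀) :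
    WeakConv ν l (fun i y => f i (e y)) (fun y => f₀ (e y)) := fun ψ hψ ⟨C, hC⟩ => by
  have := hw (fun x => ψ (e.symm x)) (hψ.comp e.symm.measurable) ⟨C, fun x => hC _⟩
  simpa only [← he.integral_comp', MeasurableEquiv.symm_apply_apply] using this

theorem WeakConv.of_L1 (hw : WeakConv μ l f f₀) (hf : ∀ i, Integrable (f i) μ)
    (hg : ∀ i, Integrable (g i) μ)
    (h : Tendsto (fun i => ∫⁻ x, ‖g i x - f i x‖ₑ ∂μ) l (𝓝 0)) : WeakConv μ l g f₀ := fun ψ hψ ⟨C, hC⟩ => by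
  have h1 := ENNReal.Tendsto.mul_const (b := ENNReal.ofReal C) h (Or.inr ENNReal.ofReal_ne_top)
  rw [zero_mul] at h1
  have h2 : Tendsto (fun i => ∫ x, (g i x - f i x) * ψ x ∂μ) l (𝓝 0) := by
    rw [tendsto_zero_iff_enorm_tendsto_zero]
    refine tendsto_of_tendsto_of_tendsto_of_le_of_le tendsto_const_nhds h1 (fun i => zero_le)
      fun i => (enorm_integral_le_lintegral_enorm _).trans ?_
    rw [← lintegral_mul_const' _ _ ENNReal.ofReal_ne_top]
    refine lintegral_mono fun x => ?_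
    rw [enorm_mul]
    exact mul_le_mul_right (wk_enorm_le (hC x)) _
  have := h2.add (hw ψ hψ ⟨C, hC⟩)
  rw [zero_add] at this
  refine this.congr fun i => ?_
  simp only [sub_mul]
  rw [integral_sub (w0_int (hg i) hψ hC) (w0_int (hf i) hψ hC), sub_add_cancel]

theorem weakConv_of_L1 (hf : ∀ i, Integrable (f i) μ) (h₀ : Integrable f₀ μ)
    (h : Tendsto (fun i => ∫⁻ x, ‖f i x - f₀ x‖ₑ ∂μ) l (𝓝 0)) : WeakConv μ l f f₀ :=
  WeakConv.of_L1 (f := fun _ => f₀) (fun _ _ _ => tendsto_const_nhds) (fun _ => h₀) hf h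

theorem WeakConv.sub (hw : WeakConv μ l f f₀) (hw' : WeakConv μ l g g₀)
    (hf : ∀ i, Integrable (f i) μ) (hg : ∀ i, Integrable (g i) μ) (h₀ : Integrable f₀ μ)
    (h₀' : Integrable g₀ μ) :
    WeakConv μ l (fun i x => f i x - g i x) (fun x => f₀ x - g₀ x) := fun ψ hψ ⟨C, hC⟩ => by
  simp only [sub_mul, integral_sub (w0_int (hf _) hψ hC) (w0_int (hg _) hψ hC),
    integral_sub (w0_int h₀ hψ hC) (w0_int h₀' hψ hC)]
  exact (hw ψ hψ ⟨C, hC⟩).sub (hw' ψ hψ ⟨C, hC⟩)

theorem WeakConv.unique [l.NeBot] (hw : WeakConv μ l f f₀) (hw' : WeakConv μ l f g₀)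
    (h₀ : Integrable f₀ μ) (h₀' : Integrable g₀ μ) : f₀ =ᵐ[μ] g₀ :=
  h₀.ae_eq_of_forall_setIntegral_eq _ _ h₀' fun _ hs _ =>
    tendsto_nhds_unique (wk_set hw hs) (wk_set hw' hs)

/-- Lower semicontinuity of the norm. -/
theorem WeakConv.norm_le [l.NeBot] (hw : WeakConv μ l f f₀) (hf : ∀ i, Integrable (f i) μ)
    (h₀ : Integrable f₀ μ) (hm₀ : Measurable f₀) {c : ℝ≥0∞}
    (h : ∀ᶠ i in l, ∫⁻ x, ‖f i x‖ₑ ∂μ ≤ c) : ∫⁻ x, ‖f₀ x‖ₑ ∂μ ≤ c := by
  have hb : ∀ x, |if 0 ≤ f₀ x then (1 : ℝ) else -1| = 1 := fun x => by split_ifs <;> simp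
  have h1 := (ENNReal.continuous_ofReal.tendsto _).comp (hw (fun x => if 0 ≤ f₀ x then 1 else -1)
    (Measurable.ite (measurableSet_le measurable_const hm₀) measurable_const measurable_const)
    ⟨1, fun x => (hb x).le⟩)
  have e : ∀ x, (f₀ x * if 0 ≤ f₀ x then (1 : ℝ) else -1) = ‖f₀ x‖ := fun x => by
    split_ifs with hx
    · rw [mul_one, Real.norm_of_nonneg hx]
    · rw [mul_neg_one, Real.norm_of_nonpos (not_le.1 hx).le]
  simp only [e] at h1
  rw [ofReal_integral_norm_eq_lintegral_enorm h₀] at h1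
  refine le_of_tendsto h1 (h.mono fun i hi => (wk_ofReal_le _).trans
    (le_trans (le_of_eq (lintegral_congr fun x => ?_)) hi))
  rw [enorm_mul, ← ofReal_norm (if 0 ≤ f₀ x then (1 : ℝ) else -1), Real.norm_eq_abs, hb,
    ENNReal.ofReal_one, mul_one]

/-- Lower semicontinuity of nonnegative weighted integrals. -/
theorem WeakConv.lintegral_le [l.NeBot] (hw : WeakConv μ l f f₀) (hf : ∀ i, Integrable (f i) μ)
    (hm : ∀ i, Measurable (f i)) (h₀ : Integrable f₀ μ) (hm₀ : Measurable f₀)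
    (hp : ∀ i x, 0 ≤ f i x) (hp₀ : ∀ x, 0 ≤ f₀ x) {w : α → ℝ} (hwm : Measurable w)
    (hw0 : ∀ x, 0 ≤ w x) : ∫⁻ x, ENNReal.ofReal (w x * f₀ x) ∂μ
      ≤ liminf (fun i => ∫⁻ x, ENNReal.ofReal (w x * f i x) ∂μ) l := by
  have hb : ∀ (m : ℕ) x, 0 ≤ min (w x) m := fun m x => le_min (hw0 x) m.cast_nonneg
  have hb' : ∀ (m : ℕ) x, |min (w x) m| ≤ m := fun m x =>
    (abs_of_nonneg (hb m x)).trans_le (min_le_right _ _)
  have hmm : ∀ m : ℕ, Measurable fun x => min (w x) m := fun m => hwm.min measurable_const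
  calc _ ≤ ∫⁻ x, ⨆ m : ℕ, ENNReal.ofReal (f₀ x * min (w x) m) ∂μ := lintegral_mono fun x =>
        le_iSup_of_le ⌈w x⌉₊ (by rw [min_eq_left (Nat.le_ceil _), mul_comm])
    _ = ⨆ m : ℕ, ∫⁻ x, ENNReal.ofReal (f₀ x * min (w x) m) ∂μ :=
        lintegral_iSup (fun m => (hm₀.mul (hmm m)).ennreal_ofReal) fun m k hk x =>
          ENNReal.ofReal_le_ofReal (mul_le_mul_of_nonneg_left
            (min_le_min_left _ (Nat.cast_le.2 hk)) (hp₀ x))
    _ ≤ _ := iSup_le fun m => ?_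
  have h1 := (ENNReal.continuous_ofReal.tendsto _).comp (hw _ (hmm m) ⟨m, hb' m⟩)
  rw [ofReal_integral_eq_lintegral_ofReal (w0_int h₀ (hmm m) (hb' m))
    (ae_of_all _ fun x => mul_nonneg (hp₀ x) (hb m x))] at h1
  rw [← h1.liminf_eq]
  refine liminf_le_liminf (Eventually.of_forall fun i => ?_)
  rw [Function.comp_apply, ofReal_integral_eq_lintegral_ofReal (w0_int (hf i) (hmm m) (hb' m))
    (ae_of_all _ fun x => mul_nonneg (hp i x) (hb m x))]
  exact lintegral_mono fun x => ENNReal.ofReal_le_ofReal ((mul_comm _ _).trans_le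
    (mul_le_mul_of_nonneg_right (min_le_left _ _) (hp i x)))

/-- Order is preserved in the weak limit. -/
theorem WeakConv.ae_le [l.NeBot] (hw : WeakConv μ l f f₀) (hf : ∀ i, Integrable (f i) μ)
    (h₀ : Integrable f₀ μ) {b : α → ℝ} (hb : Integrable b μ) (hle : ∀ i x, f i x ≤ b x) :
    ∀ᵐ x ∂μ, f₀ x ≤ b x :=
  ae_le_of_forall_setIntegral_le h₀ hb fun _ hs _ => le_of_tendsto' (wk_set hw hs) fun i =>
    integral_mono (hf i).integrableOn hb.integrableOn (hle i)

/-- Adding an unbounded weight. -/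
theorem WeakConv.weight [l.NeBot] (hw : WeakConv μ l f f₀) (hm : ∀ i, Measurable (f i))
    (hf : ∀ i, Integrable (f i) μ) (h₀ : Integrable f₀ μ) (hm₀ : Measurable f₀)
    (hp : ∀ i x, 0 ≤ f i x) (hp₀ : ∀ x, 0 ≤ f₀ x) {w : α → ℝ} (hwm : Measurable w)
    (hw0 : ∀ x, 0 ≤ w x) (hU : UI μ (fun i x => w x * f i x)) :
    Integrable (fun x => w x * f₀ x) μ ∧
      WeakConv μ l (fun i x => w x * f i x) (fun x => w x * f₀ x) := by
  have hi : Integrable (fun x => w x * f₀ x) μ := by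
    obtain ⟨C, -, hC⟩ := hU.bound
    refine ⟨(hwm.mul hm₀).aestronglyMeasurable, (hasFiniteIntegral_iff_ofReal
      (ae_of_all _ fun x => mul_nonneg (hw0 x) (hp₀ x))).2 ?_⟩
    exact (hw.lintegral_le hf hm h₀ hm₀ hp hp₀ hwm hw0).trans_lt
      ((liminf_le_of_frequently_le' (Frequently.of_forall fun i => (lintegral_mono fun x =>
        Real.ofReal_le_enorm _).trans (hC i))).trans_lt ENNReal.ofReal_lt_top)
  refine ⟨hi, fun ψ hψ ⟨C, hC⟩ => ?_⟩
  have hmm : ∀ m : ℕ, Measurable fun x => if w x ≤ m then ψ x else 0 := fun m =>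
    Measurable.ite (measurableSet_le hwm measurable_const) hψ measurable_const
  refine w0_lim hU (fun i => hwm.mul (hm i)) hi hψ hmm hC (fun m x => ?_) (fun x => ?_) fun m => ?_
  · split_ifs
    · exact hC x
    · exact abs_zero.trans_le ((abs_nonneg _).trans (hC x))
  · refine tendsto_const_nhds.congr' ?_
    filter_upwards [tendsto_natCast_atTop_atTop.eventually_ge_atTop (w x)] with k hk
    rw [if_pos hk]
  · have := hw (fun x => w x * if w x ≤ m then ψ x else 0) (hwm.mul (hmm m))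
      ⟨m * |C|, fun x => by
        split_ifs with hx
        · rw [abs_mul, abs_of_nonneg (hw0 x)]
          exact mul_le_mul hx ((hC x).trans (le_abs_self C)) (abs_nonneg _) m.cast_nonneg
        · simpa using by positivity⟩
    simpa only [mul_assoc, mul_left_comm (w _)] using this

end

end Vale.Agent.P140
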