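import Vale.Agent.P140.Flow
import Vale.Agent.P140.Weak
import Vale.Agent.P140.Vers

/-! Velocity averaging for free transport. -/

namespace Vale.Agent.P140

open MeasureTheory Set Filter Topology
open scoped ENNReal RealInnerProductSpace

noncomputable section

namespace AvgL2Aux

section General

variable {α β ι : Type} [MeasurableSpace α] [MeasurableSpace β] {μ : Measure α} {l : Filter ι}

theorem int_bdd [IsFiniteMeasure μ] {f : α → ℝ} (hf : Measurable f) {C : ℝ}
    (hC : ∀ x, |f x| ≤ C) : Integrable f μ :=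
  Integrable.of_bound hf.aestronglyMeasurable C (ae_of_all _ hC)

theorem abs_mul_le {a b A B : ℝ} (ha : |a| ≤ A) (hb : |b| ≤ B) : |a * b| ≤ A * B := by
  rw [abs_mul]; exact mul_le_mul ha hb (abs_nonneg _) ((abs_nonneg _).trans ha)

theorem abs_int_le [IsFiniteMeasure μ] {f : α → ℝ} {C : ℝ} (hC : ∀ x, |f x| ≤ C) :
    |∫ x, f x ∂μ| ≤ C * μ.real univ := by
  rw [← Real.norm_eq_abs]
  exact norm_integral_le_of_norm_le_const (ae_of_all _ hC)

theorem mmul {f g : α → ℝ} (hf : Measurable f) (hg : Measurable g) :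
    Measurable fun x => f x * g x := hf.mul hg

theorem meas_int {ν : Measure β} [SFinite ν] {f : α × β → ℝ} (hf : Measurable f) :
    Measurable fun x => ∫ y, f (x, y) ∂ν :=
  hf.stronglyMeasurable.integral_prod_right'.measurable

/-- Weakly null bounded families are null against integrable functions. -/
theorem weak_int {H : ι → α → ℝ} {C : ℝ} (hw : WeakConv μ l H fun _ => 0)
    (hm : ∀ i, Measurable (H i)) (hC : ∀ i x, |H i x| ≤ C) {ρ : α → ℝ} (hρ : Measurable ρ)
    (hi : Integrable ρ μ) : Tendsto (fun i => ∫ x, H i x * ρ x ∂μ) l (𝓝 0) := by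
  let r : ℕ → α → ℝ := fun n => {x | |ρ x| ≤ n}.indicator ρ
  have hs : ∀ n : ℕ, MeasurableSet {x | |ρ x| ≤ n} := fun n =>
    measurableSet_le hρ.abs measurable_const
  have hrm : ∀ n, Measurable (r n) := fun n => hρ.indicator (hs n)
  have hri : ∀ n, Integrable (r n) μ := fun n => hi.indicator (hs n)
  have hrb : ∀ n x, |r n x| ≤ n := fun n x => by
    by_cases h : |ρ x| ≤ n
    · simp [r, h]
    · simp [r, h]
  have h1 : Tendsto (fun n => ∫ x, |ρ x - r n x| ∂μ) atTop (𝓝 (∫ _, (0 : ℝ) ∂μ)) := by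
    refine tendsto_integral_of_dominated_convergence (fun x => |ρ x|)
      (fun n => (hρ.sub (hrm n)).abs.aestronglyMeasurable) hi.abs
      (fun n => ae_of_all _ fun x => ?_) (ae_of_all _ fun x => ?_)
    · by_cases h : |ρ x| ≤ n <;> simp [r, h]
    · refine tendsto_const_nhds.congr' ?_
      filter_upwards [eventually_ge_atTop ⌈|ρ x|⌉₊] with n hn
      have h : |ρ x| ≤ n := (Nat.le_ceil _).trans (by exact_mod_cast hn)
      simp [r, h]
  rw [integral_zero] at h1
  rw [Metric.tendsto_nhds]
  intro ε hε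
  have h2 : Tendsto (fun n => |C| * ∫ x, |ρ x - r n x| ∂μ) atTop (𝓝 0) := by
    simpa using h1.const_mul |C|
  obtain ⟨n, hn⟩ := (h2.eventually (gt_mem_nhds (half_pos hε))).exists
  have h3 := hw (r n) (hrm n) ⟨n, hrb n⟩
  simp only [zero_mul, integral_zero] at h3
  filter_upwards [Metric.tendsto_nhds.mp h3 _ (half_pos hε)] with i h4
  rw [dist_zero_right, Real.norm_eq_abs] at h4 ⊢
  have hb : ∀ {f : α → ℝ}, Integrable f μ → Integrable (fun x => H i x * f x) μ := fun hf =>
    hf.bdd_mul (hm i).aestronglyMeasurable (ae_of_all _ (hC i))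
  have h5 : ∫ x, H i x * ρ x ∂μ = ∫ x, H i x * r n x ∂μ + ∫ x, H i x * (ρ x - r n x) ∂μ := by
    rw [← integral_add (hb (hri n)) (hb (f := fun x => ρ x - r n x) (hi.sub (hri n)))]
    congr 1 with x; ring
  have h6 : |∫ x, H i x * (ρ x - r n x) ∂μ| ≤ |C| * ∫ x, |ρ x - r n x| ∂μ := by
    rw [← integral_const_mul, ← Real.norm_eq_abs]
    refine norm_integral_le_of_norm_le ((hi.sub (hri n)).abs.const_mul _) (ae_of_all _ fun x => ?_)
    exact abs_mul_le ((hC i x).trans (le_abs_self C)) le_rfl
  rw [h5]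
  linarith [abs_add_le (∫ x, H i x * r n x ∂μ) (∫ x, H i x * (ρ x - r n x) ∂μ)]

/-- Products of a bounded family and a weakly null family, against an absolutely continuous
measure. -/
theorem weak_prod [IsFiniteMeasure μ] {ν : Measure β} [IsFiniteMeasure ν] {a : ι → α → ℝ}
    {h : ι → β → ℝ} {A B : ℝ} (ham : ∀ i, Measurable (a i)) (hhm : ∀ i, Measurable (h i))
    (ha : ∀ i x, |a i x| ≤ A) (hh : ∀ i y, |h i y| ≤ B)
    (hw : ∀ s, MeasurableSet s → Tendsto (fun i => ∫ y in s, h i y ∂ν) l (𝓝 0))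
    {κ : Measure (α × β)} [IsFiniteMeasure κ] (hκ : κ ≪ μ.prod ν) :
    Tendsto (fun i => ∫ q, a i q.1 * h i q.2 ∂κ) l (𝓝 0) := by
  have hm : ∀ i, Measurable fun q : α × β => a i q.1 * h i q.2 := fun i =>
    ((ham i).comp measurable_fst).mul ((hhm i).comp measurable_snd)
  have hb : ∀ i (q : α × β), |a i q.1 * h i q.2| ≤ A * B := fun i q =>
    abs_mul_le (ha i _) (hh i _)
  have key : ∀ s t, MeasurableSet t → Tendsto
      (fun i => ∫ q in s ×ˢ t, a i q.1 * h i q.2 ∂(μ.prod ν)) l (𝓝 0) := fun s t ht => by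
    simp_rw [setIntegral_prod_mul]
    exact bdd_le_mul_tendsto_zero' _ (Eventually.of_forall fun i =>
      (abs_int_le (μ := μ.restrict s) (ha i))) (hw t ht)
  have h1 : WeakConv (μ.prod ν) l (fun i q => a i q.1 * h i q.2) fun _ => 0 := by
    refine weakConv_of_pi (UI.of_le measurable_const (integrable_const (A * B)) hb) hm
      (integrable_zero _ _ _) isPiSystem_prod generateFrom_prod.symm ?_ ?_
    · simpa using key univ univ MeasurableSet.univ
    · rintro _ ⟨s, -, t, ht, rfl⟩
      simpa using key s t ht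
  have h2 := weak_int h1 hm hb (κ.measurable_rnDeriv (μ.prod ν)).ennreal_toReal
    Measure.integrable_toReal_rnDeriv
  refine h2.congr fun i => ?_
  rw [← integral_toReal_rnDeriv_mul hκ]
  simp_rw [mul_comm]

theorem abs_of_sq [IsFiniteMeasure μ] {f : ι → α → ℝ} {C : ℝ} (hm : ∀ i, Measurable (f i))
    (hC : ∀ i x, |f i x| ≤ C) (h : Tendsto (fun i => ∫ x, f i x * f i x ∂μ) l (𝓝 0)) :
    Tendsto (fun i => ∫ x, |f i x| ∂μ) l (𝓝 0) := by
  rw [Metric.tendsto_nhds]
  intro ε hε
  have hμ : 0 ≤ μ.real univ := measureReal_nonneg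
  set δ := ε / (2 * (μ.real univ + 1)) with hδ
  have hδ0 : 0 < δ := by positivity
  have h1 : δ * μ.real univ < ε / 2 := by
    rw [hδ, div_mul_eq_mul_div, div_lt_div_iff₀ (by positivity) (by positivity)]
    nlinarith
  filter_upwards [h.eventually (gt_mem_nhds (show 0 < ε / 2 * δ by positivity))] with i hi
  rw [dist_zero_right, Real.norm_eq_abs, abs_of_nonneg (integral_nonneg fun x => abs_nonneg _)]
  have h2 := int_bdd (μ := μ) (mmul (hm i) (hm i)) fun x => abs_mul_le (hC i x) (hC i x)
  have h3 : ∫ x, |f i x| ∂μ ≤ ∫ x, (δ + f i x * f i x / δ) ∂μ := by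
    refine integral_mono (int_bdd (hm i) (hC i)).abs ((integrable_const δ).add (h2.div_const δ))
      fun x => ?_
    have h4 : f i x * f i x = |f i x| * |f i x| := (abs_mul_abs_self _).symm
    have h5 : |f i x| - δ ≤ f i x * f i x / δ := by
      rw [le_div_iff₀ hδ0, h4]; nlinarith [sq_nonneg (|f i x| - δ), abs_nonneg (f i x)]
    simp only
    linarith
  rw [integral_add (integrable_const δ) (h2.div_const δ), integral_const, integral_div,
    smul_eq_mul] at h3
  have h4 : (∫ x, f i x * f i x ∂μ) / δ < ε / 2 := by rwa [div_lt_iff₀ hδ0]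
  linarith

end General

/-- The Maxwellian as a probability measure. -/
def gam : Measure V := volume.withDensity fun v => ENNReal.ofReal (Mx v)

instance : IsProbabilityMeasure gam := ⟨by simp [gam, lintegral_Mx]⟩

theorem integral_gam (f : V → ℝ) : ∫ v, f v ∂gam = ∫ v, Mx v * f v := by
  rw [gam, integral_withDensity_eq_integral_toReal_smul
    continuous_Mx.measurable.ennreal_ofReal (ae_of_all _ fun v => ENNReal.ofReal_lt_top)]
  simp_rw [ENNReal.toReal_ofReal (Mx_pos _).le, smul_eq_mul]

/-- The Maxwellian measure on phase space. -/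
abbrev Gam : Measure Ph := (volume : Measure T3).prod gam

theorem mp_fl (s : ℝ) : MeasurePreserving (fl s) Gam Gam := by
  have h1 : MeasurePreserving (fun p : V × T3 => (id p.1, p.2 + pr (s • p.1)))
      (gam.prod volume) (gam.prod volume) := by
    refine (MeasurePreserving.id gam).skew_product (g := fun v x => x + pr (s • v)) ?_
      (ae_of_all _ fun v => map_add_right_eq_self _ _)
    exact measurable_snd.add (continuous_pr.measurable.comp (measurable_fst.const_smul s))
  exact (Measure.measurePreserving_swap.comp h1).comp Measure.measurePreserving_swap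

theorem integral_fl_Gam (s : ℝ) {f : Ph → ℝ} (hf : Measurable f) :
    ∫ z, f (fl s z) ∂Gam = ∫ z, f z ∂Gam := by
  rw [← integral_map (mp_fl s).measurable.aemeasurable hf.aestronglyMeasurable, (mp_fl s).map_eq]

theorem qmp_pr : Measure.QuasiMeasurePreserving pr volume volume := by
  have h1 : Measure.QuasiMeasurePreserving
      (fun (y : Fin 3 → ℝ) (i : Fin 3) => ((y i : ℝ) : UnitAddCircle)) volume volume := by
    have hm : Measurable (fun (y : Fin 3 → ℝ) (i : Fin 3) => ((y i : ℝ) : UnitAddCircle)) :=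
      measurable_pi_lambda _ fun i => AddCircle.measurable_mk'.comp (measurable_pi_apply i)
    refine ⟨hm, Measure.AbsolutelyContinuous.mk fun s hs h0 => ?_⟩
    rw [Measure.map_apply hm hs]
    have h2 : (⋃ k : Fin 3 → ℤ, univ.pi fun i => Ioc (k i : ℝ) (k i + 1)) = univ := by
      refine eq_univ_of_forall fun y => mem_iUnion.mpr ⟨fun i => ⌈y i⌉ - 1, fun i _ => ?_⟩
      push_cast
      exact ⟨by linarith [Int.ceil_lt_add_one (y i)], by linarith [Int.le_ceil (y i)]⟩
    rw [← inter_univ (_ ⁻¹' s), ← h2, inter_iUnion]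
    refine measure_iUnion_null fun k => ?_
    have h3 := measurePreserving_pi _ _ fun i : Fin 3 => AddCircle.measurePreserving_mk 1 (k i : ℝ)
    rw [← Measure.restrict_pi_pi] at h3
    rw [← Measure.restrict_apply (hm hs)]
    exact (h3.measure_preimage hs.nullMeasurableSet).trans h0
  exact h1.comp (PiLp.volume_preserving_ofLp (Fin 3)).quasiMeasurePreserving

/-- The parameter space `((s, s'), x)`. -/
abbrev Om : Type := (ℝ × ℝ) × T3

/-- The measure on the parameter space. -/
abbrev PT (T : ℝ) : Measure Om := ((muT T).prod (muT T)).prod volume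

/-- Two successive transports. -/
def Psi (q : Om × V × V) : Om × Ph :=
  (q.1, fl (-q.1.1.2) ((fl (q.1.1.2 - q.1.1.1) (q.1.2, q.2.1)).1, q.2.2))

theorem meas_fl {X : Type} [MeasurableSpace X] {s : X → ℝ} {z : X → Ph} (hs : Measurable s)
    (hz : Measurable z) : Measurable fun x => fl (s x) (z x) :=
  measurable_fl.comp (hs.prodMk hz)

theorem meas_Psi : Measurable Psi :=
  measurable_fst.prodMk (meas_fl (by fun_prop)
    ((meas_fl (by fun_prop) (by fun_prop)).fst.prodMk (by fun_prop)))

theorem Psi_ac (T : ℝ) : ((PT T).prod (gam.prod gam)).map Psi ≪ (PT T).prod Gam := by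
  refine Measure.AbsolutelyContinuous.mk fun N hN h0 => ?_
  rw [Measure.map_apply meas_Psi hN, Measure.measure_prod_null (meas_Psi hN)]
  have h1 : ∀ᵐ p : ℝ × ℝ ∂(muT T).prod (muT T), p.2 - p.1 ≠ 0 := by
    have h2 : MeasurableSet {p : ℝ × ℝ | p.2 - p.1 = 0} :=
      measurableSet_eq_fun (by fun_prop) measurable_const
    refine (Measure.ae_prod_iff_ae_ae h2.compl).mpr (ae_of_all _ fun s => ?_)
    filter_upwards [(Set.countable_singleton s).ae_notMem (muT T)] with t ht
    exact sub_ne_zero.mpr ht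
  filter_upwards [(Measure.measure_prod_null hN).mp h0,
    (Measure.quasiMeasurePreserving_fst (ν := (volume : Measure T3))).ae h1] with p hp hτ
  have h2 : Measure.QuasiMeasurePreserving (fun v : V => p.2 + pr ((p.1.2 - p.1.1) • v))
      gam volume :=
    (((measurePreserving_add_left volume p.2).quasiMeasurePreserving.comp qmp_pr).comp
      (Measure.quasiMeasurePreserving_smul volume hτ)).mono_left
      (withDensity_absolutelyContinuous _ _)
  have h3 := QuasiMeasurePreserving.prodMap h2 (Measure.QuasiMeasurePreserving.id gam)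
  exact ((mp_fl (-p.1.2)).quasiMeasurePreserving.comp h3).preimage_null hp

/-- Velocity average of the transported function. -/
def av (h : Ph → ℝ) (p : ℝ × T3) : ℝ := ∫ v, h (fl (-p.1) (p.2, v)) ∂gam

/-- Time integral along characteristics. -/
def ch (T : ℝ) (a : ℝ × T3 → ℝ) (z : Ph) : ℝ := ∫ s, a (s, (fl s z).1) ∂(muT T)

section Steps

variable {h : Ph → ℝ} {a : ℝ × T3 → ℝ} {L A T : ℝ}

theorem meas_av (hm : Measurable h) : Measurable (av h) :=
  meas_int (f := fun q : (ℝ × T3) × V => h (fl (-q.1.1) (q.1.2, q.2)))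
    (hm.comp (meas_fl (by fun_prop) (by fun_prop)))

theorem abs_av_le (hb : ∀ z, |h z| ≤ L) (p : ℝ × T3) : |av h p| ≤ L := by
  simpa [av] using abs_int_le (μ := gam) fun v => hb (fl (-p.1) (p.2, v))

theorem meas_ch (ha : Measurable a) : Measurable (ch T a) :=
  meas_int (f := fun q : Ph × ℝ => a (q.2, (fl q.2 q.1).1))
    (ha.comp (measurable_snd.prodMk (meas_fl measurable_snd measurable_fst).fst))

theorem abs_ch_le (hA : ∀ p, |a p| ≤ A) (z : Ph) : |ch T a z| ≤ A * (muT T).real univ :=
  abs_int_le fun _ => hA _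

theorem step2 (hm : Measurable h) (hb : ∀ z, |h z| ≤ L) (ha : Measurable a)
    (hA : ∀ p, |a p| ≤ A) :
    ∫ p, a p * av h p ∂(mu2 T) = ∫ z, h z * ch T a z ∂Gam := by
  rw [integral_prod _ (int_bdd (mmul ha (meas_av hm)) fun p => abs_mul_le (hA p) (abs_av_le hb p))]
  have h1 : ∀ s : ℝ, ∫ x, a (s, x) * av h (s, x) = ∫ z, h z * a (s, (fl s z).1) ∂Gam := by
    intro s
    have hf : Measurable fun z : Ph => a (s, z.1) * h (fl (-s) z) :=
      (ha.comp (by fun_prop)).mul (hm.comp (measurable_fl_right _))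
    have h2 := integral_fl_Gam s hf
    simp only [fl_neg_fl] at h2
    simp_rw [mul_comm (h _)]
    rw [h2, integral_prod _ (int_bdd hf fun z => abs_mul_le (hA _) (hb _))]
    simp_rw [av, integral_const_mul]
  simp_rw [h1]
  have h3 : Measurable fun q : ℝ × Ph => h q.2 * a (q.1, (fl q.1 q.2).1) :=
    mmul (hm.comp measurable_snd)
      (ha.comp (measurable_fst.prodMk (meas_fl measurable_fst measurable_snd).fst))
  have h4 := integral_integral_swap (μ := muT T) (ν := Gam)
    (f := fun s z => h z * a (s, (fl s z).1)) (int_bdd h3 fun q => abs_mul_le (hb _) (hA _))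
  rw [h4]
  simp_rw [ch, integral_const_mul]

theorem step3a (hm : Measurable h) (hb : ∀ z, |h z| ≤ L) (ha : Measurable a)
    (hA : ∀ p, |a p| ≤ A) (p : ℝ × ℝ) :
    ∫ z, a (p.1, (fl p.1 z).1) * av h (p.2, (fl p.2 z).1) ∂Gam
      = ∫ x, ∫ q, a (p.1, x) * h (Psi ((p, x), q)).2 ∂(gam.prod gam) := by
  have hf : Measurable fun z : Ph => a (p.1, z.1) * av h (p.2, (fl (p.2 - p.1) z).1) :=
    mmul (ha.comp (measurable_const.prodMk measurable_fst))
      ((meas_av hm).comp (measurable_const.prodMk (measurable_fl_right _).fst))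
  have h2 := integral_fl_Gam p.1 hf
  simp only [fl_add, sub_add_cancel] at h2
  rw [h2, integral_prod _ (int_bdd hf fun z => abs_mul_le (hA _) (abs_av_le hb _))]
  congr 1 with x
  have h3 : Measurable fun q : V × V => h (Psi ((p, x), q)).2 :=
    hm.comp (meas_Psi.comp measurable_prodMk_left).snd
  dsimp only
  rw [integral_const_mul, integral_const_mul, integral_prod _ (int_bdd h3 fun q => hb _)]
  rfl

theorem step3b (hm : Measurable h) (hb : ∀ z, |h z| ≤ L) (ha : Measurable a)
    (hA : ∀ p, |a p| ≤ A) :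
    ∫ q, a (q.1.1.1, q.1.2) * h q.2 ∂(((PT T).prod (gam.prod gam)).map Psi)
      = ∫ p : ℝ × ℝ, ∫ x, ∫ q, a (p.1, x) * h (Psi ((p, x), q)).2 ∂(gam.prod gam) ∂volume
        ∂((muT T).prod (muT T)) := by
  have hF : Measurable fun q : Om × Ph => a (q.1.1.1, q.1.2) * h q.2 :=
    mmul (ha.comp (measurable_fst.fst.fst.prodMk measurable_fst.snd)) (hm.comp measurable_snd)
  have hG : Measurable fun q : Om × V × V => a (q.1.1.1, q.1.2) * h (Psi q).2 :=
    mmul (ha.comp (measurable_fst.fst.fst.prodMk measurable_fst.snd)) (hm.comp meas_Psi.snd)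
  have hb' : ∀ q : Om × V × V, |a (q.1.1.1, q.1.2) * h (Psi q).2| ≤ A * L := fun q =>
    abs_mul_le (hA _) (hb _)
  have h1 : ∫ q, a (q.1.1.1, q.1.2) * h q.2 ∂(((PT T).prod (gam.prod gam)).map Psi)
      = ∫ q, a (q.1.1.1, q.1.2) * h (Psi q).2 ∂((PT T).prod (gam.prod gam)) :=
    integral_map meas_Psi.aemeasurable hF.aestronglyMeasurable
  have h2 := integral_prod (μ := PT T) (ν := gam.prod gam) _ (int_bdd hG hb')
  have h3 := integral_prod (μ := (muT T).prod (muT T)) (ν := (volume : Measure T3)) _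
    (int_bdd (meas_int (ν := gam.prod gam) hG) fun p => abs_int_le fun q => hb' (p, q))
  rw [h1, h2, h3]

theorem step3c {b : ℝ × T3 → ℝ} {B : ℝ} (ha : Measurable a) (hA : ∀ p, |a p| ≤ A)
    (hb : Measurable b) (hB : ∀ p, |b p| ≤ B) :
    ∫ z, ch T a z * ch T b z ∂Gam = ∫ p : ℝ × ℝ, ∫ z, a (p.1, (fl p.1 z).1) * b (p.2, (fl p.2 z).1)
      ∂Gam ∂((muT T).prod (muT T)) := by
  have h4 : Measurable fun q : Ph × ℝ × ℝ =>
      a (q.2.1, (fl q.2.1 q.1).1) * b (q.2.2, (fl q.2.2 q.1).1) :=
    mmul (ha.comp (measurable_snd.fst.prodMk (meas_fl measurable_snd.fst measurable_fst).fst))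
      (hb.comp (measurable_snd.snd.prodMk (meas_fl measurable_snd.snd measurable_fst).fst))
  have h5 := integral_integral_swap (μ := Gam) (ν := (muT T).prod (muT T))
    (f := fun (z : Ph) (p : ℝ × ℝ) => a (p.1, (fl p.1 z).1) * b (p.2, (fl p.2 z).1))
    (int_bdd h4 fun q => abs_mul_le (hA _) (hB _))
  rw [← h5]
  congr 1 with z
  exact (integral_prod_mul (fun s => a (s, (fl s z).1)) (fun s => b (s, (fl s z).1))).symm

theorem step3 (hm : Measurable h) (hb : ∀ z, |h z| ≤ L) :
    ∫ z, ch T (av h) z * ch T (av h) z ∂Gam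
      = ∫ q, av h (q.1.1.1, q.1.2) * h q.2 ∂(((PT T).prod (gam.prod gam)).map Psi) := by
  have ha := meas_av hm
  have hA := abs_av_le hb
  rw [step3b hm hb ha hA, step3c ha hA ha hA]
  congr 1 with p
  exact step3a hm hb ha hA p

end Steps

end AvgL2Aux

open AvgL2Aux in
/-- Velocity averages of the free transport of a weakly null family dominated by a Maxwellian
tend to zero strongly. -/
theorem avg_free {ι : Type} {l : Filter ι} {g : ι → Ph → ℝ} {L : ℝ} (hm : ∀ i, Measurable (g i))
    (hb : ∀ i (z : Ph), |g i z| ≤ L * Mx z.2) (hw : WeakConv volume l g (fun _ => 0)) (T : ℝ) :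
    Tendsto (fun i => ∫⁻ p : ℝ × T3, ‖∫ v, g i (fl (-p.1) (p.2, v))‖ₑ ∂(mu2 T)) l (𝓝 0) := by
  let h : ι → Ph → ℝ := fun i z => g i z / Mx z.2
  have hMm : Measurable fun z : Ph => Mx z.2 := continuous_Mx.measurable.comp measurable_snd
  have hhm : ∀ i, Measurable (h i) := fun i => (hm i).div hMm
  have hhb : ∀ i z, |h i z| ≤ L := fun i z => by
    rw [abs_div, abs_of_pos (Mx_pos _), div_le_iff₀ (Mx_pos _)]
    exact hb i z
  have hMh : ∀ i z, Mx z.2 * h i z = g i z := fun i z => mul_div_cancel₀ _ (Mx_pos _).ne'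
  have hgi : ∀ i, Integrable (g i) := fun i =>
    ((integrable_pow_Mx_Ph 0).const_mul L).mono' (hm i).aestronglyMeasurable
      (ae_of_all _ fun z => by simpa using hb i z)
  have h1 : ∀ s, MeasurableSet s → Tendsto (fun i => ∫ z in s, h i z ∂Gam) l (𝓝 0) := by
    intro s hs
    have h2 := hw (s.indicator 1) (measurable_one.indicator hs)
      ⟨1, fun z => by by_cases hz : z ∈ s <;> simp [hz]⟩
    simp only [zero_mul, integral_zero] at h2
    refine h2.congr fun i => ?_
    have h3 : (fun z => g i z * s.indicator 1 z) = s.indicator (g i) := by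
      ext z; by_cases hz : z ∈ s <;> simp [hz]
    rw [h3, ← integral_indicator hs, integral_prod _ ((int_bdd (hhm i) (hhb i)).indicator hs),
      Measure.volume_eq_prod, integral_prod _ ((hgi i).indicator hs)]
    congr 1 with x
    rw [integral_gam]
    congr 1 with v
    by_cases hz : (x, v) ∈ s
    · simp only [indicator_of_mem hz]
      exact (hMh i (x, v)).symm
    · simp [hz]
  have h2 := weak_prod (μ := PT T) (a := fun i p => av (h i) (p.1.1, p.2))
    (fun i => (meas_av (hhm i)).comp (by fun_prop)) hhm (fun i p => abs_av_le (hhb i) _) hhb h1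
    (Psi_ac T)
  have h3 := abs_of_sq (fun i => meas_ch (meas_av (hhm i)))
    (fun i => abs_ch_le (T := T) (abs_av_le (hhb i))) (h2.congr fun i => (step3 (hhm i) (hhb i)).symm)
  have h4 : Tendsto (fun i => ∫ p, av (h i) p * av (h i) p ∂(mu2 T)) l (𝓝 0) := by
    refine squeeze_zero_norm (fun i => ?_) (by simpa using h3.const_mul L)
    rw [step2 (hhm i) (hhb i) (meas_av (hhm i)) (abs_av_le (hhb i)), ← integral_const_mul]
    refine norm_integral_le_of_norm_le ((int_bdd (meas_ch (meas_av (hhm i)))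
      (abs_ch_le (abs_av_le (hhb i)))).abs.const_mul _) (ae_of_all _ fun z => ?_)
    exact abs_mul_le (hhb i z) le_rfl
  have h5 := ENNReal.tendsto_ofReal
    (abs_of_sq (fun i => meas_av (hhm i)) (fun i => abs_av_le (hhb i)) h4)
  rw [ENNReal.ofReal_zero] at h5
  refine h5.congr fun i => ?_
  refine (ofReal_integral_norm_eq_lintegral_enorm
    (int_bdd (meas_av (hhm i)) (abs_av_le (hhb i)))).trans ?_
  congr 1 with p
  rw [av, integral_gam]
  congr 2 with v
  exact hMh i (fl (-p.1) (p.2, v))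

end

end Vale.Agent.P140
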