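import Vale.Agent.P140.Limit
import Vale.Agent.P140.AvgL2

/-! Strong convergence of velocity averages. -/

namespace Vale.Agent.P140

open MeasureTheory Set Filter Topology
open scoped ENNReal RealInnerProductSpace

noncomputable section

variable {F₀ : Ph → ℝ} {S : Seq F₀} {U : Ultrafilter ℕ} {F : ℝ → Ph → ℝ}

theorem avg_tz {ι : Type} {l : Filter ι} {u : ι → ℝ≥0∞} {K : ℝ≥0∞} (hK : K ≠ ⊤)
    (h : ∀ η : ℝ, 0 < η → ∀ᶠ i in l, u i ≤ ENNReal.ofReal η * K) : Tendsto u l (𝓝 0) := by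
  refine ENNReal.tendsto_nhds_zero.2 fun e he => ?_
  have h1 : Tendsto (fun η : ℝ => ENNReal.ofReal η * K) (𝓝[>] 0) (𝓝 (ENNReal.ofReal 0 * K)) :=
    ENNReal.Tendsto.mul_const ((ENNReal.continuous_ofReal.tendsto 0).mono_left nhdsWithin_le_nhds)
      (Or.inr hK)
  rw [ENNReal.ofReal_zero, zero_mul] at h1
  obtain ⟨η, h2, h3⟩ := ((h1.eventually (gt_mem_nhds he)).and self_mem_nhdsWithin).exists
  exact (h η h3).mono fun i hi => hi.trans h2.le

theorem avg_assoc (T : ℝ) {a : ℝ × Ph → ℝ≥0∞} (ha : Measurable a) :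
    ∫⁻ p : ℝ × T3, (∫⁻ v, a (p.1, p.2, v)) ∂(mu2 T) = ∫⁻ t in Ioc 0 T, ∫⁻ z, a (t, z) := by
  have h1 : Measurable fun q : (ℝ × T3) × V => a (q.1.1, q.1.2, q.2) := by fun_prop
  rw [lintegral_prod _ h1.lintegral_prod_right'.aemeasurable]
  refine lintegral_congr fun t => ?_
  rw [Measure.volume_eq_prod, lintegral_prod _ (by fun_prop)]

/-- Jointly measurable with integrable time slices. -/
structure AvG (T : ℝ) (u : ℝ → Ph → ℝ) : Prop where
  meas : Measurable fun p : ℝ × Ph => u p.1 p.2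
  int : ∀ t ∈ Ioc 0 T, Integrable (u t)

/-- Distance of velocity averages. -/
def avD (T : ℝ) (u w : ℝ → Ph → ℝ) : ℝ≥0∞ :=
  ∫⁻ p : ℝ × T3, ‖(∫ v, u p.1 (p.2, v)) - ∫ v, w p.1 (p.2, v)‖ₑ ∂(mu2 T)

theorem avg_meas {u : ℝ → Ph → ℝ} (hu : Measurable fun p : ℝ × Ph => u p.1 p.2) :
    Measurable fun p : ℝ × T3 => ∫ v, u p.1 (p.2, v) :=
  (StronglyMeasurable.integral_prod_right' (f := fun q : (ℝ × T3) × V => u q.1.1 (q.1.2, q.2))
    (hu.comp (measurable_fst.fst.prodMk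
      (measurable_fst.snd.prodMk measurable_snd))).stronglyMeasurable).measurable

theorem avD_meas {u w : ℝ → Ph → ℝ} (hu : Measurable fun p : ℝ × Ph => u p.1 p.2)
    (hw : Measurable fun p : ℝ × Ph => w p.1 p.2) :
    Measurable fun p : ℝ × T3 => ‖(∫ v, u p.1 (p.2, v)) - ∫ v, w p.1 (p.2, v)‖ₑ :=
  ((avg_meas hu).fun_sub (avg_meas hw)).enorm

theorem avD_le {T : ℝ} {u w : ℝ → Ph → ℝ} (hu : AvG T u) (hw : AvG T w) {c : ℝ≥0∞}
    (h : ∀ t ∈ Ioc 0 T, ∫⁻ z, ‖u t z - w t z‖ₑ ≤ c) : avD T u w ≤ c * ENNReal.ofReal T := by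
  rw [avD, lintegral_prod _ (avD_meas hu.meas hw.meas).aemeasurable]
  refine (setLIntegral_mono' measurableSet_Ioc (g := fun _ => c) fun t ht => ?_).trans (by simp)
  refine le_trans ?_ (h t ht)
  have h1 := hu.int t ht
  have h2 := hw.int t ht
  rw [Measure.volume_eq_prod] at h1 h2 ⊢
  rw [lintegral_prod _ (h1.aemeasurable.fun_sub h2.aemeasurable).enorm]
  refine lintegral_mono_ae ?_
  filter_upwards [h1.prod_right_ae, h2.prod_right_ae] with x a1 a2
  rw [← integral_sub a1 a2]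
  exact enorm_integral_le_lintegral_enorm _

theorem avD_tri {T : ℝ} {u w y : ℝ → Ph → ℝ} (hu : AvG T u) (hw : AvG T w) :
    avD T u y ≤ avD T u w + avD T w y := by
  rw [avD, avD, avD, ← lintegral_add_left (avD_meas hu.meas hw.meas)]
  refine lintegral_mono fun p => ?_
  rw [← edist_eq_enorm_sub, ← edist_eq_enorm_sub]
  exact (edist_triangle _ _ _).trans (add_le_add (edist_eq_enorm_sub _ _).le le_rfl)

theorem avg_approx {ι : Type} {l : Filter ι} {T : ℝ} {u : ι → ℝ → Ph → ℝ} {u₀ : ℝ → Ph → ℝ}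
    (hu : ∀ i, AvG T (u i)) (hu₀ : AvG T u₀)
    (h : ∀ ε : ℝ, 0 < ε → ∃ (w : ι → ℝ → Ph → ℝ) (w₀ : ℝ → Ph → ℝ), (∀ i, AvG T (w i)) ∧
      AvG T w₀ ∧ (∀ᶠ i in l, ∀ t ∈ Ioc 0 T, ∫⁻ z, ‖u i t z - w i t z‖ₑ ≤ ENNReal.ofReal ε) ∧
      (∀ t ∈ Ioc 0 T, ∫⁻ z, ‖u₀ t z - w₀ t z‖ₑ ≤ ENNReal.ofReal ε) ∧
      Tendsto (fun i => avD T (w i) w₀) l (𝓝 0)) :
    Tendsto (fun i => avD T (u i) u₀) l (𝓝 0) := by
  refine avg_tz (K := ENNReal.ofReal T + (1 + ENNReal.ofReal T)) (by finiteness) fun ε hε => ?_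
  obtain ⟨w, w₀, h1, h2, h3, h4, h5⟩ := h ε hε
  filter_upwards [h3, ENNReal.tendsto_nhds_zero.1 h5 _ (ENNReal.ofReal_pos.2 hε)] with i a1 a2
  rw [mul_add, mul_add, mul_one]
  refine (avD_tri (hu i) (h1 i)).trans (add_le_add (avD_le (hu i) (h1 i) a1)
    ((avD_tri (h1 i) h2).trans (add_le_add a2 (avD_le h2 hu₀ fun t ht => ?_))))
  simpa only [enorm_sub_rev] using h4 t ht

theorem avg_good_fl {T C : ℝ} {f : Ph → ℝ} {φ : V → ℝ} (hm : Measurable f) (hi : Integrable f)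
    (hφ : Measurable φ) (hC : ∀ v, |φ v| ≤ C) : AvG T fun t z => f (fl (-t) z) * φ z.2 :=
  ⟨(hm.comp (measurable_fl.comp (measurable_fst.neg.prodMk measurable_snd))).mul
      (hφ.comp measurable_snd.snd),
    fun _ _ => ((integrable_fl _).2 hi).mul_bdd (hφ.comp measurable_snd).aestronglyMeasurable
      (Eventually.of_forall fun z => hC z.2)⟩

theorem avg_err {C ε : ℝ} {f g : Ph → ℝ} {φ : V → ℝ} (hC : ∀ v, |φ v| ≤ C) (_hε : 0 < ε)
    (h : ∫⁻ z, ‖f z - g z‖ₑ ≤ ENNReal.ofReal (ε / (C + 1))) :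
    ∫⁻ z : Ph, ‖f z * φ z.2 - g z * φ z.2‖ₑ ≤ ENNReal.ofReal ε := by
  have hC0 : 0 ≤ C := (abs_nonneg _).trans (hC 0)
  calc ∫⁻ z : Ph, ‖f z * φ z.2 - g z * φ z.2‖ₑ
      ≤ ∫⁻ z : Ph, ENNReal.ofReal (C + 1) * ‖f z - g z‖ₑ := by
        refine lintegral_mono fun z => ?_
        rw [← sub_mul, enorm_mul, mul_comm, ← ofReal_norm (φ _)]
        exact mul_le_mul_left (ENNReal.ofReal_le_ofReal ((hC _).trans (by linarith))) _
    _ ≤ ENNReal.ofReal (C + 1) * ENNReal.ofReal (ε / (C + 1)) := by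
        rw [lintegral_const_mul' _ _ ENNReal.ofReal_ne_top]
        exact mul_le_mul_right h _
    _ = _ := by rw [← ENNReal.ofReal_mul (by linarith), mul_div_cancel₀ _ (by linarith)]

/-- Averaging for the free transport of a weakly convergent uniformly integrable family. -/
theorem avg_free_L1 {f : ℕ → Ph → ℝ} {f₀ : Ph → ℝ} (hm : ∀ k, Measurable (f k))
    (h0 : ∀ k z, 0 ≤ f k z) (hm₀ : Measurable f₀) (hi₀ : Integrable f₀)
    (hi : ∀ k, Integrable (f k))
    (htail : ∀ ε : ℝ, 0 < ε → ∃ L : ℝ, ∀ k,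
      ∫⁻ z : Ph, ENNReal.ofReal (f k z - L * Mx z.2) ≤ ENNReal.ofReal ε)
    (hw : WeakConv volume (U : Filter ℕ) f f₀) {φ : V → ℝ} (hφ : Measurable φ) {C : ℝ}
    (hC : ∀ v, |φ v| ≤ C) (T : ℝ) :
    Tendsto (fun k => ∫⁻ p : ℝ × T3, ‖(∫ v, f k (fl (-p.1) (p.2, v)) * φ v)
      - ∫ v, f₀ (fl (-p.1) (p.2, v)) * φ v‖ₑ ∂(mu2 T)) (U : Filter ℕ) (𝓝 0) := by
  have hC0 : 0 ≤ C := (abs_nonneg _).trans (hC 0)
  have hMm : Measurable fun z : Ph => Mx z.2 := continuous_Mx.measurable.comp measurable_snd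
  have hMi : Integrable fun z : Ph => Mx z.2 := by simpa using integrable_pow_Mx_Ph 0
  refine avg_approx (u := fun k t z => f k (fl (-t) z) * φ z.2)
    (u₀ := fun t z => f₀ (fl (-t) z) * φ z.2) (fun k => avg_good_fl (hm k) (hi k) hφ hC)
    (avg_good_fl hm₀ hi₀ hφ hC) fun ε hε => ?_
  obtain ⟨L, hL⟩ := htail (ε / (C + 1)) (by positivity)
  have hLM : ∀ z : Ph, 0 ≤ |L| * Mx z.2 := fun z => mul_nonneg (abs_nonneg _) (Mx_pos _).le
  let b : ℕ → Ph → ℝ := fun k z => min (f k z) (|L| * Mx z.2)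
  have hbm : ∀ k, Measurable (b k) := fun k => (hm k).min (hMm.const_mul _)
  have hb0 : ∀ k z, 0 ≤ b k z := fun k z => le_min (h0 k z) (hLM z)
  have hUI : UI volume b := UI.of_le (hMm.const_mul |L|) (hMi.const_mul _) fun k z => by
    rw [abs_of_nonneg (hb0 k z)]
    exact min_le_right _ _
  have hbi := hUI.integrable hbm
  obtain ⟨b₀, m0, p0, i0, w0⟩ := exists_weakConv U hUI hbm hb0
  have hle := w0.ae_le hbi i0 (hMi.const_mul |L|) fun k z => min_le_right _ _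
  let b₁ : Ph → ℝ := fun z => min (b₀ z) (|L| * Mx z.2)
  have e1 : b₀ =ᵐ[volume] b₁ := hle.mono fun z hz => (min_eq_left hz).symm
  have m1 : Measurable b₁ := m0.min (hMm.const_mul _)
  have i1 : Integrable b₁ := i0.congr e1
  have p1 : ∀ z, 0 ≤ b₁ z := fun z => le_min (p0 z) (hLM z)
  have w1 : WeakConv volume (U : Filter ℕ) b b₁ := fun ψ h1 h2 => by
    have e2 : ∫ x, b₁ x * ψ x = ∫ x, b₀ x * ψ x :=
      integral_congr_ae (e1.mono fun x hx => by simp only [hx])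
    rw [e2]
    exact w0 ψ h1 h2
  have n1 : ∀ k, ∫⁻ z, ‖f k z - b k z‖ₑ ≤ ENNReal.ofReal (ε / (C + 1)) := fun k => by
    refine le_trans (lintegral_mono fun z => ?_) (hL k)
    rcases le_total (f k z) (|L| * Mx z.2) with h1 | h1
    · simp [b, h1]
    · simp only [b, min_eq_right h1]
      rw [Real.enorm_eq_ofReal (sub_nonneg.2 h1)]
      exact ENNReal.ofReal_le_ofReal (sub_le_sub_left
        (mul_le_mul_of_nonneg_right (le_abs_self L) (Mx_pos _).le) _)
  have n2 := (hw.sub w1 hi hbi hi₀ i1).norm_le (fun k => (hi k).sub (hbi k)) (hi₀.sub i1)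
    (hm₀.sub m1) (Eventually.of_forall n1)
  refine ⟨fun k t z => b k (fl (-t) z) * φ z.2, fun t z => b₁ (fl (-t) z) * φ z.2,
    fun k => avg_good_fl (hbm k) (hbi k) hφ hC, avg_good_fl m1 i1 hφ hC,
    Eventually.of_forall fun k t _ => avg_err hC hε ?_, fun t _ => avg_err hC hε ?_, ?_⟩
  · exact (lintegral_fl (-t) fun z => ‖f k z - b k z‖ₑ).trans_le (n1 k)
  · exact (lintegral_fl (-t) fun z => ‖f₀ z - b₁ z‖ₑ).trans_le n2
  · have h1 := avg_free (g := fun k z => (b k z - b₁ z) * φ z.2) (L := |L| * C)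
      (l := (U : Filter ℕ)) (fun k => ((hbm k).sub m1).mul (hφ.comp measurable_snd))
      (fun k z => by
        have a1 : |b k z - b₁ z| ≤ |L| * Mx z.2 := by
          rw [abs_le]
          constructor <;> linarith [hb0 k z, p1 z, min_le_right (f k z) (|L| * Mx z.2),
            min_le_right (b₀ z) (|L| * Mx z.2)]
        rw [abs_mul, mul_right_comm]
        exact mul_le_mul a1 (hC _) (abs_nonneg _) (hLM z))
      (fun ψ h1 ⟨D, h2⟩ => by
        have a1 := (w1.sub (g := fun _ => b₁) (fun _ _ _ => tendsto_const_nhds) hbi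
          (fun _ => i1) i1 i1) (fun z => φ z.2 * ψ z) ((hφ.comp measurable_snd).mul h1)
          ⟨C * D, fun z => by
            rw [abs_mul]
            exact mul_le_mul (hC _) (h2 z) (abs_nonneg _) hC0⟩
        simpa only [sub_self, zero_mul, mul_assoc] using a1) T
    refine h1.congr fun k => lintegral_congr fun p => ?_
    have hint : ∀ c : Ph → ℝ, Measurable c → (∀ z, 0 ≤ c z) → (∀ z : Ph, c z ≤ |L| * Mx z.2) →
        Integrable fun v => c (fl (-p.1) (p.2, v)) * φ v := fun c c1 c2 c3 =>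
      ((integrable_Mx.const_mul |L|).mono' (c1.comp ((measurable_fl_right _).comp
        measurable_prodMk_left)).aestronglyMeasurable (Eventually.of_forall fun v =>
          (Real.norm_of_nonneg (c2 _)).trans_le (c3 _))).mul_bdd hφ.aestronglyMeasurable (Eventually.of_forall hC)
    rw [← integral_sub (hint _ (hbm k) (hb0 k) fun _ => min_le_right _ _)
      (hint _ m1 p1 fun _ => min_le_right _ _)]
    simp only [fl_snd, sub_mul]

theorem avg_cell {T t : ℝ} {N : ℕ} (hN : 0 < N) (ht : t ∈ Ioc 0 T) :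
    ∃ j ∈ Finset.range N, cell T N t = j * (T / N) := by
  have hT : 0 < T := ht.1.trans_le ht.2
  have hN' : (0 : ℝ) < N := by exact_mod_cast hN
  have h1 : 0 < ⌈t * N / T⌉₊ := Nat.ceil_pos.2 (div_pos (mul_pos ht.1 hN') hT)
  have h2 : ⌈t * N / T⌉₊ ≤ N := Nat.ceil_le.2 ((div_le_iff₀ hT).2 (by nlinarith [ht.2]))
  refine ⟨⌈t * N / T⌉₊ - 1, Finset.mem_range.2 (by omega), ?_⟩
  rw [cell, Nat.cast_sub h1, Nat.cast_one]

theorem Lim.avg_fix (h : Lim S U F) {φ : V → ℝ} (hφ : Measurable φ) {C : ℝ}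
    (hC : ∀ v, |φ v| ≤ C) (T : ℝ) {s : ℝ} (hs : 0 ≤ s) :
    Tendsto (fun k => avD T (fun t z => S.F k s (fl s (fl (-t) z)) * φ z.2)
      fun t z => F s (fl s (fl (-t) z)) * φ z.2) (U : Filter ℕ) (𝓝 0) := by
  refine avg_free_L1 (f := fun k z => S.F k s (fl s z)) (f₀ := fun z => F s (fl s z))
    (fun k => ((S.appr k).meas_t s).comp (measurable_fl_right s))
    (fun k z => (S.appr k).nonneg _ _) ((h.meas_t s).comp (measurable_fl_right s))
    ((integrable_fl s).2 (h.int s hs)) (fun k => (integrable_fl s).2 ((S.appr k).integrable hs))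
    (fun ε hε => ?_) (fun ψ h1 ⟨D, h2⟩ => ?_) hφ hC T
  · obtain ⟨L, L0, hL⟩ := S.tail s hε
    refine ⟨L, fun k => le_trans ?_ (hL k s (right_mem_Icc.2 hs))⟩
    have hms : MeasurableSet {z : Ph | L * Mx z.2 ≤ S.F k s z} := measurableSet_le
      ((continuous_Mx.measurable.comp measurable_snd).const_mul L) ((S.appr k).meas_t s)
    rw [← lintegral_indicator hms]
    refine le_trans (lintegral_mono fun z => ?_) (lintegral_fl s _).le
    by_cases hz : L * Mx z.2 ≤ S.F k s (fl s z)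
    · rw [indicator_of_mem (s := {z : Ph | L * Mx z.2 ≤ S.F k s z}) (a := fl s z) hz]
      refine ENNReal.ofReal_le_ofReal ?_
      nlinarith [mul_pos L0 (Mx_pos z.2), norm_nonneg (fl s z).2, (S.appr k).nonneg s (fl s z)]
    · rw [ENNReal.ofReal_of_nonpos (by linarith)]
      exact zero_le
  · have a1 := h.weak s hs (fun z => ψ (fl (-s) z)) (h1.comp (measurable_fl_right _))
      ⟨D, fun z => h2 _⟩
    have e : ∀ f : Ph → ℝ, ∫ z, f z * ψ (fl (-s) z) = ∫ z, f (fl s z) * ψ z := fun f => by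
      rw [← integral_fl s]
      simp only [fl_neg_fl]
    simpa only [e] using a1

theorem Lim.avg_bdd (h : Lim S U F) {φ : V → ℝ} (hφ : Measurable φ) {C : ℝ}
    (hC : ∀ v, |φ v| ≤ C) (T : ℝ) :
    Tendsto (fun k => avD T (fun t z => S.F k t z * φ z.2) fun t z => F t z * φ z.2)
      (U : Filter ℕ) (𝓝 0) := by
  have hC0 : 0 ≤ C := (abs_nonneg _).trans (hC 0)
  have hφ' : AEStronglyMeasurable (fun z : Ph => φ z.2) volume :=
    (hφ.comp measurable_snd).aestronglyMeasurable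
  have good : ∀ f : ℝ → Ph → ℝ, Measurable (fun p : ℝ × Ph => f p.1 p.2) →
      (∀ t, 0 ≤ t → Integrable (f t)) → AvG T (fun t z => f t z * φ z.2) ∧ ∀ N, 0 < N →
        AvG T fun t z => f (cell T N t) (fl (cell T N t) (fl (-t) z)) * φ z.2 := by
    intro f f1 f2
    refine ⟨⟨f1.mul (hφ.comp measurable_snd.snd), fun t ht => (f2 t ht.1.le).mul_bdd hφ'
      (Eventually.of_forall fun z => hC z.2)⟩, fun N hN => ⟨?_, fun t ht => ?_⟩⟩
    · have hc : Measurable fun p : ℝ × Ph => cell T N p.1 := (measurable_cell T N).comp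
        measurable_fst
      exact (f1.comp (hc.prodMk (measurable_fl.comp (hc.prodMk (measurable_fl.comp
        (measurable_fst.neg.prodMk measurable_snd)))))).mul (hφ.comp measurable_snd.snd)
    · exact ((integrable_fl (-t)).2 ((integrable_fl _).2 (f2 _ (cell_mem hN ht).1.1))).mul_bdd hφ'
        (Eventually.of_forall fun z => hC z.2)
  have g1 := fun k => good (S.F k) (S.measF k) fun t ht => (S.appr k).integrable ht
  have g2 := good F h.meas h.int
  refine avg_approx (fun k => (g1 k).1) g2.1 fun ε hε => ?_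
  have hε' : 0 < ε / (C + 1) := by positivity
  obtain ⟨δ₁, d1, h1⟩ := S.equi T hε'
  obtain ⟨δ₂, d2, h2⟩ := h.equi T hε'
  obtain ⟨N, hN⟩ := exists_nat_gt (max 0 (T / min δ₁ δ₂))
  have hN0 : (0 : ℝ) < N := (le_max_left _ _).trans_lt hN
  have hN1 : 0 < N := by exact_mod_cast hN0
  have hTN : T / N ≤ min δ₁ δ₂ := by
    have := (le_max_right _ _).trans hN.le
    rw [div_le_iff₀ (lt_min d1 d2)] at this
    rwa [div_le_iff₀ hN0, mul_comm]
  have e : ∀ (f : ℝ → Ph → ℝ) (s t : ℝ), ∫⁻ z, ‖f t z - f s (fl s (fl (-t) z))‖ₑ =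
      ∫⁻ z, ‖f t (fl t z) - f s (fl s z)‖ₑ := fun f s t => by
    rw [← lintegral_fl t]
    simp only [fl_neg_fl]
  refine ⟨_, _, fun k => (g1 k).2 N hN1, g2.2 N hN1,
    Eventually.of_forall fun k t ht => avg_err hC hε ?_, fun t ht => avg_err hC hε ?_, ?_⟩
  · rw [e]
    exact h1 k _ (cell_mem hN1 ht).1 t (Ioc_subset_Icc_self ht)
      ((cell_mem hN1 ht).2.trans (hTN.trans (min_le_left _ _)))
  · rw [e]
    exact h2 _ (cell_mem hN1 ht).1 t (Ioc_subset_Icc_self ht)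
      ((cell_mem hN1 ht).2.trans (hTN.trans (min_le_right _ _)))
  rcases le_or_gt T 0 with hT | hT
  · simp [avD, mu2, muT, Ioc_eq_empty_of_le hT]
  have hs : ∀ j : ℕ, 0 ≤ j * (T / N) := fun j => by positivity
  have h3 := tendsto_finsetSum (Finset.range N) fun j _ => h.avg_fix hφ hC T (hs j)
  rw [Finset.sum_const_zero] at h3
  refine tendsto_of_tendsto_of_tendsto_of_le_of_le tendsto_const_nhds h3 (fun _ => zero_le)
    fun k => ?_
  simp only [avD]
  rw [← lintegral_finsetSum _ fun (j : ℕ) _ => avD_meas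
    (u := fun t z => S.F k (j * (T / N)) (fl (j * (T / N)) (fl (-t) z)) * φ z.2)
    (w := fun t z => F (j * (T / N)) (fl (j * (T / N)) (fl (-t) z)) * φ z.2)
    (avg_good_fl (T := T) (((S.appr k).meas_t _).comp (measurable_fl_right _))
      ((integrable_fl _).2 ((S.appr k).integrable (hs j))) hφ hC).meas
    (avg_good_fl (T := T) ((h.meas_t _).comp (measurable_fl_right _))
      ((integrable_fl _).2 (h.int _ (hs j))) hφ hC).meas]
  refine lintegral_mono_ae ?_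
  filter_upwards [Measure.quasiMeasurePreserving_fst.ae (ae_restrict_mem measurableSet_Ioc)]
    with p hp
  obtain ⟨j, hj, e1⟩ := avg_cell hN1 hp
  rw [e1]
  exact Finset.single_le_sum (f := fun j : ℕ =>
    ‖(∫ v, S.F k (j * (T / N)) (fl (j * (T / N)) (fl (-p.1) (p.2, v))) * φ v)
      - ∫ v, F (j * (T / N)) (fl (j * (T / N)) (fl (-p.1) (p.2, v))) * φ v‖ₑ)
    (fun _ _ => zero_le) hj

theorem avg_good {T C D : ℝ} {f : ℝ → Ph → ℝ} {φ : V → ℝ}
    (hm : Measurable fun p : ℝ × Ph => f p.1 p.2) (h0 : ∀ t z, 0 ≤ f t z)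
    (hD : ∀ t, 0 ≤ t → ∫⁻ z : Ph, ENNReal.ofReal ((1 + ‖z.2‖ ^ 2) * f t z) ≤ ENNReal.ofReal D)
    (hφ : Measurable φ) (hC : ∀ v, |φ v| ≤ C * (1 + ‖v‖)) : AvG T fun t z => f t z * φ z.2 := by
  have hC0 : 0 ≤ C := by simpa using (abs_nonneg _).trans (hC 0)
  refine ⟨hm.mul (hφ.comp measurable_snd.snd), fun t ht => ?_⟩
  have h1 : Measurable (f t) := hm.comp measurable_prodMk_left
  have h2 : Integrable fun z : Ph => (1 + ‖z.2‖ ^ 2) * f t z := by
    refine ⟨Measurable.aestronglyMeasurable (by fun_prop), ?_⟩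
    rw [hasFiniteIntegral_iff_ofReal (Eventually.of_forall fun z => by
      have := h0 t z; positivity)]
    exact (hD t ht.1.le).trans_lt ENNReal.ofReal_lt_top
  refine (h2.const_mul (2 * C)).mono' (h1.mul (hφ.comp measurable_snd)).aestronglyMeasurable
    (Eventually.of_forall fun z => ?_)
  rw [norm_mul, Real.norm_of_nonneg (h0 t z), mul_comm, ← mul_assoc]
  refine mul_le_mul_of_nonneg_right ((hC _).trans ?_) (h0 t z)
  nlinarith [mul_nonneg hC0 (sq_nonneg (‖z.2‖ - 1)), mul_nonneg hC0 (sq_nonneg ‖z.2‖)]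

theorem Lim.avgF (h : Lim S U F) {φ : V → ℝ} (hφ : Measurable φ) {C : ℝ}
    (hC : ∀ v, |φ v| ≤ C * (1 + ‖v‖)) (T : ℝ) :
    Tendsto (fun k => ∫⁻ p : ℝ × T3, ‖(∫ v, S.F k p.1 (p.2, v) * φ v)
      - ∫ v, F p.1 (p.2, v) * φ v‖ₑ ∂(mu2 T)) (U : Filter ℕ) (𝓝 0) := by
  obtain ⟨C₁, c1, h1⟩ := S.mom
  obtain ⟨C₂, c2, h2⟩ := h.mom
  have hC0 : 0 ≤ C := by simpa using (abs_nonneg _).trans (hC 0)
  refine avg_approx (u := fun k t z => S.F k t z * φ z.2) (u₀ := fun t z => F t z * φ z.2)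
    (fun k => avg_good (S.measF k) (S.appr k).nonneg (h1 k) hφ hC)
    (avg_good h.meas h.nonneg h2 hφ hC) fun ε hε => ?_
  obtain ⟨R, hR⟩ : ∃ R, R = 1 + 2 * C * (C₁ + C₂) / ε := ⟨_, rfl⟩
  have hR1 : 1 ≤ R := hR ▸ le_add_of_nonneg_right (by positivity)
  let ψ : V → ℝ := indicator {v | ‖v‖ ≤ R} φ
  have hψ : Measurable ψ := hφ.indicator (measurableSet_le measurable_norm measurable_const)
  have hψ1 : ∀ v, |ψ v| ≤ C * (1 + ‖v‖) := fun v =>
    (norm_indicator_le_norm_self (s := {v | ‖v‖ ≤ R}) φ v).trans (hC v)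
  have hψ2 : ∀ v, |ψ v| ≤ C * (1 + R) := fun v => by
    by_cases hv : ‖v‖ ≤ R
    · exact (hψ1 v).trans (by gcongr)
    · rw [show ψ v = 0 from indicator_of_notMem (s := {v : V | ‖v‖ ≤ R}) hv _, abs_zero]
      positivity
  have key : ∀ (f : Ph → ℝ) (D : ℝ), (∀ z, 0 ≤ f z) → 0 ≤ D → D ≤ C₁ + C₂ →
      ∫⁻ z : Ph, ENNReal.ofReal ((1 + ‖z.2‖ ^ 2) * f z) ≤ ENNReal.ofReal D →
      ∫⁻ z : Ph, ‖f z * φ z.2 - f z * ψ z.2‖ₑ ≤ ENNReal.ofReal ε := by
    intro f D f0 D0 hD hf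
    calc ∫⁻ z : Ph, ‖f z * φ z.2 - f z * ψ z.2‖ₑ
        ≤ ∫⁻ z : Ph, ENNReal.ofReal (2 * C / R) * ENNReal.ofReal ((1 + ‖z.2‖ ^ 2) * f z) := by
          refine lintegral_mono fun z => ?_
          by_cases hv : ‖z.2‖ ≤ R
          · rw [show ψ z.2 = φ z.2 from indicator_of_mem (s := {v : V | ‖v‖ ≤ R}) hv _]
            simp
          · rw [show ψ z.2 = 0 from indicator_of_notMem (s := {v : V | ‖v‖ ≤ R}) hv _, mul_zero, sub_zero,
              ← ofReal_norm, ← ENNReal.ofReal_mul (by positivity)]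
            refine ENNReal.ofReal_le_ofReal ?_
            rw [norm_mul, Real.norm_of_nonneg (f0 z), mul_comm, ← mul_assoc]
            refine mul_le_mul_of_nonneg_right ((hC _).trans ?_) (f0 z)
            push Not at hv
            rw [div_mul_eq_mul_div, le_div_iff₀ (by linarith), mul_assoc, mul_right_comm,
              mul_comm _ C]
            exact mul_le_mul_of_nonneg_left (by nlinarith) hC0
      _ ≤ ENNReal.ofReal (2 * C / R) * ENNReal.ofReal D := by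
          rw [lintegral_const_mul' _ _ ENNReal.ofReal_ne_top]
          exact mul_le_mul_right hf _
      _ ≤ _ := by
          rw [← ENNReal.ofReal_mul (by positivity)]
          refine ENNReal.ofReal_le_ofReal ?_
          rw [div_mul_eq_mul_div, div_le_iff₀ (by linarith), hR, mul_add,
            mul_div_cancel₀ _ hε.ne']
          nlinarith
  exact ⟨fun k t z => S.F k t z * ψ z.2, fun t z => F t z * ψ z.2,
    fun k => avg_good (S.measF k) (S.appr k).nonneg (h1 k) hψ hψ1,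
    avg_good h.meas h.nonneg h2 hψ hψ1,
    Eventually.of_forall fun k t ht =>
      key _ C₁ ((S.appr k).nonneg t) c1 (by linarith) (h1 k t ht.1.le),
    fun t ht => key _ C₂ (h.nonneg t) c2 (by linarith) (h2 t ht.1.le), h.avg_bdd hψ hψ2 T⟩

theorem Lim.avg (h : Lim S U F) {φ : V → ℝ} (hφ : Measurable φ) {C : ℝ}
    (hC : ∀ v, |φ v| ≤ C * (1 + ‖v‖)) (T : ℝ) :
    Tendsto (fun k => ∫⁻ p : ℝ × T3, ‖(∫ v, S.G k p.1 (p.2, v) * φ v)
      - ∫ v, F p.1 (p.2, v) * φ v‖ₑ ∂(mu2 T)) (U : Filter ℕ) (𝓝 0) := by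
  obtain ⟨C₁, c1, h1⟩ := S.mom
  obtain ⟨C₂, c2, h2⟩ := h.mom
  have hC0 : 0 ≤ C := by simpa using (abs_nonneg _).trans (hC 0)
  have g2 := avg_good (T := T) h.meas h.nonneg h2 hφ hC
  refine avg_approx (u := fun k t z => S.G k t z * φ z.2) (u₀ := fun t z => F t z * φ z.2)
    (fun k => avg_good (D := C₁) (S.measG k) (S.G_nonneg k) (fun t ht => le_trans
      (lintegral_mono fun z => ENNReal.ofReal_le_ofReal
        (mul_le_mul_of_nonneg_left (S.G_le k t z) (by positivity))) (h1 k t ht)) hφ hC)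
    g2 fun ε hε => ⟨_, _, fun k => avg_good (S.measF k) (S.appr k).nonneg (h1 k) hφ hC, g2, ?_,
      fun t _ => by simp, h.avgF hφ hC T⟩
  filter_upwards [h.le (S.til_close T (ε := ε / (C + 1)) (by positivity))] with k hk t ht
  calc ∫⁻ z : Ph, ‖S.G k t z * φ z.2 - S.F k t z * φ z.2‖ₑ
      ≤ ∫⁻ z : Ph, ENNReal.ofReal (C + 1) *
          ENNReal.ofReal ((1 + ‖z.2‖) * (S.F k t z - S.G k t z)) := by
        refine lintegral_mono fun z => ?_
        have a1 := sub_nonneg.2 (S.G_le k t z)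
        rw [← ofReal_norm, ← ENNReal.ofReal_mul (by linarith), ← sub_mul, norm_mul,
          norm_sub_rev, Real.norm_of_nonneg a1, mul_comm, ← mul_assoc]
        refine ENNReal.ofReal_le_ofReal (mul_le_mul_of_nonneg_right ((hC _).trans ?_) a1)
        nlinarith [norm_nonneg z.2]
    _ ≤ ENNReal.ofReal (C + 1) * ENNReal.ofReal (ε / (C + 1)) := by
        rw [lintegral_const_mul' _ _ ENNReal.ofReal_ne_top]
        exact mul_le_mul_right (hk t (Ioc_subset_Icc_self ht)) _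
    _ = _ := by rw [← ENNReal.ofReal_mul (by linarith), mul_div_cancel₀ _ (by linarith)]

theorem Lim.rho_L1 (h : Lim S U F) (T : ℝ) :
    Tendsto (fun k => ∫⁻ p : ℝ × T3, ‖rho (S.G k p.1) p.2 - rho (F p.1) p.2‖ₑ ∂(mu2 T))
      (U : Filter ℕ) (𝓝 0) := by
  simpa only [mul_one, rho] using h.avg (φ := fun _ => 1) measurable_const (C := 1)
    (fun v => by simp) T

end

end Vale.Agent.P140
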