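import Vale.Agent.P140.Bilin

/-! Lower semicontinuity of the dissipation. -/

namespace Vale.Agent.P140

open MeasureTheory Set Filter Topology
open scoped ENNReal RealInnerProductSpace

noncomputable section

variable {F₀ : Ph → ℝ} {S : Seq F₀} {U : Ultrafilter ℕ} {F : ℝ → Ph → ℝ}

theorem jd_ge {a b l : ℝ} (ha : 0 ≤ a) (hb : 0 ≤ b) (hl : 0 < l) :
    ENNReal.ofReal ((Real.log l + 1 - 1 / l) * a + (-Real.log l + 1 - l) * b) ≤ jd a b := by
  unfold jd
  split_ifs with h1 h2
  · subst h1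
    refine (ENNReal.ofReal_of_nonpos ?_).le
    have h3 : 0 ≤ (l - 1) ^ 2 / l * a := by positivity
    have h4 : (Real.log l + 1 - 1 / l) * a + (-Real.log l + 1 - l) * a = -((l - 1) ^ 2 / l * a) := by
      field_simp
      ring
    linarith
  · exact le_top
  · rw [not_or] at h2
    have ha' : 0 < a := lt_of_le_of_ne ha (Ne.symm h2.1)
    have hb' : 0 < b := lt_of_le_of_ne hb (Ne.symm h2.2)
    refine ENNReal.ofReal_le_ofReal ?_
    have hx : 0 < a / b / l := by positivity
    have h3 := mul_le_mul_of_nonneg_left (Real.one_sub_inv_le_log_of_pos hx) ha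
    have h4 := mul_le_mul_of_nonneg_left (Real.log_le_sub_one_of_pos hx) hb
    rw [Real.log_div (by positivity) hl.ne'] at h3 h4
    have e1 : a * (1 - (a / b / l)⁻¹) = a - l * b := by field_simp
    have e2 : b * (a / b / l - 1) = 1 / l * a - b := by field_simp
    rw [e1] at h3
    rw [e2] at h4
    linarith

theorem jd_smul {a b c : ℝ} (ha : 0 ≤ a) (hb : 0 ≤ b) (hc : 0 < c) :
    jd (c * a) (c * b) = ENNReal.ofReal c * jd a b := by
  unfold jd
  by_cases h1 : a = b
  · simp [h1]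
  have h1' : ¬c * a = c * b := fun h => h1 (mul_left_cancel₀ hc.ne' h)
  rw [if_neg h1, if_neg h1']
  by_cases h2 : a = 0 ∨ b = 0
  · have h2' : c * a = 0 ∨ c * b = 0 := by rcases h2 with h | h <;> simp [h]
    rw [if_pos h2, if_pos h2', ENNReal.mul_top (by simpa using hc)]
  · have h2' : ¬(c * a = 0 ∨ c * b = 0) := by simpa [hc.ne'] using h2
    rw [if_neg h2, if_neg h2', ← ENNReal.ofReal_mul hc.le, mul_div_mul_left _ _ hc.ne']
    congr 1
    ring

/-- Clipped ratio. -/
def dissLam (L a b : ℝ) : ℝ :=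
  max (1 / L) (min (if b = 0 then (if a = 0 then 1 else L) else a / b) L)

/-- Coefficient of the first argument. -/
def dissA (l : ℝ) : ℝ := Real.log l + 1 - 1 / l

/-- Coefficient of the second argument. -/
def dissB (l : ℝ) : ℝ := -Real.log l + 1 - l

theorem dissLam_mem {L : ℝ} (hL : 1 ≤ L) (a b : ℝ) : dissLam L a b ∈ Icc (1 / L) L :=
  ⟨le_max_left _ _, max_le ((div_le_one (by linarith)).2 hL |>.trans hL) (min_le_right _ _)⟩

theorem dissLam_pos {L : ℝ} (hL : 1 ≤ L) (a b : ℝ) : 0 < dissLam L a b :=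
  lt_of_lt_of_le (by positivity) (dissLam_mem hL a b).1

theorem diss_bdd {L : ℝ} (hL : 1 ≤ L) : ∃ C : ℝ, ∀ a b : ℝ,
    |dissA (dissLam L a b)| ≤ C ∧ |dissB (dissLam L a b)| ≤ C := by
  have h0 : ∀ l ∈ Icc (1 / L) L, l ≠ 0 := fun l hl =>
    (lt_of_lt_of_le (by positivity) hl.1).ne'
  have hlog : ContinuousOn Real.log (Icc (1 / L) L) := Real.continuousOn_log.mono h0
  have hA : ContinuousOn dissA (Icc (1 / L) L) :=
    (hlog.add continuousOn_const).sub (continuousOn_const.div continuousOn_id h0)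
  have hB : ContinuousOn dissB (Icc (1 / L) L) :=
    (hlog.neg.add continuousOn_const).sub continuousOn_id
  obtain ⟨C1, h1⟩ := isCompact_Icc.exists_bound_of_continuousOn hA
  obtain ⟨C2, h2⟩ := isCompact_Icc.exists_bound_of_continuousOn hB
  exact ⟨max C1 C2, fun a b => ⟨(h1 _ (dissLam_mem hL a b)).trans (le_max_left _ _),
    (h2 _ (dissLam_mem hL a b)).trans (le_max_right _ _)⟩⟩

theorem diss_eq {l : ℝ} (hl : 0 < l) (a b : ℝ) :
    dissA l * a + dissB l * b = (a - b) * Real.log l + (l - 1) * (a / l - b) := by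
  unfold dissA dissB
  field_simp
  ring

theorem diss_side {L a b : ℝ} (hL : 1 ≤ L) (ha : 0 ≤ a) (hb : 0 ≤ b) :
    (1 ≤ dissLam L a b ∧ dissLam L a b * b ≤ a) ∨ (dissLam L a b ≤ 1 ∧ a ≤ dissLam L a b * b) := by
  have h1 : 1 / L ≤ 1 := (div_le_one (by linarith)).2 hL
  unfold dissLam
  split_ifs with h2 h3
  · left
    rw [h2, mul_zero, min_eq_left hL]
    exact ⟨le_max_right _ _, ha⟩
  · left
    rw [h2, mul_zero, min_self]
    exact ⟨hL.trans (le_max_right _ _), ha⟩
  · have hb' : 0 < b := lt_of_le_of_ne hb (Ne.symm h2)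
    rcases le_total 1 (a / b) with h | h
    · left
      refine ⟨(le_min h hL).trans (le_max_right _ _), ?_⟩
      rw [← le_div_iff₀ hb']
      exact max_le (h1.trans h) (min_le_left _ _)
    · right
      rw [min_eq_left (h.trans hL), ← div_le_iff₀ hb']
      exact ⟨max_le h1 h, le_max_right _ _⟩

theorem diss_ge {L a b : ℝ} (hL : 1 ≤ L) (ha : 0 ≤ a) (hb : 0 ≤ b) :
    0 ≤ (a - b) * Real.log (dissLam L a b) ∧ (a - b) * Real.log (dissLam L a b) ≤
      dissA (dissLam L a b) * a + dissB (dissLam L a b) * b := by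
  have hl := dissLam_pos hL a b
  rw [diss_eq hl]
  rcases diss_side hL ha hb with ⟨h1, h2⟩ | ⟨h1, h2⟩
  · have h3 : b ≤ a / dissLam L a b := by rwa [le_div_iff₀ hl, mul_comm]
    refine ⟨mul_nonneg (by nlinarith) (Real.log_nonneg h1), ?_⟩
    nlinarith [mul_nonneg (sub_nonneg.2 h1) (sub_nonneg.2 h3)]
  · have h3 : a / dissLam L a b ≤ b := by rwa [div_le_iff₀ hl, mul_comm]
    refine ⟨mul_nonneg_of_nonpos_of_nonpos (by nlinarith) (Real.log_nonpos hl.le h1), ?_⟩
    nlinarith [mul_nonneg (sub_nonneg.2 h1) (sub_nonneg.2 h3)]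

theorem diss_lim {a b : ℝ} (ha : 0 ≤ a) (hb : 0 ≤ b) : jd a b ≤ liminf (fun m : ℕ =>
    ENNReal.ofReal ((a - b) * Real.log (dissLam ((m : ℝ) + 1) a b))) atTop := by
  have hL : Tendsto (fun m : ℕ => (m : ℝ) + 1) atTop atTop :=
    tendsto_natCast_atTop_atTop.atTop_add tendsto_const_nhds
  have h1 : ∀ m : ℕ, (1 : ℝ) ≤ (m : ℝ) + 1 := fun m => by
    have := Nat.cast_nonneg (α := ℝ) m
    linarith
  have hinf : ∀ c : ℝ, 0 < c → Tendsto (fun m : ℕ => ENNReal.ofReal (c * Real.log ((m : ℝ) + 1)))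
      atTop (𝓝 ⊤) := fun c hc =>
    ENNReal.tendsto_ofReal_atTop.comp ((Real.tendsto_log_atTop.comp hL).const_mul_atTop hc)
  unfold jd
  split_ifs with h2 h3
  · exact zero_le
  · by_cases hb0 : b = 0
    · have ha0 : a ≠ 0 := fun h => h2 (h.trans hb0.symm)
      refine (((hinf a (lt_of_le_of_ne ha ha0.symm)).congr fun m => ?_).liminf_eq).ge
      rw [dissLam, if_pos hb0, if_neg ha0, min_self, hb0, sub_zero,
        max_eq_right (((div_le_one (by positivity)).2 (h1 m)).trans (h1 m))]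
    · have ha0 : a = 0 := h3.resolve_right hb0
      refine (((hinf b (lt_of_le_of_ne hb (Ne.symm hb0))).congr fun m => ?_).liminf_eq).ge
      rw [dissLam, if_neg hb0, ha0, zero_div, min_eq_left (by positivity),
        max_eq_left (by positivity), one_div, Real.log_inv, zero_sub, neg_mul_neg]
  · rw [not_or] at h3
    have hr : 0 < a / b := div_pos (lt_of_le_of_ne ha (Ne.symm h3.1))
      (lt_of_le_of_ne hb (Ne.symm h3.2))
    refine ((tendsto_const_nhds.congr' ?_).liminf_eq).ge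
    filter_upwards [hL.eventually_ge_atTop (a / b), hL.eventually_ge_atTop (a / b)⁻¹] with m h4 h5
    rw [dissLam, if_neg h3.2, min_eq_left h4, max_eq_right]
    rw [one_div]
    exact inv_le_of_inv_le₀ hr h5

theorem measurable_dissLam (L : ℝ) {β : Type} [MeasurableSpace β] {a b : β → ℝ}
    (ha : Measurable a) (hb : Measurable b) : Measurable fun x => dissLam L (a x) (b x) := by
  unfold dissLam
  exact measurable_const.max ((Measurable.ite (hb (measurableSet_singleton 0))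
    (Measurable.ite (ha (measurableSet_singleton 0)) measurable_const measurable_const)
    (ha.div hb)).min measurable_const)

theorem measurable_dissA : Measurable dissA := by
  unfold dissA
  fun_prop

theorem measurable_dissB : Measurable dissB := by
  unfold dissB
  fun_prop

/-- Abstract lower semicontinuity of the dissipation functional. -/
theorem diss_abs {β ι : Type} [MeasurableSpace β] {ν : Measure β} {l : Filter ι} [l.NeBot]
    {P Q : ι → β → ℝ} {P₀ Q₀ b : β → ℝ} (hP : WeakConv ν l P P₀) (hQ : WeakConv ν l Q Q₀)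
    (iP : ∀ i, Integrable (P i) ν) (iQ : ∀ i, Integrable (Q i) ν) (iP₀ : Integrable P₀ ν)
    (iQ₀ : Integrable Q₀ ν) (mP₀ : Measurable P₀) (mQ₀ : Measurable Q₀) (mb : Measurable b)
    (pP : ∀ i x, 0 ≤ P i x) (pQ : ∀ i x, 0 ≤ Q i x) (pP₀ : ∀ x, 0 ≤ P₀ x) (pQ₀ : ∀ x, 0 ≤ Q₀ x)
    (pb : ∀ x, 0 ≤ b x) {K : ℝ} (hb : ∀ x, b x ≤ K) :
    ∫⁻ x, ENNReal.ofReal (b x) * jd (P₀ x) (Q₀ x) ∂ν ≤
      liminf (fun i => ∫⁻ x, ENNReal.ofReal (b x) * jd (P i x) (Q i x) ∂ν) l := by
  have h1 : ∀ m : ℕ, (1 : ℝ) ≤ (m : ℝ) + 1 := fun m => by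
    have := Nat.cast_nonneg (α := ℝ) m
    linarith
  have ml := fun m : ℕ => measurable_dissLam ((m : ℝ) + 1) mP₀ mQ₀
  have step : ∀ m : ℕ, ∫⁻ x, ENNReal.ofReal (b x) * ENNReal.ofReal ((P₀ x - Q₀ x) *
      Real.log (dissLam ((m : ℝ) + 1) (P₀ x) (Q₀ x))) ∂ν ≤
      liminf (fun i => ∫⁻ x, ENNReal.ofReal (b x) * jd (P i x) (Q i x) ∂ν) l := by
    intro m
    obtain ⟨C, hC⟩ := diss_bdd (h1 m)
    have hpos := fun x => dissLam_pos (h1 m) (P₀ x) (Q₀ x)
    have hge := fun x => diss_ge (h1 m) (pP₀ x) (pQ₀ x)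
    have hC' := fun x => hC (P₀ x) (Q₀ x)
    have ml' := ml m
    generalize hlam : (fun x => dissLam ((m : ℝ) + 1) (P₀ x) (Q₀ x)) = lam at ml'
    have hlam' : ∀ x, dissLam ((m : ℝ) + 1) (P₀ x) (Q₀ x) = lam x := fun x => congrFun hlam x
    simp only [hlam'] at hpos hge hC' ⊢
    have mA : Measurable fun x => b x * dissA (lam x) := mb.mul (measurable_dissA.comp ml')
    have mB : Measurable fun x => b x * dissB (lam x) := mb.mul (measurable_dissB.comp ml')
    have bA : ∀ x, |b x * dissA (lam x)| ≤ K * C := fun x => by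
      rw [abs_mul, abs_of_nonneg (pb x)]
      exact mul_le_mul (hb x) (hC' x).1 (abs_nonneg _) ((pb x).trans (hb x))
    have bB : ∀ x, |b x * dissB (lam x)| ≤ K * C := fun x => by
      rw [abs_mul, abs_of_nonneg (pb x)]
      exact mul_le_mul (hb x) (hC' x).2 (abs_nonneg _) ((pb x).trans (hb x))
    have iA : ∀ {f : β → ℝ}, Integrable f ν → Integrable (fun x => f x * (b x * dissA (lam x))) ν :=
      fun hf => hf.mul_bdd mA.aestronglyMeasurable (Eventually.of_forall bA)
    have iB : ∀ {f : β → ℝ}, Integrable f ν → Integrable (fun x => f x * (b x * dissB (lam x))) ν :=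
      fun hf => hf.mul_bdd mB.aestronglyMeasurable (Eventually.of_forall bB)
    have iC : ∀ {f g : β → ℝ}, Integrable f ν → Integrable g ν → Integrable
        (fun x => f x * (b x * dissA (lam x)) + g x * (b x * dissB (lam x))) ν :=
      fun hf hg => (iA hf).add (iB hg)
    have ht := ENNReal.tendsto_ofReal ((hP _ mA ⟨_, bA⟩).add (hQ _ mB ⟨_, bB⟩))
    refine le_trans ?_ (ht.liminf_eq.ge.trans (liminf_le_liminf (Eventually.of_forall fun i => ?_)))
    · rw [← integral_add (iA iP₀) (iB iQ₀), ofReal_integral_eq_lintegral_ofReal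
        (iC iP₀ iQ₀) (Eventually.of_forall fun x => ?_)]
      · refine lintegral_mono fun x => ?_
        rw [← ENNReal.ofReal_mul (pb x)]
        refine ENNReal.ofReal_le_ofReal ?_
        have := mul_le_mul_of_nonneg_left (hge x).2 (pb x)
        linarith
      · have := mul_nonneg (pb x) ((hge x).1.trans (hge x).2)
        simp only [Pi.zero_apply]
        linarith
    · rw [← integral_add (iA (iP i)) (iB (iQ i))]
      refine le_trans ?_ (lintegral_mono (f := fun x => ENNReal.ofReal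
        (P i x * (b x * dissA (lam x)) + Q i x * (b x * dissB (lam x)))) fun x => ?_)
      · rw [integral_eq_lintegral_pos_part_sub_lintegral_neg_part (iC (iP i) (iQ i))]
        refine le_trans (ENNReal.ofReal_le_ofReal (sub_le_self _ ENNReal.toReal_nonneg)) ?_
        exact ENNReal.ofReal_toReal_le
      · refine le_trans (le_of_eq ?_) (mul_le_mul_right (jd_ge (pP i x) (pQ i x) (hpos x)) _)
        rw [← ENNReal.ofReal_mul (pb x)]
        refine congrArg ENNReal.ofReal ?_
        unfold dissA dissB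
        ring
  have mm : ∀ m : ℕ, Measurable fun x => ENNReal.ofReal (b x) * ENNReal.ofReal ((P₀ x - Q₀ x) *
      Real.log (dissLam ((m : ℝ) + 1) (P₀ x) (Q₀ x))) := fun m =>
    mb.ennreal_ofReal.mul ((mP₀.sub mQ₀).mul (ml m).log).ennreal_ofReal
  refine le_trans ?_ ((lintegral_liminf_le (u := atTop) mm).trans
    (liminf_le_of_frequently_le' (Frequently.of_forall step)))
  refine lintegral_mono fun x => ?_
  refine (mul_le_mul_right (diss_lim (pP₀ x) (pQ₀ x)) _).trans ?_
  refine le_trans (le_of_eq ?_) (ENNReal.le_liminf_mul (u := fun _ => ENNReal.ofReal (b x)))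
  rw [liminf_const]

theorem diss_unweight {α ι : Type} [MeasurableSpace α] {μ : Measure α} {l : Filter ι}
    {f : ι → α → ℝ} {f₀ w : α → ℝ} (hw : Measurable w) (h1 : ∀ x, 1 ≤ w x)
    (h : WeakConv μ l (fun i x => w x * f i x) (fun x => w x * f₀ x)) : WeakConv μ l f f₀ := by
  rintro ψ hψ ⟨C, hC⟩
  have h2 := h (fun x => ψ x / w x) (hψ.div hw) ⟨C, fun x => by
    rw [abs_div, abs_of_pos (lt_of_lt_of_le one_pos (h1 x))]
    exact (div_le_self (abs_nonneg _) (h1 x)).trans (hC x)⟩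
  have e : ∀ (c : ℝ) (x : α), w x * c * (ψ x / w x) = c * ψ x := fun c x => by
    have := (lt_of_lt_of_le one_pos (h1 x)).ne'
    field_simp
  simpa only [e] using h2

theorem diss_unweight_int {α : Type} [MeasurableSpace α] {μ : Measure α} {f w : α → ℝ}
    (hf : Measurable f) (h1 : ∀ x, 1 ≤ w x) (h : Integrable (fun x => w x * f x) μ) :
    Integrable f μ := by
  refine h.mono hf.aestronglyMeasurable (Eventually.of_forall fun x => ?_)
  rw [norm_mul]
  exact le_mul_of_one_le_left (norm_nonneg _) ((h1 x).trans (le_abs_self _))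

theorem diss_lift {α ι : Type} [MeasurableSpace α] {μ : Measure α} [SFinite μ] {l : Filter ι}
    {f : ι → α → ℝ} {f₀ : α → ℝ} (h : WeakConv μ l f f₀) (hf : ∀ i, Integrable (f i) μ)
    (h₀ : Integrable f₀ μ) :
    WeakConv (μ.prod sig) l (fun i p => f i p.1) (fun p => f₀ p.1) := by
  rintro ψ hψ ⟨C, hC⟩
  have e : ∀ g : α → ℝ, Integrable g μ →
      ∫ p, g p.1 * ψ p ∂(μ.prod sig) = ∫ x, g x * ∫ ω, ψ (x, ω) ∂sig ∂μ := by
    intro g hg
    rw [integral_prod _ ((hg.comp_fst sig).mul_bdd hψ.aestronglyMeasurable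
      (Eventually.of_forall hC))]
    simp only [integral_const_mul]
  simp only [e _ (hf _), e _ h₀]
  exact h _ hψ.stronglyMeasurable.integral_prod_right'.measurable
    ⟨C * sig.real univ, fun x =>
      norm_integral_le_of_norm_le_const (f := fun ω => ψ (x, ω))
        (Eventually.of_forall fun ω => hC (x, ω))⟩

/-- The collision map on `((t, x), v, w), ω`. -/
def dissTau : ((ℝ × T3) × V × V) × S2 ≃ᵐ ((ℝ × T3) × V × V) × S2 :=
  MeasurableEquiv.ofInvolutive
    (fun p => ((p.1.1, vp p.1.2.1 p.1.2.2 p.2, wp p.1.2.1 p.1.2.2 p.2), p.2))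
    (fun p => by simp only [vp_post, wp_post])
    ((measurable_fst.fst.prodMk
      ((measurable_vp measurable_fst.snd.fst measurable_fst.snd.snd measurable_snd).prodMk
        (measurable_wp measurable_fst.snd.fst measurable_fst.snd.snd measurable_snd))).prodMk
      measurable_snd)

theorem dissTau_mp (T : ℝ) : MeasurePreserving dissTau ((mu4 T).prod sig) ((mu4 T).prod sig) := by
  have h1 := measurePreserving_prodAssoc (mu2 T) (volume : Measure (V × V)) sig
  have h2 : MeasurePreserving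
      (fun p : (V × V) × S2 => ((vp p.1.1 p.1.2 p.2, wp p.1.1 p.1.2 p.2), p.2))
      ((volume : Measure (V × V)).prod sig) ((volume : Measure (V × V)).prod sig) :=
    measurePreserving_coll
  have : SFinite ((volume : Measure (V × V)).prod sig) := Measure.prod.instSFinite
  exact (h1.symm.comp ((MeasurePreserving.id (mu2 T)).prod h2)).comp h1

theorem diss_iter {H : ((ℝ × T3) × V × V) × S2 → ℝ≥0∞} (hH : Measurable H) (T : ℝ) :
    ∫⁻ p, H p ∂((mu4 T).prod sig) =
      ∫⁻ s in Ioc 0 T, ∫⁻ x, ∫⁻ v, ∫⁻ w, ∫⁻ ω, H (((s, x), v, w), ω) ∂sig := by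
  have h1 := hH.lintegral_prod_right' (ν := sig)
  have h2 := h1.lintegral_prod_right' (ν := (volume : Measure (V × V)))
  rw [lintegral_prod _ hH.aemeasurable, lintegral_prod _ h1.aemeasurable,
    lintegral_prod _ h2.aemeasurable]
  refine lintegral_congr fun s => lintegral_congr fun x => ?_
  exact lintegral_prod (fun q : V × V => ∫⁻ ω, H (((s, x), q), ω) ∂sig)
    (h1.comp measurable_prodMk_left).aemeasurable

/-- The dissipation integrand without the kernel. -/
def dissJ (g : ℝ → Ph → ℝ) (p : ((ℝ × T3) × V × V) × S2) : ℝ≥0∞ :=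
  jd (g p.1.1.1 (p.1.1.2, vp p.1.2.1 p.1.2.2 p.2) * g p.1.1.1 (p.1.1.2, wp p.1.2.1 p.1.2.2 p.2))
    (g p.1.1.1 (p.1.1.2, p.1.2.1) * g p.1.1.1 (p.1.1.2, p.1.2.2))

theorem measurable_dissJ {g : ℝ → Ph → ℝ} (hg : Measurable fun p : ℝ × Ph => g p.1 p.2) :
    Measurable (dissJ g) := by
  have h : ∀ {u : ((ℝ × T3) × V × V) × S2 → V}, Measurable u →
      Measurable fun p : ((ℝ × T3) × V × V) × S2 => g p.1.1.1 (p.1.1.2, u p) := fun hu =>
    hg.comp (measurable_fst.fst.fst.prodMk (measurable_fst.fst.snd.prodMk hu))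
  exact measurable_jd.comp
    (((h (measurable_vp measurable_fst.snd.fst measurable_fst.snd.snd measurable_snd)).mul
      (h (measurable_wp measurable_fst.snd.fst measurable_fst.snd.snd measurable_snd))).prodMk
    ((h measurable_fst.snd.fst).mul (h measurable_fst.snd.snd)))

theorem diss_Pd {g : ℝ → Ph → ℝ} (h0 : ∀ t z, 0 ≤ g t z) {δ : ℝ} (hδ : 0 ≤ δ)
    (p : ((ℝ × T3) × V × V) × S2) :
    jd (Pd δ (g p.1.1.1) p.1.1.2 (vp p.1.2.1 p.1.2.2 p.2) (wp p.1.2.1 p.1.2.2 p.2))
      (Pd δ (g p.1.1.1) p.1.1.2 p.1.2.1 p.1.2.2) =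
      ENNReal.ofReal (1 + δ * rho (g p.1.1.1) p.1.1.2)⁻¹ * dissJ g p := by
  have := rho_nonneg (h0 p.1.1.1) p.1.1.2
  rw [dissJ, ← jd_smul (mul_nonneg (h0 _ _) (h0 _ _)) (mul_nonneg (h0 _ _) (h0 _ _))
    (by positivity), Pd, Pd, div_eq_inv_mul, div_eq_inv_mul]

theorem diss_step (h : Lim S U F) (t : ℝ) {δ : ℝ} (hδ : 0 < δ) (j : ℕ) :
    ∫⁻ p, ENNReal.ofReal (Bn j p.1.2.1 p.1.2.2 p.2) *
        (ENNReal.ofReal (1 + δ * rho (F p.1.1.1) p.1.1.2)⁻¹ * dissJ F p) ∂((mu4 t).prod sig) ≤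
      liminf (fun k => ∫⁻ p, ENNReal.ofReal (Bn (S.n k) p.1.2.1 p.1.2.2 p.2) * dissJ (S.G k) p
        ∂((mu4 t).prod sig)) (U : Filter ℕ) := by
  have hw : Measurable fun q : (ℝ × T3) × V × V => 1 + ‖q.2.1‖ + ‖q.2.2‖ := by fun_prop
  have hw1 : ∀ q : (ℝ × T3) × V × V, 1 ≤ 1 + ‖q.2.1‖ + ‖q.2.2‖ := fun q => by
    linarith [norm_nonneg q.2.1, norm_nonneg q.2.2]
  have mP : ∀ {g : ℝ → Ph → ℝ}, (Measurable fun p : ℝ × Ph => g p.1 p.2) →
      Measurable fun q : (ℝ × T3) × V × V => Pd δ (g q.1.1) q.1.2 q.2.1 q.2.2 := fun {g} hg =>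
    measurable_Pd δ (F := fun q : (ℝ × T3) × V × V => g q.1.1)
      (hg.comp (measurable_fst.fst.fst.prodMk measurable_snd)) measurable_fst.snd
      measurable_snd.fst measurable_snd.snd
  have iP := fun k => diss_unweight_int (mP (S.measG k)) hw1
    ((S.ui_Pd hδ t).integrable (fun k => hw.mul (mP (S.measG k))) k)
  have iP₀ := diss_unweight_int (mP h.meas) hw1 (h.int_Pd hδ t)
  have wP := diss_lift (diss_unweight hw hw1 (h.weak_Pd hδ t)) iP iP₀
  have hτ := dissTau_mp t
  have key := diss_abs (wP.comp hτ) wP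
    (fun k => (hτ.integrable_comp_emb dissTau.measurableEmbedding).2 ((iP k).comp_fst sig))
    (fun k => (iP k).comp_fst sig)
    ((hτ.integrable_comp_emb dissTau.measurableEmbedding).2 (iP₀.comp_fst sig))
    (iP₀.comp_fst sig) (((mP h.meas).comp measurable_fst).comp dissTau.measurable)
    ((mP h.meas).comp measurable_fst)
    (measurable_Bn j measurable_fst.snd.fst measurable_fst.snd.snd measurable_snd)
    (fun k _ => Pd_nonneg hδ.le (S.G_nonneg k _) _ _ _)
    (fun k _ => Pd_nonneg hδ.le (S.G_nonneg k _) _ _ _)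
    (fun _ => Pd_nonneg hδ.le (h.nonneg _) _ _ _) (fun _ => Pd_nonneg hδ.le (h.nonneg _) _ _ _)
    (fun _ => Bn_nonneg _ _ _ _) (fun _ => Bn_le _ _ _ (Nat.cast_nonneg j))
  refine le_trans (le_of_eq (lintegral_congr fun p => ?_)) (key.trans (liminf_le_liminf ?_))
  · rw [← diss_Pd h.nonneg hδ.le p]
    rfl
  · filter_upwards [h.le (S.n_tendsto.eventually_ge_atTop (j : ℝ))] with k hk
    refine lintegral_mono fun p => mul_le_mul' (ENNReal.ofReal_le_ofReal ?_) ?_
    · unfold Bn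
      split_ifs with h1 h2
      · exact le_rfl
      · exact absurd (h1.trans hk) h2
      · exact abs_nonneg _
      · exact le_rfl
    · refine (diss_Pd (S.G_nonneg k) hδ.le p).le.trans (mul_le_of_le_one_left' ?_)
      have := mul_nonneg hδ.le (rho_nonneg (S.G_nonneg k p.1.1.1) p.1.1.2)
      exact ENNReal.ofReal_le_one.2 (inv_le_one_of_one_le₀ (by linarith))

theorem diss_main (h : Lim S U F) (t : ℝ) :
    ∫⁻ p, ENNReal.ofReal |ca p.1.2.1 p.1.2.2 p.2| * dissJ F p ∂((mu4 t).prod sig) ≤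
      liminf (fun k => ∫⁻ p, ENNReal.ofReal (Bn (S.n k) p.1.2.1 p.1.2.2 p.2) * dissJ (S.G k) p
        ∂((mu4 t).prod sig)) (U : Filter ℕ) := by
  have mr : Measurable fun p : ((ℝ × T3) × V × V) × S2 => rho (F p.1.1.1) p.1.1.2 :=
    measurable_rho (F := fun p : ((ℝ × T3) × V × V) × S2 => F p.1.1.1)
      (h.meas.comp (measurable_fst.fst.fst.fst.prodMk measurable_snd)) measurable_fst.fst.snd
  refine le_trans ?_ ((lintegral_liminf_le (u := atTop) fun j : ℕ => ?_).trans
    (liminf_le_of_frequently_le' (Frequently.of_forall fun j : ℕ =>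
      diss_step h t (Nat.one_div_pos_of_nat (n := j)) j)))
  · refine lintegral_mono fun p => (Tendsto.liminf_eq ?_).ge
    have h1 : Tendsto (fun j : ℕ => (1 + 1 / ((j : ℝ) + 1) * rho (F p.1.1.1) p.1.1.2)⁻¹) atTop
        (𝓝 (1 + 0 * rho (F p.1.1.1) p.1.1.2)⁻¹) :=
      ((tendsto_one_div_add_atTop_nhds_zero_nat.mul_const _).const_add 1).inv₀ (by simp)
    have h2 := ENNReal.Tendsto.const_mul (a := ENNReal.ofReal |ca p.1.2.1 p.1.2.2 p.2|)
      (ENNReal.Tendsto.mul_const (b := dissJ F p) (ENNReal.tendsto_ofReal h1) (Or.inl (by simp)))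
      (Or.inr ENNReal.ofReal_ne_top)
    simp only [zero_mul, add_zero, inv_one, ENNReal.ofReal_one, one_mul] at h2
    refine h2.congr' ?_
    filter_upwards [tendsto_natCast_atTop_atTop.eventually_ge_atTop ‖p.1.2.1 - p.1.2.2‖] with j hj
    rw [Bn_eq _ _ _ hj]
  · exact (measurable_Bn j measurable_fst.snd.fst measurable_fst.snd.snd
      measurable_snd).ennreal_ofReal.mul
      (((mr.const_mul _).const_add 1).inv.ennreal_ofReal.mul (measurable_dissJ h.meas))

theorem Lim.diss (h : Lim S U F) (t : ℝ) : ∫⁻ s in Ioc 0 t, Dis (F s)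
    ≤ liminf (fun k => ∫⁻ s in Ioc 0 t, DisN (S.n k) (S.G k s)) (U : Filter ℕ) := by
  have m1 : Measurable fun p : ((ℝ × T3) × V × V) × S2 =>
      ENNReal.ofReal |ca p.1.2.1 p.1.2.2 p.2| * dissJ F p :=
    (continuous_abs.measurable.comp (measurable_ca measurable_fst.snd.fst measurable_fst.snd.snd
      measurable_snd)).ennreal_ofReal.mul (measurable_dissJ h.meas)
  have m2 : ∀ k, Measurable fun p : ((ℝ × T3) × V × V) × S2 =>
      ENNReal.ofReal (Bn (S.n k) p.1.2.1 p.1.2.2 p.2) * dissJ (S.G k) p := fun k =>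
    (measurable_Bn _ measurable_fst.snd.fst measurable_fst.snd.snd
      measurable_snd).ennreal_ofReal.mul (measurable_dissJ (S.measG k))
  have e1 : ∫⁻ s in Ioc 0 t, Dis (F s) = 4⁻¹ * ∫⁻ p,
      ENNReal.ofReal |ca p.1.2.1 p.1.2.2 p.2| * dissJ F p ∂((mu4 t).prod sig) := by
    rw [diss_iter m1, ← lintegral_const_mul' _ _ (by simp)]
    rfl
  have e2 : ∀ k, ∫⁻ s in Ioc 0 t, DisN (S.n k) (S.G k s) = 4⁻¹ * ∫⁻ p,
      ENNReal.ofReal (Bn (S.n k) p.1.2.1 p.1.2.2 p.2) * dissJ (S.G k) p ∂((mu4 t).prod sig) := by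
    intro k
    rw [diss_iter (m2 k), ← lintegral_const_mul' _ _ (by simp)]
    refine lintegral_congr fun s => ?_
    have m3 : Measurable fun z : Ph => EN (S.n k) (S.G k s) z :=
      measurable_EN (S.n k) (g := fun _ : Ph => S.G k s)
        ((S.measG k).comp (measurable_const.prodMk measurable_snd)) measurable_id
    rw [DisN, Measure.volume_eq_prod, lintegral_prod _ m3.aemeasurable]
    rfl
  simp only [e1, e2]
  refine (mul_le_mul_right (diss_main h t) _).trans ?_
  refine le_trans (le_of_eq ?_) (ENNReal.le_liminf_mul (u := fun _ => (4⁻¹ : ℝ≥0∞)))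
  rw [liminf_const]

end

end Vale.Agent.P140
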