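import Vale.Agent.P140.Entr
import Vale.Agent.P140.Diss

/-! Balance laws and the entropy inequality in the limit. -/

namespace Vale.Agent.P140

open MeasureTheory Set Filter Topology
open scoped ENNReal RealInnerProductSpace

noncomputable section

variable {F₀ : Ph → ℝ} {S : Seq F₀} {U : Ultrafilter ℕ} {F : ℝ → Ph → ℝ}

theorem bal_dom {α : Type} [MeasurableSpace α] {μ : Measure α} {f g : α → ℝ} {v : α → V} {C : ℝ}
    (hi : Integrable (fun x => (1 + ‖v x‖ ^ 2) * f x) μ) (hf : Measurable f) (hg : Measurable g)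
    (h0 : ∀ x, 0 ≤ f x) (hC : ∀ᵐ x ∂μ, |g x| ≤ C * (1 + ‖v x‖)) :
    Integrable (fun x => f x * g x) μ := by
  refine (hi.const_mul (2 * |C|)).mono' (hf.mul hg).aestronglyMeasurable ?_
  filter_upwards [hC] with x hx
  have h1 : |g x| ≤ |C| * (2 * (1 + ‖v x‖ ^ 2)) :=
    hx.trans (mul_le_mul (le_abs_self C) (unif0_one _) (by positivity) (abs_nonneg C))
  rw [Real.norm_eq_abs, abs_mul, abs_of_nonneg (h0 x)]
  refine (mul_le_mul_of_nonneg_left h1 (h0 x)).trans (le_of_eq ?_)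
  ring

theorem bal_int2 (h : Lim S U F) {t : ℝ} (ht : 0 ≤ t) :
    Integrable fun z : Ph => (1 + ‖z.2‖ ^ 2) * F t z := by
  obtain ⟨C, -, hC⟩ := h.mom
  have hm : Measurable fun z : Ph => (1 + ‖z.2‖ ^ 2) * F t z :=
    Measurable.mul (by fun_prop) (h.meas_t t)
  refine ⟨hm.aestronglyMeasurable, ?_⟩
  rw [hasFiniteIntegral_iff_ofReal
    (ae_of_all _ fun z => mul_nonneg (by positivity) (h.nonneg t z))]
  exact (hC t ht).trans_lt ENNReal.ofReal_lt_top

theorem bal_slice (h : Lim S U F) {φ : ℝ → T3 → ℝ} (hφ : IsTestX φ) {t : ℝ} (ht : 0 ≤ t) :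
    ∫ z : Ph, F t z * transX φ t z = ∫ x : T3, ((∫ v, F t (x, v)) * dT φ t x
        + ∑ i, (∫ v, v i * F t (x, v)) * dX i φ t x) := by
  obtain ⟨R, C, -, hC, -⟩ := hφ.bounds
  have i1 : Integrable fun z : Ph => F t z * transX φ t z :=
    bal_dom (bal_int2 h ht) (h.meas_t t)
      ((cons_transX_cont hφ).measurable.comp measurable_prodMk_left) (h.nonneg t)
      (ae_of_all _ fun z => cons_transX_le (hC t z.1 ht).2.1 (hC t z.1 ht).2.2)
  rw [Measure.volume_eq_prod] at i1 ⊢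
  rw [integral_prod _ i1]
  refine integral_congr_ae ?_
  filter_upwards [h.ae_slice_t ht] with x hx
  have m1 : Measurable fun v : V => F t (x, v) := (h.meas_t t).comp measurable_prodMk_left
  have i2 : Integrable fun v : V => F t (x, v) :=
    diss_unweight_int m1 (fun v => le_add_of_nonneg_right (sq_nonneg _)) hx
  have i3 : ∀ i, Integrable fun v : V => v i * F t (x, v) := fun i => by
    simpa only [mul_comm] using bal_dom (v := fun v => v) (g := fun v : V => v i) (C := 1) hx m1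
      (by fun_prop) (fun v => h.nonneg t _) (ae_of_all _ fun v => by
        have h1 : |v i| ≤ ‖v‖ := PiLp.norm_apply_le v i
        linarith)
  have e : ∀ v : V, F t (x, v) * transX φ t (x, v) =
      F t (x, v) * dT φ t x + ∑ i, v i * F t (x, v) * dX i φ t x := fun v => by
    simp only [transX, mul_add, Finset.mul_sum]
    exact congrArg _ (Finset.sum_congr rfl fun i _ => by ring)
  simp only [e]
  rw [integral_add (i2.mul_const _) (integrable_finsetSum _ fun i _ => (i3 i).mul_const _),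
    integral_finsetSum _ fun i _ => (i3 i).mul_const _]
  simp only [integral_mul_const]

theorem bal_weakST (h : Lim S U F) (T : ℝ) {g : ℝ × Ph → ℝ} (hg : Measurable g) {C : ℝ}
    (hC : ∀ p : ℝ × Ph, 0 ≤ p.1 → |g p| ≤ C * (1 + ‖p.2.2‖)) :
    Tendsto (fun k => ∫ p, S.F k p.1 p.2 * g p ∂(mu3 T)) (U : Filter ℕ)
      (𝓝 (∫ p, F p.1 p.2 * g p ∂(mu3 T))) := by
  have hs : MeasurableSet {p : ℝ × Ph | 0 ≤ p.1} := measurableSet_le measurable_const measurable_fst
  have h1 := h.weakST T ({p : ℝ × Ph | 0 ≤ p.1}.indicator fun p => g p / (1 + ‖p.2.2‖))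
    ((hg.div (by fun_prop)).indicator hs) ⟨|C|, fun p => by
      by_cases hp : p ∈ {p : ℝ × Ph | 0 ≤ p.1}
      · have h0 : 0 < 1 + ‖p.2.2‖ := by positivity
        rw [indicator_of_mem hp, abs_div, abs_of_pos h0, div_le_iff₀ h0]
        exact (hC p hp).trans (mul_le_mul_of_nonneg_right (le_abs_self C) h0.le)
      · rw [indicator_of_notMem hp, abs_zero]
        exact abs_nonneg C⟩
  have e : ∀ f : ℝ × Ph → ℝ, ∫ p, (1 + ‖p.2.2‖) * f p * {p : ℝ × Ph | 0 ≤ p.1}.indicator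
      (fun p => g p / (1 + ‖p.2.2‖)) p ∂(mu3 T) = ∫ p, f p * g p ∂(mu3 T) := fun f => by
    refine integral_congr_ae ?_
    filter_upwards [Measure.quasiMeasurePreserving_fst.ae (ae_restrict_mem measurableSet_Ioc)]
      with p hp
    have h0 : 0 < 1 + ‖p.2.2‖ := by positivity
    rw [indicator_of_mem (show p ∈ {p : ℝ × Ph | 0 ≤ p.1} from hp.1.le)]
    field_simp
  simp only [e] at h1
  exact h1

theorem Lim.mass (h : Lim S U F) {φ : ℝ → T3 → ℝ} (hφ : IsTestX φ) :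
    (∫ t in Ioi (0 : ℝ), ∫ x : T3, ((∫ v, F t (x, v)) * dT φ t x
        + ∑ i, (∫ v, v i * F t (x, v)) * dX i φ t x))
      + (∫ x : T3, (∫ v, F₀ (x, v)) * φ 0 x) = 0 := by
  obtain ⟨R, C, hR, hC, hz⟩ := hφ.bounds
  have mT := (cons_transX_cont hφ).measurable
  have bT : ∀ p : ℝ × Ph, 0 ≤ p.1 → |transX φ p.1 p.2| ≤ 3 * C * (1 + ‖p.2.2‖) := fun p hp =>
    cons_transX_le (hC p.1 p.2.1 hp).2.1 (hC p.1 p.2.1 hp).2.2
  have m0 : Measurable fun z : Ph => φ 0 z.1 :=
    (hφ.continuous.comp (by fun_prop : Continuous fun z : Ph => ((0 : ℝ), z.1))).measurable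
  have b0 : ∀ z : Ph, |φ 0 z.1| ≤ C := fun z => (hC 0 z.1 le_rfl).1
  have t1 := (h.weak 0 le_rfl _ m0 ⟨C, b0⟩).add (bal_weakST h R mT bT)
  have e1 : ∀ k, (∫ z : Ph, S.F k 0 z * φ 0 z.1) + ∫ p, S.F k p.1 p.2 * transX φ p.1 p.2 ∂(mu3 R)
      = 0 := fun k => by
    rw [← (S.appr k).localMass (S.pos k) hφ hR.le]
    simp only [(hz R _ le_rfl).1, mul_zero, integral_zero]
  simp only [e1] at t1
  have e2 := tendsto_nhds_unique t1 tendsto_const_nhds
  have e3 : ∫ z : Ph, F 0 z * φ 0 z.1 = ∫ x : T3, (∫ v, F₀ (x, v)) * φ 0 x := by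
    have i1 := w0_int S.datum.integrable m0 b0
    rw [integral_congr_ae (g := fun z => F₀ z * φ 0 z.1)
      (by filter_upwards [h.init] with z hz; rw [hz])]
    rw [Measure.volume_eq_prod] at i1 ⊢
    rw [integral_prod _ i1]
    simp only [integral_mul_const]
  have i2 : Integrable (fun p : ℝ × Ph => F p.1 p.2 * transX φ p.1 p.2) (mu3 R) := by
    refine bal_dom (v := fun p : ℝ × Ph => p.2.2) (C := 3 * C) (h.intST R) h.meas mT
      (fun p => h.nonneg _ _) ?_
    filter_upwards [Measure.quasiMeasurePreserving_fst.ae (ae_restrict_mem measurableSet_Ioc)]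
      with p hp
    exact bT p hp.1.le
  rw [setIntegral_eq_of_subset_of_forall_sdiff_eq_zero measurableSet_Ioi
    (Ioc_subset_Ioi_self : Ioc 0 R ⊆ Ioi 0), add_comm, ← e3]
  · refine Eq.trans ?_ e2
    rw [integral_prod _ i2]
    exact congrArg _ (setIntegral_congr_fun measurableSet_Ioc
      fun t ht => (bal_slice h hφ ht.1.le).symm)
  · intro t ht
    have h1 : R ≤ t := le_of_not_ge fun h2 => ht.2 ⟨ht.1, h2⟩
    simp only [(hz t _ h1).2.1, (hz t _ h1).2.2, mul_zero, Finset.sum_const_zero, add_zero,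
      integral_zero]

theorem bal_mom (h : Lim S U F) {t : ℝ} (ht : 0 ≤ t) (i : Fin 3) :
    Tendsto (fun k => ∫ z : Ph, z.2 i * S.F k t z) (U : Filter ℕ)
      (𝓝 (∫ z : Ph, z.2 i * F t z)) := by
  have h1 := h.weak1 ht (fun z : Ph => z.2 i / (1 + ‖z.2‖)) (by fun_prop) ⟨1, fun z => by
    have h0 : 0 < 1 + ‖z.2‖ := by positivity
    have h1 : |z.2 i| ≤ ‖z.2‖ := PiLp.norm_apply_le z.2 i
    rw [abs_div, abs_of_pos h0, div_le_one h0]
    linarith⟩
  have e : ∀ (a : ℝ) (z : Ph), (1 + ‖z.2‖) * a * (z.2 i / (1 + ‖z.2‖)) = z.2 i * a := fun a z => by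
    have h0 : 0 < 1 + ‖z.2‖ := by positivity
    field_simp
  simp only [e] at h1
  exact h1

theorem Lim.momentum (h : Lim S U F) {t : ℝ} (ht : 0 ≤ t) (i : Fin 3) :
    ∫ z : Ph, z.2 i * F t z = ∫ z : Ph, z.2 i * F₀ z := by
  have h1 := bal_mom h ht i
  simp only [fun k => (S.appr k).momentum (S.pos k) ht i] at h1
  rw [tendsto_nhds_unique h1 (bal_mom h le_rfl i)]
  refine integral_congr_ae ?_
  filter_upwards [h.init] with z hz
  rw [hz]

theorem Lim.energy (h : Lim S U F) {t : ℝ} (ht : 0 ≤ t) :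
    ∫⁻ z : Ph, ENNReal.ofReal (‖z.2‖ ^ 2 * F t z)
      ≤ ∫⁻ z : Ph, ENNReal.ofReal (‖z.2‖ ^ 2 * F₀ z) := by
  have mw : Measurable fun z : Ph => ‖z.2‖ ^ 2 := by fun_prop
  refine ((h.weak t ht).lintegral_le (fun k => (S.appr k).integrable ht)
    (fun k => (S.appr k).meas_t t) (h.int t ht) (h.meas_t t) (fun k => (S.appr k).nonneg t)
    (h.nonneg t) mw fun z => sq_nonneg _).trans ?_
  have t1 := (S.conv.mono_left h.le).const_add (∫⁻ z : Ph, ENNReal.ofReal (‖z.2‖ ^ 2 * F₀ z))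
  rw [add_zero] at t1
  rw [← t1.liminf_eq]
  refine liminf_le_liminf (Eventually.of_forall fun k => ?_)
  have m1 : Measurable fun z : Ph => ENNReal.ofReal (‖z.2‖ ^ 2 * F₀ z) :=
    (mw.mul S.datum.meas).ennreal_ofReal
  rw [(S.appr k).energy (S.pos k) ht, ← lintegral_add_left m1]
  refine lintegral_mono fun z => le_trans (ENNReal.ofReal_le_ofReal ?_) ENNReal.ofReal_add_le
  have h1 := mul_le_mul_of_nonneg_left (le_abs_self (S.F k 0 z - F₀ z)) (sq_nonneg ‖z.2‖)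
  have h2 := abs_nonneg (S.F k 0 z - F₀ z)
  linarith

theorem Lim.entropy (h : Lim S U F) {t : ℝ} (ht : 0 ≤ t) :
    Hm (F t) + ∫⁻ s in Ioc 0 t, Dis (F s) ≤ Hm F₀ := by
  rw [← ENNReal.add_le_add_iff_right ENNReal.one_ne_top, add_right_comm]
  have h1 : ∀ u v : ℕ → ℝ≥0∞, liminf u (U : Filter ℕ) + liminf v (U : Filter ℕ) ≤
      liminf (fun k => u k + v k) (U : Filter ℕ) := fun u v => by
    obtain ⟨a, -, ha⟩ := isCompact_univ.ultrafilter_le_nhds (U.map u) (by simp)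
    obtain ⟨b, -, hb⟩ := isCompact_univ.ultrafilter_le_nhds (U.map v) (by simp)
    have ta : Tendsto u (U : Filter ℕ) (𝓝 a) := ha
    have tb : Tendsto v (U : Filter ℕ) (𝓝 b) := hb
    rw [ta.liminf_eq, tb.liminf_eq, (ta.add tb).liminf_eq]
  refine (add_le_add (h.entr ht) (h.diss t)).trans ((h1 _ _).trans ?_)
  rw [← ((S.ent.mono_left h.le).add_const 1).liminf_eq]
  exact liminf_le_liminf (Eventually.of_forall fun k => (S.appr k).entropy (S.two_le k) ht)

theorem Lim.bound (h : Lim S U F) (T : ℝ) :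
    ∃ C : ℝ≥0∞, C < ⊤ ∧ ∀ t ∈ Icc 0 T, Mom (F t) ≤ C := by
  obtain ⟨C, -, hC⟩ := h.mom
  refine ⟨Hm F₀ + 5 * ENNReal.ofReal C + 1, ?_, fun t ht => ?_⟩
  · exact ENNReal.add_lt_top.2 ⟨ENNReal.add_lt_top.2 ⟨S.datum.Hm_lt_top,
      ENNReal.mul_lt_top (by norm_num) ENNReal.ofReal_lt_top⟩, ENNReal.one_lt_top⟩
  · refine (Mom_le (h.meas_t t) (h.nonneg t)).trans (add_le_add_left (add_le_add
      (le_self_add.trans (h.entropy ht.1)) (mul_le_mul_right (hC t ht.1) _)) _)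

end

end Vale.Agent.P140
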