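import Vale.Agent.P140.Geo2
import Vale.Agent.P140.KN

/-! The narrow barrier compared with the fiber profile. -/

namespace Vale.Agent.P140

open MeasureTheory Set Filter Topology
open scoped ENNReal RealInnerProductSpace

noncomputable section

theorem aS_mem (M : ℕ) {σ : ℝ} (hσ : σ = 1 ∨ σ = -1) (p : ℂ) : aS M σ p ∈ Icc (0 : ℝ) 2 :=
  ⟨le_max_left _ _, max_le zero_le_two (by linarith [(abs_le.1 (abs_sec_le M hσ p)).1])⟩

theorem barA_bdd (M : ℕ) {σ : ℝ} (hσ : σ = 1 ∨ σ = -1) (t : ℝ) (ξ : ℂ) (v : V) :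
    BddAbove ((fun s : ℝ => aS M σ (ξ + (s : ℂ) * tp v)) '' Icc t (1 / 8)) :=
  ⟨2, forall_mem_image.2 fun _ _ => (aS_mem M hσ _).2⟩

theorem aS_le_Xi (M : ℕ) {σ : ℝ} (hσ : σ = 1 ∨ σ = -1) {t : ℝ} (ht : t ≤ 1 / 8) (ξ : ℂ) (v : V) :
    aS M σ (ξ + (t : ℂ) * tp v) ≤ Xi M σ t ξ v :=
  le_csSup (barA_bdd M hσ t ξ v) ⟨t, ⟨le_rfl, ht⟩, rfl⟩

theorem Xi_anti (M : ℕ) {σ : ℝ} (hσ : σ = 1 ∨ σ = -1) {s t : ℝ} (hst : s ≤ t) (ht : t ≤ 1 / 8)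
    (ξ : ℂ) (v : V) : Xi M σ t ξ v ≤ Xi M σ s ξ v :=
  csSup_le_csSup (barA_bdd M hσ s ξ v) ((nonempty_Icc.2 ht).image _)
    (image_mono (Icc_subset_Icc_left hst))

theorem barA_main {P : ℕ} (hP : 1 ≤ P) {E ε D D' K L : ℝ} (h0 : 0 ≤ E) (h1 : E ≤ L * ε)
    (hL : 0 ≤ L) (h2 : 0 ≤ ε) (h3 : ε ≤ D') (h4 : E ≤ D) (hK : 0 ≤ K) (h5 : D' ≤ K * D) :
    E ^ P / D ^ (P + 3) ≤ L ^ P * K ^ (P + 3) * (ε ^ P / D' ^ (P + 3)) := by
  have h6 := h2.trans h3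
  rcases h0.eq_or_lt with rfl | h0
  · rw [zero_pow (by omega), zero_div]
    positivity
  · have h7 : 0 < D' := ((pos_iff_pos_of_mul_pos (h0.trans_le h1)).1
      (hL.lt_of_ne fun h => by simp [← h, h0.not_ge] at h1)).trans_le h3
    rw [← mul_div_assoc, div_le_div_iff₀ (pow_pos (h0.trans_le h4) _) (pow_pos h7 _),
      mul_right_comm (L ^ P), mul_assoc, ← mul_pow, ← mul_pow]
    exact mul_le_mul (pow_le_pow_left₀ h0.le h1 _) (pow_le_pow_left₀ h6 h5 _) (pow_nonneg h6 _)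
      (by positivity)

theorem barA_tail {P : ℕ} (hP : 3 ≤ P) {E e t δ D : ℝ} (h0 : 0 ≤ E)
    (h1 : E ≤ 4 * (e * t ^ 2 * δ ^ 2)) (he : 0 ≤ e) (ht : 0 ≤ t) (h2 : 0 ≤ δ) (h3 : δ ≤ 5)
    (h4 : δ ≤ D) :
    E ^ P / D ^ (P + 3) ≤ 20 ^ P * (e ^ P * t ^ (2 * P)) := by
  rcases h2.eq_or_lt with rfl | h2
  · rw [le_antisymm (by simpa using h1) h0, zero_pow (by omega), zero_div]
    positivity
  · obtain ⟨n, rfl⟩ : ∃ n, P = n + 3 := ⟨P - 3, by omega⟩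
    rw [div_le_iff₀ (pow_pos (h2.trans_le h4) _)]
    calc E ^ (n + 3) ≤ (4 * (e * t ^ 2 * δ ^ 2)) ^ (n + 3) := pow_le_pow_left₀ h0 h1 _
      _ = 4 ^ (n + 3) * δ ^ n * (e ^ (n + 3) * t ^ (2 * (n + 3))) * δ ^ (n + 3 + 3) := by ring
      _ ≤ 4 ^ (n + 3) * 5 ^ (n + 3) * (e ^ (n + 3) * t ^ (2 * (n + 3))) * D ^ (n + 3 + 3) := by
        have : δ ^ n ≤ 5 ^ (n + 3) := (pow_le_pow_left₀ h2.le h3 _).trans
          (pow_le_pow_right₀ (by norm_num) (by omega))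
        gcongr
      _ = _ := by
        rw [← mul_pow]
        norm_num

theorem Shp_mono {P : ℕ} (hP : 1 ≤ P) (M : ℕ) {c e0 σ : ℝ} (hc : 0 ≤ c) (he : 0 ≤ e0)
    (hσ : σ = 1 ∨ σ = -1) {s t : ℝ} (hs : 0 < s) (hst : s ≤ t) (ht : t ≤ 1 / 8) (ξ : ℂ) (v : V) :
    Shp P M c e0 σ s ξ v ≤ Shp P M c e0 σ t ξ v := by
  unfold Shp
  split_ifs
  · have h1 := (aS_mem M hσ _).1.trans (aS_le_Xi M hσ ht ξ v)
    have h2 := Xi_anti M hσ hst ht ξ v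
    have h3 := dsig_anti hc σ hs hst ξ v
    have h4 : 0 ≤ dsig c σ t ξ v := norm_nonneg _
    refine ENNReal.ofReal_le_ofReal ((barA_main (D' := dsig c σ t ξ v + Xi M σ t ξ v + Ef e0 ‖ξ‖)
      hP (Ef_nonneg he _) (one_mul _).ge zero_le_one (Ef_nonneg he _) (by linarith)
      (by linarith) zero_le_one (by linarith)).trans_eq ?_)
    rw [one_pow, one_pow, one_mul, one_mul]
  · exact le_rfl

theorem Sh_fl_mono {P : ℕ} (hP : 1 ≤ P) (M : ℕ) {c e0 : ℝ} (hc : 0 ≤ c) (he : 0 ≤ e0)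
    {s t : ℝ} (hs : 0 < s) (hst : s ≤ t) (ht : t ≤ 1 / 8) (z : Ph) :
    Sh P M c e0 s (fl s z) ≤ Sh P M c e0 t (fl t z) := by
  rw [Sh, Sh, xi_fl, xi_fl]
  exact add_le_add (Shp_mono hP M hc he (Or.inl rfl) hs hst ht _ _)
    (Shp_mono hP M hc he (Or.inr rfl) hs hst ht _ _)

theorem barA_key {c e0 t : ℝ} (hc : 0 < c) (he : 0 ≤ e0) (ht : 0 < t) (σ : ℝ) {x : T3} {w : V}
    {ξ : ℂ} (h : ξ + (t : ℂ) * tp w = X x) :
    |√(Ef e0 ‖ξ‖) - √(epsf c e0 t x)| ≤ √e0 * (t * ‖w - Uf c σ t x‖) := by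
  have h1 : ‖tp w - uf c t x‖ ≤ ‖w - Uf c σ t x‖ := norm_tp_sub_le _ _ _
  have t0 : (t : ℂ) ≠ 0 := Complex.ofReal_ne_zero.2 ht.ne'
  obtain ⟨ρ, r1, r2⟩ : ∃ ρ, epsf c e0 t x = Ef e0 ρ ∧ |‖ξ‖ - ρ| ≤ t * ‖tp w - uf c t x‖ := by
    rcases le_total (c * t) ‖X x‖ with h2 | h2
    · have h3 : X x ≠ 0 := norm_pos_iff.1 ((mul_pos hc ht).trans_le h2)
      refine ⟨_, rfl, ?_⟩
      have h4 := abs_norm_sub_norm_le ξ (((‖X x‖ - c * t : ℝ) : ℂ) * hat (X x))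
      rw [norm_mul, norm_hat h3, mul_one, Complex.norm_of_nonneg (sub_nonneg.2 h2)] at h4
      refine h4.trans_eq ?_
      rw [uf_of_ge hc ht h2, ← Complex.norm_of_nonneg ht.le, ← norm_mul, norm_sub_rev,
        Complex.norm_of_nonneg ht.le]
      congr 1
      push_cast
      linear_combination norm_mul_hat (X x) - h
    · refine ⟨0, ?_, le_of_eq ?_⟩
      · rw [epsf, Ef, Ef, max_eq_left ((min_le_left _ _).trans (sub_nonpos.2 h2)),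
          max_eq_left (min_le_left _ _)]
      · rw [sub_zero, abs_norm, uf_of_le ht h2, ← Complex.norm_of_nonneg ht.le, ← norm_mul,
          ← norm_neg, Complex.norm_of_nonneg ht.le, ← h]
        congr 1
        field_simp
        ring
  have h5 := mul_le_mul_of_nonneg_left (r2.trans (mul_le_mul_of_nonneg_left h1 ht.le))
    (Real.sqrt_nonneg e0)
  have h6 := sqrt_Ef_le he ρ ‖ξ‖
  rw [abs_sub_comm] at h6
  rw [r1, abs_le]
  exact ⟨by linarith, by linarith [sqrt_Ef_le he ‖ξ‖ ρ]⟩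

theorem barA_fin {b : Prop} [Decidable b] (hb : b) {x y z C1 C2 : ℝ} (h1 : 0 ≤ C1) (h2 : 0 ≤ C2)
    (hy : 0 ≤ y) (hz : 0 ≤ z) (h : x ≤ C1 * y ∨ x ≤ C2 * z) : ENNReal.ofReal x ≤
      ENNReal.ofReal (C1 + C2) * ENNReal.ofReal y +
        if b then ENNReal.ofReal ((C1 + C2) * z) else 0 := by
  rw [if_pos hb, ← ENNReal.ofReal_mul (add_nonneg h1 h2),
    ← ENNReal.ofReal_add (by positivity) (by positivity)]
  refine ENNReal.ofReal_le_ofReal ?_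
  rcases h with h | h <;>
    nlinarith [mul_nonneg h1 hy, mul_nonneg h2 hy, mul_nonneg h1 hz, mul_nonneg h2 hz]

theorem barA_five {c σ t : ℝ} (hc : 0 < c) (hc' : c ≤ 1 / 2) (hσ : σ = 1 ∨ σ = -1) (x : T3) {w : V}
    (hw : ‖w‖ ≤ 3) : ‖w - Uf c σ t x‖ ≤ 5 :=
  (norm_sub_le _ _).trans (by linarith [norm_Uf_le hc.le hc' hσ t x])

theorem barA_sq {e t δ : ℝ} (he : 0 ≤ e) : (√e * (t * δ)) ^ 2 = e * t ^ 2 * δ ^ 2 := by
  rw [mul_pow, Real.sq_sqrt he]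
  ring

theorem Shp_up {P : ℕ} (hP : 3 ≤ P) (M : ℕ) {c : ℝ} (hc : 0 < c) (hc' : c ≤ 1 / 2) :
    ∃ C : ℝ, 1 ≤ C ∧ ∀ e0 ∈ Ioc (0 : ℝ) 1, ∀ t ∈ Ioc (0 : ℝ) (1 / 100), ∀ σ : ℝ,
      (σ = 1 ∨ σ = -1) → ∀ (x : T3) (w : V), Shp P M c e0 σ t (xi t (x, w)) w
        ≤ ENNReal.ofReal C * Nf P (epsf c e0 t x) (aS M σ (X x)) (Uf c σ t x) w
          + if ‖w‖ ≤ 3 then ENNReal.ofReal (C * (e0 ^ P * t ^ (2 * P))) else 0 := by
  refine ⟨4 ^ P * 2 ^ (P + 3) + 20 ^ P, le_add_of_nonneg_of_le (by positivity)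
    (one_le_pow₀ (by norm_num)), fun e0 he t ht σ hσ x w => ?_⟩
  rw [Shp]
  by_cases h : ‖w‖ ≤ 3 ∧ ‖xi t (x, w)‖ ≤ 1 / 4
  swap
  · rw [if_neg h]
    exact zero_le
  have ch := xi_chart ht.1.le x w (by nlinarith [h.1, h.2, ht.1, ht.2])
  have k1 := abs_le.1 (barA_key hc he.1.le ht.1 σ ch)
  have k2 := aS_le_Xi M hσ (ht.2.trans (by norm_num)) (xi t (x, w)) w
  have k3 := barA_sq (t := t) (δ := ‖w - Uf c σ t x‖) he.1.le
  have k4 := barA_five (t := t) hc hc' hσ x h.1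
  have k5 := (aS_mem M hσ (X x)).1
  have e1 : 0 ≤ Ef e0 ‖xi t (x, w)‖ := Ef_nonneg he.1.le _
  have e2 : 0 ≤ epsf c e0 t x := Ef_nonneg he.1.le _
  have s1 := Real.sq_sqrt e1
  have s2 := Real.sq_sqrt e2
  have s3 := Real.sqrt_nonneg (Ef e0 ‖xi t (x, w)‖)
  have s4 := Real.sqrt_nonneg (epsf c e0 t x)
  have d0 := norm_nonneg (w - Uf c σ t x)
  have t0 := ht.1.le
  have e0' := he.1.le
  rw [ch] at k2
  rw [if_pos h, Nf, if_pos h.1, dsig_xi c σ ch]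
  refine barA_fin h.1 (by positivity) (by positivity) (by positivity) (by positivity) ?_
  generalize ‖w - Uf c σ t x‖ = δ at *
  generalize √e0 * (t * δ) = η at *
  rcases le_total η √(epsf c e0 t x) with h1 | h1
  · have b1 : η ^ 2 ≤ δ / 2 := by
      have : e0 * t ^ 2 ≤ 1 / 100 := by nlinarith [he.2, ht.2]
      rw [k3]
      nlinarith [mul_nonneg d0 (sub_nonneg.2 k4), sq_nonneg δ]
    refine Or.inl (barA_main (by omega) e1 (by nlinarith [k1.2]) (by norm_num) e2 (by linarith)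
      (by linarith) zero_le_two ?_)
    nlinarith [k1.1, sq_nonneg (√(Ef e0 ‖xi t (x, w)‖) - η)]
  · exact Or.inr (barA_tail hP e1 (by nlinarith [k1.2]) e0' t0 d0 k4 (by linarith))

theorem barA_Xi (M : ℕ) {c t σ : ℝ} (hc : 0 < c) (ht : 0 < t) (ht' : t ≤ 1 / 8)
    (hσ : σ = 1 ∨ σ = -1) {x : T3} {w : V} {ξ : ℂ} (h : ξ + (t : ℂ) * tp w = X x)
    (hx : c * t ≤ ‖X x‖) : Xi M σ t ξ w ≤ aS M σ (X x) + 2 * M / c * ‖w - Uf c σ t x‖ := by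
  refine csSup_le ((nonempty_Icc.2 ht').image _) (forall_mem_image.2 fun s hs => ?_)
  have h0 : 0 < ‖X x‖ := (mul_pos hc ht).trans_le hx
  have h1 : ‖tp w - uf c t x‖ ≤ ‖w - Uf c σ t x‖ := norm_tp_sub_le _ _ _
  have h2 := sub_nonneg.2 hs.1
  have h3 : 0 < ‖X x‖ + (s - t) * c := by positivity
  have h4 : ‖((‖X x‖ + (s - t) * c : ℝ) : ℂ) * hat (X x)‖ = ‖X x‖ + (s - t) * c := by
    rw [norm_mul, norm_hat (norm_pos_iff.1 h0), mul_one, Complex.norm_of_nonneg h3.le]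
  have h5 := norm_hat_sub_le (norm_pos_iff.1 (h3.trans_eq h4.symm)) (ξ + (s : ℂ) * tp w)
  have h6 : ((‖X x‖ + (s - t) * c : ℝ) : ℂ) * hat (X x) - (ξ + (s : ℂ) * tp w) =
      -(((s - t : ℝ) : ℂ) * (tp w - uf c t x)) := by
    rw [uf_of_ge hc ht hx]
    push_cast
    linear_combination norm_mul_hat (X x) - h
  rw [h4, h6, hat_mul h3, hat_hat, norm_neg, norm_mul, Complex.norm_of_nonneg h2] at h5
  have h7 : 2 * ((s - t) * ‖tp w - uf c t x‖) / (‖X x‖ + (s - t) * c) ≤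
      2 / c * ‖w - Uf c σ t x‖ := by
    rw [div_mul_eq_mul_div, div_le_div_iff₀ h3 hc]
    nlinarith [mul_nonneg h0.le (norm_nonneg (w - Uf c σ t x)),
      mul_le_mul_of_nonneg_left h1 (mul_nonneg h2 hc.le)]
  have h8 := (le_abs_self _).trans ((abs_sec_sub_le M hσ (X x) (ξ + (s : ℂ) * tp w)).trans
    (mul_le_mul_of_nonneg_left (h5.trans h7) (Nat.cast_nonneg M)))
  rw [show (M : ℝ) * (2 / c * ‖w - Uf c σ t x‖) = 2 * M / c * ‖w - Uf c σ t x‖ by ring] at h8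
  exact max_le (add_nonneg (le_max_left _ _) (by positivity))
    (by linarith [le_max_right 0 (1 / 10 - sec M σ (X x)), aS.eq_1 M σ (X x)])

theorem Shp_lo {P : ℕ} (hP : 3 ≤ P) (M : ℕ) {c : ℝ} (hc : 0 < c) (hc' : c ≤ 1 / 2) :
    ∃ C : ℝ, 1 ≤ C ∧ ∀ e0 ∈ Ioc (0 : ℝ) 1, ∀ t ∈ Ioc (0 : ℝ) (1 / 100), ∀ σ : ℝ,
      (σ = 1 ∨ σ = -1) → ∀ (x : T3) (v : V),
        Nf P (epsf c e0 t x) (aS M σ (X x)) (Uf c σ t x) v
          ≤ ENNReal.ofReal C * Shp P M c e0 σ t (xi t (x, v)) v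
            + if ‖v‖ ≤ 3 then ENNReal.ofReal (C * (e0 ^ P * t ^ (2 * P))) else 0 := by
  refine ⟨4 ^ P * (3 + 2 * M / c) ^ (P + 3) + 20 ^ P, le_add_of_nonneg_of_le (by positivity)
    (one_le_pow₀ (by norm_num)), fun e0 he t ht σ hσ x w => ?_⟩
  by_cases h0 : epsf c e0 t x = 0
  · rw [h0, Nf_zero (by omega)]
    exact zero_le
  rw [Nf]
  by_cases h : ‖w‖ ≤ 3
  swap
  · rw [if_neg h]
    exact zero_le
  have r1 := Ef_pos_imp h0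
  have r2 : ‖X x‖ + t * ‖w‖ ≤ 1 / 4 := by nlinarith [r1.2, ht.1, ht.2]
  have ch := xi_chart' ht.1.le x w (by linarith)
  have k1 := abs_le.1 (barA_key hc he.1.le ht.1 σ ch)
  have k2 := barA_Xi M hc ht.1 (ht.2.trans (by norm_num)) hσ ch (sub_pos.1 r1.1).le
  have k3 := barA_sq (t := t) (δ := ‖w - Uf c σ t x‖) he.1.le
  have k4 := barA_five (t := t) hc hc' hσ x h
  have k5 := (aS_mem M hσ (X x)).1
  have k6 := (aS_mem M hσ _).1.trans (aS_le_Xi M hσ (ht.2.trans (by norm_num)) (xi t (x, w)) w)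
  have e1 : 0 ≤ Ef e0 ‖xi t (x, w)‖ := Ef_nonneg he.1.le _
  have e2 : 0 ≤ epsf c e0 t x := Ef_nonneg he.1.le _
  have s1 := Real.sq_sqrt e1
  have s2 := Real.sq_sqrt e2
  have s3 := Real.sqrt_nonneg (Ef e0 ‖xi t (x, w)‖)
  have s4 := Real.sqrt_nonneg (epsf c e0 t x)
  have d0 := norm_nonneg (w - Uf c σ t x)
  have t0 := ht.1.le
  have e0' := he.1.le
  have m0 : 0 ≤ 2 * M / c := by positivity
  rw [if_pos h, Shp, if_pos ⟨h, (norm_xi_le t0 x w).trans r2⟩, dsig_xi c σ ch]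
  refine barA_fin h (by positivity) (by positivity) (by positivity) (by positivity) ?_
  generalize ‖w - Uf c σ t x‖ = δ at *
  generalize √e0 * (t * δ) = η at *
  rcases le_total η (√(epsf c e0 t x) / 2) with h1 | h1
  · have b1 : Ef e0 ‖xi t (x, w)‖ ≤ 3 * epsf c e0 t x := by nlinarith [k1.2]
    refine Or.inl (barA_main (by omega) e2 (by nlinarith [k1.1]) (by norm_num) e1 (by linarith)
      (by linarith) (by linarith) ?_)
    nlinarith [mul_nonneg m0 k5, mul_nonneg m0 e2]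
  · exact Or.inr (barA_tail hP e2 (by nlinarith) e0' t0 d0 k4 (by linarith))

end

end Vale.Agent.P140
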