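import Vale.Agent.P140.BarBAux

/-! The pointwise collision estimate for the barrier. -/

namespace Vale.Agent.P140

open MeasureTheory Set Filter Topology
open scoped ENNReal RealInnerProductSpace

noncomputable section

/-- Fiber majorant of the barrier at one position. -/
theorem Ub_fiber {c : ℝ} (hc : 0 < c) (hc' : c ≤ 1 / 2) (M : ℕ) (R : ℝ) {P b : ℕ} (hP : 3 ≤ P)
    (hb : 1 ≤ b) (hbP : b ≤ 2 * P) {C₂ : ℝ} (hC₂ : 0 < C₂) : ∃ A sb : ℝ, 1 ≤ A ∧ 0 < sb ∧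
      ∀ e0 ∈ Ioc (0 : ℝ) 1, ∀ t ∈ Ioc (0 : ℝ) sb, ∀ (x : T3) (σ : ℝ), (σ = 1 ∨ σ = -1) →
        0 ≤ sec M σ (X x) → ∀ w : V, Ub P M b c e0 R (e0 ^ P) (C₂ * e0) t (x, w)
          ≤ ENNReal.ofReal (A * (C₂ * e0 * t))
              * Nf P (epsf c e0 t x) (aS M σ (X x)) (Uf c σ t x) w
            + ENNReal.ofReal (2 * e0 ^ P * om b t (xi t (x, w)) w) * W c R t (x, w) := by
  obtain ⟨C, hC, hup⟩ := Shp_up hP M hc hc'
  obtain ⟨D, hD⟩ : ∃ D, D = C * (2 + 10 ^ (P + 3)) := ⟨_, rfl⟩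
  have hD0 : 0 < D := hD ▸ by positivity
  obtain ⟨sb, hsb, -, hs⟩ := barb_small (a := 100 + b + C₂ * (D * (5 ^ b * Real.exp (25 / 4))))
    (b := 1) (by positivity) one_pos
  refine ⟨C, sb, hC, hsb, fun e0 he t ht x σ hσ hsec w => ?_⟩
  have ht0 := ht.1
  have he0 := he.1
  have h0 := (mul_le_mul_of_nonneg_left ht.2 (by positivity)).trans hs
  have a1 : 0 ≤ b * t := by positivity
  have a2 : 0 ≤ C₂ * (D * (5 ^ b * Real.exp (25 / 4))) * t := by positivity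
  have ho := (om_mem b ht0.le (xi t (x, w)) w).1
  have hσ' : -σ = 1 ∨ -σ = -1 := by rcases hσ with rfl | rfl <;> simp
  have a3 : e0 ^ P * om b t (xi t (x, w)) w + e0 ^ P * om b t (xi t (x, w)) w
      = 2 * e0 ^ P * om b t (xi t (x, w)) w := by ring
  rw [Ub, barb_Sh _ _ _ _ _ hσ, ← a3, ENNReal.ofReal_add (by positivity) (by positivity), add_mul,
    ← add_assoc]
  refine add_le_add ?_ le_rfl
  by_cases hw : ‖w‖ ≤ 3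
  swap
  · simp [Shp, hw]
  have h1 := hup e0 he t ⟨ht0, by linarith⟩ σ hσ x w
  have h2 := hup e0 he t ⟨ht0, by linarith⟩ (-σ) hσ' x w
  have h3 := Nf_far P (d := 1 / 10) (Ef_nonneg he0.le (‖X x‖ - c * t)) (aS_mem M hσ' (X x)).1
    (by norm_num) (U := Uf c (-σ) t x) (w := w) (le_add_of_nonneg_of_le (norm_nonneg _)
      (le_max_of_le_right (by rw [sec_neg]; linarith)))
  rw [if_pos hw] at h1 h2 h3
  have h4 := barb_eps hc.le hc' he0.le ht0.le P x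
  have h5 : t ^ (2 * P) ≤ (‖X x‖ + t) ^ (2 * P) :=
    pow_le_pow_left₀ ht0.le (le_add_of_nonneg_left (norm_nonneg _)) _
  have h6 := Ef_nonneg he0.le (‖X x‖ - c * t)
  refine (mul_le_mul_right (add_le_add h1 (h2.trans
    (add_le_add (mul_le_mul_right h3 _) le_rfl))) _).trans ?_
  rw [add_assoc, mul_add, ← mul_assoc, ← ENNReal.ofReal_mul (by positivity), mul_comm _ C]
  refine add_le_add le_rfl ?_
  simp (disch := positivity) only [← ENNReal.ofReal_mul, ← ENNReal.ofReal_add]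
  refine (ENNReal.ofReal_le_ofReal ?_).trans ((barb_junk hb ht0 (by linarith) (by linarith) hbP
    (D := C₂ * e0 * t * (D * e0 ^ P)) (by positivity) c R x (w := w) (by linarith)).trans
    (mul_le_mul_left (ENNReal.ofReal_le_ofReal ?_) _))
  · rw [one_div, inv_pow, div_inv_eq_mul, mul_assoc _ (D * _)]
    refine mul_le_mul_of_nonneg_left ?_ (by positivity)
    calc _ ≤ C * (e0 ^ P * (‖X x‖ + t) ^ (2 * P)) + (C * (e0 ^ P * (‖X x‖ + t) ^ (2 * P) *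
          10 ^ (P + 3)) + C * (e0 ^ P * (‖X x‖ + t) ^ (2 * P))) := by
          gcongr
          exact h4
      _ = _ := by rw [hD]; ring
  · calc _ = e0 * (C₂ * (D * (5 ^ b * Real.exp (25 / 4))) * t) *
          (e0 ^ P * om b t (xi t (x, w)) w) := by ring
      _ ≤ _ := mul_le_of_le_one_left (by positivity) (mul_le_one₀ he.2 a2 (by linarith))

theorem barb_six {a₁ a₂ a₃ a₄ a₅ a₆ : ℝ} (h₁ : 0 < a₁) (h₂ : 0 ≤ a₂) (h₃ : 0 ≤ a₃) (h₄ : 0 ≤ a₄)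
    (h₅ : 0 ≤ a₅) (h₆ : 0 ≤ a₆) : ∃ ρ, 0 < ρ ∧ ρ ≤ 1 ∧ a₁ * ρ ≤ 1 ∧ a₂ * ρ ≤ 1 ∧ a₃ * ρ ≤ 1 ∧
      a₄ * ρ ≤ 1 ∧ a₅ * ρ ≤ 1 ∧ a₆ * ρ ≤ 1 := by
  obtain ⟨ρ, h, h', h0⟩ := barb_small (a := a₁ + a₂ + a₃ + a₄ + a₅ + a₆) (by positivity) one_pos
  have := mul_pos h₁ h
  have := mul_nonneg h₂ h.le
  have := mul_nonneg h₃ h.le
  have := mul_nonneg h₄ h.le
  have := mul_nonneg h₅ h.le
  have := mul_nonneg h₆ h.le
  exact ⟨ρ, h, h', by linarith, by linarith, by linarith, by linarith, by linarith, by linarith⟩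

theorem barb_x {Ca L C₂ A D d C₄ e t ρ : ℝ} (hC₂ : C₂ = 8 * Ca * L) (hd : 32 * A * D * L * d = 1)
    (hCa : 0 < Ca) (hL : 0 < L) (hA : 0 < A) (hD : 0 < D) (hC₄ : 0 < C₄) (he : 0 < e) (he1 : e ≤ 1)
    (ht : 0 < t) (htρ : t ≤ ρ) (hρ : ρ ≤ 1)
    (h : 8 * (4 * A * D * L + 4 * A ^ 2 * C₂ * C₄ * L) * ρ ≤ 1) :
    (Ca * e + 2 * (2 * A * (C₂ * e)) * (D * (t + d)) + (2 * A * (C₂ * e) * t) ^ 2 * C₄) * L
      ≤ C₂ * e / 2 := by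
  have h0 : 0 < C₂ := hC₂ ▸ by positivity
  have h1 : e * t * t ≤ ρ :=
    (mul_le_of_le_one_left ht.le (mul_le_one₀ he1 ht.le (by linarith))).trans htρ
  have h2 := mul_le_mul_of_nonneg_left h1 (show 0 ≤ 4 * A ^ 2 * C₂ * C₄ * L by positivity)
  have h3 := mul_le_mul_of_nonneg_left htρ (show 0 ≤ 4 * A * D * L by positivity)
  calc _ = Ca * L * e + C₂ * e * (32 * A * D * L * d / 8 + (4 * A * D * L * t
        + 4 * A ^ 2 * C₂ * C₄ * L * (e * t * t))) := by ring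
    _ ≤ Ca * L * e + C₂ * e * (1 / 8 + 1 / 8) := by
        rw [hd]
        gcongr
        linarith
    _ ≤ _ := by
        rw [hC₂]
        linarith [show 0 < Ca * L * e by positivity]

theorem barb_y {C₂ A D J G C₅ C₆ e e₁ t ρ : ℝ} (hC₂ : 0 < C₂) (hA : 0 < A) (hD : 0 < D) (hJ : 0 < J)
    (hG : 0 < G) (hC₅ : 0 < C₅) (hC₆ : 0 < C₆) (he : 0 < e) (ht1 : t ≤ 1)
    (h1 : e ≤ ρ) (h2 : e₁ ≤ ρ) (h3 : √e ≤ ρ)
    (h : 8 * ((C₂ / 2 + 4 * A * C₂ * D) * J + 8 * G + 16 * A * C₂ * C₅ + 16 * C₆) * ρ ≤ 1) :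
    (C₂ * e / 2 + 2 * (2 * A * (C₂ * e)) * D) * J + 8 * (1 / 64 + G * √e)
      + 8 * (2 * A * (C₂ * e) * t) * C₅ + 16 * e₁ * C₆ ≤ 1 / 2 := by
  have h4 : e * t ≤ ρ := (mul_le_of_le_one_right he.le ht1).trans h1
  linarith [mul_le_mul_of_nonneg_left h1 (show 0 ≤ (C₂ / 2 + 4 * A * C₂ * D) * J by positivity),
    mul_le_mul_of_nonneg_left h3 hG.le, mul_le_mul_of_nonneg_left h2 hC₆.le,
    mul_le_mul_of_nonneg_left h4 (show 0 ≤ A * C₂ * C₅ by positivity)]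

theorem barb_fin {T₁ T₂ T₃ T₄ T₅ T₆ S Y : ℝ≥0∞} {a t e n J c₁ c₂ c₂' c₃ c₄ c₅ c₆ L Cj e₂ : ℝ}
    (ha : 0 ≤ a) (ht : 0 ≤ t) (he : 0 ≤ e) (hn : 0 ≤ n) (hJ : 0 ≤ J) (p₁ : 0 ≤ c₁) (p₂ : 0 ≤ c₂)
    (p₂' : 0 ≤ c₂') (p₃ : 0 ≤ c₃) (p₄ : 0 ≤ c₄) (p₅ : 0 ≤ c₅) (p₆ : 0 ≤ c₆)
    (hC : 0 ≤ Cj) (he₂ : 0 ≤ e₂) (h1 : T₁ ≤ ENNReal.ofReal (c₁ * n))
    (h2 : ENNReal.ofReal t * T₂ ≤ ENNReal.ofReal (c₂ * n + c₂' * J))
    (h3 : ENNReal.ofReal e * T₃ ≤ ENNReal.ofReal c₃ * Y) (h4 : T₄ ≤ ENNReal.ofReal (c₄ * n))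
    (h5 : ENNReal.ofReal e * T₅ ≤ ENNReal.ofReal c₅ * Y)
    (h6 : ENNReal.ofReal e * T₆ ≤ ENNReal.ofReal c₆ * Y)
    (h7 : ENNReal.ofReal n ≤ ENNReal.ofReal L * (S + ENNReal.ofReal J))
    (h8 : ENNReal.ofReal J ≤ ENNReal.ofReal Cj * Y)
    (hx : (c₁ + 2 * a * c₂ + (a * t) ^ 2 * c₄) * L ≤ e₂)
    (hy : (e₂ + 2 * a * c₂') * Cj + 8 * c₃ + 8 * (a * t) * c₅ + 16 * e * c₆ ≤ 1 / 2) :
    T₁ + 2 * (ENNReal.ofReal (a * t) * T₂ + ENNReal.ofReal (4 * e) * T₃)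
      + (ENNReal.ofReal (a * t) * ENNReal.ofReal (a * t) * T₄
        + 2 * (ENNReal.ofReal (a * t) * ENNReal.ofReal (4 * e) * T₅)
        + ENNReal.ofReal (4 * e) * ENNReal.ofReal (4 * e) * T₆)
      ≤ ENNReal.ofReal e₂ * S + ENNReal.ofReal (1 / 2) * Y := by
  replace hx := ENNReal.ofReal_le_ofReal hx
  replace hy := ENNReal.ofReal_le_ofReal hy
  simp (disch := positivity) only [ENNReal.ofReal_mul, ENNReal.ofReal_add, ENNReal.ofReal_ofNat,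
    ENNReal.ofReal_pow] at h1 h2 h4 hx hy ⊢
  generalize ENNReal.ofReal a = a, ENNReal.ofReal t = t, ENNReal.ofReal e = e,
    ENNReal.ofReal n = n, ENNReal.ofReal J = J, ENNReal.ofReal c₁ = c₁, ENNReal.ofReal c₂ = c₂,
    ENNReal.ofReal c₂' = c₂', ENNReal.ofReal c₃ = c₃, ENNReal.ofReal c₄ = c₄,
    ENNReal.ofReal c₅ = c₅, ENNReal.ofReal c₆ = c₆, ENNReal.ofReal L = L, ENNReal.ofReal Cj = Cj,
    ENNReal.ofReal e₂ = e₂ at *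
  calc _ = T₁ + 2 * a * (t * T₂) + 8 * (e * T₃) + (a * t) ^ 2 * T₄ + 8 * (a * t) * (e * T₅)
        + 16 * e * (e * T₆) := by ring
    _ ≤ c₁ * n + 2 * a * (c₂ * n + c₂' * J) + 8 * (c₃ * Y) + (a * t) ^ 2 * (c₄ * n)
        + 8 * (a * t) * (c₅ * Y) + 16 * e * (c₆ * Y) := by gcongr
    _ = (c₁ + 2 * a * c₂ + (a * t) ^ 2 * c₄) * n + 2 * a * c₂' * J
        + (8 * c₃ + 8 * (a * t) * c₅ + 16 * e * c₆) * Y := by ring
    _ ≤ (c₁ + 2 * a * c₂ + (a * t) ^ 2 * c₄) * (L * (S + J)) + 2 * a * c₂' * J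
        + (8 * c₃ + 8 * (a * t) * c₅ + 16 * e * c₆) * Y := by gcongr
    _ ≤ e₂ * (S + Cj * Y) + 2 * a * c₂' * (Cj * Y)
        + (8 * c₃ + 8 * (a * t) * c₅ + 16 * e * c₆) * Y := by
        rw [← mul_assoc _ L]
        gcongr
    _ = e₂ * S + ((e₂ + 2 * a * c₂') * Cj + 8 * c₃ + 8 * (a * t) * c₅ + 16 * e * c₆) * Y := by ring
    _ ≤ _ := by gcongr

theorem bar_pointwise {c K R : ℝ} (M : ℕ) (hc : 0 < c) (hc' : c ≤ 1 / 2) (hK : 0 < K)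
    (hR : 3 ≤ R) : ∃ (P b : ℕ) (C₂ sb : ℝ), 50 ≤ P ∧ 1 ≤ b ∧ b ≤ 2 * P ∧ 0 < C₂ ∧ 0 < sb ∧
      sb ≤ 1 / 100 ∧ ∀ e0 r1 : ℝ, CP.Ok ⟨c, K, M, e0, r1⟩ → e0 ≤ sb → ∀ t ∈ Ioc (0 : ℝ) sb,
        ∀ (x : T3) (v : V) (f : V → ℝ≥0∞),
          (∀ w, f w ≤ ENNReal.ofReal (cf ⟨c, K, M, e0, r1⟩ t (x, w))
            + 2 * Ub P M b c e0 R (e0 ^ P) (C₂ * e0) t (x, w)) →
          Qe f f v ≤ ENNReal.ofReal (C₂ * e0 / 2) * Sh P M c e0 t (x, v)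
            + ENNReal.ofReal (e0 ^ P / 2 * (Dm b t (xi t (x, v)) v * om b t (xi t (x, v)) v))
              * W c R t (x, v) := by
  obtain ⟨C₃, hC₃, T3⟩ := barb_T3
  obtain ⟨b, hb⟩ := exists_nat_ge (10 * (C₃ * K) / c + 1)
  have h0 : 0 < 10 * (C₃ * K) / c := by positivity
  have hb1 : 1 ≤ b := by exact_mod_cast (show (1 : ℝ) ≤ b by linarith)
  have hb2 : 10 * (C₃ * K) ≤ b * c := (div_le_iff₀ hc).1 (by linarith)
  obtain ⟨P, hP⟩ : ∃ P, P = 50 + b := ⟨_, rfl⟩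
  obtain ⟨C₂', hC₂', T2⟩ := barb_T2 P
  obtain ⟨C₄, hC₄, T4⟩ := barb_T4 (P := P) (by omega)
  obtain ⟨C₅, hC₅, T5⟩ := barb_T5 (P := P) (by omega)
  obtain ⟨C₆, hC₆, T6⟩ := barb_T6 R b
  obtain ⟨L, hL, hlo⟩ := Shp_lo (P := P) (by omega) M hc hc'
  obtain ⟨Ca, hCa⟩ : ∃ Ca, Ca = 404000 * K ^ 2 * (9 + 4 * M / c) ^ (P + 3) := ⟨_, rfl⟩
  obtain ⟨D, hD⟩ : ∃ D, D = C₂' * (9 + 4 * M / c) ^ 2 * (K / c) := ⟨_, rfl⟩
  obtain ⟨J, hJ⟩ : ∃ J, J = 24 * (5 ^ b * Real.exp (25 / 4)) := ⟨_, rfl⟩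
  have hCa0 : 0 < Ca := hCa ▸ by positivity
  have hD0 : 0 < D := hD ▸ by positivity
  have hJ0 : 0 < J := hJ ▸ by positivity
  obtain ⟨C₂, hC₂⟩ : ∃ C₂, C₂ = 8 * Ca * L := ⟨_, rfl⟩
  have hC₂0 : 0 < C₂ := hC₂ ▸ by positivity
  obtain ⟨A, s₀, hA, hs₀, hU⟩ := Ub_fiber hc hc' M R (P := P) (by omega) hb1 (by omega) hC₂0
  obtain ⟨d, hd⟩ : ∃ d, d = 1 / (32 * A * D * L) := ⟨_, rfl⟩
  have hd0 : 0 < d := hd ▸ by positivity
  obtain ⟨ρ, hρ, hρ1, p1, p2, p3, p4, p5, p6⟩ := barb_six (a₁ := 100) (a₂ := b) (a₃ := 10 * R)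
    (a₄ := C₃ * K / c) (a₅ := 8 * (4 * A * D * L + 4 * A ^ 2 * C₂ * C₄ * L))
    (a₆ := 8 * ((C₂ / 2 + 4 * A * C₂ * (D / d ^ (P + 2))) * J + 8 * (C₃ * K) + 16 * A * C₂ * C₅
      + 16 * C₆)) (by norm_num) (by positivity) (by positivity) (by positivity) (by positivity)
    (by positivity)
  have hm : min s₀ (ρ ^ 2) ≤ ρ := (min_le_right _ _).trans (by nlinarith)
  refine ⟨P, b, C₂, min s₀ (ρ ^ 2), by omega, hb1, by omega, hC₂0, lt_min hs₀ (by positivity),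
    by linarith, fun e0 r1 hQ he t ht x v f hf => ?_⟩
  have ht0 := ht.1
  have htρ := ht.2.trans hm
  have he0 : 0 < e0 := hQ.e_pos
  have ht1 : t ≤ 1 / 100 := by linarith
  obtain ⟨σ, hσ, hsec, hcf⟩ := cf_one hQ ht0 ht1 x
  have h : BCtx ⟨c, K, M, e0, r1⟩ R P b t σ := ⟨hQ, hR, by omega, hb1, by omega, ht0, ht1,
    (mul_le_mul_of_nonneg_left htρ (by positivity)).trans p2,
    by linarith [mul_le_mul_of_nonneg_right htρ (show 0 ≤ R by linarith)], hσ⟩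
  have h1 : ∀ w, f w ≤ barC ⟨c, K, M, e0, r1⟩ σ t x w +
      (ENNReal.ofReal (2 * A * (C₂ * e0) * t) * barN ⟨c, K, M, e0, r1⟩ P σ t x w
        + ENNReal.ofReal (4 * e0 ^ P) * barG ⟨c, K, M, e0, r1⟩ b R t x w) := fun w => by
    refine (hf w).trans (add_le_add (by rw [hcf w, barC]) ((mul_le_mul_right (hU e0 ⟨he0, hQ.e_le⟩
      t ⟨ht0, ht.2.trans (min_le_left _ _)⟩ x σ hσ hsec w) _).trans_eq ?_))
    rw [mul_add, barG, ← mul_assoc (2 : ℝ≥0∞), ← mul_assoc (2 : ℝ≥0∞),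
      ← mul_assoc (ENNReal.ofReal (4 * e0 ^ P)), ← ENNReal.ofReal_ofNat 2]
    have ho := (om_mem b ht0.le (xi t (x, w)) w).1
    simp (disch := positivity) only [← ENNReal.ofReal_mul]
    congr 3 <;> ring
  have h2 := T2 h x v d hd0
  have h3 := h.T1 x v
  have h4 := h.J x v
  dsimp only at h2 h3
  rw [← hD, mul_add, ← mul_assoc, ← mul_div_assoc, mul_div_right_comm] at h2
  rw [← hCa] at h3
  rw [← hJ] at h4
  refine ((Qe_mono h1 h1 v).trans_eq (barb_expand (barb_mC _ _ _ _) (measurable_Nf _ _ _ _)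
    (barb_mG _ _ _ _ _) _ _ v)).trans ((barb_fin (by positivity) ht0.le (by positivity) (h.n0 x v)
    (h.J0 x v) (by positivity) (by positivity) (by positivity) (by positivity) hC₄.le hC₅.le hC₆.le
    hJ0.le (by positivity) h3 h2 (T3 h hb2 ?_ x v) (T4 h x v) (T5 h x v) (T6 h x v)
    (h.Z x v hL (hlo e0 ⟨he0, hQ.e_le⟩ t ⟨ht0, ht1⟩ σ hσ x v)) h4
    (barb_x hC₂ (by rw [hd]; field_simp) hCa0 (by linarith) (by linarith) hD0 hC₄ he0 hQ.e_le ht0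
      htρ hρ1 p5)
    (barb_y hC₂0 (by linarith) (by positivity) hJ0 (by positivity) hC₅ hC₆ he0
      (by linarith) (he.trans hm) ((pow_le_of_le_one he0.le hQ.e_le (by omega)).trans (he.trans hm))
      (Real.sqrt_le_iff.2 ⟨hρ.le, he.trans (min_le_right _ _)⟩) p6)).trans_eq ?_)
  · have := (mul_le_mul_of_nonneg_left htρ (by positivity)).trans p4
    rwa [div_mul_eq_mul_div, div_le_one hc, mul_comm] at this
  · rw [barY, ← mul_assoc, ← ENNReal.ofReal_mul (by norm_num)]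
    congr 3
    ring

end

end Vale.Agent.P140
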