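import Vale.Agent.P140.Geo2

/-! The amplitude of the broad barrier. -/

namespace Vale.Agent.P140

open MeasureTheory Set Filter Topology
open scoped ENNReal RealInnerProductSpace

noncomputable section

variable {b : ℕ} {t : ℝ}

theorem baro_mono {x y : ℝ} (hx : 0 ≤ x) (h : x ≤ y) : x / (1 + x) ≤ y / (1 + y) := by
  rw [div_le_div_iff₀ (by linarith) (by linarith)]
  linarith

theorem baro_ge (b : ℕ) (ht : 0 ≤ t) (ξ : ℂ) (v : V) : b * t ≤ ell b t ξ v := by
  have h : 0 ≤ ‖ξ‖ + t * ‖v‖ := by positivity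
  unfold ell
  linarith

theorem baro_nonneg (b : ℕ) (ht : 0 ≤ t) (ξ : ℂ) (v : V) : 0 ≤ ell b t ξ v :=
  le_trans (by positivity) (baro_ge b ht ξ v)

theorem baro_pos (hb : 1 ≤ b) (ht : 0 < t) (ξ : ℂ) (v : V) : 0 < ell b t ξ v :=
  lt_of_lt_of_le (mul_pos (Nat.cast_pos.2 hb) ht) (baro_ge b ht.le ξ v)

theorem baro_scale (ht : 0 ≤ t) {ξ ξ' : ℂ} {v v' : V} {l : ℝ} (hl : 1 ≤ l)
    (h : ell b t ξ' v' ≤ l * ell b t ξ v) : om b t ξ' v' ≤ l ^ b * om b t ξ v := by
  have h0 := baro_nonneg b ht ξ v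
  have h1 := baro_nonneg b ht ξ' v'
  rw [om, om, ← mul_pow]
  refine pow_le_pow_left₀ (by positivity) ((baro_mono h1 h).trans ?_) b
  rw [← mul_div_assoc]
  exact div_le_div_of_nonneg_left (by positivity) (by positivity) (by nlinarith)

theorem baro_exp (hb : 1 ≤ b) {x : ℝ} (hx : 0 ≤ x) : (1 + x / b) ^ b ≤ Real.exp x := by
  have hb' : (b : ℝ) ≠ 0 := (Nat.cast_pos.2 hb).ne'
  calc (1 + x / b) ^ b ≤ Real.exp (x / b) ^ b :=
        pow_le_pow_left₀ (by positivity) (by linarith [Real.add_one_le_exp (x / b)]) b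
    _ = Real.exp x := by rw [← Real.exp_nat_mul, mul_div_cancel₀ _ hb']

theorem baro_div (hb : 1 ≤ b) (ht : 0 ≤ t) (ξ : ℂ) (v : V) {x : ℝ} (hx : 0 ≤ x) :
    t * x ≤ x / b * ell b t ξ v := by
  have hb' : (b : ℝ) ≠ 0 := (Nat.cast_pos.2 hb).ne'
  calc t * x = x / b * (b * t) := by field_simp
    _ ≤ _ := mul_le_mul_of_nonneg_left (baro_ge b ht ξ v) (by positivity)

theorem om_mem (b : ℕ) (ht : 0 ≤ t) (ξ : ℂ) (v : V) : om b t ξ v ∈ Icc (0 : ℝ) 1 := by
  have h0 := baro_nonneg b ht ξ v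
  exact ⟨pow_nonneg (by positivity) b,
    pow_le_one₀ (by positivity) ((div_le_one (by positivity)).2 (by linarith))⟩

theorem om_mono (b : ℕ) {s : ℝ} (hs : 0 ≤ s) (hst : s ≤ t) (ξ : ℂ) (v : V) :
    om b s ξ v ≤ om b t ξ v := by
  have h0 := baro_nonneg b hs ξ v
  refine pow_le_pow_left₀ (by positivity) (baro_mono h0 ?_) b
  unfold ell
  gcongr

theorem om_ge (b : ℕ) (ht : 0 ≤ t) (ξ : ℂ) (v : V) :
    (b * t / (1 + b * t)) ^ b ≤ om b t ξ v :=
  pow_le_pow_left₀ (by positivity) (baro_mono (by positivity) (baro_ge b ht ξ v)) b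

theorem measurable_om (b : ℕ) (t : ℝ) (x : T3) :
    Measurable (fun w : V => om b t (xi t (x, w)) w) := by
  have h : Measurable fun w : V => xi t (x, w) :=
    measurable_xi.comp (f := fun w : V => (t, x, w)) (by fun_prop)
  have h1 : Measurable fun w : V => ell b t (xi t (x, w)) w :=
    (measurable_const.add h.norm).add (measurable_norm.const_mul t)
  exact (h1.div (measurable_const.add h1)).pow_const b

theorem om_shift (hb : 1 ≤ b) (ht : 0 < t) (x : T3) (v w : V) :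
    om b t (xi t (x, w)) w ≤ om b t (xi t (x, v)) v * Real.exp (2 * ‖v - w‖) := by
  have hx : 0 ≤ 2 * ‖v - w‖ := by positivity
  have h1 : ell b t (xi t (x, w)) w ≤ (1 + 2 * ‖v - w‖ / b) * ell b t (xi t (x, v)) v := by
    have h2 := baro_div hb ht.le (xi t (x, v)) v hx
    have h3 := norm_xi_le_xi ht.le x v w
    have h4 := mul_le_mul_of_nonneg_left (norm_le_norm_add_norm_sub v w) ht.le
    rw [add_mul, one_mul]
    have h5 : ell b t (xi t (x, w)) w ≤ ell b t (xi t (x, v)) v + t * (2 * ‖v - w‖) := by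
      unfold ell
      linarith
    linarith
  refine (baro_scale ht.le (le_add_of_nonneg_right (by positivity)) h1).trans ?_
  rw [mul_comm]
  exact mul_le_mul_of_nonneg_left (baro_exp hb hx) (om_mem b ht.le _ _).1

theorem om_coll (hb : 1 ≤ b) (ht : 0 < t) (x : T3) {u v w : V} (h : ‖u‖ ≤ ‖v‖ + ‖w‖) :
    om b t (xi t (x, u)) u ≤ 3 ^ b * om b t (xi t (x, v)) v * Real.exp ‖w‖ := by
  have h0 : 0 ≤ ‖w‖ / b := by positivity
  have h1 : ell b t (xi t (x, u)) u ≤ 3 * (1 + ‖w‖ / b) * ell b t (xi t (x, v)) v := by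
    have h2 := baro_div hb ht.le (xi t (x, v)) v (norm_nonneg w)
    have h3 := norm_xi_le ht.le x u
    have h4 := norm_X_le_xi ht.le x v
    have h5 := mul_le_mul_of_nonneg_left h ht.le
    have h6 : ell b t (xi t (x, u)) u ≤ 3 * ell b t (xi t (x, v)) v + 3 * (t * ‖w‖) := by
      have h7 : 0 ≤ b * t := by positivity
      have h8 : 0 ≤ t * ‖w‖ := by positivity
      unfold ell
      linarith [norm_nonneg (xi t (x, v))]
    linarith
  refine (baro_scale ht.le (by linarith) h1).trans ?_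
  rw [mul_pow, mul_right_comm]
  exact mul_le_mul_of_nonneg_left (baro_exp hb (norm_nonneg w))
    (mul_nonneg (by positivity) (om_mem b ht.le _ _).1)

theorem om_low (hb : 1 ≤ b) (ht : 0 < t) (ht' : t ≤ 1 / 100) (hbt : b * t ≤ 1) {P : ℕ}
    (hP : b ≤ 2 * P) (x : T3) {w : V} (hw : ‖w‖ ≤ 5) :
    (‖X x‖ + t) ^ (2 * P) ≤ 5 ^ b * om b t (xi t (x, w)) w := by
  have h0 := baro_nonneg b ht.le (xi t (x, w)) w
  have h1 : t ≤ b * t := le_mul_of_one_le_left ht.le (Nat.one_le_cast.2 hb)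
  have h2 : ‖X x‖ + t ≤ ell b t (xi t (x, w)) w := by
    unfold ell
    linarith [norm_X_le_xi ht.le x w]
  have h3 : ell b t (xi t (x, w)) w ≤ 4 := by
    unfold ell
    nlinarith [norm_xi_le_one t (x, w), norm_nonneg w]
  refine (pow_le_pow_of_le_one (by positivity) (by linarith [norm_X_le x]) hP).trans ?_
  rw [om, ← mul_pow]
  refine pow_le_pow_left₀ (by positivity) (h2.trans ?_) b
  rw [← mul_div_assoc, le_div_iff₀ (by positivity)]
  nlinarith

theorem Dm_ge (hb : 1 ≤ b) (ht : 0 < t) (ht' : t ≤ 1 / 100) (hbt : b * t ≤ 1) (x : T3) (v : V) :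
    (1 + ‖v‖) / 24 ≤ Dm b t (xi t (x, v)) v := by
  have h0 := baro_pos hb ht (xi t (x, v)) v
  have hb' : (1 : ℝ) ≤ b := Nat.one_le_cast.2 hb
  have hv := norm_nonneg v
  unfold Dm
  rcases le_total ‖v‖ 1 with h | h
  · have h3 : ell b t (xi t (x, v)) v ≤ 2 := by
      unfold ell
      nlinarith [norm_xi_le_one t (x, v)]
    refine le_add_of_le_of_nonneg ?_ (sq_nonneg _)
    exact div_le_div₀ (by positivity) (by nlinarith) (by positivity) (by nlinarith)
  · refine le_add_of_nonneg_of_le (by positivity) ?_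
    nlinarith

theorem Dm_ge_inv (hb : 1 ≤ b) (ht : 0 < t) (hbt : b * t ≤ 1) {c Γ : ℝ} (hc : 0 < c)
    (hc' : c ≤ 1 / 2) (hΓ : 0 < Γ) (hΓb : 10 * Γ ≤ b * c) (htΓ : t * Γ ≤ c) {x : T3}
    (hx : c * t ≤ ‖X x‖) (v : V) : Γ / ‖X x‖ ≤ Dm b t (xi t (x, v)) v := by
  have h0 := baro_pos hb ht (xi t (x, v)) v
  have hb' : (1 : ℝ) ≤ b := Nat.one_le_cast.2 hb
  have hv := norm_nonneg v
  have hr : 0 < ‖X x‖ := lt_of_lt_of_le (by positivity) hx
  unfold Dm
  rcases le_total (t * ‖v‖) 1 with h | h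
  · have h3 : ell b t (xi t (x, v)) v ≤ 4 := by
      unfold ell
      linarith [norm_xi_le_one t (x, v)]
    have h4 : ell b t (xi t (x, v)) v ≤ ‖X x‖ + t * (b + 2 * ‖v‖) := by
      unfold ell
      linarith [norm_xi_le ht.le x v]
    have h5 : c * ell b t (xi t (x, v)) v ≤ 2 * ‖X x‖ * (b + ‖v‖) := by
      have h6 := mul_le_mul_of_nonneg_left h4 hc.le
      have h7 := mul_le_mul_of_nonneg_right hx (by positivity : (0 : ℝ) ≤ b + 2 * ‖v‖)
      have h8 := mul_le_mul_of_nonneg_right (hc'.trans (by linarith : (1 / 2 : ℝ) ≤ b)) hr.le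
      linarith
    refine le_add_of_le_of_nonneg ?_ (sq_nonneg _)
    rw [div_le_div_iff₀ hr (by positivity)]
    generalize ell b t (xi t (x, v)) v = l at h0 h3 h5
    have h6 : Γ * (l * (1 + l)) ≤ Γ * (l * 5) := by gcongr; linarith
    have h7 := mul_le_mul_of_nonneg_right hΓb h0.le
    have h8 := mul_le_mul_of_nonneg_left h5 (by positivity : (0 : ℝ) ≤ b)
    linarith
  · refine le_add_of_nonneg_of_le (by positivity) ?_
    rw [div_le_iff₀ hr]
    have h1 : 1 ≤ (t * ‖v‖) ^ 2 := one_le_pow₀ h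
    have h2 : t * Γ ≤ t * (‖v‖ ^ 2 * (c * t)) := by
      linarith [mul_le_mul_of_nonneg_left h1 hc.le]
    exact (le_of_mul_le_mul_left h2 ht).trans (mul_le_mul_of_nonneg_left hx (sq_nonneg _))

theorem baro_deriv (hb : 1 ≤ b) (ht : 0 < t) (ξ : ℂ) (v : V) :
    HasDerivAt (fun s => om b s ξ v * mt s v) (Dm b t ξ v * om b t ξ v * mt t v) t := by
  have h0 := baro_pos hb ht ξ v
  have h1 : HasDerivAt (fun s => ell b s ξ v) (b + ‖v‖) t := by
    refine ((((hasDerivAt_id' t).const_mul (b : ℝ)).add_const ‖ξ‖).fun_add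
      ((hasDerivAt_id' t).mul_const ‖v‖)).congr_deriv ?_
    rw [mul_one, one_mul]
  have h2 := (h1.div (h1.const_add 1) (by positivity)).pow b
  have h3 : HasDerivAt (fun s => mt s v) (mt t v * ‖v‖ ^ 2) t := by
    refine ((((hasDerivAt_id' t).const_sub (1 / 4)).fun_neg).mul_const
      (‖v‖ ^ 2)).exp.congr_deriv ?_
    rw [neg_neg, one_mul, mt]
  refine (h2.mul h3).congr_deriv ?_
  obtain ⟨m, rfl⟩ := Nat.exists_eq_add_of_le' hb
  simp only [Dm, om, Pi.pow_apply, Pi.div_apply, Nat.add_sub_cancel, pow_succ _ m]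
  field_simp
  ring

theorem lintegral_Dm (hb : 1 ≤ b) {a : ℝ} (ha : 0 < a) (hat : a ≤ t) (ξ : ℂ) (v : V) :
    ∫⁻ s in Ioc a t, ENNReal.ofReal (Dm b s ξ v * om b s ξ v * mt s v)
      ≤ ENNReal.ofReal (om b t ξ v * mt t v) := by
  have hd : ∀ s ∈ Icc a t, HasDerivAt (fun s => om b s ξ v * mt s v)
      (Dm b s ξ v * om b s ξ v * mt s v) s := fun s hs => baro_deriv hb (ha.trans_le hs.1) ξ v
  have hp : ∀ s, 0 < s → 0 ≤ Dm b s ξ v * om b s ξ v * mt s v := fun s hs => by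
    have h0 := baro_pos hb hs ξ v
    refine mul_nonneg (mul_nonneg ?_ (om_mem b hs.le ξ v).1) (mt_pos s v).le
    unfold Dm
    positivity
  have hi := intervalIntegral.integrableOn_deriv_of_nonneg
    (fun s hs => (hd s hs).continuousAt.continuousWithinAt)
    (fun s hs => hd s (Ioo_subset_Icc_self hs)) (fun s hs => hp s (ha.trans hs.1))
  rw [← ofReal_integral_eq_lintegral_ofReal hi
    (ae_restrict_of_forall_mem measurableSet_Ioc fun s hs => hp s (ha.trans hs.1)),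
    ← intervalIntegral.integral_of_le hat,
    intervalIntegral.integral_eq_sub_of_hasDerivAt (fun s hs => hd s (uIcc_of_le hat ▸ hs))
      ((intervalIntegrable_iff_integrableOn_Ioc_of_le hat).2 hi)]
  exact ENNReal.ofReal_le_ofReal
    (sub_le_self _ (mul_nonneg (om_mem b ha.le ξ v).1 (mt_pos a v).le))

end

end Vale.Agent.P140
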