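import Vale.Agent.P140.KW
import Vale.Agent.P140.Swap

/-! Volume integrals of the singular weight and its self-interaction. -/

namespace Vale.Agent.P140

open MeasureTheory Set Filter Topology
open scoped ENNReal RealInnerProductSpace

noncomputable section

theorem kww_polar {E : Type} [NormedAddCommGroup E] [NormedSpace ℝ E] [FiniteDimensional ℝ E]
    [MeasurableSpace E] [BorelSpace E] [Nontrivial E] (μ : Measure E) [μ.IsAddHaarMeasure]
    {f : ℝ → ℝ≥0∞} (hf : Measurable f) : ∫⁻ x, f ‖x‖ ∂μ = μ.toSphere univ *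
      ∫⁻ r in Ioi (0 : ℝ), ENNReal.ofReal (r ^ (Module.finrank ℝ E - 1)) * f r := by
  have hmp := μ.measurePreserving_homeomorphUnitSphereProd
  have m3 : Measurable fun r : Ioi (0 : ℝ) => f r.1 := hf.comp measurable_subtype_coe
  have m1 : Measurable fun w : Metric.sphere (0 : E) 1 × Ioi (0 : ℝ) => f w.2.1 :=
    m3.comp measurable_snd
  have h1 := hmp.lintegral_comp m1
  simp only [homeomorphUnitSphereProd_apply_snd_coe] at h1
  rw [lintegral_subtype_comap (measurableSet_singleton _).compl (fun x : E => f ‖x‖),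
    restrict_compl_singleton] at h1
  rw [h1, lintegral_prod _ m1.aemeasurable]
  simp only [lintegral_const]
  rw [mul_comm, Measure.volumeIoiPow, lintegral_withDensity_eq_lintegral_mul _
    (measurable_subtype_coe.pow_const _).ennreal_ofReal m3]
  congr 1
  exact lintegral_subtype_comap (μ := volume) (measurableSet_Ioi (a := (0 : ℝ)))
    (fun r : ℝ => ENNReal.ofReal (r ^ (Module.finrank ℝ E - 1)) * f r)

theorem kww_ball0 {E : Type} [NormedAddCommGroup E] [NormedSpace ℝ E] [FiniteDimensional ℝ E]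
    [MeasurableSpace E] [BorelSpace E] [Nontrivial E] (μ : Measure E) [μ.IsAddHaarMeasure]
    {p : ℝ} (hp : (Module.finrank ℝ E : ℝ) = p + 1 / 2) {ρ : ℝ} (hρ : 0 < ρ) :
    ∫⁻ x : E, (Iic ρ).indicator (fun r => ENNReal.ofReal r ^ (-p)) ‖x‖ ∂μ
      = μ.toSphere univ * ENNReal.ofReal (2 * Real.sqrt ρ) := by
  have hm : Measurable (fun r : ℝ => ENNReal.ofReal r ^ (-p)) :=
    ENNReal.measurable_ofReal.pow_const _
  rw [kww_polar μ (hm.indicator measurableSet_Iic)]
  congr 1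
  have hn : 1 ≤ Module.finrank ℝ E := Module.finrank_pos
  have e1 : ∀ r ∈ Ioi (0 : ℝ), ENNReal.ofReal (r ^ (Module.finrank ℝ E - 1)) *
      (Iic ρ).indicator (fun r => ENNReal.ofReal r ^ (-p)) r
      = (Iic ρ).indicator (fun r => ENNReal.ofReal (r ^ (-(1 / 2) : ℝ))) r := by
    intro r hr
    have hr0 : 0 < r := hr
    by_cases h : r ∈ Iic ρ
    · rw [indicator_of_mem h, indicator_of_mem h, ENNReal.ofReal_rpow_of_pos hr0,
        ← ENNReal.ofReal_mul (by positivity), ← Real.rpow_natCast, ← Real.rpow_add hr0,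
        Nat.cast_sub hn, hp]
      congr 2
      push_cast
      ring
    · rw [indicator_of_notMem h, indicator_of_notMem h, mul_zero]
  rw [setLIntegral_congr_fun measurableSet_Ioi e1, lintegral_indicator measurableSet_Iic,
    Measure.restrict_restrict measurableSet_Iic, inter_comm, Ioi_inter_Iic,
    ← ofReal_integral_eq_lintegral_ofReal
      (intervalIntegral.intervalIntegrable_rpow' (a := 0) (b := ρ) (r := -(1 / 2))
        (by norm_num)).1
      ((ae_restrict_iff' measurableSet_Ioc).mpr (ae_of_all _ fun r hr =>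
        Real.rpow_nonneg hr.1.le _)),
    ← intervalIntegral.integral_of_le hρ.le, integral_rpow (Or.inl (by norm_num)),
    Real.sqrt_eq_rpow, Real.zero_rpow (by norm_num)]
  congr 1
  norm_num
  ring

theorem kww_gen {E : Type} [NormedAddCommGroup E] [NormedSpace ℝ E] [FiniteDimensional ℝ E]
    [MeasurableSpace E] [BorelSpace E] [Nontrivial E] (μ : Measure E) [μ.IsAddHaarMeasure]
    {p : ℝ} (hp : (Module.finrank ℝ E : ℝ) = p + 1 / 2) : ∃ C : ℝ, 0 < C ∧
    ∀ (U v : E) (ρ : ℝ), 0 < ρ → ∫⁻ a in Metric.closedBall v ρ,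
      ENNReal.ofReal ‖a - U‖ ^ (-p) ∂μ ≤ ENNReal.ofReal (C * Real.sqrt ρ) := by
  have hn : (1 : ℝ) ≤ Module.finrank ℝ E := by exact_mod_cast Module.finrank_pos
  have hp0 : 0 ≤ p := by linarith
  obtain ⟨S, hS0, hS⟩ : ∃ S : ℝ, 0 ≤ S ∧ μ.toSphere univ = ENNReal.ofReal S :=
    ⟨_, ENNReal.toReal_nonneg, (ENNReal.ofReal_toReal (measure_ne_top _ _)).symm⟩
  obtain ⟨B, hB0, hB⟩ : ∃ B : ℝ, 0 ≤ B ∧ μ (Metric.ball 0 1) = ENNReal.ofReal B :=
    ⟨_, ENNReal.toReal_nonneg, (ENNReal.ofReal_toReal measure_ball_lt_top.ne).symm⟩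
  refine ⟨2 * S + B + 1, by positivity, fun U v ρ hρ => ?_⟩
  have hpt : ∀ a : E, ENNReal.ofReal ‖a - U‖ ^ (-p) ≤
      (Iic ρ).indicator (fun r => ENNReal.ofReal r ^ (-p)) ‖a - U‖ + ENNReal.ofReal ρ ^ (-p) := by
    intro a
    by_cases h : ‖a - U‖ ∈ Iic ρ
    · rw [indicator_of_mem h]
      exact le_self_add
    · exact (geo2_rpow_anti (ENNReal.ofReal_le_ofReal (not_le.mp h).le) hp0).trans le_add_self
  refine (lintegral_mono hpt).trans ?_
  rw [lintegral_add_right _ measurable_const, setLIntegral_const]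
  refine (add_le_add (setLIntegral_le_lintegral _ _) le_rfl).trans ?_
  rw [lintegral_sub_right_eq_self (fun x : E =>
    (Iic ρ).indicator (fun r => ENNReal.ofReal r ^ (-p)) ‖x‖) U, kww_ball0 μ hp hρ,
    Measure.addHaar_closedBall μ v hρ.le, hS, hB, ENNReal.ofReal_rpow_of_pos hρ,
    ← ENNReal.ofReal_mul hS0, ← ENNReal.ofReal_mul (by positivity),
    ← ENNReal.ofReal_mul (by positivity), ← ENNReal.ofReal_add (by positivity) (by positivity)]
  refine ENNReal.ofReal_le_ofReal ?_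
  have e : ρ ^ (-p) * ρ ^ Module.finrank ℝ E = Real.sqrt ρ := by
    rw [← Real.rpow_natCast, ← Real.rpow_add hρ, hp, Real.sqrt_eq_rpow]
    congr 1
    ring
  rw [← mul_assoc (ρ ^ (-p)), e]
  nlinarith [Real.sqrt_nonneg ρ]

theorem kww_three : ∃ C : ℝ, 0 < C ∧ ∀ (U v : V) (ρ : ℝ), 0 < ρ →
    ∫⁻ a in Metric.closedBall v ρ, ENNReal.ofReal ‖a - U‖ ^ (-(5 / 2) : ℝ)
      ≤ ENNReal.ofReal (C * Real.sqrt ρ) :=
  kww_gen (volume : Measure V) (by rw [finrank_euclideanSpace_fin]; norm_num)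

theorem kww_m3 (U : V) (p : ℝ) : Measurable (fun a : V => ENNReal.ofReal ‖a - U‖ ^ p) :=
  (measurable_id.sub measurable_const).norm.ennreal_ofReal.pow_const _

theorem kww_mh (u : ℂ) (p : ℝ) : Measurable (fun a : V => ENNReal.ofReal ‖tp a - u‖ ^ p) :=
  (continuous_tp.measurable.sub measurable_const).norm.ennreal_ofReal.pow_const _

theorem kww_hor : ∃ C : ℝ, 0 < C ∧ ∀ (u : ℂ) (v : V) (ρ : ℝ), 0 < ρ →
    ∫⁻ a in Metric.closedBall v ρ, ENNReal.ofReal ‖tp a - u‖ ^ (-(3 / 2) : ℝ)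
      ≤ ENNReal.ofReal (C * Real.sqrt ρ * (2 * ρ)) := by
  obtain ⟨C, hC, h⟩ := kww_gen (volume : Measure ℂ) (p := 3 / 2)
    (by rw [Complex.finrank_real_complex]; norm_num)
  refine ⟨C, hC, fun u v ρ hρ => ?_⟩
  set f : ℂ → ℝ≥0∞ := (Metric.closedBall (tp v) ρ).indicator
    (fun q => ENNReal.ofReal ‖q - u‖ ^ (-(3 / 2) : ℝ)) with hf
  set g : ℝ → ℝ≥0∞ := (Metric.closedBall (v 2) ρ).indicator (fun _ => 1) with hg
  have hfm : Measurable f := ((measurable_id.sub measurable_const).norm.ennreal_ofReal.pow_const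
    _).indicator Metric.isClosed_closedBall.measurableSet
  have hgm : Measurable g := measurable_const.indicator Metric.isClosed_closedBall.measurableSet
  have hc2 : Continuous (fun a : V => a 2) := by fun_prop
  have hF : Measurable (fun a : V => f (tp a) * g (a 2)) :=
    (hfm.comp continuous_tp.measurable).mul (hgm.comp hc2.measurable)
  have hpt : ∀ a ∈ Metric.closedBall v ρ,
      ENNReal.ofReal ‖tp a - u‖ ^ (-(3 / 2) : ℝ) ≤ f (tp a) * g (a 2) := by
    intro a ha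
    have h1 := mem_closedBall_iff_norm.mp ha
    have h2 := norm_tp_sub_le a (tp v) (v 2)
    have h3 := abs_two_sub_le a (tp v) (v 2)
    rw [mkV_tp] at h2 h3
    have h4 : tp a ∈ Metric.closedBall (tp v) ρ := mem_closedBall_iff_norm.mpr (h2.trans h1)
    have h5 : a 2 ∈ Metric.closedBall (v 2) ρ := mem_closedBall_iff_norm.mpr (h3.trans h1)
    rw [hf, hg, indicator_of_mem h4, indicator_of_mem h5, mul_one]
  refine (setLIntegral_mono' Metric.isClosed_closedBall.measurableSet hpt).trans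
    ((setLIntegral_le_lintegral _ _).trans ?_)
  rw [lintegral_mkV hF]
  simp only [tp_mkV, mkV_two]
  have e1 : ∫⁻ s, g s = ENNReal.ofReal (2 * ρ) := by
    rw [hg, lintegral_indicator_const Metric.isClosed_closedBall.measurableSet, one_mul,
      Real.volume_closedBall]
  simp_rw [lintegral_const_mul _ hgm, e1]
  rw [lintegral_mul_const _ hfm, hf, lintegral_indicator Metric.isClosed_closedBall.measurableSet,
    ENNReal.ofReal_mul (p := C * Real.sqrt ρ) (by positivity)]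
  exact mul_le_mul' (h u (tp v) ρ hρ) le_rfl

theorem kww_young (x b : ℝ≥0∞) {p q : ℝ} (hp : 0 ≤ p) (hq : q = p + 1) :
    x ^ (-p) * b⁻¹ ≤ x ^ (-q) + b ^ (-q) := by
  have e : ∀ y : ℝ≥0∞, y⁻¹ ^ p * y⁻¹ = y ^ (-q) := by
    intro y
    rw [ENNReal.rpow_neg, ← ENNReal.inv_rpow, hq, ENNReal.rpow_add_of_nonneg p 1 hp zero_le_one,
      ENNReal.rpow_one]
  rw [← e x, ← e b, ENNReal.rpow_neg, ← ENNReal.inv_rpow]
  rcases le_total b⁻¹ x⁻¹ with h | h
  · exact (mul_le_mul' le_rfl h).trans le_self_add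
  · exact (mul_le_mul' (ENNReal.rpow_le_rpow h hp) le_rfl).trans le_add_self

theorem near_sing : ∃ C : ℝ, 0 < C ∧ ∀ (u : ℂ) (v : V), ∀ ρ ∈ Ioc (0 : ℝ) 1,
    ∫⁻ a in Metric.closedBall v ρ, (1 + sing u a) / ENNReal.ofReal ‖v - a‖
      ≤ ENNReal.ofReal (C * Real.sqrt ρ) := by
  obtain ⟨C1, hC1, h1⟩ := kww_three
  obtain ⟨C2, hC2, h2⟩ := kww_hor
  refine ⟨6 * C1 + 2 * C2, by positivity, fun u v ρ hρ => ?_⟩
  have hs : 0 ≤ Real.sqrt ρ := Real.sqrt_nonneg _
  have hpt : ∀ a ∈ Metric.closedBall v ρ, (1 + sing u a) / ENNReal.ofReal ‖v - a‖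
      ≤ 4 * ENNReal.ofReal ‖a - v‖ ^ (-(5 / 2) : ℝ)
        + ENNReal.ofReal ‖a - mkV u 1‖ ^ (-(5 / 2) : ℝ)
        + ENNReal.ofReal ‖a - mkV u (-1)‖ ^ (-(5 / 2) : ℝ)
        + ENNReal.ofReal ‖tp a - u‖ ^ (-(3 / 2) : ℝ) := by
    intro a ha
    rw [norm_sub_rev v a]
    have hb : ENNReal.ofReal ‖a - v‖ ≤ 1 :=
      ENNReal.ofReal_le_one.mpr ((mem_closedBall_iff_norm.mp ha).trans hρ.2)
    generalize ENNReal.ofReal ‖a - v‖ = b at hb
    have e0 : b⁻¹ ≤ b ^ (-(5 / 2) : ℝ) := by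
      rw [← ENNReal.rpow_neg_one]
      exact ENNReal.rpow_le_rpow_of_exponent_ge hb (by norm_num)
    have e1 := kww_young (ENNReal.ofReal ‖a - mkV u 1‖) b (p := 3 / 2) (q := 5 / 2)
      (by norm_num) (by norm_num)
    have e2 := kww_young (ENNReal.ofReal ‖a - mkV u (-1)‖) b (p := 3 / 2) (q := 5 / 2)
      (by norm_num) (by norm_num)
    have e3 := kww_young (ENNReal.ofReal ‖tp a - u‖) b (p := 1 / 2) (q := 3 / 2)
      (by norm_num) (by norm_num)
    have e4 : b ^ (-(3 / 2) : ℝ) ≤ b ^ (-(5 / 2) : ℝ) :=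
      ENNReal.rpow_le_rpow_of_exponent_ge hb (by norm_num)
    unfold sing
    rw [div_eq_mul_inv, add_mul, add_mul, add_mul, one_mul]
    refine (add_le_add e0 (add_le_add (add_le_add e1 e2)
      (e3.trans (add_le_add le_rfl e4)))).trans (le_of_eq ?_)
    ring
  refine (setLIntegral_mono' Metric.isClosed_closedBall.measurableSet hpt).trans ?_
  rw [lintegral_add_right _ (kww_mh u _), lintegral_add_right _ (kww_m3 _ _),
    lintegral_add_right _ (kww_m3 _ _), lintegral_const_mul _ (kww_m3 _ _)]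
  refine (add_le_add (add_le_add (add_le_add (mul_le_mul' le_rfl (h1 v v ρ hρ.1))
    (h1 _ v ρ hρ.1)) (h1 _ v ρ hρ.1)) (h2 u v ρ hρ.1)).trans ?_
  have h4 : (4 : ℝ≥0∞) = ENNReal.ofReal 4 := by norm_num
  have hρ0 := hρ.1.le
  rw [h4, ← ENNReal.ofReal_mul (by norm_num), ← ENNReal.ofReal_add (by positivity) (by positivity),
    ← ENNReal.ofReal_add (by positivity) (by positivity),
    ← ENNReal.ofReal_add (by positivity) (by positivity)]
  refine ENNReal.ofReal_le_ofReal ?_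
  have h5 : C2 * Real.sqrt ρ * ρ ≤ C2 * Real.sqrt ρ * 1 :=
    mul_le_mul_of_nonneg_left hρ.2 (by positivity)
  nlinarith

theorem kww_ite_le (R : ℝ) (u : ℂ) (a : V) : (if ‖a‖ ≤ R then sing u a else 0) ≤ sing u a := by
  split_ifs
  · exact le_rfl
  · exact zero_le

theorem near_Wf : ∃ C : ℝ, 0 < C ∧ ∀ t ∈ Icc (0 : ℝ) (1 / 8), ∀ (u : ℂ) (R : ℝ) (v : V),
    ∀ ρ ∈ Ioc (0 : ℝ) 1, ∫⁻ a in Metric.closedBall v ρ, Wf t u R a / ENNReal.ofReal ‖v - a‖
      ≤ ENNReal.ofReal (C * Real.sqrt ρ) := by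
  obtain ⟨C, hC, h⟩ := near_sing
  refine ⟨C, hC, fun t ht u R v ρ hρ => le_trans (lintegral_mono fun a => ?_) (h u v ρ hρ)⟩
  refine ENNReal.div_le_div_right ?_ _
  unfold Wf
  rw [← one_mul (1 + sing u a)]
  exact mul_le_mul' (ENNReal.ofReal_le_one.mpr (mt_le_one (by linarith [ht.2]) a))
    (add_le_add le_rfl (kww_ite_le R u a))

theorem kww_ms (R : ℝ) (u : ℂ) : Measurable (fun a : V => if ‖a‖ ≤ R then sing u a else 0) :=
  Measurable.ite (measurableSet_le measurable_norm measurable_const)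
    (geo2_meas_sing measurable_const measurable_id) measurable_const

theorem kww_gauss : ∃ C : ℝ, 0 < C ∧ ∀ t : ℝ, t ≤ 1 / 8 →
    ∫⁻ w : V, ENNReal.ofReal (Real.exp (5 * ‖w‖) * mt t w) ≤ ENNReal.ofReal C := by
  have hi := (flow0_gauss (b := 1 / 16) (by norm_num)).const_mul (Real.exp 100)
  have h0 : ∀ w : V, 0 ≤ Real.exp 100 * Real.exp (-(1 / 16) * ‖w‖ ^ 2) := fun w => by positivity
  have h1 : 0 ≤ ∫ w : V, Real.exp 100 * Real.exp (-(1 / 16) * ‖w‖ ^ 2) := integral_nonneg h0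
  refine ⟨(∫ w : V, Real.exp 100 * Real.exp (-(1 / 16) * ‖w‖ ^ 2)) + 1,
    by linarith, fun t ht => ?_⟩
  refine le_trans ?_ (ENNReal.ofReal_le_ofReal (le_add_of_nonneg_right zero_le_one))
  rw [ofReal_integral_eq_lintegral_ofReal hi (ae_of_all _ h0)]
  refine lintegral_mono fun w => ENNReal.ofReal_le_ofReal ?_
  unfold mt
  rw [← Real.exp_add, ← Real.exp_add]
  refine Real.exp_le_exp.mpr ?_
  nlinarith [sq_nonneg (‖w‖ - 40), sq_nonneg ‖w‖]

theorem kww_pow_le (x : ℝ≥0∞) {p q : ℝ} (hp : 0 < p) (hpq : p ≤ q) :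
    x ^ (-p) ≤ 1 + x ^ (-q) := by
  rcases le_total 1 x with h | h
  · exact (ENNReal.rpow_le_one_of_one_le_of_neg h (by linarith)).trans le_self_add
  · exact (ENNReal.rpow_le_rpow_of_exponent_ge h (by linarith)).trans le_add_self

theorem kww_mass (R : ℝ) : ∃ C : ℝ, 0 < C ∧ ∀ u : ℂ,
    ∫⁻ a : V, (if ‖a‖ ≤ R then sing u a else 0) ≤ ENNReal.ofReal C := by
  obtain ⟨C1, hC1, h1⟩ := kww_three
  obtain ⟨C2, hC2, h2⟩ := kww_hor
  have hρ : 0 < |R| + 1 := by positivity
  set ρ := |R| + 1 with hρe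
  refine ⟨3 * (4 / 3 * Real.pi * ρ ^ 3) + C1 * Real.sqrt ρ + C1 * Real.sqrt ρ
    + C2 * Real.sqrt ρ * (2 * ρ), by positivity, fun u => ?_⟩
  have hpt : ∀ a : V, (if ‖a‖ ≤ R then sing u a else 0) ≤ (Metric.closedBall (0 : V) ρ).indicator
      (fun a => 3 + ENNReal.ofReal ‖a - mkV u 1‖ ^ (-(5 / 2) : ℝ)
        + ENNReal.ofReal ‖a - mkV u (-1)‖ ^ (-(5 / 2) : ℝ)
        + ENNReal.ofReal ‖tp a - u‖ ^ (-(3 / 2) : ℝ)) a := by
    intro a
    by_cases ha : ‖a‖ ≤ R
    · have h3 : a ∈ Metric.closedBall (0 : V) ρ :=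
        mem_closedBall_zero_iff.mpr (by linarith [le_abs_self R])
      rw [if_pos ha, indicator_of_mem h3]
      unfold sing
      refine (add_le_add (add_le_add (kww_pow_le _ (q := 5 / 2) (by norm_num) (by norm_num))
        (kww_pow_le _ (q := 5 / 2) (by norm_num) (by norm_num)))
        (kww_pow_le _ (q := 3 / 2) (by norm_num) (by norm_num))).trans (le_of_eq ?_)
      ring
    · rw [if_neg ha]
      exact zero_le
  refine (lintegral_mono hpt).trans ?_
  have h3 : (3 : ℝ≥0∞) = ENNReal.ofReal 3 := by norm_num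
  rw [lintegral_indicator Metric.isClosed_closedBall.measurableSet,
    lintegral_add_right _ (kww_mh u _), lintegral_add_right _ (kww_m3 _ _),
    lintegral_add_right _ (kww_m3 _ _), setLIntegral_const, volume_closedBall_V _ hρ.le,
    ENNReal.ofReal_add (by positivity) (by positivity),
    ENNReal.ofReal_add (by positivity) (by positivity),
    ENNReal.ofReal_add (by positivity) (by positivity), ENNReal.ofReal_mul (p := 3) (by norm_num),
    ← h3]
  exact add_le_add (add_le_add (add_le_add le_rfl (h1 _ 0 ρ hρ)) (h1 _ 0 ρ hρ)) (h2 u 0 ρ hρ)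

theorem mom_Wf (R : ℝ) : ∃ C : ℝ, 0 < C ∧ ∀ t ∈ Icc (0 : ℝ) (1 / 8), ∀ u : ℂ,
    ∫⁻ w, ENNReal.ofReal ((1 + ‖w‖) ^ 5) * Wf t u R w ≤ ENNReal.ofReal C := by
  obtain ⟨C1, hC1, h1⟩ := kww_gauss
  obtain ⟨C2, hC2, h2⟩ := kww_mass R
  refine ⟨C1 + (1 + |R|) ^ 5 * C2, by positivity, fun t ht u => ?_⟩
  have hpt : ∀ w : V, ENNReal.ofReal ((1 + ‖w‖) ^ 5) * Wf t u R w
      ≤ ENNReal.ofReal (Real.exp (5 * ‖w‖) * mt t w)
        + ENNReal.ofReal ((1 + |R|) ^ 5) * (if ‖w‖ ≤ R then sing u w else 0) := by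
    intro w
    unfold Wf
    rw [mul_add, mul_one, mul_add, ← ENNReal.ofReal_mul (by positivity)]
    refine add_le_add (ENNReal.ofReal_le_ofReal
      (mul_le_mul_of_nonneg_right ?_ (mt_pos t w).le)) ?_
    · have h3 : (1 + ‖w‖) ^ 5 ≤ Real.exp ‖w‖ ^ 5 :=
        pow_le_pow_left₀ (by positivity) (by linarith [Real.add_one_le_exp ‖w‖]) 5
      rw [← Real.exp_nat_mul] at h3
      exact_mod_cast h3
    · by_cases hw : ‖w‖ ≤ R
      · refine mul_le_mul' (ENNReal.ofReal_le_ofReal (pow_le_pow_left₀ (by positivity)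
          (by linarith [le_abs_self R]) 5)) ?_
        exact mul_le_of_le_one_left' (ENNReal.ofReal_le_one.mpr (mt_le_one (by linarith [ht.2]) w))
      · simp [hw]
  refine (lintegral_mono hpt).trans ?_
  rw [lintegral_add_right _ ((kww_ms R u).const_mul _), lintegral_const_mul _ (kww_ms R u),
    ENNReal.ofReal_add hC1.le (by positivity), ENNReal.ofReal_mul (by positivity)]
  exact add_le_add (h1 t ht.2) (mul_le_mul' le_rfl (h2 u))

theorem kww_split (f : V → ℝ≥0∞) (v : V) : ∫⁻ a, f a / ENNReal.ofReal ‖v - a‖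
    ≤ (∫⁻ a in Metric.closedBall v 1, f a / ENNReal.ofReal ‖v - a‖) + ∫⁻ a, f a := by
  rw [← lintegral_add_compl (A := Metric.closedBall v 1) _
    Metric.isClosed_closedBall.measurableSet]
  refine add_le_add le_rfl (le_trans (setLIntegral_mono'
    Metric.isClosed_closedBall.measurableSet.compl fun a ha => ?_) (setLIntegral_le_lintegral _ _))
  have h1 : 1 ≤ ‖v - a‖ := by
    rw [norm_sub_rev]
    exact (not_le.mp fun h => ha (mem_closedBall_iff_norm.mpr h)).le
  rw [div_eq_mul_inv]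
  exact mul_le_of_le_one_right' (ENNReal.inv_le_one.mpr (ENNReal.one_le_ofReal.mpr h1))

theorem inv_Wf (R : ℝ) : ∃ C : ℝ, 0 < C ∧ ∀ t ∈ Icc (0 : ℝ) (1 / 8), ∀ (u : ℂ) (v : V),
    ∫⁻ a, Wf t u R a / ENNReal.ofReal ‖v - a‖ ≤ ENNReal.ofReal C := by
  obtain ⟨C1, hC1, h1⟩ := near_Wf
  obtain ⟨C2, hC2, h2⟩ := mom_Wf R
  refine ⟨C1 + C2, by positivity, fun t ht u v => ?_⟩
  refine (kww_split _ v).trans ?_
  rw [ENNReal.ofReal_add hC1.le hC2.le]
  refine add_le_add ?_ (le_trans (lintegral_mono fun w => ?_) (h2 t ht u))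
  · have h3 := h1 t ht u R v 1 ⟨one_pos, le_rfl⟩
    rwa [Real.sqrt_one, mul_one] at h3
  · exact le_mul_of_one_le_left' (ENNReal.one_le_ofReal.mpr
      (one_le_pow₀ (by linarith [norm_nonneg w])))

theorem kww_inv (R : ℝ) : ∃ C : ℝ, 0 < C ∧ ∀ (u : ℂ) (v : V),
    ∫⁻ a, (if ‖a‖ ≤ R then sing u a else 0) / ENNReal.ofReal ‖v - a‖ ≤ ENNReal.ofReal C := by
  obtain ⟨C1, hC1, h1⟩ := near_sing
  obtain ⟨C2, hC2, h2⟩ := kww_mass R
  refine ⟨C1 + C2, by positivity, fun u v => ?_⟩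
  refine (kww_split _ v).trans ?_
  rw [ENNReal.ofReal_add hC1.le hC2.le]
  refine add_le_add ?_ (h2 u)
  have h3 := h1 u v 1 ⟨one_pos, le_rfl⟩
  rw [Real.sqrt_one, mul_one] at h3
  exact le_trans (lintegral_mono fun a => ENNReal.div_le_div_right
    ((kww_ite_le R u a).trans le_add_self) _) h3

/-- Collision integral of a function of the outgoing velocities. -/
def kwwI (v : V) (H : V → V → ℝ≥0∞) : ℝ≥0∞ :=
  ∫⁻ w, ∫⁻ ω, ENNReal.ofReal |ca v w ω| * H (vp v w ω) (wp v w ω) ∂sig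

theorem kwwI_add (v : V) {H H' : V → V → ℝ≥0∞} (hH : Measurable (fun p : V × V => H p.1 p.2)) :
    kwwI v (fun a y => H a y + H' a y) = kwwI v H + kwwI v H' := by
  have h1 : Measurable (fun p : V × S2 => H (vp v p.1 p.2) (wp v p.1 p.2)) := by
    simpa only [Function.comp_def] using hH.comp ((qapi_mvp v).prodMk (qapi_mwp v))
  have h2 : Measurable (fun p : V × S2 => ENNReal.ofReal |ca v p.1 p.2|) :=
    (measurable_ca measurable_const measurable_fst measurable_snd).abs.ennreal_ofReal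
  have h3 : Measurable (fun p : V × S2 =>
      ENNReal.ofReal |ca v p.1 p.2| * H (vp v p.1 p.2) (wp v p.1 p.2)) := h2.mul h1
  have h5 : Measurable (fun w : V =>
      ∫⁻ ω, ENNReal.ofReal |ca v w ω| * H (vp v w ω) (wp v w ω) ∂sig) := h3.lintegral_prod_right'
  unfold kwwI
  rw [← lintegral_add_left h5]
  refine lintegral_congr fun w => ?_
  have h4 : Measurable (fun ω : S2 => ENNReal.ofReal |ca v w ω| * H (vp v w ω) (wp v w ω)) := by
    simpa only [Function.comp_def] using h3.comp (measurable_prodMk_left (x := w))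
  rw [← lintegral_add_left h4]
  exact lintegral_congr fun ω => mul_add _ _ _

theorem self_Wf (R : ℝ) : ∃ C : ℝ, 0 < C ∧ ∀ t ∈ Icc (0 : ℝ) (1 / 8), ∀ (u : ℂ) (v : V),
    ∫⁻ w, ∫⁻ ω, ENNReal.ofReal |ca v w ω| * (ENNReal.ofReal (Real.exp ‖w‖) *
      (Wf t u R (vp v w ω) * Wf t u R (wp v w ω))) ∂sig
      ≤ ENNReal.ofReal (C * (1 + ‖v‖) * mt t v) := by
  obtain ⟨Cg, hCg, hg⟩ := kww_gauss
  obtain ⟨Cp, hCp, hp⟩ := plane_gauss
  obtain ⟨Cs, hCs, hs⟩ := plane_sing R
  obtain ⟨Ci, hCi, hi⟩ := kww_inv R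
  refine ⟨2 * Real.pi * Cg + 4 * ((Cp + Real.exp 2 * Cs) * Ci), by positivity,
    fun t ht u v => ?_⟩
  set s : V → ℝ≥0∞ := fun a => if ‖a‖ ≤ R then sing u a else 0 with hsd
  set G : V → ℝ≥0∞ := fun y => ENNReal.ofReal (Real.exp ‖y‖ * mt t y) with hGd
  have hsm : Measurable s := kww_ms R u
  have hGm : Measurable G := ((Real.measurable_exp.comp measurable_norm).mul
    (geo2_meas_mt measurable_const measurable_id)).ennreal_ofReal
  have hG2 : Measurable (fun p : V × V => G (p.1 + p.2 - v)) :=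
    hGm.comp ((measurable_fst.add measurable_snd).sub measurable_const)
  have hH2 : Measurable (fun p : V × V => s p.2 * G (p.1 + p.2 - v)) :=
    (hsm.comp measurable_snd).mul hG2
  have hH3 : Measurable (fun p : V × V => s p.1 * (G (p.1 + p.2 - v) * (1 + s p.2))) :=
    (hsm.comp measurable_fst).mul (hG2.mul (measurable_const.add (hsm.comp measurable_snd)))
  have hw : ∀ w ω, vp v w ω + wp v w ω - v = w := fun w ω => by rw [vp_add_wp]; abel
  have hGle : ∀ y, G y ≤ ENNReal.ofReal (Real.exp 2) := by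
    intro y
    refine ENNReal.ofReal_le_ofReal ?_
    unfold mt
    rw [← Real.exp_add]
    refine Real.exp_le_exp.mpr ?_
    nlinarith [sq_nonneg (‖y‖ - 4), sq_nonneg ‖y‖, ht.2]
  have hA : kwwI v (fun a y => G (a + y - v))
      ≤ ENNReal.ofReal (2 * Real.pi * (1 + ‖v‖) * Cg) := by
    unfold kwwI
    simp only [hw]
    have hca : ∀ w, Measurable (fun ω => ENNReal.ofReal |ca v w ω|) := fun w =>
      (measurable_ca measurable_const measurable_const measurable_id).abs.ennreal_ofReal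
    simp_rw [lintegral_mul_const _ (hca _), lintegral_abs_ca]
    rw [ENNReal.ofReal_mul (p := 2 * Real.pi * (1 + ‖v‖)) (by positivity)]
    refine le_trans ?_ (mul_le_mul' le_rfl (hg t ht.2))
    rw [← lintegral_const_mul' _ _ ENNReal.ofReal_ne_top]
    refine lintegral_mono fun w => ?_
    rw [hGd, ← ENNReal.ofReal_mul (by positivity), ← ENNReal.ofReal_mul (by positivity)]
    refine ENNReal.ofReal_le_ofReal ?_
    have h1 : ‖v - w‖ ≤ (1 + ‖v‖) * Real.exp (4 * ‖w‖) := by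
      have h2 := norm_sub_le v w
      have h3 := Real.add_one_le_exp (4 * ‖w‖)
      have h4 := norm_nonneg v
      have h5 := norm_nonneg w
      nlinarith
    have h6 : Real.exp (5 * ‖w‖) = Real.exp (4 * ‖w‖) * Real.exp ‖w‖ := by
      rw [← Real.exp_add]
      congr 1
      ring
    have h7 : 0 ≤ 2 * Real.pi * (Real.exp ‖w‖ * mt t w) := by
      have := mt_pos t w
      positivity
    rw [h6]
    nlinarith [mul_le_mul_of_nonneg_left h1 h7]
  have hT : kwwI v (fun a y => s a * (G (a + y - v) * (1 + s y)))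
      ≤ ENNReal.ofReal (2 * ((Cp + Real.exp 2 * Cs) * Ci)) := by
    refine (lintegral_coll_le (H := fun a y => s a * (G (a + y - v) * (1 + s y))) hH3
      (B := fun a => ENNReal.ofReal (Cp + Real.exp 2 * Cs) * s a)
      (hsm.const_mul _) v fun a _ ι _ => ?_).trans ?_
    · have hι : Measurable (fun q : ℂ => v - ι q) := (continuous_const.sub ι.continuous).measurable
      have hι' : Measurable (fun q : ℂ => a - ι q) := (continuous_const.sub ι.continuous).measurable
      have e : ∀ q : ℂ, a + (v - ι q) - v = a - ι q := fun q => by abel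
      simp only [e]
      have hq1 : Measurable (fun q : ℂ => G (a - ι q)) := hGm.comp hι'
      have hq2 : Measurable (fun q : ℂ => G (a - ι q) * (1 + s (v - ι q))) :=
        hq1.mul (measurable_const.add (hsm.comp hι))
      rw [lintegral_const_mul _ hq2, mul_comm]
      refine mul_le_mul' ?_ le_rfl
      calc ∫⁻ q, G (a - ι q) * (1 + s (v - ι q))
          ≤ ∫⁻ q, (G (a - ι q) + ENNReal.ofReal (Real.exp 2) * s (v - ι q)) := by
            refine lintegral_mono fun q => ?_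
            rw [mul_add, mul_one]
            exact add_le_add le_rfl (mul_le_mul' (hGle _) le_rfl)
        _ ≤ ENNReal.ofReal Cp + ENNReal.ofReal (Real.exp 2) * ENNReal.ofReal Cs := by
            rw [lintegral_add_left hq1, lintegral_const_mul' _ _ ENNReal.ofReal_ne_top]
            exact add_le_add (hp t ht a ι) (mul_le_mul' le_rfl (hs u v ι))
        _ = ENNReal.ofReal (Cp + Real.exp 2 * Cs) := by
            rw [ENNReal.ofReal_add hCp.le (by positivity), ENNReal.ofReal_mul (by positivity)]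
    · simp_rw [mul_div_assoc]
      rw [lintegral_const_mul' _ _ ENNReal.ofReal_ne_top, ENNReal.ofReal_mul (by norm_num),
        ENNReal.ofReal_mul (by positivity), ENNReal.ofReal_ofNat]
      exact mul_le_mul' le_rfl (mul_le_mul' le_rfl (hi u v))
  have hC : kwwI v (fun a y => s y * G (a + y - v))
      ≤ ENNReal.ofReal (2 * ((Cp + Real.exp 2 * Cs) * Ci)) := by
    refine le_trans ?_ hT
    unfold kwwI
    refine lintegral_mono fun w => ?_
    rw [lintegral_swapPost (H := fun a y => s y * G (a + y - v)) hH2 v w]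
    refine lintegral_mono fun ω => mul_le_mul' le_rfl (mul_le_mul' le_rfl ?_)
    rw [add_comm (wp v w ω)]
    exact le_mul_of_one_le_right' le_self_add
  have hmain : ∫⁻ w, ∫⁻ ω, ENNReal.ofReal |ca v w ω| * (ENNReal.ofReal (Real.exp ‖w‖) *
      (Wf t u R (vp v w ω) * Wf t u R (wp v w ω))) ∂sig
      = ENNReal.ofReal (mt t v) * kwwI v (fun a y => G (a + y - v) + (s y * G (a + y - v)
        + s a * (G (a + y - v) * (1 + s y)))) := by
    unfold kwwI
    rw [← lintegral_const_mul' _ _ ENNReal.ofReal_ne_top]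
    refine lintegral_congr fun w => ?_
    rw [← lintegral_const_mul' _ _ ENNReal.ofReal_ne_top]
    refine lintegral_congr fun ω => ?_
    have e1 : ENNReal.ofReal (mt t (vp v w ω)) * ENNReal.ofReal (mt t (wp v w ω))
        = ENNReal.ofReal (mt t v) * ENNReal.ofReal (mt t w) := by
      rw [← ENNReal.ofReal_mul (mt_pos _ _).le, ← ENNReal.ofReal_mul (mt_pos _ _).le]
      unfold mt
      rw [← Real.exp_add, ← Real.exp_add, ← mul_add, ← mul_add, energy_post]
    have e2 : G w = ENNReal.ofReal (Real.exp ‖w‖) * ENNReal.ofReal (mt t w) :=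
      ENNReal.ofReal_mul (Real.exp_pos _).le
    have e3 : ∀ a, Wf t u R a = ENNReal.ofReal (mt t a) * (1 + s a) := fun a => rfl
    simp only [hw]
    rw [e2, e3, e3, mul_mul_mul_comm (ENNReal.ofReal (mt t (vp v w ω))), e1]
    ring
  rw [hmain, kwwI_add v hG2, kwwI_add v hH2, mul_comm, ENNReal.ofReal_mul (by positivity)]
  refine mul_le_mul' ((add_le_add hA (add_le_add hC hT)).trans ?_) le_rfl
  rw [← ENNReal.ofReal_add (by positivity) (by positivity),
    ← ENNReal.ofReal_add (by positivity) (by positivity)]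
  refine ENNReal.ofReal_le_ofReal ?_
  have h8 : 0 ≤ (Cp + Real.exp 2 * Cs) * Ci * ‖v‖ := by positivity
  nlinarith

theorem Qe_WW (R : ℝ) : ∃ C : ℝ, 0 < C ∧ ∀ t ∈ Icc (0 : ℝ) (1 / 8), ∀ (u : ℂ) (v : V),
    Qe (Wf t u R) (Wf t u R) v ≤ ENNReal.ofReal (C * (1 + ‖v‖) * mt t v) := by
  obtain ⟨C, hC, h⟩ := self_Wf R
  refine ⟨C, hC, fun t ht u v => le_trans ?_ (h t ht u v)⟩
  unfold Qe
  refine lintegral_mono fun w => lintegral_mono fun ω => mul_le_mul' le_rfl ?_
  exact le_mul_of_one_le_left' (ENNReal.one_le_ofReal.mpr (Real.one_le_exp (norm_nonneg _)))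

end

end Vale.Agent.P140
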