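import Vale.Agent.P140.BarA
import Vale.Agent.P140.BarO
import Vale.Agent.P140.KWW
import Vale.Agent.P140.Cold2

/-! The six terms of the collision estimate for the barrier. -/

namespace Vale.Agent.P140

open MeasureTheory Set Filter Topology
open scoped ENNReal RealInnerProductSpace

noncomputable section

theorem barb_small {a b : ℝ} (ha : 0 < a) (hb : 0 < b) : ∃ η, 0 < η ∧ η ≤ 1 ∧ a * η ≤ b :=
  ⟨min 1 (b / a), lt_min one_pos (div_pos hb ha), min_le_left _ _,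
    (le_div_iff₀' ha).1 (min_le_right _ _)⟩

theorem barb_eps {c e0 t : ℝ} (hc : 0 ≤ c) (hc' : c ≤ 1 / 2) (he : 0 ≤ e0) (ht : 0 ≤ t) (P : ℕ)
    (x : T3) : epsf c e0 t x ^ P ≤ e0 ^ P * (‖X x‖ + t) ^ (2 * P) := by
  rw [pow_mul, ← mul_pow]
  refine pow_le_pow_left₀ (Ef_nonneg he _) ((Ef_le_sq he _).trans
    (mul_le_mul_of_nonneg_left (sq_le_sq' ?_ ?_) he)) P <;>
  nlinarith [norm_nonneg (X x), mul_nonneg hc ht]

theorem barb_junk {b P : ℕ} {t D : ℝ} (hb : 1 ≤ b) (ht : 0 < t) (ht' : t ≤ 1 / 100)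
    (hbt : b * t ≤ 1) (hP : b ≤ 2 * P) (hD : 0 ≤ D) (c R : ℝ) (x : T3) {w : V} (hw : ‖w‖ ≤ 5) :
    ENNReal.ofReal (D * (‖X x‖ + t) ^ (2 * P)) ≤
      ENNReal.ofReal (D * (5 ^ b * Real.exp (25 / 4)) * om b t (xi t (x, w)) w)
        * W c R t (x, w) := by
  have h1 := (om_mem b ht.le (xi t (x, w)) w).1
  refine le_trans ?_ (mul_le_mul_right (mt_le_W c R t (x, w)) _)
  rw [← ENNReal.ofReal_mul (by positivity)]
  refine ENNReal.ofReal_le_ofReal ?_
  have h2 : 1 ≤ Real.exp (25 / 4) * mt t w := le_trans (by rw [← Real.exp_add]; norm_num)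
    (mul_le_mul_of_nonneg_left (mt_ge ht.le hw) (Real.exp_pos _).le)
  calc _ ≤ D * (5 ^ b * om b t (xi t (x, w)) w) * 1 := by
        rw [mul_one]
        exact mul_le_mul_of_nonneg_left (om_low hb ht ht' hbt hP x hw) hD
    _ ≤ D * (5 ^ b * om b t (xi t (x, w)) w) * (Real.exp (25 / 4) * mt t w) := by gcongr
    _ = _ := by ring

theorem barb_Sh (P M : ℕ) (c e0 t : ℝ) {σ : ℝ} (hσ : σ = 1 ∨ σ = -1) (z : Ph) :
    Sh P M c e0 t z = Shp P M c e0 σ t (xi t z) z.2 + Shp P M c e0 (-σ) t (xi t z) z.2 := by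
  rcases hσ with rfl | rfl
  · rfl
  · rw [neg_neg, add_comm, Sh]

theorem barb_smul {f g : V → ℝ≥0∞} (hf : Measurable f) (hg : Measurable g) (b : ℝ≥0∞) (v : V) :
    Qe f (fun u => b * g u) v = b * Qe f g v := by
  simpa using Qe_const_mul hf hg 1 b v

theorem barb_sq {f g : V → ℝ≥0∞} (hf : Measurable f) (hg : Measurable g) (v : V) :
    Qe (fun u => f u + g u) (fun u => f u + g u) v = Qe f f v + 2 * Qe f g v + Qe g g v := by
  rw [Qe_add_left hf hg (hf.fun_add hg), Qe_add_right hf hf hg, Qe_add_right hg hf hg,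
    Qe_swap hg hf]
  ring

theorem barb_expand {f n g : V → ℝ≥0∞} (hf : Measurable f) (hn : Measurable n) (hg : Measurable g)
    (a b : ℝ≥0∞) (v : V) :
    Qe (fun u => f u + (a * n u + b * g u)) (fun u => f u + (a * n u + b * g u)) v
      = Qe f f v + 2 * (a * Qe f n v + b * Qe f g v)
        + (a * a * Qe n n v + 2 * (a * b * Qe n g v) + b * b * Qe g g v) := by
  rw [barb_sq hf ((hn.const_mul a).fun_add (hg.const_mul b)),
    barb_sq (hn.const_mul a) (hg.const_mul b), Qe_add_right hf (hn.const_mul a) (hg.const_mul b),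
    barb_smul hf hn, barb_smul hf hg, Qe_const_mul hn hn, Qe_const_mul hn hg, Qe_const_mul hg hg]

theorem barb_zero {f : V → ℝ≥0∞} (h : ∀ u, f u = 0) (g : V → ℝ≥0∞) (v : V) : Qe f g v = 0 := by
  simp [Qe, h]

/-- Standing assumptions. -/
structure BCtx (Q : CP) (R : ℝ) (P b : ℕ) (t σ : ℝ) : Prop where
  ok : Q.Ok
  R3 : 3 ≤ R
  P3 : 3 ≤ P
  b1 : 1 ≤ b
  bP : b ≤ 2 * P
  t0 : 0 < t
  t1 : t ≤ 1 / 100
  bt : b * t ≤ 1
  tR : t * R ≤ 1 / 10
  sg : σ = 1 ∨ σ = -1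

/-- The cold stream. -/
def barC (Q : CP) (σ t : ℝ) (x : T3) (u : V) : ℝ≥0∞ := ENNReal.ofReal (cf1 Q σ t (x, u))

/-- The narrow profile. -/
def barN (Q : CP) (P : ℕ) (σ t : ℝ) (x : T3) : V → ℝ≥0∞ :=
  Nf P (epsf Q.c Q.e0 t x) (aS Q.M σ (X x)) (Uf Q.c σ t x)

/-- The broad profile. -/
def barG (Q : CP) (b : ℕ) (R t : ℝ) (x : T3) (w : V) : ℝ≥0∞ :=
  ENNReal.ofReal (om b t (xi t (x, w)) w) * W Q.c R t (x, w)

/-- The narrow profile with a larger cutoff. -/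
def barn (Q : CP) (P : ℕ) (σ t : ℝ) (x : T3) (v : V) : ℝ :=
  if ‖v‖ ≤ 5 then epsf Q.c Q.e0 t x ^ P /
    (‖v - Uf Q.c σ t x‖ + aS Q.M σ (X x) + epsf Q.c Q.e0 t x) ^ (P + 3) else 0

/-- The negligible term. -/
def barJ (Q : CP) (P : ℕ) (t : ℝ) (x : T3) (v : V) : ℝ :=
  if ‖v‖ ≤ 5 then Q.e0 ^ P * (‖X x‖ + t) ^ (2 * P) else 0

/-- The broad reserve. -/
def barY (Q : CP) (P b : ℕ) (R t : ℝ) (x : T3) (v : V) : ℝ≥0∞ :=
  ENNReal.ofReal (Q.e0 ^ P * (Dm b t (xi t (x, v)) v * om b t (xi t (x, v)) v)) * W Q.c R t (x, v)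

variable {Q : CP} {R t σ : ℝ} {P b : ℕ}

theorem barb_mC (Q : CP) (σ t : ℝ) (x : T3) : Measurable (barC Q σ t x) :=
  ((measurable_cf1 Q σ).comp (measurable_const.prodMk measurable_prodMk_left)).ennreal_ofReal

theorem barb_mG (Q : CP) (b : ℕ) (R t : ℝ) (x : T3) : Measurable (barG Q b R t x) :=
  (measurable_om b t x).ennreal_ofReal.mul
    ((measurable_W Q.c R).comp (measurable_const.prodMk measurable_prodMk_left))

theorem barb_ne {x : T3} {u : V} (h : barC Q σ t x u ≠ 0) : cf1 Q σ t (x, u) ≠ 0 := fun e =>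
  h (by rw [barC, e, ENNReal.ofReal_zero])

theorem BCtx.eps (h : BCtx Q R P b t σ) (x : T3) : epsf Q.c Q.e0 t x ∈ Icc (0 : ℝ) (1 / 256) :=
  ⟨Ef_nonneg h.ok.e_pos.le _, (Ef_le h.ok.e_pos.le _).trans (by linarith [h.ok.e_le])⟩

theorem BCtx.n0 (h : BCtx Q R P b t σ) (x : T3) (v : V) : 0 ≤ barn Q P σ t x v := by
  have := (h.eps x).1
  have := (aS_mem Q.M h.sg (X x)).1
  rw [barn]
  split_ifs <;> positivity

theorem BCtx.J0 (h : BCtx Q R P b t σ) (x : T3) (v : V) : 0 ≤ barJ Q P t x v := by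
  have := h.ok.e_pos
  have := h.t0
  rw [barJ]
  split_ifs <;> positivity

theorem BCtx.Y (x : T3) (v : V) {D y : ℝ} (hD : 0 ≤ D)
    (hy : y ≤ D * (Q.e0 ^ P * (Dm b t (xi t (x, v)) v * om b t (xi t (x, v)) v))) :
    ENNReal.ofReal y * W Q.c R t (x, v) ≤ ENNReal.ofReal D * barY Q P b R t x v := by
  rw [barY, ← mul_assoc, ← ENNReal.ofReal_mul hD]
  exact mul_le_mul_left (ENNReal.ofReal_le_ofReal hy) _

theorem BCtx.Y' (h : BCtx Q R P b t σ) (x : T3) (v : V) {D y : ℝ} (hD : 0 ≤ D)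
    (hy : y ≤ D * (Q.e0 ^ P * ((1 + ‖v‖) * om b t (xi t (x, v)) v))) :
    ENNReal.ofReal y * W Q.c R t (x, v) ≤ ENNReal.ofReal (24 * D) * barY Q P b R t x v := by
  have h1 := Dm_ge h.b1 h.t0 h.t1 h.bt x v
  have h2 := (om_mem b h.t0.le (xi t (x, v)) v).1
  have h3 := h.ok.e_pos
  refine BCtx.Y x v (by positivity) (hy.trans ?_)
  calc _ = 24 * D * (Q.e0 ^ P * ((1 + ‖v‖) / 24 * om b t (xi t (x, v)) v)) := by ring
    _ ≤ _ := by gcongr

theorem BCtx.J (h : BCtx Q R P b t σ) (x : T3) (v : V) : ENNReal.ofReal (barJ Q P t x v)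
    ≤ ENNReal.ofReal (24 * (5 ^ b * Real.exp (25 / 4))) * barY Q P b R t x v := by
  have h2 := (om_mem b h.t0.le (xi t (x, v)) v).1
  have h3 := h.ok.e_pos
  rw [barJ]
  split_ifs with hv
  · refine (barb_junk h.b1 h.t0 h.t1 h.bt h.bP (by positivity) Q.c R x hv).trans
      (h.Y' x v (by positivity) ?_)
    calc _ = 5 ^ b * Real.exp (25 / 4) * (Q.e0 ^ P * (1 * om b t (xi t (x, v)) v)) := by ring
      _ ≤ _ := by gcongr; exact le_add_of_nonneg_right (norm_nonneg _)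
  · simp

theorem BCtx.far (h : BCtx Q R P b t σ) (x : T3) (v : V) {d : ℝ} (hd : 0 < d)
    (hv : d ≤ ‖v - Uf Q.c σ t x‖) :
    ‖v - Uf Q.c σ t x‖ * barn Q P σ t x v ≤ barJ Q P t x v / d ^ (P + 2) := by
  have h1 := (h.eps x).1
  have h2 := (aS_mem Q.M h.sg (X x)).1
  have h3 := hd.trans_le hv
  rw [barn, barJ]
  split_ifs
  · calc _ ≤ ‖v - Uf Q.c σ t x‖ * (epsf Q.c Q.e0 t x ^ P / ‖v - Uf Q.c σ t x‖ ^ (P + 3)) := by
          gcongr
          linarith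
      _ = epsf Q.c Q.e0 t x ^ P / ‖v - Uf Q.c σ t x‖ ^ (P + 2) := by field_simp; ring
      _ ≤ _ := div_le_div₀ ((pow_nonneg h1 P).trans
          (barb_eps h.ok.c_pos.le h.ok.c_le h.ok.e_pos.le h.t0.le P x))
          (barb_eps h.ok.c_pos.le h.ok.c_le h.ok.e_pos.le h.t0.le P x) (by positivity)
          (pow_le_pow_left₀ hd.le hv _)
  · simp

theorem BCtx.Z (h : BCtx Q R P b t σ) (x : T3) (v : V) {A : ℝ} (hA : 1 ≤ A)
    (hlo : barN Q P σ t x v ≤ ENNReal.ofReal A * Shp P Q.M Q.c Q.e0 σ t (xi t (x, v)) v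
      + if ‖v‖ ≤ 3 then ENNReal.ofReal (A * (Q.e0 ^ P * t ^ (2 * P))) else 0) :
    ENNReal.ofReal (barn Q P σ t x v) ≤
      ENNReal.ofReal A * (Sh P Q.M Q.c Q.e0 t (x, v) + ENNReal.ofReal (barJ Q P t x v)) := by
  have h1 := h.ok.e_pos
  have h2 := h.t0
  rw [mul_add]
  by_cases hv : ‖v‖ ≤ 3
  · rw [barN, Nf, if_pos hv, if_pos hv] at hlo
    rw [barn, barJ, if_pos (by linarith), if_pos (by linarith), barb_Sh _ _ _ _ _ h.sg,
      ← ENNReal.ofReal_mul (by linarith)]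
    refine hlo.trans (add_le_add (mul_le_mul_right le_self_add _) (ENNReal.ofReal_le_ofReal ?_))
    gcongr
    exact le_add_of_nonneg_left (norm_nonneg _)
  · refine le_trans ?_ le_add_self
    have h3 : 1 ≤ ‖v - Uf Q.c σ t x‖ := by
      linarith [norm_sub_norm_le v (Uf Q.c σ t x), norm_Uf_le h.ok.c_pos.le h.ok.c_le h.sg t x]
    have h4 := h.far x v one_pos h3
    rw [one_pow, div_one] at h4
    rw [← ENNReal.ofReal_mul (by linarith)]
    exact ENNReal.ofReal_le_ofReal (((le_mul_of_one_le_left (h.n0 x v) h3).trans h4).trans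
      (le_mul_of_one_le_left (h.J0 x v) hA))

theorem BCtx.aS_le (h : BCtx Q R P b t σ) {x : T3} {u : V} (hu : cf1 Q σ t (x, u) ≠ 0) :
    aS Q.M σ (X x) ≤ 4 * Q.M / Q.c * epsf Q.c Q.e0 t x := by
  have h1 := (h.eps x).1
  have h2 := h.ok.c_pos
  have h3 := (cf1_supp h.ok h.sg h.t0 h.t1 hu).2.2.2.2.2.2.2.1
  rw [div_mul_eq_mul_div]
  exact max_le (by positivity) (by linarith)

theorem BCtx.T1 (h : BCtx Q R P b t σ) (x : T3) (v : V) :
    Qe (barC Q σ t x) (barC Q σ t x) v ≤ ENNReal.ofReal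
      (404000 * Q.K ^ 2 * (9 + 4 * Q.M / Q.c) ^ (P + 3) * Q.e0 * barn Q P σ t x v) := by
  by_cases h0 : ∀ u, barC Q σ t x u = 0
  · simp [barb_zero h0]
  obtain ⟨u, hu⟩ := not_forall.1 h0
  have h1 := h.aS_le (barb_ne hu)
  have h2 := (cf1_supp h.ok h.sg h.t0 h.t1 (barb_ne hu)).2.2.1
  have h3 := (aS_mem Q.M h.sg (X x)).1
  have h4 := h.ok.c_pos
  have h5 := h.ok.e_pos
  refine (Qe_cc h.ok h.sg h.t0 h.t1 x v).trans ?_
  split_ifs with hv
  · refine ENNReal.ofReal_le_ofReal ?_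
    have h6 := norm_Uf_le h4.le h.ok.c_le h.sg t x
    rw [barn, if_pos (by linarith [norm_sub_norm_le v (Uf Q.c σ t x), (h.eps x).2])]
    calc _ = 404000 * Q.K ^ 2 * (9 + 4 * Q.M / Q.c) ^ (P + 3) * Q.e0 * (epsf Q.c Q.e0 t x ^ P /
          ((9 + 4 * Q.M / Q.c) * epsf Q.c Q.e0 t x) ^ (P + 3)) := by
          rw [mul_pow]
          field_simp
          ring
      _ ≤ _ := by
          gcongr
          linarith
  · exact zero_le

theorem barb_T2 (P : ℕ) : ∃ C : ℝ, 0 < C ∧ ∀ {Q : CP} {R t σ : ℝ} {b : ℕ}, BCtx Q R P b t σ →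
    ∀ (x : T3) (v : V) (d : ℝ), 0 < d → ENNReal.ofReal t * Qe (barC Q σ t x) (barN Q P σ t x) v
      ≤ ENNReal.ofReal (C * (9 + 4 * Q.M / Q.c) ^ 2 * (Q.K / Q.c) *
        ((t + d) * barn Q P σ t x v + barJ Q P t x v / d ^ (P + 2))) := by
  obtain ⟨C, hC, hQ⟩ := Qe_cN P
  refine ⟨2000 * C, by positivity, fun {Q R t σ b} h x v d hd => ?_⟩
  by_cases h0 : ∀ u, barC Q σ t x u = 0
  · simp [barb_zero h0]
  obtain ⟨u, hu⟩ := not_forall.1 h0
  rcases lt_or_ge 5 ‖v‖ with hv | hv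
  · rw [Qe_eq_zero_of_supp (U := 0) (a := 2) (b := 3) (fun u hu => by
      simpa using (cf1_supp h.ok h.sg h.t0 h.t1 (barb_ne hu)).2.2.2.2.2.2.2.2.2)
      (fun u hu => by simpa using Nf_supp hu) (by rw [sub_zero]; nlinarith), mul_zero]
    exact zero_le
  have h1 := h.aS_le (barb_ne hu)
  obtain ⟨a1, a2, a3, a4, -⟩ := cf1_supp h.ok h.sg h.t0 h.t1 (barb_ne hu)
  have h3 := (aS_mem Q.M h.sg (X x)).1
  have hc := h.ok.c_pos
  have hK := h.ok.K_pos
  have ht := h.t0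
  have hn := h.n0 x v
  have hJ := h.J0 x v
  have h4 := hQ _ _ a3 h3 (Uf Q.c σ t x) v _ (barb_mC Q σ t x) fun u hu =>
    (cf1_supp h.ok h.sg h.t0 h.t1 (barb_ne hu)).2.2.2.2.1
  have h5 : epsf Q.c Q.e0 t x ^ P / (‖v - Uf Q.c σ t x‖ + aS Q.M σ (X x) + epsf Q.c Q.e0 t x)
      ^ (P + 1) = barn Q P σ t x v *
        (‖v - Uf Q.c σ t x‖ + aS Q.M σ (X x) + epsf Q.c Q.e0 t x) ^ 2 := by
    rw [barn, if_pos hv]
    field_simp
    ring
  have h6 := h.far x v hd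
  have h7 : 0 ≤ 4 * Q.M / Q.c := by positivity
  rw [h5] at h4
  refine (mul_le_mul_right h4 _).trans ?_
  rcases le_total ‖v - Uf Q.c σ t x‖ (8 * epsf Q.c Q.e0 t x) with h8 | h8
  · refine (mul_le_mul_right (mul_le_mul_right (cf1_inv_near h.ok h.sg ht h.t1 x v h8) _) _).trans ?_
    rw [← ENNReal.ofReal_mul (by positivity), ← ENNReal.ofReal_mul ht.le]
    refine ENNReal.ofReal_le_ofReal ?_
    have a5 := sub_pos.2 a1
    have a6 : Q.e0 * (‖X x‖ - Q.c * t) ≤ 1 / Q.c :=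
      (mul_le_one₀ h.ok.e_le a5.le (by linarith [mul_pos hc ht])).trans
        (one_le_one_div hc (by linarith [h.ok.c_le]))
    calc _ ≤ t * (C * (barn Q P σ t x v * ((9 + 4 * Q.M / Q.c) * epsf Q.c Q.e0 t x) ^ 2) *
          (2000 * Q.K / ((‖X x‖ - Q.c * t) * epsf Q.c Q.e0 t x))) := by
          gcongr
          linarith
      _ = 2000 * C * (9 + 4 * Q.M / Q.c) ^ 2 * (Q.K * (Q.e0 * (‖X x‖ - Q.c * t))) *
          (t * barn Q P σ t x v) := by
          have := h.ok.e_pos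
          rw [a4]
          field_simp
      _ ≤ 2000 * C * (9 + 4 * Q.M / Q.c) ^ 2 * (Q.K * (1 / Q.c)) *
          ((t + d) * barn Q P σ t x v + barJ Q P t x v / d ^ (P + 2)) := by
          gcongr
          exact le_add_of_le_of_nonneg (mul_le_mul_of_nonneg_right (by linarith) hn) (by positivity)
      _ = _ := by rw [mul_one_div]
  · refine (mul_le_mul_right (mul_le_mul_right (cf1_inv_far h.ok h.sg ht h.t1 x v h8) _) _).trans ?_
    rw [← ENNReal.ofReal_mul (by positivity), ← ENNReal.ofReal_mul ht.le]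
    refine ENNReal.ofReal_le_ofReal ?_
    have a5 : 0 < ‖v - Uf Q.c σ t x‖ := by linarith
    calc _ ≤ t * (C * (barn Q P σ t x v * ((9 + 4 * Q.M / Q.c) * ‖v - Uf Q.c σ t x‖) ^ 2) *
          (2000 * Q.K / (Q.c * t * ‖v - Uf Q.c σ t x‖))) := by
          gcongr
          · nlinarith [mul_le_mul_of_nonneg_left (show epsf Q.c Q.e0 t x ≤ ‖v - Uf Q.c σ t x‖ by
              linarith) h7]
          · norm_num
      _ = 2000 * C * (9 + 4 * Q.M / Q.c) ^ 2 * (Q.K / Q.c) *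
          (‖v - Uf Q.c σ t x‖ * barn Q P σ t x v) := by field_simp
      _ ≤ _ := by
          gcongr
          rcases le_total d ‖v - Uf Q.c σ t x‖ with a6 | a6
          · exact le_add_of_nonneg_of_le (by positivity) (h6 a6)
          · exact le_add_of_le_of_nonneg (mul_le_mul_of_nonneg_right (by linarith) hn)
              (by positivity)

theorem BCtx.G (h : BCtx Q R P b t σ) (x : T3) (v w : V) : barG Q b R t x w ≤
    ENNReal.ofReal (om b t (xi t (x, v)) v * Real.exp (2 * ‖v - w‖)) * Wf t (uf Q.c t x) R w :=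
  mul_le_mul' (ENNReal.ofReal_le_ofReal (om_shift h.b1 h.t0 x v w))
    (W_le_Wf Q.c h.t0 (h.tR.trans (by norm_num)) x w)

theorem barb_T3 : ∃ C : ℝ, 0 < C ∧ ∀ {Q : CP} {R t σ : ℝ} {P b : ℕ}, BCtx Q R P b t σ →
    10 * (C * Q.K) ≤ b * Q.c → t * (C * Q.K) ≤ Q.c → ∀ (x : T3) (v : V),
      ENNReal.ofReal (Q.e0 ^ P) * Qe (barC Q σ t x) (barG Q b R t x) v
        ≤ ENNReal.ofReal (1 / 64 + C * Q.K * √Q.e0) * barY Q P b R t x v := by
  obtain ⟨C, hC, hQ⟩ := Qe_W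
  refine ⟨1200000 * C, by positivity, fun {Q R t σ P b} h h1 h2 x v => ?_⟩
  have hc := h.ok.c_pos
  have hK := h.ok.K_pos
  have he := h.ok.e_pos
  have ho := (om_mem b h.t0.le (xi t (x, v)) v).1
  refine (mul_le_mul_right ((hQ t ⟨h.t0.le, by linarith [h.t1]⟩ _ R v _ _ _ ho (barb_mC Q σ t x)
    (fun u hu => (cf1_supp h.ok h.sg h.t0 h.t1 (barb_ne hu)).2.2.2.2.2.2.2.2.2.trans (by norm_num))
    (h.G x v)).trans (mul_le_mul_right (cf1_inv h.ok h.sg h.t0 h.t1 x v) _)) _).trans ?_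
  split_ifs with h3
  swap
  · simp
  have h4 : ‖X x‖ + t * R ≤ 1 / 4 := by linarith [h3.2, h.tR]
  have h5 := Dm_ge_inv h.b1 h.t0 h.bt hc h.ok.c_le (by positivity) h1 h2 h3.1.le v
  have h6 := Dm_ge h.b1 h.t0 h.t1 h.bt x v
  have h7 := (mul_pos hc h.t0).trans h3.1
  calc _ = ENNReal.ofReal (Q.e0 ^ P) * ENNReal.ofReal (C * om b t (xi t (x, v)) v) *
        (ENNReal.ofReal (512 * Q.K / ‖X x‖) *
          (ENNReal.ofReal (mt t v) * (ENNReal.ofReal ‖v - Uf Q.c σ t x‖)⁻¹)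
        + ENNReal.ofReal (50000 * Q.K * √Q.e0) *
          (ENNReal.ofReal (mt t v) * ENNReal.ofReal ‖v - Uf Q.c σ t x‖ ^ (-(3 / 2) : ℝ))) := by
        rw [ENNReal.ofReal_mul (p := C * _) (by positivity)]
        ring
    _ ≤ ENNReal.ofReal (Q.e0 ^ P) * ENNReal.ofReal (C * om b t (xi t (x, v)) v) *
        (ENNReal.ofReal (512 * Q.K / ‖X x‖) * W Q.c R t (x, v)
          + ENNReal.ofReal (50000 * Q.K * √Q.e0) * W Q.c R t (x, v)) := by
        gcongr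
        exacts [shape_inv hc.le h.ok.c_le h.R3 h.t0 h.sg x h4 v,
          shape_pow hc.le h.ok.c_le h.R3 h.t0 h.sg x h4 v]
    _ ≤ _ := by
        rw [← add_mul, ← mul_assoc]
        simp (disch := positivity) only [← ENNReal.ofReal_mul, ← ENNReal.ofReal_add]
        refine BCtx.Y x v (by positivity) ?_
        have h8 : C * (512 * Q.K / ‖X x‖ + 50000 * Q.K * √Q.e0)
            ≤ (1 / 64 + 1200000 * C * Q.K * √Q.e0) * Dm b t (xi t (x, v)) v := by
          have a1 : 0 ≤ C * Q.K / ‖X x‖ := by positivity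
          have a2 := mul_le_mul_of_nonneg_left (show 1 / 24 ≤ Dm b t (xi t (x, v)) v by
            linarith [norm_nonneg v]) (show 0 ≤ C * Q.K * √Q.e0 by positivity)
          rw [show 1200000 * C * Q.K / ‖X x‖ = 1200000 * (C * Q.K / ‖X x‖) by ring] at h5
          rw [show C * (512 * Q.K / ‖X x‖ + 50000 * Q.K * √Q.e0)
            = 512 * (C * Q.K / ‖X x‖) + 50000 * (C * Q.K * √Q.e0) by ring]
          linarith
        linarith [mul_le_mul_of_nonneg_left h8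
          (show 0 ≤ Q.e0 ^ P * om b t (xi t (x, v)) v by positivity)]

theorem barb_T4 {P : ℕ} (hP : 1 ≤ P) : ∃ C : ℝ, 0 < C ∧ ∀ {Q : CP} {R t σ : ℝ} {b : ℕ},
    BCtx Q R P b t σ → ∀ (x : T3) (v : V), Qe (barN Q P σ t x) (barN Q P σ t x) v
      ≤ ENNReal.ofReal (C * barn Q P σ t x v) := by
  obtain ⟨C, hC, hQ⟩ := Qe_NN hP
  refine ⟨C, hC, fun {Q R t σ b} h x v => (hQ _ ⟨(h.eps x).1, by linarith [(h.eps x).2]⟩ _
    (aS_mem Q.M h.sg (X x)) _ v
    ((norm_Uf_le h.ok.c_pos.le h.ok.c_le h.sg t x).trans (by norm_num))).trans ?_⟩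
  rw [barn]
  split_ifs <;> simp

theorem barb_T5 {P : ℕ} (hP : 1 ≤ P) : ∃ C : ℝ, 0 < C ∧ ∀ {Q : CP} {R t σ : ℝ} {b : ℕ},
    BCtx Q R P b t σ → ∀ (x : T3) (v : V),
      ENNReal.ofReal (Q.e0 ^ P) * Qe (barN Q P σ t x) (barG Q b R t x) v
        ≤ ENNReal.ofReal C * barY Q P b R t x v := by
  obtain ⟨C, hC, hQ⟩ := Qe_W
  obtain ⟨C', hC', hQ'⟩ := Nf_inv hP
  refine ⟨24 * (C * C'), by positivity, fun {Q R t σ b} h x v => ?_⟩
  rcases (h.eps x).1.eq_or_lt with h0 | h0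
  · rw [barb_zero (fun u => by rw [barN, ← h0, Nf_zero hP]), mul_zero]
    exact zero_le
  have he := h.ok.e_pos
  have ho := (om_mem b h.t0.le (xi t (x, v)) v).1
  have ha := (aS_mem Q.M h.sg (X x)).1
  have h1 : ‖X x‖ + t * R ≤ 1 / 4 := by
    nlinarith [(Ef_pos_imp h0.ne').2, h.tR, h.t1, h.t0, h.ok.c_le]
  have h2 : ENNReal.ofReal (C' / (‖v - Uf Q.c σ t x‖ + aS Q.M σ (X x) + epsf Q.c Q.e0 t x))
      ≤ ENNReal.ofReal C' * (ENNReal.ofReal ‖v - Uf Q.c σ t x‖)⁻¹ := by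
    rw [div_eq_mul_inv, ENNReal.ofReal_mul hC'.le, ENNReal.ofReal_inv_of_pos (by positivity)]
    exact mul_le_mul_right (ENNReal.inv_le_inv.2 (ENNReal.ofReal_le_ofReal (by linarith))) _
  refine (mul_le_mul_right ((hQ t ⟨h.t0.le, by linarith [h.t1]⟩ _ R v _ _ _ ho
    (measurable_Nf _ _ _ _) (fun u hu => Nf_supp hu) (h.G x v)).trans
    (mul_le_mul_right ((hQ' _ _ h0 ha _ v).trans h2) _)) _).trans ?_
  calc _ = ENNReal.ofReal (Q.e0 ^ P) * ENNReal.ofReal (C * om b t (xi t (x, v)) v) *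
        ENNReal.ofReal C' *
          (ENNReal.ofReal (mt t v) * (ENNReal.ofReal ‖v - Uf Q.c σ t x‖)⁻¹) := by
        rw [ENNReal.ofReal_mul (p := C * _) (by positivity)]
        ring
    _ ≤ _ := by
        refine (mul_le_mul_right
          (shape_inv h.ok.c_pos.le h.ok.c_le h.R3 h.t0 h.sg x h1 v) _).trans ?_
        simp (disch := positivity) only [← ENNReal.ofReal_mul]
        refine h.Y' x v (by positivity) ?_
        calc _ = C * C' * (Q.e0 ^ P * (1 * om b t (xi t (x, v)) v)) := by ring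
          _ ≤ _ := by gcongr; exact le_add_of_nonneg_right (norm_nonneg _)

theorem barb_T6 (R : ℝ) (b : ℕ) : ∃ C : ℝ, 0 < C ∧ ∀ {Q : CP} {t σ : ℝ} {P : ℕ},
    BCtx Q R P b t σ → ∀ (x : T3) (v : V),
      ENNReal.ofReal (Q.e0 ^ P) * Qe (barG Q b R t x) (barG Q b R t x) v
        ≤ ENNReal.ofReal C * barY Q P b R t x v := by
  obtain ⟨C, hC, hQ⟩ := self_Wf R
  refine ⟨24 * (3 ^ b * C), by positivity, fun {Q t σ P} h x v => ?_⟩
  have he := h.ok.e_pos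
  have ho := (om_mem b h.t0.le (xi t (x, v)) v).1
  have hW := W_le_Wf Q.c h.t0 (h.tR.trans (by norm_num)) x
  have h1 : Qe (barG Q b R t x) (barG Q b R t x) v ≤
      ENNReal.ofReal (3 ^ b * om b t (xi t (x, v)) v) * ENNReal.ofReal (C * (1 + ‖v‖) * mt t v) := by
    refine le_trans ?_ (mul_le_mul_right (hQ t ⟨h.t0.le, by linarith [h.t1]⟩ (uf Q.c t x) v) _)
    rw [← lintegral_const_mul' _ _ ENNReal.ofReal_ne_top]
    refine lintegral_mono fun w => ?_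
    rw [← lintegral_const_mul' _ _ ENNReal.ofReal_ne_top]
    refine lintegral_mono fun ω => ?_
    rw [mul_left_comm (ENNReal.ofReal (3 ^ b * _)), ← mul_assoc (ENNReal.ofReal (3 ^ b * _)),
      ← ENNReal.ofReal_mul (by positivity), ← mul_assoc (ENNReal.ofReal (3 ^ b * _ * _))]
    exact mul_le_mul_right (mul_le_mul' (mul_le_mul' (ENNReal.ofReal_le_ofReal
      (om_coll h.b1 h.t0 x (norm_vp_le v w ω))) (hW _)) ((mul_le_of_le_one_left'
        (ENNReal.ofReal_le_one.2 (om_mem b h.t0.le _ _).2)).trans (hW _))) _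
  refine (mul_le_mul_right h1 _).trans ?_
  rw [ENNReal.ofReal_mul (p := C * _) (by positivity), ← mul_assoc, ← mul_assoc]
  refine (mul_le_mul_right (mt_le_W Q.c R t (x, v)) _).trans ?_
  simp (disch := positivity) only [← ENNReal.ofReal_mul]
  exact h.Y' x v (by positivity) (le_of_eq (by ring))

end

end Vale.Agent.P140
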