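import Vale.Agent.P140.Defs

/-! Proof-level definitions: free flow, regularized collision operators, the labelled
approximate system, and the vocabulary of the stability theorem. -/

namespace Vale.Agent.P140

open MeasureTheory Set Filter Topology
open scoped ENNReal RealInnerProductSpace

noncomputable section

/-- Free flow. -/
def fl (s : ℝ) (z : Ph) : Ph := (z.1 + pr (s • z.2), z.2)

/-- `(∂_t + v · ∇_x) φ` for a test function of `(t, x)` only. -/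
def transX (φ : ℝ → T3 → ℝ) (t : ℝ) (z : Ph) : ℝ := dT φ t z.1 + ∑ i, z.2 i * dX i φ t z.1

/-- Truncated kernel. -/
def Bn (n : ℝ) (v w : V) (ω : S2) : ℝ := if ‖v - w‖ ≤ n then |ca v w ω| else 0

/-- Truncated bilinear gain (real valued). -/
def QN (n : ℝ) (f g : V → ℝ) (v : V) : ℝ :=
  ∫ p : V × S2, Bn n v p.1 p.2 * (f (vp v p.1 p.2) * g (wp v p.1 p.2)) ∂(volume.prod sig)

/-- Truncated collision frequency (real valued). -/
def nuN (n : ℝ) (g : V → ℝ) (v : V) : ℝ :=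
  ∫ p : V × S2, Bn n v p.1 p.2 * g p.1 ∂(volume.prod sig)

/-- Truncated bilinear gain, extended valued. -/
def QE (n : ℝ) (f g : V → ℝ≥0∞) (v : V) : ℝ≥0∞ :=
  ∫⁻ w, ∫⁻ ω, ENNReal.ofReal (Bn n v w ω) * (f (vp v w ω) * g (wp v w ω)) ∂sig

/-- Full bilinear gain, extended valued. -/
def Qe (f g : V → ℝ≥0∞) (v : V) : ℝ≥0∞ :=
  ∫⁻ w, ∫⁻ ω, ENNReal.ofReal |ca v w ω| * (f (vp v w ω) * g (wp v w ω)) ∂sig

/-- Velocity slice. -/
def sl {α : Type} (f : Ph → α) (x : T3) : V → α := fun v => f (x, v)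

/-- Gain on phase space. -/
def gainN (n : ℝ) (f g : Ph → ℝ) (z : Ph) : ℝ := QN n (sl f z.1) (sl g z.1) z.2

/-- Collision frequency on phase space. -/
def rateN (n : ℝ) (g : Ph → ℝ) (z : Ph) : ℝ := nuN n (sl g z.1) z.2

/-- Damping factor. -/
def th (n : ℝ) (F : Ph → ℝ) (z : Ph) : ℝ := 1 / (1 + F z / (n * Mx z.2))

/-- Damped component `θ f`, where `θ` is computed from the total `F`. -/
def reg (n : ℝ) (F f : Ph → ℝ) (z : Ph) : ℝ := th n F z * f z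

/-- Damped total. -/
def til (n : ℝ) (F : Ph → ℝ) : Ph → ℝ := reg n F F

/-- Effective loss rate `θ ν`. -/
def lam (n : ℝ) (F : Ph → ℝ) (z : Ph) : ℝ := th n F z * rateN n (til n F) z

/-- `|f| ≤ A M` and measurable, on velocity space. -/
structure BddV (A : ℝ) (f : V → ℝ) : Prop where
  meas : Measurable f
  le : ∀ v, |f v| ≤ A * Mx v

/-- `y` is a primitive of the integrable function `q` on `[a,b]`. -/
structure Prim (y q : ℝ → ℝ) (a b : ℝ) : Prop where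
  le : a ≤ b
  int : IntervalIntegrable q volume a b
  eq : ∀ t ∈ Icc a b, y t = y a + ∫ s in a..t, q s

/-- Solution of the regularized equation started at time `0`. -/
structure Appr (n : ℝ) (F : ℝ → Ph → ℝ) : Prop where
  meas : Measurable (fun p : ℝ × Ph => F p.1 p.2)
  nonneg : ∀ t z, 0 ≤ F t z
  low : ∀ T : ℝ, ∃ a : ℝ, 0 < a ∧ ∀ t ∈ Icc 0 T, ∀ z : Ph, a * Mx z.2 ≤ F t z
  upp : ∀ T : ℝ, ∃ C : ℝ, ∀ t ∈ Icc 0 T, ∀ z : Ph, F t z ≤ C * Mx z.2
  mild : ∀ t, 0 ≤ t → ∀ z, F t (fl t z) = F 0 z + ∫ s in (0 : ℝ)..t,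
    (gainN n (til n (F s)) (til n (F s)) (fl s z) - lam n (F s) (fl s z) * F s (fl s z))

/-- Total density of the labelled system. -/
def tot (c h k : ℝ → Ph → ℝ) (t : ℝ) (z : Ph) : ℝ := c t z + h t z + k t z

/-- Sum of the first two labels. -/
def two (c h : ℝ → Ph → ℝ) (t : ℝ) (z : Ph) : ℝ := c t z + h t z

/-- Gain of label one. -/
def gain1 (n : ℝ) (c h k : ℝ → Ph → ℝ) (t : ℝ) (z : Ph) : ℝ :=
  gainN n (reg n (tot c h k t) (two c h t)) (reg n (tot c h k t) (two c h t)) z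

/-- Gain of label two. -/
def gain2 (n : ℝ) (c h k : ℝ → Ph → ℝ) (t : ℝ) (z : Ph) : ℝ :=
  gainN n (til n (tot c h k t)) (reg n (tot c h k t) (k t)) z
    + gainN n (reg n (tot c h k t) (k t)) (reg n (tot c h k t) (two c h t)) z

/-- The labelled regularized system started at time `t₀`: `c` never collided, `h` collided
only with labels zero and one, `k` descends from label two. -/
structure Sys (n t₀ : ℝ) (c h k : ℝ → Ph → ℝ) : Prop where
  mc : Measurable (fun p : ℝ × Ph => c p.1 p.2)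
  mh : Measurable (fun p : ℝ × Ph => h p.1 p.2)
  mk' : Measurable (fun p : ℝ × Ph => k p.1 p.2)
  c0 : ∀ t z, 0 ≤ c t z
  h0 : ∀ t z, 0 ≤ h t z
  k0 : ∀ t z, 0 ≤ k t z
  upp : ∀ T : ℝ, ∃ C : ℝ, ∀ t ∈ Icc t₀ T, ∀ z : Ph, tot c h k t z ≤ C * Mx z.2
  mildc : ∀ t, t₀ ≤ t → ∀ z, c t (fl t z) = c t₀ (fl t₀ z) + ∫ s in t₀..t,
    (0 - lam n (tot c h k s) (fl s z) * c s (fl s z))
  mildh : ∀ t, t₀ ≤ t → ∀ z, h t (fl t z) = h t₀ (fl t₀ z) + ∫ s in t₀..t,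
    (gain1 n c h k s (fl s z) - lam n (tot c h k s) (fl s z) * h s (fl s z))
  mildk : ∀ t, t₀ ≤ t → ∀ z, k t (fl t z) = k t₀ (fl t₀ z) + ∫ s in t₀..t,
    (gain2 n c h k s (fl s z) - lam n (tot c h k s) (fl s z) * k s (fl s z))

/-- Entropy density of the regularized equation. -/
def eta (n G : ℝ) : ℝ := G * Real.log G - (n + G) * Real.log (1 + G / n) + 1

/-- Pointwise truncated dissipation. -/
def EN (n : ℝ) (g : Ph → ℝ) (z : Ph) : ℝ≥0∞ :=
  ∫⁻ w, ∫⁻ ω, ENNReal.ofReal (Bn n z.2 w ω) *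
    jd (g (z.1, vp z.2 w ω) * g (z.1, wp z.2 w ω)) (g z * g (z.1, w)) ∂sig

/-- Truncated dissipation. -/
def DisN (n : ℝ) (g : Ph → ℝ) : ℝ≥0∞ := 4⁻¹ * ∫⁻ z, EN n g z

/-- Regularized entropy, shifted to have a nonnegative integrand when `2 ≤ n`. -/
def HN (n : ℝ) (F : Ph → ℝ) : ℝ≥0∞ :=
  ∫⁻ z, ENNReal.ofReal (Mx z.2 * (eta n (F z / Mx z.2) + 1))

/-- A sequence of regularized solutions whose data converge to `F₀`. -/
structure Seq (F₀ : Ph → ℝ) where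
  n : ℕ → ℝ
  F : ℕ → ℝ → Ph → ℝ
  n_ge : ∀ k : ℕ, (k : ℝ) + 2 ≤ n k
  appr : ∀ k, Appr (n k) (F k)
  datum : IsDatum F₀
  conv : Tendsto (fun k => ∫⁻ z : Ph, ENNReal.ofReal (|F k 0 z - F₀ z| * (1 + ‖z.2‖ ^ 2)))
    atTop (𝓝 0)
  ent : Tendsto (fun k => Hm (F k 0)) atTop (𝓝 (Hm F₀))

/-- The damped density of the `k`-th member. -/
def Seq.G {F₀ : Ph → ℝ} (S : Seq F₀) (k : ℕ) (t : ℝ) : Ph → ℝ := til (S.n k) (S.F k t)

/-- Uniform integrability and tightness in one condition. -/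
def UI {α ι : Type} [MeasurableSpace α] (μ : Measure α) (f : ι → α → ℝ) : Prop :=
  ∀ ε : ℝ, 0 < ε → ∃ g : α → ℝ, Measurable g ∧ Integrable g μ ∧ (∀ x, 0 ≤ g x) ∧
    ∀ i, ∫⁻ x, ENNReal.ofReal (|f i x| - g x) ∂μ ≤ ENNReal.ofReal ε

/-- Weak `L¹` convergence along a filter. -/
def WeakConv {α ι : Type} [MeasurableSpace α] (μ : Measure α) (l : Filter ι)
    (f : ι → α → ℝ) (f₀ : α → ℝ) : Prop :=
  ∀ ψ : α → ℝ, Measurable ψ → (∃ C, ∀ x, |ψ x| ≤ C) →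
    Tendsto (fun i => ∫ x, f i x * ψ x ∂μ) l (𝓝 (∫ x, f₀ x * ψ x ∂μ))

/-- Convergence against every integrable weight (for bounded families this is local
convergence in measure). -/
def LocConv {α ι : Type} [MeasurableSpace α] (μ : Measure α) (l : Filter ι)
    (a : ι → α → ℝ) (a₀ : α → ℝ) : Prop :=
  ∀ g : α → ℝ, Measurable g → Integrable g μ →
    Tendsto (fun i => ∫⁻ x, ‖a i x - a₀ x‖ₑ * ‖g x‖ₑ ∂μ) l (𝓝 0)

/-- Time measure. -/
abbrev muT (T : ℝ) : Measure ℝ := volume.restrict (Ioc 0 T)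

/-- Measure on `(t, x)`. -/
abbrev mu2 (T : ℝ) : Measure (ℝ × T3) := (muT T).prod volume

/-- Measure on `(t, x, v)`. -/
abbrev mu3 (T : ℝ) : Measure (ℝ × Ph) := (muT T).prod volume

/-- Measure on `((t, x), v, w)`. -/
abbrev mu4 (T : ℝ) : Measure ((ℝ × T3) × V × V) := (mu2 T).prod volume

/-- `F` is the weak limit of the sequence along the ultrafilter `U`, at every time. -/
structure Lim {F₀ : Ph → ℝ} (S : Seq F₀) (U : Ultrafilter ℕ) (F : ℝ → Ph → ℝ) : Prop where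
  le : (U : Filter ℕ) ≤ atTop
  meas : Measurable (fun p : ℝ × Ph => F p.1 p.2)
  nonneg : ∀ t z, 0 ≤ F t z
  int : ∀ t, 0 ≤ t → Integrable (F t)
  weak : ∀ t, 0 ≤ t → WeakConv volume (U : Filter ℕ) (fun k => S.F k t) (F t)

/-- Macroscopic density. -/
def rho (g : Ph → ℝ) (x : T3) : ℝ := ∫ v, g (x, v)

/-- Full collision frequency. -/
def nuL (F : Ph → ℝ) (z : Ph) : ℝ := ∫ w, 2 * Real.pi * ‖z.2 - w‖ * F (z.1, w)

/-- Accumulated rate along a characteristic. -/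
def Lam (ν : ℝ → Ph → ℝ) (s t : ℝ) (z : Ph) : ℝ := ∫ τ in s..t, ν τ (fl τ z)

/-- Full gain on phase space. -/
def QpF (F : Ph → ℝ) (z : Ph) : ℝ≥0∞ := Qp (fun v => F (z.1, v)) z.2

/-- Normalized tensor product. -/
def Pd (δ : ℝ) (g : Ph → ℝ) (x : T3) (v w : V) : ℝ := g (x, v) * g (x, w) / (1 + δ * rho g x)

/-- Right-hand side of the exponential Duhamel formula. -/
def duh (F₀ : Ph → ℝ) (F : ℝ → Ph → ℝ) (t : ℝ) (z : Ph) : ℝ≥0∞ :=
  ENNReal.ofReal (F₀ z * Real.exp (-Lam (fun τ => nuL (F τ)) 0 t z))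
    + ∫⁻ τ in Ioc 0 t, QpF (F τ) (fl τ z) *
        ENNReal.ofReal (Real.exp (-Lam (fun τ => nuL (F τ)) τ t z))

end

end Vale.Agent.P140
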