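import Vale.Agent.P140.Avg

/-! Weak convergence of the normalized tensor products. -/

namespace Vale.Agent.P140

open MeasureTheory Set Filter Topology
open scoped ENNReal RealInnerProductSpace

noncomputable section

variable {F₀ : Ph → ℝ} {S : Seq F₀} {U : Ultrafilter ℕ} {F : ℝ → Ph → ℝ}

theorem Pd_nonneg {δ : ℝ} (hδ : 0 ≤ δ) {g : Ph → ℝ} (h0 : ∀ z, 0 ≤ g z) (x : T3) (v w : V) :
    0 ≤ Pd δ g x v w := by
  have := rho_nonneg h0 x
  exact div_nonneg (mul_nonneg (h0 _) (h0 _)) (by positivity)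

/-- Nonnegative, jointly measurable, with integrable velocity slices. -/
structure BilG (T : ℝ) (g : ℝ → Ph → ℝ) : Prop where
  meas : Measurable fun p : ℝ × Ph => g p.1 p.2
  nn : ∀ t z, 0 ≤ g t z
  int : ∀ᵐ p ∂(mu2 T), Integrable fun v : V => g p.1 (p.2, v)

theorem bil_G (S : Seq F₀) (k : ℕ) (T : ℝ) : BilG T (S.G k) :=
  ⟨S.measG k, S.G_nonneg k, Eventually.of_forall fun p => by
    simpa [sl] using (S.bddG k p.1 p.2).integrable_pow 0⟩

theorem bil_F (h : Lim S U F) (T : ℝ) : BilG T F :=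
  ⟨h.meas, h.nonneg, (h.ae_slice T).mono fun _ hp =>
    hp.mono' ((h.meas_t _).comp measurable_prodMk_left).aestronglyMeasurable
      (Eventually.of_forall fun _ => (Real.norm_of_nonneg (h.nonneg _ _)).trans_le
        (le_mul_of_one_le_left (h.nonneg _ _) (le_add_of_nonneg_right (sq_nonneg _))))⟩

theorem bil_rho {T : ℝ} {g : ℝ → Ph → ℝ} (hg : BilG T g) :
    Measurable fun p : ℝ × T3 => rho (g p.1) p.2 :=
  measurable_rho (F := fun p : ℝ × T3 => g p.1)
    (hg.meas.comp (measurable_fst.fst.prodMk measurable_snd)) measurable_snd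

theorem bil_meas {T : ℝ} {g : ℝ → Ph → ℝ} (hg : BilG T g) (δ : ℝ) :
    Measurable fun q : (ℝ × T3) × V × V => Pd δ (g q.1.1) q.1.2 q.2.1 q.2.2 :=
  measurable_Pd δ (F := fun q : (ℝ × T3) × V × V => g q.1.1)
    (hg.meas.comp (measurable_fst.fst.fst.prodMk measurable_snd)) measurable_fst.snd
    measurable_snd.fst measurable_snd.snd

theorem bil_div {δ r b : ℝ} (hδ : 0 < δ) (hr : 0 ≤ r) (hb : b ≤ r) : b / (1 + δ * r) ≤ 1 / δ := by
  rw [div_le_div_iff₀ (by positivity) hδ]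
  nlinarith

theorem bil_sym {T δ : ℝ} {g : ℝ → Ph → ℝ} (hg : BilG T g) (hδ : 0 < δ) {a : ℝ × Ph → ℝ≥0∞}
    (ha : Measurable a) : ∫⁻ q : (ℝ × T3) × V × V, (a (q.1.1, q.1.2, q.2.1) *
        ENNReal.ofReal (g q.1.1 (q.1.2, q.2.2) / (1 + δ * rho (g q.1.1) q.1.2))
      + a (q.1.1, q.1.2, q.2.2) *
        ENNReal.ofReal (g q.1.1 (q.1.2, q.2.1) / (1 + δ * rho (g q.1.1) q.1.2))) ∂(mu4 T)
      ≤ ENNReal.ofReal (2 / δ) * ∫⁻ t in Ioc 0 T, ∫⁻ z, a (t, z) := by
  have h1 := bil_rho hg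
  have h2 : Measurable fun q : (ℝ × T3) × V =>
      ENNReal.ofReal (g q.1.1 (q.1.2, q.2) / (1 + δ * rho (g q.1.1) q.1.2)) :=
    ((hg.meas.comp (measurable_fst.fst.prodMk (measurable_fst.snd.prodMk measurable_snd))).div
      (((h1.comp measurable_fst).const_mul δ).const_add 1)).ennreal_ofReal
  have h3 : Measurable fun q : (ℝ × T3) × V => a (q.1.1, q.1.2, q.2) := by fun_prop
  refine (lintegral_prod _ (Measurable.aemeasurable (Measurable.add
    ((h3.comp (measurable_fst.prodMk measurable_snd.fst)).mul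
      (h2.comp (measurable_fst.prodMk measurable_snd.snd)))
    ((h3.comp (measurable_fst.prodMk measurable_snd.snd)).mul
      (h2.comp (measurable_fst.prodMk measurable_snd.fst)))))).trans_le ?_
  rw [← avg_assoc T ha, ← lintegral_const_mul' _ _ ENNReal.ofReal_ne_top]
  refine lintegral_mono_ae (hg.int.mono fun p hp => ?_)
  have h4 : Measurable fun v : V => a (p.1, p.2, v) := h3.comp measurable_prodMk_left
  have h5 : Measurable fun v : V =>
      ENNReal.ofReal (g p.1 (p.2, v) / (1 + δ * rho (g p.1) p.2)) :=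
    h2.comp measurable_prodMk_left
  have h6 := rho_nonneg (hg.nn p.1) p.2
  have h7 : ∫⁻ v : V, ENNReal.ofReal (g p.1 (p.2, v) / (1 + δ * rho (g p.1) p.2))
      ≤ ENNReal.ofReal (1 / δ) := by
    rw [← ofReal_integral_eq_lintegral_ofReal (hp.div_const _)
      (Eventually.of_forall fun v => div_nonneg (hg.nn _ _) (by positivity)), integral_div]
    exact ENNReal.ofReal_le_ofReal (bil_div hδ h6 le_rfl)
  have h8 := lintegral_prod_mul (μ := (volume : Measure V)) (ν := (volume : Measure V))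
    h4.aemeasurable h5.aemeasurable
  have h9 := lintegral_prod_mul (μ := (volume : Measure V)) (ν := (volume : Measure V))
    h5.aemeasurable h4.aemeasurable
  simp only [Pi.add_apply, Pi.mul_apply, Function.comp_apply]
  rw [Measure.volume_eq_prod, lintegral_add_left (f := fun y : V × V => a (p.1, p.2, y.1) *
      ENNReal.ofReal (g p.1 (p.2, y.2) / (1 + δ * rho (g p.1) p.2)))
    ((h4.comp measurable_fst).mul (h5.comp measurable_snd)), h8]
  simp only [mul_comm (a _)]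
  rw [h9, show 2 / δ = 1 / δ + 1 / δ by ring, ENNReal.ofReal_add (by positivity) (by positivity),
    add_mul, mul_comm]
  exact add_le_add (mul_le_mul_left h7 _) (mul_le_mul_left h7 _)

theorem bil_time {T : ℝ} {u : ℝ → ℝ≥0∞} {c : ℝ≥0∞} (h : ∀ t ∈ Ioc 0 T, u t ≤ c) :
    ∫⁻ t in Ioc 0 T, u t ≤ c * ENNReal.ofReal T :=
  (setLIntegral_mono' measurableSet_Ioc (g := fun _ => c) h).trans (by simp)

theorem bil_half {x y R f h u w D : ℝ} (hx : 0 ≤ x) (hy : 0 ≤ y) (hR : 0 < R) (hu : 0 ≤ u)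
    (huf : u ≤ f) (hw : 0 ≤ w) (hwh : w ≤ h) (hD : 1 ≤ D) :
    (1 + x + y) * (u * w / D) ≤ (1 + R) * ((1 + x) * f) * (w / D) + (1 + y ^ 2) * h / R * (u / D) := by
  have h1 : 1 + x + y ≤ (1 + R) * (1 + x) + (1 + y ^ 2) / R := by
    rcases le_total y R with h1 | h1
    · have : 0 ≤ (1 + y ^ 2) / R := by positivity
      nlinarith [mul_nonneg hx hR.le]
    · have : y ≤ (1 + y ^ 2) / R := by rw [le_div_iff₀ hR]; nlinarith
      nlinarith [mul_nonneg hx hR.le]
  have hD0 : 0 < D := by linarith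
  calc (1 + x + y) * (u * w / D) ≤ ((1 + R) * (1 + x) + (1 + y ^ 2) / R) * (u * w / D) :=
        mul_le_mul_of_nonneg_right h1 (by positivity)
    _ = (1 + R) * ((1 + x) * u) * (w / D) + (1 + y ^ 2) * w / R * (u / D) := by ring
    _ ≤ _ := by gcongr

theorem bil_real {x y R L m n f h u w D : ℝ} (hx : 0 ≤ x) (hy : 0 ≤ y) (hR : 0 < R) (hL : 0 < L)
    (hm : 0 < m) (hn : 0 < n) (hu : 0 ≤ u) (huf : u ≤ f) (hw : 0 ≤ w) (hwh : w ≤ h) (hD : 1 ≤ D) :
    (1 + x + y) * (u * w / D) - L ^ 2 * ((1 + x) ^ 1 * m * ((1 + y) ^ 1 * n))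
      ≤ ((if L * m ≤ f then (1 + R) * ((1 + x) * f) else 0) + (1 + x ^ 2) * f / R) * (w / D)
        + ((if L * n ≤ h then (1 + R) * ((1 + y) * h) else 0) + (1 + y ^ 2) * h / R) * (u / D) := by
  have hf : 0 ≤ f := hu.trans huf
  have hh : 0 ≤ h := hw.trans hwh
  have hD0 : 0 < D := by linarith
  have a1 := bil_half hx hy hR hu huf hw hwh hD
  have a2 := bil_half hy hx hR hw hwh hu huf hD
  have a3 : 0 ≤ L ^ 2 * ((1 + x) ^ 1 * m * ((1 + y) ^ 1 * n)) := by positivity
  have a4 : 0 ≤ (1 + x ^ 2) * f / R * (w / D) := by positivity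
  have a5 : 0 ≤ (1 + y ^ 2) * h / R * (u / D) := by positivity
  have a6 : 0 ≤ (1 + R) * ((1 + y) * h) * (u / D) := by positivity
  rw [add_right_comm, mul_comm w] at a2
  split_ifs with h1 h2 h2
  · linarith
  · linarith
  · linarith
  · push Not at h1 h2
    have a7 : u * w / D ≤ L * m * (L * n) :=
      (div_le_self (by positivity) hD).trans (by gcongr <;> linarith)
    have a8 : (1 + x + y) * (u * w / D) ≤ (1 + x) * (1 + y) * (L * m * (L * n)) :=
      mul_le_mul (by nlinarith [mul_nonneg hx hy]) a7 (by positivity) (by positivity)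
    linarith

theorem Seq.ui_Pd (S : Seq F₀) {δ : ℝ} (hδ : 0 < δ) (T : ℝ) : UI (mu4 T)
    (fun (k : ℕ) (q : (ℝ × T3) × V × V) =>
      (1 + ‖q.2.1‖ + ‖q.2.2‖) * Pd δ (S.G k q.1.1) q.1.2 q.2.1 q.2.2) := by
  intro ε hε
  obtain ⟨C, hC, hmom⟩ := S.mom
  obtain ⟨η, hη⟩ : ∃ η, η = ε / (2 * (2 / δ * |T| + 1)) := ⟨_, rfl⟩
  have hη0 : 0 < η := hη ▸ by positivity
  obtain ⟨R, hR⟩ : ∃ R, R = (C + 1) / η := ⟨_, rfl⟩
  have hR0 : 0 < R := hR ▸ by positivity
  obtain ⟨L, L0, hL⟩ := S.tail T (ε := η / (1 + R)) (by positivity)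
  have hMm := continuous_Mx.measurable
  refine ⟨fun q => L ^ 2 * ((1 + ‖q.2.1‖) ^ 1 * Mx q.2.1 * ((1 + ‖q.2.2‖) ^ 1 * Mx q.2.2)),
    by fun_prop, ?_, fun q => by have := Mx_pos q.2.1; have := Mx_pos q.2.2; positivity,
    fun k => ?_⟩
  · refine Integrable.const_mul (Integrable.comp_snd (f := fun y : V × V =>
      (1 + ‖y.1‖) ^ 1 * Mx y.1 * ((1 + ‖y.2‖) ^ 1 * Mx y.2)) ?_ _) _
    exact (integrable_pow_Mx 1).mul_prod (integrable_pow_Mx 1)
  have hms : MeasurableSet {p : ℝ × Ph | L * Mx p.2.2 ≤ S.F k p.1 p.2} :=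
    measurableSet_le (by fun_prop) (S.measF k)
  have hFm := S.measF k
  have ha : Measurable fun p : ℝ × Ph => ENNReal.ofReal
      ((if L * Mx p.2.2 ≤ S.F k p.1 p.2 then (1 + R) * ((1 + ‖p.2.2‖) * S.F k p.1 p.2) else 0)
        + (1 + ‖p.2.2‖ ^ 2) * S.F k p.1 p.2 / R) :=
    ((Measurable.ite hms (by fun_prop) measurable_const).fun_add (by fun_prop)).ennreal_ofReal
  refine le_trans (lintegral_mono fun q => ?_) ((bil_sym (bil_G S k T) hδ ha).trans ?_)
  · have a1 := rho_nonneg (S.G_nonneg k q.1.1) q.1.2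
    have a2 : 1 ≤ 1 + δ * rho (S.G k q.1.1) q.1.2 := le_add_of_nonneg_right (by positivity)
    rw [abs_of_nonneg (mul_nonneg (by positivity) (Pd_nonneg hδ.le (S.G_nonneg k _) _ _ _))]
    refine (ENNReal.ofReal_le_ofReal (bil_real (norm_nonneg _) (norm_nonneg _) hR0 L0
      (Mx_pos _) (Mx_pos _) (S.G_nonneg k _ _) (S.G_le k _ _) (S.G_nonneg k _ _) (S.G_le k _ _)
      a2)).trans (ENNReal.ofReal_add_le.trans ?_)
    exact add_le_add (ENNReal.ofReal_mul' (div_nonneg (S.G_nonneg k _ _) (by linarith))).le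
      (ENNReal.ofReal_mul' (div_nonneg (S.G_nonneg k _ _) (by linarith))).le
  refine (mul_le_mul_right (bil_time (c := ENNReal.ofReal (2 * η)) fun t ht => ?_) _).trans ?_
  · have hms' := S.unif0_meas k t L
    have hFt := (S.appr k).meas_t t
    calc _ ≤ ∫⁻ z : Ph, (indicator {z : Ph | L * Mx z.2 ≤ S.F k t z} (fun z =>
          ENNReal.ofReal (1 + R) * ENNReal.ofReal ((1 + ‖z.2‖) * S.F k t z)) z
          + ENNReal.ofReal (1 / R) * ENNReal.ofReal ((1 + ‖z.2‖ ^ 2) * S.F k t z)) := by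
          refine lintegral_mono fun z => ENNReal.ofReal_add_le.trans (add_le_add ?_ ?_)
          · by_cases hz : L * Mx z.2 ≤ S.F k t z
            · rw [if_pos hz, indicator_of_mem (s := {z : Ph | L * Mx z.2 ≤ S.F k t z}) hz,
                ENNReal.ofReal_mul (by linarith)]
            · simp [hz]
          · rw [← ENNReal.ofReal_mul (by positivity), one_div, ← div_eq_inv_mul]
      _ ≤ ENNReal.ofReal (1 + R) * ENNReal.ofReal (η / (1 + R))
          + ENNReal.ofReal (1 / R) * ENNReal.ofReal C := by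
          rw [lintegral_add_right _ (by fun_prop), lintegral_indicator hms',
            lintegral_const_mul' _ _ ENNReal.ofReal_ne_top,
            lintegral_const_mul' _ _ ENNReal.ofReal_ne_top]
          exact add_le_add (mul_le_mul_right (hL k t (Ioc_subset_Icc_self ht)) _)
            (mul_le_mul_right (hmom k t ht.1.le) _)
      _ ≤ _ := by
          rw [← ENNReal.ofReal_mul (by positivity), ← ENNReal.ofReal_mul (by positivity),
            ← ENNReal.ofReal_add (by positivity) (by positivity),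
            mul_div_cancel₀ _ (by positivity)]
          refine ENNReal.ofReal_le_ofReal ?_
          have : 1 / R * C ≤ η := by
            rw [one_div, ← div_eq_inv_mul, div_le_iff₀ hR0, hR, mul_div_cancel₀ _ hη0.ne']
            linarith
          linarith
  · rw [← ENNReal.ofReal_mul (by positivity), ← ENNReal.ofReal_mul (by positivity)]
    refine ENNReal.ofReal_le_ofReal ?_
    have e : ε = η * (2 * (2 / δ * |T| + 1)) := by rw [hη, div_mul_cancel₀ _ (by positivity)]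
    have : 2 / δ * (2 * η * T) ≤ 2 / δ * (2 * η * |T|) := by gcongr; exact le_abs_self T
    nlinarith

theorem Lim.int_Pd (h : Lim S U F) {δ : ℝ} (hδ : 0 < δ) (T : ℝ) : Integrable
    (fun q : (ℝ × T3) × V × V => (1 + ‖q.2.1‖ + ‖q.2.2‖) * Pd δ (F q.1.1) q.1.2 q.2.1 q.2.2)
    (mu4 T) := by
  obtain ⟨C, hC, hmom⟩ := h.mom
  have hg := bil_F h T
  have hm := h.meas
  refine ⟨(Measurable.mul (by fun_prop) (bil_meas hg δ)).aestronglyMeasurable, ?_⟩
  rw [hasFiniteIntegral_iff_ofReal (Eventually.of_forall fun q =>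
    mul_nonneg (by positivity) (Pd_nonneg hδ.le (h.nonneg _) _ _ _))]
  refine lt_of_le_of_lt (lintegral_mono fun q => ?_) ((bil_sym hg hδ
    (a := fun p => ENNReal.ofReal ((1 + ‖p.2.2‖ ^ 2) * F p.1 p.2)) (by fun_prop)).trans_lt
    ((mul_le_mul_right (bil_time fun t ht => hmom t ht.1.le) _).trans_lt (by finiteness)))
  have a1 := rho_nonneg (h.nonneg q.1.1) q.1.2
  have a2 := h.nonneg q.1.1 (q.1.2, q.2.1)
  have a3 := h.nonneg q.1.1 (q.1.2, q.2.2)
  dsimp only
  rw [← ENNReal.ofReal_mul (by positivity), ← ENNReal.ofReal_mul (by positivity),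
    ← ENNReal.ofReal_add (by positivity) (by positivity)]
  refine ENNReal.ofReal_le_ofReal ?_
  have a4 := Pd_nonneg hδ.le (h.nonneg q.1.1) q.1.2 q.2.1 q.2.2
  refine (mul_le_mul_of_nonneg_right (c := (1 + ‖q.2.1‖ ^ 2) + (1 + ‖q.2.2‖ ^ 2))
    (by nlinarith [sq_nonneg (‖q.2.1‖ - 1), sq_nonneg (‖q.2.2‖ - 1)]) a4).trans_eq ?_
  rw [Pd]
  ring

theorem bil_cone {δ a b r a' b' r' : ℝ} (hδ : 0 < δ) (hb : 0 ≤ b) (ha' : 0 ≤ a') (hbr : b ≤ r)
    (har : a' ≤ r') : |a * b / (1 + δ * r) - a' * b' / (1 + δ * r')|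
      ≤ 1 / δ * (|a - a'| + |b - b'| + |r - r'|) := by
  have hr : 0 ≤ r := hb.trans hbr
  have hr' : 0 ≤ r' := ha'.trans har
  have h1 := bil_div hδ hr hbr
  have h2 := bil_div hδ hr' har
  have e : a * b / (1 + δ * r) - a' * b' / (1 + δ * r') = b / (1 + δ * r) * (a - a')
      + a' / (1 + δ * r') * (b - b')
      - δ * (a' / (1 + δ * r')) * (b / (1 + δ * r)) * (r - r') := by
    field_simp
    ring
  have h3 : 0 ≤ b / (1 + δ * r) := by positivity
  have h4 : 0 ≤ a' / (1 + δ * r') := by positivity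
  rw [e]
  generalize b / (1 + δ * r) = u at *
  generalize a' / (1 + δ * r') = w at *
  have h5 : δ * w * u ≤ 1 / δ := by
    rw [← one_mul (1 / δ)]
    exact mul_le_mul (by rwa [le_div_iff₀ hδ, mul_comm] at h2) h1 h3 zero_le_one
  refine (abs_sub _ _).trans ((add_le_add (abs_add_le _ _) le_rfl).trans ?_)
  rw [abs_mul, abs_mul, abs_mul, abs_of_nonneg h3, abs_of_nonneg h4,
    abs_of_nonneg (a := δ * w * u) (by positivity), mul_add, mul_add]
  gcongr

theorem bil_box {T δ : ℝ} {g : ℝ → Ph → ℝ} (hi : Integrable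
    (fun q : (ℝ × T3) × V × V => Pd δ (g q.1.1) q.1.2 q.2.1 q.2.2) (mu4 T)) (A : Set (ℝ × T3))
    (B C : Set V) : Integrable (fun p : ℝ × T3 => (∫ v in B, g p.1 (p.2, v)) *
      (∫ v in C, g p.1 (p.2, v)) / (1 + δ * rho (g p.1) p.2)) (mu2 T) ∧
    ∫ q in A ×ˢ B ×ˢ C, Pd δ (g q.1.1) q.1.2 q.2.1 q.2.2 ∂(mu4 T) = ∫ p in A,
      (∫ v in B, g p.1 (p.2, v)) * (∫ v in C, g p.1 (p.2, v)) / (1 + δ * rho (g p.1) p.2)
        ∂(mu2 T) := by
  have e : ∀ p : ℝ × T3, ∫ y in B ×ˢ C, Pd δ (g p.1) p.2 y.1 y.2 = (∫ v in B, g p.1 (p.2, v)) *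
      (∫ v in C, g p.1 (p.2, v)) / (1 + δ * rho (g p.1) p.2) := fun p => by
    simp only [Pd]
    rw [integral_div, Measure.volume_eq_prod,
      setIntegral_prod_mul (fun v => g p.1 (p.2, v)) (fun v => g p.1 (p.2, v))]
  simp only [← e]
  refine ⟨?_, setIntegral_prod _ hi.integrableOn⟩
  have h1 := hi.integrableOn (s := univ ×ˢ B ×ˢ C)
  rw [IntegrableOn, ← Measure.prod_restrict, Measure.restrict_univ] at h1
  exact h1.integral_prod_left

theorem bil_mset {T : ℝ} {g f : ℝ → Ph → ℝ} (hg : BilG T g) (hf : BilG T f) (B : Set V) :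
    Measurable fun p : ℝ × T3 => ‖(∫ v in B, g p.1 (p.2, v)) - ∫ v in B, f p.1 (p.2, v)‖ₑ := by
  have h1 : ∀ u : ℝ → Ph → ℝ, BilG T u →
      Measurable fun p : ℝ × T3 => ∫ v in B, u p.1 (p.2, v) := fun u hu =>
    (StronglyMeasurable.integral_prod_right' (f := fun q : (ℝ × T3) × V => u q.1.1 (q.1.2, q.2))
      (hu.meas.comp (measurable_fst.fst.prodMk
        (measurable_fst.snd.prodMk measurable_snd))).stronglyMeasurable).measurable
  exact ((h1 g hg).fun_sub (h1 f hf)).enorm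

theorem Lim.weak_Pd (h : Lim S U F) {δ : ℝ} (hδ : 0 < δ) (T : ℝ) : WeakConv (mu4 T) (U : Filter ℕ)
    (fun (k : ℕ) (q : (ℝ × T3) × V × V) =>
      (1 + ‖q.2.1‖ + ‖q.2.2‖) * Pd δ (S.G k q.1.1) q.1.2 q.2.1 q.2.2)
    (fun q => (1 + ‖q.2.1‖ + ‖q.2.2‖) * Pd δ (F q.1.1) q.1.2 q.2.1 q.2.2) := by
  have g1 := fun k => bil_G S k T
  have g2 := bil_F h T
  have hW : ∀ q : (ℝ × T3) × V × V, 1 ≤ 1 + ‖q.2.1‖ + ‖q.2.2‖ := fun q => by
    linarith [norm_nonneg q.2.1, norm_nonneg q.2.2]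
  have hU : UI (mu4 T) fun (k : ℕ) (q : (ℝ × T3) × V × V) =>
      Pd δ (S.G k q.1.1) q.1.2 q.2.1 q.2.2 :=
    (S.ui_Pd hδ T).mono id zero_le_one fun k q => by
      rw [one_mul, abs_mul]
      exact le_mul_of_one_le_left (abs_nonneg _) ((hW q).trans (le_abs_self _))
  have i1 := hU.integrable fun k => bil_meas (g1 k) δ
  have i2 : Integrable (fun q : (ℝ × T3) × V × V => Pd δ (F q.1.1) q.1.2 q.2.1 q.2.2) (mu4 T) :=
    (h.int_Pd hδ T).mono (bil_meas g2 δ).aestronglyMeasurable (Eventually.of_forall fun q => by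
      rw [norm_mul]
      exact le_mul_of_one_le_left (norm_nonneg _) ((hW q).trans (le_abs_self _)))
  have hav : ∀ B : Set V, MeasurableSet B → Tendsto (fun k => ∫⁻ p : ℝ × T3,
      ‖(∫ v in B, S.G k p.1 (p.2, v)) - ∫ v in B, F p.1 (p.2, v)‖ₑ ∂(mu2 T)) (U : Filter ℕ)
      (𝓝 0) := fun B hB => by
    have := h.avg (φ := indicator B fun _ => 1) (measurable_const.indicator hB) (C := 1)
      (fun v => by by_cases hv : v ∈ B <;> simp [hv]; positivity) T
    simpa only [w0_ind _ hB, mul_one] using this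
  have hbox : ∀ A B C, MeasurableSet B → MeasurableSet C → Tendsto (fun k =>
      ∫ q in A ×ˢ B ×ˢ C, Pd δ (S.G k q.1.1) q.1.2 q.2.1 q.2.2 ∂(mu4 T)) (U : Filter ℕ)
      (𝓝 (∫ q in A ×ˢ B ×ˢ C, Pd δ (F q.1.1) q.1.2 q.2.1 q.2.2 ∂(mu4 T))) := by
    intro A B C hB hC
    simp only [fun k => (bil_box (i1 k) A B C).2, (bil_box i2 A B C).2]
    refine tendsto_setIntegral_of_L1 _ (bil_box i2 A B C).1.aestronglyMeasurable
      (Eventually.of_forall fun k => (bil_box (i1 k) A B C).1) ?_ A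
    have h1 := ENNReal.Tendsto.const_mul (a := ENNReal.ofReal (1 / δ))
      (((hav B hB).add (hav C hC)).add (h.rho_L1 T)) (Or.inr ENNReal.ofReal_ne_top)
    rw [add_zero, add_zero, mul_zero] at h1
    refine tendsto_of_tendsto_of_tendsto_of_le_of_le tendsto_const_nhds h1 (fun _ => zero_le)
      fun k => ?_
    dsimp only
    rw [← lintegral_add_left (bil_mset (g1 k) g2 B),
      ← lintegral_add_right _ ((bil_rho (g1 k)).fun_sub (bil_rho g2)).enorm,
      ← lintegral_const_mul' _ _ ENNReal.ofReal_ne_top]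
    refine lintegral_mono_ae ?_
    filter_upwards [(g1 k).int, g2.int] with p a1 a2
    have b1 : ∀ D : Set V, 0 ≤ ∫ v in D, S.G k p.1 (p.2, v) := fun D =>
      integral_nonneg fun v => S.G_nonneg _ _ _
    have b2 : ∀ D : Set V, 0 ≤ ∫ v in D, F p.1 (p.2, v) := fun D =>
      integral_nonneg fun v => h.nonneg _ _
    simp only [← ofReal_norm]
    rw [← ENNReal.ofReal_add (norm_nonneg _) (norm_nonneg _),
      ← ENNReal.ofReal_add (by positivity) (norm_nonneg _), ← ENNReal.ofReal_mul (by positivity)]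
    exact ENNReal.ofReal_le_ofReal (bil_cone hδ (b1 C) (b2 B)
      (setIntegral_le_integral a1 (Eventually.of_forall fun v => S.G_nonneg _ _ _))
      (setIntegral_le_integral a2 (Eventually.of_forall fun v => h.nonneg _ _)))
  have hw := weakConv_of_pi (l := (U : Filter ℕ)) hU (fun k => bil_meas (g1 k) δ) i2
    (MeasurableSpace.isPiSystem_measurableSet.prod isPiSystem_prod)
    (generateFrom_eq_prod MeasurableSpace.generateFrom_measurableSet generateFrom_prod
      isCountablySpanning_measurableSet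
      (isCountablySpanning_measurableSet.prod isCountablySpanning_measurableSet)).symm
    (by simpa only [univ_prod_univ, Measure.restrict_univ] using hbox univ univ univ .univ .univ)
    (by
      rintro - ⟨A, -, -, ⟨B, hB, C, hC, rfl⟩, rfl⟩
      exact hbox A B C hB hC)
  exact (hw.weight (fun k => bil_meas (g1 k) δ) i1 i2 (bil_meas g2 δ)
    (fun k q => Pd_nonneg hδ.le (S.G_nonneg k _) _ _ _)
    (fun q => Pd_nonneg hδ.le (h.nonneg _) _ _ _) (by fun_prop)
    (fun q => zero_le_one.trans (hW q)) (S.ui_Pd hδ T)).2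

end

end Vale.Agent.P140
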