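import Vale.Agent.P140.QApi

/-! Measurability and Tonelli along characteristics. -/

namespace Vale.Agent.P140

open MeasureTheory Set Filter Topology
open scoped ENNReal RealInnerProductSpace

noncomputable section

theorem sub_ofReal_int {α : Type} [MeasurableSpace α] {μ : Measure α} {u : α → ℝ}
    (h0 : ∀ᵐ x ∂μ, 0 ≤ u x) : ENNReal.ofReal (∫ x, u x ∂μ) ≤ ∫⁻ x, ENNReal.ofReal (u x) ∂μ := by
  refine (Real.ofReal_le_enorm _).trans ((enorm_integral_le_lintegral_enorm _).trans_eq ?_)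
  refine lintegral_congr_ae ?_
  filter_upwards [h0] with x hx using Real.enorm_eq_ofReal hx

theorem sub_meas_lift {f : ℝ → Ph → ℝ} (hf : Measurable (fun p : ℝ × Ph => f p.1 p.2)) :
    Measurable (fun q : (ℝ × Ph) × Ph => f q.1.1 q.2) :=
  hf.comp (measurable_fst.fst.prodMk measurable_snd)

theorem sub_meas_ST : Measurable (fun p : ℝ × Ph => (p.1, fl p.1 p.2)) :=
  measurable_fst.prodMk measurable_fl

theorem sub_meas_Mx : Measurable (fun p : ℝ × Ph => Mx p.2.2) :=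
  continuous_Mx.measurable.comp measurable_snd.snd

theorem sub_meas_lam (n : ℝ) {f : ℝ → Ph → ℝ} (hf : Measurable (fun p : ℝ × Ph => f p.1 p.2)) :
    Measurable (fun p : ℝ × Ph => lam n (f p.1) p.2) :=
  measurable_lam n (F := fun p : ℝ × Ph => f p.1) (sub_meas_lift hf) measurable_snd

theorem sub_meas_nuL {f : ℝ → Ph → ℝ} (hf : Measurable (fun p : ℝ × Ph => f p.1 p.2)) :
    Measurable (fun p : ℝ × Ph => nuL (f p.1) p.2) :=
  measurable_nuL (F := fun p : ℝ × Ph => f p.1) (sub_meas_lift hf) measurable_snd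

theorem sub_meas_gain (n : ℝ) {f : ℝ → Ph → ℝ} (hf : Measurable (fun p : ℝ × Ph => f p.1 p.2)) :
    Measurable (fun p : ℝ × Ph => gainN n (til n (f p.1)) (til n (f p.1)) p.2) := by
  have h1 : Measurable (fun p : ℝ × Ph => til n (f p.1) p.2) :=
    measurable_til n (F := fun p : ℝ × Ph => f p.1) (sub_meas_lift hf) measurable_snd
  exact measurable_gainN n (f := fun p : ℝ × Ph => til n (f p.1))
    (g := fun p : ℝ × Ph => til n (f p.1)) (sub_meas_lift (f := fun t => til n (f t)) h1)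
    (sub_meas_lift (f := fun t => til n (f t)) h1) measurable_snd

theorem sub_meas_exp {ν : ℝ → Ph → ℝ} (hν : Measurable (fun p : ℝ × Ph => ν p.1 p.2)) (t : ℝ) :
    Measurable (fun p : ℝ × Ph => Real.exp (-Lam ν p.1 t p.2)) :=
  ((measurable_Lam hν).comp
    (measurable_fst.prodMk (measurable_const.prodMk measurable_snd))).neg.exp

/-- Tonelli along characteristics. -/
theorem sub_swap {u : ℝ × Ph → ℝ≥0∞} (hu : Measurable u) (t : ℝ) :
    ∫⁻ z : Ph, ∫⁻ τ in Ioc 0 t, u (τ, fl τ z) = ∫⁻ p, u p ∂(mu3 t) := by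
  rw [← lintegral_flST (muT t) u]
  exact (lintegral_prod_symm _ (hu.comp sub_meas_ST).aemeasurable).symm

theorem sub_add3 {α : Type} [MeasurableSpace α] {μ : Measure α} {f g h : α → ℝ≥0∞}
    (hf : Measurable f) (hg : Measurable g) (a b : ℝ≥0∞) :
    ∫⁻ x, (a * f x + b * g x + h x) ∂μ = a * ∫⁻ x, f x ∂μ + b * ∫⁻ x, g x ∂μ + ∫⁻ x, h x ∂μ := by
  have h1 : Measurable fun x => a * f x + b * g x := (hf.const_mul a).add (hg.const_mul b)
  rw [lintegral_add_left h1, lintegral_add_left (hf.const_mul a), lintegral_const_mul _ hf,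
    lintegral_const_mul _ hg]

theorem sub_swap_set {u : ℝ × Ph → ℝ≥0∞} (hu : Measurable u) (t : ℝ) {A : Set Ph}
    (hA : MeasurableSet A) {R : ℝ} (hR : ∀ z ∈ A, ‖z.2‖ ≤ R) :
    ∫⁻ z in A, ∫⁻ τ in Ioc 0 t, u (τ, fl τ z) ≤
      ∫⁻ p in {p : ℝ × Ph | ‖p.2.2‖ ≤ R}, u p ∂(mu3 t) := by
  have hS : MeasurableSet {p : ℝ × Ph | ‖p.2.2‖ ≤ R} :=
    measurableSet_le measurable_snd.snd.norm measurable_const
  rw [← lintegral_indicator hS, ← sub_swap (hu.indicator hS)]
  refine le_trans (le_of_eq (setLIntegral_congr_fun hA fun z hz => ?_))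
    (setLIntegral_le_lintegral A _)
  refine lintegral_congr fun τ => ?_
  rw [indicator_of_mem (show (τ, fl τ z) ∈ {p : ℝ × Ph | ‖p.2.2‖ ≤ R} from hR z hz)]

theorem sub_meas_inner {u : ℝ × Ph → ℝ≥0∞} (hu : Measurable u) (t : ℝ) :
    Measurable fun z : Ph => ∫⁻ τ in Ioc 0 t, u (τ, z) :=
  Measurable.lintegral_prod_left' hu

end

end Vale.Agent.P140
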