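import Vale.Agent.P140.QApi
import Vale.Agent.P140.Ode

/-! Basic consequences of the mild formulation of the labelled system. -/

namespace Vale.Agent.P140

open MeasureTheory Set Filter Topology
open scoped ENNReal RealInnerProductSpace

noncomputable section

section Sys

variable {n t₀ : ℝ} {c h k : ℝ → Ph → ℝ}

theorem Sys.meas_tot (S : Sys n t₀ c h k) :
    Measurable (fun p : ℝ × Ph => tot c h k p.1 p.2) := by
  exact (S.mc.add S.mh).add S.mk'

theorem Sys.meas_two (S : Sys n t₀ c h k) :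
    Measurable (fun p : ℝ × Ph => two c h p.1 p.2) := by
  exact S.mc.add S.mh

theorem Sys.tot_nonneg (S : Sys n t₀ c h k) (t : ℝ) (z : Ph) : 0 ≤ tot c h k t z := by
  exact add_nonneg (add_nonneg (S.c0 t z) (S.h0 t z)) (S.k0 t z)

theorem Sys.sys_reg (S : Sys n t₀ c h k) {f : ℝ → Ph → ℝ}
    (hf : Measurable (fun p : ℝ × Ph => f p.1 p.2)) :
    Measurable (fun q : (ℝ × Ph) × Ph => reg n (tot c h k q.1.1) (f q.1.1) q.2) :=
  (measurable_reg n (F := fun p : ℝ × Ph => tot c h k p.1) (f := fun p : ℝ × Ph => f p.1)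
    (S.meas_tot.comp (measurable_fst.fst.prodMk measurable_snd))
    (hf.comp (measurable_fst.fst.prodMk measurable_snd)) measurable_snd).comp
    (measurable_fst.fst.prodMk measurable_snd)

theorem Sys.sys_two0 (S : Sys n t₀ c h k) (t : ℝ) (z : Ph) : 0 ≤ two c h t z :=
  add_nonneg (S.c0 t z) (S.h0 t z)

theorem Sys.sys_two_le (S : Sys n t₀ c h k) (t : ℝ) (z : Ph) : two c h t z ≤ tot c h k t z :=
  le_add_of_nonneg_right (S.k0 t z)

theorem Sys.sys_k_le (S : Sys n t₀ c h k) (t : ℝ) (z : Ph) : k t z ≤ tot c h k t z :=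
  le_add_of_nonneg_left (S.sys_two0 t z)

theorem Sys.sys_bdd (hn : 0 < n) (S : Sys n t₀ c h k) {f : ℝ → Ph → ℝ}
    (hf : Measurable (fun p : ℝ × Ph => f p.1 p.2)) (h0 : ∀ t z, 0 ≤ f t z)
    (hle : ∀ t z, f t z ≤ tot c h k t z) (t : ℝ) (x : T3) :
    BddV n (sl (reg n (tot c h k t) (f t)) x) :=
  bddV_reg hn (S.meas_tot.comp measurable_prodMk_left) (hf.comp measurable_prodMk_left) (h0 t)
    (hle t) x

theorem Sys.sys_bdd2 (hn : 0 < n) (S : Sys n t₀ c h k) (t : ℝ) (x : T3) :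
    BddV n (sl (reg n (tot c h k t) (two c h t)) x) :=
  S.sys_bdd hn S.meas_two S.sys_two0 S.sys_two_le t x

theorem Sys.sys_bddk (hn : 0 < n) (S : Sys n t₀ c h k) (t : ℝ) (x : T3) :
    BddV n (sl (reg n (tot c h k t) (k t)) x) :=
  S.sys_bdd hn S.mk' S.k0 S.sys_k_le t x

theorem Sys.sys_bddt (hn : 0 < n) (S : Sys n t₀ c h k) (t : ℝ) (x : T3) :
    BddV n (sl (til n (tot c h k t)) x) :=
  S.sys_bdd hn S.meas_tot S.tot_nonneg (fun _ _ => le_rfl) t x

theorem Sys.sys_reg0 (hn : 0 < n) (S : Sys n t₀ c h k) {f : ℝ → Ph → ℝ}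
    (h0 : ∀ t z, 0 ≤ f t z) (t : ℝ) (x : T3) (v : V) :
    0 ≤ sl (reg n (tot c h k t) (f t)) x v :=
  reg_nonneg hn (S.tot_nonneg t _) (h0 t _)

theorem sys_int {φ : ℝ → ℝ} {a b C : ℝ} (hφ : Measurable φ) (hC : ∀ s ∈ uIoc a b, |φ s| ≤ C) :
    IntervalIntegrable φ volume a b := by
  rw [intervalIntegrable_iff]
  exact Measure.integrableOn_of_bounded measure_Ioc_lt_top.ne hφ.aestronglyMeasurable
    ((ae_restrict_iff' measurableSet_uIoc).2 (Eventually.of_forall hC))

theorem sys_char {f : ℝ → Ph → ℝ} (hf : Measurable (fun p : ℝ × Ph => f p.1 p.2)) (z : Ph) :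
    Measurable fun s => f s (fl s z) :=
  hf.comp (measurable_id.prodMk (measurable_fl_left z))

theorem Sys.meas_gain1 (S : Sys n t₀ c h k) :
    Measurable (fun p : ℝ × Ph => gain1 n c h k p.1 p.2) := by
  exact measurable_gainN n (f := fun p : ℝ × Ph => reg n (tot c h k p.1) (two c h p.1))
    (g := fun p : ℝ × Ph => reg n (tot c h k p.1) (two c h p.1))
    (S.sys_reg S.meas_two) (S.sys_reg S.meas_two) measurable_snd

theorem Sys.meas_gain2 (S : Sys n t₀ c h k) :
    Measurable (fun p : ℝ × Ph => gain2 n c h k p.1 p.2) := by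
  exact (measurable_gainN n (f := fun p : ℝ × Ph => til n (tot c h k p.1))
    (g := fun p : ℝ × Ph => reg n (tot c h k p.1) (k p.1))
    (S.sys_reg S.meas_tot) (S.sys_reg S.mk') measurable_snd).add
    (measurable_gainN n (f := fun p : ℝ × Ph => reg n (tot c h k p.1) (k p.1))
    (g := fun p : ℝ × Ph => reg n (tot c h k p.1) (two c h p.1))
    (S.sys_reg S.mk') (S.sys_reg S.meas_two) measurable_snd)

theorem Sys.meas_lam (S : Sys n t₀ c h k) :
    Measurable (fun p : ℝ × Ph => lam n (tot c h k p.1) p.2) := by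
  exact measurable_lam n (F := fun p : ℝ × Ph => tot c h k p.1)
    (S.meas_tot.comp (measurable_fst.fst.prodMk measurable_snd)) measurable_snd

theorem Sys.gain1_nonneg (hn : 0 < n) (S : Sys n t₀ c h k) (t : ℝ) (z : Ph) :
    0 ≤ gain1 n c h k t z := by
  exact QN_nonneg (S.sys_reg0 hn S.sys_two0 t z.1) (S.sys_reg0 hn S.sys_two0 t z.1) z.2

theorem Sys.gain2_nonneg (hn : 0 < n) (S : Sys n t₀ c h k) (t : ℝ) (z : Ph) :
    0 ≤ gain2 n c h k t z := by
  exact add_nonneg (QN_nonneg (S.sys_reg0 hn S.tot_nonneg t z.1) (S.sys_reg0 hn S.k0 t z.1) z.2)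
    (QN_nonneg (S.sys_reg0 hn S.k0 t z.1) (S.sys_reg0 hn S.sys_two0 t z.1) z.2)

theorem Sys.gain1_le (hn : 0 < n) (S : Sys n t₀ c h k) (t : ℝ) (z : Ph) :
    gain1 n c h k t z ≤ 4 * Real.pi * n * n * n * Mx z.2 := by
  exact (le_abs_self _).trans (abs_QN_le hn.le (S.sys_bdd2 hn t z.1) (S.sys_bdd2 hn t z.1) z.2)

theorem Sys.gain2_le (hn : 0 < n) (S : Sys n t₀ c h k) (t : ℝ) (z : Ph) :
    gain2 n c h k t z ≤ 8 * Real.pi * n * n * n * Mx z.2 := by
  have h1 := (le_abs_self _).trans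
    (abs_QN_le hn.le (S.sys_bddt hn t z.1) (S.sys_bddk hn t z.1) z.2)
  have h2 := (le_abs_self _).trans
    (abs_QN_le hn.le (S.sys_bddk hn t z.1) (S.sys_bdd2 hn t z.1) z.2)
  unfold gain2 gainN
  linarith

theorem Sys.gain_add (hn : 0 < n) (S : Sys n t₀ c h k) (t : ℝ) (z : Ph) :
    gain1 n c h k t z + gain2 n c h k t z
      = gainN n (til n (tot c h k t)) (til n (tot c h k t)) z := by
  have e : sl (til n (tot c h k t)) z.1 = fun u => sl (reg n (tot c h k t) (two c h t)) z.1 u +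
      sl (reg n (tot c h k t) (k t)) z.1 u := by
    funext u
    exact reg_add (f := two c h t) (g := k t)
  have h1 := QN_add_right hn.le (S.sys_bddt hn t z.1) (S.sys_bdd2 hn t z.1) (S.sys_bddk hn t z.1) z.2
  have h2 := QN_add_left hn.le (S.sys_bdd2 hn t z.1) (S.sys_bddk hn t z.1) (S.sys_bdd2 hn t z.1) z.2
  rw [← e] at h1 h2
  unfold gain1 gain2 gainN
  linarith

theorem Sys.lam_int (hn : 0 < n) (S : Sys n t₀ c h k) (a b : ℝ) (z : Ph) :
    IntervalIntegrable (fun s => lam n (tot c h k s) (fl s z)) volume a b := by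
  refine sys_int (C := 4 * Real.pi * n * n)
    (sys_char (f := fun s => lam n (tot c h k s)) S.meas_lam z) fun s _ => ?_
  rw [abs_of_nonneg (lam_nonneg hn (S.tot_nonneg s))]
  exact lam_le hn (S.meas_tot.comp measurable_prodMk_left) (S.tot_nonneg s)

theorem Sys.gain1_int (hn : 0 < n) (S : Sys n t₀ c h k) (a b : ℝ) (z : Ph) :
    IntervalIntegrable (fun s => gain1 n c h k s (fl s z)) volume a b := by
  refine sys_int (C := 4 * Real.pi * n * n * n * Mx z.2) (sys_char S.meas_gain1 z) fun s _ => ?_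
  rw [abs_of_nonneg (S.gain1_nonneg hn s _)]
  exact S.gain1_le hn s (fl s z)

theorem Sys.gain2_int (hn : 0 < n) (S : Sys n t₀ c h k) (a b : ℝ) (z : Ph) :
    IntervalIntegrable (fun s => gain2 n c h k s (fl s z)) volume a b := by
  refine sys_int (C := 8 * Real.pi * n * n * n * Mx z.2) (sys_char S.meas_gain2 z) fun s _ => ?_
  rw [abs_of_nonneg (S.gain2_nonneg hn s _)]
  exact S.gain2_le hn s (fl s z)

theorem Sys.sys_prim (hn : 0 < n) (S : Sys n t₀ c h k) {f : ℝ → Ph → ℝ}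
    (hf : Measurable (fun p : ℝ × Ph => f p.1 p.2)) (h0 : ∀ t z, 0 ≤ f t z)
    (hle : ∀ t z, f t z ≤ tot c h k t z) (z : Ph) {q : ℝ → ℝ}
    (hq : ∀ a b, IntervalIntegrable q volume a b)
    (hm : ∀ t, t₀ ≤ t → f t (fl t z) = f t₀ (fl t₀ z) + ∫ s in t₀..t,
      (q s - lam n (tot c h k s) (fl s z) * f s (fl s z))) {a b : ℝ} (ha : t₀ ≤ a) (hab : a ≤ b) :
    Prim (fun s => f s (fl s z))
      (fun s => q s - lam n (tot c h k s) (fl s z) * f s (fl s z)) a b := by
  refine Prim.mono ⟨ha.trans hab, (hq _ _).sub ?_, fun t ht => hm t ht.1⟩ ha hab le_rfl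
  obtain ⟨C, hC⟩ := S.upp b
  refine sys_int (C := 4 * Real.pi * n * n * (C * Mx z.2))
    ((sys_char (f := fun s => lam n (tot c h k s)) S.meas_lam z).mul (sys_char hf z))
    fun s hs => ?_
  rw [uIoc_of_le (ha.trans hab)] at hs
  have h1 := lam_nonneg (z := fl s z) hn (S.tot_nonneg s)
  have h2 := Real.pi_pos
  rw [abs_of_nonneg (mul_nonneg h1 (h0 _ _))]
  exact mul_le_mul (lam_le hn (S.meas_tot.comp measurable_prodMk_left) (S.tot_nonneg s))
    ((hle _ _).trans (hC s (Ioc_subset_Icc_self hs) (fl s z))) (h0 _ _) (by positivity)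

theorem Sys.primc (hn : 0 < n) (S : Sys n t₀ c h k) {a b : ℝ} (ha : t₀ ≤ a) (hab : a ≤ b)
    (z : Ph) : Prim (fun s => c s (fl s z))
      (fun s => 0 - lam n (tot c h k s) (fl s z) * c s (fl s z)) a b := by
  exact S.sys_prim hn S.mc S.c0
    (fun t z => (le_add_of_nonneg_right (S.h0 t z)).trans (S.sys_two_le t z)) z
    (fun _ _ => intervalIntegrable_const) (fun t ht => S.mildc t ht z) ha hab

theorem Sys.primh (hn : 0 < n) (S : Sys n t₀ c h k) {a b : ℝ} (ha : t₀ ≤ a) (hab : a ≤ b)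
    (z : Ph) : Prim (fun s => h s (fl s z))
      (fun s => gain1 n c h k s (fl s z) - lam n (tot c h k s) (fl s z) * h s (fl s z)) a b := by
  exact S.sys_prim hn S.mh S.h0
    (fun t z => (le_add_of_nonneg_left (S.c0 t z)).trans (S.sys_two_le t z)) z
    (fun a b => S.gain1_int hn a b z) (fun t ht => S.mildh t ht z) ha hab

theorem Sys.primk (hn : 0 < n) (S : Sys n t₀ c h k) {a b : ℝ} (ha : t₀ ≤ a) (hab : a ≤ b)
    (z : Ph) : Prim (fun s => k s (fl s z))
      (fun s => gain2 n c h k s (fl s z) - lam n (tot c h k s) (fl s z) * k s (fl s z)) a b := by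
  exact S.sys_prim hn S.mk' S.k0 S.sys_k_le z
    (fun a b => S.gain2_int hn a b z) (fun t ht => S.mildk t ht z) ha hab

/-- The uncollided label decays along characteristics at the exact rate. -/
theorem Sys.c_eq (hn : 0 < n) (S : Sys n t₀ c h k) {t : ℝ} (ht : t₀ ≤ t) (z : Ph) :
    c t (fl t z) = c t₀ (fl t₀ z)
      * Real.exp (-Lam (fun τ => lam n (tot c h k τ)) t₀ t z) := by
  have h1 := Prim.expForm (q := fun _ => 0) (S.primc hn le_rfl ht z) (S.lam_int hn t₀ t z)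
    intervalIntegrable_const t (right_mem_Icc.2 ht)
  simpa [Lam] using h1

theorem Sys.c_le (hn : 0 < n) (S : Sys n t₀ c h k) {t : ℝ} (ht : t₀ ≤ t) (z : Ph) :
    c t (fl t z) ≤ c t₀ (fl t₀ z) := by
  rw [S.c_eq hn ht z]
  refine mul_le_of_le_one_right (S.c0 _ _) (Real.exp_le_one_iff.2 (neg_nonpos.2 ?_))
  exact intervalIntegral.integral_nonneg ht fun s _ => lam_nonneg hn (S.tot_nonneg s)

theorem Sys.sys_Q (hn : 0 < n) (S : Sys n t₀ c h k) {f g : ℝ → Ph → ℝ}
    (hf : Measurable (fun p : ℝ × Ph => f p.1 p.2)) (f0 : ∀ t z, 0 ≤ f t z)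
    (fle : ∀ t z, f t z ≤ tot c h k t z)
    (hg : Measurable (fun p : ℝ × Ph => g p.1 p.2)) (g0 : ∀ t z, 0 ≤ g t z)
    (gle : ∀ t z, g t z ≤ tot c h k t z) (s : ℝ) (z : Ph) :
    ENNReal.ofReal (gainN n (reg n (tot c h k s) (f s)) (reg n (tot c h k s) (g s)) z) ≤
      Qe (fun u => ENNReal.ofReal (f s (z.1, u))) (fun u => ENNReal.ofReal (g s (z.1, u))) z.2 := by
  rw [gainN, ofReal_QN hn.le (S.sys_bdd hn hf f0 fle s z.1) (S.sys_bdd hn hg g0 gle s z.1)
    (S.sys_reg0 hn f0 s z.1) (S.sys_reg0 hn g0 s z.1)]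
  exact (QE_le_Qe _ _ _ _).trans (Qe_mono
    (fun u => ENNReal.ofReal_le_ofReal (reg_le hn (S.tot_nonneg s _) (f0 s _)))
    (fun u => ENNReal.ofReal_le_ofReal (reg_le hn (S.tot_nonneg s _) (g0 s _))) _)

/-- Label one: extended-valued Duhamel upper bound. -/
theorem Sys.h_le (hn : 0 < n) (S : Sys n t₀ c h k) {a b : ℝ} (ha : t₀ ≤ a) (hab : a ≤ b)
    (z : Ph) : ENNReal.ofReal (h b (fl b z)) ≤ ENNReal.ofReal (h a (fl a z))
      + ∫⁻ s in Ioc a b, Qe (fun u => ENNReal.ofReal (two c h s ((fl s z).1, u)))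
          (fun u => ENNReal.ofReal (two c h s ((fl s z).1, u))) z.2 := by
  refine (Prim.ofReal_le (S.primh hn ha hab z) (S.gain1_int hn a b z)
    (fun s _ => S.gain1_nonneg hn s _)
    (fun s _ => mul_nonneg (lam_nonneg hn (S.tot_nonneg s)) (S.h0 _ _))).trans
    (add_le_add le_rfl (lintegral_mono fun s => ?_))
  exact S.sys_Q hn S.meas_two S.sys_two0 S.sys_two_le S.meas_two S.sys_two0 S.sys_two_le s (fl s z)

/-- Label two: extended-valued Duhamel upper bound. -/
theorem Sys.k_le (hn : 0 < n) (S : Sys n t₀ c h k) {a b : ℝ} (ha : t₀ ≤ a) (hab : a ≤ b)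
    (z : Ph) : ENNReal.ofReal (k b (fl b z)) ≤ ENNReal.ofReal (k a (fl a z))
      + ∫⁻ s in Ioc a b,
        (Qe (fun u => ENNReal.ofReal (tot c h k s ((fl s z).1, u)))
          (fun u => ENNReal.ofReal (k s ((fl s z).1, u))) z.2
        + Qe (fun u => ENNReal.ofReal (k s ((fl s z).1, u)))
          (fun u => ENNReal.ofReal (two c h s ((fl s z).1, u))) z.2) := by
  refine (Prim.ofReal_le (S.primk hn ha hab z) (S.gain2_int hn a b z)
    (fun s _ => S.gain2_nonneg hn s _)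
    (fun s _ => mul_nonneg (lam_nonneg hn (S.tot_nonneg s)) (S.k0 _ _))).trans
    (add_le_add le_rfl (lintegral_mono fun s => ENNReal.ofReal_add_le.trans ?_))
  exact add_le_add
    (S.sys_Q hn S.meas_tot S.tot_nonneg (fun _ _ => le_rfl) S.mk' S.k0 S.sys_k_le s (fl s z))
    (S.sys_Q hn S.mk' S.k0 S.sys_k_le S.meas_two S.sys_two0 S.sys_two_le s (fl s z))

theorem Sys.sys_primt (hn : 0 < n) (S : Sys n t₀ c h k) {b : ℝ} (hb : t₀ ≤ b) (z : Ph) :
    Prim (fun s => tot c h k s (fl s z)) (fun s => (gain1 n c h k s (fl s z) +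
      gain2 n c h k s (fl s z)) - lam n (tot c h k s) (fl s z) * tot c h k s (fl s z)) t₀ b := by
  refine (((S.primc hn le_rfl hb z).add (S.primh hn le_rfl hb z)).add
    (S.primk hn le_rfl hb z)).congr (fun _ _ => rfl) (Eventually.of_forall fun s => ?_)
  simp only [tot]
  ring

/-- The total, shifted to start at time zero, solves the regularized equation. -/
theorem Sys.appr (hn : 0 < n) (S : Sys n t₀ c h k) {a : ℝ} (ha : 0 < a)
    (hlow : ∀ z : Ph, a * Mx z.2 ≤ tot c h k t₀ z) :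
    Appr n (fun τ => tot c h k (t₀ + τ)) := by
  have hπ := Real.pi_pos
  refine ⟨S.meas_tot.comp ((measurable_fst.const_add t₀).prodMk measurable_snd),
    fun t z => S.tot_nonneg _ z, fun T => ⟨a * Real.exp (-(4 * Real.pi * n * n * T)),
      by positivity, fun t ht z => ?_⟩, fun T => ?_, fun t ht z => ?_⟩
  · have h1 : t₀ ≤ t₀ + t := le_add_of_nonneg_right ht.1
    set w := fl (-(t₀ + t)) z with hw
    have h2 := Prim.expForm (S.sys_primt hn h1 w) (S.lam_int hn _ _ w)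
      ((S.gain1_int hn _ _ w).add (S.gain2_int hn _ _ w)) (t₀ + t) (right_mem_Icc.2 h1)
    have h3 : 0 ≤ ∫ s in t₀..t₀ + t, (gain1 n c h k s (fl s w) + gain2 n c h k s (fl s w)) *
        Real.exp (-∫ u in s..t₀ + t, lam n (tot c h k u) (fl u w)) :=
      intervalIntegral.integral_nonneg h1 fun s _ => mul_nonneg
        (add_nonneg (S.gain1_nonneg hn s _) (S.gain2_nonneg hn s _)) (Real.exp_pos _).le
    have h4 : ∫ u in t₀..t₀ + t, lam n (tot c h k u) (fl u w) ≤ 4 * Real.pi * n * n * T := by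
      refine (intervalIntegral.integral_mono_on h1 (S.lam_int hn _ _ w)
        (intervalIntegrable_const (c := 4 * Real.pi * n * n)) fun s _ =>
        lam_le hn (S.meas_tot.comp measurable_prodMk_left) (S.tot_nonneg s)).trans ?_
      rw [intervalIntegral.integral_const, add_sub_cancel_left, smul_eq_mul, mul_comm]
      exact mul_le_mul_of_nonneg_left ht.2 (by positivity)
    have h5 : a * Mx z.2 * Real.exp (-(4 * Real.pi * n * n * T)) ≤ tot c h k t₀ (fl t₀ w) *
        Real.exp (-∫ u in t₀..t₀ + t, lam n (tot c h k u) (fl u w)) :=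
      mul_le_mul (hlow (fl t₀ w)) (Real.exp_le_exp.2 (neg_le_neg h4)) (Real.exp_pos _).le
        (S.tot_nonneg _ _)
    simp only [hw, fl_fl_neg] at h2 h3 h5
    linarith
  · obtain ⟨C, hC⟩ := S.upp (t₀ + T)
    exact ⟨C, fun t ht z => hC _ ⟨le_add_of_nonneg_right ht.1, add_le_add le_rfl ht.2⟩ z⟩
  · have h1 : t₀ ≤ t₀ + t := le_add_of_nonneg_right ht
    have h2 := (S.sys_primt hn h1 (fl (-t₀) z)).eq (t₀ + t) (right_mem_Icc.2 h1)
    have h3 := intervalIntegral.integral_comp_add_left (a := 0) (b := t) (fun s =>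
      gain1 n c h k s (fl s (fl (-t₀) z)) + gain2 n c h k s (fl s (fl (-t₀) z)) -
        lam n (tot c h k s) (fl s (fl (-t₀) z)) * tot c h k s (fl s (fl (-t₀) z))) t₀
    have e : ∀ s, fl (t₀ + s) (fl (-t₀) z) = fl s z := fun s => by
      rw [fl_add, add_neg_cancel_comm]
    rw [add_zero] at h3
    rw [← h3] at h2
    simp only [e, fl_fl_neg, S.gain_add hn] at h2
    simpa only [add_zero] using h2

end Sys

end

end Vale.Agent.P140
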