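import Vale.Agent.P140.Geo2
import Vale.Agent.P140.SysApi

/-! Pointwise facts about the freely transported cold datum. -/

namespace Vale.Agent.P140

open MeasureTheory Set Filter Topology
open scoped ENNReal RealInnerProductSpace

noncomputable section

variable {P : CP} {σ t : ℝ} {x : T3} {w : V}

theorem measurable_cold1 (P : CP) (σ : ℝ) : Measurable (cold1 P σ) := by
  have h1 : Measurable fun z : Ph => X z.1 := measurable_X.comp measurable_fst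
  have h2 : Measurable fun z : Ph => mkV ((P.c : ℂ) * hat (X z.1)) σ :=
    continuous_mkV.measurable.comp
      (((measurable_hat.comp h1).const_mul _).prodMk measurable_const)
  refine Measurable.ite ((measurableSet_le measurable_const h1.norm).inter
    ((measurableSet_le h1.norm measurable_const).inter
      ((measurableSet_le measurable_const ((measurable_sec _ _).comp h1)).inter
        (measurableSet_le (measurable_snd.sub h2).norm ((h1.norm.pow_const 2).const_mul _)))))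
    ?_ measurable_const
  exact (h1.norm.mul (((h1.norm.pow_const 2).const_mul _).pow_const 3)).const_div _

theorem measurable_cold (P : CP) : Measurable (cold P) := (measurable_cold1 P 1).add (measurable_cold1 P (-1))

theorem measurable_cf1 (P : CP) (σ : ℝ) : Measurable (fun p : ℝ × Ph => cf1 P σ p.1 p.2) := 
  (measurable_cold1 P σ).comp (measurable_fl.comp (measurable_fst.neg.prodMk measurable_snd))

theorem measurable_cf (P : CP) : Measurable (fun p : ℝ × Ph => cf P p.1 p.2) := 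
  (measurable_cold P).comp (measurable_fl.comp (measurable_fst.neg.prodMk measurable_snd))

theorem cold1_nonneg (hP : P.Ok) (σ : ℝ) (z : Ph) : 0 ≤ cold1 P σ z := by
  have h1 := hP.K_pos
  have h2 := hP.e_pos
  unfold cold1
  split_ifs
  · positivity
  · exact le_rfl

theorem cold_nonneg (hP : P.Ok) (z : Ph) : 0 ≤ cold P z := 
  add_nonneg (cold1_nonneg hP _ _) (cold1_nonneg hP _ _)

theorem cf1_nonneg (hP : P.Ok) (σ t : ℝ) (z : Ph) : 0 ≤ cf1 P σ t z := cold1_nonneg hP _ _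

theorem cf_nonneg (hP : P.Ok) (t : ℝ) (z : Ph) : 0 ≤ cf P t z := cold_nonneg hP _

theorem cf_eq (P : CP) (t : ℝ) (z : Ph) : cf P t z = cf1 P 1 t z + cf1 P (-1) t z := rfl

theorem cf_fl (P : CP) (t : ℝ) (z : Ph) : cf P t (fl t z) = cold P z := by
  rw [cf, fl_neg_fl]

theorem cf1_fl (P : CP) (σ t : ℝ) (z : Ph) : cf1 P σ t (fl t z) = cold1 P σ z := by
  rw [cf1, fl_neg_fl]

theorem Cold_eq (P : CP) (σ t : ℝ) (x : T3) (w : V) : cf1 P σ t (x, w) =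
    if P.r1 ≤ ‖xi t (x, w)‖ ∧ ‖xi t (x, w)‖ ≤ 1 / 20 ∧ 1 / 10 ≤ sec P.M σ (xi t (x, w)) ∧
      ‖w - mkV ((P.c : ℂ) * hat (xi t (x, w))) σ‖ ≤ P.e0 * ‖xi t (x, w)‖ ^ 2 then
    P.K / (‖xi t (x, w)‖ * (P.e0 * ‖xi t (x, w)‖ ^ 2) ^ 3) else 0 := rfl

theorem Cold_ne (h : cf1 P σ t (x, w) ≠ 0) :
    xi t (x, w) ≠ 0 ∧ ‖xi t (x, w)‖ ≤ 1 / 20 ∧ 1 / 10 ≤ sec P.M σ (xi t (x, w)) ∧
      ‖w - mkV ((P.c : ℂ) * hat (xi t (x, w))) σ‖ ≤ P.e0 * ‖xi t (x, w)‖ ^ 2 ∧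
      cf1 P σ t (x, w) = P.K / (‖xi t (x, w)‖ * (P.e0 * ‖xi t (x, w)‖ ^ 2) ^ 3) := by
  rw [Cold_eq] at h ⊢
  split_ifs at h ⊢ with h1
  · exact ⟨fun h2 => h (by simp [h2]), h1.2.1, h1.2.2.1, h1.2.2.2, rfl⟩
  · exact (h rfl).elim

theorem Cold_speed (hP : P.Ok) (hσ : σ = 1 ∨ σ = -1) {ξ : ℂ} (h1 : ‖ξ‖ ≤ 1 / 20)
    (h : ‖w - mkV ((P.c : ℂ) * hat ξ) σ‖ ≤ P.e0 * ‖ξ‖ ^ 2) : ‖w‖ ≤ 2 := by
  have h2 : ‖(P.c : ℂ) * hat ξ‖ ≤ 1 / 2 := by
    rw [norm_mul, Complex.norm_real, Real.norm_of_nonneg hP.c_pos.le]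
    exact (mul_le_of_le_one_right hP.c_pos.le (norm_hat_le _)).trans hP.c_le
  have h3 : ‖mkV ((P.c : ℂ) * hat ξ) σ‖ ≤ 3 / 2 := by
    refine (sq_le_sq₀ (norm_nonneg _) (by norm_num)).1 ?_
    have h3 : σ ^ 2 = 1 := by rcases hσ with rfl | rfl <;> norm_num
    have h4 := pow_le_pow_left₀ (norm_nonneg _) h2 2
    rw [norm_sq_eq, tp_mkV, mkV_two, h3]
    linarith
  have h4 : P.e0 * ‖ξ‖ ^ 2 ≤ 1 * (1 / 20) ^ 2 := by
    gcongr
    exact hP.e_le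
  linarith [norm_le_insert' w (mkV ((P.c : ℂ) * hat ξ) σ)]

theorem Cold_core (hP : P.Ok) (ht : 0 < t) {ξ Y u : ℂ} {E : ℝ} (h0 : ξ ≠ 0)
    (h : ‖u - (P.c : ℂ) * hat ξ‖ ≤ E) (hc : ξ + (t : ℂ) * u = Y) :
    |‖Y‖ - P.c * t - ‖ξ‖| ≤ t * E ∧ P.c * ‖hat ξ - hat Y‖ ≤ 2 * E ∧
      ‖Y‖ * |((starRingEnd ℂ) (hat Y) * u).im| ≤ ‖ξ‖ * E := by
  have hc0 := hP.c_pos
  have ha : 0 < ‖ξ‖ + P.c * t := by positivity
  have h1 : ‖((‖ξ‖ + P.c * t : ℝ) : ℂ) * hat ξ‖ = ‖ξ‖ + P.c * t := by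
    rw [norm_mul, norm_hat h0, mul_one, Complex.norm_real, Real.norm_of_nonneg ha.le]
  have h2 : ‖Y - ((‖ξ‖ + P.c * t : ℝ) : ℂ) * hat ξ‖ ≤ t * E := by
    have h2 : Y - ((‖ξ‖ + P.c * t : ℝ) : ℂ) * hat ξ = (t : ℂ) * (u - (P.c : ℂ) * hat ξ) := by
      push_cast
      rw [add_mul, norm_mul_hat, ← hc]
      ring
    rw [h2, norm_mul, Complex.norm_real, Real.norm_of_nonneg ht.le]
    gcongr
  refine ⟨?_, ?_, ?_⟩
  · have h3 := (abs_norm_sub_norm_le _ _).trans h2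
    rw [h1] at h3
    rwa [sub_sub, add_comm (P.c * t)]
  · have h3 := norm_hat_sub_le (norm_pos_iff.1 (h1.symm ▸ ha)) Y
    rw [hat_mul ha, hat_hat, h1, norm_sub_rev _ Y, le_div_iff₀ ha] at h3
    have h4 := mul_nonneg (norm_nonneg (hat ξ - hat Y)) (norm_nonneg ξ)
    refine le_of_mul_le_mul_left ?_ ht
    linarith
  · have h3 : ‖Y‖ * ((starRingEnd ℂ) (hat Y) * u).im
        = ‖ξ‖ * ((starRingEnd ℂ) (hat ξ) * (u - (P.c : ℂ) * hat ξ)).im := by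
      calc ‖Y‖ * ((starRingEnd ℂ) (hat Y) * u).im
          = ((starRingEnd ℂ) ((‖Y‖ : ℂ) * hat Y) * u).im := by simp; ring
        _ = ((starRingEnd ℂ) ((‖ξ‖ : ℂ) * hat ξ + (t : ℂ) * u) * u).im := by
          rw [norm_mul_hat, norm_mul_hat, hc]
        _ = _ := by simp; ring
    rw [← abs_norm Y, ← abs_mul, h3, abs_mul, abs_norm]
    refine mul_le_mul_of_nonneg_left ((Complex.abs_im_le_norm _).trans ?_) (norm_nonneg _)
    rwa [norm_mul, Complex.norm_conj, norm_hat h0, one_mul]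

theorem Cold_small (hP : P.Ok) (ht : 0 < t) (ht' : t ≤ 1 / 100) {ξ : ℂ} {r : ℝ} (h0 : ξ ≠ 0)
    (h1 : ‖ξ‖ ≤ 1 / 20) (h : |r - ‖ξ‖| ≤ t * (P.e0 * ‖ξ‖ ^ 2)) :
    1999 / 2000 * ‖ξ‖ ≤ r ∧ r ≤ 2001 / 2000 * ‖ξ‖ := by
  have _ := ht
  have hρ := norm_pos_iff.2 h0
  have h2 : t * (P.e0 * ‖ξ‖ ^ 2) ≤ 1 / 100 * (1 * (1 / 20 * ‖ξ‖)) := by
    have h2 := hP.e_pos
    rw [sq]
    gcongr
    exact hP.e_le
  have h3 := abs_le.1 (h.trans h2)
  constructor <;> linarith [h3.1, h3.2]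

/-- Support of one stream. -/
theorem cf1_supp (hP : P.Ok) (hσ : σ = 1 ∨ σ = -1) (ht : 0 < t) (ht' : t ≤ 1 / 100)
    (h : cf1 P σ t (x, w) ≠ 0) :
    P.c * t < ‖X x‖ ∧ ‖X x‖ ≤ 1 / 16 ∧ 0 < epsf P.c P.e0 t x ∧
      epsf P.c P.e0 t x = P.e0 * (‖X x‖ - P.c * t) ^ 2 ∧
      ‖w - Uf P.c σ t x‖ ≤ 4 * epsf P.c P.e0 t x ∧ |w 2 - σ| ≤ 2 * epsf P.c P.e0 t x ∧
      |((starRingEnd ℂ) (hat (X x)) * tp w).im|
        ≤ 2 * epsf P.c P.e0 t x * (‖X x‖ - P.c * t) / ‖X x‖ ∧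
      1 / 10 - 4 * P.M * epsf P.c P.e0 t x / P.c ≤ sec P.M σ (X x) ∧ 0 < sec P.M σ (X x) ∧
      ‖w‖ ≤ 2 := by
  obtain ⟨h0, h1, h2, h3, -⟩ := Cold_ne h
  have hw := Cold_speed hP hσ h1 h3
  have hc := xi_chart ht.le x w (by nlinarith)
  obtain ⟨h4, h5, h6⟩ := Cold_core hP ht h0 ((norm_tp_sub_le _ _ _).trans h3) hc
  obtain ⟨h7, h8⟩ := Cold_small hP ht ht' h0 h1 h4
  have hc0 := hP.c_pos
  have hct : P.c * t ≤ 1 / 200 := by nlinarith [hP.c_le]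
  have hρ := norm_pos_iff.2 h0
  generalize hρ' : ‖xi t (x, w)‖ = ρ at *
  have hr0 : 0 < ‖X x‖ - P.c * t := by linarith
  have he : epsf P.c P.e0 t x = P.e0 * (‖X x‖ - P.c * t) ^ 2 :=
    Ef_eq _ hr0.le (by linarith)
  have he0 : 0 < epsf P.c P.e0 t x := he ▸ mul_pos hP.e_pos (pow_pos hr0 2)
  have hE : P.e0 * ρ ^ 2 ≤ 4 / 3 * epsf P.c P.e0 t x := by
    rw [he, mul_left_comm]
    refine mul_le_mul_of_nonneg_left ?_ hP.e_pos.le
    have h9 : ρ ^ 2 ≤ (11 / 10 * (‖X x‖ - P.c * t)) ^ 2 := by gcongr; linarith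
    nlinarith [sq_nonneg (‖X x‖ - P.c * t)]
  have hs : 1 / 10 - 4 * P.M * epsf P.c P.e0 t x / P.c ≤ sec P.M σ (X x) := by
    have h9 := (abs_le.1 (abs_sec_sub_le P.M hσ (xi t (x, w)) (X x))).2
    have h10 : ‖hat (xi t (x, w)) - hat (X x)‖ ≤ 4 * epsf P.c P.e0 t x / P.c := by
      rw [le_div_iff₀' hc0]; linarith
    have h11 := mul_le_mul_of_nonneg_left h10 (Nat.cast_nonneg (α := ℝ) P.M)
    have h12 : 4 * P.M * epsf P.c P.e0 t x / P.c = P.M * (4 * epsf P.c P.e0 t x / P.c) := by ring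
    linarith
  have hs' : 4 * P.M * epsf P.c P.e0 t x / P.c ≤ 1 / 64 := by
    have h9 : epsf P.c P.e0 t x ≤ P.e0 / 256 := Ef_le hP.e_pos.le _
    have h10 := mul_le_mul_of_nonneg_left h9 (Nat.cast_nonneg (α := ℝ) P.M)
    rw [div_le_iff₀ hc0]
    linarith [hP.Me]
  refine ⟨by linarith, by linarith, he0, he, ?_, ?_, ?_, hs, by linarith, hw⟩
  · have h9 := norm_sub_le_norm_sub_add_norm_sub w (mkV ((P.c : ℂ) * hat (xi t (x, w))) σ)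
      (Uf P.c σ t x)
    rw [Uf, uf_of_ge hc0 ht (by linarith), norm_mkV_sub, ← mul_sub, norm_mul, Complex.norm_real,
      Real.norm_of_nonneg hc0.le, ← uf_of_ge hc0 ht (by linarith), ← Uf] at h9
    linarith
  · linarith [abs_two_sub_le w ((P.c : ℂ) * hat (xi t (x, w))) σ]
  · rw [le_div_iff₀' (by linarith [mul_pos hc0 ht])]
    have h9 : ρ * (P.e0 * ρ ^ 2) ≤ 3 / 2 * (‖X x‖ - P.c * t) * (4 / 3 * epsf P.c P.e0 t x) :=
      mul_le_mul (by linarith) hE (mul_pos hP.e_pos (pow_pos hρ 2)).le (by linarith)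
    linarith

theorem cf1_le (hP : P.Ok) (hσ : σ = 1 ∨ σ = -1) (ht : 0 < t) (ht' : t ≤ 1 / 100) (x : T3)
    (w : V) :
    cf1 P σ t (x, w) ≤ 2 * P.K / ((‖X x‖ - P.c * t) * epsf P.c P.e0 t x ^ 3) := by
  have hK := hP.K_pos
  have he := hP.e_pos
  by_cases h : cf1 P σ t (x, w) = 0
  · rw [h]
    refine div_nonneg (by positivity) ?_
    by_cases h1 : epsf P.c P.e0 t x = 0
    · simp [h1]
    · exact mul_nonneg (Ef_pos_imp h1).1.le (pow_nonneg (Ef_nonneg he.le _) 3)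
  obtain ⟨h0, h1, -, h3, h4⟩ := Cold_ne h
  obtain ⟨h5, -, -, h6, -, -, -, -, -, hw⟩ := cf1_supp hP hσ ht ht' h
  have h7 := (Cold_small hP ht ht' h0 h1 (Cold_core hP ht h0 ((norm_tp_sub_le _ _ _).trans h3)
    (xi_chart ht.le x w (by nlinarith))).1).2
  have hρ := norm_pos_iff.2 h0
  have hr0 := sub_pos.2 h5
  rw [h4, h6, div_le_div_iff₀ (by positivity) (by positivity)]
  have h8 := pow_le_pow_left₀ hr0.le h7 7
  have h9 : (2001 / 2000 * ‖xi t (x, w)‖) ^ 7 ≤ 2 * ‖xi t (x, w)‖ ^ 7 := by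
    rw [mul_pow]
    gcongr
    norm_num
  have h10 := mul_le_mul_of_nonneg_left (h8.trans h9) (show 0 ≤ P.K * P.e0 ^ 3 by positivity)
  linarith

/-- At each position at most one stream is present. -/
theorem cf_one (hP : P.Ok) (ht : 0 < t) (ht' : t ≤ 1 / 100) (x : T3) : ∃ σ : ℝ,
    (σ = 1 ∨ σ = -1) ∧ 0 ≤ sec P.M σ (X x) ∧ ∀ w, cf P t (x, w) = cf1 P σ t (x, w) := by
  by_cases h : 0 ≤ sec P.M 1 (X x)
  · refine ⟨1, Or.inl rfl, h, fun w => ?_⟩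
    have h1 : cf1 P (-1) t (x, w) = 0 := by
      by_contra h1
      have h2 := (cf1_supp hP (Or.inr rfl) ht ht' h1).2.2.2.2.2.2.2.2.1
      rw [sec_neg] at h2
      linarith
    rw [cf_eq, h1, add_zero]
  · refine ⟨-1, Or.inr rfl, by rw [sec_neg]; linarith, fun w => ?_⟩
    have h1 : cf1 P 1 t (x, w) = 0 := by
      by_contra h1
      exact h (cf1_supp hP (Or.inl rfl) ht ht' h1).2.2.2.2.2.2.2.2.1.le
    rw [cf_eq, h1, zero_add]

theorem cf_supp (hP : P.Ok) (ht : 0 < t) (ht' : t ≤ 1 / 100) (h : cf P t (x, w) ≠ 0) :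
    P.c * t < ‖X x‖ ∧ ‖X x‖ ≤ 1 / 16 ∧ ‖w‖ ≤ 2 := by
  obtain ⟨σ, hσ, -, h1⟩ := cf_one hP ht ht' x
  have h2 := cf1_supp hP hσ ht ht' (h1 w ▸ h)
  exact ⟨h2.1, h2.2.1, h2.2.2.2.2.2.2.2.2.2⟩

theorem Cold_box (hP : P.Ok) (ht : 0 < t) (ht' : t ≤ 1 / 100) {Y u : ℂ} {ε : ℝ}
    (h0 : P.c * t < ‖Y‖) (hε : 0 < ε) (hε' : ε ≤ (‖Y‖ - P.c * t) / 40)
    (ha : ((starRingEnd ℂ) (hat Y) * u).re - P.c ∈ Icc (ε / 16) (ε / 8))
    (hb : |((starRingEnd ℂ) (hat Y) * u).im| ≤ ε * (‖Y‖ - P.c * t) / (16 * ‖Y‖)) :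
    ‖u - (P.c : ℂ) * hat Y‖ ≤ 3 / 16 * ε ∧ ∀ ξ : ℂ, ξ + (t : ℂ) * u = Y →
      999 / 1000 * (‖Y‖ - P.c * t) ≤ ‖ξ‖ ∧ ‖ξ‖ ≤ 1001 / 1000 * (‖Y‖ - P.c * t) ∧
        P.c * ‖hat Y - hat ξ‖ ≤ ε / 7 := by
  have hc0 := hP.c_pos
  have hct : 0 < P.c * t := by positivity
  have hr := hct.trans h0
  have hr0 := sub_pos.2 h0
  have hn := norm_hat (norm_pos_iff.1 hr)
  obtain ⟨α, hα⟩ : ∃ α, α = ((starRingEnd ℂ) (hat Y) * u).re - P.c := ⟨_, rfl⟩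
  obtain ⟨β, hβ⟩ : ∃ β, β = ((starRingEnd ℂ) (hat Y) * u).im := ⟨_, rfl⟩
  have hu : u = hat Y * ((P.c + α : ℝ) + β * Complex.I) := by
    rw [hα, hβ, add_sub_cancel, Complex.re_add_im, ← mul_assoc, Complex.mul_conj,
      Complex.normSq_eq_norm_sq, hn]
    simp
  rw [← hα] at ha
  rw [← hβ, le_div_iff₀ (by positivity)] at hb
  have hβ1 : |β| ≤ ε / 16 := by
    refine le_of_mul_le_mul_right ?_ hr
    linarith [mul_pos hε hct]
  have h1 : ‖u - (P.c : ℂ) * hat Y‖ ≤ 3 / 16 * ε := by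
    have h1 : u - (P.c : ℂ) * hat Y = hat Y * (α + β * Complex.I) := by
      rw [hu]; push_cast; ring
    rw [h1, norm_mul, hn, one_mul]
    refine (norm_add_le _ _).trans ?_
    rw [norm_mul, Complex.norm_I, mul_one, Complex.norm_real, Complex.norm_real, Real.norm_eq_abs,
      Real.norm_eq_abs, abs_of_nonneg (by linarith [ha.1])]
    linarith [ha.2]
  refine ⟨h1, fun ξ hξ => ?_⟩
  have hξ' : ξ = ‖Y‖ * hat Y - t * u := by rw [norm_mul_hat, ← hξ]; ring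
  have h2 : ‖ξ - ((‖Y‖ - P.c * t : ℝ) : ℂ) * hat Y‖ ≤ 1 / 100 * (3 / 16 * ε) := by
    have h2 : ξ - ((‖Y‖ - P.c * t : ℝ) : ℂ) * hat Y = -(t * (u - P.c * hat Y)) := by
      rw [hξ']; push_cast; ring
    rw [h2, norm_neg, norm_mul, Complex.norm_real, Real.norm_of_nonneg ht.le]
    gcongr
  have h3 := abs_le.1 ((abs_norm_sub_norm_le _ _).trans h2)
  rw [norm_mul, hn, mul_one, Complex.norm_real, Real.norm_of_nonneg hr0.le] at h3
  refine ⟨by linarith [h3.1], by linarith [h3.2], ?_⟩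
  have h4 : t * α ≤ 1 / 100 * (ε / 8) := mul_le_mul ht' ha.2 (by linarith [ha.1]) (by norm_num)
  have hA : 0 < ‖Y‖ - P.c * t - t * α := by linarith
  have h5 : ‖((‖Y‖ - P.c * t - t * α : ℝ) : ℂ) * hat Y‖ = ‖Y‖ - P.c * t - t * α := by
    rw [norm_mul, hn, mul_one, Complex.norm_real, Real.norm_of_nonneg hA.le]
  have h6 : ‖((‖Y‖ - P.c * t - t * α : ℝ) : ℂ) * hat Y - ξ‖ = t * |β| := by
    have h6 : ((‖Y‖ - P.c * t - t * α : ℝ) : ℂ) * hat Y - ξ = hat Y * (t * (β * Complex.I)) := by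
      rw [hξ']
      nth_rw 1 [hu]
      push_cast
      ring
    rw [h6, norm_mul, hn, one_mul, norm_mul, norm_mul, Complex.norm_I, mul_one, Complex.norm_real,
      Complex.norm_real, Real.norm_of_nonneg ht.le, Real.norm_eq_abs]
  have h7 := norm_hat_sub_le (norm_pos_iff.1 (h5.symm ▸ hA)) ξ
  rw [hat_mul hA, hat_hat, h5, h6, le_div_iff₀ hA] at h7
  have h8 := mul_le_mul_of_nonneg_left h7 hc0.le
  have h9 := mul_le_mul_of_nonneg_right h0.le (abs_nonneg β)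
  have h10 : ε * (‖Y‖ - P.c * t) ≤ ε * (8 / 7 * (‖Y‖ - P.c * t - t * α)) :=
    mul_le_mul_of_nonneg_left (by linarith) hε.le
  refine le_of_mul_le_mul_right ?_ hA
  linarith

/-- Lower bound on an explicit box. -/
theorem cf1_ge (hP : P.Ok) (hσ : σ = 1 ∨ σ = -1) (ht : 0 < t) (ht' : t ≤ 1 / 100)
    (h0 : P.c * t < ‖X x‖) (h1 : 2 * P.r1 ≤ ‖X x‖ - P.c * t) (h2 : ‖X x‖ ≤ 1 / 40)
    (h3 : 1 / 5 ≤ sec P.M σ (X x))
    (ha : ((starRingEnd ℂ) (hat (X x)) * tp w).re - P.c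
      ∈ Icc (epsf P.c P.e0 t x / 16) (epsf P.c P.e0 t x / 8))
    (hb : |((starRingEnd ℂ) (hat (X x)) * tp w).im|
      ≤ epsf P.c P.e0 t x * (‖X x‖ - P.c * t) / (16 * ‖X x‖))
    (hc : |w 2 - σ| ≤ epsf P.c P.e0 t x / 8) :
    25 / 27 * P.K / ((‖X x‖ - P.c * t) * epsf P.c P.e0 t x ^ 3) ≤ cf1 P σ t (x, w) := by
  have hc0 := hP.c_pos
  have he0 := hP.e_pos
  have hK := hP.K_pos
  have hct : 0 < P.c * t := by positivity
  have hr0 := sub_pos.2 h0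
  have hX : X x ≠ 0 := norm_pos_iff.1 (hct.trans h0)
  have he : epsf P.c P.e0 t x = P.e0 * (‖X x‖ - P.c * t) ^ 2 := Ef_eq _ hr0.le (by linarith)
  have he1 : epsf P.c P.e0 t x ≤ P.e0 / 256 := Ef_le he0.le _
  have he2 : epsf P.c P.e0 t x ≤ 1 * (1 / 40 * (‖X x‖ - P.c * t)) := by
    rw [he, sq]
    gcongr
    · exact hP.e_le
    · linarith
  have he3 : 0 < epsf P.c P.e0 t x := he ▸ mul_pos he0 (pow_pos hr0 2)
  generalize epsf P.c P.e0 t x = ε at *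
  obtain ⟨g1, g2⟩ := Cold_box hP ht ht' h0 he3 (by linarith) ha hb
  have hw : ‖w‖ ≤ 3 := by
    have h4 := norm_sub_mkV_le w ((P.c : ℂ) * hat (X x)) σ
    have h5 := Cold_speed hP hσ (ξ := 0) (w := mkV ((P.c : ℂ) * hat 0) σ) (by simp) (by simp)
    have h6 := norm_sub_le_norm_sub_add_norm_sub w (mkV ((P.c : ℂ) * hat (X x)) σ)
      (mkV ((P.c : ℂ) * hat 0) σ)
    have h7 : ‖(P.c : ℂ) * hat (X x) - P.c * hat 0‖ = P.c := by
      simp [hat, hX, abs_of_pos hc0]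
    rw [norm_mkV_sub, h7] at h6
    linarith [norm_le_insert' w (mkV ((P.c : ℂ) * hat 0) σ), hP.c_le, hP.e_le]
  have hch := xi_chart' ht.le x w (by nlinarith)
  obtain ⟨g3, g4, g5⟩ := g2 _ hch
  have hρ : 0 < ‖xi t (x, w)‖ := by linarith
  have hs : 1 / 10 ≤ sec P.M σ (xi t (x, w)) := by
    have h4 := (abs_le.1 (abs_sec_sub_le P.M hσ (X x) (xi t (x, w)))).2
    have h5 := mul_le_mul_of_nonneg_left (g5.trans (show ε / 7 ≤ P.e0 / 256 by linarith))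
      (Nat.cast_nonneg (α := ℝ) P.M)
    have h6 : P.M * ‖hat (X x) - hat (xi t (x, w))‖ ≤ 1 / 256 := by
      refine le_of_mul_le_mul_left ?_ hc0
      linarith [hP.Me]
    linarith
  have hv : ‖w - mkV ((P.c : ℂ) * hat (xi t (x, w))) σ‖ ≤ P.e0 * ‖xi t (x, w)‖ ^ 2 := by
    have h4 := norm_sub_mkV_le w ((P.c : ℂ) * hat (xi t (x, w))) σ
    have h5 := norm_sub_le_norm_sub_add_norm_sub (tp w) ((P.c : ℂ) * hat (X x))
      ((P.c : ℂ) * hat (xi t (x, w)))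
    rw [← mul_sub, norm_mul, Complex.norm_real, Real.norm_of_nonneg hc0.le] at h5
    have h6 : P.e0 * (999 / 1000 * (‖X x‖ - P.c * t)) ^ 2 ≤ P.e0 * ‖xi t (x, w)‖ ^ 2 := by gcongr
    rw [mul_pow, mul_left_comm, ← he] at h6
    linarith
  rw [Cold_eq, if_pos ⟨by linarith, by linarith, hs, hv⟩, he,
    div_le_div_iff₀ (by positivity) (by positivity)]
  have h8 := pow_le_pow_left₀ hρ.le g4 7
  have h9 : (1001 / 1000 * (‖X x‖ - P.c * t)) ^ 7 ≤ 27 / 25 * (‖X x‖ - P.c * t) ^ 7 := by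
    rw [mul_pow]
    gcongr
    norm_num
  have h10 := mul_le_mul_of_nonneg_left (h8.trans h9) (show 0 ≤ P.K * P.e0 ^ 3 by positivity)
  linarith

theorem cf_le_const (hP : P.Ok) (hr : 0 < P.r1) (t : ℝ) (z : Ph) :
    cf P t z ≤ 2 * P.K / (P.r1 * (P.e0 * P.r1 ^ 2) ^ 3) := by
  have hK := hP.K_pos
  have he := hP.e_pos
  have h1 : ∀ σ z, cold1 P σ z ≤ P.K / (P.r1 * (P.e0 * P.r1 ^ 2) ^ 3) := fun σ z => by
    unfold cold1
    split_ifs with h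
    · gcongr <;> exact h.1
    · positivity
  refine (add_le_add (h1 _ _) (h1 _ _)).trans (le_of_eq ?_)
  ring

theorem Cold_supp (hP : P.Ok) {z : Ph} (h : cold P z ≠ 0) : ‖z.2‖ ≤ 2 := by
  have h1 : ∀ σ, σ = 1 ∨ σ = -1 → cold1 P σ z ≠ 0 → ‖z.2‖ ≤ 2 := fun σ hσ h1 => by
    unfold cold1 at h1
    split_ifs at h1 with h2
    · exact Cold_speed hP hσ h2.2.1 h2.2.2.2
    · exact (h1 rfl).elim
  by_cases h2 : cold1 P 1 z = 0
  · exact h1 _ (Or.inr rfl) fun h3 => h (by rw [cold, h2, h3, add_zero])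
  · exact h1 _ (Or.inl rfl) h2

theorem cf_le_Mx (hP : P.Ok) (hr : 0 < P.r1) : ∃ C : ℝ, ∀ t (z : Ph), cf P t z ≤ C * Mx z.2 := by
  have hK := hP.K_pos
  have he := hP.e_pos
  refine ⟨2 * P.K / (P.r1 * (P.e0 * P.r1 ^ 2) ^ 3) * (16 * Real.exp 2), fun t z => ?_⟩
  have hM := Mx_pos z.2
  by_cases h : cf P t z = 0
  · rw [h]; positivity
  have h1 : ‖z.2‖ ≤ 2 := Cold_supp hP (z := fl (-t) z) h
  have h2 : Real.exp (-2) ≤ 16 * Mx z.2 :=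
    (Real.exp_le_exp.2 (by nlinarith [norm_nonneg z.2])).trans (exp_le_Mx z.2)
  have h3 := mul_le_mul_of_nonneg_left h2 (Real.exp_pos 2).le
  rw [← Real.exp_add, add_neg_cancel, Real.exp_zero] at h3
  rw [mul_assoc]
  exact (cf_le_const hP hr t z).trans (le_mul_of_one_le_right (by positivity) (by linarith))

theorem cold_supp (hP : P.Ok) {z : Ph} (h : cold P z ≠ 0) : ‖z.2‖ ≤ 2 := Cold_supp hP h

theorem Sys.c_le_cf {n t₀ : ℝ} {c h k : ℝ → Ph → ℝ} (hn : 0 < n) (S : Sys n t₀ c h k)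
    (h0 : ∀ z, c t₀ z = cf P t₀ z) (ht : t₀ ≤ t) (z : Ph) : c t z ≤ cf P t z := by
  have h1 := S.c_le hn ht (fl (-t) z)
  rwa [fl_fl_neg, h0, cf_fl] at h1

end

end Vale.Agent.P140
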