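import Vale.Agent.P140.Basic

/-! Collision geometry, the sphere, and changes of variables. -/

namespace Vale.Agent.P140

open MeasureTheory Set Filter Topology
open scoped ENNReal RealInnerProductSpace

noncomputable section

theorem norm_S2 (ω : S2) : ‖(ω : V)‖ = 1 := by
  exact norm_eq_of_mem_sphere ω

theorem continuous_ca : Continuous (fun p : V × V × S2 => ca p.1 p.2.1 p.2.2) := by
  unfold ca
  fun_prop

theorem continuous_vp : Continuous (fun p : V × V × S2 => vp p.1 p.2.1 p.2.2) := by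
  unfold vp ca
  fun_prop

theorem continuous_wp : Continuous (fun p : V × V × S2 => wp p.1 p.2.1 p.2.2) := by
  unfold wp ca
  fun_prop

theorem measurable_ca {X : Type} [MeasurableSpace X] {v w : X → V} {ω : X → S2}
    (hv : Measurable v) (hw : Measurable w) (hω : Measurable ω) :
    Measurable (fun x => ca (v x) (w x) (ω x)) := by
  exact continuous_ca.measurable.comp (hv.prodMk (hw.prodMk hω))

theorem measurable_vp {X : Type} [MeasurableSpace X] {v w : X → V} {ω : X → S2}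
    (hv : Measurable v) (hw : Measurable w) (hω : Measurable ω) :
    Measurable (fun x => vp (v x) (w x) (ω x)) := by
  exact continuous_vp.measurable.comp (hv.prodMk (hw.prodMk hω))

theorem measurable_wp {X : Type} [MeasurableSpace X] {v w : X → V} {ω : X → S2}
    (hv : Measurable v) (hw : Measurable w) (hω : Measurable ω) :
    Measurable (fun x => wp (v x) (w x) (ω x)) := by
  exact continuous_wp.measurable.comp (hv.prodMk (hw.prodMk hω))

theorem measurable_Bn (n : ℝ) {X : Type} [MeasurableSpace X] {v w : X → V} {ω : X → S2}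
    (hv : Measurable v) (hw : Measurable w) (hω : Measurable ω) :
    Measurable (fun x => Bn n (v x) (w x) (ω x)) := by
  unfold Bn
  exact Measurable.ite (measurableSet_le (hv.sub hw).norm measurable_const)
    (continuous_abs.measurable.comp (measurable_ca hv hw hω)) measurable_const

variable (v w : V) (ω : S2)

theorem coll_inner_self : ⟪(ω : V), (ω : V)⟫ = 1 := by
  rw [real_inner_self_eq_norm_sq, norm_S2, one_pow]

theorem coll_vp_sub_wp : vp v w ω - wp v w ω = v - w - (2 * ca v w ω) • (ω : V) := by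
  rw [vp, wp, two_mul, add_smul]
  abel

theorem abs_ca_le : |ca v w ω| ≤ ‖v - w‖ := by
  have := abs_real_inner_le_norm (v - w) (ω : V)
  rwa [norm_S2, mul_one] at this

theorem vp_add_wp : vp v w ω + wp v w ω = v + w := by
  rw [vp, wp]
  abel

theorem energy_post : ‖vp v w ω‖ ^ 2 + ‖wp v w ω‖ ^ 2 = ‖v‖ ^ 2 + ‖w‖ ^ 2 := by
  rw [vp, wp, norm_sub_sq_real, norm_add_sq_real, norm_smul, norm_S2, inner_smul_right,
    inner_smul_right, mul_one, Real.norm_eq_abs, sq_abs]
  have : ca v w ω = ⟪v, (ω : V)⟫ - ⟪w, (ω : V)⟫ := by rw [ca, inner_sub_left]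
  rw [this]
  ring

theorem norm_vp_sub_wp : ‖vp v w ω - wp v w ω‖ = ‖v - w‖ := by
  refine (sq_eq_sq₀ (norm_nonneg _) (norm_nonneg _)).1 ?_
  rw [coll_vp_sub_wp, norm_sub_sq_real (v - w), norm_smul, norm_S2, inner_smul_right, mul_one,
    Real.norm_eq_abs, sq_abs, ← ca]
  ring

theorem norm_vp_le : ‖vp v w ω‖ ≤ ‖v‖ + ‖w‖ := by
  refine abs_le_of_sq_le_sq' ?_ (by positivity) |>.2
  nlinarith [energy_post v w ω, sq_nonneg ‖wp v w ω‖, mul_nonneg (norm_nonneg v) (norm_nonneg w)]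

theorem norm_wp_le : ‖wp v w ω‖ ≤ ‖v‖ + ‖w‖ := by
  refine abs_le_of_sq_le_sq' ?_ (by positivity) |>.2
  nlinarith [energy_post v w ω, sq_nonneg ‖vp v w ω‖, mul_nonneg (norm_nonneg v) (norm_nonneg w)]

theorem ca_post : ca (vp v w ω) (wp v w ω) ω = -ca v w ω := by
  rw [ca, coll_vp_sub_wp, inner_sub_left, inner_smul_left, coll_inner_self, ← ca]
  simp only [conj_trivial]
  ring

theorem vp_post : vp (vp v w ω) (wp v w ω) ω = v := by
  rw [vp, ca_post, neg_smul, vp]
  abel

theorem wp_post : wp (vp v w ω) (wp v w ω) ω = w := by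
  rw [wp, ca_post, neg_smul, wp]
  abel

theorem ca_swap : ca w v ω = -ca v w ω := by
  rw [ca, ca, ← inner_neg_left, neg_sub]

theorem vp_swap : vp w v ω = wp v w ω := by
  rw [vp, wp, ca_swap, neg_smul, sub_neg_eq_add]

theorem wp_swap : wp w v ω = vp v w ω := by
  rw [vp, wp, ca_swap, neg_smul, sub_eq_add_neg]

theorem inner_sub_wp : ⟪v - wp v w ω, (ω : V)⟫ = 0 := by
  rw [wp, ← sub_sub, inner_sub_left, inner_smul_left, coll_inner_self, ← ca]
  simp

theorem Mx_post : Mx (vp v w ω) * Mx (wp v w ω) = Mx v * Mx w := by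
  have h : ∀ a b : V, Mx a * Mx b = (2 * Real.pi) ^ (-(3 / 2 : ℝ)) *
      (2 * Real.pi) ^ (-(3 / 2 : ℝ)) * Real.exp (-(‖a‖ ^ 2 + ‖b‖ ^ 2) / 2) := by
    intro a b
    rw [Mx, Mx, mul_mul_mul_comm, ← Real.exp_add]
    congr 2
    ring
  rw [h, h, energy_post]

theorem Bn_nonneg (n : ℝ) : 0 ≤ Bn n v w ω := by
  unfold Bn
  split_ifs
  · exact abs_nonneg _
  · exact le_rfl

theorem Bn_le_abs (n : ℝ) : Bn n v w ω ≤ |ca v w ω| := by
  unfold Bn
  split_ifs
  · exact le_rfl
  · exact abs_nonneg _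

theorem Bn_le {n : ℝ} (hn : 0 ≤ n) : Bn n v w ω ≤ n := by
  unfold Bn
  split_ifs with h
  · exact (abs_ca_le v w ω).trans h
  · exact hn

theorem Bn_eq {n : ℝ} (h : ‖v - w‖ ≤ n) : Bn n v w ω = |ca v w ω| := by
  rw [Bn, if_pos h]

theorem Bn_post (n : ℝ) : Bn n (vp v w ω) (wp v w ω) ω = Bn n v w ω := by
  rw [Bn, Bn, norm_vp_sub_wp, ca_post, abs_neg]

theorem Bn_swap (n : ℝ) : Bn n w v ω = Bn n v w ω := by
  rw [Bn, Bn, norm_sub_rev, ca_swap, abs_neg]

instance instFiniteSig : IsFiniteMeasure sig := by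
  unfold sig
  infer_instance

theorem sig_univ : sig univ = ENNReal.ofReal (4 * Real.pi) := by
  rw [sig, Measure.toSphere_apply_univ, EuclideanSpace.volume_ball_fin_three,
    finrank_euclideanSpace_fin, ENNReal.ofReal_one, one_pow, one_mul, ← ENNReal.ofReal_natCast,
    ← ENNReal.ofReal_mul (by positivity)]
  congr 1
  push_cast
  ring

/-- Polar coordinates. -/
theorem lintegral_polar3 {F : V → ℝ≥0∞} (hF : Measurable F) :
    ∫⁻ y, F y = ∫⁻ ω : S2, (∫⁻ r in Ioi (0 : ℝ), ENNReal.ofReal (r ^ 2) * F (r • (ω : V))) ∂sig := by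
  have hmp : MeasurePreserving (homeomorphUnitSphereProd V) ((volume : Measure V).comap (↑))
      (sig.prod (Measure.volumeIoiPow 2)) := by
    simpa [sig] using (volume : Measure V).measurePreserving_homeomorphUnitSphereProd
  have hpol : ∀ x : ({0}ᶜ : Set V), ((homeomorphUnitSphereProd V x).2.1 : ℝ) •
      ((homeomorphUnitSphereProd V x).1 : V) = x.1 := by
    intro x
    have := congrArg Subtype.val ((homeomorphUnitSphereProd V).symm_apply_apply x)
    rwa [homeomorphUnitSphereProd_symm_apply_coe] at this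
  have m1 : Measurable fun w : S2 × Ioi (0 : ℝ) => F (w.2.1 • (w.1 : V)) :=
    hF.comp (by fun_prop : Continuous _).measurable
  have h1 := hmp.lintegral_comp m1
  simp only [hpol] at h1
  rw [lintegral_subtype_comap (measurableSet_singleton _).compl, restrict_compl_singleton] at h1
  rw [h1, lintegral_prod _ m1.aemeasurable]
  refine lintegral_congr fun θ => ?_
  have m3 : Measurable fun r : Ioi (0 : ℝ) => F (r.1 • (θ : V)) :=
    hF.comp (continuous_subtype_val.smul continuous_const).measurable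
  rw [Measure.volumeIoiPow, lintegral_withDensity_eq_lintegral_mul _
    (measurable_subtype_coe.pow_const _).ennreal_ofReal m3]
  exact lintegral_subtype_comap (μ := volume) (measurableSet_Ioi (a := (0 : ℝ)))
    (fun r : ℝ => ENNReal.ofReal (r ^ 2) * F (r • (θ : V)))

/-- The homeomorphism of the sphere induced by a linear isometry. -/
def collIso (e : V ≃ₗᵢ[ℝ] V) : S2 ≃ₜ S2 where
  toFun θ := ⟨e θ, by simp⟩
  invFun θ := ⟨e.symm θ, by simp⟩
  left_inv θ := by simp
  right_inv θ := by simp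
  continuous_toFun := by fun_prop
  continuous_invFun := by fun_prop

theorem collIso_coe (e : V ≃ₗᵢ[ℝ] V) (θ : S2) : (collIso e θ : V) = e θ := rfl

open scoped Pointwise in
theorem coll_iso_preserving (e : V ≃ₗᵢ[ℝ] V) : MeasurePreserving (collIso e) sig sig := by
  refine ⟨(collIso e).measurable, ?_⟩
  ext s hs
  rw [Measure.map_apply (collIso e).measurable hs, sig,
    Measure.toSphere_apply' _ ((collIso e).measurable hs), Measure.toSphere_apply' _ hs]
  congr 1
  rw [← e.measurePreserving.measure_preimage_emb e.toHomeomorph.measurableEmbedding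
    (Set.Ioo (0 : ℝ) 1 • (Subtype.val '' s : Set V))]
  congr 1
  ext x
  simp only [Set.mem_smul, Set.mem_image, Set.mem_preimage]
  constructor
  · rintro ⟨r, hr, _, ⟨θ, hθ, rfl⟩, rfl⟩
    exact ⟨r, hr, _, ⟨_, hθ, rfl⟩, by simp [collIso_coe]⟩
  · rintro ⟨r, hr, _, ⟨θ, hθ, rfl⟩, hx⟩
    refine ⟨r, hr, _, ⟨(collIso e).symm θ, by simpa using hθ, rfl⟩, ?_⟩
    apply e.injective
    rw [← hx, map_smul, ← collIso_coe]
    simp

/-- Invariance of the surface measure under linear isometries. -/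
theorem lintegral_sig_iso (R : V ≃ₗᵢ[ℝ] V) (H : V → ℝ≥0∞) :
    ∫⁻ ω : S2, H (R (ω : V)) ∂sig = ∫⁻ ω : S2, H (ω : V) ∂sig := by
  exact (coll_iso_preserving R).lintegral_comp_emb (collIso R).measurableEmbedding
    (fun θ : S2 => H (θ : V))

theorem coll_polar2 {G : ℝ × ℝ → ℝ≥0∞} (hG : Measurable G) :
    ∫⁻ p, G p = ∫⁻ r in Ioi (0 : ℝ), ∫⁻ θ in Ioo (-Real.pi) Real.pi,
      ENNReal.ofReal r * G (r * Real.cos θ, r * Real.sin θ) := by
  rw [← lintegral_comp_polarCoord_symm, polarCoord_target, Measure.volume_eq_prod,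
    ← Measure.prod_restrict, lintegral_prod]
  · rfl
  · refine Measurable.aemeasurable ?_
    exact measurable_fst.ennreal_ofReal.mul (hG.comp (by fun_prop :
      Measurable fun p : ℝ × ℝ => (p.1 * Real.cos p.2, p.1 * Real.sin p.2)))

theorem coll_split {H : ℝ × ℝ → ℝ≥0∞} (hH : Measurable H) :
    ∫⁻ y : V, H (y 0, ‖y‖) =
      ∫⁻ s : ℝ, ∫⁻ q : ℝ × ℝ, H (s, √(s ^ 2 + (q.1 ^ 2 + q.2 ^ 2))) := by
  have h1 := ((MeasurePreserving.id (volume : Measure ℝ)).prod
    (volume_preserving_finTwoArrow ℝ)).comp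
    ((volume_preserving_piFinSuccAbove (fun _ : Fin 3 => ℝ) 0).comp
      (PiLp.volume_preserving_ofLp (Fin 3)))
  have hm : Measurable fun p : ℝ × ℝ × ℝ => H (p.1, √(p.1 ^ 2 + (p.2.1 ^ 2 + p.2.2 ^ 2))) :=
    hH.comp (by fun_prop)
  rw [← lintegral_prod _ hm.aemeasurable, ← h1.lintegral_comp hm]
  refine lintegral_congr fun y => ?_
  rw [EuclideanSpace.norm_eq, Fin.sum_univ_three]
  simp only [Real.norm_eq_abs, sq_abs, add_assoc]
  rfl

theorem coll_cos (φ : ℝ → ℝ≥0∞) :
    ∫⁻ θ in Ioo (-Real.pi) Real.pi, ENNReal.ofReal (Real.sin θ) * φ (Real.cos θ) =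
      ∫⁻ s in Icc (-1 : ℝ) 1, φ s := by
  have hπ := Real.pi_pos
  have h1 : Real.cos '' Ioo 0 Real.pi = Ioo (-1) 1 := by
    rw [Real.continuous_cos.continuousOn.image_Ioo_of_strictAntiOn hπ.le Real.strictAntiOn_cos,
      Real.cos_pi, Real.cos_zero]
  rw [← Measure.restrict_congr_set (Ioo_ae_eq_Icc (a := (-1 : ℝ)) (b := 1)), ← h1,
    lintegral_image_eq_lintegral_abs_deriv_mul measurableSet_Ioo
      (fun x _ => (Real.hasDerivAt_cos x).hasDerivWithinAt)
      (Real.injOn_cos.mono Ioo_subset_Icc_self), ← lintegral_indicator measurableSet_Ioo,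
    ← lintegral_indicator measurableSet_Ioo]
  refine lintegral_congr fun θ => ?_
  by_cases h : θ ∈ Ioo 0 Real.pi
  · rw [indicator_of_mem h, indicator_of_mem (show θ ∈ Ioo _ _ from ⟨by linarith [h.1], h.2⟩),
      abs_neg, abs_of_pos (Real.sin_pos_of_mem_Ioo h)]
  · rw [indicator_of_notMem h]
    by_cases h' : θ ∈ Ioo (-Real.pi) Real.pi
    · have h2 : θ ≤ 0 := not_lt.1 fun h0 => h ⟨h0, h'.2⟩
      rw [indicator_of_mem h', ENNReal.ofReal_of_nonpos
        (Real.sin_nonpos_of_nonpos_of_neg_pi_le h2 h'.1.le), zero_mul]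
    · rw [indicator_of_notMem h']

theorem coll_zonal1 {φ W : ℝ → ℝ≥0∞} (hφ : Measurable φ) (hW : Measurable W) :
    (∫⁻ ω : S2, φ ((ω : V) 0) ∂sig) * ∫⁻ r in Ioi (0 : ℝ), ENNReal.ofReal (r ^ 2) * W r =
      (ENNReal.ofReal (2 * Real.pi) * ∫⁻ s in Icc (-1 : ℝ) 1, φ s) *
        ∫⁻ r in Ioi (0 : ℝ), ENNReal.ofReal (r ^ 2) * W r := by
  have hH : Measurable fun p : ℝ × ℝ => φ (p.1 / p.2) * W p.2 :=
    (hφ.comp (measurable_fst.div measurable_snd)).mul (hW.comp measurable_snd)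
  have hW2 : Measurable fun r : ℝ => ENNReal.ofReal (r ^ 2) * W r :=
    (measurable_id.pow_const 2).ennreal_ofReal.mul hW
  have h1 : ∫⁻ y : V, φ (y 0 / ‖y‖) * W ‖y‖ = ∫⁻ s : ℝ, ∫⁻ q : ℝ × ℝ,
      φ (s / √(s ^ 2 + (q.1 ^ 2 + q.2 ^ 2))) * W √(s ^ 2 + (q.1 ^ 2 + q.2 ^ 2)) := coll_split hH
  have hy : Measurable fun y : V => φ (y 0 / ‖y‖) * W ‖y‖ :=
    hH.comp (by fun_prop : Measurable fun y : V => (y 0, ‖y‖))
  rw [lintegral_polar3 hy] at h1
  have hs : Measurable fun ω : S2 => φ ((ω : V) 0) := hφ.comp (by fun_prop)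
  have e1 : ∀ ω : S2, ∫⁻ r in Ioi (0 : ℝ), ENNReal.ofReal (r ^ 2) *
      (φ ((r • (ω : V)) 0 / ‖r • (ω : V)‖) * W ‖r • (ω : V)‖) =
      φ ((ω : V) 0) * ∫⁻ r in Ioi (0 : ℝ), ENNReal.ofReal (r ^ 2) * W r := by
    intro ω
    rw [← lintegral_const_mul _ hW2]
    refine setLIntegral_congr_fun measurableSet_Ioi fun r hr => ?_
    have hr' : (0 : ℝ) < r := hr
    rw [norm_smul, norm_S2, mul_one, Real.norm_of_nonneg hr'.le, PiLp.smul_apply, smul_eq_mul,
      mul_div_cancel_left₀ _ hr'.ne']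
    ring
  have hK : Measurable fun p : ℝ × ℝ =>
      ENNReal.ofReal p.2 * (φ (p.1 / √(p.1 ^ 2 + p.2 ^ 2)) * W √(p.1 ^ 2 + p.2 ^ 2)) :=
    measurable_snd.ennreal_ofReal.mul (hH.comp (by fun_prop :
      Measurable fun p : ℝ × ℝ => (p.1, √(p.1 ^ 2 + p.2 ^ 2))))
  have e2 : ∀ s : ℝ, ∫⁻ q : ℝ × ℝ, φ (s / √(s ^ 2 + (q.1 ^ 2 + q.2 ^ 2))) *
      W √(s ^ 2 + (q.1 ^ 2 + q.2 ^ 2)) = ENNReal.ofReal (2 * Real.pi) *
      ∫⁻ ρ : ℝ, ENNReal.ofReal ρ * (φ (s / √(s ^ 2 + ρ ^ 2)) * W √(s ^ 2 + ρ ^ 2)) := by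
    intro s
    have m1 : Measurable fun q : ℝ × ℝ => φ (s / √(s ^ 2 + (q.1 ^ 2 + q.2 ^ 2))) *
        W √(s ^ 2 + (q.1 ^ 2 + q.2 ^ 2)) := hH.comp (by fun_prop :
      Measurable fun q : ℝ × ℝ => (s, √(s ^ 2 + (q.1 ^ 2 + q.2 ^ 2))))
    have m2 : Measurable fun ρ : ℝ =>
        ENNReal.ofReal ρ * (φ (s / √(s ^ 2 + ρ ^ 2)) * W √(s ^ 2 + ρ ^ 2)) :=
      hK.comp measurable_prodMk_left
    rw [coll_polar2 m1, ← lintegral_const_mul _ m2, ← lintegral_indicator measurableSet_Ioi]
    refine lintegral_congr fun ρ => ?_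
    by_cases h : ρ ∈ Ioi (0 : ℝ)
    · have e : ∀ θ : ℝ, (ρ * Real.cos θ) ^ 2 + (ρ * Real.sin θ) ^ 2 = ρ ^ 2 := fun θ => by
        rw [mul_pow, mul_pow, ← mul_add, Real.cos_sq_add_sin_sq, mul_one]
      rw [indicator_of_mem h]
      simp only [e]
      rw [setLIntegral_const, Real.volume_Ioo, mul_comm, sub_neg_eq_add, two_mul]
    · rw [indicator_of_notMem h, ENNReal.ofReal_of_nonpos (not_lt.1 h), zero_mul, mul_zero]
  simp only [e1, e2] at h1
  rw [lintegral_mul_const _ hs, lintegral_const_mul _ hK.lintegral_prod_right',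
    ← lintegral_prod _ hK.aemeasurable, ← Measure.volume_eq_prod, coll_polar2 hK] at h1
  rw [h1, mul_assoc, ← coll_cos φ, ← lintegral_const_mul _ hW2]
  congr 1
  refine setLIntegral_congr_fun measurableSet_Ioi fun r hr => ?_
  have hr' : (0 : ℝ) < r := hr
  have e : ∀ θ : ℝ, √((r * Real.cos θ) ^ 2 + (r * Real.sin θ) ^ 2) = r := fun θ => by
    rw [mul_pow, mul_pow, ← mul_add, Real.cos_sq_add_sin_sq, mul_one, Real.sqrt_sq hr'.le]
  simp only [e, mul_div_cancel_left₀ _ hr'.ne']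
  have m3 : Measurable fun θ : ℝ => ENNReal.ofReal (Real.sin θ) * φ (Real.cos θ) :=
    Real.measurable_sin.ennreal_ofReal.mul (hφ.comp Real.measurable_cos)
  rw [← lintegral_mul_const _ m3]
  refine lintegral_congr fun θ => ?_
  rw [sq, ENNReal.ofReal_mul hr'.le, ENNReal.ofReal_mul hr'.le]
  ring

theorem coll_zonal0 {φ : ℝ → ℝ≥0∞} (hφ : Measurable φ) :
    ∫⁻ ω : S2, φ ((ω : V) 0) ∂sig =
      ENNReal.ofReal (2 * Real.pi) * ∫⁻ s in Icc (-1 : ℝ) 1, φ s := by
  have hW : Measurable ((Ioo (0 : ℝ) 1).indicator fun r => (ENNReal.ofReal (r ^ 2))⁻¹) :=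
    (measurable_id.pow_const 2).ennreal_ofReal.inv.indicator measurableSet_Ioo
  have h1 := coll_zonal1 hφ hW
  have h2 : ∫⁻ r in Ioi (0 : ℝ), ENNReal.ofReal (r ^ 2) *
      (Ioo (0 : ℝ) 1).indicator (fun r => (ENNReal.ofReal (r ^ 2))⁻¹) r = 1 := by
    rw [setLIntegral_congr_fun measurableSet_Ioi
      (g := (Ioo (0 : ℝ) 1).indicator fun _ => (1 : ℝ≥0∞))]
    · rw [lintegral_indicator_const measurableSet_Ioo, Measure.restrict_apply measurableSet_Ioo,
        inter_eq_left.2 Ioo_subset_Ioi_self]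
      simp
    · intro r hr
      have hr' : (0 : ℝ) < r := hr
      by_cases h : r ∈ Ioo (0 : ℝ) 1
      · simp only [indicator_of_mem h]
        exact ENNReal.mul_inv_cancel (by simpa using hr'.ne') ENNReal.ofReal_ne_top
      · simp only [indicator_of_notMem h, mul_zero]
  rwa [h2, mul_one, mul_one] at h1

/-- Archimedes: the height function pushes the surface measure to `2π` times length. -/
theorem lintegral_zonal {e : V} (he : ‖e‖ = 1) {φ : ℝ → ℝ≥0∞} (hφ : Measurable φ) :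
    ∫⁻ ω : S2, φ ⟪e, (ω : V)⟫ ∂sig
      = ENNReal.ofReal (2 * Real.pi) * ∫⁻ s in Icc (-1 : ℝ) 1, φ s := by
  have h0 : ‖(EuclideanSpace.single (0 : Fin 3) (1 : ℝ) : V)‖ = 1 := by simp
  have h := Submodule.reflection_sub (he.trans h0.symm)
  rw [← coll_zonal0 hφ,
    ← lintegral_sig_iso (ℝ ∙ (e - EuclideanSpace.single 0 1))ᗮ.reflection fun x => φ (x 0)]
  refine lintegral_congr fun θ => ?_
  have h2 := (ℝ ∙ (e - EuclideanSpace.single 0 1))ᗮ.reflection.inner_map_map e θ
  rw [h, EuclideanSpace.inner_single_left] at h2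
  rw [← h2]
  simp

theorem coll_abs : ∫ s in Icc (-1 : ℝ) 1, |s| = 1 := by
  rw [integral_Icc_eq_integral_Ioc, ← intervalIntegral.integral_of_le (by norm_num),
    ← intervalIntegral.integral_add_adjacent_intervals (b := 0)
      (continuous_abs.intervalIntegrable _ _) (continuous_abs.intervalIntegrable _ _)]
  have h1 : ∫ s in (-1 : ℝ)..0, |s| = ∫ s in (-1 : ℝ)..0, -s := by
    refine intervalIntegral.integral_congr fun s hs => ?_
    rw [uIcc_of_le (by norm_num)] at hs
    exact abs_of_nonpos hs.2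
  have h2 : ∫ s in (0 : ℝ)..1, |s| = ∫ s in (0 : ℝ)..1, s := by
    refine intervalIntegral.integral_congr fun s hs => ?_
    rw [uIcc_of_le (by norm_num)] at hs
    exact abs_of_nonneg hs.1
  rw [h1, h2, intervalIntegral.integral_neg, integral_id, integral_id]
  norm_num

theorem lintegral_abs_ca :
    ∫⁻ ω, ENNReal.ofReal |ca v w ω| ∂sig = ENNReal.ofReal (2 * Real.pi * ‖v - w‖) := by
  by_cases h : v - w = 0
  · simp [ca, h]
  have hn : 0 < ‖v - w‖ := norm_pos_iff.2 h
  have he : ‖‖v - w‖⁻¹ • (v - w)‖ = 1 := by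
    rw [norm_smul, norm_inv, norm_norm, inv_mul_cancel₀ hn.ne']
  have hm : Measurable fun s : ℝ => ENNReal.ofReal (‖v - w‖ * |s|) := by fun_prop
  have h1 := lintegral_zonal he hm
  have e : ∀ ω : S2, ‖v - w‖ * |⟪‖v - w‖⁻¹ • (v - w), (ω : V)⟫| = |ca v w ω| := by
    intro ω
    rw [real_inner_smul_left, abs_mul, abs_inv, abs_norm, mul_inv_cancel_left₀ hn.ne', ca]
  simp only [e] at h1
  have hc : Continuous fun s : ℝ => ‖v - w‖ * |s| := by fun_prop
  rw [h1, ← ofReal_integral_eq_lintegral_ofReal hc.integrableOn_Icc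
    (Eventually.of_forall fun s => by positivity), ← ENNReal.ofReal_mul (by positivity),
    integral_const_mul, coll_abs, mul_one]

theorem integral_abs_ca : ∫ ω, |ca v w ω| ∂sig = 2 * Real.pi * ‖v - w‖ := by
  have hm : Measurable fun ω : S2 => |ca v w ω| := continuous_abs.measurable.comp
    (measurable_ca measurable_const measurable_const measurable_id)
  rw [integral_eq_lintegral_of_nonneg_ae (Eventually.of_forall fun ω => abs_nonneg _)
    hm.aestronglyMeasurable, lintegral_abs_ca, ENNReal.toReal_ofReal (by positivity)]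

theorem lintegral_Bn (n : ℝ) : ∫⁻ ω, ENNReal.ofReal (Bn n v w ω) ∂sig
    = ENNReal.ofReal (if ‖v - w‖ ≤ n then 2 * Real.pi * ‖v - w‖ else 0) := by
  unfold Bn
  split_ifs
  · exact lintegral_abs_ca v w
  · simp

theorem integral_Bn (n : ℝ) :
    ∫ ω, Bn n v w ω ∂sig = if ‖v - w‖ ≤ n then 2 * Real.pi * ‖v - w‖ else 0 := by
  unfold Bn
  split_ifs
  · exact integral_abs_ca v w
  · simp

/-- The collision map for a fixed direction, as a linear map. -/
def collLin (ω : S2) : V × V →ₗ[ℝ] V × V where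
  toFun q := (vp q.1 q.2 ω, wp q.1 q.2 ω)
  map_add' p q := by
    have e : ca (p.1 + q.1) (p.2 + q.2) ω = ca p.1 p.2 ω + ca q.1 q.2 ω := by
      rw [ca, ca, ca, ← inner_add_left, add_sub_add_comm]
    simp only [vp, wp, Prod.fst_add, Prod.snd_add, e, add_smul, Prod.mk_add_mk, Prod.mk.injEq]
    constructor <;> abel
  map_smul' c q := by
    have e : ca (c • q.1) (c • q.2) ω = c * ca q.1 q.2 ω := by
      rw [ca, ca, ← smul_sub, real_inner_smul_left]
    simp only [vp, wp, Prod.smul_fst, Prod.smul_snd, e, mul_smul, RingHom.id_apply, Prod.smul_mk,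
      smul_sub, smul_add]

theorem coll_map (ω : S2) : Measure.map (fun q : V × V => (vp q.1 q.2 ω, wp q.1 q.2 ω))
    (volume.prod volume) = volume.prod volume := by
  have h1 : collLin ω ∘ₗ collLin ω = LinearMap.id := by
    refine LinearMap.ext fun q => ?_
    exact Prod.ext (vp_post q.1 q.2 ω) (wp_post q.1 q.2 ω)
  have h2 : LinearMap.det (collLin ω) * LinearMap.det (collLin ω) = 1 := by
    rw [← LinearMap.det_comp, h1, LinearMap.det_id]
  have h3 : |LinearMap.det (collLin ω)| = 1 := by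
    rcases mul_self_eq_one_iff.1 h2 with h | h <;> rw [h] <;> simp
  have h4 : LinearMap.det (collLin ω) ≠ 0 := fun h => by simp [h] at h2
  have h5 := Measure.map_linearMap_addHaar_eq_smul_addHaar
    ((volume : Measure V).prod (volume : Measure V)) h4
  rwa [abs_inv, h3, inv_one, ENNReal.ofReal_one, one_smul] at h5

theorem measurePreserving_coll : MeasurePreserving
    (fun p : (V × V) × S2 => ((vp p.1.1 p.1.2 p.2, wp p.1.1 p.1.2 p.2), p.2))
    ((volume.prod volume).prod sig) ((volume.prod volume).prod sig) := by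
  have h1 : MeasurePreserving (fun p : S2 × V × V => (p.1, (vp p.2.1 p.2.2 p.1, wp p.2.1 p.2.2 p.1)))
      (sig.prod (volume.prod volume)) (sig.prod (volume.prod volume)) :=
    (MeasurePreserving.id sig).skew_product
      (g := fun (ω : S2) (q : V × V) => (vp q.1 q.2 ω, wp q.1 q.2 ω))
      ((measurable_vp measurable_snd.fst measurable_snd.snd measurable_fst).prodMk
        (measurable_wp measurable_snd.fst measurable_snd.snd measurable_fst))
      (Eventually.of_forall coll_map)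
  exact (Measure.measurePreserving_swap.comp h1).comp Measure.measurePreserving_swap

theorem measurePreserving_collSwap : MeasurePreserving
    (fun p : (V × V) × S2 => ((p.1.2, p.1.1), p.2))
    ((volume.prod volume).prod sig) ((volume.prod volume).prod sig) := by
  exact Measure.measurePreserving_swap.prod (MeasurePreserving.id sig)

theorem integral_coll (H : (V × V) × S2 → ℝ) :
    ∫ p, H ((vp p.1.1 p.1.2 p.2, wp p.1.1 p.1.2 p.2), p.2) ∂((volume.prod volume).prod sig)
      = ∫ p, H p ∂((volume.prod volume).prod sig) := by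
  exact MeasurePreserving.integral_comp' (f := MeasurableEquiv.ofInvolutive _
    (fun p => by simp only [vp_post, wp_post]) measurePreserving_coll.measurable)
    measurePreserving_coll H

theorem integral_collSwap (H : (V × V) × S2 → ℝ) :
    ∫ p, H ((p.1.2, p.1.1), p.2) ∂((volume.prod volume).prod sig)
      = ∫ p, H p ∂((volume.prod volume).prod sig) := by
  exact MeasurePreserving.integral_comp' (f := MeasurableEquiv.ofInvolutive _
    (fun p => rfl) measurePreserving_collSwap.measurable) measurePreserving_collSwap H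

theorem lintegral_three {H : V → V → S2 → ℝ≥0∞}
    (hH : Measurable (fun p : V × V × S2 => H p.1 p.2.1 p.2.2)) :
    ∫⁻ v, ∫⁻ w, ∫⁻ ω, H v w ω ∂sig
      = ∫⁻ p : (V × V) × S2, H p.1.1 p.1.2 p.2 ∂((volume.prod volume).prod sig) := by
  have hm : Measurable fun p : (V × V) × S2 => H p.1.1 p.1.2 p.2 :=
    hH.comp (measurable_fst.fst.prodMk (measurable_fst.snd.prodMk measurable_snd))
  rw [lintegral_prod _ hm.aemeasurable, lintegral_prod _ hm.lintegral_prod_right'.aemeasurable]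

theorem lintegral_coll {H : V → V → S2 → ℝ≥0∞}
    (hH : Measurable (fun p : V × V × S2 => H p.1 p.2.1 p.2.2)) :
    ∫⁻ v, ∫⁻ w, ∫⁻ ω, H (vp v w ω) (wp v w ω) ω ∂sig = ∫⁻ v, ∫⁻ w, ∫⁻ ω, H v w ω ∂sig := by
  have hm : Measurable fun p : (V × V) × S2 => H p.1.1 p.1.2 p.2 :=
    hH.comp (measurable_fst.fst.prodMk (measurable_fst.snd.prodMk measurable_snd))
  rw [lintegral_three hH, ← measurePreserving_coll.lintegral_comp hm]
  exact lintegral_three (H := fun v w ω => H (vp v w ω) (wp v w ω) ω)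
    (hH.comp (continuous_vp.measurable.prodMk (continuous_wp.measurable.prodMk measurable_snd.snd)))

theorem lintegral_collSwap {H : V → V → S2 → ℝ≥0∞}
    (hH : Measurable (fun p : V × V × S2 => H p.1 p.2.1 p.2.2)) :
    ∫⁻ v, ∫⁻ w, ∫⁻ ω, H w v ω ∂sig = ∫⁻ v, ∫⁻ w, ∫⁻ ω, H v w ω ∂sig := by
  have hm : Measurable fun p : (V × V) × S2 => H p.1.1 p.1.2 p.2 :=
    hH.comp (measurable_fst.fst.prodMk (measurable_fst.snd.prodMk measurable_snd))
  rw [lintegral_three hH, ← measurePreserving_collSwap.lintegral_comp hm]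
  exact lintegral_three (H := fun v w ω => H w v ω)
    (hH.comp (measurable_snd.fst.prodMk (measurable_fst.prodMk measurable_snd.snd)))

theorem coll_weak {B : V → V → S2 → ℝ≥0∞}
    (hB : Measurable (fun p : V × V × S2 => B p.1 p.2.1 p.2.2))
    (hpost : ∀ v w ω, B (vp v w ω) (wp v w ω) ω = B v w ω) {f g φ : V → ℝ≥0∞}
    (hf : Measurable f) (hg : Measurable g) (hφ : Measurable φ) :
    ∫⁻ v, (∫⁻ w, ∫⁻ ω, B v w ω * (f (vp v w ω) * g (wp v w ω)) ∂sig) * φ v
      = ∫⁻ v, ∫⁻ w, ∫⁻ ω, B v w ω * (f v * g w * φ (vp v w ω)) ∂sig := by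
  have h1 : Measurable fun p : V × V × S2 =>
      B p.1 p.2.1 p.2.2 * (f p.1 * g p.2.1 * φ (vp p.1 p.2.1 p.2.2)) :=
    hB.mul (((hf.comp measurable_fst).mul (hg.comp measurable_snd.fst)).mul
      (hφ.comp continuous_vp.measurable))
  have h2 : Measurable fun p : V × V × S2 =>
      B p.1 p.2.1 p.2.2 * (f (vp p.1 p.2.1 p.2.2) * g (wp p.1 p.2.1 p.2.2)) :=
    hB.mul ((hf.comp continuous_vp.measurable).mul (hg.comp continuous_wp.measurable))
  rw [← lintegral_coll (H := fun v w ω => B v w ω * (f v * g w * φ (vp v w ω))) h1]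
  refine lintegral_congr fun v => ?_
  have h3 : Measurable fun p : V × S2 => B v p.1 p.2 * (f (vp v p.1 p.2) * g (wp v p.1 p.2)) :=
    h2.comp measurable_prodMk_left
  rw [← lintegral_mul_const _ h3.lintegral_prod_right']
  refine lintegral_congr fun w => ?_
  have h4 : Measurable fun ω : S2 => B v w ω * (f (vp v w ω) * g (wp v w ω)) :=
    h3.comp measurable_prodMk_left
  rw [← lintegral_mul_const _ h4]
  refine lintegral_congr fun ω => ?_
  simp only [hpost, vp_post, mul_assoc]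

/-- Weak form of the full gain. -/
theorem lintegral_Qe_mul {f g φ : V → ℝ≥0∞} (hf : Measurable f) (hg : Measurable g)
    (hφ : Measurable φ) : ∫⁻ v, Qe f g v * φ v
      = ∫⁻ v, ∫⁻ w, ∫⁻ ω, ENNReal.ofReal |ca v w ω| * (f v * g w * φ (vp v w ω)) ∂sig := by
  exact coll_weak (B := fun v w ω => ENNReal.ofReal |ca v w ω|)
    (continuous_abs.measurable.comp continuous_ca.measurable).ennreal_ofReal
    (fun v w ω => by rw [ca_post, abs_neg]) hf hg hφ

/-- Weak form of the truncated gain. -/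
theorem lintegral_QE_mul (n : ℝ) {f g φ : V → ℝ≥0∞} (hf : Measurable f) (hg : Measurable g)
    (hφ : Measurable φ) : ∫⁻ v, QE n f g v * φ v
      = ∫⁻ v, ∫⁻ w, ∫⁻ ω, ENNReal.ofReal (Bn n v w ω) * (f v * g w * φ (vp v w ω)) ∂sig := by
  exact coll_weak (B := fun v w ω => ENNReal.ofReal (Bn n v w ω))
    (measurable_Bn n measurable_fst measurable_snd.fst measurable_snd.snd).ennreal_ofReal
    (fun v w ω => by rw [Bn_post]) hf hg hφ

end

end Vale.Agent.P140
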