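import Vale.Agent.P140.ApprApi

/-! Conservation laws for the regularized equation. -/

namespace Vale.Agent.P140

open MeasureTheory Set Filter Topology
open scoped ENNReal RealInnerProductSpace

noncomputable section

variable {n : ℝ} {F : ℝ → Ph → ℝ}

/-- The collision term of the regularized equation. -/
def consQ (n : ℝ) (F : ℝ → Ph → ℝ) (t : ℝ) (z : Ph) : ℝ :=
  gainN n (til n (F t)) (til n (F t)) z - lam n (F t) z * F t z

theorem cons_meas (h : Appr n F) : Measurable fun p : ℝ × Ph => consQ n F p.1 p.2 := by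
  have h1 : Measurable fun q : (ℝ × Ph) × Ph => F q.1.1 q.2 :=
    h.meas.comp (measurable_fst.fst.prodMk measurable_snd)
  have h2 : Measurable fun q : (ℝ × Ph) × Ph => til n (F q.1.1) q.2 :=
    measurable_til (X := (ℝ × Ph) × Ph) (F := fun q => F q.1.1) n
      (h.meas.comp (measurable_fst.fst.fst.prodMk measurable_snd)) measurable_snd
  exact (measurable_gainN (f := fun p : ℝ × Ph => til n (F p.1))
    (g := fun p : ℝ × Ph => til n (F p.1)) n h2 h2 measurable_snd).sub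
    ((measurable_lam (F := fun p : ℝ × Ph => F p.1) n h1 measurable_snd).mul h.meas)

theorem cons_upp (h : Appr n F) (T : ℝ) : ∃ C : ℝ, 0 ≤ C ∧ ∀ t ∈ Icc 0 T, ∀ z : Ph,
    |F t z| ≤ C * Mx z.2 := by
  obtain ⟨C, hC⟩ := h.upp T
  refine ⟨max C 0, le_max_right _ _, fun t ht z => ?_⟩
  rw [abs_of_nonneg (h.nonneg t z)]
  exact (hC t ht z).trans (mul_le_mul_of_nonneg_right (le_max_left _ _) (Mx_pos _).le)

theorem cons_bound (hn : 0 < n) (h : Appr n F) (T : ℝ) : ∃ C : ℝ, 0 ≤ C ∧ ∀ t ∈ Icc 0 T,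
    ∀ z : Ph, |consQ n F t z| ≤ C * Mx z.2 := by
  obtain ⟨C, hC0, hC⟩ := cons_upp h T
  refine ⟨4 * Real.pi * n * n * n + 4 * Real.pi * n * n * C, by positivity, fun t ht z => ?_⟩
  refine (abs_sub _ _).trans ?_
  rw [abs_of_nonneg (h.gain_nonneg hn t z), abs_mul, abs_of_nonneg (lam_nonneg hn (h.nonneg t)),
    add_mul, mul_assoc _ C]
  exact add_le_add (h.gain_le hn t z) (mul_le_mul (lam_le hn (h.meas_t t) (h.nonneg t))
    (hC t ht z) (abs_nonneg _) (by positivity))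

theorem cons_int {T A B : ℝ} {f g : ℝ × Ph → ℝ} (hf : Measurable f) (hg : Measurable g)
    (hA : ∀ t ∈ Icc 0 T, ∀ z : Ph, |f (t, z)| ≤ A * Mx z.2)
    (hB : ∀ t ∈ Icc 0 T, ∀ z : Ph, |g (t, z)| ≤ B * (1 + ‖z.2‖) ^ 4) :
    Integrable (fun p => f p * g p) (mu3 T) := by
  refine Integrable.mono' (((integrable_pow_Mx_Ph 4).const_mul (A * B)).comp_snd (muT T))
    (hf.mul hg).aestronglyMeasurable ?_
  filter_upwards [Measure.quasiMeasurePreserving_fst.ae (ae_restrict_mem measurableSet_Ioc)]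
    with p hp
  have h1 := hA p.1 (Ioc_subset_Icc_self hp) p.2
  have h2 := hB p.1 (Ioc_subset_Icc_self hp) p.2
  rw [Real.norm_eq_abs, abs_mul]
  refine (mul_le_mul h1 h2 (abs_nonneg _) ((abs_nonneg _).trans h1)).trans (le_of_eq ?_)
  ring

theorem cons_slice (hn : 0 < n) (h : Appr n F) {φ : V → ℝ} {C : ℝ} (hφ : Measurable φ)
    (hC : ∀ v, |φ v| ≤ C * (1 + ‖v‖) ^ 4)
    (hinv : ∀ v w ω, φ (vp v w ω) + φ (wp v w ω) = φ v + φ w) (t : ℝ) (x : T3) :
    ∫ v, consQ n F t (x, v) * φ v = 0 := by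
  have h1 := weak_sym hn.le (bddV_til hn (h.meas_t t) (h.nonneg t) x) hφ hC
  have h2 : ∀ p : (V × V) × S2, φ (vp p.1.1 p.1.2 p.2) + φ (wp p.1.1 p.1.2 p.2) - φ p.1.1
      - φ p.1.2 = 0 := fun p => by rw [hinv]; ring
  simp only [h2, mul_zero, integral_zero, neg_zero] at h1
  rw [← h1]
  refine integral_congr_ae (ae_of_all _ fun v => ?_)
  simp only [consQ, lam_mul]
  rfl

theorem cons_zero (hn : 0 < n) (h : Appr n F) {φ : V → ℝ} {C : ℝ} (hφ : Measurable φ)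
    (hC : ∀ v, |φ v| ≤ C * (1 + ‖v‖) ^ 4)
    (hinv : ∀ v w ω, φ (vp v w ω) + φ (wp v w ω) = φ v + φ w) {T : ℝ} {a : ℝ → T3 → ℝ}
    (hi : Integrable (fun p : ℝ × Ph => consQ n F p.1 p.2 * (a p.1 p.2.1 * φ p.2.2)) (mu3 T)) :
    ∫ p : ℝ × Ph, consQ n F p.1 p.2 * (a p.1 p.2.1 * φ p.2.2) ∂(mu3 T) = 0 := by
  rw [integral_prod _ hi]
  refine integral_eq_zero_of_ae ?_
  filter_upwards [hi.prod_right_ae] with t ht
  rw [Measure.volume_eq_prod] at ht ⊢
  rw [integral_prod _ ht]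
  refine integral_eq_zero_of_ae (ae_of_all _ fun x => ?_)
  simp only [mul_left_comm _ (a t x), integral_const_mul, cons_slice hn h hφ hC hinv, mul_zero,
    Pi.zero_apply]

/-- Collision invariants are conserved. -/
theorem Appr.conserve (hn : 0 < n) (h : Appr n F) {φ : V → ℝ} {C : ℝ} (hφ : Measurable φ)
    (hC : ∀ v, |φ v| ≤ C * (1 + ‖v‖) ^ 4)
    (hinv : ∀ v w ω, φ (vp v w ω) + φ (wp v w ω) = φ v + φ w) {t : ℝ} (ht : 0 ≤ t) :
    ∫ z : Ph, φ z.2 * F t z = ∫ z : Ph, φ z.2 * F 0 z := by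
  obtain ⟨A, -, hA⟩ := cons_bound hn h t
  have hi : Integrable (fun p : ℝ × Ph => consQ n F p.1 p.2 * (1 * φ p.2.2)) (mu3 t) :=
    cons_int (cons_meas h) ((hφ.comp measurable_snd.snd).const_mul 1) hA
      fun s _ z => by rw [one_mul]; exact hC z.2
  have h0 := cons_zero hn h hφ hC hinv (a := fun _ _ => 1) hi
  have e : (fun p : ℝ × Ph => consQ n F p.1 p.2 * (1 * φ p.2.2)) =
      fun p : ℝ × Ph => φ p.2.2 * consQ n F p.1 p.2 := by
    funext p; ring
  rw [e] at hi h0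
  have hY : Integrable fun z : Ph => φ z.2 * F 0 z := by
    simpa only [mul_comm] using h.integrable_mul (φ := fun z => φ z.2) le_rfl
      (hφ.comp measurable_snd) fun z => hC z.2
  have h1 := (Prim.integral_family (μ := (volume : Measure Ph))
    (Y := fun s z => φ z.2 * F s (fl s z)) (Q := fun s z => φ z.2 * consQ n F s (fl s z))
    (ae_of_all _ fun z => (h.prim hn ht z).const_mul _) ht ((integrable_flST _).2 hi)
    ((integrable_fl 0).2 hY)).2
  rw [← integral_fl t, ← integral_fl 0 fun z => φ z.2 * F 0 z]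
  rw [← integral_flST] at h0
  exact h1.trans (add_eq_left.2 h0)

theorem cons_one_le (v : V) : (1 : ℝ) ≤ (1 + ‖v‖) ^ 4 :=
  one_le_pow₀ (le_add_of_nonneg_right (norm_nonneg v))

theorem cons_lin_le (v : V) : 1 + ‖v‖ ≤ (1 + ‖v‖) ^ 4 :=
  le_self_pow₀ (le_add_of_nonneg_right (norm_nonneg v)) (by norm_num)

theorem cons_sq_le (v : V) : 1 + ‖v‖ ^ 2 ≤ (1 + ‖v‖) ^ 4 := by
  have h := norm_nonneg v
  have h1 : 1 + ‖v‖ ^ 2 ≤ (1 + ‖v‖) ^ 2 := by nlinarith
  exact h1.trans (pow_le_pow_right₀ (by linarith) (by norm_num))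

theorem Appr.mass (hn : 0 < n) (h : Appr n F) {t : ℝ} (ht : 0 ≤ t) :
    ∫ z, F t z = ∫ z, F 0 z := by
  simpa using h.conserve hn (φ := fun _ => 1) (C := 1) measurable_const
    (fun v => by simpa using cons_one_le v) (fun _ _ _ => rfl) ht

theorem Appr.momentum (hn : 0 < n) (h : Appr n F) {t : ℝ} (ht : 0 ≤ t) (i : Fin 3) :
    ∫ z : Ph, z.2 i * F t z = ∫ z : Ph, z.2 i * F 0 z := by
  refine h.conserve hn (φ := fun v => v i) (C := 1) (by fun_prop) (fun v => ?_)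
    (fun v w ω => congrArg (fun u : V => u i) (vp_add_wp v w ω)) ht
  have h1 : |v i| ≤ ‖v‖ := PiLp.norm_apply_le v i
  linarith [cons_lin_le v]

theorem cons_lint (hn : 0 < n) (h : Appr n F) {φ : V → ℝ} (hφ : Measurable φ)
    (h0 : ∀ v, 0 ≤ φ v) (hC : ∀ v, φ v ≤ (1 + ‖v‖) ^ 4)
    (hinv : ∀ v w ω, φ (vp v w ω) + φ (wp v w ω) = φ v + φ w) {t : ℝ} (ht : 0 ≤ t) :
    ∫⁻ z : Ph, ENNReal.ofReal (φ z.2 * F t z) = ∫⁻ z : Ph, ENNReal.ofReal (φ z.2 * F 0 z) := by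
  have hC' : ∀ v, |φ v| ≤ 1 * (1 + ‖v‖) ^ 4 := fun v => by
    rw [abs_of_nonneg (h0 v), one_mul]; exact hC v
  have key : ∀ s, 0 ≤ s → ∫⁻ z : Ph, ENNReal.ofReal (φ z.2 * F s z) =
      ENNReal.ofReal (∫ z : Ph, φ z.2 * F s z) := fun s hs => by
    refine (ofReal_integral_eq_lintegral_ofReal ?_
      (ae_of_all _ fun z => mul_nonneg (h0 _) (h.nonneg s z))).symm
    simpa only [mul_comm] using h.integrable_mul (φ := fun z => φ z.2) hs
      (hφ.comp measurable_snd) fun z => hC' z.2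
  rw [key t ht, key 0 le_rfl, h.conserve hn hφ hC' hinv ht]

theorem Appr.energy (hn : 0 < n) (h : Appr n F) {t : ℝ} (ht : 0 ≤ t) :
    ∫⁻ z : Ph, ENNReal.ofReal (‖z.2‖ ^ 2 * F t z)
      = ∫⁻ z : Ph, ENNReal.ofReal (‖z.2‖ ^ 2 * F 0 z) := by
  exact cons_lint hn h (φ := fun v => ‖v‖ ^ 2) (by fun_prop) (fun v => by positivity)
    (fun v => by linarith [cons_sq_le v]) energy_post ht

theorem Appr.mom2 (hn : 0 < n) (h : Appr n F) {t : ℝ} (ht : 0 ≤ t) :
    ∫⁻ z : Ph, ENNReal.ofReal ((1 + ‖z.2‖ ^ 2) * F t z)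
      = ∫⁻ z : Ph, ENNReal.ofReal ((1 + ‖z.2‖ ^ 2) * F 0 z) := by
  exact cons_lint hn h (φ := fun v => 1 + ‖v‖ ^ 2) (by fun_prop) (fun v => by positivity)
    cons_sq_le (fun v w ω => by linarith [energy_post v w ω]) ht

theorem cons_transX_cont {φ : ℝ → T3 → ℝ} (hφ : IsTestX φ) :
    Continuous fun p : ℝ × Ph => transX φ p.1 p.2 := by
  have h1 : Continuous fun p : ℝ × Ph => (p.1, p.2.1) := by fun_prop
  refine (hφ.continuous_dT.comp h1).add (continuous_finsetSum _ fun i _ => ?_)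
  exact Continuous.mul (by fun_prop) ((hφ.continuous_dX i).comp h1)

theorem cons_transX_le {φ : ℝ → T3 → ℝ} {t C : ℝ} {z : Ph} (h1 : |dT φ t z.1| ≤ C)
    (h2 : ∀ i, |dX i φ t z.1| ≤ C) : |transX φ t z| ≤ 3 * C * (1 + ‖z.2‖) := by
  have hC : 0 ≤ C := (abs_nonneg _).trans h1
  have h3 : ∀ i ∈ Finset.univ, |z.2 i * dX i φ t z.1| ≤ ‖z.2‖ * C := fun i _ => by
    rw [abs_mul]
    exact mul_le_mul (PiLp.norm_apply_le z.2 i) (h2 i) (abs_nonneg _) (norm_nonneg _)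
  have h4 := (Finset.abs_sum_le_sum_abs _ _).trans (Finset.sum_le_sum h3)
  rw [Finset.sum_const, Finset.card_univ, Fintype.card_fin, nsmul_eq_mul] at h4
  refine (abs_add_le _ _).trans ?_
  push_cast at h4
  linarith

/-- Local conservation of mass. -/
theorem Appr.localMass (hn : 0 < n) (h : Appr n F) {φ : ℝ → T3 → ℝ} (hφ : IsTestX φ) {T : ℝ}
    (hT : 0 ≤ T) : ∫ z : Ph, F T z * φ T z.1
      = (∫ z : Ph, F 0 z * φ 0 z.1) + ∫ p, F p.1 p.2 * transX φ p.1 p.2 ∂(mu3 T) := by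
  obtain ⟨A, -, hA⟩ := cons_bound hn h T
  obtain ⟨B, -, hB⟩ := cons_upp h T
  obtain ⟨R, C, -, hC, -⟩ := hφ.bounds
  have hC0 : 0 ≤ C := (abs_nonneg _).trans (hC 0 0 le_rfl).1
  have hφm : Measurable fun p : ℝ × Ph => φ p.1 p.2.1 :=
    (hφ.continuous.comp (by fun_prop : Continuous fun p : ℝ × Ph => (p.1, p.2.1))).measurable
  have hφb : ∀ t, 0 ≤ t → ∀ z : Ph, |φ t z.1| ≤ C * (1 + ‖z.2‖) ^ 4 := fun t ht z =>
    (hC t z.1 ht).1.trans (le_mul_of_one_le_right hC0 (cons_one_le _))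
  have i1 : Integrable (fun p : ℝ × Ph => consQ n F p.1 p.2 * (φ p.1 p.2.1 * 1)) (mu3 T) :=
    cons_int (cons_meas h) (hφm.mul_const 1) hA fun s hs z => by
      rw [mul_one]; exact hφb s hs.1 z
  have h0 := cons_zero hn h (φ := fun _ => 1) (C := 1) measurable_const
    (fun v => by simpa using cons_one_le v) (fun _ _ _ => rfl) i1
  simp only [mul_one] at i1 h0
  have i2 : Integrable (fun p : ℝ × Ph => F p.1 p.2 * transX φ p.1 p.2) (mu3 T) :=
    cons_int (B := 3 * C) h.meas (cons_transX_cont hφ).measurable hB fun s hs z =>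
      (cons_transX_le (hC s z.1 hs.1).2.1 (hC s z.1 hs.1).2.2).trans
        (mul_le_mul_of_nonneg_left (cons_lin_le _) (by positivity))
  have hY : Integrable fun z : Ph => F 0 z * φ 0 z.1 :=
    h.integrable_mul le_rfl (hφm.comp measurable_prodMk_left) (hφb 0 le_rfl)
  have h1 := (Prim.integral_family (μ := (volume : Measure Ph))
    (Y := fun s z => F s (fl s z) * φ s (fl s z).1)
    (Q := fun s z => consQ n F s (fl s z) * φ s (fl s z).1 + F s (fl s z) * transX φ s (fl s z))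
    (ae_of_all _ fun z => (h.prim hn hT z).mul (Prim.of_hasDerivAt hT
      (fun s _ => hφ.hasDerivAt s z) ((cons_transX_cont hφ).comp (continuous_id.prodMk
        (continuous_fl.comp (continuous_id.prodMk continuous_const)))).continuousOn)) hT
    ((integrable_flST _).2 (i1.add i2)) ((integrable_fl 0).2 hY)).2
  have h2 := integral_flST (muT T) fun p : ℝ × Ph =>
    consQ n F p.1 p.2 * φ p.1 p.2.1 + F p.1 p.2 * transX φ p.1 p.2
  rw [integral_add i1 i2, h0, zero_add] at h2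
  rw [← integral_fl T, ← integral_fl 0 fun z => F 0 z * φ 0 z.1, ← h2]
  exact h1

end

end Vale.Agent.P140
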