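import Vale.Agent.P140.Stmt

/-! The unfolded form of the notion of renormalized entropy solution used in the proofs. -/

namespace Vale.Agent.P140

open MeasureTheory Set
open scoped ENNReal RealInnerProductSpace

noncomputable section

/-- Renormalized entropy solution with datum `F₀`. -/
structure IsSol (F₀ : Ph → ℝ) (F : ℝ → Ph → ℝ) : Prop where
  meas : Measurable (fun p : ℝ × Ph => F p.1 p.2)
  nonneg : ∀ t z, 0 ≤ F t z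
  integrable : ∀ t, 0 ≤ t → Integrable (F t)
  weakCont : ∀ ψ : Ph → ℝ, Measurable ψ → (∃ C, ∀ z, |ψ z| ≤ C) →
    ContinuousOn (fun t => ∫ z, F t z * ψ z) (Ici 0)
  init : F 0 =ᵐ[volume] F₀
  bound : ∀ T : ℝ, ∃ C : ℝ≥0∞, C < ⊤ ∧ ∀ t ∈ Icc 0 T, Mom (F t) ≤ C
  gainInt : ∀ T : ℝ, ∫⁻ t in Ioc 0 T, ∫⁻ z : Ph,
    Qp (fun v => F t (z.1, v)) z.2 / ENNReal.ofReal (1 + F t z / Mx z.2) < ⊤
  lossInt : ∀ T : ℝ, ∫⁻ t in Ioc 0 T, ∫⁻ z : Ph,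
    Qm (fun v => F t (z.1, v)) z.2 / ENNReal.ofReal (1 + F t z / Mx z.2) < ⊤
  renorm : ∀ β β', IsRen β β' → ∀ φ, IsTest φ →
    (∫ t in Ioi (0 : ℝ), ∫ z : Ph, Mx z.2 * β (F t z / Mx z.2) * trans φ t z)
      + (∫ z : Ph, Mx z.2 * β (F₀ z / Mx z.2) * φ 0 z.1 z.2)
      + (∫ t in Ioi (0 : ℝ), ∫ z : Ph, β' (F t z / Mx z.2) *
          ((Qp (fun v => F t (z.1, v)) z.2).toReal - (Qm (fun v => F t (z.1, v)) z.2).toReal)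
          * φ t z.1 z.2) = 0
  mass : ∀ φ, IsTestX φ →
    (∫ t in Ioi (0 : ℝ), ∫ x : T3, ((∫ v, F t (x, v)) * dT φ t x
        + ∑ i, (∫ v, v i * F t (x, v)) * dX i φ t x))
      + (∫ x : T3, (∫ v, F₀ (x, v)) * φ 0 x) = 0
  momentum : ∀ t, 0 ≤ t → ∀ i, ∫ z : Ph, z.2 i * F t z = ∫ z : Ph, z.2 i * F₀ z
  energy : ∀ t, 0 ≤ t → ∫⁻ z : Ph, ENNReal.ofReal (‖z.2‖ ^ 2 * F t z)
    ≤ ∫⁻ z : Ph, ENNReal.ofReal (‖z.2‖ ^ 2 * F₀ z)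
  entropy : ∀ t, 0 ≤ t → Hm (F t) + ∫⁻ s in Ioc 0 t, Dis (F s) ≤ Hm F₀

theorem IsSol.isSolution {F₀ : Ph → ℝ} {F : ℝ → Ph → ℝ} (h : IsSol F₀ F) : IsSolution F₀ F :=
  ⟨h.meas, h.nonneg, h.integrable, h.weakCont, h.init, h.bound, h.gainInt, h.lossInt, h.renorm,
    h.mass, h.momentum, h.energy, h.entropy⟩

end

end Vale.Agent.P140
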