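import Vale.Agent.P140.Renorm
import Vale.Agent.P140.Bal

/-! The stability theorem. -/

namespace Vale.Agent.P140

open MeasureTheory Set Filter Topology
open scoped ENNReal RealInnerProductSpace

noncomputable section

theorem Seq.exists_sol {F₀ : Ph → ℝ} (S : Seq F₀) : ∃ (U : Ultrafilter ℕ) (F : ℝ → Ph → ℝ),
    (U : Filter ℕ) ≤ atTop ∧ IsSol F₀ F ∧
      ∀ t, 0 ≤ t → WeakConv volume (U : Filter ℕ) (fun k => S.F k t) (F t) := by
  obtain ⟨U, F, h⟩ := S.exists_lim
  exact ⟨U, F, h.le, ⟨h.meas, h.nonneg, h.int, fun _ hψ hC => h.weakCont hψ hC, h.init, h.bound,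
    h.gainInt, h.lossInt, fun _ _ hβ _ hφ => h.renorm hβ hφ, fun _ hφ => h.mass hφ,
    fun _ ht i => h.momentum ht i, fun _ ht => h.energy ht, fun _ ht => h.entropy ht⟩, h.weak⟩

end

end Vale.Agent.P140
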