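import Vale.Agent.P140.Limit

/-! Lower semicontinuity of the entropy. -/

namespace Vale.Agent.P140

open MeasureTheory Set Filter Topology
open scoped ENNReal RealInnerProductSpace

noncomputable section

variable {F₀ : Ph → ℝ} {S : Seq F₀} {U : Ultrafilter ℕ} {F : ℝ → Ph → ℝ}

/-- Clipping to `[1/L, L]`. -/
def entrZ (L G : ℝ) : ℝ := max (1 / L) (min G L)

theorem entr_pos {L : ℝ} (hL : 1 ≤ L) (G : ℝ) : 0 < entrZ L G :=
  lt_of_lt_of_le (by positivity) (le_max_left _ _)

theorem entr_inv_le {L : ℝ} (hL : 1 ≤ L) : 1 / L ≤ 1 := (div_le_one (by linarith)).2 hL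

theorem entr_le {L : ℝ} (hL : 1 ≤ L) (G : ℝ) : entrZ L G ≤ L :=
  max_le ((entr_inv_le hL).trans hL) (min_le_right _ _)

theorem entr_log {L : ℝ} (hL : 1 ≤ L) (G : ℝ) : |Real.log (entrZ L G)| ≤ Real.log L := by
  refine abs_le.2 ⟨?_, Real.log_le_log (entr_pos hL G) (entr_le hL G)⟩
  rw [← Real.log_inv, ← one_div]
  exact Real.log_le_log (by positivity) (le_max_left _ _)

theorem entr_nonneg {L : ℝ} (hL : 1 ≤ L) (G : ℝ) :
    0 ≤ G * Real.log (entrZ L G) - entrZ L G + 1 := by
  have h0 := entr_pos hL G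
  have h1 : 0 ≤ (G - entrZ L G) * Real.log (entrZ L G) := by
    unfold entrZ
    rcases le_total G (1 / L) with h | h
    · rw [max_eq_left ((min_le_left _ _).trans h)]
      exact mul_nonneg_of_nonpos_of_nonpos (by linarith)
        (Real.log_nonpos (by positivity) (entr_inv_le hL))
    · rcases le_total G L with h' | h'
      · rw [min_eq_left h', max_eq_right h, sub_self, zero_mul]
      · rw [min_eq_right h', max_eq_right ((entr_inv_le hL).trans hL)]
        exact mul_nonneg (by linarith) (Real.log_nonneg hL)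
  have h2 := mul_le_mul_of_nonneg_left (Real.one_sub_inv_le_log_of_pos h0) h0.le
  rw [mul_sub, mul_inv_cancel₀ h0.ne'] at h2
  linarith

theorem entr_lim {G : ℝ} (hG : 0 ≤ G) : Tendsto (fun m : ℕ =>
    G * Real.log (entrZ ((m : ℝ) + 1) G) - entrZ ((m : ℝ) + 1) G + 1) atTop
      (𝓝 (G * Real.log G - G + 1)) := by
  have h1 := tendsto_one_div_add_atTop_nhds_zero_nat (𝕜 := ℝ)
  rcases hG.eq_or_lt with rfl | h
  · have e : ∀ m : ℕ, entrZ ((m : ℝ) + 1) 0 = 1 / ((m : ℝ) + 1) := fun m =>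
      max_eq_left ((min_le_left _ _).trans (by positivity))
    simp only [e, zero_mul]
    exact (h1.const_sub 0).add_const 1
  · refine tendsto_const_nhds.congr' ?_
    filter_upwards [h1.eventually_le_const h,
      (tendsto_natCast_atTop_atTop (R := ℝ)).eventually_ge_atTop G] with m h2 h3
    rw [entrZ, min_eq_left (by linarith), max_eq_right h2]

theorem entr_pt {n f m ζ L : ℝ} (hn : 0 < n) (hf : 0 ≤ f) (hm : 0 < m) (hζ : 0 < ζ) (hL : ζ ≤ L) :
    f * Real.log ζ + m * (2 - ζ) - L / n * f ≤ m * (eta n (f / m) + 1) := by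
  have h1 := mul_le_mul_of_nonneg_left (eta_tangent hn (div_nonneg hf hm.le) hζ) hm.le
  have h2 : 0 < 1 + ζ / n := by positivity
  have h3 : Real.log (1 + ζ / n) ≤ ζ / n := by
    linarith [Real.log_le_sub_one_of_pos h2]
  have h4 : n * Real.log (1 + ζ / n) ≤ ζ := by
    rwa [le_div_iff₀ hn, mul_comm] at h3
  have h5 : Real.log (1 + ζ / n) ≤ L / n := h3.trans (div_le_div_of_nonneg_right hL hn.le)
  have h6 := mul_le_mul_of_nonneg_left h4 hm.le
  have h7 := mul_le_mul_of_nonneg_right h5 hf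
  have h8 : m * (eta n ζ + Real.log (ζ / (1 + ζ / n)) * (f / m - ζ)) =
      m - m * (n * Real.log (1 + ζ / n)) + f * Real.log ζ - Real.log (1 + ζ / n) * f := by
    rw [Real.log_div hζ.ne' h2.ne', eta]
    field_simp
    ring
  rw [h8] at h1
  linarith

theorem entr_step (h : Lim S U F) {t : ℝ} (ht : 0 ≤ t) {L : ℝ} (hL : 1 ≤ L) :
    (∫⁻ z, ENNReal.ofReal (Mx z.2 * (F t z / Mx z.2 * Real.log (entrZ L (F t z / Mx z.2))
      - entrZ L (F t z / Mx z.2) + 1))) + 1
      ≤ liminf (fun k => HN (S.n k) (S.F k t)) (U : Filter ℕ) := by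
  set ζ : Ph → ℝ := fun z => entrZ L (F t z / Mx z.2) with hζ
  have mM : Measurable fun z : Ph => Mx z.2 := continuous_Mx.measurable.comp measurable_snd
  have mζ : Measurable ζ :=
    measurable_const.max (((h.meas_t t).div mM).min measurable_const)
  have iM : Integrable fun z : Ph => Mx z.2 := by simpa using integrable_pow_Mx_Ph 0
  have eM : ∫ z : Ph, Mx z.2 = 1 := by
    rw [← ENNReal.ofReal_eq_one, ofReal_integral_eq_lintegral_ofReal iM
      (ae_of_all _ fun z => (Mx_pos _).le), lintegral_Mx_Ph]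
  have bl : ∀ z, |Real.log (ζ z)| ≤ Real.log L := fun z => entr_log hL _
  have i1 : Integrable fun z : Ph => Mx z.2 * (1 - ζ z) :=
    w0_int iM (measurable_const.sub mζ) (C := 1 + L) fun z => by
      have h1 : 0 < ζ z := entr_pos hL _
      have h2 : ζ z ≤ L := entr_le hL _
      exact abs_le.2 ⟨by linarith, by linarith⟩
  have ik : ∀ k, Integrable (S.F k t) := fun k => (S.appr k).integrable ht
  have t1 := h.weak t ht _ mζ.log ⟨_, bl⟩
  have t2 := h.weak t ht (fun _ => 1) measurable_const ⟨1, fun _ => by simp⟩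
  simp only [mul_one] at t2
  have t3 : Tendsto (fun k => L / S.n k) (U : Filter ℕ) (𝓝 0) :=
    (S.n_tendsto.const_div_atTop L).mono_left h.le
  have t4 := ENNReal.tendsto_ofReal
    (((t1.add_const (∫ z : Ph, Mx z.2 * (1 - ζ z))).add_const 1).sub (t3.mul t2))
  have e1 : ∀ z : Ph, Mx z.2 * (F t z / Mx z.2 * Real.log (ζ z) - ζ z + 1) =
      F t z * Real.log (ζ z) + Mx z.2 * (1 - ζ z) := fun z => by
    have := (Mx_pos z.2).ne'
    field_simp
    ring
  have p1 : ∀ z : Ph, 0 ≤ F t z * Real.log (ζ z) + Mx z.2 * (1 - ζ z) := fun z => by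
    rw [← e1]
    exact mul_nonneg (Mx_pos _).le (entr_nonneg hL _)
  have i2 := w0_int (h.int t ht) mζ.log bl
  change (∫⁻ z, ENNReal.ofReal (Mx z.2 * (F t z / Mx z.2 * Real.log (ζ z) - ζ z + 1))) + 1 ≤ _
  simp only [e1]
  have i6 : Integrable fun z : Ph => F t z * Real.log (ζ z) + Mx z.2 * (1 - ζ z) := i2.add i1
  rw [← ofReal_integral_eq_lintegral_ofReal i6 (ae_of_all _ p1), ← ENNReal.ofReal_one,
    ← ENNReal.ofReal_add (integral_nonneg p1) zero_le_one, integral_add i2 i1]
  rw [zero_mul, sub_zero] at t4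
  rw [← t4.liminf_eq]
  refine liminf_le_liminf (Eventually.of_forall fun k => ?_)
  have i3 := w0_int (ik k) mζ.log bl
  have i4 : Integrable fun z : Ph => S.F k t z * Real.log (ζ z) + Mx z.2 * (1 - ζ z) := i3.add i1
  have i5 : Integrable fun z : Ph => S.F k t z * Real.log (ζ z) + Mx z.2 * (1 - ζ z) + Mx z.2 :=
    i4.add iM
  have e2 := integral_add i4 iM
  rw [eM] at e2
  rw [← integral_add i3 i1, ← e2, ← integral_const_mul, ← integral_sub i5 ((ik k).const_mul _)]
  have hle : ∀ z : Ph, S.F k t z * Real.log (ζ z) + Mx z.2 * (1 - ζ z) + Mx z.2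
      - L / S.n k * S.F k t z ≤ Mx z.2 * (eta (S.n k) (S.F k t z / Mx z.2) + 1) := fun z => by
    have := entr_pt (S.pos k) ((S.appr k).nonneg t z) (Mx_pos z.2) (entr_pos hL (F t z / Mx z.2))
      (entr_le hL _)
    change _ * Real.log (ζ z) + _ * (2 - ζ z) - _ ≤ _ at this
    linarith
  have i7 : Integrable fun z : Ph => S.F k t z * Real.log (ζ z) + Mx z.2 * (1 - ζ z) + Mx z.2
      - L / S.n k * S.F k t z := i5.sub ((ik k).const_mul _)
  refine le_trans (ENNReal.ofReal_le_ofReal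
    (integral_mono i7 i7.pos_part fun z => le_max_left _ 0)) ?_
  rw [ofReal_integral_eq_lintegral_ofReal i7.pos_part (ae_of_all _ fun z => le_max_right _ 0)]
  refine lintegral_mono fun z => ENNReal.ofReal_le_ofReal (max_le (hle z) ?_)
  exact mul_nonneg (Mx_pos _).le (eta_add_one_nonneg (S.two_le k)
    (div_nonneg ((S.appr k).nonneg t z) (Mx_pos _).le))

theorem Lim.entr (h : Lim S U F) {t : ℝ} (ht : 0 ≤ t) :
    Hm (F t) + 1 ≤ liminf (fun k => HN (S.n k) (S.F k t)) (U : Filter ℕ) := by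
  have hL : ∀ m : ℕ, (1 : ℝ) ≤ m + 1 := fun m => le_add_of_nonneg_left (Nat.cast_nonneg m)
  have h1 := fun m : ℕ => entr_step h ht (hL m)
  refine add_le_of_le_tsub_right_of_le (le_add_self.trans (h1 0)) ?_
  have mM : Measurable fun z : Ph => Mx z.2 := continuous_Mx.measurable.comp measurable_snd
  have mG : Measurable fun z : Ph => F t z / Mx z.2 := (h.meas_t t).div mM
  have mζ : ∀ L, Measurable fun z : Ph => entrZ L (F t z / Mx z.2) := fun L =>
    measurable_const.max (mG.min measurable_const)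
  have h2 := lintegral_liminf_le (μ := (volume : Measure Ph)) (u := atTop)
    (f := fun (m : ℕ) (z : Ph) => ENNReal.ofReal (Mx z.2 * (F t z / Mx z.2 *
      Real.log (entrZ ((m : ℝ) + 1) (F t z / Mx z.2)) - entrZ ((m : ℝ) + 1) (F t z / Mx z.2) + 1)))
    fun m => (mM.mul (((mG.mul (mζ _).log).sub (mζ _)).add_const 1)).ennreal_ofReal
  refine le_trans (le_of_eq (lintegral_congr fun z => ?_)) (h2.trans ?_)
  · rw [(ENNReal.tendsto_ofReal ((entr_lim (div_nonneg (h.nonneg t z)
      (Mx_pos z.2).le)).const_mul (Mx z.2))).liminf_eq]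
    have := (Mx_pos z.2).ne'
    have e : Mx z.2 * (F t z / Mx z.2 * Real.log (F t z / Mx z.2) - F t z / Mx z.2 + 1) =
        F t z * Real.log (F t z / Mx z.2) - F t z + Mx z.2 := by
      field_simp
    rw [e]
  · exact liminf_le_of_frequently_le' (Frequently.of_forall fun m =>
      ENNReal.le_sub_of_add_le_right ENNReal.one_ne_top (h1 m))

end

end Vale.Agent.P140
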