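import Vale.Agent.P140.QApi
import Vale.Agent.P140.Ode

/-! Existence and stability for the labelled regularized system. -/

namespace Vale.Agent.P140

open MeasureTheory Set Filter Topology
open scoped ENNReal RealInnerProductSpace

noncomputable section

namespace ExistAux

theorem int_exp_le {q : ℝ → ℝ} {A L t₀ t : ℝ} (hL : 0 < L) (hA : 0 ≤ A)
    (hq : ∀ s ∈ Ioc t₀ t, |q s| ≤ A * Real.exp (2 * L * (s - t₀))) :
    |∫ s in Ioc t₀ t, q s| ≤ A / (2 * L) * Real.exp (2 * L * (t - t₀)) := by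
  rcases le_or_gt t₀ t with h | h
  · have hc : Continuous fun s => A * Real.exp (2 * L * (s - t₀)) := by fun_prop
    have h1 : |∫ s in Ioc t₀ t, q s| ≤ ∫ s in Ioc t₀ t, A * Real.exp (2 * L * (s - t₀)) := by
      rw [← Real.norm_eq_abs]
      exact norm_integral_le_of_norm_le (hc.integrableOn_Ioc)
        ((ae_restrict_iff' measurableSet_Ioc).mpr (ae_of_all _ hq))
    have h2 : ∀ s ∈ uIcc t₀ t, HasDerivAt (fun s => A / (2 * L) * Real.exp (2 * L * (s - t₀)))
        (A * Real.exp (2 * L * (s - t₀))) s := fun s _ => by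
      have h3 := ((((hasDerivAt_id s).sub_const t₀).const_mul (2 * L)).exp).const_mul
        (A / (2 * L))
      refine h3.congr_deriv ?_
      simp only [id]
      field_simp
    have h3 := intervalIntegral.integral_eq_sub_of_hasDerivAt h2 (hc.intervalIntegrable _ _)
    rw [intervalIntegral.integral_of_le h] at h3
    have h4 : 0 ≤ A / (2 * L) * Real.exp (2 * L * (t₀ - t₀)) := by positivity
    linarith
  · rw [Ioc_eq_empty (not_lt.mpr h.le), Measure.restrict_empty, integral_zero_measure, abs_zero]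
    positivity

theorem intOn_bdd {q : ℝ → ℝ} (hq : Measurable q) {C : ℝ} (hC : ∀ s, |q s| ≤ C) (a b : ℝ) :
    IntegrableOn q (Ioc a b) :=
  Integrable.of_bound hq.aestronglyMeasurable C (ae_of_all _ hC)

theorem intInt_bdd {q : ℝ → ℝ} (hq : Measurable q) {C : ℝ} (hC : ∀ s, |q s| ≤ C) (a b : ℝ) :
    IntervalIntegrable q volume a b :=
  ⟨intOn_bdd hq hC a b, intOn_bdd hq hC b a⟩

theorem meas_prim {Y : Type} [MeasurableSpace Y] {q : ℝ × Y → ℝ} (hq : Measurable q) (t₀ : ℝ) :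
    Measurable fun p : ℝ × Y => ∫ s in Ioc t₀ p.1, q (s, p.2) := by
  have hs : MeasurableSet {r : (ℝ × Y) × ℝ | t₀ < r.2 ∧ r.2 ≤ r.1.1} :=
    (measurableSet_lt measurable_const measurable_snd).inter
      (measurableSet_le measurable_snd measurable_fst.fst)
  have h1 : Measurable fun r : (ℝ × Y) × ℝ =>
      {r : (ℝ × Y) × ℝ | t₀ < r.2 ∧ r.2 ≤ r.1.1}.indicator (fun r => q (r.2, r.1.2)) r :=
    (hq.comp (measurable_snd.prodMk measurable_fst.snd)).indicator hs
  have h2 := (h1.stronglyMeasurable.integral_prod_right' (ν := volume)).measurable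
  refine (congrArg Measurable (funext fun p => ?_)).mp h2
  rw [← integral_indicator measurableSet_Ioc]
  rfl

/-- Picard iteration in a weighted space of measurable functions. -/
theorem picard {ι Y : Type} [MeasurableSpace Y] {W : Y → ℝ} (hW : ∀ y, 0 ≤ W y) {K L : ℝ}
    (hK : 0 ≤ K) (hL : 0 < L) (N : ℝ → (ι → Y → ℝ) → ι → Y → ℝ)
    (hm : ∀ g : ℝ → ι → Y → ℝ, (∀ i, Measurable fun p : ℝ × Y => g p.1 i p.2) →
      ∀ i, Measurable fun p : ℝ × Y => N p.1 (g p.1) i p.2)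
    (hb : ∀ s g, (∀ i, Measurable (g i)) → ∀ i y, |N s g i y| ≤ K * W y)
    (hl : ∀ s g g' δ, (∀ i, Measurable (g i)) → (∀ i, Measurable (g' i)) →
      (∀ i y, |g i y - g' i y| ≤ δ * W y) → ∀ i y, |N s g i y - N s g' i y| ≤ L * δ * W y)
    (t₀ : ℝ) {g₀ : ι → Y → ℝ} (h₀ : ∀ i, Measurable (g₀ i)) :
    ∃ g : ℝ → ι → Y → ℝ, (∀ i, Measurable fun p : ℝ × Y => g p.1 i p.2) ∧
      ∀ t i y, g t i y = g₀ i y + ∫ s in Ioc t₀ t, N s (g s) i y := by
  let Φ : (ℝ → ι → Y → ℝ) → ℝ → ι → Y → ℝ := fun g t i y =>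
    g₀ i y + ∫ s in Ioc t₀ t, N s (g s) i y
  let Ms : (ℝ → ι → Y → ℝ) → Prop := fun g => ∀ i, Measurable fun p : ℝ × Y => g p.1 i p.2
  have hsl : ∀ g, Ms g → ∀ s i, Measurable (g s i) := fun g hg s i =>
    (hg i).comp measurable_prodMk_left
  have hΦ : ∀ g, Ms g → Ms (Φ g) := fun g hg i =>
    ((h₀ i).comp measurable_snd).add (meas_prim (hm g hg i) t₀)
  have hint : ∀ g, Ms g → ∀ t i y, IntegrableOn (fun s => N s (g s) i y) (Ioc t₀ t) :=
    fun g hg t i y => intOn_bdd ((hm g hg i).comp measurable_prodMk_right)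
      (fun s => hb s _ (hsl g hg s) i y) _ _
  have hcon : ∀ g g' A, 0 ≤ A → Ms g → Ms g' →
      (∀ t i y, |g t i y - g' t i y| ≤ A * Real.exp (2 * L * (t - t₀)) * W y) →
      ∀ t i y, |Φ g t i y - Φ g' t i y| ≤ A / 2 * Real.exp (2 * L * (t - t₀)) * W y := by
    intro g g' A hA hg hg' h t i y
    have h1 : Φ g t i y - Φ g' t i y
        = ∫ s in Ioc t₀ t, (N s (g s) i y - N s (g' s) i y) := by
      rw [integral_sub (hint g hg t i y) (hint g' hg' t i y)]
      simp only [Φ]; ring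
    have h2 := int_exp_le (A := L * A * W y) (t₀ := t₀) (t := t)
      (q := fun s => N s (g s) i y - N s (g' s) i y) hL
      (mul_nonneg (mul_nonneg hL.le hA) (hW y)) fun s _ =>
        (hl s _ _ _ (hsl g hg s) (hsl g' hg' s) (h s) i y).trans (le_of_eq (by ring))
    rw [h1]
    refine h2.trans (le_of_eq ?_)
    field_simp
  let u : ℕ → ℝ → ι → Y → ℝ := fun m => Φ^[m] fun _ => g₀
  have hu : ∀ m, u (m + 1) = Φ (u m) := fun m => Function.iterate_succ_apply' _ _ _
  have hum : ∀ m, Ms (u m) := fun m => by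
    induction m with
    | zero => exact fun i => (h₀ i).comp measurable_snd
    | succ m ih => rw [hu]; exact hΦ _ ih
  set B := K / (2 * L) with hB
  have hB0 : 0 ≤ B := by positivity
  have hd : ∀ m t i y, |u m t i y - u (m + 1) t i y|
      ≤ B / 2 ^ m * Real.exp (2 * L * (t - t₀)) * W y := fun m => by
    induction m with
    | zero =>
      intro t i y
      have h1 : u 0 t i y - u (0 + 1) t i y = -∫ s in Ioc t₀ t, N s g₀ i y := by
        rw [hu]; simp [u, Φ]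
      have h2 := int_exp_le (A := K * W y) (t₀ := t₀) (t := t)
        (q := fun s => N s g₀ i y) hL (mul_nonneg hK (hW y)) fun s hs =>
          (hb s _ h₀ i y).trans (le_mul_of_one_le_right (mul_nonneg hK (hW y))
            (Real.one_le_exp (mul_nonneg (by positivity) (sub_nonneg.mpr hs.1.le))))
      rw [h1, abs_neg]
      refine h2.trans (le_of_eq ?_)
      rw [hB]; ring
    | succ m ih =>
      intro t i y
      have h1 := hcon _ _ _ (by positivity) (hum m) (hum (m + 1)) ih t i y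
      rw [← hu, ← hu] at h1
      refine h1.trans (le_of_eq ?_)
      ring
  have hd' : ∀ t i y m, dist (u m t i y) (u (m + 1) t i y)
      ≤ 2 * B * Real.exp (2 * L * (t - t₀)) * W y / 2 / 2 ^ m := fun t i y m =>
    (hd m t i y).trans (le_of_eq (by ring))
  choose g hg using fun t i y =>
    cauchySeq_tendsto_of_complete (cauchySeq_of_le_geometric_two (hd' t i y))
  have hgm : Ms g := fun i => measurable_of_tendsto_metrizable (fun m => hum m i)
    (tendsto_pi_nhds.mpr fun p => hg p.1 i p.2)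
  refine ⟨g, hgm, fun t i y => ?_⟩
  have h1 : ∀ m t i y, |u m t i y - g t i y|
      ≤ 2 * B / 2 ^ m * Real.exp (2 * L * (t - t₀)) * W y := fun m t i y =>
    (dist_le_of_le_geometric_two_of_tendsto (hd' t i y) (hg t i y) m).trans (le_of_eq (by ring))
  have h2 : Tendsto (fun m => u (m + 1) t i y) atTop (𝓝 (Φ g t i y)) := by
    rw [tendsto_iff_dist_tendsto_zero]
    have h3 : Tendsto (fun m : ℕ => B * Real.exp (2 * L * (t - t₀)) * W y * (1 / 2) ^ m)
        atTop (𝓝 0) := by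
      simpa using (tendsto_pow_atTop_nhds_zero_of_lt_one (r := (1 / 2 : ℝ)) (by norm_num)
        (by norm_num)).const_mul (B * Real.exp (2 * L * (t - t₀)) * W y)
    refine squeeze_zero (fun _ => dist_nonneg) (fun m => ?_) h3
    rw [hu]
    refine (hcon _ _ _ (by positivity) (hum m) hgm (h1 m) t i y).trans (le_of_eq ?_)
    rw [one_div, inv_pow]
    ring
  exact tendsto_nhds_unique ((tendsto_add_atTop_iff_nat 1).mpr (hg t i y)) h2

/-- Nonnegativity along a characteristic. -/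
theorem nonneg_of_mild {y q l : ℝ → ℝ} {A B C y₀ t₀ : ℝ} (hy : Measurable y)
    (hq : Measurable q) (hl : Measurable l) (bq : ∀ s, |q s| ≤ A) (bl : ∀ s, |l s| ≤ B)
    (bN : ∀ s, |q s - l s * max (y s) 0| ≤ C) (q0 : ∀ s, 0 ≤ q s) (y0 : 0 ≤ y₀)
    (heq : ∀ t, y t = y₀ + ∫ s in Ioc t₀ t, (q s - l s * max (y s) 0)) (t : ℝ) : 0 ≤ y t := by
  rcases le_or_gt t₀ t with h | h
  · let l' : ℝ → ℝ := fun s => if 0 < y s then l s else 0
    have hl' : Measurable l' := hl.ite (measurableSet_lt measurable_const hy) measurable_const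
    have bl' : ∀ s, |l' s| ≤ B := fun s => by
      by_cases h1 : 0 < y s
      · simpa [l', h1] using bl s
      · simpa [l', h1] using (abs_nonneg _).trans (bl s)
    have h1 : (fun s => q s - l s * max (y s) 0) = fun s => q s - l' s * y s := by
      ext s
      by_cases h1 : 0 < y s
      · simp [l', h1, h1.le]
      · simp [l', h1, not_lt.mp h1]
    have h0 : y t₀ = y₀ := by simp [heq t₀]
    have hP : Prim y (fun s => q s - l' s * y s) t₀ t := by
      rw [← h1]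
      refine ⟨h, intInt_bdd (hq.sub (hl.mul (hy.max measurable_const))) bN _ _, fun s hs => ?_⟩
      rw [h0, intervalIntegral.integral_of_le hs.1, heq s]
    rw [hP.expForm (intInt_bdd hl' bl' _ _) (intInt_bdd hq bq _ _) t ⟨h, le_rfl⟩, h0]
    exact add_nonneg (mul_nonneg y0 (Real.exp_pos _).le)
      (intervalIntegral.integral_nonneg h fun s _ => mul_nonneg (q0 s) (Real.exp_pos _).le)
  · rw [heq, Ioc_eq_empty (not_lt.mpr h.le)]
    simpa using y0

/-- Two functions dominated by `A M` whose difference is dominated by `δ M`. -/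
structure Cl (A δ : ℝ) (a a' : Ph → ℝ) : Prop where
  l : ∀ x, BddV A (sl a x)
  r : ∀ x, BddV A (sl a' x)
  d : ∀ x, BddV δ (fun v => sl a x v - sl a' x v)

section Est

variable {n δ : ℝ} {a a' b b' F F' f f' : Ph → ℝ}

theorem reg_alg {m F F' f f' d : ℝ} (hm : 0 < m) (h0 : 0 ≤ f) (hf : f ≤ F) (h0' : 0 ≤ f')
    (hf' : f' ≤ F') (h1 : |f - f'| ≤ d) (h2 : |F - F'| ≤ d) :
    |1 / (1 + F / m) * f - 1 / (1 + F' / m) * f'| ≤ 2 * d := by
  have hF : 0 < m + F := by linarith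
  have hF' : 0 < m + F' := by linarith
  have h3 : 1 / (1 + F / m) * f - 1 / (1 + F' / m) * f'
      = m / (m + F) * (f - f') - m / (m + F) * (f' / (m + F')) * (F - F') := by
    field_simp
    ring
  have h4 : |m / (m + F)| ≤ 1 := by
    rw [abs_of_nonneg (by positivity), div_le_one hF]; linarith
  have h5 : |f' / (m + F')| ≤ 1 := by
    rw [abs_of_nonneg (by positivity), div_le_one hF']; linarith
  have h6 : |m / (m + F) * (f - f')| ≤ 1 * d := by
    rw [abs_mul]; exact mul_le_mul h4 h1 (abs_nonneg _) zero_le_one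
  have h7 : |m / (m + F) * (f' / (m + F')) * (F - F')| ≤ 1 * d := by
    rw [abs_mul, abs_mul]
    exact mul_le_mul (mul_le_one₀ h4 (abs_nonneg _) h5) h2 (abs_nonneg _) zero_le_one
  rw [h3]
  linarith [abs_sub (m / (m + F) * (f - f')) (m / (m + F) * (f' / (m + F')) * (F - F'))]

theorem cl_reg (hn : 0 < n) (mF : Measurable F) (mF' : Measurable F') (mf : Measurable f)
    (mf' : Measurable f') (h0 : ∀ z, 0 ≤ f z) (hf : ∀ z, f z ≤ F z) (h0' : ∀ z, 0 ≤ f' z)
    (hf' : ∀ z, f' z ≤ F' z) (h1 : ∀ z, |f z - f' z| ≤ δ * Mx z.2)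
    (h2 : ∀ z, |F z - F' z| ≤ δ * Mx z.2) : Cl n (2 * δ) (reg n F f) (reg n F' f') := by
  refine ⟨bddV_reg hn mF mf h0 hf, bddV_reg hn mF' mf' h0' hf', fun x =>
    ⟨(bddV_reg hn mF mf h0 hf x).meas.sub (bddV_reg hn mF' mf' h0' hf' x).meas, fun v => ?_⟩⟩
  rw [mul_assoc]
  exact reg_alg (mul_pos hn (Mx_pos v)) (h0 _) (hf _) (h0' _) (hf' _) (h1 (x, v)) (h2 (x, v))

theorem gain_le (hn : 0 < n) (ha : Cl n δ a a') (hb : Cl n δ b b') (z : Ph) :
    |gainN n a b z| ≤ 4 * Real.pi * n * n * n * Mx z.2 :=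
  abs_QN_le hn.le (ha.l _) (hb.l _) _

theorem gain_lip (hn : 0 < n) (ha : Cl n δ a a') (hb : Cl n δ b b') (z : Ph) :
    |gainN n a b z - gainN n a' b' z| ≤ 8 * Real.pi * n * n * δ * Mx z.2 := by
  have h1 := abs_QN_le hn.le (ha.d z.1) (hb.l z.1) z.2
  have h2 := abs_QN_le hn.le (ha.r z.1) (hb.d z.1) z.2
  rw [QN_sub_left hn.le (ha.l _) (ha.r _) (hb.l _)] at h1
  rw [QN_sub_right hn.le (ha.r _) (hb.l _) (hb.r _)] at h2
  have h3 := abs_sub_le (gainN n a b z) (gainN n a' b z) (gainN n a' b' z)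
  unfold gainN at h3 ⊢
  linarith

theorem loss_le (hn : 0 < n) (ha : Cl n δ a a') (hb : Cl n δ b b') (z : Ph) :
    |a z * rateN n b z| ≤ 4 * Real.pi * n * n * n * Mx z.2 := by
  rw [abs_mul]
  exact (mul_le_mul ((ha.l z.1).le z.2) (abs_nuN_le hn.le (hb.l z.1) z.2) (abs_nonneg _)
    (mul_pos hn (Mx_pos _)).le).trans (le_of_eq (by ring))

theorem loss_lip (hn : 0 < n) (ha : Cl n δ a a') (hb : Cl n δ b b') (z : Ph) :
    |a z * rateN n b z - a' z * rateN n b' z| ≤ 8 * Real.pi * n * n * δ * Mx z.2 := by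
  have h1 : |a z - a' z| ≤ δ * Mx z.2 := (ha.d z.1).le z.2
  have h2 : |rateN n b z| ≤ 4 * Real.pi * n * n := abs_nuN_le hn.le (hb.l z.1) z.2
  have h3 : |a' z| ≤ n * Mx z.2 := (ha.r z.1).le z.2
  have h4 : |rateN n b z - rateN n b' z| ≤ 4 * Real.pi * n * δ := by
    have h5 := abs_nuN_le hn.le (hb.d z.1) z.2
    rwa [nuN_sub hn.le (hb.l _) (hb.r _)] at h5
  have h5 := mul_le_mul h1 h2 (abs_nonneg _) ((abs_nonneg _).trans h1)
  have h6 := mul_le_mul h3 h4 (abs_nonneg _) ((abs_nonneg _).trans h3)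
  rw [← abs_mul] at h5 h6
  have h7 : a z * rateN n b z - a' z * rateN n b' z
      = (a z - a' z) * rateN n b z + a' z * (rateN n b z - rateN n b' z) := by ring
  rw [h7]
  linarith [abs_add_le ((a z - a' z) * rateN n b z) (a' z * (rateN n b z - rateN n b' z))]

end Est

/-- Total of the three labels. -/
def tt (p : Fin 3 → Ph → ℝ) (z : Ph) : ℝ := p 0 z + p 1 z + p 2 z

/-- Sum of the first two labels. -/
def tw (p : Fin 3 → Ph → ℝ) (z : Ph) : ℝ := p 0 z + p 1 z

/-- The three gains. -/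
def Gn (n : ℝ) (p : Fin 3 → Ph → ℝ) : Fin 3 → Ph → ℝ :=
  ![fun _ => 0, gainN n (reg n (tt p) (tw p)) (reg n (tt p) (tw p)),
    fun z => gainN n (til n (tt p)) (reg n (tt p) (p 2)) z
      + gainN n (reg n (tt p) (p 2)) (reg n (tt p) (tw p)) z]

/-- The three right-hand sides. -/
def NP (n : ℝ) (p : Fin 3 → Ph → ℝ) (i : Fin 3) (z : Ph) : ℝ :=
  Gn n p i z - lam n (tt p) z * p i z

/-- Positive parts, transported back. -/
def pos (s : ℝ) (g : Fin 3 → Ph → ℝ) (i : Fin 3) (z : Ph) : ℝ := max (g i (fl (-s) z)) 0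

section Sys

variable {n δ : ℝ} {p p' : Fin 3 → Ph → ℝ}

theorem le_tt (h0 : ∀ i z, 0 ≤ p i z) (i : Fin 3) (z : Ph) : p i z ≤ tt p z := by
  have h1 := h0 0 z
  have h2 := h0 1 z
  have h3 := h0 2 z
  fin_cases i <;> simp only [tt, Fin.zero_eta, Fin.mk_one, Fin.reduceFinMk] <;> linarith

theorem tt_nonneg (h0 : ∀ i z, 0 ≤ p i z) (z : Ph) : 0 ≤ tt p z := (h0 0 z).trans (le_tt h0 0 z)

theorem tw_nonneg (h0 : ∀ i z, 0 ≤ p i z) (z : Ph) : 0 ≤ tw p z := add_nonneg (h0 0 z) (h0 1 z)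

theorem tw_le (h0 : ∀ i z, 0 ≤ p i z) (z : Ph) : tw p z ≤ tt p z :=
  le_add_of_nonneg_right (h0 2 z)

theorem meas_tt (hm : ∀ i, Measurable (p i)) : Measurable (tt p) :=
  ((hm 0).add (hm 1)).add (hm 2)

theorem meas_tw (hm : ∀ i, Measurable (p i)) : Measurable (tw p) := (hm 0).add (hm 1)

theorem cl_all (hn : 0 < n) (hm : ∀ i, Measurable (p i)) (hm' : ∀ i, Measurable (p' i))
    (h0 : ∀ i z, 0 ≤ p i z) (h0' : ∀ i z, 0 ≤ p' i z)
    (hd : ∀ i z, |p i z - p' i z| ≤ δ * Mx z.2) :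
    (∀ i, Cl n (2 * (3 * δ)) (reg n (tt p) (p i)) (reg n (tt p') (p' i))) ∧
    Cl n (2 * (3 * δ)) (reg n (tt p) (tw p)) (reg n (tt p') (tw p')) ∧
    Cl n (2 * (3 * δ)) (til n (tt p)) (til n (tt p')) := by
  have h1 : ∀ z, |tt p z - tt p' z| ≤ 3 * δ * Mx z.2 := fun z => by
    have h1 := abs_le.mp (hd 0 z)
    have h2 := abs_le.mp (hd 1 z)
    have h3 := abs_le.mp (hd 2 z)
    unfold tt
    rw [abs_le]
    constructor <;> linarith [h1.1, h1.2, h2.1, h2.2, h3.1, h3.2]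
  have h2 : ∀ z, |tw p z - tw p' z| ≤ 3 * δ * Mx z.2 := fun z => by
    have h1 := abs_le.mp (hd 0 z)
    have h2 := abs_le.mp (hd 1 z)
    unfold tw
    rw [abs_le]
    constructor <;> linarith [h1.1, h1.2, h2.1, h2.2]
  have h3 : ∀ i z, |p i z - p' i z| ≤ 3 * δ * Mx z.2 := fun i z => by
    linarith [hd i z, abs_nonneg (p i z - p' i z)]
  exact ⟨fun i => cl_reg hn (meas_tt hm) (meas_tt hm') (hm i) (hm' i) (h0 i) (le_tt h0 i) (h0' i)
      (le_tt h0' i) (h3 i) h1,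
    cl_reg hn (meas_tt hm) (meas_tt hm') (meas_tw hm) (meas_tw hm') (tw_nonneg h0) (tw_le h0)
      (tw_nonneg h0') (tw_le h0') h2 h1,
    cl_reg hn (meas_tt hm) (meas_tt hm') (meas_tt hm) (meas_tt hm') (tt_nonneg h0)
      (fun _ => le_rfl) (tt_nonneg h0') (fun _ => le_rfl) h1 h1⟩

theorem Gn_nonneg (hn : 0 < n) (h0 : ∀ i z, 0 ≤ p i z) (i : Fin 3) (z : Ph) :
    0 ≤ Gn n p i z := by
  have h1 : ∀ z, 0 ≤ reg n (tt p) (tw p) z := fun z =>
    reg_nonneg hn (tt_nonneg h0 z) (tw_nonneg h0 z)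
  have h2 : ∀ z, 0 ≤ reg n (tt p) (p 2) z := fun z => reg_nonneg hn (tt_nonneg h0 z) (h0 2 z)
  have h3 : ∀ z, 0 ≤ til n (tt p) z := fun z => til_nonneg hn (tt_nonneg h0 z)
  fin_cases i
  · exact le_rfl
  · exact QN_nonneg (fun _ => h1 _) (fun _ => h1 _) _
  · exact add_nonneg (QN_nonneg (fun _ => h3 _) (fun _ => h2 _) _)
      (QN_nonneg (fun _ => h2 _) (fun _ => h1 _) _)

theorem Gn_le (hn : 0 < n) (hm : ∀ i, Measurable (p i)) (h0 : ∀ i z, 0 ≤ p i z) (i : Fin 3)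
    (z : Ph) : |Gn n p i z| ≤ 8 * Real.pi * n * n * n * Mx z.2 := by
  obtain ⟨h1, h2, h3⟩ := cl_all (δ := 0) hn hm hm h0 h0 (by simp)
  have h4 := gain_le hn h2 h2 z
  have h5 := gain_le hn h3 (h1 2) z
  have h6 := gain_le hn (h1 2) h2 z
  fin_cases i
  · change |(0 : ℝ)| ≤ _
    linarith [abs_nonneg (gainN n (reg n (tt p) (tw p)) (reg n (tt p) (tw p)) z), abs_zero (α := ℝ)]
  · change |gainN n (reg n (tt p) (tw p)) (reg n (tt p) (tw p)) z| ≤ _
    linarith [abs_nonneg (gainN n (reg n (tt p) (tw p)) (reg n (tt p) (tw p)) z)]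
  · exact (abs_add_le _ _).trans (by linarith)

theorem NP_le (hn : 0 < n) (hm : ∀ i, Measurable (p i)) (h0 : ∀ i z, 0 ≤ p i z) (i : Fin 3)
    (z : Ph) : |NP n p i z| ≤ 12 * Real.pi * n * n * n * Mx z.2 := by
  obtain ⟨h1, -, h3⟩ := cl_all (δ := 0) hn hm hm h0 h0 (by simp)
  have h4 := loss_le hn (h1 i) h3 z
  have h5 := Gn_le hn hm h0 i z
  rw [NP, lam_mul]
  exact (abs_sub _ _).trans (by linarith)

theorem NP_lip (hn : 0 < n) (hm : ∀ i, Measurable (p i)) (hm' : ∀ i, Measurable (p' i))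
    (h0 : ∀ i z, 0 ≤ p i z) (h0' : ∀ i z, 0 ≤ p' i z)
    (hd : ∀ i z, |p i z - p' i z| ≤ δ * Mx z.2) (i : Fin 3) (z : Ph) :
    |NP n p i z - NP n p' i z| ≤ 144 * Real.pi * n * n * δ * Mx z.2 := by
  obtain ⟨h1, h2, h3⟩ := cl_all hn hm hm' h0 h0' hd
  have h4 := abs_le.mp (gain_lip hn h2 h2 z)
  have h5 := abs_le.mp (gain_lip hn h3 (h1 2) z)
  have h6 := abs_le.mp (gain_lip hn (h1 2) h2 z)
  have h7 := abs_le.mp (loss_lip hn (h1 i) h3 z)
  have h8 : |Gn n p i z - Gn n p' i z| ≤ 96 * Real.pi * n * n * δ * Mx z.2 := by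
    fin_cases i
    · change |(0 : ℝ) - 0| ≤ _
      rw [abs_le]
      constructor <;> linarith [h4.1, h4.2]
    · change |gainN n _ _ z - gainN n _ _ z| ≤ _
      rw [abs_le]
      constructor <;> linarith [h4.1, h4.2]
    · change |(gainN n _ _ z + gainN n _ _ z) - (gainN n _ _ z + gainN n _ _ z)| ≤ _
      rw [abs_le]
      constructor <;> linarith [h5.1, h5.2, h6.1, h6.2]
  rw [NP, NP, lam_mul, lam_mul]
  rw [abs_le] at h8 ⊢
  constructor <;> linarith [h7.1, h7.2, h8.1, h8.2]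

theorem meas_Gn {X : Type} [MeasurableSpace X] {p : X → Fin 3 → Ph → ℝ} {z : X → Ph}
    (hp : ∀ i, Measurable fun q : X × Ph => p q.1 i q.2) (hz : Measurable z) (i : Fin 3) :
    Measurable fun x => Gn n (p x) i (z x) := by
  have ht : Measurable fun q : X × Ph => tt (p q.1) q.2 := ((hp 0).add (hp 1)).add (hp 2)
  have hw : Measurable fun q : X × Ph => tw (p q.1) q.2 := (hp 0).add (hp 1)
  have lift : ∀ {f : X → Ph → ℝ}, Measurable (fun q : X × Ph => f q.1 q.2) →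
      Measurable fun r : (X × Ph) × Ph => f r.1.1 r.2 := fun hf =>
    hf.comp (measurable_fst.fst.prodMk measurable_snd)
  have h1 : Measurable fun q : X × Ph => reg n (tt (p q.1)) (tw (p q.1)) q.2 :=
    measurable_reg n (F := fun q : X × Ph => tt (p q.1)) (f := fun q : X × Ph => tw (p q.1))
      (lift (f := fun x => tt (p x)) ht) (lift (f := fun x => tw (p x)) hw) measurable_snd
  have h2 : Measurable fun q : X × Ph => reg n (tt (p q.1)) (p q.1 2) q.2 :=
    measurable_reg n (F := fun q : X × Ph => tt (p q.1)) (f := fun q : X × Ph => p q.1 2)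
      (lift (f := fun x => tt (p x)) ht) (lift (f := fun x => p x 2) (hp 2)) measurable_snd
  have h3 : Measurable fun q : X × Ph => til n (tt (p q.1)) q.2 :=
    measurable_til n (F := fun q : X × Ph => tt (p q.1))
      (lift (f := fun x => tt (p x)) ht) measurable_snd
  fin_cases i
  · exact measurable_const
  · exact measurable_gainN n (f := fun x => reg n (tt (p x)) (tw (p x)))
      (g := fun x => reg n (tt (p x)) (tw (p x))) h1 h1 hz
  · exact (measurable_gainN n (f := fun x => til n (tt (p x)))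
      (g := fun x => reg n (tt (p x)) (p x 2)) h3 h2 hz).add
      (measurable_gainN n (f := fun x => reg n (tt (p x)) (p x 2))
        (g := fun x => reg n (tt (p x)) (tw (p x))) h2 h1 hz)

theorem meas_lam {X : Type} [MeasurableSpace X] {p : X → Fin 3 → Ph → ℝ} {z : X → Ph}
    (hp : ∀ i, Measurable fun q : X × Ph => p q.1 i q.2) (hz : Measurable z) :
    Measurable fun x => lam n (tt (p x)) (z x) :=
  measurable_lam n (F := fun x => tt (p x)) (((hp 0).add (hp 1)).add (hp 2)) hz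

theorem meas_back {g : ℝ → Fin 3 → Ph → ℝ} (hg : ∀ i, Measurable fun q : ℝ × Ph => g q.1 i q.2)
    (i : Fin 3) : Measurable fun q : ℝ × Ph => g q.1 i (fl (-q.1) q.2) :=
  (hg i).comp (measurable_fst.prodMk
    (measurable_fl.comp (measurable_fst.neg.prodMk measurable_snd)))

theorem meas_pos {g : ℝ → Fin 3 → Ph → ℝ} (hg : ∀ i, Measurable fun q : ℝ × Ph => g q.1 i q.2)
    (i : Fin 3) : Measurable fun q : ℝ × Ph => pos q.1 (g q.1) i q.2 :=
  (meas_back hg i).max measurable_const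

theorem meas_pos' {g : Fin 3 → Ph → ℝ} (hg : ∀ i, Measurable (g i)) (s : ℝ) (i : Fin 3) :
    Measurable (pos s g i) :=
  ((hg i).comp (measurable_fl_right _)).max measurable_const

theorem pos_nonneg (s : ℝ) (g : Fin 3 → Ph → ℝ) (i : Fin 3) (z : Ph) : 0 ≤ pos s g i z :=
  le_max_right _ _

/-- Existence in characteristic coordinates. -/
theorem exists_lag (hn : 0 < n) (t₀ : ℝ) {g₀ : Fin 3 → Ph → ℝ} (h₀ : ∀ i, Measurable (g₀ i)) :
    ∃ g : ℝ → Fin 3 → Ph → ℝ, (∀ i, Measurable fun p : ℝ × Ph => g p.1 i p.2) ∧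
      ∀ t i y, g t i y = g₀ i y + ∫ s in Ioc t₀ t, NP n (pos s (g s)) i (fl s y) := by
  refine picard (W := fun z : Ph => Mx z.2) (fun z => (Mx_pos _).le)
    (K := 12 * Real.pi * n * n * n) (L := 144 * Real.pi * n * n) (by positivity) (by positivity)
    (fun s g i y => NP n (pos s g) i (fl s y)) ?_ ?_ ?_ t₀ h₀
  · intro g hg i
    have h1 : ∀ i, Measurable fun q : (ℝ × Ph) × Ph => pos q.1.1 (g q.1.1) i q.2 := fun i =>
      (meas_pos hg i).comp (measurable_fst.fst.prodMk measurable_snd)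
    exact (meas_Gn (p := fun x : ℝ × Ph => pos x.1 (g x.1)) h1 measurable_fl i).sub
      ((meas_lam (p := fun x : ℝ × Ph => pos x.1 (g x.1)) h1 measurable_fl).mul
        ((meas_pos hg i).comp (measurable_fst.prodMk measurable_fl)))
  · intro s g hg i y
    exact NP_le hn (meas_pos' hg s) (pos_nonneg s g) i (fl s y)
  · intro s g g' δ hg hg' hd i y
    exact NP_lip hn (meas_pos' hg s) (meas_pos' hg' s) (pos_nonneg s g) (pos_nonneg s g')
      (fun j z => (abs_max_sub_max_le_abs _ _ _).trans (hd j (fl (-s) z))) i (fl s y)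

theorem exists_eul (hn : 0 < n) (t₀ : ℝ) {f₀ : Fin 3 → Ph → ℝ} (h₀ : ∀ i, Measurable (f₀ i))
    (p₀ : ∀ i z, 0 ≤ f₀ i z) :
    ∃ f : ℝ → Fin 3 → Ph → ℝ, (∀ i, Measurable fun p : ℝ × Ph => f p.1 i p.2) ∧
      (∀ t i z, 0 ≤ f t i z) ∧
      ∀ t i y, f t i (fl t y) = f₀ i (fl t₀ y) + ∫ s in Ioc t₀ t, NP n (f s) i (fl s y) := by
  obtain ⟨g, hg, heq⟩ := exists_lag hn t₀ (g₀ := fun i y => f₀ i (fl t₀ y))
    fun i => (h₀ i).comp (measurable_fl_right _)
  have hgs : ∀ s i, Measurable (g s i) := fun s i => (hg i).comp measurable_prodMk_left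
  have h0 : ∀ t i y, 0 ≤ g t i y := fun t i y => by
    have h1 : ∀ s, NP n (pos s (g s)) i (fl s y) = Gn n (pos s (g s)) i (fl s y)
        - lam n (tt (pos s (g s))) (fl s y) * max (g s i y) 0 := fun s => by
      rw [NP, pos, fl_neg_fl]
    refine nonneg_of_mild (y := fun s => g s i y) (q := fun s => Gn n (pos s (g s)) i (fl s y))
      (l := fun s => lam n (tt (pos s (g s))) (fl s y)) (t₀ := t₀)
      (A := 8 * Real.pi * n * n * n * Mx y.2) (B := 4 * Real.pi * n * n)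
      (C := 12 * Real.pi * n * n * n * Mx y.2)
      ((hg i).comp measurable_prodMk_right)
      (meas_Gn (p := fun s => pos s (g s)) (meas_pos hg) (measurable_fl_left y) i)
      (meas_lam (p := fun s => pos s (g s)) (meas_pos hg) (measurable_fl_left y))
      (fun s => Gn_le hn (meas_pos' (hgs s) s) (pos_nonneg s _) i (fl s y))
      (fun s => ?_) (fun s => ?_) (fun s => Gn_nonneg hn (pos_nonneg s _) i _)
      (p₀ i (fl t₀ y)) (fun t => ?_) t
    · rw [abs_of_nonneg (lam_nonneg hn (tt_nonneg (pos_nonneg s _)))]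
      exact lam_le hn (meas_tt (meas_pos' (hgs s) s)) (tt_nonneg (pos_nonneg s _))
    · rw [← h1]
      exact NP_le hn (meas_pos' (hgs s) s) (pos_nonneg s _) i (fl s y)
    · simp_rw [← h1]
      exact heq t i y
  have h1 : ∀ s, pos s (g s) = fun i z => g s i (fl (-s) z) := fun s => by
    ext i z
    exact max_eq_left (h0 _ _ _)
  refine ⟨fun t i z => g t i (fl (-t) z), meas_back hg, fun t i z => h0 _ _ _, fun t i y => ?_⟩
  simp_rw [← h1]
  rw [← heq, fl_neg_fl]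

end Sys

end ExistAux

open ExistAux in
/-- Global existence for the labelled system. -/
theorem exists_sys {n : ℝ} (hn : 0 < n) (t₀ : ℝ) {c₀ h₀ k₀ : Ph → ℝ} (mc : Measurable c₀)
    (mh : Measurable h₀) (mk : Measurable k₀) (pc : ∀ z, 0 ≤ c₀ z) (ph : ∀ z, 0 ≤ h₀ z)
    (pk : ∀ z, 0 ≤ k₀ z) {C : ℝ} (hC : ∀ z : Ph, c₀ z + h₀ z + k₀ z ≤ C * Mx z.2) :
    ∃ c h k : ℝ → Ph → ℝ, Sys n t₀ c h k ∧ c t₀ = c₀ ∧ h t₀ = h₀ ∧ k t₀ = k₀ := by
  obtain ⟨f, hf, h0, heq⟩ := exists_eul hn t₀ (f₀ := ![c₀, h₀, k₀])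
    (fun i => by fin_cases i <;> assumption) (fun i => by fin_cases i <;> assumption)
  have hi : ∀ i, f t₀ i = ![c₀, h₀, k₀] i := fun i => by
    ext z
    have h1 := heq t₀ i (fl (-t₀) z)
    simpa using h1
  have hmild : ∀ i t, t₀ ≤ t → ∀ z, f t i (fl t z)
      = f t₀ i (fl t₀ z) + ∫ s in t₀..t, NP n (f s) i (fl s z) := fun i t ht z => by
    rw [heq t, hi, intervalIntegral.integral_of_le ht]
  refine ⟨fun t => f t 0, fun t => f t 1, fun t => f t 2,
    ⟨hf 0, hf 1, hf 2, fun t => h0 t 0, fun t => h0 t 1, fun t => h0 t 2, fun T => ?_,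
      hmild 0, hmild 1, hmild 2⟩, hi 0, hi 1, hi 2⟩
  refine ⟨C + 3 * (12 * Real.pi * n * n * n * (T - t₀)), fun t ht z => ?_⟩
  have h1 : ∀ i, f t i z ≤ ![c₀, h₀, k₀] i (fl t₀ (fl (-t) z))
      + 12 * Real.pi * n * n * n * (T - t₀) * Mx z.2 := fun i => by
    have h2 := hmild i t ht.1 (fl (-t) z)
    rw [fl_fl_neg, hi] at h2
    have h3 := intervalIntegral.norm_integral_le_of_norm_le_const (a := t₀) (b := t)
      (C := 12 * Real.pi * n * n * n * Mx z.2)
      (f := fun s => NP n (f s) i (fl s (fl (-t) z))) fun s _ =>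
        NP_le (p := f s) hn (fun j => (hf j).comp measurable_prodMk_left) (h0 s) i
          (fl s (fl (-t) z))
    have h4 : 12 * Real.pi * n * n * n * Mx z.2 * |t - t₀|
        ≤ 12 * Real.pi * n * n * n * Mx z.2 * (T - t₀) := by
      refine mul_le_mul_of_nonneg_left ?_ (by have := Mx_pos z.2; positivity)
      rw [abs_of_nonneg (sub_nonneg.mpr ht.1)]
      linarith [ht.2]
    have h5 := (le_abs_self _).trans (h3.trans h4)
    linarith
  have h2 : c₀ (fl t₀ (fl (-t) z)) + h₀ (fl t₀ (fl (-t) z)) + k₀ (fl t₀ (fl (-t) z))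
      ≤ C * Mx z.2 := hC _
  have h3 : f t 0 z ≤ c₀ (fl t₀ (fl (-t) z)) + _ := h1 0
  have h4 : f t 1 z ≤ h₀ (fl t₀ (fl (-t) z)) + _ := h1 1
  have h5 : f t 2 z ≤ k₀ (fl t₀ (fl (-t) z)) + _ := h1 2
  change f t 0 z + f t 1 z + f t 2 z ≤ _
  linarith

end

end Vale.Agent.P140
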