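import Vale.Agent.P140.Aval
import Vale.Agent.P140.Dpl

/-! Nonuniqueness. -/

namespace Vale.Agent.P140

open MeasureTheory Set Filter Topology
open scoped ENNReal RealInnerProductSpace

noncomputable section

theorem nonunique : ∃ (F₀ : Ph → ℝ) (F G : ℝ → Ph → ℝ), IsDatum F₀ ∧ IsSol F₀ F ∧ IsSol F₀ G ∧
    ¬ ∀ᵐ p ∂((volume.restrict (Ioi (0 : ℝ))).prod (volume : Measure Ph)),
      F p.1 p.2 = G p.1 p.2 := by
  obtain ⟨F₀, SA, SB, T, a, b, A, hT, hA, hab, ha, hb⟩ := aval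
  obtain ⟨UA, F, -, hF, hwA⟩ := SA.exists_sol
  obtain ⟨UB, G, -, hG, hwB⟩ := SB.exists_sol
  refine ⟨F₀, F, G, SA.datum, hF, hG, fun hae => ?_⟩
  set ψ : Ph → ℝ := A.indicator (fun _ => (1 : ℝ)) with hψ
  have hψm : Measurable ψ := measurable_const.indicator hA
  have hψb : ∃ C, ∀ z, |ψ z| ≤ C := ⟨1, fun z => by
    by_cases hz : z ∈ A <;> simp [hψ, hz]⟩
  have hint : ∀ f : Ph → ℝ, ∫ z, f z * ψ z = ∫ z in A, f z := fun f => by
    rw [← integral_indicator hA]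
    congr 1
    funext z
    by_cases hz : z ∈ A <;> simp [hψ, hz]
  have h1 : ∫ z, F T z * ψ z ≤ a :=
    le_of_tendsto' (hwA T hT.le ψ hψm hψb) fun k => by rw [hint]; exact ha k
  have h2 : b ≤ ∫ z, G T z * ψ z :=
    ge_of_tendsto' (hwB T hT.le ψ hψm hψb) fun k => by rw [hint]; exact hb k
  have hc : ContinuousAt (fun t => (∫ z, G t z * ψ z) - ∫ z, F t z * ψ z) T :=
    ((hG.weakCont ψ hψm hψb).continuousAt (Ici_mem_nhds hT)).sub
      ((hF.weakCont ψ hψm hψb).continuousAt (Ici_mem_nhds hT))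
  have hpos : ∀ᶠ t in 𝓝 T, 0 < (∫ z, G t z * ψ z) - ∫ z, F t z * ψ z :=
    hc.eventually (lt_mem_nhds (by linarith))
  have hz : ∀ᵐ t ∂(volume.restrict (Ioi (0 : ℝ))),
      (∫ z, G t z * ψ z) - ∫ z, F t z * ψ z = 0 := by
    filter_upwards [Measure.ae_ae_of_ae_prod hae] with t ht
    rw [sub_eq_zero]
    exact integral_congr_ae (by filter_upwards [ht] with z hz using by rw [hz])
  rw [ae_restrict_iff' measurableSet_Ioi] at hz
  have hall : ∀ᶠ t in 𝓝 T, t ∈ Ioi (0 : ℝ) ∧ 0 < (∫ z, G t z * ψ z) - ∫ z, F t z * ψ z :=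
    (show ∀ᶠ t in 𝓝 T, t ∈ Ioi (0 : ℝ) from Ioi_mem_nhds hT).and hpos
  obtain ⟨s, hs, hso, hTs⟩ := eventually_nhds_iff.1 hall
  have hnull : volume s = 0 := by
    rw [ae_iff] at hz
    refine measure_mono_null (fun t ht => ?_) hz
    exact fun hh => (hs t ht).2.ne' (hh (hs t ht).1)
  exact (hso.measure_pos volume ⟨T, hTs⟩).ne' hnull

end

end Vale.Agent.P140
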