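import Vale.Agent.P140.SysApi
import Vale.Agent.P140.Ode2
import Vale.Agent.P140.ADefs

/-! Pairing label two with test functions. -/

namespace Vale.Agent.P140

open MeasureTheory Set Filter Topology
open scoped ENNReal RealInnerProductSpace

noncomputable section

variable {n t₀ : ℝ} {c h k : ℝ → Ph → ℝ}

theorem pair_mt {f : ℝ → Ph → ℝ} (hf : Measurable fun q : ℝ × Ph => f q.1 q.2) (t : ℝ) :
    Measurable (f t) := hf.comp measurable_prodMk_left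

theorem pair_le_mul {A B x y : ℝ} {p : ℕ} {v : V} (h1 : |x| ≤ A * Mx v)
    (h2 : |y| ≤ B * (1 + ‖v‖) ^ p) : ‖x * y‖ ≤ A * B * ((1 + ‖v‖) ^ p * Mx v) := by
  rw [Real.norm_eq_abs, abs_mul]
  refine (mul_le_mul h1 h2 (abs_nonneg _) ((abs_nonneg _).trans h1)).trans (le_of_eq ?_)
  ring

theorem pair_i1 {A B : ℝ} {p : ℕ} {f g : Ph → ℝ} (hf : Measurable f) (hg : Measurable g)
    (hA : ∀ z : Ph, |f z| ≤ A * Mx z.2) (hB : ∀ z : Ph, |g z| ≤ B * (1 + ‖z.2‖) ^ p) :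
    Integrable (fun z => f z * g z) :=
  ((integrable_pow_Mx_Ph p).const_mul (A * B)).mono' (hf.mul hg).aestronglyMeasurable
    (ae_of_all _ fun z => pair_le_mul (hA z) (hB z))

theorem pair_i2 {a b A B : ℝ} {p : ℕ} {f g : ℝ × Ph → ℝ} (hf : Measurable f) (hg : Measurable g)
    (hA : ∀ t ∈ Icc a b, ∀ z : Ph, |f (t, z)| ≤ A * Mx z.2)
    (hB : ∀ t ∈ Icc a b, ∀ z : Ph, |g (t, z)| ≤ B * (1 + ‖z.2‖) ^ p) :
    Integrable (fun q => f q * g q) ((volume.restrict (Ioc a b)).prod volume) := by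
  refine Integrable.mono' (((integrable_pow_Mx_Ph p).const_mul (A * B)).comp_snd _)
    (hf.mul hg).aestronglyMeasurable ?_
  filter_upwards [Measure.quasiMeasurePreserving_fst.ae (ae_restrict_mem measurableSet_Ioc)]
    with q hq
  exact pair_le_mul (hA q.1 (Ioc_subset_Icc_self hq) q.2) (hB q.1 (Ioc_subset_Icc_self hq) q.2)

theorem Sys.pair_upp (S : Sys n t₀ c h k) {a : ℝ} (ha : t₀ ≤ a) (b : ℝ) :
    ∃ A : ℝ, ∀ t ∈ Icc a b, ∀ z : Ph, |k t z| ≤ A * Mx z.2 := by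
  obtain ⟨A, hA⟩ := S.upp b
  refine ⟨A, fun t ht z => ?_⟩
  rw [abs_of_nonneg (S.k0 t z)]
  exact (S.sys_k_le t z).trans (hA t ⟨ha.trans ht.1, ht.2⟩ z)

theorem Sys.pair_k1 (S : Sys n t₀ c h k) {t C : ℝ} {p : ℕ} (ht : t₀ ≤ t) {φ : Ph → ℝ}
    (hφ : Measurable φ) (hC : ∀ z : Ph, |φ z| ≤ C * (1 + ‖z.2‖) ^ p) :
    Integrable (fun z => k t z * φ z) := by
  obtain ⟨A, hA⟩ := S.pair_upp ht t
  exact pair_i1 (pair_mt S.mk' t) hφ (hA t ⟨le_rfl, le_rfl⟩) hC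

theorem Sys.pair_k2 (S : Sys n t₀ c h k) {a b C : ℝ} {p : ℕ} (ha : t₀ ≤ a)
    {φ : ℝ → Ph → ℝ} (hφ : Measurable (fun q : ℝ × Ph => φ q.1 q.2))
    (hC : ∀ t ∈ Icc a b, ∀ z : Ph, |φ t z| ≤ C * (1 + ‖z.2‖) ^ p) :
    Integrable (fun q : ℝ × Ph => k q.1 q.2 * φ q.1 q.2)
      ((volume.restrict (Ioc a b)).prod volume) := by
  obtain ⟨A, hA⟩ := S.pair_upp ha b
  exact pair_i2 S.mk' hφ hA hC

theorem Sys.k_integrable_mul (S : Sys n t₀ c h k) {t C : ℝ} (ht : t₀ ≤ t) {φ : Ph → ℝ}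
    (hφ : Measurable φ) (hC : ∀ z : Ph, |φ z| ≤ C * (1 + ‖z.2‖) ^ 5) :
    Integrable (fun z => k t z * φ z) := S.pair_k1 ht hφ hC

theorem Sys.pair_int (S : Sys n t₀ c h k) {a b C : ℝ} (ha : t₀ ≤ a) (hab : a ≤ b)
    {φ : ℝ → Ph → ℝ} (hφ : Measurable (fun q : ℝ × Ph => φ q.1 q.2))
    (hC : ∀ t ∈ Icc a b, ∀ z : Ph, |φ t z| ≤ C * (1 + ‖z.2‖) ^ 5) :
    IntervalIntegrable (fun t => ∫ z, k t z * φ t z) volume a b :=
  (intervalIntegrable_iff_integrableOn_Ioc_of_le hab).2 (S.pair_k2 ha hφ hC).integral_prod_left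

/-- The dual action of the gain of label two on a test function. -/
def dualG (n : ℝ) (c h k : ℝ → Ph → ℝ) (t : ℝ) (φ : Ph → ℝ) (z : Ph) : ℝ :=
  th n (tot c h k t) z * cInt n z.2 (fun w ω =>
    til n (tot c h k t) (z.1, w) * φ (z.1, wp z.2 w ω)
      + reg n (tot c h k t) (two c h t) (z.1, w) * φ (z.1, vp z.2 w ω))

theorem Sys.meas_dualG (S : Sys n t₀ c h k) {φ : ℝ → Ph → ℝ}
    (hφ : Measurable (fun q : ℝ × Ph => φ q.1 q.2)) :
    Measurable (fun q : ℝ × Ph => dualG n c h k q.1 (φ q.1) q.2) := by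
  have h1 : Measurable fun q : ℝ × Ph => th n (tot c h k q.1) q.2 :=
    measurable_th (X := ℝ × Ph) (F := fun q => tot c h k q.1) n
      (S.meas_tot.comp (measurable_fst.fst.prodMk measurable_snd)) measurable_snd
  have ht : Measurable fun r : (ℝ × Ph) × V × S2 => r.1.1 := measurable_fst.fst
  have hx : Measurable fun r : (ℝ × Ph) × V × S2 => r.1.2.1 := measurable_fst.snd.fst
  have hv : Measurable fun r : (ℝ × Ph) × V × S2 => r.1.2.2 := measurable_fst.snd.snd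
  have hw : Measurable fun r : (ℝ × Ph) × V × S2 => r.2.1 := measurable_snd.fst
  have ho : Measurable fun r : (ℝ × Ph) × V × S2 => r.2.2 := measurable_snd.snd
  have h2 : Measurable fun r : (ℝ × Ph) × V × S2 =>
      til n (tot c h k r.1.1) (r.1.2.1, r.2.1) :=
    QMeas_app (f := fun (q : ℝ × Ph) z => reg n (tot c h k q.1) (tot c h k q.1) z)
      (S.sys_reg S.meas_tot) measurable_fst (hx.prodMk hw)
  have h3 : Measurable fun r : (ℝ × Ph) × V × S2 =>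
      reg n (tot c h k r.1.1) (two c h r.1.1) (r.1.2.1, r.2.1) :=
    QMeas_app (f := fun (q : ℝ × Ph) z => reg n (tot c h k q.1) (two c h q.1) z)
      (S.sys_reg S.meas_two) measurable_fst (hx.prodMk hw)
  have h4 : Measurable fun r : (ℝ × Ph) × V × S2 => φ r.1.1 (r.1.2.1, wp r.1.2.2 r.2.1 r.2.2) :=
    QMeas_app hφ ht (hx.prodMk (measurable_wp hv hw ho))
  have h5 : Measurable fun r : (ℝ × Ph) × V × S2 => φ r.1.1 (r.1.2.1, vp r.1.2.2 r.2.1 r.2.2) :=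
    QMeas_app hφ ht (hx.prodMk (measurable_vp hv hw ho))
  exact h1.mul (((measurable_Bn n hv hw ho).mul
    ((h2.mul h4).add (h3.mul h5))).stronglyMeasurable.integral_prod_right'
      (ν := volume.prod sig)).measurable

theorem pair_grow {C : ℝ} {φ : Ph → ℝ} (hC : ∀ z : Ph, |φ z| ≤ C * (1 + ‖z.2‖) ^ 4) (x : T3)
    {u v w : V} (hu : ‖u‖ ≤ ‖v‖ + ‖w‖) : |φ (x, u)| ≤ C * (1 + ‖v‖) ^ 4 * (1 + ‖w‖) ^ 4 := by
  have h0 : 0 ≤ C := nonneg_of_mul_nonneg_left ((abs_nonneg _).trans (hC (x, u))) (by positivity)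
  have h1 : 1 + ‖u‖ ≤ (1 + ‖v‖) * (1 + ‖w‖) := by
    nlinarith [mul_nonneg (norm_nonneg v) (norm_nonneg w)]
  refine (hC (x, u)).trans ?_
  rw [mul_assoc, ← mul_pow]
  gcongr

theorem pair_B (hn : 0 ≤ n) {v w : V} {ω : S2} {y B : ℝ} (hy : ‖y‖ ≤ B) :
    ‖Bn n v w ω * y‖ ≤ n * B := by
  rw [norm_mul, Real.norm_of_nonneg (Bn_nonneg _ _ _ _)]
  exact mul_le_mul (Bn_le _ _ _ hn) hy (norm_nonneg _) hn

theorem Sys.abs_dualG_le (hn : 0 < n) : ∃ D : ℝ, 0 ≤ D ∧ ∀ {t₀ : ℝ} {c h k : ℝ → Ph → ℝ},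
    Sys n t₀ c h k → ∀ (t C : ℝ) (φ : Ph → ℝ), Measurable φ →
      (∀ z : Ph, |φ z| ≤ C * (1 + ‖z.2‖) ^ 4) → ∀ z : Ph,
        |dualG n c h k t φ z| ≤ D * C * (1 + ‖z.2‖) ^ 4 := by
  refine ⟨2 * n * n * ∫ q : V × S2, (1 + ‖q.1‖) ^ 4 * Mx q.1 ∂(volume.prod sig),
    mul_nonneg (by positivity) (integral_nonneg fun q => mul_nonneg (by positivity) (Mx_pos _).le),
    fun {t₀ c h k} S t C φ _ hC z => ?_⟩
  rw [dualG, abs_mul, abs_of_pos (th_pos hn (S.tot_nonneg t z))]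
  refine (mul_le_of_le_one_left (abs_nonneg _) (th_le_one hn (S.tot_nonneg t z))).trans ?_
  rw [cInt, ← Real.norm_eq_abs]
  refine (norm_integral_le_of_norm_le (((integrable_pow_Mx 4).comp_fst sig).const_mul
    (2 * n * n * (C * (1 + ‖z.2‖) ^ 4))) (ae_of_all _ fun q => ?_)).trans (le_of_eq ?_)
  · refine (pair_B hn.le (norm_add_le_of_le
      (pair_le_mul ((S.sys_bddt hn t z.1).le q.1) (pair_grow hC z.1 (norm_wp_le _ _ _)))
      (pair_le_mul ((S.sys_bdd2 hn t z.1).le q.1) (pair_grow hC z.1 (norm_vp_le _ _ _))))).trans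
      (le_of_eq ?_)
    ring
  · rw [integral_const_mul]
    ring

theorem cInt_integrable (hn : 0 ≤ n) {A C : ℝ} {g : V → ℝ} (hg : BddV A g) (v : V)
    {H : V → S2 → ℝ} (hH : Measurable (fun q : V × S2 => H q.1 q.2))
    (hC : ∀ w ω, |H w ω| ≤ C * (1 + ‖w‖) ^ 4) :
    Integrable (fun q : V × S2 => Bn n v q.1 q.2 * (g q.1 * H q.1 q.2)) (volume.prod sig) :=
  ((((integrable_pow_Mx 4).comp_fst sig).const_mul (A * C)).const_mul n).mono'
    ((qapi_mB n v).mul ((hg.meas.comp measurable_fst).mul hH)).aestronglyMeasurable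
    (ae_of_all _ fun q => pair_B hn (pair_le_mul (hg.le q.1) (hC q.1 q.2)))

theorem Sys.pair_g (hn : 0 < n) (S : Sys n t₀ c h k) (t : ℝ) (z : Ph) :
    |gain2 n c h k t z| ≤ 8 * Real.pi * n * n * n * Mx z.2 := by
  rw [abs_of_nonneg (S.gain2_nonneg hn t z)]
  exact S.gain2_le hn t z

theorem Sys.pair_slice (hn : 0 < n) (S : Sys n t₀ c h k) (t : ℝ) {C : ℝ} {φ : Ph → ℝ}
    (hφ : Measurable φ) (hC : ∀ z : Ph, |φ z| ≤ C * (1 + ‖z.2‖) ^ 4) (x : T3) :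
    ∫ v, gain2 n c h k t (x, v) * φ (x, v) = ∫ v, k t (x, v) * dualG n c h k t φ (x, v) := by
  have bt := S.sys_bddt hn t x
  have bk := S.sys_bddk hn t x
  have b2 := S.sys_bdd2 hn t x
  have hm : Measurable fun v => φ (x, v) := hφ.comp measurable_prodMk_left
  have hb : ∀ v, |φ (x, v)| ≤ C * (1 + ‖v‖) ^ 4 := fun v => hC (x, v)
  have i1 := qapi_i2 hn.le bk bt hm hb
  have i2 := qapi_i1 hn.le bk b2 hm hb
  have e1 : ∫ v, gain2 n c h k t (x, v) * φ (x, v) =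
      (∫ v, QN n (sl (til n (tot c h k t)) x) (sl (reg n (tot c h k t) (k t)) x) v * φ (x, v)) +
      ∫ v, QN n (sl (reg n (tot c h k t) (k t)) x) (sl (reg n (tot c h k t) (two c h t)) x) v *
        φ (x, v) := by
    rw [← integral_add (qapi_QN hn.le bt bk hm hb).1 (qapi_QN hn.le bk b2 hm hb).1]
    exact integral_congr_ae (ae_of_all _ fun v => add_mul _ _ _)
  rw [e1, weak_QN' hn.le bt bk hm hb, weak_QN hn.le bk b2 hm hb, ← integral_add i1 i2]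
  refine (qapi_fub (i1.add i2)).2.symm.trans (integral_congr_ae (ae_of_all _ fun v => ?_))
  simp only [dualG, cInt, ← integral_const_mul, Pi.add_apply]
  refine integral_congr_ae (ae_of_all _ fun q => ?_)
  have e2 : sl (reg n (tot c h k t) (k t)) x v = th n (tot c h k t) (x, v) * k t (x, v) := rfl
  simp only [e2]
  simp only [sl]
  ring

theorem Sys.pair_mD (S : Sys n t₀ c h k) (t : ℝ) {φ : Ph → ℝ} (hφ : Measurable φ) :
    Measurable (dualG n c h k t φ) :=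
  pair_mt (f := fun t => dualG n c h k t φ)
    (S.meas_dualG (φ := fun _ => φ) (hφ.comp measurable_snd)) t

theorem Sys.pair_kD (hn : 0 < n) (S : Sys n t₀ c h k) {t C : ℝ} (ht : t₀ ≤ t) {φ : Ph → ℝ}
    (hφ : Measurable φ) (hC : ∀ z : Ph, |φ z| ≤ C * (1 + ‖z.2‖) ^ 4) :
    Integrable fun z => k t z * dualG n c h k t φ z := by
  obtain ⟨D, -, hD⟩ := Sys.abs_dualG_le hn
  exact S.pair_k1 ht (S.pair_mD t hφ) (hD S t C φ hφ hC)

theorem Sys.pair_g1 (hn : 0 < n) (S : Sys n t₀ c h k) (t : ℝ) {C : ℝ} {φ : Ph → ℝ}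
    (hφ : Measurable φ) (hC : ∀ z : Ph, |φ z| ≤ C * (1 + ‖z.2‖) ^ 4) :
    Integrable fun z => gain2 n c h k t z * φ z :=
  pair_i1 (pair_mt (f := gain2 n c h k) S.meas_gain2 t) hφ (S.pair_g hn t) hC

theorem Sys.gain2_weak (hn : 0 < n) (S : Sys n t₀ c h k) {t C : ℝ} (ht : t₀ ≤ t) {φ : Ph → ℝ}
    (hφ : Measurable φ) (hC : ∀ z : Ph, |φ z| ≤ C * (1 + ‖z.2‖) ^ 4) :
    ∫ z, gain2 n c h k t z * φ z = ∫ z, k t z * dualG n c h k t φ z := by
  have i1 := S.pair_g1 hn t hφ hC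
  have i2 := S.pair_kD hn ht hφ hC
  rw [Measure.volume_eq_prod] at i1 i2 ⊢
  rw [integral_prod _ i1, integral_prod _ i2]
  exact integral_congr_ae (ae_of_all _ fun x => S.pair_slice hn t hφ hC x)

/-- The space-time integral of the source along characteristics. -/
theorem Sys.pair_src (hn : 0 < n) (S : Sys n t₀ c h k) {a b C C' : ℝ} (ha : t₀ ≤ a) (hab : a ≤ b)
    {φ s : ℝ → Ph → ℝ} (hφ : Measurable (fun q : ℝ × Ph => φ q.1 q.2))
    (hs : Measurable (fun q : ℝ × Ph => s q.1 q.2))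
    (hC : ∀ t ∈ Icc a b, ∀ z : Ph, |φ t z| ≤ C * (1 + ‖z.2‖) ^ 4)
    (hC' : ∀ t ∈ Icc a b, ∀ z : Ph, |s t z| ≤ C' * (1 + ‖z.2‖) ^ 4) :
    Integrable (fun q : ℝ × Ph => gain2 n c h k q.1 (fl q.1 q.2) * φ q.1 (fl q.1 q.2) -
      k q.1 (fl q.1 q.2) * s q.1 (fl q.1 q.2)) ((volume.restrict (Ioc a b)).prod volume) ∧
    ∫ q : ℝ × Ph, (gain2 n c h k q.1 (fl q.1 q.2) * φ q.1 (fl q.1 q.2) -
      k q.1 (fl q.1 q.2) * s q.1 (fl q.1 q.2)) ∂((volume.restrict (Ioc a b)).prod volume) =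
      ∫ t in a..b, ∫ z, k t z * (dualG n c h k t (φ t) z - s t z) := by
  have i1 : Integrable (fun q : ℝ × Ph => gain2 n c h k q.1 q.2 * φ q.1 q.2 - k q.1 q.2 * s q.1 q.2)
      ((volume.restrict (Ioc a b)).prod volume) :=
    (pair_i2 S.meas_gain2 hφ (fun t _ => S.pair_g hn t) hC).sub (S.pair_k2 ha hs hC')
  refine ⟨(integrable_flST _).2 i1, (integral_flST _ fun q : ℝ × Ph =>
    gain2 n c h k q.1 q.2 * φ q.1 q.2 - k q.1 q.2 * s q.1 q.2).trans ?_⟩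
  rw [integral_prod _ i1, intervalIntegral.integral_of_le hab]
  refine setIntegral_congr_fun measurableSet_Ioc fun t ht => ?_
  have ht' := Ioc_subset_Icc_self ht
  have h0 := ha.trans ht'.1
  have m1 : Measurable (φ t) := pair_mt hφ t
  have m2 : Measurable (s t) := pair_mt hs t
  have j2 := S.pair_k1 h0 m2 (hC' t ht')
  simp only [mul_sub]
  rw [integral_sub (S.pair_g1 hn t m1 (hC t ht')) j2, integral_sub (S.pair_kD hn h0 m1 (hC t ht')) j2,
    S.gain2_weak hn h0 m1 (hC t ht')]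

theorem pair_one {y C : ℝ} (hy : |y| ≤ C) (v : V) : |y| ≤ C * (1 + ‖v‖) ^ 4 :=
  hy.trans (le_mul_of_one_le_right ((abs_nonneg _).trans hy)
    (one_le_pow₀ (le_add_of_nonneg_right (norm_nonneg v))))

/-- Pairing with a solution of the backward equation. -/
theorem Sys.pair_eq (hn : 0 < n) (S : Sys n t₀ c h k) {a b C : ℝ} (ha : t₀ ≤ a) (hab : a ≤ b)
    {φ s : ℝ → Ph → ℝ} (hφ : Measurable (fun q : ℝ × Ph => φ q.1 q.2))
    (hs : Measurable (fun q : ℝ × Ph => s q.1 q.2))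
    (hC : ∀ t ∈ Icc a b, ∀ z, |φ t z| ≤ C ∧ |s t z| ≤ C)
    (hp : ∀ z, Prim (fun t => φ t (fl t z))
      (fun t => lam n (tot c h k t) (fl t z) * φ t (fl t z) - s t (fl t z)) a b) :
    ∫ z, k b z * φ b z = (∫ z, k a z * φ a z)
      + ∫ t in a..b, ∫ z, k t z * (dualG n c h k t (φ t) z - s t z) := by
  have h1 : ∀ t ∈ Icc a b, ∀ z : Ph, |φ t z| ≤ C * (1 + ‖z.2‖) ^ 4 :=
    fun t ht z => pair_one (hC t ht z).1 _
  obtain ⟨i1, e1⟩ := S.pair_src hn ha hab hφ hs h1 fun t ht z => pair_one (hC t ht z).2 _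
  have h2 := (Prim.integral_family (μ := (volume : Measure Ph))
    (Y := fun t z => k t (fl t z) * φ t (fl t z))
    (Q := fun t z => gain2 n c h k t (fl t z) * φ t (fl t z) - k t (fl t z) * s t (fl t z))
    (ae_of_all _ fun z => ((S.primk hn ha hab z).mul (hp z)).congr (fun _ _ => rfl)
      (ae_of_all _ fun t => by ring)) hab i1
    ((integrable_fl a).2 (S.pair_k1 ha (pair_mt hφ a)
      (h1 a ⟨le_rfl, hab⟩)))).2
  rw [← integral_fl b, ← integral_fl a fun z => k a z * φ a z, ← e1]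
  exact h2

/-- Pairing with a function that is antitone along characteristics. -/
theorem Sys.pair_le (hn : 0 < n) (S : Sys n t₀ c h k) {a b C : ℝ} (ha : t₀ ≤ a) (hab : a ≤ b)
    {φ : ℝ → Ph → ℝ} (hφ : Measurable (fun q : ℝ × Ph => φ q.1 q.2))
    (hC : ∀ t ∈ Icc a b, ∀ z : Ph, |φ t z| ≤ C * (1 + ‖z.2‖) ^ 4)
    (hp : ∀ z, AntitoneOn (fun t => φ t (fl t z)) (Icc a b)) :
    ∫ z, k b z * φ b z ≤ (∫ z, k a z * φ a z) + ∫ t in a..b, ∫ z, k t z *
      (dualG n c h k t (φ t) z - lam n (tot c h k t) z * φ t z) := by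
  obtain ⟨i1, e1⟩ := S.pair_src hn ha hab (s := fun t z => lam n (tot c h k t) z * φ t z)
    (C' := 4 * Real.pi * n * n * C) hφ (S.meas_lam.mul hφ) hC fun t ht z => by
      rw [abs_mul, abs_of_nonneg (lam_nonneg hn (S.tot_nonneg t)), mul_assoc _ C]
      exact mul_le_mul (lam_le hn (pair_mt (f := tot c h k) S.meas_tot t)
        (S.tot_nonneg t)) (hC t ht z) (abs_nonneg _) (by positivity)
  have j : ∀ t ∈ Icc a b, Integrable fun z => k t (fl t z) * φ t (fl t z) := fun t ht =>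
    (integrable_fl t).2 (S.pair_k1 (ha.trans ht.1) (pair_mt hφ t)
      (hC t ht))
  rw [← integral_fl b, ← integral_fl a fun z => k a z * φ a z, ← e1, integral_prod_symm _ i1,
    ← integral_add (j a ⟨le_rfl, hab⟩) i1.integral_prod_right]
  refine integral_mono (j b ⟨hab, le_rfl⟩) ((j a ⟨le_rfl, hab⟩).add i1.integral_prod_right)
    fun z => ?_
  refine ((S.primk hn ha hab z).mul_antitone_le (fun t _ => S.k0 t _) (hp z)).trans (le_of_eq ?_)
  rw [intervalIntegral.integral_of_le hab]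
  congr 1
  exact integral_congr_ae (ae_of_all _ fun t => by ring)

end

end Vale.Agent.P140
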