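import Vale.Agent.P140.Val
import Vale.Agent.P140.Pair

/-! The drift inequality for the confining test function. -/

namespace Vale.Agent.P140

open MeasureTheory Set Filter Topology
open scoped ENNReal RealInnerProductSpace

noncomputable section

/-- Increment of the confining function in one collision. -/
def dphi (p : GP) (t : ℝ) (x : T3) (v w : V) (ω : S2) : ℝ :=
  phi0 p t (x, vp v w ω) + phi0 p t (x, wp v w ω) - phi0 p t (x, v)

theorem ptP_int_le {α : Type} [MeasurableSpace α] {ν : Measure α} {f : α → ℝ} {B : ℝ}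
    (hB : 0 ≤ B) (h : ∫⁻ a, ENNReal.ofReal (f a) ∂ν ≤ ENNReal.ofReal B) : ∫ a, f a ∂ν ≤ B := by
  by_cases hf : Integrable f ν
  · rw [integral_eq_lintegral_pos_part_sub_lintegral_neg_part hf]
    have h1 := ENNReal.toReal_le_of_le_ofReal hB h
    have h2 : 0 ≤ (∫⁻ a, ENNReal.ofReal (-f a) ∂ν).toReal := ENNReal.toReal_nonneg
    linarith
  · rw [integral_undef hf]
    exact hB

theorem ptP_int_mono {α : Type} [MeasurableSpace α] {ν : Measure α} {f g : α → ℝ}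
    (hg : Integrable g ν) (h0 : 0 ≤ ∫ a, g a ∂ν) (h : ∀ a, f a ≤ g a) :
    ∫ a, f a ∂ν ≤ ∫ a, g a ∂ν := by
  by_cases hf : Integrable f ν
  · exact integral_mono hf hg h
  · rw [integral_undef hf]
    exact h0

/-- A bound that does not depend on the direction. -/
theorem ptP_cInt_le {n B : ℝ} {v : V} {F : V → S2 → ℝ} {b : V → ℝ} (hb : ∀ w, 0 ≤ b w)
    (hF : ∀ w ω, F w ω ≤ b w) (hB : 0 ≤ B)
    (h : ∫⁻ w, ENNReal.ofReal (2 * Real.pi * ‖v - w‖ * b w) ≤ ENNReal.ofReal B) :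
    cInt n v F ≤ B := by
  refine ptP_int_le hB ((lintegral_prod_le _).trans (le_trans (lintegral_mono fun w => ?_) h))
  have h1 : ∀ ω : S2, ENNReal.ofReal (Bn n v w ω * F w ω)
      ≤ ENNReal.ofReal |ca v w ω| * ENNReal.ofReal (b w) := fun ω => by
    rw [← ENNReal.ofReal_mul (abs_nonneg _)]
    exact ENNReal.ofReal_le_ofReal ((mul_le_mul_of_nonneg_left (hF w ω) (Bn_nonneg _ _ _ _)).trans
      (mul_le_mul_of_nonneg_right (Bn_le_abs _ _ _ _) (hb w)))
  refine (lintegral_mono h1).trans ?_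
  have := Real.pi_pos
  rw [lintegral_mul_const' _ _ ENNReal.ofReal_ne_top, lintegral_abs_ca,
    ← ENNReal.ofReal_mul (by positivity)]

theorem ptP_phi0_pos (p : GP) (t : ℝ) (z : Ph) : p.ζ4 ^ 2 ≤ phi0 p t z :=
  (le_add_of_nonneg_right (le_max_left _ _)).trans (phi0_ge p t z)

theorem ptP_phi0_nonneg (p : GP) (t : ℝ) (z : Ph) : 0 ≤ phi0 p t z :=
  (sq_nonneg _).trans (ptP_phi0_pos p t z)

theorem ptP_phi0_le (p : GP) (t : ℝ) (x : T3) (v : V) : phi0 p t (x, v) ≤ 2 + ‖v‖ ^ 4 := by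
  have h1 := phi0_le p t (x, v)
  have h2 : max 0 (‖v‖ ^ 4 - (p.R / 2) ^ 4) ≤ ‖v‖ ^ 4 :=
    max_le (by positivity) (sub_le_self _ (by positivity))
  linarith

theorem ptP_dphi_le (p : GP) (t : ℝ) (x : T3) (v w : V) (ω : S2) : dphi p t x v w ω
    ≤ ‖vp v w ω‖ ^ 4 + ‖wp v w ω‖ ^ 4 + (4 + (p.R / 2) ^ 4 - ‖v‖ ^ 4) := by
  have h1 := ptP_phi0_le p t x (vp v w ω)
  have h2 := ptP_phi0_le p t x (wp v w ω)
  have h3 := phi0_ge p t (x, v)
  have h4 : ‖v‖ ^ 4 - (p.R / 2) ^ 4 ≤ max 0 (‖v‖ ^ 4 - (p.R / 2) ^ 4) := le_max_right _ _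
  have h5 := sq_nonneg p.ζ4
  unfold dphi
  linarith

theorem ptP_four_le (v w : V) (ω : S2) :
    ‖vp v w ω‖ ^ 4 + ‖wp v w ω‖ ^ 4 ≤ (‖v‖ ^ 2 + ‖w‖ ^ 2) ^ 2 := by
  rw [← energy_post v w ω]
  nlinarith [mul_nonneg (sq_nonneg ‖vp v w ω‖) (sq_nonneg ‖wp v w ω‖)]

theorem ptP_dphi_poly (p : GP) (t : ℝ) (x : T3) (v w : V) (ω : S2) : dphi p t x v w ω
    ≤ (7 + (p.R / 2) ^ 4) * (1 + ‖v‖) ^ 2 * (1 + ‖w‖) ^ 4 := by
  have h1 := ptP_dphi_le p t x v w ω
  have h2 := ptP_four_le v w ω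
  have a0 := norm_nonneg v
  have b0 := norm_nonneg w
  set a := ‖v‖
  set b := ‖w‖
  have hQ : 0 ≤ (p.R / 2) ^ 4 := by positivity
  have ha : a ^ 2 ≤ (1 + a) ^ 2 := pow_le_pow_left₀ a0 (by linarith) 2
  have ha1 : 1 ≤ (1 + a) ^ 2 := one_le_pow₀ (by linarith)
  have hb1 : 1 ≤ (1 + b) ^ 4 := one_le_pow₀ (by linarith)
  have hb2 : b ^ 2 ≤ (1 + b) ^ 4 := (pow_le_pow_left₀ b0 (by linarith : b ≤ 1 + b) 2).trans
    (pow_le_pow_right₀ (by linarith) (by norm_num))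
  have hb4 : b ^ 4 ≤ (1 + b) ^ 4 := pow_le_pow_left₀ b0 (by linarith) 4
  have e1 : 1 ≤ (1 + a) ^ 2 * (1 + b) ^ 4 := one_le_mul_of_one_le_of_one_le ha1 hb1
  have e2 : a ^ 2 * b ^ 2 ≤ (1 + a) ^ 2 * (1 + b) ^ 4 :=
    mul_le_mul ha hb2 (by positivity) (by positivity)
  have e3 : b ^ 4 ≤ (1 + a) ^ 2 * (1 + b) ^ 4 :=
    hb4.trans (le_mul_of_one_le_left (by positivity) ha1)
  have e4 : (p.R / 2) ^ 4 ≤ (p.R / 2) ^ 4 * ((1 + a) ^ 2 * (1 + b) ^ 4) :=
    le_mul_of_one_le_right hQ e1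
  nlinarith

theorem ptP_cube (p : GP) (t : ℝ) (x : T3) (v : V) :
    (1 + ‖v‖) ^ 3 ≤ (1 + p.R) ^ 3 / p.ζ4 ^ 2 * phi0 p t (x, v) := by
  have hR := p.R_ge
  have hz := p.ζ4_pos
  have a0 := norm_nonneg v
  rcases le_total ‖v‖ p.R with h | h
  · have h1 : (1 + ‖v‖) ^ 3 ≤ (1 + p.R) ^ 3 := pow_le_pow_left₀ (by linarith) (by linarith) 3
    have h2 := mul_le_mul_of_nonneg_left (ptP_phi0_pos p t (x, v))
      (by positivity : 0 ≤ (1 + p.R) ^ 3 / p.ζ4 ^ 2)
    rw [div_mul_cancel₀ _ (by positivity)] at h2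
    linarith
  · have h1 : 1 ≤ (1 + p.R) ^ 3 / p.ζ4 ^ 2 := by
      rw [one_le_div (by positivity)]
      exact (pow_le_one₀ hz.le p.ζ4_le).trans (one_le_pow₀ (by linarith))
    refine le_trans ?_ (le_mul_of_one_le_left (ptP_phi0_nonneg p t _) h1)
    have h2 := phi0_ge p t (x, v)
    have h3 : ‖v‖ ^ 4 - (p.R / 2) ^ 4 ≤ max 0 (‖v‖ ^ 4 - (p.R / 2) ^ 4) := le_max_right _ _
    have h4 : (p.R / 2) ^ 4 ≤ (‖v‖ / 2) ^ 4 := pow_le_pow_left₀ (by linarith) (by linarith) 4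
    have h5 : (1 + ‖v‖) ^ 3 ≤ (2 * ‖v‖) ^ 3 := pow_le_pow_left₀ (by linarith) (by linarith) 3
    have h6 : 20 * ‖v‖ ^ 3 ≤ ‖v‖ * ‖v‖ ^ 3 :=
      mul_le_mul_of_nonneg_right (by linarith) (by positivity)
    have h7 := sq_nonneg p.ζ4
    have h8 : 0 ≤ ‖v‖ ^ 3 := by positivity
    simp only at h2
    nlinarith

/-- Collisions with labels one and two. -/
theorem small_ptP_h (p : GP) {μ : ℝ} (hμ : 0 ≤ μ) : ForSmall p μ (fun _ _ n t₀ Tf c h k =>
    ∀ t ∈ Icc t₀ Tf, ∀ (x : T3) (v : V),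
      cInt n v (fun w ω => (reg n (tot c h k t) (h t) (x, w) + reg n (tot c h k t) (k t) (x, w))
        * dphi p t x v w ω) ≤ phi0 p t (x, v) / (3 * t)) := by
  have hR := p.R_ge
  have hz := p.ζ4_pos
  have hpi := Real.pi_pos
  obtain ⟨C, hC⟩ : ∃ C, C = 7 + (p.R / 2) ^ 4 := ⟨_, rfl⟩
  obtain ⟨D, hD⟩ : ∃ D, D = (1 + p.R) ^ 3 / p.ζ4 ^ 2 := ⟨_, rfl⟩
  have C0 : 0 ≤ C := by rw [hC]; positivity
  have D0 : 0 ≤ D := by rw [hD]; positivity
  have E0 : 0 ≤ 2 * Real.pi * C * D * μ := by positivity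
  refine (forSmall_le p μ (a := 1 / (3 * (2 * Real.pi * C * D * μ + 1))) (by positivity)).mono
    fun e0 r1 n t₀ Tf c h k G hs t ht x v => ?_
  have hn := G.n_pos
  have S := G.sys
  have t0 : 0 < t := G.t_pos.trans_le ht.1
  have f0 := ptP_phi0_nonneg p t (x, v)
  have hh : ∀ w, 0 ≤ h t (x, w) + k t (x, w) := fun w => add_nonneg (S.h0 _ _) (S.k0 _ _)
  refine ptP_cInt_le (b := fun w => (h t (x, w) + k t (x, w)) * (C * (1 + ‖v‖) ^ 2 * (1 + ‖w‖) ^ 4))
    (fun w => mul_nonneg (hh w) (by positivity)) (fun w ω => ?_) (by positivity) ?_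
  · have h1 := ptP_dphi_poly p t x v w ω
    rw [← hC] at h1
    refine (mul_le_mul_of_nonneg_left h1 (add_nonneg (reg_nonneg hn (S.tot_nonneg _ _) (S.h0 _ _))
      (reg_nonneg hn (S.tot_nonneg _ _) (S.k0 _ _)))).trans (mul_le_mul_of_nonneg_right
      (add_le_add (reg_le hn (S.tot_nonneg _ _) (S.h0 _ _))
        (reg_le hn (S.tot_nonneg _ _) (S.k0 _ _))) (by positivity))
  · have h1 : ∀ w : V, ENNReal.ofReal (2 * Real.pi * ‖v - w‖ *
        ((h t (x, w) + k t (x, w)) * (C * (1 + ‖v‖) ^ 2 * (1 + ‖w‖) ^ 4)))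
        ≤ ENNReal.ofReal (2 * Real.pi * C * (1 + ‖v‖) ^ 3) *
          ENNReal.ofReal ((1 + ‖w‖) ^ 5 * (h t (x, w) + k t (x, w))) := fun w => by
      rw [← ENNReal.ofReal_mul (by positivity)]
      refine ENNReal.ofReal_le_ofReal ?_
      have h2 : ‖v - w‖ ≤ (1 + ‖v‖) * (1 + ‖w‖) := by
        nlinarith [norm_sub_le v w, norm_nonneg v, norm_nonneg w,
          mul_nonneg (norm_nonneg v) (norm_nonneg w)]
      have h3 := hh w
      refine (mul_le_mul_of_nonneg_right (mul_le_mul_of_nonneg_left h2 (by positivity))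
        (by positivity)).trans_eq (by ring)
    refine (lintegral_mono h1).trans ?_
    rw [lintegral_const_mul' _ _ ENNReal.ofReal_ne_top]
    refine (mul_le_mul_right (G.mom t ht x) _).trans ?_
    rw [← ENNReal.ofReal_mul (by positivity)]
    refine ENNReal.ofReal_le_ofReal ?_
    have h2 := ptP_cube p t x v
    rw [← hD] at h2
    have h3 : 2 * Real.pi * C * (1 + ‖v‖) ^ 3 * μ
        ≤ 2 * Real.pi * C * D * μ * phi0 p t (x, v) :=
      (mul_le_mul_of_nonneg_right (mul_le_mul_of_nonneg_left h2 (by positivity)) hμ).trans_eq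
        (by ring)
    have h4 := ht.2.trans hs.2
    rw [le_div_iff₀ (by positivity)] at h4 ⊢
    have h5 : 2 * Real.pi * C * D * μ * (3 * t) ≤ 1 := by nlinarith
    calc 2 * Real.pi * C * (1 + ‖v‖) ^ 3 * μ * (3 * t)
        ≤ 2 * Real.pi * C * D * μ * phi0 p t (x, v) * (3 * t) :=
          mul_le_mul_of_nonneg_right h3 (by positivity)
      _ = 2 * Real.pi * C * D * μ * (3 * t) * phi0 p t (x, v) := by ring
      _ ≤ phi0 p t (x, v) := mul_le_of_le_one_left f0 h5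

/-- Large velocities: the average increment is not positive. -/
theorem ptP_big (p : GP) (n t : ℝ) (x : T3) {v : V} (hv : 2 * p.R ^ 2 < ‖v‖ ^ 2) {g : V → ℝ}
    (g0 : ∀ w, 0 ≤ g w) (gs : ∀ w, g w ≠ 0 → ‖w‖ ≤ 2) :
    cInt n v (fun w ω => g w * dphi p t x v w ω) ≤ 0 := by
  unfold cInt
  by_cases hi : Integrable (fun q : V × S2 => Bn n v q.1 q.2 * (g q.1 * dphi p t x v q.1 q.2))
    (volume.prod sig)
  swap
  · rw [integral_undef hi]
  rw [integral_prod _ hi]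
  refine integral_nonpos fun w => ?_
  show ∫ ω, Bn n v w ω * (g w * dphi p t x v w ω) ∂sig ≤ 0
  by_cases hg : g w = 0
  · simp [hg]
  by_cases hn : ‖v - w‖ ≤ n
  swap
  · simp [Bn, hn]
  have hR := p.R_ge
  have hRv : p.R ≤ ‖v‖ := by
    by_contra hc
    push Not at hc
    nlinarith [norm_nonneg v]
  have hp := p.pov v w hRv (gs w hg)
  have c0 : Continuous fun ω : S2 => ((v, w, ω) : V × V × S2) := by fun_prop
  have c1 : Continuous fun ω : S2 => |ca v w ω| := (continuous_ca.comp c0).abs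
  have c2 : Continuous fun ω : S2 => |ca v w ω| * (‖vp v w ω‖ ^ 4 + ‖wp v w ω‖ ^ 4) :=
    c1.mul (((continuous_vp.comp c0).norm.pow 4).add ((continuous_wp.comp c0).norm.pow 4))
  have i1 : Integrable (fun ω : S2 => |ca v w ω|) sig :=
    c1.integrable_of_hasCompactSupport (HasCompactSupport.of_compactSpace _)
  have i2 : Integrable (fun ω : S2 => |ca v w ω| * (‖vp v w ω‖ ^ 4 + ‖wp v w ω‖ ^ 4)) sig :=
    c2.integrable_of_hasCompactSupport (HasCompactSupport.of_compactSpace _)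
  by_cases hj : Integrable (fun ω => Bn n v w ω * (g w * dphi p t x v w ω)) sig
  swap
  · rw [integral_undef hj]
  have key : ∫ ω, Bn n v w ω * (g w * dphi p t x v w ω) ∂sig ≤
      ∫ ω, g w * (|ca v w ω| * (‖vp v w ω‖ ^ 4 + ‖wp v w ω‖ ^ 4)
        + |ca v w ω| * (4 + (p.R / 2) ^ 4 - ‖v‖ ^ 4)) ∂sig := by
    refine integral_mono hj ((i2.add (i1.mul_const _)).const_mul _) fun ω => ?_
    have h1 := mul_le_mul_of_nonneg_left (mul_le_mul_of_nonneg_left (ptP_dphi_le p t x v w ω)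
      (g0 w)) (abs_nonneg (ca v w ω))
    simp only [Bn_eq v w ω hn]
    linarith
  refine key.trans ?_
  rw [integral_const_mul, integral_add i2 (i1.mul_const _), integral_mul_const, integral_abs_ca]
  refine mul_nonpos_of_nonneg_of_nonpos (g0 w) ?_
  have hpi := Real.pi_pos
  have h2 : 0 ≤ 2 * Real.pi * ‖v - w‖ := by positivity
  have h3 : 9 / 10 * ‖v‖ ^ 4 + (4 + (p.R / 2) ^ 4 - ‖v‖ ^ 4) ≤ 0 := by
    have h4 : (2 * p.R ^ 2) ^ 2 ≤ (‖v‖ ^ 2) ^ 2 := pow_le_pow_left₀ (by positivity) hv.le 2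
    have h5 : (20 : ℝ) ^ 4 ≤ p.R ^ 4 := pow_le_pow_left₀ (by norm_num) hR 4
    nlinarith
  nlinarith [mul_nonneg h2 (neg_nonneg.2 h3)]

theorem ptP_fast (p : GP) (t : ℝ) (x : T3) {v w : V} (hv : ‖v‖ ^ 2 ≤ 2 * p.R ^ 2) (hw : ‖w‖ ≤ 2)
    (ω : S2) : dphi p t x v w ω ≤ p.C1 := by
  have h1 := ptP_phi0_le p t x (vp v w ω)
  have h2 := ptP_phi0_le p t x (wp v w ω)
  have h3 := ptP_phi0_nonneg p t (x, v)
  have h4 := ptP_four_le v w ω
  have h5 : ‖w‖ ^ 2 ≤ 2 ^ 2 := pow_le_pow_left₀ (norm_nonneg w) hw 2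
  have h6 : (‖v‖ ^ 2 + ‖w‖ ^ 2) ^ 2 ≤ (2 * p.R ^ 2 + 4) ^ 2 :=
    pow_le_pow_left₀ (by positivity) (by linarith) 2
  have h7 := sq_nonneg (2 * p.R ^ 2 + 4)
  unfold dphi GP.C1
  linarith

theorem ptP_energy (U v w : V) (ω : S2) :
    ‖vp v w ω - U‖ ^ 2 + ‖wp v w ω - U‖ ^ 2 = ‖v - U‖ ^ 2 + ‖w - U‖ ^ 2 := by
  have h := energy_post (v - U) (w - U) ω
  have e : ca (v - U) (w - U) ω = ca v w ω := by
    unfold ca
    rw [sub_sub_sub_cancel_right]
  have e1 : vp (v - U) (w - U) ω = vp v w ω - U := by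
    unfold vp
    rw [e]
    abel
  have e2 : wp (v - U) (w - U) ω = wp v w ω - U := by
    unfold wp
    rw [e]
    abel
  rwa [e1, e2] at h

/-- Collisions inside a stream. -/
theorem ptP_slow (p : GP) {t σ : ℝ} (ht : 0 < t) (ht' : t ≤ 1 / 100) (hσ : σ = 1 ∨ σ = -1)
    {x : T3} (hx : ‖X x‖ ≤ 1 / 16) {v w : V} (hvw : ‖v - w‖ ≤ 1 / 4)
    (hw : ‖w - Uf p.c σ t x‖ ≤ 1 / 4) (hw' : ‖w - Uf p.c σ t x‖ ≤ p.ζ4) :
    (∀ ω, dphi p t x v w ω ≤ 2 * p.ζ4 ^ 2) ∧ ‖v - w‖ * p.ζ4 ≤ 3 / 2 * phi0 p t (x, v) := by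
  have hz := p.ζ4_pos
  have h1 : ‖v - Uf p.c σ t x‖ ≤ 1 / 2 := by
    linarith [norm_sub_le_norm_sub_add_norm_sub v w (Uf p.c σ t x)]
  have e0 := phi0_near p ht ht' hσ hx (v := v) (by linarith)
  have a0 := norm_nonneg (v - Uf p.c σ t x)
  have b0 := norm_nonneg (w - Uf p.c σ t x)
  refine ⟨fun ω => ?_, ?_⟩
  · have h2 := ptP_energy (Uf p.c σ t x) v w ω
    have a1 := norm_nonneg (vp v w ω - Uf p.c σ t x)
    have b1 := norm_nonneg (wp v w ω - Uf p.c σ t x)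
    have e1 := phi0_near p ht ht' hσ hx (v := vp v w ω) (by nlinarith)
    have e2 := phi0_near p ht ht' hσ hx (v := wp v w ω) (by nlinarith)
    have h3 : ‖w - Uf p.c σ t x‖ ^ 2 ≤ p.ζ4 ^ 2 := pow_le_pow_left₀ b0 hw' 2
    unfold dphi
    linarith
  · have h2 : ‖v - w‖ ≤ ‖v - Uf p.c σ t x‖ + p.ζ4 := by
      have := norm_sub_le_norm_sub_add_norm_sub v (Uf p.c σ t x) w
      rw [norm_sub_rev (Uf p.c σ t x) w] at this
      linarith
    have h3 := mul_le_mul_of_nonneg_right h2 hz.le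
    nlinarith [sq_nonneg (‖v - Uf p.c σ t x‖ - p.ζ4)]

theorem ptP_bdd_ite {A a : ℝ} {g : V → ℝ} (hg : BddV A g) (ha : 0 ≤ a) {s : Set V}
    (hs : MeasurableSet s) [DecidablePred (· ∈ s)] :
    BddV (A * a) (fun w => (if w ∈ s then g w else 0) * a) := by
  refine ⟨(Measurable.ite hs hg.meas measurable_const).mul_const _, fun w => ?_⟩
  have h1 := hg.le w
  have h2 := mul_nonneg hg.nonneg (Mx_pos w).le
  rw [abs_mul, abs_of_nonneg ha, mul_right_comm]
  refine mul_le_mul_of_nonneg_right ?_ ha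
  split_ifs
  · exact h1
  · rwa [abs_zero]

/-- Collisions with the cold label. -/
theorem small_ptP_c (p : GP) (μ : ℝ) : ForSmall p μ (fun _ _ n t₀ Tf c h k =>
    ∀ t ∈ Icc t₀ Tf, ∀ (x : T3) (v : V), th n (tot c h k t) (x, v) *
      cInt n v (fun w ω => reg n (tot c h k t) (c t) (x, w) * dphi p t x v w ω)
        ≤ 2 * phi0 p t (x, v) / (3 * t) + p.C1 * rf1 p n c h k t (x, v)) := by
  have hR := p.R_ge
  have hz := p.ζ4_pos
  have hpi := Real.pi_pos
  have hc := p.c_pos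
  have hC1 : 0 ≤ p.C1 := by unfold GP.C1; positivity
  refine (((forSmall_le p μ hz).and (small_ok p μ)).and (small_rf_le p μ)).mono
    fun e0 r1 n t₀ Tf c h k G hs t ht x v => ?_
  obtain ⟨⟨⟨he, -⟩, hP, hT, -⟩, hrf⟩ := hs
  have hn := G.n_pos
  have S := G.sys
  have t0 : 0 < t := G.t_pos.trans_le ht.1
  have t1 : t ≤ 1 / 100 := ht.2.trans hT
  have hK : 0 < p.K := hP.K_pos
  have f0 := ptP_phi0_nonneg p t (x, v)
  have f1 := ptP_phi0_pos p t (x, v)
  have th0 := th_pos (z := (x, v)) hn (S.tot_nonneg t _)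
  have th1 := th_le_one (z := (x, v)) hn (S.tot_nonneg t _)
  have r0 := S.rf_nonneg hn p t (x, v)
  have r1' : 0 ≤ rf1 p n c h k t (x, v) := by
    unfold rf1 rf2
    split_ifs
    exacts [r0, le_rfl, le_rfl]
  obtain ⟨g, hg⟩ : ∃ g : V → ℝ, g = fun w => reg n (tot c h k t) (c t) (x, w) := ⟨_, rfl⟩
  have gb : BddV n g := hg ▸ S.sys_bdd hn S.mc S.c0 (fun s z =>
    (le_add_of_nonneg_right (S.h0 s z)).trans (S.sys_two_le s z)) t x
  have g0 : ∀ w, 0 ≤ g w := fun w => hg ▸ reg_nonneg hn (S.tot_nonneg _ _) (S.c0 _ _)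
  have gle : ∀ w, g w ≤ cf (p.cp e0 r1) t (x, w) := fun w => hg ▸
    (reg_le hn (S.tot_nonneg _ _) (S.c0 _ _)).trans (S.c_le_cf hn G.init ht.1 _)
  have gne : ∀ w, g w ≠ 0 → cf (p.cp e0 r1) t (x, w) ≠ 0 := fun w hw =>
    (((g0 w).lt_of_ne' hw).trans_le (gle w)).ne'
  have gs : ∀ w, g w ≠ 0 → ‖w‖ ≤ 2 := fun w hw => (cf_supp hP t0 t1 (gne w hw)).2.2
  have e : (fun w ω => reg n (tot c h k t) (c t) (x, w) * dphi p t x v w ω)
      = fun w ω => g w * dphi p t x v w ω := by rw [hg]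
  rw [e]
  by_cases hv : ‖v‖ ^ 2 ≤ 2 * p.R ^ 2
  swap
  · refine (mul_nonpos_of_nonneg_of_nonpos th0.le (ptP_big p n t x (not_le.1 hv) g0 gs)).trans ?_
    positivity
  obtain ⟨σ, hσ, -, hcf⟩ := cf_one hP t0 t1 x
  have slow : ∀ w, g w ≠ 0 → ¬p.ζ5 ≤ ‖v - w‖ →
      (∀ ω, dphi p t x v w ω ≤ 2 * p.ζ4 ^ 2) ∧ ‖v - w‖ * p.ζ4 ≤ 3 / 2 * phi0 p t (x, v) := by
    intro w hw hvw
    have h1 := gne w hw
    rw [hcf] at h1
    obtain ⟨-, h2, -, -, h3, -⟩ := cf1_supp hP hσ t0 t1 h1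
    have h4 : epsf p.c e0 t x ≤ e0 / 256 := Ef_le G.e_pos.le _
    have h5 : ‖w - Uf p.c σ t x‖ ≤ 4 * epsf p.c e0 t x := h3
    have h6 := p.ζ5_le
    have h7 := p.ζ4_le
    exact ptP_slow p t0 t1 hσ h2 (by linarith [not_le.1 hvw]) (by linarith) (by linarith)
  have ms : MeasurableSet {w : V | p.ζ5 ≤ ‖v - w‖} :=
    measurableSet_le measurable_const (measurable_const.sub measurable_id).norm
  have b1 : BddV (n * 1) (fun w => (if p.ζ5 ≤ ‖v - w‖ then g w else 0) * 1) :=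
    ptP_bdd_ite gb zero_le_one ms
  have b2 : BddV (n * (2 * p.ζ4 ^ 2))
      (fun w => (if ¬p.ζ5 ≤ ‖v - w‖ then g w else 0) * (2 * p.ζ4 ^ 2)) :=
    ptP_bdd_ite gb (by positivity) ms.compl
  simp only [mul_one] at b1
  have i1 := nuN_integrable hn.le b1 v
  have i2 := nuN_integrable hn.le b2 v
  have p1 : ∀ w, 0 ≤ (if p.ζ5 ≤ ‖v - w‖ then g w else 0) := fun w => by
    split_ifs
    exacts [g0 w, le_rfl]
  have p2 : ∀ w, 0 ≤ (if ¬p.ζ5 ≤ ‖v - w‖ then g w else 0) * (2 * p.ζ4 ^ 2) := fun w => by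
    refine mul_nonneg ?_ (by positivity)
    split_ifs
    exacts [le_rfl, g0 w]
  have split : cInt n v (fun w ω => g w * dphi p t x v w ω)
      ≤ p.C1 * nuN n (fun w => if p.ζ5 ≤ ‖v - w‖ then g w else 0) v
        + nuN n (fun w => (if ¬p.ζ5 ≤ ‖v - w‖ then g w else 0) * (2 * p.ζ4 ^ 2)) v := by
    unfold cInt nuN
    rw [← integral_const_mul, ← integral_add (i1.const_mul _) i2]
    refine ptP_int_mono ((i1.const_mul _).add i2) (integral_nonneg fun q => add_nonneg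
      (mul_nonneg hC1 (mul_nonneg (Bn_nonneg _ _ _ _) (p1 _)))
      (mul_nonneg (Bn_nonneg _ _ _ _) (p2 _))) fun q => ?_
    have hB := Bn_nonneg v q.1 q.2 n
    by_cases hw : g q.1 = 0
    · simp [hw]
    by_cases hvw : p.ζ5 ≤ ‖v - q.1‖
    · have := mul_le_mul_of_nonneg_left (mul_le_mul_of_nonneg_left
        (ptP_fast p t x hv (gs _ hw) q.2) (g0 q.1)) hB
      simp only [hvw, if_true, not_true, if_false]
      linarith
    · have := mul_le_mul_of_nonneg_left (mul_le_mul_of_nonneg_left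
        ((slow _ hw hvw).1 q.2) (g0 q.1)) hB
      simp only [hvw, if_true, not_false_eq_true, if_false]
      linarith
  have hslow : nuN n (fun w => (if ¬p.ζ5 ≤ ‖v - w‖ then g w else 0) * (2 * p.ζ4 ^ 2)) v
      ≤ phi0 p t (x, v) / (3 * t) := by
    refine ptP_cInt_le (n := n) (v := v)
      (F := fun w _ => (if ¬p.ζ5 ≤ ‖v - w‖ then g w else 0) * (2 * p.ζ4 ^ 2)) p2
      (fun _ _ => le_rfl) (by positivity) ?_
    have h1 : ∀ w, ENNReal.ofReal (2 * Real.pi * ‖v - w‖ *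
        ((if ¬p.ζ5 ≤ ‖v - w‖ then g w else 0) * (2 * p.ζ4 ^ 2)))
        ≤ ENNReal.ofReal (6 * Real.pi * p.ζ4 * phi0 p t (x, v))
          * ENNReal.ofReal (cf (p.cp e0 r1) t (x, w)) := fun w => by
      rw [← ENNReal.ofReal_mul (by positivity)]
      refine ENNReal.ofReal_le_ofReal ?_
      have h2 := (g0 w).trans (gle w)
      by_cases hw : g w = 0
      · simp only [hw, ite_self, zero_mul, mul_zero]
        positivity
      by_cases hvw : p.ζ5 ≤ ‖v - w‖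
      · simp only [hvw, not_true, if_false, zero_mul, mul_zero]
        positivity
      simp only [hvw, if_true, not_false_eq_true]
      have h3 := mul_le_mul (slow w hw hvw).2 (gle w) (g0 w) (by positivity)
      have h4 := mul_le_mul_of_nonneg_left h3 (by positivity : 0 ≤ 4 * Real.pi * p.ζ4)
      linarith
    refine (lintegral_mono h1).trans ?_
    rw [lintegral_const_mul' _ _ ENNReal.ofReal_ne_top]
    refine (mul_le_mul_right (cf_dens hP t0 t1 x) _).trans ?_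
    split_ifs with hx
    swap
    · simp
    rw [← ENNReal.ofReal_mul (by positivity)]
    refine ENNReal.ofReal_le_ofReal ?_
    have hx' : p.c * t < ‖X x‖ := hx
    have x0 : 0 < ‖X x‖ := (mul_pos hc t0).trans hx'
    show 6 * Real.pi * p.ζ4 * phi0 p t (x, v) * (256 * p.K / ‖X x‖) ≤ _
    rw [← mul_div_assoc, div_le_div_iff₀ x0 (by positivity)]
    have h2 : 4608 * Real.pi * (p.K * p.ζ4) ≤ p.c := by
      nlinarith [Real.pi_lt_d2, p.ζ4_K, mul_pos hK hz]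
    have h3 := mul_le_mul_of_nonneg_left
      ((mul_le_mul_of_nonneg_right h2 t0.le).trans hx'.le) f0
    linarith
  have hfast : p.C1 * rf p n c h k t (x, v)
      ≤ phi0 p t (x, v) / (3 * t) + p.C1 * rf1 p n c h k t (x, v) := by
    by_cases hy : ‖X x‖ / t ≤ p.y3
    · have : rf1 p n c h k t (x, v) = rf p n c h k t (x, v) := by
        unfold rf1 rf2
        rw [if_pos hy, if_pos hv]
      rw [this]
      exact le_add_of_nonneg_left (by positivity)
    · refine le_trans ?_ (le_add_of_nonneg_right (mul_nonneg hC1 r1'))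
      rw [not_le, lt_div_iff₀ t0] at hy
      have y0 : 0 < p.y3 := by linarith [p.y3_ge]
      have x0 : 0 < ‖X x‖ := (mul_pos y0 t0).trans hy
      have hv2 : ‖v‖ ≤ 2 * p.R := by
        by_contra hc
        push Not at hc
        nlinarith
      have h1 : rf p n c h k t (x, v) ≤ 2 * Real.pi * (2 * p.R + 2) * 256 * p.K / ‖X x‖ := by
        refine (hrf t ht (x, v)).trans ?_
        split_ifs
        · gcongr
        · positivity
      have h2 : 3 * p.C1 * (2 * Real.pi * (2 * p.R + 2) * 256 * p.K) ≤ p.ζ4 ^ 2 * p.y3 := p.y3_K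
      refine (mul_le_mul_of_nonneg_left h1 hC1).trans ?_
      rw [← mul_div_assoc, div_le_div_iff₀ x0 (by positivity)]
      have h3 := mul_le_mul_of_nonneg_right h2 t0.le
      have h4 := mul_le_mul f1 hy.le (by positivity) f0
      linarith
  have erf : rf p n c h k t (x, v) = th n (tot c h k t) (x, v) *
      nuN n (fun w => if p.ζ5 ≤ ‖v - w‖ then g w else 0) v := by
    rw [hg]
    rfl
  have h1 := mul_le_mul_of_nonneg_left (split.trans (add_le_add le_rfl hslow)) th0.le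
  have h2 := mul_le_of_le_one_left (by positivity : 0 ≤ phi0 p t (x, v) / (3 * t)) th1
  have h3 : 2 * phi0 p t (x, v) / (3 * t)
      = phi0 p t (x, v) / (3 * t) + phi0 p t (x, v) / (3 * t) := by ring
  rw [erf] at hfast
  linarith

theorem ptP_grow (p : GP) (t : ℝ) (x : T3) {v w u : V} (h : ‖u‖ ≤ ‖v‖ + ‖w‖) :
    |phi0 p t (x, u)| ≤ 2 * (1 + ‖v‖) ^ 4 * (1 + ‖w‖) ^ 4 := by
  refine (abs_phi0_le p t (x, u)).trans ?_
  rw [mul_assoc, ← mul_pow]
  refine mul_le_mul_of_nonneg_left (pow_le_pow_left₀ (by positivity) ?_ 4) (by norm_num)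
  nlinarith [mul_nonneg (norm_nonneg v) (norm_nonneg w)]

theorem ptP_meas (p : GP) (t : ℝ) (x : T3) {u : V × S2 → V} (hu : Measurable u) :
    Measurable fun q => phi0 p t (x, u q) :=
  QMeas_app (f := phi0 p) (measurable_phi0 p) measurable_const (measurable_const.prodMk hu)

theorem small_ptP (p : GP) {μ : ℝ} (hμ : 0 ≤ μ) : ForSmall p μ (fun _ _ n t₀ Tf c h k =>
    ∀ t ∈ Icc t₀ Tf, ∀ z : Ph,
      dualG n c h k t (phi0 p t) z - lam n (tot c h k t) z * phi0 p t z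
        ≤ phi0 p t z / t + p.C1 * rf1 p n c h k t z) := by
  refine ((small_ptP_h p hμ).and (small_ptP_c p μ)).mono
    fun e0 r1 n t₀ Tf c h k G hs t ht z => ?_
  obtain ⟨x, v⟩ := z
  have H1 := hs.1 t ht x v
  have H2 := hs.2 t ht x v
  have hn := G.n_pos
  have S := G.sys
  have t0 : 0 < t := G.t_pos.trans_le ht.1
  have f0 := ptP_phi0_nonneg p t (x, v)
  have th0 := th_pos (z := (x, v)) hn (S.tot_nonneg t _)
  have th1 := th_le_one (z := (x, v)) hn (S.tot_nonneg t _)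
  have mv := ptP_meas p t x (qapi_mvp v)
  have mw := ptP_meas p t x (qapi_mwp v)
  have md : Measurable fun q : V × S2 => dphi p t x v q.1 q.2 := by
    unfold dphi
    exact (mv.add mw).sub_const _
  have gv := fun w ω => ptP_grow p t x (norm_vp_le v w ω)
  have gw := fun w ω => ptP_grow p t x (norm_wp_le v w ω)
  have gd : ∀ w ω, |dphi p t x v w ω| ≤ 6 * (1 + ‖v‖) ^ 4 * (1 + ‖w‖) ^ 4 := fun w ω => by
    have h1 := abs_le.1 (gv w ω)
    have h2 := abs_le.1 (gw w ω)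
    have h3 := abs_le.1 (ptP_grow p t x (le_add_of_nonneg_right (norm_nonneg w) : ‖v‖ ≤ _))
    unfold dphi
    rw [abs_le]
    constructor <;> linarith [h1.1, h1.2, h2.1, h2.2, h3.1, h3.2]
  have bc := S.sys_bdd hn S.mc S.c0 (fun s z =>
    (le_add_of_nonneg_right (S.h0 s z)).trans (S.sys_two_le s z)) t x
  have bh := S.sys_bdd hn S.mh S.h0 (fun s z =>
    (le_add_of_nonneg_left (S.c0 s z)).trans (S.sys_two_le s z)) t x
  have I1 := cInt_integrable hn.le (S.sys_bddt hn t x) v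
    (H := fun w ω => phi0 p t (x, wp v w ω)) mw gw
  have I2 := cInt_integrable hn.le (S.sys_bdd2 hn t x) v
    (H := fun w ω => phi0 p t (x, vp v w ω)) mv gv
  have I3 := (nuN_integrable hn.le (S.sys_bddt hn t x) v).mul_const (phi0 p t (x, v))
  have J1 := cInt_integrable hn.le bc v (H := fun w ω => dphi p t x v w ω) md gd
  have J2 := cInt_integrable hn.le (bh.add (S.sys_bddk hn t x)) v
    (H := fun w ω => dphi p t x v w ω) md gd
  have I12 : Integrable (fun q : V × S2 => Bn n v q.1 q.2 *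
      (til n (tot c h k t) (x, q.1) * phi0 p t (x, wp v q.1 q.2)
        + reg n (tot c h k t) (two c h t) (x, q.1) * phi0 p t (x, vp v q.1 q.2)))
      (volume.prod sig) := (I1.add I2).congr (Eventually.of_forall fun q => (mul_add _ _ _).symm)
  have key : cInt n v (fun w ω => til n (tot c h k t) (x, w) * phi0 p t (x, wp v w ω)
        + reg n (tot c h k t) (two c h t) (x, w) * phi0 p t (x, vp v w ω))
      - nuN n (sl (til n (tot c h k t)) x) v * phi0 p t (x, v)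
      ≤ cInt n v (fun w ω => reg n (tot c h k t) (c t) (x, w) * dphi p t x v w ω)
        + cInt n v (fun w ω => (reg n (tot c h k t) (h t) (x, w)
          + reg n (tot c h k t) (k t) (x, w)) * dphi p t x v w ω) := by
    unfold cInt nuN
    rw [← integral_mul_const, ← integral_sub I12 I3]
    refine le_trans (integral_mono (I12.sub I3) (J1.add J2) fun q => ?_)
      (integral_add J1 J2).le
    have h1 := mul_nonneg (Bn_nonneg v q.1 q.2 n) (mul_nonneg
      (reg_nonneg (f := k t) (z := (x, q.1)) hn (S.tot_nonneg t _) (S.k0 t _))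
      (ptP_phi0_nonneg p t (x, vp v q.1 q.2)))
    simp only [Pi.add_apply, sl, til, reg, tot, two, dphi] at h1 ⊢
    linarith
  have h1 := mul_le_mul_of_nonneg_left (key.trans (add_le_add le_rfl H1)) th0.le
  have h2 := mul_le_of_le_one_left (by positivity : 0 ≤ phi0 p t (x, v) / (3 * t)) th1
  have h3 : phi0 p t (x, v) / t
      = 2 * phi0 p t (x, v) / (3 * t) + phi0 p t (x, v) / (3 * t) := by field_simp; ring
  unfold dualG lam rateN
  simp only
  linarith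

end

end Vale.Agent.P140
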