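import Vale.Agent.P140.PtG
import Vale.Agent.P140.PtP

/-! The growth estimate. -/

namespace Vale.Agent.P140

open MeasureTheory Set Filter Topology
open scoped ENNReal RealInnerProductSpace

noncomputable section

/-- Measurable test functions of polynomial growth `j` on a time interval. -/
structure funT (j : ℕ) (a b : ℝ) (φ : ℝ → Ph → ℝ) : Prop where
  meas : Measurable fun q : ℝ × Ph => φ q.1 q.2
  bd : ∃ C : ℝ, 0 ≤ C ∧ ∀ t ∈ Icc a b, ∀ z : Ph, |φ t z| ≤ C * (1 + ‖z.2‖) ^ j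

variable {a b n t₀ : ℝ} {φ ψ c h k : ℝ → Ph → ℝ} {i j : ℕ}

theorem funT.up (hφ : funT i a b φ) (hij : i ≤ j) : funT j a b φ := by
  obtain ⟨C, h0, hC⟩ := hφ.bd
  exact ⟨hφ.meas, C, h0, fun t ht z => (hC t ht z).trans (mul_le_mul_of_nonneg_left
    (pow_le_pow_right₀ (le_add_of_nonneg_right (norm_nonneg _)) hij) h0)⟩

theorem funT.of_bdd (hm : Measurable fun q : ℝ × Ph => φ q.1 q.2) {C : ℝ}
    (hC : ∀ t ∈ Icc a b, ∀ z : Ph, |φ t z| ≤ C) : funT 0 a b φ :=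
  ⟨hm, |C|, abs_nonneg _, fun t ht z => by
    rw [pow_zero, mul_one]
    exact (hC t ht z).trans (le_abs_self _)⟩

theorem funT.add (hφ : funT j a b φ) (hψ : funT j a b ψ) :
    funT j a b fun t z => φ t z + ψ t z := by
  obtain ⟨C, h0, hC⟩ := hφ.bd
  obtain ⟨D, h1, hD⟩ := hψ.bd
  exact ⟨hφ.meas.add hψ.meas, C + D, add_nonneg h0 h1, fun t ht z =>
    (abs_add_le _ _).trans (by linarith [hC t ht z, hD t ht z])⟩

theorem funT.sub (hφ : funT j a b φ) (hψ : funT j a b ψ) :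
    funT j a b fun t z => φ t z - ψ t z := by
  obtain ⟨C, h0, hC⟩ := hφ.bd
  obtain ⟨D, h1, hD⟩ := hψ.bd
  exact ⟨hφ.meas.sub hψ.meas, C + D, add_nonneg h0 h1, fun t ht z =>
    (abs_sub _ _).trans (by linarith [hC t ht z, hD t ht z])⟩

theorem funT.mul (hφ : funT 0 a b φ) (hψ : funT j a b ψ) :
    funT j a b fun t z => φ t z * ψ t z := by
  obtain ⟨C, h0, hC⟩ := hφ.bd
  obtain ⟨D, h1, hD⟩ := hψ.bd
  refine ⟨hφ.meas.mul hψ.meas, C * D, mul_nonneg h0 h1, fun t ht z => ?_⟩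
  have h2 := hC t ht z
  rw [pow_zero, mul_one] at h2
  rw [abs_mul, mul_assoc]
  exact mul_le_mul h2 (hD t ht z) (abs_nonneg _) h0

theorem funT.const (a b A : ℝ) : funT 0 a b fun _ _ => A :=
  funT.of_bdd measurable_const fun _ _ _ => le_rfl

theorem funT.inv_pow (ha : 0 < a) (b : ℝ) (m : ℕ) : funT 0 a b fun t _ => (t ^ m)⁻¹ :=
  funT.of_bdd (by fun_prop) (C := (a ^ m)⁻¹) fun t ht _ => by
    rw [abs_of_pos (inv_pos.2 (pow_pos (ha.trans_le ht.1) m))]
    exact inv_anti₀ (pow_pos ha m) (pow_le_pow_left₀ ha.le ht.1 m)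

theorem funT.meas_t (hφ : funT j a b φ) (t : ℝ) : Measurable (φ t) :=
  hφ.meas.comp (measurable_const.prodMk measurable_id)

theorem funT.dual (hn : 0 < n) (S : Sys n t₀ c h k) (hφ : funT 4 a b φ) :
    funT 4 a b fun t => dualG n c h k t (φ t) := by
  obtain ⟨D, h0, hD⟩ := Sys.abs_dualG_le hn
  obtain ⟨C, h1, hC⟩ := hφ.bd
  exact ⟨S.meas_dualG hφ.meas, D * C, mul_nonneg h0 h1, fun t ht z =>
    hD S t C (φ t) (hφ.meas_t t) (hC t ht) z⟩

theorem funT.int (S : Sys n t₀ c h k) (hφ : funT 4 t₀ b φ) {t : ℝ} (ht : t ∈ Icc t₀ b) :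
    Integrable fun z => k t z * φ t z := by
  obtain ⟨C, -, hC⟩ := (hφ.up (j := 5) (by norm_num)).bd
  exact S.k_integrable_mul ht.1 (hφ.meas_t t) (hC t ht)

theorem funT.ii (S : Sys n t₀ c h k) (hφ : funT 4 t₀ b φ) {s t : ℝ} (hs : t₀ ≤ s) (hst : s ≤ t)
    (ht : t ≤ b) : IntervalIntegrable (fun u => ∫ z, k u z * φ u z) volume s t := by
  obtain ⟨C, -, hC⟩ := (hφ.up (j := 5) (by norm_num)).bd
  exact S.pair_int hs hst hφ.meas fun u hu => hC u ⟨hs.trans hu.1, hu.2.trans ht⟩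

theorem funT.le (S : Sys n t₀ c h k) (hφ : funT 4 t₀ b φ) (hψ : funT 4 t₀ b ψ) {t A B : ℝ}
    (ht : t ∈ Icc t₀ b) (hle : ∀ z, k t z ≠ 0 → A * φ t z ≤ B * ψ t z) :
    A * ∫ z, k t z * φ t z ≤ B * ∫ z, k t z * ψ t z := by
  rw [← integral_const_mul, ← integral_const_mul]
  refine integral_mono ((hφ.int S ht).const_mul _) ((hψ.int S ht).const_mul _) fun z => ?_
  by_cases h0 : k t z = 0
  · simp [h0]
  · have := mul_le_mul_of_nonneg_left (hle z h0) (S.k0 t z)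
    dsimp only
    linarith

theorem funT.le2 (S : Sys n t₀ c h k) (hφ : funT 4 t₀ b φ) (hψ : funT 4 t₀ b ψ) {s t A B : ℝ}
    (hs : t₀ ≤ s) (hst : s ≤ t) (ht : t ≤ b) (hle : ∀ u ∈ Icc s t, ∀ z, A * φ u z ≤ B * ψ u z) :
    A * ∫ u in s..t, ∫ z, k u z * φ u z ≤ B * ∫ u in s..t, ∫ z, k u z * ψ u z := by
  rw [← intervalIntegral.integral_const_mul, ← intervalIntegral.integral_const_mul]
  exact intervalIntegral.integral_mono_on hst ((hφ.ii S hs hst ht).const_mul _)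
    ((hψ.ii S hs hst ht).const_mul _) fun u hu =>
      hφ.le S hψ ⟨hs.trans hu.1, hu.2.trans ht⟩ fun z _ => hle u hu z

theorem fun_rf (hn : 0 < n) (S : Sys n t₀ c h k) (p : GP) (t : ℝ) (z : Ph) :
    0 ≤ rf1 p n c h k t z ∧ rf1 p n c h k t z ≤ rf2 p n c h k t z ∧
      rf2 p n c h k t z ≤ 4 * Real.pi * n * n := by
  have h1 := S.rf_nonneg hn p t z
  have h2 := (S.rf_le_lam hn p t z).trans (lam_le hn
    (S.meas_tot.comp (measurable_const.prodMk measurable_id)) (S.tot_nonneg t))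
  unfold rf1 rf2
  split_ifs <;> exact ⟨by linarith, by linarith, by linarith⟩

theorem growth (p : GP) : ∃ CG : ℝ, 0 < CG ∧ ∀ μ : ℝ, 0 ≤ μ →
    ForSmall p μ (fun _ _ _ t₀ Tf _ _ k => (∀ z, k t₀ z ≠ 0 → z ∈ seedSet t₀) →
      ∀ t ∈ Icc t₀ Tf, ∫ z, k t z ≤ CG * (t / Tf) ^ 121 * ∫ z in Hot p.ζ2, k Tf z) := by
  have hlw := p.four_le_lw
  have hζ := pow_pos p.ζ4_pos 2
  have hκ : 0 < p.chi0 / 10 := div_pos p.chi0_pos (by norm_num)
  have hC1 : 0 < p.C1 := by unfold GP.C1; positivity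
  have hq : 0 < p.q := Real.exp_pos _
  have hCr : 0 ≤ p.Cr := by
    have := p.R_ge
    have := p.K_pos
    have := p.c_pos
    unfold GP.Cr
    positivity
  refine ⟨p.C1 / (p.chi0 / 10 * p.ζ4 ^ 2) * Real.exp ((1 + p.C1 * p.Cr / p.ζ4 ^ 2) * p.lw) *
    p.lw ^ 121 * (8 / 5 * (2 / p.q)), mul_pos (mul_pos (mul_pos (div_pos hC1 (mul_pos hκ hζ))
      (Real.exp_pos _)) (pow_pos (by linarith) _)) (by positivity), fun μ hμ => ?_⟩
  refine (((small_ptG p hμ).and (small_ptH p hμ)).and ((small_ptP p hμ).and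
    ((small_seed p hμ).and (small_rf2_le p μ)))).mono ?_
  rintro e0 r1 n t₀ Tf c h k G ⟨⟨hG, hH⟩, hP, hS, hR⟩ hseed t ht
  have hn := G.n_pos
  have S := G.sys
  have h0 := G.t_pos
  have h01 := G.t_le'
  have h1 : Tf / p.lw ≤ Tf := div_le_self (by linarith [ht.1, ht.2]) (by linarith)
  obtain ⟨C, hC⟩ := S.Gt_bdd hn p h0 Tf
  have t1 : funT 4 t₀ Tf fun _ _ => 1 := (funT.const _ _ _).up (by norm_num)
  have tP : funT 4 t₀ Tf (phi0 p) := ⟨measurable_phi0 p, 2, by norm_num, fun t _ => abs_phi0_le p t⟩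
  have tI : funT 4 t₀ Tf (rf1 p n c h k) := (funT.of_bdd (S.meas_rf1 p) fun t _ z => by
    obtain ⟨k1, k2, k3⟩ := fun_rf hn S p t z
    exact (abs_of_nonneg k1).le.trans (k2.trans k3)).up (by norm_num)
  have tG : funT 4 t₀ Tf (Gt p n Tf c h k) :=
    (funT.of_bdd (S.meas_Gt p Tf) fun t ht z => (hC t ht z).1).up (by norm_num)
  have ms : Measurable fun q : ℝ × Ph => (q.1 ^ 121)⁻¹ * gg p n c h k q.1 q.2 :=
    Measurable.mul (by fun_prop) (S.meas_gg p)
  have tD := (tG.dual hn S).sub ((funT.of_bdd (φ := fun t z => (t ^ 121)⁻¹ * gg p n c h k t z) ms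
    fun t ht z => (hC t ht z).2).up (by norm_num))
  have b2 : ∀ u ∈ Icc t₀ Tf, ∀ z, |G2 p n Tf c h k u z| ≤ 1 := fun u hu z =>
    abs_le.2 ⟨by linarith [(S.G2_mem hn p hu.2 z).1], (S.G2_mem hn p hu.2 z).2⟩
  have t2 : funT 4 t₀ Tf (G2 p n Tf c h k) := (funT.of_bdd (S.meas_G2 p Tf) b2).up (by norm_num)
  have tL : funT 0 t₀ Tf fun u => lam n (tot c h k u) := funT.of_bdd S.meas_lam fun u _ z =>
    (abs_of_nonneg (lam_nonneg hn (S.tot_nonneg u))).le.trans (lam_le hn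
      (S.meas_tot.comp (measurable_const.prodMk measurable_id)) (S.tot_nonneg u))
  have eG := fun s t (hs : t₀ ≤ s) (hst : s ≤ t) (ht : t ≤ Tf) => S.pair_eq hn hs hst
    (s := fun t z => (t ^ 121)⁻¹ * gg p n c h k t z) (S.meas_Gt p Tf) ms
    (fun u hu => hC u ⟨hs.trans hu.1, hu.2.trans ht⟩) (S.prim_Gt hn p (h0.trans_le hs) hst ht)
  have key := growth_abstract (m := fun t => ∫ z, k t z * 1) (Φ := fun t => ∫ z, k t z * phi0 p t z)
    (Γ := fun t => ∫ z, k t z * Gt p n Tf c h k t z) (I := fun t => ∫ z, k t z * rf1 p n c h k t z)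
    (B := 8 / 5 * (2 / p.q)) (H := ∫ z in Hot p.ζ2, k Tf z) h0 h01 (by linarith)
    (div_mul_cancel₀ Tf (by linarith)) hζ hκ hC1 hCr (by positivity)
    (integral_nonneg fun z => S.k0 Tf z) (tI.ii S le_rfl (h01.trans h1) le_rfl)
    (tP.ii S le_rfl (h01.trans h1) le_rfl) (fun u hu => ⟨?_, ?_⟩) (fun u hu => ⟨?_, ?_⟩)
    (fun s u hs hsu hu => ?_) (fun s u hs hsu hu => ?_) ?_ ?_ t ht
  · simpa only [mul_one] using key
  · exact integral_nonneg fun z => mul_nonneg (S.k0 u z) zero_le_one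
  · exact (t1.le S tP (B := 1) hu fun z _ => by linarith [ptP_phi0_pos p u z]).trans_eq (one_mul _)
  · exact integral_nonneg fun z => mul_nonneg (S.k0 u z) (fun_rf hn S p u z).1
  · exact (one_mul _).ge.trans (tI.le S t1 hu fun z _ => by
      linarith [hR u hu z, (fun_rf hn S p u z).2.1])
  · have k1 := ((funT.inv_pow h0 Tf 121).mul tI).le2 S tD (A := p.chi0 / 10) (B := 1) hs hsu
      (hu.trans h1) fun r hr z => by linarith [hG r ⟨hs.trans hr.1, hr.2.trans hu⟩ z]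
    simp only [mul_left_comm _ (_ ^ 121)⁻¹, integral_const_mul] at k1
    rw [eG s u hs hsu (hu.trans h1)]
    linarith
  · have k0 := ((funT.inv_pow h0 Tf 1).mul tP)
    have k2 := ((funT.const t₀ Tf p.C1).mul tI)
    have k1 := ((tP.dual hn S).sub (tL.mul tP)).le2 S (k0.add k2) (A := 1) (B := 1) hs hsu hu
      fun r hr z => by
        have := hP r ⟨hs.trans hr.1, hr.2.trans hu⟩ z
        rw [div_eq_inv_mul] at this
        rw [pow_one]
        linarith
    have k3 := S.pair_le hn hs hsu (measurable_phi0 p) (fun r _ => abs_phi0_le p r)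
      (phi0_anti p (h0.trans_le hs))
    refine k3.trans (add_le_add le_rfl ((one_mul _).ge.trans (k1.trans ((one_mul _).trans
      (intervalIntegral.integral_congr fun r hr => ?_)).le)))
    rw [uIcc_of_le hsu] at hr
    have k4 : r ∈ Icc t₀ Tf := ⟨hs.trans hr.1, hr.2.trans hu⟩
    simp only [mul_add]
    rw [integral_add (k0.int S k4) (k2.int S k4)]
    simp only [mul_left_comm _ (_ ^ 1)⁻¹, mul_left_comm _ p.C1, integral_const_mul]
    rw [pow_one, div_eq_inv_mul]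
  · rw [← mul_assoc]
    exact (tP.le S tG (B := 1) ⟨le_rfl, h01.trans h1⟩ fun z hz => by
      linarith [hS z (hseed z hz)]).trans_eq (one_mul _)
  · have k1 := eG _ _ h01 h1 le_rfl
    have k2 := S.pair_eq hn h01 h1 (s := fun _ _ => 0) (C := 1) (S.meas_G2 p Tf) measurable_const
      (fun u hu z => ⟨b2 u ⟨h01.trans hu.1, hu.2⟩ z, by simp⟩) (S.prim_G2 hn p h1 le_rfl)
    have k3 := tD.le2 S ((t2.dual hn S).sub ((funT.const t₀ Tf 0).up (by norm_num))) (A := -1)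
      (B := ((Tf / p.lw) ^ 121)⁻¹ * (8 / 5 * (2 / p.q))) h01 h1 le_rfl fun u hu z => by
        have l0 := h0.trans_le (h01.trans hu.1)
        have l1 := ptG_pos p (t := u) hn S (tG.meas_t u) (S.Gt_nonneg hn p l0 hu.2)
          (fun y => (le_abs_self _).trans (hC u ⟨h01.trans hu.1, hu.2⟩ y).1) z
        have l2 : rf2 p n c h k u z ≤ 2 / p.q * dualG n c h k u (G2 p n Tf c h k u) z := by
          rw [div_mul_eq_mul_div, le_div_iff₀ hq]
          linarith [hH u hu z]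
        have l3 := mul_le_mul (inv_anti₀ (pow_pos (h0.trans_le h01) 121)
          (pow_le_pow_left₀ (h0.trans_le h01).le hu.1 121)) ((S.gg_le hn p u z).trans
          (mul_le_mul_of_nonneg_left l2 (by norm_num))) (S.gg_nonneg hn p u z)
          (inv_pos.2 (pow_pos (h0.trans_le h01) 121)).le
        linarith
    have k4 : 0 ≤ ∫ z, k (Tf / p.lw) z * G2 p n Tf c h k (Tf / p.lw) z :=
      integral_nonneg fun z => mul_nonneg (S.k0 _ z) (S.G2_mem hn p h1 z).1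
    have k5 : ∫ z, k Tf z * G2 p n Tf c h k Tf z ≤ ∫ z in Hot p.ζ2, k Tf z := by
      rw [← integral_indicator (measurableSet_Hot _)]
      refine integral_mono (t2.int S ⟨h01.trans h1, le_rfl⟩) (Integrable.indicator (by
        simpa using t1.int S ⟨h01.trans h1, le_rfl⟩) (measurableSet_Hot _)) fun z => ?_
      refine (mul_le_mul_of_nonneg_left (G2_end_le p n Tf c h k z) (S.k0 _ z)).trans_eq ?_
      by_cases hz : z ∈ Hot p.ζ2 <;> simp [hz]
    simp only [Gt_end, mul_zero, integral_zero] at k1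
    have k6 := mul_le_mul_of_nonneg_left (show (∫ u in Tf / p.lw..Tf, ∫ z, k u z *
      (dualG n c h k u (G2 p n Tf c h k u) z - 0)) ≤ ∫ z in Hot p.ζ2, k Tf z by linarith)
      (show 0 ≤ ((Tf / p.lw) ^ 121)⁻¹ * (8 / 5 * (2 / p.q)) from
        mul_nonneg (inv_pos.2 (pow_pos (h0.trans_le h01) 121)).le (by positivity))
    linarith

end

end Vale.Agent.P140
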