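import Vale.Agent.P140.Gain0

/-! Limits of the gain term against strongly convergent multipliers. -/

namespace Vale.Agent.P140

open MeasureTheory Set Filter Topology
open scoped ENNReal RealInnerProductSpace

noncomputable section

theorem gn_lim (x : ℝ) : Tendsto (fun j : ℕ => 1 + 1 / ((j : ℝ) + 1) * x) atTop (𝓝 1) := by
  simpa only [zero_mul, add_zero] using
    ((tendsto_one_div_add_atTop_nhds_zero_nat (𝕜 := ℝ)).mul_const x).const_add 1

theorem gn_mem {d x : ℝ} (hd : 0 ≤ d) (hx : 0 ≤ x) : 1 / (1 + d * x) ∈ Icc (0 : ℝ) 1 :=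
  ⟨by positivity, (div_le_one (by positivity)).2 (le_add_of_nonneg_right (by positivity))⟩

theorem gn_pt {d m u g r q L a s s₀ ν : ℝ} {c E : ℝ≥0∞} (hd : 0 < d) (hm : 0 < m) (hm1 : m ≤ 1)
    (hg : 0 ≤ g) (hgu : g ≤ u) (hr : 0 ≤ r) (hq : 0 ≤ q) (hL : 0 ≤ L) (ha : a ∈ Icc (0 : ℝ) 1)
    (hs : s ∈ Icc (0 : ℝ) 1) (hs₀ : s₀ ≤ 1) (hν : 0 ≤ ν)
    (h : ENNReal.ofReal q ≤ ENNReal.ofReal (L * (g * r)) + c * E) :
    ENNReal.ofReal (q * a / (1 + d * (u / m)) ^ 2) ≤ ENNReal.ofReal (q * (a * s)) + c * E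
      + ENNReal.ofReal (L / d) * (‖r - ν‖ₑ + (‖s - s₀‖ₑ * ‖ν‖ₑ + ENNReal.ofReal (ν * (1 - s₀)))) := by
  have hu : 0 ≤ u := hg.trans hgu
  obtain ⟨ha0, ha1⟩ := ha
  obtain ⟨hs0, hs1⟩ := hs
  rw [div_eq_mul_one_div]
  set b := 1 / (1 + d * (u / m)) ^ 2 with hb
  have h1 : 1 ≤ 1 + d * (u / m) := le_add_of_nonneg_right (by positivity)
  have hb0 : 0 ≤ b := by positivity
  have hb1 : b ≤ 1 := by
    rw [hb, div_le_one (by positivity)]
    exact one_le_pow₀ h1
  have hbg : b * g ≤ 1 / d := by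
    rw [hb, div_mul_eq_mul_div, one_mul, div_le_div_iff₀ (by positivity) hd]
    have h2 : u ≤ u / m := le_div_self hu hm hm1
    calc g * d ≤ (1 + d * (u / m)) * 1 := by nlinarith
      _ ≤ (1 + d * (u / m)) * (1 + d * (u / m)) := by gcongr
      _ = _ := by ring
  have ht : 0 ≤ 1 - s := sub_nonneg.2 hs1
  have hy : a * b * (1 - s) ≤ 1 :=
    mul_le_one₀ (mul_le_one₀ ha1 hb0 hb1) ht (sub_le_self _ hs0)
  have h3 : r * (1 - s) ≤ |r - ν| + (|s - s₀| * |ν| + ν * (1 - s₀)) := by
    rw [abs_of_nonneg hν]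
    nlinarith [mul_le_mul_of_nonneg_right (le_abs_self (r - ν)) ht,
      mul_le_mul_of_nonneg_right (neg_le_abs (s - s₀)) hν, mul_nonneg (abs_nonneg (r - ν)) hs0]
  have ht₀ : 0 ≤ 1 - s₀ := sub_nonneg.2 hs₀
  calc ENNReal.ofReal (q * a * b)
      ≤ ENNReal.ofReal (q * (a * s)) + ENNReal.ofReal (a * b * (1 - s)) * ENNReal.ofReal q := by
        rw [← ENNReal.ofReal_mul (by positivity),
          ← ENNReal.ofReal_add (by positivity) (by positivity)]
        refine ENNReal.ofReal_le_ofReal ?_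
        nlinarith [mul_le_mul_of_nonneg_left hb1 (show 0 ≤ q * (a * s) by positivity)]
    _ ≤ ENNReal.ofReal (q * (a * s)) + (c * E
          + ENNReal.ofReal (a * b * (1 - s)) * ENNReal.ofReal (L * (g * r))) := by
        refine add_le_add le_rfl ((mul_le_mul_right h _).trans ?_)
        rw [mul_add, add_comm]
        exact add_le_add (mul_le_of_le_one_left' (ENNReal.ofReal_le_one.2 hy)) le_rfl
    _ ≤ _ := by
        rw [← add_assoc, ← ofReal_norm, ← ofReal_norm, ← ofReal_norm,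
          ← ENNReal.ofReal_mul (by positivity), ← ENNReal.ofReal_mul (by positivity),
          ← ENNReal.ofReal_add (p := ‖s - s₀‖ * ‖ν‖) (by positivity) (by positivity),
          ← ENNReal.ofReal_add (p := ‖r - ν‖) (by positivity) (by positivity),
          ← ENNReal.ofReal_mul (by positivity)]
        refine add_le_add le_rfl (ENNReal.ofReal_le_ofReal ?_)
        simp only [Real.norm_eq_abs]
        calc a * b * (1 - s) * (L * (g * r)) = a * (L * (b * g) * (r * (1 - s))) := by ring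
          _ ≤ 1 * (L * (1 / d) * (|r - ν| + (|s - s₀| * |ν| + ν * (1 - s₀)))) := by gcongr
          _ = _ := by ring

variable {F₀ : Ph → ℝ} {S : Seq F₀} {U : Ultrafilter ℕ} {F : ℝ → Ph → ℝ}
  {a : ℕ → ℝ × Ph → ℝ} {a₀ : ℝ × Ph → ℝ} {T : ℝ}

theorem Lim.gn_rho (h : Lim S U F) : Measurable fun p : ℝ × Ph => rho (F p.1) p.2.1 :=
  measurable_rho (F := fun p : ℝ × Ph => F p.1)
    (h.meas.comp (measurable_fst.fst.prodMk measurable_snd)) measurable_snd.fst

theorem Lim.gain_lower (h : Lim S U F) (ham : ∀ k, Measurable (a k))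
    (ham₀ : Measurable a₀) (ha : ∀ k p, a k p ∈ Icc (0 : ℝ) 1) (ha₀ : ∀ p, a₀ p ∈ Icc (0 : ℝ) 1)
    (hl : LocConv (mu3 T) (U : Filter ℕ) a a₀) :
    ∫⁻ p, QpF (F p.1) p.2 * ENNReal.ofReal (a₀ p) ∂(mu3 T)
      ≤ liminf (fun k => ∫⁻ p, ENNReal.ofReal (gainN (S.n k) (S.G k p.1) (S.G k p.1) p.2 * a k p)
          ∂(mu3 T)) (U : Filter ℕ) := by
  have hQ : Measurable fun p : ℝ × Ph => QpF (F p.1) p.2 :=
    measurable_QpF (F := fun p : ℝ × Ph => F p.1)
      (h.meas.comp (measurable_fst.fst.prodMk measurable_snd)) measurable_snd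
  have hr := h.gn_rho
  refine le_trans (lintegral_mono fun p => ?_) ((lintegral_liminf_le (μ := mu3 T) (u := atTop)
    (f := fun (j : ℕ) p => QpF (F p.1) p.2
      * ENNReal.ofReal (a₀ p / (1 + 1 / ((j : ℝ) + 1) * rho (F p.1) p.2.1)))
    fun j => by fun_prop).trans (liminf_le_of_frequently_le' (Frequently.of_forall fun j => ?_)))
  · rcases (ha₀ p).1.eq_or_lt with h0 | h0
    · simp [← h0]
    · have h1 := (ENNReal.continuous_ofReal.tendsto _).comp
        ((tendsto_const_nhds (x := a₀ p)).div (gn_lim (rho (F p.1) p.2.1)) one_ne_zero)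
      rw [div_one] at h1
      exact (ENNReal.Tendsto.const_mul h1 (Or.inl (ENNReal.ofReal_pos.2 h0).ne')).liminf_eq.ge
  · rw [← (h.gain_tendsto (δ := 1 / ((j : ℝ) + 1)) (by positivity) ham ham₀ ha ha₀ hl).liminf_eq]
    refine liminf_le_liminf (Eventually.of_forall fun k => lintegral_mono fun p =>
      ENNReal.ofReal_le_ofReal (mul_le_mul_of_nonneg_left (div_le_self (ha k p).1 ?_)
        ((S.appr k).gain_nonneg (S.pos k) _ _)))
    have := rho_nonneg (S.G_nonneg k p.1) p.2.1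
    exact le_add_of_nonneg_right (by positivity)

/-- Upper limit for the renormalized gain, for multipliers supported in bounded velocities. -/
theorem Lim.gain_upper (h : Lim S U F) (ham : ∀ k, Measurable (a k))
    (ham₀ : Measurable a₀) (ha : ∀ k p, a k p ∈ Icc (0 : ℝ) 1) (ha₀ : ∀ p, a₀ p ∈ Icc (0 : ℝ) 1)
    (hl : LocConv (mu3 T) (U : Filter ℕ) a a₀) {R : ℝ} (hR : ∀ k p, R < ‖p.2.2‖ → a k p = 0)
    (hrate : Tendsto (fun k => ∫⁻ p in {p : ℝ × Ph | ‖p.2.2‖ ≤ R},
      ‖rateN (S.n k) (S.G k p.1) p.2 - nuL (F p.1) p.2‖ₑ ∂(mu3 T)) (U : Filter ℕ) (𝓝 0))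
    (hrho : ∀ δ : ℝ, 0 < δ → LocConv (mu3 T) (U : Filter ℕ)
      (fun k p => 1 / (1 + δ * rho (S.G k p.1) p.2.1))
      (fun p => 1 / (1 + δ * rho (F p.1) p.2.1)))
    {δ : ℝ} (hδ : 0 < δ) :
    limsup (fun k => ∫⁻ p, ENNReal.ofReal (gainN (S.n k) (S.G k p.1) (S.G k p.1) p.2 * a k p
        / (1 + δ * (S.F k p.1 p.2 / Mx p.2.2)) ^ 2) ∂(mu3 T)) (U : Filter ℕ)
      ≤ ∫⁻ p, QpF (F p.1) p.2 * ENNReal.ofReal (a₀ p) ∂(mu3 T) := by
  obtain ⟨H, hH, hE⟩ := S.ENb
  set B := {p : ℝ × Ph | ‖p.2.2‖ ≤ R} with hB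
  have hBm : MeasurableSet B := measurableSet_le measurable_snd.snd.norm measurable_const
  have hr := h.gn_rho
  have hν : Measurable fun p : ℝ × Ph => nuL (F p.1) p.2 :=
    measurable_nuL (F := fun p : ℝ × Ph => F p.1)
      (h.meas.comp (measurable_fst.fst.prodMk measurable_snd)) measurable_snd
  have hν0 : ∀ p : ℝ × Ph, 0 ≤ nuL (F p.1) p.2 := fun p => nuL_nonneg (h.nonneg _) _
  have hr0 : ∀ p : ℝ × Ph, 0 ≤ rho (F p.1) p.2.1 := fun p => rho_nonneg (h.nonneg _) _
  have hi : Integrable (B.indicator fun p => nuL (F p.1) p.2) (mu3 T) :=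
    (integrable_indicator_iff hBm).2 ⟨hν.aestronglyMeasurable,
      (hasFiniteIntegral_iff_ofReal (ae_of_all _ hν0)).2 (h.nuL_int T R)⟩
  have hD := tendsto_lintegral_of_dominated_convergence (μ := (mu3 T).restrict B)
    (F := fun (j : ℕ) p => ENNReal.ofReal (nuL (F p.1) p.2
      * (1 - 1 / (1 + 1 / ((j : ℝ) + 1) * rho (F p.1) p.2.1)))) (f := fun _ => 0)
    (fun p => ENNReal.ofReal (nuL (F p.1) p.2)) (fun j => by fun_prop)
    (fun j => ae_of_all _ fun p => ENNReal.ofReal_le_ofReal (mul_le_of_le_one_right (hν0 p)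
      (sub_le_self _ (gn_mem (by positivity) (hr0 p)).1))) (h.nuL_int T R).ne
    (ae_of_all _ fun p => by
      have h1 := (ENNReal.continuous_ofReal.tendsto _).comp
        ((((tendsto_const_nhds (x := (1 : ℝ))).div (gn_lim (rho (F p.1) p.2.1))
          one_ne_zero).const_sub 1).const_mul (nuL (F p.1) p.2))
      rw [div_one, sub_self, mul_zero, ENNReal.ofReal_zero] at h1
      exact h1)
  rw [lintegral_zero] at hD
  refine ENNReal.le_of_forall_pos_le_add fun ε hε _ => ?_
  have hε' : (0 : ℝ) < ε := hε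
  set L := Real.exp (2 * H / ε + 1) with hLd
  have hL : 1 < L := Real.one_lt_exp_iff.2 (by positivity)
  have hlog : Real.log L = 2 * H / ε + 1 := Real.log_exp _
  have hD2 := ENNReal.Tendsto.const_mul (a := ENNReal.ofReal (L / δ)) hD
    (Or.inr ENNReal.ofReal_ne_top)
  rw [mul_zero] at hD2
  obtain ⟨j, hj⟩ := (hD2.eventually_le_const (ENNReal.ofReal_pos.2 (half_pos hε'))).exists
  set d := 1 / ((j : ℝ) + 1) with hdd
  have hd : 0 < d := by positivity
  have hY := ((h.gain_tendsto hd ham ham₀ ha ha₀ hl).add_const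
    (ENNReal.ofReal (1 / Real.log L) * ENNReal.ofReal H)).add
    (ENNReal.Tendsto.const_mul (a := ENNReal.ofReal (L / δ))
      (hrate.add ((wk_loc (hrho d hd) hi).add_const (∫⁻ p in B, ENNReal.ofReal (nuL (F p.1) p.2
        * (1 - 1 / (1 + d * rho (F p.1) p.2.1))) ∂(mu3 T)))) (Or.inr ENNReal.ofReal_ne_top))
  refine ((limsup_le_limsup (Eventually.of_forall fun k => ?_)).trans_eq hY.limsup_eq).trans ?_
  · have hn := S.pos k
    have hG : Measurable fun p : (ℝ × Ph) × Ph => S.G k p.1.1 p.2 :=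
      (S.measG k).comp (measurable_fst.fst.prodMk measurable_snd)
    have m1 : Measurable fun p : ℝ × Ph => gainN (S.n k) (S.G k p.1) (S.G k p.1) p.2 :=
      measurable_gainN (f := fun p : ℝ × Ph => S.G k p.1) (g := fun p : ℝ × Ph => S.G k p.1) _
        hG hG measurable_snd
    have m2 : Measurable fun p : ℝ × Ph => EN (S.n k) (S.G k p.1) p.2 :=
      measurable_EN (g := fun p : ℝ × Ph => S.G k p.1) _ hG measurable_snd
    have m3 : Measurable fun p : ℝ × Ph => rateN (S.n k) (S.G k p.1) p.2 :=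
      measurable_rateN (g := fun p : ℝ × Ph => S.G k p.1) _ hG measurable_snd
    have m4 : Measurable fun p : ℝ × Ph => rho (S.G k p.1) p.2.1 :=
      measurable_rho (F := fun p : ℝ × Ph => S.G k p.1) hG measurable_snd.fst
    have m5 := ham k
    calc _ ≤ ∫⁻ p, (ENNReal.ofReal (gainN (S.n k) (S.G k p.1) (S.G k p.1) p.2
            * (a k p / (1 + d * rho (S.G k p.1) p.2.1)))
            + ENNReal.ofReal (1 / Real.log L) * EN (S.n k) (S.G k p.1) p.2)
            + B.indicator (fun p => ENNReal.ofReal (L / δ) *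
              (‖rateN (S.n k) (S.G k p.1) p.2 - nuL (F p.1) p.2‖ₑ
                + (‖1 / (1 + d * rho (S.G k p.1) p.2.1) - 1 / (1 + d * rho (F p.1) p.2.1)‖ₑ
                  * ‖B.indicator (fun p => nuL (F p.1) p.2) p‖ₑ + ENNReal.ofReal (nuL (F p.1) p.2
                  * (1 - 1 / (1 + d * rho (F p.1) p.2.1)))))) p ∂(mu3 T) := by
          refine lintegral_mono_ae ?_
          filter_upwards [Measure.QuasiMeasurePreserving.ae Measure.quasiMeasurePreserving_fst
            (ae_restrict_mem (μ := volume) (measurableSet_Ioc (a := 0) (b := T)))] with p hp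
          by_cases hb : p ∈ B
          · rw [indicator_of_mem hb, indicator_of_mem hb, div_eq_mul_one_div (a k p)]
            exact gn_pt hδ (Mx_pos _) (Mx_le_one _) (S.G_nonneg k _ _) (S.G_le k _ _)
              (nuN_nonneg (fun v => S.G_nonneg k _ _) _) ((S.appr k).gain_nonneg hn _ _)
              (by linarith) (ha k p) (gn_mem hd.le (rho_nonneg (S.G_nonneg k _) _))
              (gn_mem hd.le (hr0 p)).2 (hν0 p)
              (arkeryd hn.le ((S.measG k).comp measurable_prodMk_left) (S.G_pos k hp.1.le)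
                (fun w => til_le_Mx hn ((S.appr k).nonneg _ w)) hL _)
          · simp [hR k p (not_le.1 hb)]
      _ ≤ _ := by
          rw [lintegral_add_left (by fun_prop), lintegral_add_left (by fun_prop),
            lintegral_indicator hBm, lintegral_const_mul' _ _ ENNReal.ofReal_ne_top,
            lintegral_const_mul' _ _ ENNReal.ofReal_ne_top, lintegral_add_left (by fun_prop),
            lintegral_add_right _ (by fun_prop)]
          gcongr
          · exact hE k T
          · exact Measure.restrict_le_self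
  · rw [zero_add, zero_add, add_assoc]
    refine add_le_add (lintegral_mono fun p => mul_le_mul_right (ENNReal.ofReal_le_ofReal
      (div_le_self (ha₀ p).1 (le_add_of_nonneg_right (mul_nonneg hd.le (hr0 p))))) _)
      ((add_le_add (b := ENNReal.ofReal (ε / 2)) ?_ hj).trans ?_)
    · rw [← ENNReal.ofReal_mul (by rw [hlog]; positivity)]
      refine ENNReal.ofReal_le_ofReal ?_
      rw [hlog, div_mul_eq_mul_div, div_le_iff₀ (by positivity)]
      have : (ε : ℝ) / 2 * (2 * H / ε + 1) = H + ε / 2 := by field_simp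
      linarith
    · rw [← ENNReal.ofReal_add (by positivity) (by positivity), add_halves,
        ENNReal.ofReal_coe_nnreal]

end

end Vale.Agent.P140
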