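import Vale.Agent.P140.Bilin

/-! Limits of the gain term against strongly convergent multipliers. -/

namespace Vale.Agent.P140

open MeasureTheory Set Filter Topology
open scoped ENNReal RealInnerProductSpace

noncomputable section

theorem gain0_l3 (T : ℝ) {H : ℝ × Ph → ℝ≥0∞} (hH : Measurable H) :
    ∫⁻ p, H p ∂(mu3 T) = ∫⁻ y : ℝ × T3, (∫⁻ v, H (y.1, (y.2, v))) ∂(mu2 T) := by
  have h1 := measurePreserving_prodAssoc (muT T) (volume : Measure T3) (volume : Measure V)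
  have h2 : Measurable fun q : (ℝ × T3) × V => H (q.1.1, (q.1.2, q.2)) := hH.comp h1.measurable
  exact (h1.lintegral_comp hH).symm.trans (lintegral_prod _ h2.aemeasurable)

theorem gain0_l4 (T : ℝ) {H : (ℝ × T3) × V × V → ℝ≥0∞} (hH : Measurable H) :
    ∫⁻ q, H q ∂(mu4 T) = ∫⁻ y : ℝ × T3, (∫⁻ v, ∫⁻ w, H (y, (v, w))) ∂(mu2 T) := by
  rw [lintegral_prod _ hH.aemeasurable]
  exact lintegral_congr fun y => lintegral_prod _ (hH.comp measurable_prodMk_left).aemeasurable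

theorem gain0_mvp : Measurable fun r : ((ℝ × T3) × V × V) × S2 =>
    ((r.1.1.1, (r.1.1.2, vp r.1.2.1 r.1.2.2 r.2)) : ℝ × Ph) :=
  measurable_fst.fst.fst.prodMk (measurable_fst.fst.snd.prodMk
    (measurable_vp measurable_fst.snd.fst measurable_fst.snd.snd measurable_snd))

theorem gain0_mB : Measurable fun r : ((ℝ × T3) × V × V) × S2 =>
    ((r.1.2.1, r.1.2.2, r.2) : V × V × S2) :=
  measurable_fst.snd.fst.prodMk (measurable_fst.snd.snd.prodMk measurable_snd)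

/-- Weak form of a gain term in space-time. -/
theorem gain0_weak (T : ℝ) {B : V → V → S2 → ℝ≥0∞}
    (hB : Measurable (fun p : V × V × S2 => B p.1 p.2.1 p.2.2))
    (hpost : ∀ v w ω, B (vp v w ω) (wp v w ω) ω = B v w ω) {f φ : ℝ × Ph → ℝ≥0∞}
    (hf : Measurable f) (hφ : Measurable φ) :
    ∫⁻ p, (∫⁻ w, ∫⁻ ω, B p.2.2 w ω * (f (p.1, (p.2.1, vp p.2.2 w ω)) *
        f (p.1, (p.2.1, wp p.2.2 w ω))) ∂sig) * φ p ∂(mu3 T)
      = ∫⁻ q, ∫⁻ ω, B q.2.1 q.2.2 ω * (f (q.1.1, (q.1.2, q.2.1)) * f (q.1.1, (q.1.2, q.2.2)) *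
          φ (q.1.1, (q.1.2, vp q.2.1 q.2.2 ω))) ∂sig ∂(mu4 T) := by
  have m1 : Measurable fun r : ((ℝ × Ph) × V) × S2 => B r.1.1.2.2 r.1.2 r.2 *
      (f (r.1.1.1, (r.1.1.2.1, vp r.1.1.2.2 r.1.2 r.2)) *
        f (r.1.1.1, (r.1.1.2.1, wp r.1.1.2.2 r.1.2 r.2))) :=
    (hB.comp (measurable_fst.fst.snd.snd.prodMk (measurable_fst.snd.prodMk measurable_snd))).mul
      ((hf.comp (measurable_fst.fst.fst.prodMk (measurable_fst.fst.snd.fst.prodMk
        (measurable_vp measurable_fst.fst.snd.snd measurable_fst.snd measurable_snd)))).mul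
      (hf.comp (measurable_fst.fst.fst.prodMk (measurable_fst.fst.snd.fst.prodMk
        (measurable_wp measurable_fst.fst.snd.snd measurable_fst.snd measurable_snd)))))
  have m2 : Measurable fun r : ((ℝ × T3) × V × V) × S2 => B r.1.2.1 r.1.2.2 r.2 *
      (f (r.1.1.1, (r.1.1.2, r.1.2.1)) * f (r.1.1.1, (r.1.1.2, r.1.2.2)) *
        φ (r.1.1.1, (r.1.1.2, vp r.1.2.1 r.1.2.2 r.2))) :=
    (hB.comp gain0_mB).mul (((hf.comp (measurable_fst.fst.fst.prodMk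
      (measurable_fst.fst.snd.prodMk measurable_fst.snd.fst))).mul (hf.comp
      (measurable_fst.fst.fst.prodMk (measurable_fst.fst.snd.prodMk measurable_fst.snd.snd)))).mul
      (hφ.comp gain0_mvp))
  rw [gain0_l3 T (m1.lintegral_prod_right'.lintegral_prod_right'.fun_mul hφ),
    gain0_l4 T m2.lintegral_prod_right']
  have m3 : ∀ y : ℝ × T3, Measurable fun v : V => ((y.1, (y.2, v)) : ℝ × Ph) := fun y =>
    measurable_const.prodMk measurable_prodMk_left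
  exact lintegral_congr fun y => coll_weak hB hpost (hf.comp (m3 y)) (hf.comp (m3 y))
    (hφ.comp (m3 y))

/-- An admissible kernel. -/
structure Gain0Ker (B : V → V → S2 → ℝ) : Prop where
  meas : Measurable (fun p : V × V × S2 => B p.1 p.2.1 p.2.2)
  nonneg : ∀ v w ω, 0 ≤ B v w ω
  le : ∀ v w ω, B v w ω ≤ ‖v - w‖
  post : ∀ v w ω, B (vp v w ω) (wp v w ω) ω = B v w ω

theorem gain0_Bn (n : ℝ) : Gain0Ker (Bn n) :=
  ⟨measurable_Bn n measurable_fst measurable_snd.fst measurable_snd.snd,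
    fun _ _ _ => Bn_nonneg _ _ _ _, fun _ _ _ => (Bn_le_abs _ _ _ _).trans (abs_ca_le _ _ _),
    fun _ _ _ => Bn_post _ _ _ _⟩

theorem gain0_ca : Gain0Ker (fun v w ω => |ca v w ω|) :=
  ⟨continuous_abs.measurable.comp continuous_ca.measurable, fun _ _ _ => abs_nonneg _,
    fun _ _ _ => abs_ca_le _ _ _, fun v w ω => by rw [ca_post, abs_neg]⟩

/-- The angular average of the multiplier. -/
def gain0A (B : V → V → S2 → ℝ) (b : ℝ × Ph → ℝ) (q : (ℝ × T3) × V × V) : ℝ :=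
  (∫ ω, B q.2.1 q.2.2 ω * b (q.1.1, (q.1.2, vp q.2.1 q.2.2 ω)) ∂sig) / (1 + ‖q.2.1‖ + ‖q.2.2‖)

section Ker

variable {B : V → V → S2 → ℝ} {b : ℝ × Ph → ℝ}

theorem gain0_m (hB : Gain0Ker B) (hb : Measurable b) :
    Measurable fun r : ((ℝ × T3) × V × V) × S2 =>
      B r.1.2.1 r.1.2.2 r.2 * b (r.1.1.1, (r.1.1.2, vp r.1.2.1 r.1.2.2 r.2)) :=
  (hB.meas.comp gain0_mB).mul (hb.comp gain0_mvp)

theorem gain0_nrm (hB : Gain0Ker B) (h : ∀ p, b p ∈ Icc (0 : ℝ) 1) (v w : V) (ω : S2)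
    (p : ℝ × Ph) : ‖B v w ω * b p‖ ≤ 1 + ‖v‖ + ‖w‖ := by
  rw [Real.norm_of_nonneg (mul_nonneg (hB.nonneg _ _ _) (h p).1)]
  have h1 := mul_le_of_le_one_right (hB.nonneg v w ω) (h p).2
  linarith [hB.le v w ω, norm_sub_le v w]

theorem gain0_int (hB : Gain0Ker B) (hb : Measurable b) (h : ∀ p, b p ∈ Icc (0 : ℝ) 1)
    (q : (ℝ × T3) × V × V) :
    Integrable (fun ω => B q.2.1 q.2.2 ω * b (q.1.1, (q.1.2, vp q.2.1 q.2.2 ω))) sig :=
  (integrable_const _).mono' ((gain0_m hB hb).comp measurable_prodMk_left).aestronglyMeasurable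
    (Eventually.of_forall fun _ => gain0_nrm hB h _ _ _ _)

theorem gain0A_meas (hB : Gain0Ker B) (hb : Measurable b) : Measurable (gain0A B b) :=
  (gain0_m hB hb).stronglyMeasurable.integral_prod_right'.measurable.div
    ((measurable_const.add measurable_snd.fst.norm).add measurable_snd.snd.norm)

theorem gain0A_le (hB : Gain0Ker B) (h : ∀ p, b p ∈ Icc (0 : ℝ) 1) (q : (ℝ × T3) × V × V) :
    |gain0A B b q| ≤ sig.real univ := by
  have h0 : 0 < 1 + ‖q.2.1‖ + ‖q.2.2‖ := by positivity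
  rw [gain0A, abs_div, abs_of_pos h0, div_le_iff₀' h0]
  exact norm_integral_le_of_norm_le_const (Eventually.of_forall fun _ => gain0_nrm hB h _ _ _ _)

theorem gain0_id (T : ℝ) (hB : Gain0Ker B) (hb : Measurable b) (h : ∀ p, b p ∈ Icc (0 : ℝ) 1)
    {g : ℝ → Ph → ℝ} (hg : Measurable fun p : ℝ × Ph => g p.1 p.2) (h0 : ∀ t z, 0 ≤ g t z)
    {δ : ℝ} (hδ : 0 < δ) (hi : Integrable (fun q : (ℝ × T3) × V × V =>
      (1 + ‖q.2.1‖ + ‖q.2.2‖) * Pd δ (g q.1.1) q.1.2 q.2.1 q.2.2) (mu4 T)) :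
    ∫⁻ p, (∫⁻ w, ∫⁻ ω, ENNReal.ofReal (B p.2.2 w ω) * (ENNReal.ofReal (g p.1 (p.2.1, vp p.2.2 w ω))
        * ENNReal.ofReal (g p.1 (p.2.1, wp p.2.2 w ω))) ∂sig) *
        ENNReal.ofReal (b p / (1 + δ * rho (g p.1) p.2.1)) ∂(mu3 T)
      = ENNReal.ofReal (∫ q, (1 + ‖q.2.1‖ + ‖q.2.2‖) * Pd δ (g q.1.1) q.1.2 q.2.1 q.2.2 *
          gain0A B b q ∂(mu4 T)) := by
  have hr : Measurable fun p : ℝ × Ph => rho (g p.1) p.2.1 :=
    measurable_rho (F := fun p : ℝ × Ph => g p.1)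
      (hg.comp (measurable_fst.fst.prodMk measurable_snd)) measurable_snd.fst
  have hnn : ∀ (q : (ℝ × T3) × V × V) ω,
      0 ≤ B q.2.1 q.2.2 ω * b (q.1.1, (q.1.2, vp q.2.1 q.2.2 ω)) := fun q ω =>
    mul_nonneg (hB.nonneg _ _ _) (h _).1
  rw [ofReal_integral_eq_lintegral_ofReal (w0_int hi (gain0A_meas hB hb) (gain0A_le hB h))
    (Eventually.of_forall fun q => mul_nonneg (mul_nonneg (by positivity)
      (Pd_nonneg hδ.le (h0 _) _ _ _)) (div_nonneg (integral_nonneg (hnn q)) (by positivity)))]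
  refine (gain0_weak T (B := fun v w ω => ENNReal.ofReal (B v w ω)) hB.meas.ennreal_ofReal
    (fun v w ω => by rw [hB.post]) (f := fun p => ENNReal.ofReal (g p.1 p.2)) hg.ennreal_ofReal
    (hb.div (measurable_const.add (hr.const_mul δ))).ennreal_ofReal).trans
    (lintegral_congr fun q => ?_)
  have e0 : 1 + ‖q.2.1‖ + ‖q.2.2‖ ≠ 0 := by positivity
  rw [gain0A, mul_right_comm, mul_div_cancel₀ _ e0, mul_comm (∫ ω, _ ∂sig),
    ENNReal.ofReal_mul (Pd_nonneg hδ.le (h0 _) _ _ _),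
    ofReal_integral_eq_lintegral_ofReal (gain0_int hB hb h q) (Eventually.of_forall (hnn q)),
    ← lintegral_const_mul' _ _ ENNReal.ofReal_ne_top]
  refine lintegral_congr fun ω => ?_
  rw [← ENNReal.ofReal_mul (h0 _ _), ← ENNReal.ofReal_mul (mul_nonneg (h0 _ _) (h0 _ _)),
    ← ENNReal.ofReal_mul (hB.nonneg _ _ _), ← ENNReal.ofReal_mul (Pd_nonneg hδ.le (h0 _) _ _ _)]
  congr 1
  simp only [Pd, Pi.div_apply, Pi.add_apply]
  ring

end Ker

theorem gain0_loc {α ι : Type} [MeasurableSpace α] {μ : Measure α} {l : Filter ι}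
    {a : ι → α → ℝ} {a₀ : α → ℝ} (hl : LocConv μ l a a₀) {κ : α → ℝ≥0∞} (hκ : Measurable κ)
    (hfin : ∫⁻ x, κ x ∂μ ≠ ⊤) : Tendsto (fun i => ∫⁻ x, κ x * ‖a i x - a₀ x‖ₑ ∂μ) l (𝓝 0) := by
  refine (hl _ hκ.ennreal_toReal (integrable_toReal_of_lintegral_ne_top hκ.aemeasurable
    hfin)).congr fun i => lintegral_congr_ae ?_
  filter_upwards [ae_lt_top hκ hfin] with x hx
  rw [Real.enorm_toReal hx.ne, mul_comm]

/-- Bounded pairs of velocities. -/
def gain0S (m : ℕ) : Set ((ℝ × T3) × V × V) :=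
  univ ×ˢ (Metric.closedBall 0 m ×ˢ Metric.closedBall 0 m)

theorem gain0S_meas (m : ℕ) : MeasurableSet (gain0S m) :=
  MeasurableSet.univ.prod (measurableSet_closedBall.prod measurableSet_closedBall)

theorem gain0S_fin (T : ℝ) (m : ℕ) : mu4 T (gain0S m) ≠ ⊤ := by
  rw [gain0S, Measure.prod_prod, Measure.volume_eq_prod, Measure.prod_prod]
  exact ENNReal.mul_ne_top (measure_ne_top _ _) (ENNReal.mul_ne_top
    measure_closedBall_lt_top.ne measure_closedBall_lt_top.ne)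

theorem gain0_ball (T : ℝ) (m : ℕ) : ∃ κ : ℝ × Ph → ℝ≥0∞, Measurable κ ∧
    ∀ φ : ℝ × Ph → ℝ≥0∞, Measurable φ → ∫⁻ p, κ p * φ p ∂(mu3 T) = ∫⁻ q in gain0S m, ∫⁻ ω,
      ENNReal.ofReal |ca q.2.1 q.2.2 ω| * φ (q.1.1, (q.1.2, vp q.2.1 q.2.2 ω)) ∂sig ∂(mu4 T) := by
  have hf : Measurable ((Metric.closedBall (0 : V) m).indicator (1 : V → ℝ≥0∞)) :=
    measurable_one.indicator measurableSet_closedBall
  refine ⟨fun p => Qe ((Metric.closedBall (0 : V) m).indicator 1)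
    ((Metric.closedBall (0 : V) m).indicator 1) p.2.2, measurable_Qe (hf.comp measurable_snd)
      (hf.comp measurable_snd) measurable_snd.snd, fun φ hφ => ?_⟩
  refine (gain0_weak T (B := fun v w ω => ENNReal.ofReal |ca v w ω|) gain0_ca.meas.ennreal_ofReal
    (fun v w ω => by rw [ca_post, abs_neg])
    (f := fun p => (Metric.closedBall (0 : V) m).indicator 1 p.2.2)
    (hf.comp measurable_snd.snd) hφ).trans ?_
  rw [← lintegral_indicator (gain0S_meas m)]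
  refine lintegral_congr fun q => ?_
  by_cases hq : q ∈ gain0S m
  · simp only [indicator_of_mem hq, indicator_of_mem hq.2.1, indicator_of_mem hq.2.2,
      Pi.one_apply, one_mul]
  · rw [indicator_of_notMem hq]
    by_cases h1 : q.2.1 ∈ Metric.closedBall (0 : V) m
    · simp [indicator_of_notMem fun h2 => hq ⟨mem_univ _, h1, h2⟩]
    · simp [indicator_of_notMem h1]

variable {F₀ : Ph → ℝ} {S : Seq F₀} {U : Ultrafilter ℕ} {F : ℝ → Ph → ℝ}
  {a : ℕ → ℝ × Ph → ℝ} {a₀ : ℝ × Ph → ℝ} {T : ℝ}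

theorem gain0_locConv (hU : (U : Filter ℕ) ≤ atTop) (ham : ∀ k, Measurable (a k))
    (ham₀ : Measurable a₀) (ha : ∀ k p, a k p ∈ Icc (0 : ℝ) 1) (ha₀ : ∀ p, a₀ p ∈ Icc (0 : ℝ) 1)
    (hl : LocConv (mu3 T) (U : Filter ℕ) a a₀) : LocConv (mu4 T) (U : Filter ℕ)
      (fun k => gain0A (Bn (S.n k)) (a k)) (gain0A (fun v w ω => |ca v w ω|) a₀) := by
  have hd : ∀ m, ∀ q ∈ gain0S m, ‖q.2.1 - q.2.2‖ ≤ 2 * m := fun m q hq => by
    linarith [norm_sub_le q.2.1 q.2.2, mem_closedBall_zero_iff.1 hq.2.1,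
      mem_closedBall_zero_iff.1 hq.2.2]
  refine locConv_of_exhaust gain0S_meas (fun m m' h => prod_mono le_rfl (prod_mono
      (Metric.closedBall_subset_closedBall (Nat.cast_le.2 h))
      (Metric.closedBall_subset_closedBall (Nat.cast_le.2 h))))
    (Eventually.of_forall fun q => ?_) (fun k => gain0A_meas (gain0_Bn _) (ham k))
    (gain0A_meas gain0_ca ham₀) (fun k => gain0A_le (gain0_Bn _) (ha k))
    (gain0A_le gain0_ca ha₀) fun m => ?_
  · obtain ⟨m, hm⟩ := exists_nat_ge (‖q.2.1‖ + ‖q.2.2‖)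
    exact ⟨m, mem_univ _, mem_closedBall_zero_iff.2 (by linarith [norm_nonneg q.2.2]),
      mem_closedBall_zero_iff.2 (by linarith [norm_nonneg q.2.1])⟩
  obtain ⟨κ, hκ, hκ'⟩ := gain0_ball T m
  have hfin : ∫⁻ p, κ p ∂(mu3 T) ≠ ⊤ := by
    have h1 := hκ' (fun _ => 1) measurable_const
    simp only [mul_one, lintegral_abs_ca] at h1
    rw [h1]
    refine ne_top_of_le_ne_top ?_ (setLIntegral_mono' (gain0S_meas m)
      (g := fun _ => ENNReal.ofReal (2 * Real.pi * (2 * m))) fun q hq =>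
        ENNReal.ofReal_le_ofReal (mul_le_mul_of_nonneg_left (hd m q hq) (by positivity)))
    rw [setLIntegral_const]
    exact ENNReal.mul_ne_top ENNReal.ofReal_ne_top (gain0S_fin T m)
  refine tendsto_of_tendsto_of_tendsto_of_le_of_le' tendsto_const_nhds (gain0_loc hl hκ hfin)
    (Eventually.of_forall fun _ => zero_le) ?_
  filter_upwards [hU (S.n_tendsto.eventually_ge_atTop (2 * m))] with k hk
  rw [hκ' _ ((ham k).fun_sub ham₀).enorm]
  refine setLIntegral_mono' (gain0S_meas m) fun q hq => ?_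
  have h1 : (1 : ℝ) ≤ 1 + ‖q.2.1‖ + ‖q.2.2‖ := by linarith [norm_nonneg q.2.1, norm_nonneg q.2.2]
  rw [gain0A, gain0A, ← sub_div, ← integral_sub (gain0_int (gain0_Bn _) (ham k) (ha k) q)
    (gain0_int gain0_ca ham₀ ha₀ q)]
  have h2 : ∀ x : ℝ, ‖x / (1 + ‖q.2.1‖ + ‖q.2.2‖)‖ₑ ≤ ‖x‖ₑ := fun x => enorm_le_iff_norm_le.2 (by
    rw [norm_div, Real.norm_of_nonneg (zero_le_one.trans h1)]
    exact div_le_self (norm_nonneg _) h1)
  refine (h2 _).trans ((enorm_integral_le_lintegral_enorm _).trans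
    (lintegral_mono fun ω => le_of_eq ?_))
  rw [Bn_eq _ _ _ ((hd m q hq).trans hk), ← mul_sub, enorm_mul,
    Real.enorm_of_nonneg (abs_nonneg _)]

theorem Lim.gain_tendsto (h : Lim S U F) {δ : ℝ} (hδ : 0 < δ) (ham : ∀ k, Measurable (a k))
    (ham₀ : Measurable a₀) (ha : ∀ k p, a k p ∈ Icc (0 : ℝ) 1) (ha₀ : ∀ p, a₀ p ∈ Icc (0 : ℝ) 1)
    (hl : LocConv (mu3 T) (U : Filter ℕ) a a₀) :
    Tendsto (fun k => ∫⁻ p, ENNReal.ofReal (gainN (S.n k) (S.G k p.1) (S.G k p.1) p.2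
        * (a k p / (1 + δ * rho (S.G k p.1) p.2.1))) ∂(mu3 T)) (U : Filter ℕ)
      (𝓝 (∫⁻ p, QpF (F p.1) p.2 * ENNReal.ofReal (a₀ p / (1 + δ * rho (F p.1) p.2.1))
        ∂(mu3 T))) := by
  have hm : ∀ k, Measurable fun q : (ℝ × T3) × V × V =>
      (1 + ‖q.2.1‖ + ‖q.2.2‖) * Pd δ (S.G k q.1.1) q.1.2 q.2.1 q.2.2 := fun k =>
    ((measurable_const.add measurable_snd.fst.norm).add measurable_snd.snd.norm).mul
      (measurable_Pd δ (F := fun q : (ℝ × T3) × V × V => S.G k q.1.1)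
        ((S.measG k).comp (measurable_fst.fst.fst.prodMk measurable_snd)) measurable_fst.snd
        measurable_snd.fst measurable_snd.snd)
  have h1 := ENNReal.tendsto_ofReal ((h.weak_Pd hδ T).mul_locConv (S.ui_Pd hδ T) hm
    (gain0_locConv (S := S) h.le ham ham₀ ha ha₀ hl) (fun k => gain0A_meas (gain0_Bn _) (ham k))
    (gain0A_meas gain0_ca ham₀) (fun k => gain0A_le (gain0_Bn _) (ha k)) (gain0A_le gain0_ca ha₀))
  rw [← gain0_id T gain0_ca ham₀ ha₀ h.meas h.nonneg hδ (h.int_Pd hδ T)] at h1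
  simp only [QpF, Qp_eq_Qe fun v => h.nonneg _ (_, v)]
  refine h1.congr fun k => ?_
  rw [← gain0_id T (gain0_Bn _) (ham k) (ha k) (S.measG k) (S.G_nonneg k) hδ
    ((S.ui_Pd hδ T).integrable hm k)]
  refine lintegral_congr fun p => ?_
  have h2 : ∀ v, 0 ≤ sl (S.G k p.1) p.2.1 v := fun v => S.G_nonneg k _ _
  rw [gainN, ENNReal.ofReal_mul (QN_nonneg h2 h2 _),
    ofReal_QN (S.pos k).le (S.bddG k _ _) (S.bddG k _ _) h2 h2]
  rfl

end

end Vale.Agent.P140
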