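import Vale.Agent.P140.Val

/-! Lower bound for the value function at good velocities. -/

namespace Vale.Agent.P140

open MeasureTheory Set Filter Topology
open scoped ENNReal RealInnerProductSpace

noncomputable section

theorem good_im (a V : ℂ) :
    ((starRingEnd ℂ) a * V).im = ‖a‖ * ((starRingEnd ℂ) (hat a) * V).im := by
  conv_lhs => rw [← norm_mul_hat a]
  rw [map_mul, Complex.conj_ofReal, mul_assoc, Complex.im_ofReal_mul]

theorem good_dist (a V : ℂ) (c : ℝ) :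
    |((starRingEnd ℂ) (hat a) * V).im| ≤ ‖V - (c : ℂ) * hat a‖ := by
  have h1 : ((starRingEnd ℂ) (hat a) * V).im
      = ((starRingEnd ℂ) (hat a) * (V - (c : ℂ) * hat a)).im := by
    simp
    ring
  rw [h1]
  refine (Complex.abs_im_le_norm _).trans ?_
  rw [norm_mul, Complex.norm_conj]
  exact mul_le_of_le_one_left (norm_nonneg _) (norm_hat_le a)

theorem good_line (ξ V : ℂ) : Measurable fun s : ℝ => ξ + (s : ℂ) * V := by
  fun_prop

theorem good_int {K c t b : ℝ} (hK : 0 < K) (hc : 0 < c) (ht : 0 < t) (htb : t ≤ b) (ξ V : ℂ)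
    {q : ℝ → Prop} [DecidablePred q] (hq : MeasurableSet {s | q s})
    (h : ∀ s, t ≤ s → q s → c * s ≤ ‖ξ + (s : ℂ) * V‖) :
    IntervalIntegrable (fun s : ℝ => if q s then K / ‖ξ + (s : ℂ) * V‖ else 0) volume t b := by
  refine sys_int (C := K / (c * t))
    (Measurable.ite hq (measurable_const.div (good_line ξ V).norm) measurable_const) fun s hs => ?_
  rw [uIoc_of_le htb] at hs
  split_ifs with h1
  · rw [abs_of_nonneg (by positivity)]
    exact div_le_div_of_nonneg_left hK.le (by positivity)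
      ((mul_le_mul_of_nonneg_left hs.1.le hc.le).trans (h s hs.1.le h1))
  · rw [abs_zero]
    positivity

theorem good_num : (18 / 25 : ℝ) ≤ Real.exp (-(1 / 10)) * (1 - Real.exp (-2)) := by
  have h1 := Real.add_one_le_exp (-(1 / 10) : ℝ)
  have h2 : Real.exp (-2) ≤ 1 / 5 := by
    rw [Real.exp_neg, one_div]
    have := Real.quadratic_le_exp_of_nonneg (by norm_num : (0 : ℝ) ≤ 2)
    exact inv_anti₀ (by norm_num) (by linarith)
  nlinarith

theorem small_good (p : GP) {μ : ℝ} (hμ : 0 ≤ μ) : ForSmall p μ (fun _ _ n t₀ Tf c h k =>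
    ∀ t ∈ Icc t₀ (Tf / p.lw), ∀ (x : T3) (v : V), p.c * t < ‖X x‖ → ‖X x‖ / t ≤ p.y3 →
      p.ζ2 ≤ |((starRingEnd ℂ) (hat (X x)) * tp v).im| →
      9 / 10 * ((t ^ 121)⁻¹ * p.chi (‖X x‖ / t) * p.ff (‖v‖ ^ 2)) ≤ Gt p n Tf c h k t (x, v)) := by
  have hR := p.R_ge
  have hc := p.c_pos
  have hK := p.K_pos
  have hl := p.four_le_lw
  have hy3 := p.y3_ge
  have hz2 := p.ζ2_pos
  have hpi := Real.pi_pos
  have y0 : 0 < p.y3 := by linarith
  have l0 : 0 < p.lw := by linarith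
  have R0 : 0 < p.R := by linarith
  refine (((((forSmall_le p μ (a := 1 / (40 * p.y3)) (by positivity)).and
    (forSmall_le p μ (a := 1 / (50 * (2 * Real.pi * (1 + 2 * p.R) * μ + 1))) (by positivity))).and
    (forSmall_le p μ (a := p.c * p.ζ2 / (p.y3 * p.lw)) (by positivity))).and
    (small_ok p μ)).and ((small_slow p hμ).and (small_rf_low p hμ))).mono
    fun e0 r1 n t₀ Tf c h k G hs t ht x v hx hy hL => ?_
  obtain ⟨⟨⟨⟨⟨-, hT1⟩, -, hT2⟩, he, -⟩, -, -, hr1⟩, hslow, hlow⟩ := hs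
  have hn := G.n_pos
  have S := G.sys
  have t0 : 0 < t := G.t_pos.trans_le ht.1
  have tl : p.lw * t ≤ Tf := by
    have h1 := ht.2
    rw [le_div_iff₀ l0] at h1
    linarith
  have tT : t ≤ Tf := by nlinarith
  by_cases hv : 2 * p.R ^ 2 ≤ ‖v‖ ^ 2
  · rw [p.ff_eq_zero hv, mul_zero, mul_zero]
    exact S.Gt_nonneg hn p t0 tT _
  have hv2 : ‖v‖ ≤ 2 * p.R := by
    by_contra hc
    push Not at hc hv
    nlinarith
  rw [le_div_iff₀ (by positivity)] at hT1 hT2
  rw [div_le_iff₀ t0] at hy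
  have yT : ∀ s, s ≤ Tf → p.y3 * s ≤ 1 / 40 := fun s hs => by
    linarith [mul_le_mul_of_nonneg_left hs y0.le]
  have hch : xi t (x, v) + (t : ℂ) * tp v = X x := by
    refine xi_chart' t0.le x v ?_
    have h1 := mul_le_mul_of_nonneg_left (hv2.trans (by linarith : 2 * p.R ≤ p.y3)) t0.le
    linarith [yT t tT]
  obtain ⟨σ, hσ, hvσ⟩ : ∃ σ : ℝ, (σ = 1 ∨ σ = -1) ∧ 1 ≤ |v 2 - σ| := by
    rcases le_total 0 (v 2) with h1 | h1
    · exact ⟨-1, Or.inr rfl, le_abs.2 (Or.inl (by linarith))⟩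
    · exact ⟨1, Or.inl rfl, le_abs.2 (Or.inr (by linarith))⟩
  obtain ⟨s₁, hs₁, P1, P2, P3⟩ := path_fast p t0 hσ (ξ := xi t (x, v)) (V := tp v)
    (by rwa [hch]) (by rwa [hch]) (by
      rw [← im_conj_line _ _ t, hch, good_im, abs_mul, abs_norm, mul_comm]
      exact mul_le_mul_of_nonneg_left hL (norm_nonneg _)) ((norm_tp_le v).trans hv2)
  rw [hch] at P3
  have sT : s₁ ≤ Tf := hs₁.2.trans tl
  obtain ⟨z, hz⟩ : ∃ z, z = fl (-t) (x, v) := ⟨_, rfl⟩
  have z1 : X z.1 = xi t (x, v) := by rw [hz]; rfl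
  have z2 : ∀ s, (fl s z).2 = v := fun s => by rw [hz]; rfl
  have z2' : z.2 = v := by rw [hz]; rfl
  obtain ⟨ξ, hξ⟩ : ∃ ξ, ξ = xi t (x, v) := ⟨_, rfl⟩
  rw [← hξ] at P1 P2 P3 z1
  have sub : ∀ s ∈ Icc t s₁, s ∈ Icc t₀ Tf := fun s hs => ⟨ht.1.trans hs.1, hs.2.trans sT⟩
  have small : ∀ s ∈ Icc t s₁, ‖ξ + (s : ℂ) * tp v‖ ≤ 1 / 40 := fun s hs =>
    (P3 s hs).1.trans (yT s (sub s hs).2)
  have eX : ∀ s ∈ Icc t s₁, X (fl s z).1 = ξ + (s : ℂ) * tp v := fun s hs => by
    rw [X_fl s z (by rw [z1, z2']; linarith [small s hs]), z1, z2']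
  have il := fun a b => S.lam_int hn a b z
  have r0 := fun s => S.rf_nonneg hn p s (fl s z)
  have rl := fun s => S.rf_le_lam hn p s (fl s z)
  have ir : IntervalIntegrable (fun s => rf p n c h k s (fl s z)) volume t s₁ := by
    refine sys_int (C := 4 * Real.pi * n * n)
      (sys_char (f := rf p n c h k) (S.meas_rf p) z) fun s _ => ?_
    rw [abs_of_nonneg (r0 s)]
    exact (rl s).trans (lam_le hn (S.meas_tot.comp measurable_prodMk_left) (S.tot_nonneg s))
  have ml := good_line ξ (tp v)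
  have j1 := good_int hK hc t0 hs₁.1 ξ (tp v) (q := fun s => p.c * s < ‖ξ + (s : ℂ) * tp v‖)
    (measurableSet_lt (measurable_const.mul measurable_id) ml.norm) fun s _ h1 => h1.le
  have core : ∀ s, t ≤ s → p.c * (1 + p.σ') * s ≤ ‖ξ + (s : ℂ) * tp v‖ →
      p.c * s ≤ ‖ξ + (s : ℂ) * tp v‖ := fun s hs h1 => by
    have := mul_nonneg (mul_nonneg hc.le p.σ'_pos.le) (t0.le.trans hs)
    linarith
  have j2 := good_int hK hc t0 hs₁.1 ξ (tp v) (q := fun s =>
    p.c * (1 + p.σ') * s ≤ ‖ξ + (s : ℂ) * tp v‖ ∧ 1 / 5 ≤ sec p.M σ (ξ + (s : ℂ) * tp v))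
    ((measurableSet_le (measurable_const.mul measurable_id) ml.norm).inter
      (measurableSet_le measurable_const ((measurable_sec p.M σ).comp ml)))
    fun s hs h1 => core s hs h1.1
  have hS : ∫ s in t..s₁, (lam n (tot c h k s) (fl s z) - rf p n c h k s (fl s z)) ≤ 1 / 10 := by
    have h1 := intervalIntegral.integral_mono_on hs₁.1 ((il t s₁).sub ir)
      ((j1.const_mul (1609 * p.ζ5)).add (intervalIntegrable_const
        (c := 2 * Real.pi * (1 + 2 * p.R) * μ))) fun s hs => by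
      refine (hslow s (sub s hs) (fl s z)).trans (add_le_add ?_ ?_)
      · rw [eX s hs]
        split_ifs
        · exact le_rfl
        · rw [mul_zero]
      · rw [z2]
        gcongr
    refine h1.trans ?_
    rw [intervalIntegral.integral_add (j1.const_mul _) intervalIntegrable_const,
      intervalIntegral.integral_const_mul, intervalIntegral.integral_const, smul_eq_mul]
    have h2 := mul_le_mul_of_nonneg_left P1 (by linarith [p.ζ5_pos] : 0 ≤ 1609 * p.ζ5)
    have h3 := p.ζ5_le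
    have h4 : (s₁ - t) * (2 * Real.pi * (1 + 2 * p.R) * μ)
        ≤ Tf * (2 * Real.pi * (1 + 2 * p.R) * μ) :=
      mul_le_mul_of_nonneg_right (by linarith) (by positivity)
    linarith
  have hA : 2 ≤ ∫ s in t..s₁, rf p n c h k s (fl s z) := by
    have h1 := intervalIntegral.integral_mono_on hs₁.1 (j2.const_mul (1 / 200)) ir fun s hs => by
      split_ifs with h2
      swap
      · rw [mul_zero]
        exact r0 s
      have s0 : 0 < s := t0.trans_le hs.1
      have h3 := hlow s (sub s hs) (fl s z).1 v σ hσ (by rw [eX s hs]; exact h2.1)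
        (by rw [eX s hs]; exact small s hs) (by rw [eX s hs]; exact h2.2) hvσ hv2 (by
          rw [uf_of_ge hc s0 (by rw [eX s hs]; exact core s hs.1 h2.1), eX s hs]
          refine le_trans ?_ ((he.trans (P3 s hs).2.2).trans (good_dist _ _ _))
          have h4 : r1 ^ 2 ≤ 1 := pow_le_one₀ G.r_pos.le hr1
          nlinarith [G.e_pos])
      rw [eX s hs, ← z2 s] at h3
      refine le_trans (le_of_eq ?_) h3
      rw [z2, div_mul_div_comm, one_mul]
    rw [intervalIntegral.integral_const_mul] at h1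
    linarith
  have haz := good_num.trans (hazard hs₁.1 (il t s₁) ir (fun s _ => r0 s) (fun s _ => rl s) hS hA)
  have ce : Continuous fun s => Real.exp (-∫ u in t..s, lam n (tot c h k u) (fl u z)) :=
    (intervalIntegral.continuous_primitive il t).neg.rexp
  obtain ⟨C, hC⟩ := S.Gt_bdd hn p G.t_pos Tf
  have iF : IntervalIntegrable (fun s => (s ^ 121)⁻¹ * gg p n c h k s (fl s z)
      * Real.exp (-∫ u in t..s, lam n (tot c h k u) (fl u z))) volume t Tf := by
    refine (sys_int (C := C) ((measurable_id.pow_const 121).inv.mul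
      (sys_char (f := gg p n c h k) (S.meas_gg p) z)) fun s hs => ?_).mul_continuousOn
      ce.continuousOn
    rw [uIoc_of_le tT] at hs
    exact (hC s ⟨ht.1.trans hs.1.le, hs.2⟩ _).2
  have f0 := (p.ff_mem (‖v‖ ^ 2)).1
  have a0 : 0 ≤ (t ^ 121)⁻¹ * p.chi (‖X x‖ / t) := mul_nonneg (by positivity) (p.chi_mem _).1
  have k1 := intervalIntegral.integral_mono_interval le_rfl hs₁.1 sT
    ((ae_restrict_iff' measurableSet_Ioc).2 (Eventually.of_forall fun s hs => by
      have s0 : 0 < s := t0.trans hs.1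
      exact mul_nonneg (mul_nonneg (by positivity) (S.gg_nonneg hn p s _)) (Real.exp_pos _).le)) iF
  have k2 := intervalIntegral.integral_mono_on hs₁.1
    ((ir.mul_continuousOn ce.continuousOn).const_mul
      (16 / 11 * ((t ^ 121)⁻¹ * p.chi (‖X x‖ / t) * p.ff (‖v‖ ^ 2))))
    (iF.mono_set (by
      rw [uIcc_of_le hs₁.1, uIcc_of_le tT]
      exact Icc_subset_Icc_right sT)) fun s hs => by
      have h1 := mul_le_mul_of_nonneg_right (P3 s hs).2.1 (mul_nonneg (mul_nonneg f0 (r0 s))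
        (Real.exp_pos (-∫ u in t..s, lam n (tot c h k u) (fl u z))).le)
      unfold gg
      rw [eX s hs, z2]
      linarith
  rw [intervalIntegral.integral_const_mul] at k2
  have k3 := mul_le_mul_of_nonneg_left haz (mul_nonneg a0 f0)
  have k4 := mul_nonneg a0 f0
  unfold Gt Lam
  rw [← hz]
  linarith

theorem small_seed (p : GP) {μ : ℝ} (hμ : 0 ≤ μ) : ForSmall p μ (fun _ _ n t₀ Tf c h k =>
    ∀ z ∈ seedSet t₀, p.chi0 / 10 / p.C1 * ((t₀ ^ 121)⁻¹ * phi0 p t₀ z)
      ≤ Gt p n Tf c h k t₀ z) := by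
  refine (small_good p hμ).mono fun e0 r1 n t₀ Tf c h k G hg z hz => ?_
  obtain ⟨x, v⟩ := z
  have h1 : ‖X x - (t₀ : ℂ)‖ ≤ t₀ / 8 := hz.1
  have h2 : ‖v - mkV Complex.I 0‖ ≤ 1 / 8 := hz.2
  have t0 := G.t_pos
  have hR := p.R_ge
  have n0 : ‖(t₀ : ℂ)‖ = t₀ := by rw [Complex.norm_real, Real.norm_of_nonneg t0.le]
  have x1 : ‖X x‖ ≤ 9 / 8 * t₀ := by linarith [norm_sub_norm_le (X x) (t₀ : ℂ)]
  have x2 : 7 / 8 * t₀ ≤ ‖X x‖ := by
    have := norm_sub_norm_le (t₀ : ℂ) (X x)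
    rw [norm_sub_rev] at this
    linarith
  have x3 : ‖X x‖ / t₀ ≤ 4 * p.R := by
    rw [div_le_iff₀ t0]
    nlinarith
  have v1 : ‖v‖ ≤ 9 / 8 := by
    have h3 := norm_sq_eq (mkV Complex.I 0)
    rw [tp_mkV, mkV_two, Complex.norm_I] at h3
    have h4 : ‖mkV Complex.I 0‖ = 1 :=
      (pow_eq_one_iff_of_nonneg (norm_nonneg _) two_ne_zero).1 (by linarith)
    linarith [norm_sub_norm_le v (mkV Complex.I 0)]
  have v2 : ‖tp v - Complex.I‖ ≤ 1 / 8 := (norm_tp_sub_le v _ _).trans h2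
  have hL : p.ζ2 ≤ |((starRingEnd ℂ) (hat (X x)) * tp v).im| := by
    refine p.ζ2_le.trans (le_trans ?_ (le_abs_self _))
    have x0 : 0 < ‖X x‖ := by linarith
    refine le_of_mul_le_mul_left ?_ x0
    rw [← good_im]
    have e : (starRingEnd ℂ) (X x) * tp v = (t₀ : ℂ) * Complex.I + ((t₀ : ℂ) * (tp v - Complex.I)
        + (starRingEnd ℂ) (X x - t₀) * tp v) := by
      rw [map_sub, Complex.conj_ofReal]
      ring
    have a1 : ‖(t₀ : ℂ) * (tp v - Complex.I)‖ ≤ t₀ * (1 / 8) := by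
      rw [norm_mul, n0]
      exact mul_le_mul_of_nonneg_left v2 t0.le
    have a2 : ‖(starRingEnd ℂ) (X x - t₀) * tp v‖ ≤ t₀ / 8 * (9 / 8) := by
      rw [norm_mul, Complex.norm_conj]
      exact mul_le_mul h1 ((norm_tp_le v).trans v1) (norm_nonneg _) (by positivity)
    have a3 := (Complex.abs_im_le_norm _).trans ((norm_add_le _ _).trans (add_le_add a1 a2))
    have a4 : ((t₀ : ℂ) * Complex.I).im = t₀ := by simp
    rw [e, Complex.add_im, a4]
    linarith [(abs_le.1 a3).1]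
  have key := hg t₀ ⟨le_rfl, G.t_le'⟩ x v (by nlinarith [p.c_le_half]) (x3.trans p.y3_ge) hL
  have v3 : ‖v‖ ^ 2 ≤ (9 / 8) ^ 2 := pow_le_pow_left₀ (norm_nonneg v) v1 2
  have f1 : p.ff (‖v‖ ^ 2) = 1 := by
    have : ‖v‖ ^ 2 / p.R ^ 2 ≤ 1 := by
      rw [div_le_one (by positivity)]
      nlinarith
    unfold GP.ff
    rw [min_eq_left (by linarith), max_eq_right zero_le_one]
  rw [p.chi_eq_one x3, f1, mul_one, mul_one] at key
  refine le_trans ?_ key
  have g1 : phi0 p t₀ (x, v) ≤ 2 := by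
    have h3 := phi0_le p t₀ (x, v)
    have h4 : ‖v‖ ^ 4 ≤ (p.R / 2) ^ 4 := pow_le_pow_left₀ (norm_nonneg v) (by linarith) 4
    rwa [max_eq_left (by simpa using h4), add_zero] at h3
  have g2 : p.chi0 ≤ 1 := (p.chi0_le (x3.trans p.y3_ge)).trans (p.chi_mem _).2
  have g3 : 4 ≤ p.C1 := by
    unfold GP.C1
    nlinarith [sq_nonneg (2 * p.R ^ 2 + 4)]
  have g4 : p.chi0 / 10 / p.C1 ≤ 1 / 40 := by
    rw [div_le_iff₀ (by linarith)]
    linarith
  have g5 : 0 ≤ (t₀ ^ 121)⁻¹ := by positivity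
  have g6 : 0 ≤ p.chi0 / 10 / p.C1 := div_nonneg (by linarith [p.chi0_pos]) (by linarith)
  have g7 := mul_le_mul_of_nonneg_left (mul_le_mul_of_nonneg_left g1 g5) g6
  have g8 := mul_le_mul_of_nonneg_right g4 (mul_nonneg g5 zero_le_two)
  linarith

end

end Vale.Agent.P140
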