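import Vale.Agent.P140.Carl
import Vale.Agent.P140.Geo2
import Vale.Agent.P140.QApi

/-! Plane integrals of the singular weight. -/

namespace Vale.Agent.P140

open MeasureTheory Set Filter Topology
open scoped ENNReal RealInnerProductSpace

noncomputable section

/-- The fixed Gaussian. -/
def kwG {E : Type} [NormedAddCommGroup E] (x : E) : ℝ≥0∞ :=
  ENNReal.ofReal (Real.exp (-(1 / 16) * ‖x‖ ^ 2))

theorem kwG_le_one {E : Type} [NormedAddCommGroup E] (x : E) : kwG x ≤ 1 :=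
  ENNReal.ofReal_le_one.2 (Real.exp_le_one_iff.2 (by nlinarith [sq_nonneg ‖x‖]))

theorem kwG_meas {E : Type} [NormedAddCommGroup E] [MeasurableSpace E] [OpensMeasurableSpace E] :
    Measurable (kwG : E → ℝ≥0∞) := by
  unfold kwG
  fun_prop

theorem kwG_real : ∫⁻ x : ℝ, kwG x < ∞ := by
  simpa [kwG] using (integrable_exp_neg_mul_sq (b := 1 / 16) (by norm_num)).lintegral_lt_top

theorem kwG_split (q : ℂ) : kwG q = kwG q.re * kwG q.im := by
  unfold kwG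
  rw [← ENNReal.ofReal_mul (Real.exp_pos _).le, ← Real.exp_add, Complex.sq_norm,
    Complex.normSq_apply, Real.norm_eq_abs, Real.norm_eq_abs, sq_abs, sq_abs]
  congr 2
  ring

theorem kw_prod {f g : ℝ → ℝ≥0∞} (hf : Measurable f) (hg : Measurable g) :
    ∫⁻ q : ℂ, f q.re * g q.im = (∫⁻ x, f x) * ∫⁻ x, g x := by
  rw [← lintegral_prod_mul hf.aemeasurable hg.aemeasurable]
  exact Complex.volume_preserving_equiv_real_prod.lintegral_comp
    (f := fun p : ℝ × ℝ => f p.1 * g p.2) ((hf.comp measurable_fst).mul (hg.comp measurable_snd))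

theorem kwG_cx : ∫⁻ q : ℂ, kwG q < ∞ := by
  simp only [kwG_split]
  rw [kw_prod kwG_meas kwG_meas]
  exact ENNReal.mul_lt_top kwG_real kwG_real

theorem kw_gen {E : Type} [NormedAddCommGroup E] [NormedSpace ℝ E] [FiniteDimensional ℝ E]
    [MeasurableSpace E] [BorelSpace E] (μ : Measure E) [μ.IsAddHaarMeasure]
    (hd : 1 ≤ Module.finrank ℝ E) {α : ℝ} (h0 : 0 ≤ α) (hα : α < Module.finrank ℝ E)
    (hG : ∫⁻ x, kwG x ∂μ < ∞) : ∃ C : ℝ≥0∞, C < ∞ ∧ ∀ a b : E,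
      ∫⁻ x, kwG (x - a) * ENNReal.ofReal ‖x - b‖ ^ (-α) ∂μ ≤ C := by
  have hI : IntegrableOn (fun x : E => ‖x‖ ^ (-α)) (Metric.ball 0 1) μ :=
    integrableOn_ball_of_norm_le_rpow (C := 1) hd hα (Eventually.of_forall fun x => by
      rw [one_mul, Real.norm_of_nonneg (by positivity)])
      (measurable_norm.pow_const _).aestronglyMeasurable
  obtain ⟨g, hg⟩ : ∃ g : E → ℝ≥0∞,
      g = (Metric.ball 0 1).indicator fun x => ENNReal.ofReal (‖x‖ ^ (-α)) := ⟨_, rfl⟩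
  have h1 : ∫⁻ x, g x ∂μ < ∞ := by
    rw [hg, lintegral_indicator Metric.isOpen_ball.measurableSet]
    exact hI.lintegral_lt_top
  have : Nontrivial E := Module.nontrivial_of_finrank_pos (R := ℝ) hd
  refine ⟨_, ENNReal.add_lt_top.2 ⟨hG, h1⟩, fun a b => ?_⟩
  rw [← lintegral_sub_right_eq_self kwG a, ← lintegral_sub_right_eq_self g b,
    ← lintegral_add_left (f := fun x => kwG (x - a)) (kwG_meas.comp (measurable_sub_const a))]
  refine lintegral_mono_ae ?_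
  filter_upwards [compl_mem_ae_iff.2 (measure_singleton (μ := μ) b)] with x hx
  have h2 : 0 < ‖x - b‖ := norm_pos_iff.2 (sub_ne_zero.2 hx)
  by_cases h : ‖x - b‖ < 1
  · rw [hg, indicator_of_mem (mem_ball_zero_iff.2 h), ENNReal.ofReal_rpow_of_pos h2]
    exact (mul_le_of_le_one_left' (kwG_le_one _)).trans le_add_self
  · refine (mul_le_of_le_one_right' ?_).trans le_self_add
    rw [ENNReal.rpow_neg]
    exact ENNReal.inv_le_one.2 (by
      simpa using ENNReal.rpow_le_rpow (ENNReal.one_le_ofReal.2 (not_lt.1 h)) h0)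

theorem kw_line : ∃ C : ℝ≥0∞, C < ∞ ∧ ∀ (p f : ℂ) (s : ℝ), ‖f‖ = 1 → ∫⁻ q, kwG (q - p) *
    ENNReal.ofReal |((starRingEnd ℂ) f * q).re - s| ^ (-(1 / 2) : ℝ) ≤ C := by
  obtain ⟨C, hC, h⟩ := kw_gen (volume : Measure ℝ) (by simp) (α := 1 / 2) (by norm_num)
    (by norm_num) kwG_real
  refine ⟨C * ∫⁻ x : ℝ, kwG x, ENNReal.mul_lt_top hC kwG_real, fun p f s hf => ?_⟩
  have h1 : ‖(starRingEnd ℂ) f‖ = 1 := by rw [Complex.norm_conj, hf]
  generalize (starRingEnd ℂ) f = e at *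
  have m1 : Measurable fun x : ℝ => kwG (x - (e * p).re) *
      ENNReal.ofReal ‖x - s‖ ^ (-(1 / 2) : ℝ) :=
    (kwG_meas.comp (measurable_sub_const _)).mul (by fun_prop)
  have m2 : Measurable fun x : ℝ => kwG (x - (e * p).im) := kwG_meas.comp (measurable_sub_const _)
  have h2 := (rotation ⟨e, mem_sphere_zero_iff_norm.2 h1⟩).measurePreserving.lintegral_comp
    (f := fun q : ℂ => kwG (q.re - (e * p).re) * ENNReal.ofReal ‖q.re - s‖ ^ (-(1 / 2) : ℝ) *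
      kwG (q.im - (e * p).im)) ((m1.comp Complex.measurable_re).mul (m2.comp Complex.measurable_im))
  rw [kw_prod m1 m2, lintegral_sub_right_eq_self kwG] at h2
  refine le_trans (le_of_eq ?_) (h2.le.trans (mul_le_mul_left (h _ _) _))
  refine lintegral_congr fun q => ?_
  have h3 : kwG (q - p) = kwG (e * q - e * p) := by
    unfold kwG
    rw [← mul_sub, norm_mul, h1, one_mul]
  rw [h3, kwG_split, mul_right_comm]
  rfl

theorem kw_main : ∃ C : ℝ, 0 < C ∧ ∀ (p u : ℂ) (y : V) (ι : ℂ →ₗᵢ[ℝ] V),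
    ∫⁻ q, kwG (q - p) * (1 + sing u (y - ι q)) ≤ ENNReal.ofReal C := by
  obtain ⟨C1, p1, h1⟩ := kw_gen (volume : Measure ℂ) (by simp) (α := 3 / 2) (by norm_num)
    (by norm_num) kwG_cx
  obtain ⟨C2, p2, h2⟩ := kw_line
  have h3 : (∫⁻ q : ℂ, kwG q) + (C1 + (C1 + C2)) ≠ ∞ :=
    (ENNReal.add_lt_top.2 ⟨kwG_cx, ENNReal.add_lt_top.2 ⟨p1, ENNReal.add_lt_top.2 ⟨p1, p2⟩⟩⟩).ne
  refine ⟨((∫⁻ q : ℂ, kwG q) + (C1 + (C1 + C2))).toReal + 1, by positivity, fun p u y ι => ?_⟩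
  refine le_trans ?_ ((ENNReal.ofReal_toReal h3).ge.trans (ENNReal.ofReal_le_ofReal (by linarith)))
  obtain ⟨q1, k1⟩ := exists_foot ι (y - mkV u 1)
  obtain ⟨q2, k2⟩ := exists_foot ι (y - mkV u (-1))
  obtain ⟨f, s, k3, k4⟩ := exists_horizontal ι (tp y - u)
  have m0 : Measurable fun q : ℂ => kwG (q - p) := kwG_meas.comp (measurable_sub_const _)
  have m1 : ∀ a : ℂ, Measurable fun q : ℂ => kwG (q - p) * ENNReal.ofReal ‖q - a‖ ^ (-(3 / 2) : ℝ) :=
    fun a => m0.mul (by fun_prop)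
  refine le_trans ?_ (add_le_add (lintegral_sub_right_eq_self kwG p).le
    (add_le_add (h1 p q1) (add_le_add (h1 p q2) (h2 p f s k3))))
  rw [← lintegral_add_left (m1 q2), ← lintegral_add_left (m1 q1), ← lintegral_add_left m0]
  refine lintegral_mono fun q => ?_
  dsimp only
  rw [← mul_add, ← mul_add, ← mul_one_add, ← add_assoc (ENNReal.ofReal _ ^ _), sing]
  refine mul_le_mul_right (add_le_add le_rfl (add_le_add (add_le_add ?_ ?_) ?_)) _
  · exact geo2_rpow_anti (ENNReal.ofReal_le_ofReal (by rw [sub_right_comm]; exact k1 q)) (by norm_num)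
  · exact geo2_rpow_anti (ENNReal.ofReal_le_ofReal (by rw [sub_right_comm]; exact k2 q)) (by norm_num)
  · exact geo2_rpow_anti (ENNReal.ofReal_le_ofReal (by rw [tp_sub, sub_right_comm]; exact k4 q))
      (by norm_num)

theorem kw_use {C A : ℝ} (hA : 0 ≤ A) {F H : ℂ → ℝ≥0∞} (hH : ∫⁻ q, H q ≤ ENNReal.ofReal C)
    (h : ∀ q, F q ≤ ENNReal.ofReal A * H q) : ∫⁻ q, F q ≤ ENNReal.ofReal (A * C) := by
  refine (lintegral_mono h).trans ?_
  rw [lintegral_const_mul' _ _ ENNReal.ofReal_ne_top, ENNReal.ofReal_mul hA]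
  exact mul_le_mul_right hH _

theorem plane_Wf : ∃ C : ℝ, 0 < C ∧ ∀ t ∈ Icc (0 : ℝ) (1 / 8), ∀ (u : ℂ) (R : ℝ) (v a : V)
    (ι : ℂ →ₗᵢ[ℝ] V), ‖a‖ ≤ 3 → (∀ q, ⟪ι q, v - a⟫ = 0) →
      ∫⁻ q, ENNReal.ofReal (Real.exp (2 * ‖q‖)) * Wf t u R (v - ι q)
        ≤ ENNReal.ofReal (C * mt t v) := by
  obtain ⟨C, hC, h⟩ := kw_main
  refine ⟨Real.exp 49 * C, by positivity, fun t ht u R v a ι ha ho => ?_⟩
  rw [mul_right_comm]
  refine kw_use (mul_pos (Real.exp_pos _) (mt_pos t v)).le (h 0 u v ι) fun q => ?_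
  rw [Wf, ← mul_assoc, ← mul_assoc, kwG, ← ENNReal.ofReal_mul (Real.exp_pos _).le,
    ← ENNReal.ofReal_mul (mul_pos (Real.exp_pos _) (mt_pos t v)).le]
  refine mul_le_mul' (ENNReal.ofReal_le_ofReal ?_) (add_le_add le_rfl ?_)
  · unfold mt
    rw [← Real.exp_add, ← Real.exp_add, ← Real.exp_add, sub_zero, norm_sub_sq_real, ι.norm_map]
    have h1 := ho q
    rw [inner_sub_right, sub_eq_zero, real_inner_comm] at h1
    have h2 := real_inner_le_norm (ι q) a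
    rw [ι.norm_map, ← h1] at h2
    have h3 := norm_nonneg q
    have h4 : ⟪v, ι q⟫ ≤ 3 * ‖q‖ := by nlinarith
    have h5 := mul_le_mul_of_nonneg_left h4 (show 0 ≤ 1 / 4 - t by linarith [ht.2])
    have h6 := mul_nonneg ht.1 h3
    have h7 := mul_nonneg (show 0 ≤ 1 / 8 - t by linarith [ht.2]) (sq_nonneg ‖q‖)
    exact Real.exp_le_exp.2 (by nlinarith [sq_nonneg (‖q‖ - 28)])
  · split_ifs
    exacts [le_rfl, zero_le]

/-- Gain of a compactly supported function against the weight. -/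
theorem Qe_W : ∃ C : ℝ, 0 < C ∧ ∀ t ∈ Icc (0 : ℝ) (1 / 8), ∀ (u : ℂ) (R : ℝ) (v : V)
    (f g : V → ℝ≥0∞) (B : ℝ), 0 ≤ B → Measurable f → (∀ a, f a ≠ 0 → ‖a‖ ≤ 3) →
      (∀ w, g w ≤ ENNReal.ofReal (B * Real.exp (2 * ‖v - w‖)) * Wf t u R w) →
      Qe f g v ≤ ENNReal.ofReal (C * B * mt t v) * ∫⁻ a, f a / ENNReal.ofReal ‖v - a‖ := by
  obtain ⟨C, hC, h⟩ := plane_Wf
  refine ⟨2 * C, by positivity, fun t ht u R v f g B hB hf hs hg => ?_⟩
  refine (Qe_mono (fun _ => le_rfl) hg v).trans ((Qe_le_plane hf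
    (Measurable.mul (by fun_prop) (measurable_Wf t u R)) v (B := ENNReal.ofReal (B * (C * mt t v)))
    fun a _ ha ι ho => kw_use hB (h t ht u R v a ι (hs a ha) ho) fun q => le_of_eq ?_).trans
    (le_of_eq ?_))
  · simp only [Pi.mul_apply]
    rw [sub_sub_cancel, ι.norm_map, ENNReal.ofReal_mul hB, mul_assoc]
  · rw [show 2 * C * B * mt t v = 2 * (B * (C * mt t v)) by ring,
      ENNReal.ofReal_mul (p := 2) (by norm_num), ENNReal.ofReal_ofNat]

/-- Plane integral of the truncated singular factor. -/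
theorem plane_sing (R : ℝ) : ∃ C : ℝ, 0 < C ∧ ∀ (u : ℂ) (y : V) (ι : ℂ →ₗᵢ[ℝ] V),
    ∫⁻ q, (if ‖y - ι q‖ ≤ R then sing u (y - ι q) else 0) ≤ ENNReal.ofReal C := by
  obtain ⟨C, hC, h⟩ := kw_main
  refine ⟨Real.exp (1 / 16 * R ^ 2) * C, by positivity, fun u y ι => ?_⟩
  obtain ⟨p, hp⟩ := exists_foot ι y
  refine kw_use (Real.exp_pos _).le (h p u y ι) fun q => ?_
  split_ifs with k
  · rw [← mul_assoc, kwG, ← ENNReal.ofReal_mul (Real.exp_pos _).le, ← Real.exp_add]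
    refine le_add_self.trans (le_mul_of_one_le_left' (ENNReal.one_le_ofReal.2
      (Real.one_le_exp ?_)))
    have := pow_le_pow_left₀ (norm_nonneg _) ((hp q).trans k) 2
    linarith
  · exact zero_le

/-- Plane integral of a Gaussian with exponential growth. -/
theorem plane_gauss : ∃ C : ℝ, 0 < C ∧ ∀ t ∈ Icc (0 : ℝ) (1 / 8), ∀ (y : V) (ι : ℂ →ₗᵢ[ℝ] V),
    ∫⁻ q, ENNReal.ofReal (Real.exp ‖y - ι q‖ * mt t (y - ι q)) ≤ ENNReal.ofReal C := by
  obtain ⟨C, hC, h⟩ := kw_main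
  refine ⟨Real.exp 4 * C, by positivity, fun t ht y ι => ?_⟩
  obtain ⟨p, hp⟩ := exists_foot ι y
  refine kw_use (Real.exp_pos _).le (h p 0 y ι) fun q => ?_
  rw [← mul_assoc, kwG, ← ENNReal.ofReal_mul (Real.exp_pos _).le, mt, ← Real.exp_add,
    ← Real.exp_add]
  refine le_trans (ENNReal.ofReal_le_ofReal (Real.exp_le_exp.2 ?_))
    (le_mul_of_one_le_right' le_self_add)
  have h1 := pow_le_pow_left₀ (norm_nonneg _) (hp q) 2
  have h2 := mul_nonneg (show 0 ≤ 1 / 8 - t by linarith [ht.2]) (sq_nonneg ‖y - ι q‖)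
  nlinarith [sq_nonneg (‖y - ι q‖ - 8)]

end

end Vale.Agent.P140
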