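import Vale.Agent.P140.Limit0

/-! The weak limit and its first properties. -/

namespace Vale.Agent.P140

open MeasureTheory Set Filter Topology
open scoped ENNReal RealInnerProductSpace

noncomputable section

variable {F₀ : Ph → ℝ} {S : Seq F₀} {U : Ultrafilter ℕ} {F : ℝ → Ph → ℝ}

theorem Lim.intST (h : Lim S U F) (T : ℝ) :
    Integrable (fun p : ℝ × Ph => (1 + ‖p.2.2‖ ^ 2) * F p.1 p.2) (mu3 T) := by
  obtain ⟨C, hC, hm⟩ := h.mom
  have hme : Measurable (fun p : ℝ × Ph => (1 + ‖p.2.2‖ ^ 2) * F p.1 p.2) :=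
    (by fun_prop : Measurable fun p : ℝ × Ph => 1 + ‖p.2.2‖ ^ 2).mul h.meas
  refine ⟨hme.aestronglyMeasurable, ?_⟩
  rw [hasFiniteIntegral_iff_ofReal (ae_of_all _ fun p =>
    mul_nonneg (by positivity) (h.nonneg _ _)), lintegral_prod _ hme.ennreal_ofReal.aemeasurable]
  calc _ ≤ ∫⁻ _ in Ioc 0 T, ENNReal.ofReal C :=
        setLIntegral_mono' measurableSet_Ioc fun t ht => hm t ht.1.le
    _ < ⊤ := by simp [ENNReal.mul_lt_top]

theorem Lim.weakST (h : Lim S U F) (T : ℝ) : WeakConv (mu3 T) (U : Filter ℕ)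
    (fun k (p : ℝ × Ph) => (1 + ‖p.2.2‖) * S.F k p.1 p.2)
    (fun p => (1 + ‖p.2.2‖) * F p.1 p.2) := by
  have hfm := (measurePreserving_flST (volume : Measure ℝ)).measurable
  have h1 := weakConv_prod (μ := (volume : Measure Ph)) (l := (U : Filter ℕ)) (T := T)
    (f := fun k t z => S.F k t (fl t z)) (f₀ := fun t z => F t (fl t z))
    (fun k => (S.measF k).comp hfm) (h.meas.comp hfm)
    (fun k t ht => (integrable_fl t).2 (lim0_int S k ht.1))
    (fun t ht => (integrable_fl t).2 (h.int t ht.1))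
    (fun t ht => (h.weak t ht.1).comp (measurePreserving_flEquiv t)) (fun ε hε => by
      obtain ⟨δ, hδ, h1⟩ := S.equi T hε
      obtain ⟨δ', hδ', h2⟩ := h.equi T hε
      exact ⟨min δ δ', lt_min hδ hδ', fun s hs t ht hst =>
        ⟨fun k => h1 k s hs t ht (hst.trans (min_le_left _ _)),
          h2 s hs t ht (hst.trans (min_le_right _ _))⟩⟩)
  have h2 := h1.comp (measurePreserving_flSTEquiv_symm (muT T))
  simp only [flSTEquiv_symm_apply, fl_fl_neg] at h2
  have hu : UI (mu3 T) (fun (k : ℕ) (p : ℝ × Ph) => S.F k p.1 p.2) := by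
    refine (S.ui_st T).mono id zero_le_one fun k p => ?_
    have h1 := (S.appr k).nonneg p.1 p.2
    have h2 := norm_nonneg p.2.2
    simp only [id, one_mul]
    rw [abs_of_nonneg h1, abs_of_nonneg (by positivity)]
    nlinarith
  have hi : Integrable (fun p : ℝ × Ph => F p.1 p.2) (mu3 T) := by
    refine (h.intST T).mono' h.meas.aestronglyMeasurable (ae_of_all _ fun p => ?_)
    have h1 := h.nonneg p.1 p.2
    have h2 : 0 ≤ ‖p.2.2‖ ^ 2 * F p.1 p.2 := by positivity
    rw [Real.norm_of_nonneg h1]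
    nlinarith
  exact (h2.weight S.measF (hu.integrable S.measF) hi h.meas
    (fun k p => (S.appr k).nonneg p.1 p.2) (fun p => h.nonneg p.1 p.2)
    (w := fun p : ℝ × Ph => 1 + ‖p.2.2‖) (by fun_prop) (fun p => by positivity) (S.ui_st T)).2

theorem Lim.ae_slice (h : Lim S U F) (T : ℝ) :
    ∀ᵐ p ∂(mu2 T), Integrable (fun v : V => (1 + ‖v‖ ^ 2) * F p.1 (p.2, v)) :=
  ((measurePreserving_prodAssoc (muT T) (volume : Measure T3)
    (volume : Measure V)).integrable_comp_of_integrable (h.intST T)).prod_right_ae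

theorem lim1_int (h : Lim S U F) {t : ℝ} (ht : 0 ≤ t) :
    Integrable (fun z : Ph => (1 + ‖z.2‖ ^ 2) * F t z) := by
  obtain ⟨C, hC, hm⟩ := h.mom
  have hme : Measurable (fun z : Ph => (1 + ‖z.2‖ ^ 2) * F t z) :=
    (by fun_prop : Measurable fun z : Ph => 1 + ‖z.2‖ ^ 2).mul (h.meas_t t)
  refine ⟨hme.aestronglyMeasurable, ?_⟩
  rw [hasFiniteIntegral_iff_ofReal (ae_of_all _ fun z =>
    mul_nonneg (by positivity) (h.nonneg _ _))]
  exact (hm t ht).trans_lt ENNReal.ofReal_lt_top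

theorem Lim.ae_slice_t (h : Lim S U F) {t : ℝ} (ht : 0 ≤ t) :
    ∀ᵐ x : T3, Integrable (fun v : V => (1 + ‖v‖ ^ 2) * F t (x, v)) :=
  Integrable.prod_right_ae (μ := (volume : Measure T3)) (ν := (volume : Measure V))
    (f := fun z : Ph => (1 + ‖z.2‖ ^ 2) * F t z) (lim1_int h ht)

theorem nuL_nonneg {f : Ph → ℝ} (h0 : ∀ z, 0 ≤ f z) (z : Ph) : 0 ≤ nuL f z :=
  integral_nonneg fun w => mul_nonneg (by positivity) (h0 _)

theorem rho_nonneg {f : Ph → ℝ} (h0 : ∀ z, 0 ≤ f z) (x : T3) : 0 ≤ rho f x :=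
  integral_nonneg fun _ => h0 _

theorem lim1_slice {f : Ph → ℝ} (hf : Measurable f) (h0 : ∀ z, 0 ≤ f z) {W : V → ℝ≥0∞}
    (hW : Measurable W) : ∫⁻ z : Ph, W z.2 * ENNReal.ofReal (nuL f z)
      ≤ (ENNReal.ofReal (4 * Real.pi) * ∫⁻ z : Ph, ENNReal.ofReal ((1 + ‖z.2‖ ^ 2) * f z)) *
        ∫⁻ v, W v * ENNReal.ofReal (1 + ‖v‖) := by
  have hmm : Measurable (fun z : Ph => ENNReal.ofReal ((1 + ‖z.2‖ ^ 2) * f z)) :=
    ((by fun_prop : Measurable fun z : Ph => 1 + ‖z.2‖ ^ 2).mul hf).ennreal_ofReal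
  obtain ⟨m, hmd⟩ : ∃ m : T3 → ℝ≥0∞,
      m = fun x => ∫⁻ w, ENNReal.ofReal ((1 + ‖w‖ ^ 2) * f (x, w)) := ⟨_, rfl⟩
  have hm : Measurable m := hmd ▸ hmm.lintegral_prod_right'
  have hpi := Real.pi_pos
  have hle : ∀ z : Ph, ENNReal.ofReal (nuL f z)
      ≤ ENNReal.ofReal (1 + ‖z.2‖) * (ENNReal.ofReal (4 * Real.pi) * m z.1) := by
    intro z
    refine (wk_ofReal_le _).trans ?_
    rw [hmd, ← mul_assoc, ← ENNReal.ofReal_mul (by positivity),
      ← lintegral_const_mul' _ _ ENNReal.ofReal_ne_top]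
    refine lintegral_mono fun w => ?_
    rw [← ENNReal.ofReal_mul (by positivity)]
    refine wk_enorm_le ?_
    have h1 := h0 (z.1, w)
    rw [abs_of_nonneg (by positivity)]
    have h2 := norm_sub_le z.2 w
    have h3 := norm_nonneg z.2
    have h4 := norm_nonneg w
    have h5 : ‖z.2 - w‖ ≤ (1 + ‖z.2‖) * (2 * (1 + ‖w‖ ^ 2)) := by
      have := mul_le_mul_of_nonneg_left (unif0_one ‖w‖) (by positivity : 0 ≤ 1 + ‖z.2‖)
      nlinarith [mul_nonneg h3 h4]
    have h6 := mul_le_mul_of_nonneg_left h5 (by positivity : 0 ≤ 2 * Real.pi * f (z.1, w))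
    nlinarith
  have hW' : Measurable fun v : V => W v * ENNReal.ofReal (1 + ‖v‖) :=
    hW.mul (by fun_prop : Measurable fun v : V => 1 + ‖v‖).ennreal_ofReal
  calc ∫⁻ z : Ph, W z.2 * ENNReal.ofReal (nuL f z)
      ≤ ∫⁻ z : T3 × V, (ENNReal.ofReal (4 * Real.pi) * m z.1) *
          (W z.2 * ENNReal.ofReal (1 + ‖z.2‖)) ∂(volume.prod volume) := by
        refine lintegral_mono fun z => ?_
        refine (mul_le_mul_right (hle z) _).trans_eq ?_
        ring
    _ = (∫⁻ x, ENNReal.ofReal (4 * Real.pi) * m x) * ∫⁻ v, W v * ENNReal.ofReal (1 + ‖v‖) :=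
        lintegral_prod_mul (f := fun x => ENNReal.ofReal (4 * Real.pi) * m x)
          (g := fun v : V => W v * ENNReal.ofReal (1 + ‖v‖))
          (hm.const_mul _).aemeasurable hW'.aemeasurable
    _ = _ := by
        rw [lintegral_const_mul _ hm, hmd, Measure.volume_eq_prod,
          lintegral_prod _ hmm.aemeasurable]

theorem lim1_weight (h : Lim S U F) (T : ℝ) {W : V → ℝ≥0∞} (hW : Measurable W)
    (hfin : ∫⁻ v, W v * ENNReal.ofReal (1 + ‖v‖) < ⊤) :
    ∫⁻ p, W p.2.2 * ENNReal.ofReal (nuL (F p.1) p.2) ∂(mu3 T) < ⊤ := by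
  obtain ⟨C, hC, hm⟩ := h.mom
  calc _ ≤ ∫⁻ t in Ioc 0 T, ∫⁻ z : Ph, W z.2 * ENNReal.ofReal (nuL (F t) z) :=
        lintegral_prod_le _
    _ ≤ ∫⁻ _ in Ioc 0 T, (ENNReal.ofReal (4 * Real.pi) * ENNReal.ofReal C) *
          ∫⁻ v, W v * ENNReal.ofReal (1 + ‖v‖) := by
        refine setLIntegral_mono' measurableSet_Ioc fun t ht => ?_
        refine (lim1_slice (h.meas_t t) (h.nonneg t) hW).trans ?_
        exact mul_le_mul_left (mul_le_mul_right (hm t ht.1.le) _) _
    _ < ⊤ := by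
        rw [setLIntegral_const]
        exact ENNReal.mul_lt_top (ENNReal.mul_lt_top
          (ENNReal.mul_lt_top ENNReal.ofReal_lt_top ENNReal.ofReal_lt_top) hfin) (by simp)

theorem Lim.nuL_int (h : Lim S U F) (T R : ℝ) :
    ∫⁻ p in {p : ℝ × Ph | ‖p.2.2‖ ≤ R}, ENNReal.ofReal (nuL (F p.1) p.2) ∂(mu3 T) < ⊤ := by
  have hs : MeasurableSet {v : V | ‖v‖ ≤ R} := measurableSet_le (by fun_prop) measurable_const
  have hs' : MeasurableSet {p : ℝ × Ph | ‖p.2.2‖ ≤ R} :=
    measurableSet_le (by fun_prop) measurable_const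
  have h1 := lim1_weight h T (W := {v : V | ‖v‖ ≤ R}.indicator fun _ => 1)
    (measurable_const.indicator hs) (by
      calc _ ≤ ∫⁻ v, {v : V | ‖v‖ ≤ R}.indicator (fun _ => ENNReal.ofReal (1 + R)) v := by
            refine lintegral_mono fun v => ?_
            by_cases hv : v ∈ {v : V | ‖v‖ ≤ R}
            · rw [indicator_of_mem hv, indicator_of_mem hv, one_mul]
              exact ENNReal.ofReal_le_ofReal (by linarith [show ‖v‖ ≤ R from hv])
            · rw [indicator_of_notMem hv, zero_mul]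
              exact zero_le
        _ < ⊤ := by
            rw [lintegral_indicator_const hs]
            refine ENNReal.mul_lt_top ENNReal.ofReal_lt_top ?_
            have e : {v : V | ‖v‖ ≤ R} = Metric.closedBall 0 R := by
              ext v
              simp
            rw [e]
            exact measure_closedBall_lt_top)
  rw [← lintegral_indicator hs']
  refine lt_of_le_of_lt (lintegral_mono fun p => ?_) h1
  by_cases hp : p ∈ {p : ℝ × Ph | ‖p.2.2‖ ≤ R}
  · rw [indicator_of_mem hp, indicator_of_mem (show p.2.2 ∈ {v : V | ‖v‖ ≤ R} from hp), one_mul]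
  · rw [indicator_of_notMem hp]
    exact zero_le

theorem Lim.Mx_nuL_int (h : Lim S U F) (T : ℝ) :
    ∫⁻ p, ENNReal.ofReal (Mx p.2.2 * nuL (F p.1) p.2) ∂(mu3 T) < ⊤ := by
  have h1 := lim1_weight h T (W := fun v => ENNReal.ofReal (Mx v))
    continuous_Mx.measurable.ennreal_ofReal (by
      refine lt_of_le_of_lt (lintegral_mono fun v => ?_) (integrable_pow_Mx 1).2
      simp only [pow_one]
      rw [← ENNReal.ofReal_mul (Mx_pos v).le, mul_comm]
      exact Real.ofReal_le_enorm _)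
  refine lt_of_le_of_lt (lintegral_mono fun p => ?_) h1
  rw [ENNReal.ofReal_mul (Mx_pos _).le]

theorem Lim.ae_nuL_int (h : Lim S U F) {T : ℝ} (hT : 0 ≤ T) :
    ∀ᵐ z : Ph, IntervalIntegrable (fun τ => nuL (F τ) (fl τ z)) volume 0 T := by
  have hme : Measurable fun p : ℝ × Ph => Mx p.2.2 * nuL (F p.1) p.2 :=
    (continuous_Mx.measurable.comp measurable_snd.snd).mul
      (measurable_nuL (F := fun p : ℝ × Ph => F p.1) (z := fun p : ℝ × Ph => p.2)
        (h.meas.comp (measurable_fst.fst.prodMk measurable_snd)) measurable_snd)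
  have h1 : Integrable (fun p : ℝ × Ph => Mx p.2.2 * nuL (F p.1) p.2) (mu3 T) := by
    refine ⟨hme.aestronglyMeasurable, ?_⟩
    rw [hasFiniteIntegral_iff_ofReal (ae_of_all _ fun p =>
      mul_nonneg (Mx_pos _).le (nuL_nonneg (h.nonneg _) _))]
    exact h.Mx_nuL_int T
  filter_upwards [((integrable_flST (muT T)).2 h1).prod_left_ae] with z hz
  rw [intervalIntegrable_iff_integrableOn_Ioc_of_le hT]
  refine (hz.const_mul (Mx z.2)⁻¹).congr (ae_of_all _ fun τ => ?_)
  have := (Mx_pos z.2).ne'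
  simp only [fl_snd]
  field_simp

theorem Lim.ae_Qm (h : Lim S U F) (T : ℝ) : ∀ᵐ p ∂(mu3 T),
    Qm (fun v => F p.1 (p.2.1, v)) p.2.2 = ENNReal.ofReal (F p.1 p.2 * nuL (F p.1) p.2) := by
  have q : Measure.QuasiMeasurePreserving (fun p : ℝ × Ph => (p.1, p.2.1)) (mu3 T) (mu2 T) :=
    Measure.quasiMeasurePreserving_fst.comp ((measurePreserving_prodAssoc (muT T)
      (volume : Measure T3) (volume : Measure V)).symm _).quasiMeasurePreserving
  filter_upwards [q.ae (h.ae_slice T)] with p hp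
  have hm : Measurable fun v : V => F p.1 (p.2.1, v) :=
    (h.meas_t p.1).comp (measurable_const.prodMk measurable_id)
  refine Qm_eq hm (fun v => h.nonneg _ _) ?_ p.2.2
  refine (hp.const_mul 2).mono'
    ((by fun_prop : Measurable fun v : V => 1 + ‖v‖).mul hm).aestronglyMeasurable
    (ae_of_all _ fun v => ?_)
  have h1 := h.nonneg p.1 (p.2.1, v)
  rw [Real.norm_of_nonneg (by positivity), ← mul_assoc]
  exact mul_le_mul_of_nonneg_right (unif0_one _) h1

end

end Vale.Agent.P140
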