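import Vale.Agent.P140.Unif
import Vale.Agent.P140.Vers

/-! The weak limit and its first properties. -/

namespace Vale.Agent.P140

open MeasureTheory Set Filter Topology
open scoped ENNReal RealInnerProductSpace

noncomputable section

variable {F₀ : Ph → ℝ} {S : Seq F₀} {U : Ultrafilter ℕ} {F : ℝ → Ph → ℝ}

theorem lim0_ui (S : Seq F₀) {t : ℝ} (ht : 0 ≤ t) :
    UI volume (fun (k : ℕ) (z : Ph) => S.F k t z) := by
  refine (S.ui_t ht).mono id zero_le_one fun k z => ?_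
  have h1 := (S.appr k).nonneg t z
  have h2 := norm_nonneg z.2
  simp only [id, one_mul]
  rw [abs_of_nonneg h1, abs_of_nonneg (by positivity)]
  nlinarith

theorem lim0_meas (S : Seq F₀) (k : ℕ) (t : ℝ) : Measurable (S.F k t) :=
  (S.measF k).comp (measurable_const.prodMk measurable_id)

theorem lim0_int (S : Seq F₀) (k : ℕ) {t : ℝ} (ht : 0 ≤ t) : Integrable (S.F k t) :=
  (lim0_ui S ht).integrable (fun k => lim0_meas S k t) k

theorem lim0_equi (S : Seq F₀) (U : Ultrafilter ℕ) {f : ℝ → Ph → ℝ} (hm : ∀ t, Measurable (f t))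
    (hi : ∀ t, 0 ≤ t → Integrable (f t))
    (hw : ∀ t, 0 ≤ t → WeakConv volume (U : Filter ℕ) (fun k => S.F k t) (f t)) (T : ℝ) {ε : ℝ}
    (hε : 0 < ε) : ∃ δ : ℝ, 0 < δ ∧ ∀ s ∈ Icc 0 T, ∀ t ∈ Icc 0 T, |s - t| ≤ δ →
      ∫⁻ z, ‖f t (fl t z) - f s (fl s z)‖ₑ ≤ ENNReal.ofReal ε := by
  obtain ⟨δ, hδ, h⟩ := S.equi T hε
  refine ⟨δ, hδ, fun s hs t ht hst => ?_⟩
  have h1 := (hw t ht.1).comp (measurePreserving_flEquiv t)
  have h2 := (hw s hs.1).comp (measurePreserving_flEquiv s)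
  simp only [flEquiv_apply] at h1 h2
  have i1 := fun k => (integrable_fl t).2 (lim0_int S k ht.1)
  have i2 := fun k => (integrable_fl s).2 (lim0_int S k hs.1)
  have i3 := (integrable_fl t).2 (hi t ht.1)
  have i4 := (integrable_fl s).2 (hi s hs.1)
  exact (h1.sub h2 i1 i2 i3 i4).norm_le (fun k => (i1 k).sub (i2 k)) (i3.sub i4)
    (((hm t).comp (measurable_fl_right t)).sub ((hm s).comp (measurable_fl_right s)))
    (Eventually.of_forall fun k => h k s hs t ht hst)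

theorem Seq.exists_lim (S : Seq F₀) : ∃ U F, Lim S U F := by
  let U : Ultrafilter ℕ := Ultrafilter.of atTop
  have hex : ∀ t : ℝ, ∃ f : Ph → ℝ, Measurable f ∧ (∀ z, 0 ≤ f z) ∧ (0 ≤ t → Integrable f ∧
      WeakConv volume (U : Filter ℕ) (fun k => S.F k t) f) := by
    intro t
    by_cases ht : 0 ≤ t
    · obtain ⟨f, h1, h2, h3, h4⟩ := exists_weakConv U (lim0_ui S ht) (fun k => lim0_meas S k t)
        (fun k z => (S.appr k).nonneg t z)
      exact ⟨f, h1, h2, fun _ => ⟨h3, h4⟩⟩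
    · exact ⟨fun _ => 0, measurable_const, fun _ => le_rfl, fun h => absurd h ht⟩
  choose f hm h0 hf using hex
  obtain ⟨g, gm, g0, hg⟩ := exists_version (μ := (volume : Measure Ph))
    (f := fun t z => f t (fl t z)) (fun t => (hm t).comp (measurable_fl_right t))
    (fun t z => h0 t _)
    (fun T ε hε => lim0_equi S U hm (fun t ht => (hf t ht).1) (fun t ht => (hf t ht).2) T hε)
  have hae : ∀ t, 0 ≤ t → (fun z => g t (fl (-t) z)) =ᵐ[volume] f t := by
    intro t ht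
    have := (measurePreserving_fl (-t)).quasiMeasurePreserving.ae_eq_comp (hg t ht)
    filter_upwards [this] with z hz
    simpa using hz
  refine ⟨U, fun t z => g t (fl (-t) z), Ultrafilter.of_le _, ?_, fun t z => g0 _ _,
    fun t ht => (hf t ht).1.congr (hae t ht).symm, fun t ht ψ hψ hC => ?_⟩
  · exact gm.comp (measurePreserving_flST_neg volume).measurable
  · have h1 := (hf t ht).2 ψ hψ hC
    have h2 : ∫ z, g t (fl (-t) z) * ψ z = ∫ z, f t z * ψ z := by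
      refine integral_congr_ae ?_
      filter_upwards [hae t ht] with z hz
      rw [hz]
    rw [h2]
    exact h1

theorem Lim.meas_t (h : Lim S U F) (t : ℝ) : Measurable (F t) :=
  h.meas.comp (measurable_const.prodMk measurable_id)

theorem Lim.equi (h : Lim S U F) (T : ℝ) {ε : ℝ} (hε : 0 < ε) : ∃ δ : ℝ, 0 < δ ∧
    ∀ s ∈ Icc 0 T, ∀ t ∈ Icc 0 T, |s - t| ≤ δ →
      ∫⁻ z, ‖F t (fl t z) - F s (fl s z)‖ₑ ≤ ENNReal.ofReal ε :=
  lim0_equi S U h.meas_t h.int h.weak T hε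

theorem Lim.mom (h : Lim S U F) : ∃ C : ℝ, 0 ≤ C ∧ ∀ t, 0 ≤ t →
    ∫⁻ z : Ph, ENNReal.ofReal ((1 + ‖z.2‖ ^ 2) * F t z) ≤ ENNReal.ofReal C := by
  obtain ⟨C, hC, hm⟩ := S.mom
  refine ⟨C, hC, fun t ht => ?_⟩
  refine ((h.weak t ht).lintegral_le (fun k => lim0_int S k ht) (fun k => lim0_meas S k t)
    (h.int t ht) (h.meas_t t) (fun k z => (S.appr k).nonneg t z) (h.nonneg t)
    (w := fun z : Ph => 1 + ‖z.2‖ ^ 2) (by fun_prop) (fun z => by positivity)).trans ?_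
  exact liminf_le_of_frequently_le' (Eventually.of_forall fun k => hm k t ht).frequently

theorem lim0_datum (h : IsDatum F₀) : Integrable F₀ := by
  refine ⟨h.meas.aestronglyMeasurable, lt_of_le_of_lt (lintegral_mono fun z => ?_) h.fin⟩
  refine wk_enorm_le ?_
  have h1 := h.nonneg z
  rw [abs_of_nonneg h1]
  have h2 : 0 ≤ F₀ z * (‖z.2‖ ^ 2 + |Real.log (F₀ z)|) := by positivity
  nlinarith

theorem Lim.init (h : Lim S U F) : F 0 =ᵐ[volume] F₀ := by
  have hi := lim0_datum S.datum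
  have h1 : WeakConv volume atTop (fun k => S.F k 0) F₀ := by
    refine weakConv_of_L1 (fun k => lim0_int S k le_rfl) hi
      (tendsto_of_tendsto_of_tendsto_of_le_of_le tendsto_const_nhds S.conv (fun _ => zero_le)
        (fun k => lintegral_mono fun z => wk_enorm_le ?_))
    have h2 : 0 ≤ |S.F k 0 z - F₀ z| * ‖z.2‖ ^ 2 := by positivity
    nlinarith
  exact (h.weak 0 le_rfl).unique (fun ψ hψ hC => (h1 ψ hψ hC).mono_left h.le) (h.int 0 le_rfl) hi

theorem lim0_L1 (h : Lim S U F) (t₀ : Ici (0 : ℝ)) :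
    Tendsto (fun t : Ici (0 : ℝ) => ∫⁻ z, ‖F t z - F t₀ z‖ₑ) (𝓝 t₀) (𝓝 0) := by
  have hA : Tendsto (fun t : Ici (0 : ℝ) => ∫⁻ z, ‖F t (fl t z) - F t₀ (fl t₀ z)‖ₑ) (𝓝 t₀)
      (𝓝 0) := by
    refine ENNReal.tendsto_nhds_zero.2 fun ε hε => ?_
    by_cases he : ε = ⊤
    · exact Eventually.of_forall fun t => he ▸ le_top
    obtain ⟨δ, hδ, hh⟩ := h.equi ((t₀ : ℝ) + 1) (ENNReal.toReal_pos hε.ne' he)
    rw [ENNReal.ofReal_toReal he] at hh
    have hc : Tendsto (fun t : Ici (0 : ℝ) => (t : ℝ)) (𝓝 t₀) (𝓝 t₀) :=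
      continuous_subtype_val.tendsto t₀
    filter_upwards [hc.eventually (Metric.closedBall_mem_nhds (t₀ : ℝ) (lt_min hδ one_pos))]
      with t ht
    rw [Real.dist_eq] at ht
    have h1 := abs_le.1 (ht.trans (min_le_right _ _))
    refine hh t₀ ⟨t₀.2, by linarith⟩ t ⟨t.2, by linarith [h1.2]⟩ ?_
    rw [abs_sub_comm]
    exact ht.trans (min_le_left _ _)
  have hB : Tendsto (fun t : Ici (0 : ℝ) => ∫⁻ z, ‖F t₀ (fl t z) - F t₀ (fl t₀ z)‖ₑ) (𝓝 t₀)
      (𝓝 0) := (tendsto_fl_L1 (h.int t₀ t₀.2) t₀).comp (continuous_subtype_val.tendsto t₀)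
  have hAB := hA.add hB
  rw [add_zero] at hAB
  refine tendsto_of_tendsto_of_tendsto_of_le_of_le tendsto_const_nhds hAB (fun _ => zero_le)
    fun t => ?_
  have hm : Measurable fun z => ‖F t (fl t z) - F t₀ (fl t₀ z)‖ₑ :=
    (((h.meas_t t).comp (measurable_fl_right t)).sub
      ((h.meas_t t₀).comp (measurable_fl_right t₀))).enorm
  simp only
  rw [← lintegral_add_left hm, ← lintegral_fl t (fun z => ‖F t z - F t₀ z‖ₑ)]
  refine lintegral_mono fun z => ?_
  have e : F t (fl t z) - F t₀ (fl t z)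
      = (F t (fl t z) - F t₀ (fl t₀ z)) - (F t₀ (fl t z) - F t₀ (fl t₀ z)) := by ring
  rw [e]
  exact enorm_sub_le

theorem Lim.weakCont (h : Lim S U F) {ψ : Ph → ℝ} (hψ : Measurable ψ) (hC : ∃ C, ∀ z, |ψ z| ≤ C) :
    ContinuousOn (fun t => ∫ z, F t z * ψ z) (Ici 0) := by
  rw [continuousOn_iff_continuous_domRestrict, continuous_iff_continuousAt]
  intro t₀
  exact weakConv_of_L1 (f := fun t : Ici (0 : ℝ) => F t) (fun t => h.int t t.2) (h.int t₀ t₀.2)
    (lim0_L1 h t₀) ψ hψ hC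

theorem Lim.weak1 (h : Lim S U F) {t : ℝ} (ht : 0 ≤ t) : WeakConv volume (U : Filter ℕ)
    (fun k (z : Ph) => (1 + ‖z.2‖) * S.F k t z) (fun z => (1 + ‖z.2‖) * F t z) :=
  ((h.weak t ht).weight (fun k => lim0_meas S k t) (fun k => lim0_int S k ht) (h.int t ht)
    (h.meas_t t) (fun k z => (S.appr k).nonneg t z) (h.nonneg t) (w := fun z : Ph => 1 + ‖z.2‖)
    (by fun_prop) (fun z => by positivity) (S.ui_t ht)).2

end

end Vale.Agent.P140
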