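import Vale.Agent.P140.KWW
import Vale.Agent.P140.KN
import Vale.Agent.P140.Cold2

/-! The main linear operator for label two. -/

namespace Vale.Agent.P140

open MeasureTheory Set Filter Topology
open scoped ENNReal RealInnerProductSpace

noncomputable section

variable {P : CP} {R σL l₀ t₀ t : ℝ} {g g' : ℝ → Ph → ℝ≥0∞}

theorem one_Ioc {Y : Type} [MeasurableSpace Y] {a b : Y → ℝ} (ha : Measurable a)
    (hb : Measurable b) {G : Y × ℝ → ℝ≥0∞} (hG : Measurable G) :
    Measurable fun x => ∫⁻ τ in Ioc (a x) (b x), G (x, τ) := by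
  have h : Measurable fun p : Y × ℝ => if a p.1 < p.2 ∧ p.2 ≤ b p.1 then G p else 0 :=
    Measurable.ite ((measurableSet_lt (ha.comp measurable_fst) measurable_snd).inter
      (measurableSet_le measurable_snd (hb.comp measurable_fst))) hG measurable_const
  have e : (fun x => ∫⁻ τ in Ioc (a x) (b x), G (x, τ)) =
      fun x => ∫⁻ τ, if a x < τ ∧ τ ≤ b x then G (x, τ) else 0 := by
    ext x
    rw [← lintegral_indicator measurableSet_Ioc]
    simp only [indicator, mem_Ioc]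
  rw [e]
  exact h.lintegral_prod_right' (ν := volume)

theorem one_mcf (P : CP) (s : ℝ) (x : T3) :
    Measurable fun u : V => ENNReal.ofReal (cf P s (x, u)) :=
  ((measurable_cf P).comp (measurable_const.prodMk measurable_prodMk_left)).ennreal_ofReal

theorem one_sl (hg : Measurable (fun p : ℝ × Ph => g p.1 p.2)) (s : ℝ) (x : T3) :
    Measurable fun u : V => g s (x, u) :=
  hg.comp (measurable_const.prodMk measurable_prodMk_left)

theorem one_integrand (P : CP) (σL : ℝ) (hg : Measurable (fun p : ℝ × Ph => g p.1 p.2)) :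
    Measurable fun q : (ℝ × Ph) × ℝ =>
      (if σL * q.2 ≤ ‖X (fl (q.2 - q.1.1) q.1.2).1‖ - P.c * q.2 then
        2 * Qe (fun u => ENNReal.ofReal (cf P q.2 ((fl (q.2 - q.1.1) q.1.2).1, u)))
          (fun u => g q.2 ((fl (q.2 - q.1.1) q.1.2).1, u)) q.1.2.2 else 0 : ℝ≥0∞) := by
  have hy : Measurable fun q : (ℝ × Ph) × ℝ => (fl (q.2 - q.1.1) q.1.2).1 :=
    (measurable_fl.comp ((measurable_snd.sub measurable_fst.fst).prodMk measurable_fst.snd)).fst
  have hp : Measurable fun r : ((ℝ × Ph) × ℝ) × V =>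
      ((r.1.2, ((fl (r.1.2 - r.1.1.1) r.1.1.2).1, r.2)) : ℝ × Ph) :=
    measurable_fst.snd.prodMk ((hy.comp measurable_fst).prodMk measurable_snd)
  refine Measurable.ite (measurableSet_le (measurable_snd.const_mul _)
    ((measurable_X.comp hy).norm.sub (measurable_snd.const_mul _))) ?_ measurable_const
  exact (measurable_Qe
    (f := fun (q : (ℝ × Ph) × ℝ) u => ENNReal.ofReal (cf P q.2 ((fl (q.2 - q.1.1) q.1.2).1, u)))
    (g := fun (q : (ℝ × Ph) × ℝ) u => g q.2 ((fl (q.2 - q.1.1) q.1.2).1, u))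
    ((measurable_cf P).comp hp).ennreal_ofReal (hg.comp hp) measurable_fst.snd.snd).const_mul _

theorem one_W_le (c : ℝ) {R s : ℝ} (hs : 0 < s) (hsR : s * R ≤ 1 / 8) (x : T3) (v w : V) :
    W c R s (x, w) ≤ ENNReal.ofReal (1 * Real.exp (2 * ‖v - w‖)) * Wf s (uf c s x) R w := by
  refine (W_le_Wf c hs hsR x w).trans (le_mul_of_one_le_left zero_le ?_)
  rw [one_mul, ENNReal.one_le_ofReal]
  exact Real.one_le_exp (by positivity)

theorem one_fl (s t : ℝ) (z : Ph) : ((fl (s - t) z).1, z.2) = fl s (fl (-t) z) := by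
  rw [fl_add, ← sub_eq_add_neg]
  rfl

theorem measurable_Lop (hg : Measurable (fun p : ℝ × Ph => g p.1 p.2)) :
    Measurable (fun p : ℝ × Ph => Lop P R σL l₀ t₀ g p.1 p.2) := by
  unfold Lop
  refine Measurable.ite (measurableSet_le measurable_snd.snd.norm measurable_const) ?_
    measurable_const
  exact one_Ioc (measurable_const.max (measurable_fst.const_mul _)) measurable_fst
    (one_integrand P σL hg)

theorem Lop_mono (h : ∀ s ∈ Ioc t₀ t, ∀ z, g s z ≤ g' s z) (z : Ph) :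
    Lop P R σL l₀ t₀ g t z ≤ Lop P R σL l₀ t₀ g' t z := by
  unfold Lop
  split_ifs
  · refine setLIntegral_mono' measurableSet_Ioc fun s hs => ?_
    split_ifs
    · exact mul_le_mul_right (Qe_mono (fun _ => le_rfl)
        (fun u => h s ⟨(le_max_left _ _).trans_lt hs.1, hs.2⟩ _) _) _
    · exact le_rfl
  · exact le_rfl

theorem Lop_add (hg : Measurable (fun p : ℝ × Ph => g p.1 p.2))
    (hg' : Measurable (fun p : ℝ × Ph => g' p.1 p.2)) (z : Ph) :
    Lop P R σL l₀ t₀ (fun s y => g s y + g' s y) t z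
      = Lop P R σL l₀ t₀ g t z + Lop P R σL l₀ t₀ g' t z := by
  unfold Lop
  split_ifs
  · have hm : Measurable fun s : ℝ => (if σL * s ≤ ‖X (fl (s - t) z).1‖ - P.c * s then
        2 * Qe (fun u => ENNReal.ofReal (cf P s ((fl (s - t) z).1, u)))
          (fun u => g s ((fl (s - t) z).1, u)) z.2 else 0 : ℝ≥0∞) :=
      (one_integrand P σL hg).comp (measurable_prodMk_left (x := (t, z)))
    rw [← lintegral_add_left hm]
    refine lintegral_congr fun s => ?_
    split_ifs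
    · rw [Qe_add_right (one_mcf P s _) (one_sl hg s _) (one_sl hg' s _), mul_add]
    · rw [add_zero]
  · rw [add_zero]

/-- Gain of the cold streams against the weight. -/
theorem Qe_cW : ∃ C : ℝ, 0 < C ∧ ∀ P : CP, P.Ok → ∀ R s : ℝ, 0 < s → s ≤ 1 / 100 → s * R ≤ 1 / 8 →
    ∀ (x : T3) (v : V), Qe (fun u => ENNReal.ofReal (cf P s (x, u))) (fun u => W P.c R s (x, u)) v
      ≤ if P.c * s < ‖X x‖ ∧ ‖X x‖ ≤ 1 / 16 then ENNReal.ofReal (C * mt s v) *
          (ENNReal.ofReal (P.K / ‖X x‖) * ((ENNReal.ofReal ‖v - Uf P.c 1 s x‖)⁻¹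
              + (ENNReal.ofReal ‖v - Uf P.c (-1) s x‖)⁻¹)
            + ENNReal.ofReal (P.K * Real.sqrt P.e0) *
              (ENNReal.ofReal ‖v - Uf P.c 1 s x‖ ^ (-(3 / 2) : ℝ)
                + ENNReal.ofReal ‖v - Uf P.c (-1) s x‖ ^ (-(3 / 2) : ℝ))) else 0 := by
  obtain ⟨C, hC0, hC⟩ := Qe_W
  refine ⟨50000 * C, by positivity, fun P hP R s hs hs' hsR x v => ?_⟩
  obtain ⟨σ, hσ, -, he⟩ := cf_one hP hs hs' x
  have h1 := hC s ⟨hs.le, by linarith⟩ (uf P.c s x) R v
    (fun u => ENNReal.ofReal (cf P s (x, u))) (fun u => W P.c R s (x, u)) 1 zero_le_one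
    (one_mcf P s x) (fun a ha => by
      have : cf P s (x, a) ≠ 0 := fun h => ha (by rw [h, ENNReal.ofReal_zero])
      linarith [(cf_supp hP hs hs' this).2.2]) (one_W_le P.c hs hsR x v)
  refine h1.trans ?_
  simp only [he]
  have h2 := cf1_inv hP hσ hs hs' x v
  split_ifs at h2 ⊢ with hc
  · have hm := mt_pos s v
    have hK := hP.K_pos
    have hr : 0 < ‖X x‖ := lt_trans (mul_pos hP.c_pos hs) hc.1
    rw [show 50000 * C * mt s v = C * 1 * mt s v * 50000 by ring,
      ENNReal.ofReal_mul (p := C * 1 * mt s v) (by positivity),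
      mul_assoc (ENNReal.ofReal (C * 1 * mt s v))]
    refine mul_le_mul_right (h2.trans ?_) _
    rw [mul_add, ← mul_assoc, ← mul_assoc, ← ENNReal.ofReal_mul (by norm_num),
      ← ENNReal.ofReal_mul (by norm_num)]
    refine add_le_add (mul_le_mul' (ENNReal.ofReal_le_ofReal ?_) ?_)
      (mul_le_mul' (ENNReal.ofReal_le_ofReal (le_of_eq (by ring))) ?_)
    · rw [mul_div_assoc]
      exact mul_le_mul_of_nonneg_right (by norm_num) (by positivity)
    · rcases hσ with rfl | rfl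
      · exact le_self_add
      · exact le_add_self
    · rcases hσ with rfl | rfl
      · exact le_self_add
      · exact le_add_self
  · rw [le_zero_iff.1 h2, mul_zero]

/-- Crude form of the previous bound. -/
theorem Qe_cW_le : ∃ C : ℝ, 0 < C ∧ ∀ P : CP, P.Ok → ∀ R s : ℝ, 3 ≤ R → 0 < s → s ≤ 1 / 100 →
    s * R ≤ 1 / 8 → ∀ (x : T3) (v : V),
      Qe (fun u => ENNReal.ofReal (cf P s (x, u))) (fun u => W P.c R s (x, u)) v
        ≤ ENNReal.ofReal (C * (P.K / P.c) / s) * W P.c R s (x, v) := by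
  obtain ⟨C, hC0, hC⟩ := Qe_cW
  refine ⟨4 * C, by positivity, fun P hP R s hR hs hs' hsR x v => ?_⟩
  refine (hC P hP R s hs hs' hsR x v).trans ?_
  split_ifs with hc
  swap
  · exact zero_le
  have hK := hP.K_pos
  have hc0 := hP.c_pos
  have hcs : 0 < P.c * s := mul_pos hc0 hs
  have hx : ‖X x‖ + s * R ≤ 1 / 4 := by linarith [hc.2]
  have a1 := shape_inv hc0.le hP.c_le hR hs (Or.inl rfl) x hx v
  have a2 := shape_inv hc0.le hP.c_le hR hs (Or.inr rfl) x hx v
  have a3 := shape_pow hc0.le hP.c_le hR hs (Or.inl rfl) x hx v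
  have a4 := shape_pow hc0.le hP.c_le hR hs (Or.inr rfl) x hx v
  have b1 : ENNReal.ofReal (P.K / ‖X x‖) ≤ ENNReal.ofReal (P.K / P.c / s) := by
    rw [div_div]
    exact ENNReal.ofReal_le_ofReal (div_le_div_of_nonneg_left hK.le hcs hc.1.le)
  have b2 : ENNReal.ofReal (P.K * Real.sqrt P.e0) ≤ ENNReal.ofReal (P.K / P.c / s) := by
    rw [div_div]
    refine ENNReal.ofReal_le_ofReal ?_
    have h1 : Real.sqrt P.e0 ≤ 1 := Real.sqrt_le_one.2 hP.e_le
    have h2 : P.c * s ≤ 1 := by linarith [hc.1, hc.2]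
    exact (mul_le_of_le_one_right hK.le h1).trans (le_div_self hK.le hcs h2)
  rw [ENNReal.ofReal_mul hC0.le, show 4 * C * (P.K / P.c) / s = C * (P.K / P.c / s * 4) by ring,
    ENNReal.ofReal_mul hC0.le, ENNReal.ofReal_mul (p := P.K / P.c / s) (by positivity),
    mul_assoc, mul_assoc, mul_assoc]
  refine mul_le_mul_right ?_ _
  calc ENNReal.ofReal (mt s v) * (ENNReal.ofReal (P.K / ‖X x‖) *
          ((ENNReal.ofReal ‖v - Uf P.c 1 s x‖)⁻¹ + (ENNReal.ofReal ‖v - Uf P.c (-1) s x‖)⁻¹)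
        + ENNReal.ofReal (P.K * Real.sqrt P.e0) *
          (ENNReal.ofReal ‖v - Uf P.c 1 s x‖ ^ (-(3 / 2) : ℝ)
            + ENNReal.ofReal ‖v - Uf P.c (-1) s x‖ ^ (-(3 / 2) : ℝ)))
      = ENNReal.ofReal (P.K / ‖X x‖) *
          (ENNReal.ofReal (mt s v) * (ENNReal.ofReal ‖v - Uf P.c 1 s x‖)⁻¹
            + ENNReal.ofReal (mt s v) * (ENNReal.ofReal ‖v - Uf P.c (-1) s x‖)⁻¹)
        + ENNReal.ofReal (P.K * Real.sqrt P.e0) *
          (ENNReal.ofReal (mt s v) * ENNReal.ofReal ‖v - Uf P.c 1 s x‖ ^ (-(3 / 2) : ℝ)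
            + ENNReal.ofReal (mt s v)
              * ENNReal.ofReal ‖v - Uf P.c (-1) s x‖ ^ (-(3 / 2) : ℝ)) := by ring
    _ ≤ ENNReal.ofReal (P.K / P.c / s) * (W P.c R s (x, v) + W P.c R s (x, v))
        + ENNReal.ofReal (P.K / P.c / s) * (W P.c R s (x, v) + W P.c R s (x, v)) :=
        add_le_add (mul_le_mul' b1 (add_le_add a1 a2)) (mul_le_mul' b2 (add_le_add a3 a4))
    _ = _ := by
        rw [ENNReal.ofReal_ofNat]
        ring

/-- Gain of the narrow majorant against the weight. -/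
theorem Qe_NarW : ∃ C : ℝ, 0 < C ∧ ∀ c e0 R s : ℝ, 0 < c → c ≤ 1 / 2 → 0 ≤ e0 → 3 ≤ R → 0 < s →
    s ≤ 1 / 100 → s * R ≤ 1 / 10 → ∀ (x : T3) (v : V),
      Qe (fun u => Nar c e0 s (x, u)) (fun u => W c R s (x, u)) v
        ≤ ENNReal.ofReal C * W c R s (x, v) := by
  obtain ⟨C, hC0, hC⟩ := Qe_W
  obtain ⟨D, hD0, hD⟩ := Nf_inv (P := 50) (by norm_num)
  refine ⟨2 * C * D, by positivity, fun c e0 R s hc hc' he hR hs hs' hsR x v => ?_⟩
  by_cases hε : epsf c e0 s x = 0
  · simp only [Nar, hε, Nf_zero (P := 50) (by norm_num), add_zero, Qe, zero_mul, mul_zero,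
      lintegral_zero]
    exact zero_le
  have hε0 : 0 < epsf c e0 s x := lt_of_le_of_ne (Ef_nonneg he _) (Ne.symm hε)
  have hr := (Ef_pos_imp hε).2
  have hcs : c * s ≤ 1 / 2 * (1 / 100) := mul_le_mul hc' hs' hs.le (by norm_num)
  have hx : ‖X x‖ + s * R ≤ 1 / 4 := by linarith
  have m1 := measurable_Nf 50 (epsf c e0 s x) 0 (Uf c 1 s x)
  have m2 := measurable_Nf 50 (epsf c e0 s x) 0 (Uf c (-1) s x)
  have h1 := hC s ⟨hs.le, by linarith⟩ (uf c s x) R v
    (fun u => Nar c e0 s (x, u)) (fun u => W c R s (x, u)) 1 zero_le_one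
    (m1.fun_add m2) (fun a ha => by
      by_contra hn
      refine ha ?_
      simp only [Nar, Nf, if_neg hn, add_zero]) (one_W_le c hs (by linarith) x v)
  refine h1.trans ?_
  have key : ∀ U : V, ∫⁻ w, Nf 50 (epsf c e0 s x) 0 U w / ENNReal.ofReal ‖v - w‖
      ≤ ENNReal.ofReal D * (ENNReal.ofReal ‖v - U‖)⁻¹ := by
    intro U
    refine (hD _ 0 hε0 le_rfl U v).trans ?_
    rw [ENNReal.ofReal_div_of_pos (by positivity), div_eq_mul_inv]
    exact mul_le_mul_right (ENNReal.inv_le_inv.2 (ENNReal.ofReal_le_ofReal (by linarith))) _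
  have h2 : ∫⁻ a, Nar c e0 s (x, a) / ENNReal.ofReal ‖v - a‖
      ≤ ENNReal.ofReal D * (ENNReal.ofReal ‖v - Uf c 1 s x‖)⁻¹
        + ENNReal.ofReal D * (ENNReal.ofReal ‖v - Uf c (-1) s x‖)⁻¹ := by
    simp only [Nar, ENNReal.add_div]
    rw [lintegral_add_left (m1.fun_div (measurable_id'.const_sub v).norm.ennreal_ofReal)]
    exact add_le_add (key _) (key _)
  have a1 := shape_inv hc.le hc' hR hs (Or.inl rfl) x hx v
  have a2 := shape_inv hc.le hc' hR hs (Or.inr rfl) x hx v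
  calc ENNReal.ofReal (C * 1 * mt s v) * ∫⁻ a, Nar c e0 s (x, a) / ENNReal.ofReal ‖v - a‖
      ≤ ENNReal.ofReal (C * 1 * mt s v) *
        (ENNReal.ofReal D * (ENNReal.ofReal ‖v - Uf c 1 s x‖)⁻¹
          + ENNReal.ofReal D * (ENNReal.ofReal ‖v - Uf c (-1) s x‖)⁻¹) := mul_le_mul_right h2 _
    _ = ENNReal.ofReal C * ENNReal.ofReal D *
        (ENNReal.ofReal (mt s v) * (ENNReal.ofReal ‖v - Uf c 1 s x‖)⁻¹
          + ENNReal.ofReal (mt s v) * (ENNReal.ofReal ‖v - Uf c (-1) s x‖)⁻¹) := by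
        rw [mul_one, ENNReal.ofReal_mul hC0.le]
        ring
    _ ≤ ENNReal.ofReal C * ENNReal.ofReal D * (W c R s (x, v) + W c R s (x, v)) :=
        mul_le_mul_right (add_le_add a1 a2) _
    _ = _ := by
        rw [mul_assoc 2, ENNReal.ofReal_mul (by norm_num), ENNReal.ofReal_mul hC0.le,
          ENNReal.ofReal_ofNat]
        ring

theorem Lop_norm : ∃ C : ℝ, 0 < C ∧ ∀ P : CP, P.Ok → ∀ R σL l₀ t₀ t A : ℝ, 3 ≤ R → 0 < t₀ →
    0 < t → t ≤ 1 / 100 → t * R ≤ 1 / 8 → 0 ≤ A → ∀ z : Ph,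
      Lop P R σL l₀ t₀ (fun s y => ENNReal.ofReal (A * s ^ 2) * W P.c R s y) t z
        ≤ ENNReal.ofReal (C * (P.K / P.c) * A * t ^ 2) * W P.c R t z := by
  obtain ⟨C, hC0, hC⟩ := Qe_cW_le
  refine ⟨2 * C, by positivity, fun P hP R σL l₀ t₀ t A hR h0 ht ht' htR hA z => ?_⟩
  have hK := hP.K_pos
  have hc0 := hP.c_pos
  unfold Lop
  split_ifs
  swap
  · exact zero_le
  calc _ ≤ ∫⁻ s in Ioc (max t₀ (l₀ * t)) t,
        ENNReal.ofReal (2 * C * (P.K / P.c) * A * t) * W P.c R t z := by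
        refine setLIntegral_mono' measurableSet_Ioc fun s hs => ?_
        split_ifs
        swap
        · exact zero_le
        have hs0 : 0 < s := h0.trans ((le_max_left _ _).trans_lt hs.1)
        have hsR : s * R ≤ 1 / 8 := (mul_le_mul_of_nonneg_right hs.2 (by linarith)).trans htR
        have e := Qe_const_mul (one_mcf P s (fl (s - t) z).1)
          (one_sl (measurable_W P.c R) s (fl (s - t) z).1) 1 (ENNReal.ofReal (A * s ^ 2)) z.2
        simp only [one_mul] at e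
        have h1 := hC P hP R s hR hs0 (hs.2.trans ht') hsR (fl (s - t) z).1 z.2
        have h2 := W_fl_mono hc0.le R hs0 hs.2 (fl (-t) z)
        rw [fl_fl_neg, ← one_fl] at h2
        rw [e]
        refine (mul_le_mul_right (mul_le_mul_right (h1.trans (mul_le_mul_right h2 _)) _) _).trans ?_
        rw [← mul_assoc, ← mul_assoc, ← ENNReal.ofReal_ofNat 2,
          ← ENNReal.ofReal_mul (by norm_num), ← ENNReal.ofReal_mul (by positivity)]
        refine mul_le_mul_left (ENNReal.ofReal_le_ofReal ?_) _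
        have e2 : 2 * (A * s ^ 2) * (C * (P.K / P.c) / s) = 2 * C * (P.K / P.c) * A * s := by
          field_simp
        rw [e2]
        exact mul_le_mul_of_nonneg_left hs.2 (by positivity)
    _ ≤ _ := by
        rw [setLIntegral_const, Real.volume_Ioc, mul_right_comm,
          ← ENNReal.ofReal_mul (by positivity)]
        refine mul_le_mul_left (ENNReal.ofReal_le_ofReal ?_) _
        rw [sq, ← mul_assoc]
        exact mul_le_mul_of_nonneg_left (by linarith [le_max_left t₀ (l₀ * t)]) (by positivity)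

theorem Lop_kernel (hP : P.Ok) (hσ : 0 < σL) (hl : 0 < l₀) (ht : 0 < t) (ht' : t ≤ 1 / 100)
    (hg : Measurable (fun p : ℝ × Ph => g p.1 p.2)) (z : Ph) :
    Lop P R σL l₀ t₀ g t z ≤ if ‖z.2‖ ≤ R then ∫⁻ s in Ioc (max t₀ (l₀ * t)) t,
      ENNReal.ofReal (404 * P.K / (P.e0 * (σL * l₀ * t) ^ 3)) *
        ∫⁻ u, g s ((fl (s - t) z).1, u) / ENNReal.ofReal ‖z.2 - u‖ else 0 := by
  have hK := hP.K_pos
  have he := hP.e_pos
  unfold Lop
  split_ifs
  swap
  · exact le_rfl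
  refine setLIntegral_mono' measurableSet_Ioc fun s hs => ?_
  split_ifs with hc
  swap
  · exact zero_le
  have hs1 : l₀ * t < s := (le_max_right _ _).trans_lt hs.1
  have hs0 : 0 < s := (mul_pos hl ht).trans hs1
  rw [Qe_swap (one_mcf P s _) (one_sl hg s _)]
  have h1 := Qe_le_plane (one_sl hg s (fl (s - t) z).1) (one_mcf P s (fl (s - t) z).1) z.2
    (fun u _ _ ι _ => cf_plane hP hs0 (hs.2.trans ht') (fl (s - t) z).1 z.2 ι)
  refine (mul_le_mul_right h1 _).trans ?_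
  rw [← mul_assoc]
  refine mul_le_mul_left ?_ _
  rw [← ENNReal.ofReal_ofNat 2, ← ENNReal.ofReal_mul (by norm_num),
    ← ENNReal.ofReal_mul (by norm_num)]
  refine ENNReal.ofReal_le_ofReal ?_
  have h2 : σL * l₀ * t ≤ ‖X (fl (s - t) z).1‖ - P.c * s := by
    rw [mul_assoc]
    exact (mul_le_mul_of_nonneg_left hs1.le hσ.le).trans hc
  rw [show 404 * P.K / (P.e0 * (σL * l₀ * t) ^ 3)
    = 2 * (2 * (101 * P.K / (P.e0 * (σL * l₀ * t) ^ 3))) by ring]
  gcongr

end

end Vale.Agent.P140
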