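import Vale.Agent.P140.Geo2

/-! Straight lines in the plane. -/

namespace Vale.Agent.P140

open MeasureTheory Set Filter Topology
open scoped ENNReal RealInnerProductSpace

noncomputable section

theorem quad_measure (V : ℂ) {ξ : ℂ} (hξ : ξ ≠ 0) {a b : ℝ} (ha : 0 ≤ a) (hab : a ≤ b) :
    volume {μ : ℝ | a ≤ ‖V + (μ : ℂ) * ξ‖ ∧ ‖V + (μ : ℂ) * ξ‖ ≤ b}
      ≤ ENNReal.ofReal (2 * Real.sqrt (b ^ 2 - a ^ 2) / ‖ξ‖) := by
  have hn : 0 < ‖ξ‖ := norm_pos_iff.2 hξ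
  obtain ⟨m, d, h⟩ : ∃ m d : ℝ, ∀ μ : ℝ, ‖V + (μ : ℂ) * ξ‖ ^ 2 = (‖ξ‖ * (μ - m)) ^ 2 + d := by
    refine ⟨-(V.re * ξ.re + V.im * ξ.im) / ‖ξ‖ ^ 2,
      ‖V‖ ^ 2 - (V.re * ξ.re + V.im * ξ.im) ^ 2 / ‖ξ‖ ^ 2, fun μ => ?_⟩
    have e : (‖ξ‖ * (μ - -(V.re * ξ.re + V.im * ξ.im) / ‖ξ‖ ^ 2)) ^ 2 = μ ^ 2 * ‖ξ‖ ^ 2 +
        2 * μ * (V.re * ξ.re + V.im * ξ.im) + (V.re * ξ.re + V.im * ξ.im) ^ 2 / ‖ξ‖ ^ 2 := by
      field_simp
      ring
    rw [e, add_add_sub_cancel]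
    simp only [Complex.sq_norm, Complex.normSq_apply, Complex.add_re, Complex.add_im,
      Complex.re_ofReal_mul, Complex.im_ofReal_mul]
    ring
  set A := Real.sqrt (a ^ 2 - d) with hA
  set w := Real.sqrt (b ^ 2 - a ^ 2) with hw
  have a0 : 0 ≤ A := Real.sqrt_nonneg _
  have w0 : 0 ≤ w := Real.sqrt_nonneg _
  have h1 : {μ : ℝ | a ≤ ‖V + (μ : ℂ) * ξ‖ ∧ ‖V + (μ : ℂ) * ξ‖ ≤ b} ⊆
      Icc (m + A / ‖ξ‖) (m + (A + w) / ‖ξ‖) ∪ Icc (m - (A + w) / ‖ξ‖) (m - A / ‖ξ‖) := by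
    rintro μ ⟨h1, h2⟩
    have h3 := pow_le_pow_left₀ ha h1 2
    have h4 := pow_le_pow_left₀ (norm_nonneg _) h2 2
    rw [h] at h3 h4
    have h5 : A ≤ |‖ξ‖ * (μ - m)| := Real.sqrt_le_iff.2 ⟨abs_nonneg _, by rw [sq_abs]; linarith⟩
    have h6 : |‖ξ‖ * (μ - m)| ≤ A + w := abs_le_of_sq_le_sq (by
      nlinarith [(le_max_left _ _).trans (Real.sq_sqrt' (x := a ^ 2 - d)).ge,
        (le_max_left _ _).trans (Real.sq_sqrt' (x := b ^ 2 - a ^ 2)).ge, mul_nonneg a0 w0]) (add_nonneg a0 w0)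
    rw [abs_mul, abs_of_pos hn, mul_comm] at h5 h6
    rw [← div_le_iff₀ hn] at h5
    rw [← le_div_iff₀ hn] at h6
    rcases le_total m μ with h7 | h7
    · rw [abs_of_nonneg (sub_nonneg.2 h7)] at h5 h6
      exact Or.inl ⟨by linarith, by linarith⟩
    · rw [abs_of_nonpos (sub_nonpos.2 h7)] at h5 h6
      exact Or.inr ⟨by linarith, by linarith⟩
  refine (measure_mono h1).trans ((measure_union_le _ _).trans_eq ?_)
  rw [Real.volume_Icc, Real.volume_Icc, show m + (A + w) / ‖ξ‖ - (m + A / ‖ξ‖) = w / ‖ξ‖ by ring,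
    show m - A / ‖ξ‖ - (m - (A + w) / ‖ξ‖) = w / ‖ξ‖ by ring,
    ← ENNReal.ofReal_add (by positivity) (by positivity)]
  congr 1
  ring

/-- Logarithmic time spent in a conical layer. -/
theorem logLayer (V : ℂ) {ξ : ℂ} (hξ : ξ ≠ 0) {a b S : ℝ} (ha : 0 ≤ a) (hab : a ≤ b)
    (hS : 0 ≤ S) : ∫⁻ s in Ioc 0 S,
      (if a * s ≤ ‖ξ + (s : ℂ) * V‖ ∧ ‖ξ + (s : ℂ) * V‖ ≤ b * s then ENNReal.ofReal (1 / s) else 0)
      ≤ ENNReal.ofReal (2 * S * Real.sqrt (b ^ 2 - a ^ 2) / ‖ξ‖) := by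
  have h1 := lintegral_image_eq_lintegral_abs_deriv_mul (s := Ioc 0 S) (f := fun s : ℝ => s⁻¹)
    measurableSet_Ioc (fun s hs => (hasDerivAt_inv hs.1.ne').hasDerivWithinAt)
    inv_injective.injOn ({μ : ℝ | a ≤ ‖V + (μ : ℂ) * ξ‖ ∧ ‖V + (μ : ℂ) * ξ‖ ≤ b}.indicator
      fun _ => ENNReal.ofReal S)
  refine (setLIntegral_mono' measurableSet_Ioc fun s hs => ?_).trans (h1.ge.trans
    ((setLIntegral_le_lintegral _ _).trans ((lintegral_indicator_const_le _ _).trans ?_)))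
  · split_ifs with h
    · have e : ‖ξ + (s : ℂ) * V‖ = ‖V + ((s⁻¹ : ℝ) : ℂ) * ξ‖ * s := by
        have : (s : ℂ) ≠ 0 := Complex.ofReal_ne_zero.2 hs.1.ne'
        rw [← Complex.norm_of_nonneg hs.1.le, ← norm_mul, Complex.norm_of_nonneg hs.1.le]
        congr 1
        push_cast
        field_simp
        ring
      rw [e, mul_le_mul_iff_left₀ hs.1, mul_le_mul_iff_left₀ hs.1] at h
      rw [indicator_of_mem (by exact h), ← ENNReal.ofReal_mul (abs_nonneg _), abs_neg,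
        abs_of_pos (by have := hs.1; positivity)]
      refine ENNReal.ofReal_le_ofReal ?_
      rw [inv_mul_eq_div, div_le_div_iff₀ hs.1 (pow_pos hs.1 2)]
      nlinarith [hs.1, hs.2]
    · exact zero_le
  · refine (mul_le_mul_right (quad_measure V hξ ha hab) _).trans_eq ?_
    rw [← ENNReal.ofReal_mul hS]
    congr 1
    ring

theorem im_conj_line (ξ V : ℂ) (s : ℝ) :
    ((starRingEnd ℂ) (ξ + (s : ℂ) * V) * V).im = ((starRingEnd ℂ) ξ * V).im := by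
  simp only [map_add, map_mul, Complex.conj_ofReal, Complex.mul_im, Complex.add_re, Complex.add_im,
    Complex.mul_re, Complex.ofReal_re, Complex.ofReal_im, Complex.conj_re, Complex.conj_im]
  ring

theorem path_deriv (ξ V : ℂ) (s : ℝ) : HasDerivAt (fun u : ℝ => ξ + (u : ℂ) * V) V s := by
  simpa using (((hasDerivAt_id' s).ofReal_comp).mul_const V).const_add ξ

theorem path_re_hat (p V : ℂ) :
    ((starRingEnd ℂ) (hat p) * V).re = ((starRingEnd ℂ) p * V).re / ‖p‖ := by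
  rw [hat, map_div₀, Complex.conj_ofReal, div_mul_eq_mul_div, Complex.div_ofReal_re]

theorem hasDerivAt_norm_line {ξ V : ℂ} {s : ℝ} (h : ξ + (s : ℂ) * V ≠ 0) :
    HasDerivAt (fun u : ℝ => ‖ξ + (u : ℂ) * V‖)
      (((starRingEnd ℂ) (hat (ξ + (s : ℂ) * V)) * V).re) s := by
  have h1 := (path_deriv ξ V s).norm_sq.sqrt (pow_ne_zero 2 (norm_ne_zero_iff.2 h))
  simp only [Real.sqrt_sq (norm_nonneg _), Complex.inner] at h1
  rwa [mul_div_mul_left _ _ two_ne_zero, mul_comm V, ← path_re_hat] at h1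

theorem path_hat {ξ V : ℂ} {s : ℝ} (h : ξ + (s : ℂ) * V ≠ 0) :
    HasDerivAt (fun u : ℝ => hat (ξ + (u : ℂ) * V))
      (Complex.I * ((((starRingEnd ℂ) ξ * V).im / ‖ξ + (s : ℂ) * V‖ ^ 2 : ℝ) : ℂ) *
        hat (ξ + (s : ℂ) * V)) s := by
  have h0 : ((‖ξ + (s : ℂ) * V‖ : ℝ) : ℂ) ≠ 0 := Complex.ofReal_ne_zero.2 (norm_ne_zero_iff.2 h)
  refine ((path_deriv ξ V s).fun_div (hasDerivAt_norm_line h).ofReal_comp h0).congr_deriv ?_
  rw [path_re_hat, ← im_conj_line ξ V s, hat]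
  generalize ξ + (s : ℂ) * V = p at h0
  have e : ((‖p‖ : ℝ) : ℂ) ^ 2 * V = p * ((((starRingEnd ℂ) p * V).re : ℂ) +
      (((starRingEnd ℂ) p * V).im : ℂ) * Complex.I) := by
    rw [Complex.re_add_im, ← mul_assoc, Complex.mul_conj, Complex.normSq_eq_norm_sq,
      Complex.ofReal_pow]
  generalize ((starRingEnd ℂ) p * V).re = x at e
  generalize ((starRingEnd ℂ) p * V).im = y at e
  push_cast
  field_simp
  linear_combination e

/-- Oscillatory integral along a line with nonzero angular momentum. -/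
theorem osc_line {ξ V : ℂ} (hL : ((starRingEnd ℂ) ξ * V).im ≠ 0) {j : ℕ} (hj : 1 ≤ j)
    {a b ρ D : ℝ} (hab : a ≤ b) {ψ ψ' : ℝ → ℝ} (hψ : ∀ s ∈ Icc a b, HasDerivAt ψ (ψ' s) s)
    (hψ' : ContinuousOn ψ' (Icc a b)) (h01 : ∀ s ∈ Icc a b, ψ s ∈ Icc (0 : ℝ) 1)
    (hD : ∀ s ∈ Icc a b, |ψ' s| ≤ D) (hρ : ∀ s ∈ Icc a b, ‖ξ + (s : ℂ) * V‖ ≤ ρ) :
    |∫ s in a..b, ψ s * (hat (ξ + (s : ℂ) * V) ^ j).re / ‖ξ + (s : ℂ) * V‖|
      ≤ (2 * ρ + ‖V‖ * (b - a) + ρ * D * (b - a)) / (j * |((starRingEnd ℂ) ξ * V).im|) := by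
  set L := ((starRingEnd ℂ) ξ * V).im with hLd
  have hp : ∀ s : ℝ, ξ + (s : ℂ) * V ≠ 0 := fun s h => hL (by
    rw [hLd, ← im_conj_line ξ V s, h, map_zero, zero_mul, Complex.zero_im])
  have hr : ∀ s : ℝ, ‖ξ + (s : ℂ) * V‖ ≠ 0 := fun s => norm_ne_zero_iff.2 (hp s)
  have c1 : Continuous fun s : ℝ => hat (ξ + (s : ℂ) * V) :=
    continuous_iff_continuousAt.2 fun s => (path_hat (hp s)).continuousAt
  have c2 : ContinuousOn ψ (Icc a b) := fun s hs => (hψ s hs).continuousAt.continuousWithinAt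
  have d1 : ∀ s : ℝ, HasDerivAt (fun u : ℝ => (hat (ξ + (u : ℂ) * V) ^ j).im)
      (j * L * ((hat (ξ + (s : ℂ) * V) ^ j).re / ‖ξ + (s : ℂ) * V‖ ^ 2)) s := fun s => by
    obtain ⟨i, rfl⟩ : ∃ i, j = i + 1 := ⟨j - 1, by omega⟩
    refine (Complex.imCLM.hasFDerivAt.comp_hasDerivAt s
      ((path_hat (hp s)).fun_pow (i + 1))).congr_deriv ?_
    rw [Complex.imCLM_apply, ← hLd, show ∀ x y z : ℂ, ((i + 1 : ℕ) : ℂ) * x ^ (i + 1 - 1) *
      (y * z * x) = (((i + 1 : ℕ) : ℝ) : ℂ) * (z * (y * x ^ (i + 1))) from fun x y z => by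
        rw [Nat.add_sub_cancel, Complex.ofReal_natCast]
        ring, Complex.im_ofReal_mul, Complex.im_ofReal_mul, Complex.I_mul_im]
    ring
  have h1 := intervalIntegral.integral_mul_deriv_eq_deriv_mul (a := a) (b := b)
    (fun s hs => (hψ s (uIcc_of_le hab ▸ hs)).fun_mul (hasDerivAt_norm_line (hp s)))
    (fun s _ => d1 s) (ContinuousOn.intervalIntegrable_of_Icc hab (by fun_prop))
    (Continuous.intervalIntegrable (by fun_prop (disch := exact fun s => pow_ne_zero 2 (hr s))) _ _)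
  have h2 : ∫ s in a..b, ψ s * ‖ξ + (s : ℂ) * V‖ *
      (j * L * ((hat (ξ + (s : ℂ) * V) ^ j).re / ‖ξ + (s : ℂ) * V‖ ^ 2)) =
      j * L * ∫ s in a..b, ψ s * (hat (ξ + (s : ℂ) * V) ^ j).re / ‖ξ + (s : ℂ) * V‖ := by
    rw [← intervalIntegral.integral_const_mul]
    refine intervalIntegral.integral_congr fun s _ => ?_
    have := hr s
    field_simp
  have b1 : ∀ s : ℝ, |(hat (ξ + (s : ℂ) * V) ^ j).im| ≤ 1 := fun s =>
    (Complex.abs_im_le_norm _).trans (by rw [norm_pow, norm_hat (hp s), one_pow])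
  have b2 : ∀ s ∈ Icc a b, |ψ s * ‖ξ + (s : ℂ) * V‖ * (hat (ξ + (s : ℂ) * V) ^ j).im| ≤ ρ :=
    fun s hs => by
      rw [abs_mul, abs_mul, abs_norm, abs_of_nonneg (h01 s hs).1]
      exact (mul_le_of_le_one_right (mul_nonneg (h01 s hs).1 (norm_nonneg _)) (b1 s)).trans
        ((mul_le_of_le_one_left (norm_nonneg _) (h01 s hs).2).trans (hρ s hs))
  have b3 := intervalIntegral.norm_integral_le_of_norm_le_const (a := a) (b := b)
    (C := D * ρ + ‖V‖) (f := fun s => (ψ' s * ‖ξ + (s : ℂ) * V‖ + ψ s *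
      ((starRingEnd ℂ) (hat (ξ + (s : ℂ) * V)) * V).re) * (hat (ξ + (s : ℂ) * V) ^ j).im)
    fun s hs => by
      have hs' : s ∈ Icc a b := Ioc_subset_Icc_self (uIoc_of_le hab ▸ hs)
      rw [Real.norm_eq_abs, abs_mul]
      refine (mul_le_of_le_one_right (abs_nonneg _) (b1 s)).trans ((abs_add_le _ _).trans
        (add_le_add ?_ ?_))
      · rw [abs_mul, abs_norm]
        exact mul_le_mul (hD s hs') (hρ s hs') (norm_nonneg _) ((abs_nonneg _).trans (hD s hs'))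
      · rw [abs_mul, abs_of_nonneg (h01 s hs').1]
        refine (mul_le_of_le_one_left (abs_nonneg _) (h01 s hs').2).trans
          ((Complex.abs_re_le_norm _).trans_eq ?_)
        rw [norm_mul, Complex.norm_conj, norm_hat (hp s), one_mul]
  rw [Real.norm_eq_abs, abs_of_nonneg (sub_nonneg.2 hab)] at b3
  have j0 : (0 : ℝ) < j := Nat.cast_pos.2 hj
  rw [le_div_iff₀ (mul_pos j0 (abs_pos.2 hL)), mul_comm, ← abs_of_pos j0, ← abs_mul, ← abs_mul,
    ← h2, h1]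
  refine (abs_sub _ _).trans ((add_le_add ((abs_sub _ _).trans (add_le_add
    (b2 b ⟨hab, le_rfl⟩) (b2 a ⟨le_rfl, hab⟩))) b3).trans_eq (by ring))

/-- A `C¹` cutoff. -/
theorem exists_cutoff : ∃ S S' : ℝ → ℝ, (∀ u, HasDerivAt S (S' u) u) ∧ Continuous S' ∧
    (∀ u, S u ∈ Icc (0 : ℝ) 1) ∧ (∀ u, |S' u| ≤ 2) ∧ (∀ u, u ≤ 0 → S u = 0) ∧
    ∀ u, 1 ≤ u → S u = 1 := by
  have c : Continuous fun u : ℝ => max 0 (6 * u * (1 - u)) := by fun_prop
  have d := fun u => (c.integral_hasStrictDerivAt 0 u).hasDerivAt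
  have m := monotone_of_hasDerivAt_nonneg d fun u => le_max_left _ _
  have h0 : ∀ u : ℝ, u ≤ 0 → ∫ x in (0 : ℝ)..u, max 0 (6 * x * (1 - x)) = 0 := fun u hu => by
    rw [intervalIntegral.integral_congr (g := fun _ => 0) fun x hx => max_eq_left (by
      rw [uIcc_of_ge hu] at hx
      nlinarith [hx.2]), intervalIntegral.integral_zero]
  have h1 : ∀ u : ℝ, 1 ≤ u → ∫ x in (0 : ℝ)..u, max 0 (6 * x * (1 - x)) = 1 := fun u hu => by
    rw [← intervalIntegral.integral_add_adjacent_intervals (b := 1) (c.intervalIntegrable _ _)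
      (c.intervalIntegrable _ _), intervalIntegral.integral_congr (a := 1) (g := fun _ => 0)
        fun x hx => max_eq_left (by
          rw [uIcc_of_le hu] at hx
          nlinarith [hx.1]), intervalIntegral.integral_zero, add_zero,
      intervalIntegral.integral_congr (g := fun x => 6 * x - 6 * x ^ 2) fun x hx => by
        rw [uIcc_of_le zero_le_one] at hx
        exact (max_eq_right (by nlinarith [hx.1, hx.2])).trans (by ring),
      intervalIntegral.integral_sub (Continuous.intervalIntegrable (by fun_prop) _ _)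
        (Continuous.intervalIntegrable (by fun_prop) _ _), intervalIntegral.integral_const_mul,
      intervalIntegral.integral_const_mul, integral_id, integral_pow]
    norm_num
  refine ⟨_, _, d, c, fun u => ⟨(h0 _ (min_le_right u 0)).ge.trans (m (min_le_left _ _)),
    (m (le_max_left _ _)).trans (h1 _ (le_max_right u 1)).le⟩, fun u => ?_, h0, h1⟩
  rw [abs_of_nonneg (le_max_left _ _)]
  exact max_le zero_le_two (by nlinarith [sq_nonneg (2 * u - 1)])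

theorem sec_minorant (M : ℕ) {σ : ℝ} (hσ : σ = 1 ∨ σ = -1) {p : ℂ} (hp : p ≠ 0) :
    3 / 20 + (hat p ^ (2 * M)).re / 4 + 2 / 5 * σ * (hat p ^ M).re
      ≤ if 1 / 5 ≤ sec M σ p then 1 else 0 := by
  have h1 : ‖hat p ^ M‖ ^ 2 = 1 := by rw [norm_pow, norm_hat hp, one_pow, one_pow]
  have h2 := abs_le.1 (abs_sec_le M hσ p)
  have h3 : σ * σ = 1 := by rcases hσ with rfl | rfl <;> norm_num
  rw [Complex.sq_norm, Complex.normSq_apply] at h1
  have h4 : 3 / 20 + (hat p ^ (2 * M)).re / 4 + 2 / 5 * σ * (hat p ^ M).re =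
      (sec M σ p - 1 / 5) * (sec M σ p + 1) / 2 := by
    rw [pow_mul', sq, Complex.mul_re, sec]
    linear_combination (-1 / 4) * h1 - (hat p ^ M).re ^ 2 / 2 * h3
  rw [h4]
  split_ifs with h
  · nlinarith [h2.1, h2.2]
  · nlinarith [h2.1, not_le.1 h]

end

end Vale.Agent.P140
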