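import Vale.Agent.P140.One
import Vale.Agent.P140.Path

/-! One Duhamel step for label two. -/

namespace Vale.Agent.P140

open MeasureTheory Set Filter Topology
open scoped ENNReal RealInnerProductSpace

noncomputable section

theorem one2_small {a b : ℝ} (ha : 0 < a) (hb : 0 < b) : ∃ η, 0 < η ∧ η ≤ 1 ∧ a * η ≤ b :=
  ⟨min 1 (b / a), lt_min one_pos (div_pos hb ha), min_le_left _ _,
    (le_div_iff₀' ha).1 (min_le_right _ _)⟩

theorem one2_inv {a d : ℝ} (ha : 0 < a) (h : a ≤ d) :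
    (ENNReal.ofReal d)⁻¹ ≤ ENNReal.ofReal (1 / a) := by
  rw [one_div, ENNReal.ofReal_inv_of_pos ha]
  exact ENNReal.inv_le_inv.2 (ENNReal.ofReal_le_ofReal h)

theorem one2_half {p a : ℝ} (ha : 0 ≤ a) (h : p ≤ a ^ 2) :
    ENNReal.ofReal p ^ (1 / 2 : ℝ) ≤ ENNReal.ofReal a := by
  refine (ENNReal.rpow_le_rpow (ENNReal.ofReal_le_ofReal h) (by norm_num)).trans_eq ?_
  rw [ENNReal.ofReal_pow ha, ← ENNReal.rpow_natCast, ← ENNReal.rpow_mul]
  norm_num

theorem one2_sing {η p : ℝ} (d : ℝ) (hη : 0 < η) (hp : p ≤ η ^ 6) : (ENNReal.ofReal d)⁻¹ ≤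
    ENNReal.ofReal η * (ENNReal.ofReal d ^ (-(3 / 2) : ℝ) + ENNReal.ofReal p ^ (-(1 / 2) : ℝ)) := by
  rcases le_total d (η ^ 2) with h | h
  · refine le_trans ?_ (mul_le_mul_right le_self_add _)
    rcases eq_or_ne (ENNReal.ofReal d) 0 with h0 | h0
    · rw [h0, ENNReal.zero_rpow_of_neg (by norm_num), ENNReal.mul_top (by simpa using hη)]
      exact le_top
    · refine le_trans (le_of_eq ?_) (mul_le_mul_left (one2_half hη.le h) _)
      rw [← ENNReal.rpow_add _ _ h0 ENNReal.ofReal_ne_top, ← ENNReal.rpow_neg_one]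
      norm_num
  · refine (one2_inv (by positivity) h).trans (le_trans ?_ (mul_le_mul_right le_add_self _))
    rw [ENNReal.rpow_neg, show 1 / η ^ 2 = η * (η ^ 3)⁻¹ by field_simp, ENNReal.ofReal_mul hη.le,
      ENNReal.ofReal_inv_of_pos (by positivity)]
    exact mul_le_mul_right (ENNReal.inv_le_inv.2 (one2_half (by positivity) (by linarith))) _

/-- Logarithmic density of the layer times. -/
def one2Lay (c σL η : ℝ) (ξ V : ℂ) : ℝ → ℝ≥0∞ := (Ioc 0 (2 * ‖ξ‖ / η ^ 6)).indicator fun s =>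
  if c * s ≤ ‖ξ + (s : ℂ) * V‖ ∧ ‖ξ + (s : ℂ) * V‖ ≤ (c + σL) * s then ENNReal.ofReal (1 / s)
  else 0

theorem one2_mlay (c σL η : ℝ) (ξ V : ℂ) : Measurable (one2Lay c σL η ξ V) :=
  (Measurable.ite ((measurableSet_le (f := fun s : ℝ => c * s) (by fun_prop) (by fun_prop)).inter
    (measurableSet_le (g := fun s : ℝ => (c + σL) * s) (by fun_prop) (by fun_prop))) (by fun_prop)
    measurable_const).indicator measurableSet_Ioc

theorem one2_lay {c η κ : ℝ} (hc : 0 < c) (hc' : c ≤ 1 / 2) (hη : 0 < η) (hκ : 0 < κ) (hκ1 : κ ≤ 1)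
    (ξ V : ℂ) : ∫⁻ s, one2Lay c (κ ^ 2 / 2) η ξ V s ≤ ENNReal.ofReal (4 * κ / η ^ 6) := by
  rw [one2Lay, lintegral_indicator measurableSet_Ioc]
  rcases eq_or_ne ξ 0 with rfl | h
  · simp
  have h0 := norm_pos_iff.2 h
  refine (logLayer V h hc.le (le_add_of_nonneg_right (by positivity)) (by positivity)).trans
    (ENNReal.ofReal_le_ofReal ?_)
  have h1 : √((c + κ ^ 2 / 2) ^ 2 - c ^ 2) ≤ κ := Real.sqrt_le_iff.2 ⟨hκ.le, by
    nlinarith [mul_le_mul_of_nonneg_left (pow_le_one₀ hκ.le hκ1 (n := 2)) (sq_nonneg κ)]⟩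
  calc _ ≤ 2 * (2 * ‖ξ‖ / η ^ 6) * κ / ‖ξ‖ := by gcongr
    _ = _ := by field_simp; ring

theorem one2_main {c R η σL σ s t : ℝ} (hc : 0 < c) (hc' : c ≤ 1 / 2) (hη : 0 < η) (hR : 4 ≤ R)
    (hRη : 2 ≤ η * R) (hs : 0 < s) (hst : s ≤ t) (htR : t * R ≤ 1 / 10) (hσL : σL ≤ η ^ 6 / 2)
    (hσ : σ = 1 ∨ σ = -1) (z : Ph) (h1 : c * s < ‖X (fl s z).1‖ ∧ ‖X (fl s z).1‖ ≤ 1 / 16)
    (h2 : ¬ (‖z.2‖ ≤ R ∧ σL * s ≤ ‖X (fl s z).1‖ - c * s)) :
    ENNReal.ofReal s * (ENNReal.ofReal ‖z.2 - Uf c σ s (fl s z).1‖)⁻¹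
      ≤ ENNReal.ofReal (η * t) * Sg c R t (X z.1) z.2
        + ENNReal.ofReal (t ^ 2 / η ^ 6) * one2Lay c σL η (X z.1) (tp z.2) s := by
  have key : ∀ {a : ℝ≥0∞}, a ≤ ENNReal.ofReal η * Sg c R t (X z.1) z.2 → ENNReal.ofReal s * a ≤
      ENNReal.ofReal (η * t) * Sg c R t (X z.1) z.2
        + ENNReal.ofReal (t ^ 2 / η ^ 6) * one2Lay c σL η (X z.1) (tp z.2) s := fun h => by
    refine le_trans ?_ le_self_add
    rw [mul_comm η, ENNReal.ofReal_mul (hs.le.trans hst), mul_assoc]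
    exact mul_le_mul' (ENNReal.ofReal_le_ofReal hst) h
  rcases lt_or_ge R ‖z.2‖ with hv | hv
  · refine key ((one2_inv (a := R / 2) (by linarith) ?_).trans
      ((ENNReal.ofReal_le_ofReal ?_).trans (le_mul_of_one_le_right' (one_le_Sg _ _ _ _ _))))
    · linarith [norm_sub_norm_le z.2 (Uf c σ s (fl s z).1), norm_Uf_le hc.le hc' hσ s (fl s z).1]
    · rw [div_le_iff₀ (by linarith)]
      linarith
  have h3 : s * ‖z.2‖ ≤ 1 / 10 := (mul_le_mul hst hv (norm_nonneg _) (hs.le.trans hst)).trans htR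
  have e : xi s ((fl s z).1, z.2) = X z.1 := xi_fl s z
  have h4 := xi_chart' hs.le (fl s z).1 z.2 (by linarith [h1.2])
  have h5 := norm_xi_le hs.le (fl s z).1 z.2
  rw [← dsig_xi c σ h4]
  rw [e] at h4 h5 ⊢
  have h6 := dsig_anti hc.le σ hs hst (X z.1) z.2
  rcases le_total (dperp c t (X z.1) z.2) (η ^ 6) with h7 | h7
  · refine key ((ENNReal.inv_le_inv.2 (ENNReal.ofReal_le_ofReal h6)).trans
      ((one2_sing _ hη h7).trans (mul_le_mul_right ?_ _)))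
    rw [Sg, if_pos ⟨hv, by linarith [h1.2]⟩, sing]
    refine le_trans (add_le_add_left ?_ _) le_add_self
    rcases hσ with rfl | rfl
    exacts [le_self_add, le_add_self]
  refine le_trans ?_ le_add_self
  have h8 : ‖X (fl s z).1‖ - c * s < σL * s := not_le.1 fun h => h2 ⟨hv, h⟩
  have h9 : ‖X (fl s z).1 / (s : ℂ)‖ = ‖X (fl s z).1‖ / s := by
    rw [norm_div, Complex.norm_real, Real.norm_of_nonneg hs.le]
  have h10 : η ^ 6 ≤ ‖X z.1‖ / s + (‖X (fl s z).1‖ / s - c) := by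
    refine (h7.trans (dperp_anti hc.le hs hst _ _)).trans ?_
    rw [dperp, upath, h4, ← h9, ← norm_sub_pj hc.le (h9 ▸ (le_div_iff₀ hs).2 h1.1.le)]
    refine (norm_sub_le_norm_sub_add_norm_sub _ _ _).trans (add_le_add_left (le_of_eq ?_) _)
    have := Complex.ofReal_ne_zero.2 hs.ne'
    rw [← h4, show tp z.2 - (X z.1 + s * tp z.2) / s = -(X z.1 / s) by field_simp; ring, norm_neg,
      norm_div, Complex.norm_real, Real.norm_of_nonneg hs.le]
  rw [← add_sub_assoc, ← add_div, le_sub_iff_add_le, le_div_iff₀ hs] at h10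
  rw [one2Lay, indicator_of_mem (mem_Ioc.2 ⟨hs, (le_div_iff₀ (by positivity)).2 (by nlinarith)⟩), h4,
    if_pos ⟨h1.1.le, by linarith⟩, ← ENNReal.ofReal_mul (by positivity)]
  refine (mul_le_mul_right (one2_inv (by positivity)
    (h7.trans ((dperp_le_dsig c σ t _ _).trans h6))) _).trans ?_
  rw [← ENNReal.ofReal_mul hs.le]
  refine ENNReal.ofReal_le_ofReal ?_
  calc s * (1 / η ^ 6) = s ^ 2 / η ^ 6 * (1 / s) := by field_simp
    _ ≤ _ := by gcongr

theorem one2_alg {a b c d B m m' s e A₁ A₂ P₁ P₂ u u' S L W : ℝ≥0∞} (h1 : a * b * c ≤ B * m * s)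
    (h2 : a * b * d ≤ e * m') (h3 : s * A₁ ≤ u * S + u' * L) (h4 : s * A₂ ≤ u * S + u' * L)
    (h5 : m' * P₁ ≤ W) (h6 : m' * P₂ ≤ W) (h7 : W = m * S) (h8 : 1 ≤ S) :
    a * (b * (c * (A₁ + A₂) + d * (P₁ + P₂))) ≤ 2 * (B * u + e) * W + 2 * B * u' * W * L :=
  calc _ = a * b * c * (A₁ + A₂) + a * b * d * (P₁ + P₂) := by ring
    _ ≤ B * m * s * (A₁ + A₂) + e * m' * (P₁ + P₂) := by gcongr
    _ = B * m * (s * A₁ + s * A₂) + e * (m' * P₁ + m' * P₂) := by ring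
    _ ≤ B * m * ((u * S + u' * L) + (u * S + u' * L)) + e * (W + W) := by gcongr
    _ = 2 * (B * u * (m * S) + e * W) + 2 * B * u' * (m * 1) * L := by ring
    _ ≤ 2 * (B * u * (m * S) + e * W) + 2 * B * u' * (m * S) * L := by gcongr
    _ = _ := by rw [h7]; ring

theorem one2_par {B B' D γ : ℝ} (hB : 0 < B) (hB' : 0 < B') (hD : 0 < D) (hγ : 0 < γ) :
    ∃ η l₀ κ R sb : ℝ, 0 < η ∧ 0 < l₀ ∧ l₀ ≤ 1 ∧ 0 < κ ∧ κ ≤ 1 ∧ 4 ≤ R ∧ 0 < sb ∧ sb ≤ 1 / 100 ∧
      sb * R ≤ 1 / 10 ∧ B' * l₀ ≤ γ / 2 ∧ 2 ≤ η * R ∧ κ ^ 2 / 2 ≤ η ^ 6 / 2 ∧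
      2 * (B * η + D * sb) ≤ γ / 2 ∧ 8 * B / η ^ 12 * κ ≤ γ / 2 := by
  obtain ⟨η, hη, hη1, hη2⟩ := one2_small (a := 2 * B) (b := γ / 4) (by positivity) (by positivity)
  obtain ⟨l₀, hl, hl1, hl2⟩ := one2_small (a := B') (b := γ / 2) hB' (by positivity)
  obtain ⟨κ, hκ, hκ1, hκ2⟩ := one2_small (a := 8 * B / η ^ 12 + γ / 2 / η ^ 3) (b := γ / 2)
    (by positivity) (by positivity)
  obtain ⟨R, hR⟩ : ∃ R, R = 4 / η := ⟨_, rfl⟩
  have hR4 : 4 ≤ R := hR ▸ (le_div_iff₀ hη).2 (by linarith)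
  have hRη : η * R = 4 := by rw [hR, mul_div_cancel₀ _ hη.ne']
  obtain ⟨sb, hsb, -, hsb2⟩ := one2_small (a := 100 + 10 * R + 8 * D / γ) (b := 1)
    (by positivity) one_pos
  have h0 : 0 < R * sb := by positivity
  have h1 : 0 < 8 * D / γ * sb := by positivity
  have h2 : 0 < 8 * B / η ^ 12 * κ := by positivity
  have h3 : 0 < γ / 2 / η ^ 3 * κ := by positivity
  have hκ3 : κ ≤ η ^ 3 := by
    have : γ / 2 / η ^ 3 * κ ≤ γ / 2 := by linarith
    rw [div_mul_eq_mul_div, div_le_iff₀ (by positivity)] at this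
    exact le_of_mul_le_mul_left this (by positivity)
  have h4 : 8 * D / γ * sb ≤ 1 := by linarith
  rw [div_mul_eq_mul_div, div_le_one hγ] at h4
  exact ⟨η, l₀, κ, R, sb, hη, hl, hl1, hκ, hκ1, hR4, hsb, by linarith, by linarith, hl2,
    by linarith, by linarith [pow_le_pow_left₀ hκ.le hκ3 2], by linarith, by linarith⟩

theorem one2_pt {c K C R η σL s t sb e0 γ : ℝ} (hc : 0 < c) (hc' : c ≤ 1 / 2) (hK : 0 < K)
    (hC : 0 < C) (hη : 0 < η) (hR : 4 ≤ R) (hRη : 2 ≤ η * R) (hs : 0 < s) (hst : s ≤ t)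
    (ht : t ≤ sb) (htR : t * R ≤ 1 / 10) (hσL : σL ≤ η ^ 6 / 2) (he : e0 ≤ 1)
    (hγ : 2 * (C * K / c * η + C * K * sb) ≤ γ / 2) (z : Ph)
    (h1 : c * s < ‖X (fl s z).1‖ ∧ ‖X (fl s z).1‖ ≤ 1 / 16)
    (h2 : ¬ (‖z.2‖ ≤ R ∧ σL * s ≤ ‖X (fl s z).1‖ - c * s)) :
    ENNReal.ofReal (s ^ 2) * (ENNReal.ofReal (C * mt s z.2) * (ENNReal.ofReal (K / ‖X (fl s z).1‖) *
      ((ENNReal.ofReal ‖z.2 - Uf c 1 s (fl s z).1‖)⁻¹
        + (ENNReal.ofReal ‖z.2 - Uf c (-1) s (fl s z).1‖)⁻¹) + ENNReal.ofReal (K * √e0) *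
      (ENNReal.ofReal ‖z.2 - Uf c 1 s (fl s z).1‖ ^ (-(3 / 2) : ℝ)
        + ENNReal.ofReal ‖z.2 - Uf c (-1) s (fl s z).1‖ ^ (-(3 / 2) : ℝ))))
      ≤ ENNReal.ofReal (γ / 2 * t) * W c R t (fl t z)
        + ENNReal.ofReal (2 * (C * K / c) * (t ^ 2 / η ^ 6)) * W c R t (fl t z) *
          one2Lay c σL η (X z.1) (tp z.2) s := by
  have ht0 := hs.trans_le hst
  have hsb := ht0.trans_le ht
  have h7 := fun σ hσ => one2_main (σ := σ) hc hc' hη hR hRη hs hst htR hσL hσ z h1 h2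
  have h8 := fun σ hσ => (shape_pow (σ := σ) hc.le hc' (show 3 ≤ R by linarith) hs hσ (fl s z).1
    (by linarith [h1.2, mul_le_mul_of_nonneg_right hst (show 0 ≤ R by linarith)]) z.2).trans
    (W_fl_mono hc.le R hs hst z)
  have h3 := mt_pos s z.2
  have h4 := mt_pos t z.2
  have h9 : ENNReal.ofReal (s ^ 2) * ENNReal.ofReal (C * mt s z.2) *
      ENNReal.ofReal (K / ‖X (fl s z).1‖)
      ≤ ENNReal.ofReal (C * K / c) * ENNReal.ofReal (mt t z.2) * ENNReal.ofReal s := by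
    simp (disch := positivity) only [← ENNReal.ofReal_mul]
    refine ENNReal.ofReal_le_ofReal ?_
    calc s ^ 2 * (C * mt s z.2) * (K / ‖X (fl s z).1‖)
        ≤ s ^ 2 * (C * mt t z.2) * (K / (c * s)) := by
          gcongr
          exacts [mt_mono hst _, h1.1.le]
      _ = _ := by field_simp
  have h10 : ENNReal.ofReal (s ^ 2) * ENNReal.ofReal (C * mt s z.2) * ENNReal.ofReal (K * √e0)
      ≤ ENNReal.ofReal (C * K * sb * t) * ENNReal.ofReal (mt s z.2) := by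
    simp (disch := positivity) only [← ENNReal.ofReal_mul]
    refine ENNReal.ofReal_le_ofReal ?_
    calc s ^ 2 * (C * mt s z.2) * (K * √e0) ≤ (sb * t) * (C * mt s z.2) * (K * 1) := by
          gcongr
          · nlinarith
          · exact Real.sqrt_le_one.2 he
      _ = _ := by ring
  refine (one2_alg h9 h10 (h7 1 (Or.inl rfl)) (h7 (-1) (Or.inr rfl)) (h8 1 (Or.inl rfl))
    (h8 (-1) (Or.inr rfl)) (W_fl c R t z) (one_le_Sg _ _ _ _ _)).trans ?_
  rw [← ENNReal.ofReal_ofNat 2]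
  simp (disch := positivity) only [← ENNReal.ofReal_mul, ← ENNReal.ofReal_add]
  exact add_le_add (mul_le_mul_left (ENNReal.ofReal_le_ofReal
    (by linarith [mul_le_mul_of_nonneg_right hγ ht0.le])) _) le_rfl

/-- The part of the cold gain that is not in the main operator is small. -/
theorem cold_rest {c K : ℝ} (M : ℕ) (hc : 0 < c) (hc' : c ≤ 1 / 2) (hK : 0 < K) {γ : ℝ}
    (hγ : 0 < γ) : ∃ R σL l₀ sb : ℝ, 4 ≤ R ∧ 0 < σL ∧ 0 < l₀ ∧ l₀ ≤ 1 ∧ 0 < sb ∧ sb ≤ 1 / 100 ∧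
      sb * R ≤ 1 / 10 ∧ ∀ e0 r1 : ℝ, CP.Ok ⟨c, K, M, e0, r1⟩ → e0 ≤ sb → ∀ t₀ t : ℝ, 0 < t₀ →
        t₀ ≤ t → t ≤ sb → ∀ z : Ph,
          ∫⁻ s in Ioc t₀ t, (if ‖z.2‖ ≤ R ∧ l₀ * t < s ∧ σL * s ≤ ‖X (fl s z).1‖ - c * s then 0
            else ENNReal.ofReal (s ^ 2) *
              Qe (fun u => ENNReal.ofReal (cf ⟨c, K, M, e0, r1⟩ s ((fl s z).1, u)))
                (fun u => W c R s ((fl s z).1, u)) z.2)
            ≤ ENNReal.ofReal (γ * t ^ 2) * W c R t (fl t z) := by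
  obtain ⟨C, hC, hQ⟩ := Qe_cW
  obtain ⟨C', hC', hQ'⟩ := Qe_cW_le
  obtain ⟨η, l₀, κ, R, sb, hη, hl, hl1, hκ, hκ1, hR4, hsb, hs1, hs2, p1, p2, p3, p4, p5⟩ :=
    one2_par (B := C * K / c) (B' := C' * (K / c)) (D := C * K) (by positivity) (by positivity)
      (by positivity) hγ
  refine ⟨R, κ ^ 2 / 2, l₀, sb, hR4, by positivity, hl, hl1, hsb, hs1, hs2,
    fun e0 r1 hP he t₀ t ht₀ ht ht' z => ?_⟩
  have ht0 := ht₀.trans_le ht
  have htR : t * R ≤ 1 / 10 := (mul_le_mul_of_nonneg_right ht' (by linarith)).trans hs2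
  refine (setLIntegral_mono' measurableSet_Ioc (g := fun s => ENNReal.ofReal (γ / 2 * t) *
    W c R t (fl t z) + ENNReal.ofReal (2 * (C * K / c) * (t ^ 2 / η ^ 6)) * W c R t (fl t z) *
      one2Lay c (κ ^ 2 / 2) η (X z.1) (tp z.2) s) fun s hs => ?_).trans ?_
  · have hs0 := ht₀.trans hs.1
    have hsR : s * R ≤ 1 / 8 :=
      ((mul_le_mul_of_nonneg_right hs.2 (by linarith)).trans htR).trans (by norm_num)
    have hs3 : s ≤ 1 / 100 := hs.2.trans (ht'.trans hs1)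
    split_ifs with h4
    · exact zero_le
    rcases le_or_gt s (l₀ * t) with h5 | h5
    · refine le_trans ?_ le_self_add
      refine (mul_le_mul_right (hQ' _ hP R s (by linarith) hs0 hs3 hsR _ _) _).trans ?_
      rw [← mul_assoc, ← ENNReal.ofReal_mul (by positivity)]
      refine mul_le_mul' (ENNReal.ofReal_le_ofReal ?_) (W_fl_mono hc.le R hs0 hs.2 z)
      rw [show s ^ 2 * (C' * (K / c) / s) = C' * (K / c) * s by field_simp]
      exact (mul_le_mul_of_nonneg_left h5 (by positivity)).trans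
        ((mul_assoc _ _ _).symm.trans_le (mul_le_mul_of_nonneg_right p1 ht0.le))
    refine (mul_le_mul_right (hQ _ hP R s hs0 hs3 hsR _ _) _).trans ?_
    split_ifs with h6
    · exact one2_pt hc hc' hK hC hη hR4 p2 hs0 hs.2 ht' htR p3 hP.e_le p4 z h6
        fun h => h4 ⟨h.1, h5, h.2⟩
    · simp
  rw [lintegral_add_left measurable_const, lintegral_const_mul _ (one2_mlay _ _ _ _ _),
    setLIntegral_const, Real.volume_Ioc]
  refine (add_le_add (mul_le_mul_right (ENNReal.ofReal_le_ofReal (sub_le_self t ht₀.le)) _)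
    (mul_le_mul_right ((setLIntegral_le_lintegral _ _).trans
      (one2_lay hc hc' hη hκ hκ1 _ _)) _)).trans ?_
  rw [mul_right_comm, mul_right_comm _ (W c R t _), ← add_mul, ← ENNReal.ofReal_mul (by positivity),
    ← ENNReal.ofReal_mul (by positivity), ← ENNReal.ofReal_add (by positivity) (by positivity)]
  refine mul_le_mul_left (ENNReal.ofReal_le_ofReal ?_) _
  rw [show 2 * (C * K / c) * (t ^ 2 / η ^ 6) * (4 * κ / η ^ 6)
    = 8 * (C * K / c) / η ^ 12 * κ * t ^ 2 by ring]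
  linarith [mul_le_mul_of_nonneg_right p5 (sq_nonneg t)]

theorem one_step {c K : ℝ} (M : ℕ) (hc : 0 < c) (hc' : c ≤ 1 / 2) (hK : 0 < K) {γ : ℝ}
    (hγ : 0 < γ) : ∃ R σL l₀ sb : ℝ, 4 ≤ R ∧ 0 < σL ∧ 0 < l₀ ∧ l₀ ≤ 1 ∧ 0 < sb ∧ sb ≤ 1 / 100 ∧
      sb * R ≤ 1 / 10 ∧ ∀ e0 r1 : ℝ, CP.Ok ⟨c, K, M, e0, r1⟩ → e0 ≤ sb →
        ∀ (n t₀ : ℝ) (cc h k : ℝ → Ph → ℝ), 0 < n → 0 < t₀ → Sys n t₀ cc h k →
          (∀ z, cc t₀ z = cf ⟨c, K, M, e0, r1⟩ t₀ z) → ∀ t ∈ Icc t₀ sb, ∀ A ∈ Icc (0 : ℝ) 1,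
          (∀ s ∈ Icc t₀ t, ∀ z, ENNReal.ofReal (h s z) ≤ Nar c e0 s z + W c R s z) →
          (∀ s ∈ Icc t₀ t, ∀ z, ENNReal.ofReal (k s z) ≤ ENNReal.ofReal (A * s ^ 2) * W c R s z) →
          ∀ z : Ph, ENNReal.ofReal (k t z) ≤ ENNReal.ofReal (k t₀ (fl (t₀ - t) z))
            + ENNReal.ofReal (γ * A * t ^ 2) * W c R t z
            + Lop ⟨c, K, M, e0, r1⟩ R σL l₀ t₀ (fun s y => ENNReal.ofReal (k s y)) t z := by
  obtain ⟨R, σL, l₀, sb, hR, hσL, hl, hl1, hsb, hs1, hs2, hrest⟩ :=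
    cold_rest M hc hc' hK (γ := γ / 4) (by positivity)
  obtain ⟨C₁, hC₁, hN⟩ := Qe_NarW
  obtain ⟨C₂, hC₂, hWW⟩ := Qe_WW R
  obtain ⟨ρ, hρ, -, hρ1⟩ := one2_small (a := C₁ + 4 * C₂) (b := γ / 4) (by positivity)
    (by positivity)
  have hm := min_le_left sb (ρ ^ 2)
  refine ⟨R, σL, l₀, min sb (ρ ^ 2), hR, hσL, hl, hl1, lt_min hsb (by positivity), hm.trans hs1,
    (mul_le_mul_of_nonneg_right hm (by linarith)).trans hs2,
    fun e0 r1 hP he n t₀ cc h k hn ht₀ S h0 t ht A hA hh hk z => ?_⟩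
  obtain ⟨y, rfl⟩ : ∃ y, z = fl t y := ⟨fl (-t) z, (fl_fl_neg t z).symm⟩
  have e : ∀ s, fl (s - t) (fl t y) = fl s y := fun s => by rw [fl_add, sub_add_cancel]
  have ht0 := ht₀.trans_le ht.1
  have ht1 := ht.2.trans hm
  have htR : t * R ≤ 1 / 10 := (mul_le_mul_of_nonneg_right ht1 (by linarith)).trans hs2
  have mx : Measurable fun p : ℝ × V => (p.1, ((fl p.1 y).1, p.2)) := measurable_fst.prodMk
    (((measurable_fl_left y).comp measurable_fst).fst.prodMk measurable_snd)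
  have m1 := ((measurable_cf ⟨c, K, M, e0, r1⟩).comp mx).ennreal_ofReal
  have m2 := (measurable_W c R).comp mx
  have m3 : Measurable fun s => if ‖y.2‖ ≤ R ∧ l₀ * t < s ∧ σL * s ≤ ‖X (fl s y).1‖ - c * s then 0
      else ENNReal.ofReal (s ^ 2) *
        Qe (fun u => ENNReal.ofReal (cf ⟨c, K, M, e0, r1⟩ s ((fl s y).1, u)))
          (fun u => W c R s ((fl s y).1, u)) y.2 :=
    Measurable.ite ((MeasurableSet.const _).inter (measurableSet_Ioi.inter
      (measurableSet_le (f := fun s : ℝ => σL * s) (by fun_prop)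
        ((measurable_X.comp (measurable_fl_left y).fst).norm.sub (by fun_prop))))) measurable_const
      (Measurable.mul (by fun_prop) (measurable_Qe m1 m2 measurable_const))
  have m4 : Measurable fun s => ENNReal.ofReal ((1 + ‖y.2‖) * mt s y.2) := by
    unfold mt
    fun_prop
  rw [e, add_assoc, add_comm _ (Lop _ _ _ _ _ _ _ _)]
  refine (S.k_le hn le_rfl ht.1 y).trans (add_le_add_right ((setLIntegral_mono' measurableSet_Ioc
    (g := fun s => (if ‖y.2‖ ≤ R ∧ l₀ * t < s ∧ σL * s ≤ ‖X (fl s y).1‖ - c * s then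
      2 * Qe (fun u => ENNReal.ofReal (cf ⟨c, K, M, e0, r1⟩ s ((fl s y).1, u)))
        (fun u => ENNReal.ofReal (k s ((fl s y).1, u))) y.2 else 0) + (2 * ENNReal.ofReal A * _
      + 2 * ENNReal.ofReal (A * t ^ 2) * (ENNReal.ofReal C₁ * W c R t (fl t y)
        + 2 * ENNReal.ofReal C₂ * ENNReal.ofReal ((1 + ‖y.2‖) * mt s y.2))))
    fun s hs => ?_).trans ((lintegral_add_right _ ((m3.const_mul _).fun_add
      (((m4.const_mul _).const_add _).const_mul _))).trans_le (add_le_add ?_ ?_))) _)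
  · have hs0 := ht₀.trans hs.1
    have hs' := Ioc_subset_Icc_self hs
    have n1 := m1.comp (measurable_prodMk_left (x := s))
    have n2 := m2.comp (measurable_prodMk_left (x := s))
    have n3 := ((measurable_Nar c e0).comp mx).comp (measurable_prodMk_left (x := s))
    have n4 := ((S.mk'.comp mx).comp (measurable_prodMk_left (x := s))).ennreal_ofReal
    have a1 : ∀ z, ENNReal.ofReal (k s z) ≤ W c R s z := fun z => (hk s hs' z).trans
      (mul_le_of_le_one_left' (ENNReal.ofReal_le_one.2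
        (mul_le_one₀ hA.2 (sq_nonneg _) (by nlinarith [hs.2]))))
    have a2 : ∀ u, ENNReal.ofReal (tot cc h k s ((fl s y).1, u))
        ≤ ENNReal.ofReal (cf ⟨c, K, M, e0, r1⟩ s ((fl s y).1, u)) + (Nar c e0 s ((fl s y).1, u)
          + W c R s ((fl s y).1, u) + W c R s ((fl s y).1, u)) := fun u => by
      rw [tot, add_assoc]
      exact ENNReal.ofReal_add_le.trans (add_le_add
        (ENNReal.ofReal_le_ofReal (S.c_le_cf hn h0 hs'.1 _))
        (ENNReal.ofReal_add_le.trans (add_le_add (hh s hs' _) (a1 _))))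
    have a3 := (Qe_add_left n1 ((n3.add n2).add n2) n4 y.2).le
    have a4 := (Qe_mono a2 (fun _ => le_rfl) y.2).trans a3
    have a5 := ((Qe_mono (fun _ => le_rfl) (fun u => (ENNReal.ofReal_le_ofReal
      (S.sys_two_le s _)).trans (a2 u)) y.2).trans_eq
      (Qe_swap n4 (n1.add ((n3.add n2).add n2)) y.2)).trans a3
    have a6 : ∀ f : V → ℝ≥0∞, Measurable f → Qe f (fun u => ENNReal.ofReal (k s ((fl s y).1, u))) y.2
        ≤ ENNReal.ofReal (A * s ^ 2) * Qe f (fun u => W c R s ((fl s y).1, u)) y.2 := fun f hf =>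
      (Qe_mono (fun u => (one_mul _).ge) (fun u => hk s hs' _) y.2).trans_eq
        ((Qe_const_mul hf n2 1 _ _).trans (by rw [one_mul]; rfl))
    have hsR : s * R ≤ 1 / 10 := (mul_le_mul_of_nonneg_right hs.2 (by linarith)).trans htR
    have a7 := W_le_Wf c hs0 (show s * R ≤ 1 / 8 by linarith) (fl s y).1
    have a8 := (Qe_mono a7 a7 y.2).trans (hWW s ⟨hs0.le, by linarith [hs.2]⟩ _ _)
    rw [mul_assoc, ENNReal.ofReal_mul hC₂.le] at a8
    have a9 := (hN c e0 R s hc hc' hP.e_pos.le (by linarith) hs0 (by linarith [hs.2]) hsR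
      (fl s y).1 y.2).trans (mul_le_mul_right (W_fl_mono hc.le R hs0 hs.2 y) _)
    have a10 := (a6 _ ((n3.add n2).add n2)).trans (mul_le_mul'
      (ENNReal.ofReal_le_ofReal (mul_le_mul_of_nonneg_left (pow_le_pow_left₀ hs0.le hs.2 2) hA.1))
      ((Qe_add_left (n3.add n2) n2 n2 y.2).trans_le (add_le_add
        ((Qe_add_left n3 n2 n2 y.2).trans_le (add_le_add a9 a8)) a8)))
    refine (add_le_add a4 a5).trans ?_
    rw [← two_mul, mul_add, ← add_assoc]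
    refine add_le_add ?_ ((mul_le_mul_right a10 _).trans_eq (by ring))
    split_ifs
    · exact le_self_add
    · rw [zero_add, mul_assoc, ← mul_assoc (ENNReal.ofReal A), ← ENNReal.ofReal_mul hA.1]
      exact mul_le_mul_right (a6 _ n1) _
  · simp only [Lop, e, fl_snd]
    split_ifs with hv
    · rw [← lintegral_indicator measurableSet_Ioc, ← lintegral_indicator measurableSet_Ioc]
      refine lintegral_mono fun s => ?_
      simp only [indicator_apply, mem_Ioc, max_lt_iff, hv, true_and]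
      split_ifs <;> first | exact le_rfl | exact zero_le | tauto
    · simp [hv]
  rw [lintegral_add_left (m3.const_mul _), lintegral_const_mul _ m3,
    lintegral_const_mul _ ((m4.const_mul _).const_add _), lintegral_add_left measurable_const,
    lintegral_const_mul _ m4, setLIntegral_const, Real.volume_Ioc]
  have b1 := (lintegral_mt_le ht₀.le ht.1 y.2).trans ((ENNReal.ofReal_mul (by positivity)).trans_le
    (mul_le_mul_right (mt_le_W c R t (fl t y)) _))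
  have b2 : √t ≤ ρ := Real.sqrt_le_iff.2 ⟨hρ.le, ht.2.trans (min_le_right _ _)⟩
  have b3 : t ≤ √t := Real.le_sqrt_self_iff.2 (by linarith)
  have hA0 := hA.1
  calc _ ≤ 2 * ENNReal.ofReal A * (ENNReal.ofReal (γ / 4 * t ^ 2) * W c R t (fl t y))
        + 2 * ENNReal.ofReal (A * t ^ 2) * (ENNReal.ofReal C₁ * W c R t (fl t y) * ENNReal.ofReal t
          + 2 * ENNReal.ofReal C₂ * (ENNReal.ofReal (t + √t) * W c R t (fl t y))) := by
        gcongr
        exacts [hrest e0 r1 hP (he.trans hm) t₀ t ht₀ ht.1 ht1 y, sub_le_self t ht₀.le]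
    _ = (2 * ENNReal.ofReal A * ENNReal.ofReal (γ / 4 * t ^ 2) + 2 * ENNReal.ofReal (A * t ^ 2) *
          (ENNReal.ofReal C₁ * ENNReal.ofReal t + 2 * ENNReal.ofReal C₂ * ENNReal.ofReal (t + √t)))
        * W c R t (fl t y) := by ring
    _ ≤ _ := by
        refine mul_le_mul_left ?_ _
        rw [← ENNReal.ofReal_ofNat 2]
        simp (disch := positivity) only [← ENNReal.ofReal_mul, ← ENNReal.ofReal_add]
        refine ENNReal.ofReal_le_ofReal ?_
        have b4 : C₁ * t + 2 * C₂ * (t + √t) ≤ γ / 4 := by nlinarith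
        nlinarith [mul_le_mul_of_nonneg_left b4 (show 0 ≤ A * t ^ 2 by positivity)]

end

end Vale.Agent.P140
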