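import Vale.Agent.P140.Path

/-! The deterministic flight lemma. -/

namespace Vale.Agent.P140

open MeasureTheory Set Filter Topology
open scoped ENNReal RealInnerProductSpace

noncomputable section

theorem GP.K_pos (p : GP) : 0 < p.K := by
  have h := p.K_ge
  exact pos_of_mul_pos_left (lt_of_lt_of_le (by linarith [p.R_ge]) h) p.τ_pos.le

theorem GP.c_le_half (p : GP) : p.c ≤ 1 / 2 := by
  nlinarith [p.c_le, p.ζ2_le, p.τ_le, p.τ_pos, p.ζ2_pos]

theorem GP.four_le_lw (p : GP) : 4 ≤ p.lw := by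
  exact (le_div_iff₀ (by linarith [p.R_ge])).2 p.y3_ge

theorem GP.one_le_M (p : GP) : 1 ≤ p.M := by
  refine Nat.one_le_iff_ne_zero.2 fun h => ?_
  have h1 := p.osc
  have h2 : 0 < p.R := by linarith [p.R_ge]
  have h3 : 0 < p.y3 := by linarith [p.y3_ge]
  have h4 := p.K_pos
  have h5 := p.c_pos
  have h6 := p.σ'_pos
  rw [h, Nat.cast_zero, zero_mul, zero_mul, mul_zero] at h1
  exact absurd h1 (not_le.2 (by positivity))

theorem GP.chi0_pos (p : GP) : 0 < p.chi0 := by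
  have h2 : 0 < p.R := by linarith [p.R_ge]
  have h3 : 0 < p.y3 := by linarith [p.y3_ge]
  rw [GP.chi0]
  positivity

theorem GP.chi_mem (p : GP) (y : ℝ) : p.chi y ∈ Icc (0 : ℝ) 1 := by
  have h2 : 0 < 4 * p.R := by linarith [p.R_ge]
  have h3 := h2.trans_le (le_max_right y _)
  rw [GP.chi]
  split_ifs
  · exact ⟨by positivity, pow_le_one₀ (by positivity) ((div_le_one h3).2 (le_max_right _ _))⟩
  · exact ⟨le_rfl, zero_le_one⟩

theorem GP.chi0_le (p : GP) {y : ℝ} (hy : y ≤ p.y3) : p.chi0 ≤ p.chi y := by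
  have h2 : 0 < 4 * p.R := by linarith [p.R_ge]
  have h3 : 0 < p.y3 := by linarith [p.y3_ge]
  rw [GP.chi, if_pos hy]
  exact pow_le_pow_left₀ (by positivity) (div_le_div_of_nonneg_left h2.le
    (h2.trans_le (le_max_right y _)) (max_le hy p.y3_ge)) _

theorem GP.chi_eq_one (p : GP) {y : ℝ} (hy : y ≤ 4 * p.R) : p.chi y = 1 := by
  rw [GP.chi, if_pos (hy.trans p.y3_ge), max_eq_right hy, div_self (by linarith [p.R_ge]), one_pow]

theorem GP.measurable_chi (p : GP) : Measurable p.chi := by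
  exact Measurable.ite measurableSet_Iic (by fun_prop) measurable_const

theorem GP.ff_mem (p : GP) (E : ℝ) : p.ff E ∈ Icc (0 : ℝ) 1 := by
  exact ⟨le_max_left _ _, max_le zero_le_one (min_le_left _ _)⟩

theorem GP.continuous_ff (p : GP) : Continuous p.ff := by
  unfold GP.ff
  fun_prop

theorem GP.ff_eq_zero (p : GP) {E : ℝ} (h : 2 * p.R ^ 2 ≤ E) : p.ff E = 0 := by
  have h2 : 0 < p.R := by linarith [p.R_ge]
  exact max_eq_left ((min_le_right _ _).trans (sub_nonpos.2 ((le_div_iff₀ (by positivity)).2 h)))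

theorem GP.ff_split (p : GP) {a b E : ℝ} (ha : 0 ≤ a) (hb : 0 ≤ b) (hE : E ≤ 2 * p.R ^ 2)
    (h : a + b ≤ E + 4) : 99 / 100 + p.ff E ≤ p.ff a + p.ff b := by
  have h2 : 400 ≤ p.R ^ 2 := by nlinarith [p.R_ge]
  have h3 : 0 < p.R ^ 2 := by linarith
  have h4 : a / p.R ^ 2 + b / p.R ^ 2 ≤ E / p.R ^ 2 + 1 / 100 := by
    rw [← add_div, div_add' _ _ _ h3.ne']
    exact div_le_div_of_nonneg_right (by linarith) h3.le
  have h5 : E / p.R ^ 2 ≤ 2 := (div_le_iff₀ h3).2 hE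
  have h6 := div_nonneg ha h3.le
  have h7 := div_nonneg hb h3.le
  simp only [GP.ff, max_def, min_def]
  split_ifs <;> linarith

theorem path2_L (ξ V : ℂ) (s : ℝ) :
    |((starRingEnd ℂ) ξ * V).im| ≤ ‖ξ + (s : ℂ) * V‖ * ‖V‖ := by
  rw [← im_conj_line ξ V s]
  exact (Complex.abs_im_le_norm _).trans_eq (by rw [norm_mul, Complex.norm_conj])

theorem path2_pos {ξ V : ℂ} (h : ((starRingEnd ℂ) ξ * V).im ≠ 0) (s : ℝ) :
    0 < ‖ξ + (s : ℂ) * V‖ :=
  pos_of_mul_pos_left ((abs_pos.2 h).trans_le (path2_L ξ V s)) (norm_nonneg _)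

theorem path2_cont {ξ V : ℂ} (h : ∀ s : ℝ, 0 < ‖ξ + (s : ℂ) * V‖) (K : ℝ) :
    Continuous fun s : ℝ => K / ‖ξ + (s : ℂ) * V‖ :=
  continuous_const.div (by fun_prop) fun s => (h s).ne'

theorem path2_hat (q V : ℂ) :
    ((starRingEnd ℂ) (hat q) * V).im = ((starRingEnd ℂ) q * V).im / ‖q‖ := by
  rw [hat, map_div₀, Complex.conj_ofReal, div_mul_eq_mul_div, Complex.div_ofReal_im]

theorem path2_ii {f : ℝ → ℝ} {q : ℝ → Prop} [DecidablePred q] (hq : MeasurableSet {s | q s})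
    (hf : Measurable f) {a b : ℝ} (h : IntervalIntegrable f volume a b) :
    IntervalIntegrable (fun s => if q s then f s else 0) volume a b :=
  h.norm.mono_fun' (Measurable.ite hq hf measurable_const).aestronglyMeasurable
    (Eventually.of_forall fun s => by dsimp only; split_ifs <;> simp)

theorem path2_ms {f g u w : ℝ → ℝ} (hf : Measurable f) (hg : Measurable g) (hu : Measurable u)
    (hw : Measurable w) : MeasurableSet {s | f s ≤ g s ∧ u s ≤ w s} :=
  (measurableSet_le hf hg).inter (measurableSet_le hu hw)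

theorem path2_le {f : ℝ → ℝ} {a b c : ℝ} (hf : Measurable f) (hab : a ≤ b) (hc : 0 ≤ c)
    (h0 : ∀ s ∈ Ioc a b, 0 ≤ f s) (h : ∫⁻ s in Ioc a b, ENNReal.ofReal (f s) ≤ ENNReal.ofReal c) :
    ∫ s in a..b, f s ≤ c := by
  rw [intervalIntegral.integral_of_le hab, integral_eq_lintegral_of_nonneg_ae
    (ae_restrict_of_forall_mem measurableSet_Ioc h0) hf.aestronglyMeasurable]
  exact ENNReal.toReal_le_of_le_ofReal hc h

theorem path2_weight {τ R t s Y a r : ℝ} (hτ : 0 ≤ τ) (hR : 0 < R) (ht : 0 < t) (hs : t ≤ s)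
    (hY : 4 * R ≤ Y) (ha : 2 * R * a = (Y - 2 * R) * t) (hsa : s ≤ (1 + τ) * a) (hr0 : 0 ≤ r)
    (hr : r ≤ Y * t + (s - t) * (2 * R)) : s * max (r / s) (4 * R) ^ 2 ≤ (1 + τ) * (t * Y ^ 2) := by
  have hs0 := ht.trans_le hs
  rcases le_total (r / s) (4 * R) with h | h
  · rw [max_eq_right h]
    have h1 : a * (4 * R) ^ 2 ≤ t * Y ^ 2 := by nlinarith [mul_nonneg ht.le (sq_nonneg (Y - 4 * R))]
    nlinarith [mul_le_mul_of_nonneg_right hsa (sq_nonneg (4 * R)),
      mul_le_mul_of_nonneg_left h1 (show 0 ≤ 1 + τ by linarith)]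
  · rw [max_eq_left h]
    rw [le_div_iff₀ hs0] at h
    refine le_trans ?_ (le_mul_of_one_le_left (by positivity) (by linarith))
    rw [div_pow, sq s, ← div_div, mul_div_cancel₀ _ hs0.ne', div_le_iff₀ hs0]
    refine (pow_le_pow_left₀ hr0 hr 2).trans ?_
    have h1 : (s - t) * (2 * R) ≤ (Y - 4 * R) * t := by linarith
    have h2 : 0 ≤ (Y - 2 * R) * (Y - 4 * R) * t :=
      mul_nonneg (mul_nonneg (by linarith) (by linarith)) ht.le
    have h3 : 2 * Y * t * (2 * R) + (s - t) * (2 * R) * (2 * R) ≤ t * Y ^ 2 := by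
      nlinarith [mul_le_mul_of_nonneg_right h1 hR.le]
    nlinarith [mul_le_mul_of_nonneg_left h3 (sub_nonneg.2 hs)]

theorem path2_chi {τ t s Y m a : ℝ} (hτ : 0 ≤ τ) (hτ' : τ ≤ 1 / 1300) (ht : 0 < t) (hs : 0 < s)
    (hY : 0 < Y) (hm : 0 < m) (h : s * m ^ 2 ≤ (1 + τ) * (t * Y ^ 2)) :
    10 / 11 * ((t ^ 121)⁻¹ * (a / Y) ^ 242) ≤ (s ^ 121)⁻¹ * (a / m) ^ 242 := by
  have e : ∀ u y : ℝ, (u ^ 121)⁻¹ * (a / y) ^ 242 = a ^ 242 / (u * y ^ 2) ^ 121 := fun u y => by
    rw [mul_pow, ← pow_mul, div_pow, inv_mul_eq_div, div_div, mul_comm]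
  have h1 : (1 + τ) ^ 121 ≤ 11 / 10 :=
    (pow_le_pow_left₀ (by linarith) (show 1 + τ ≤ 1301 / 1300 by linarith) 121).trans (by norm_num)
  have h2 : (s * m ^ 2) ^ 121 ≤ 11 / 10 * (t * Y ^ 2) ^ 121 :=
    (pow_le_pow_left₀ (by positivity) h 121).trans (by
      rw [mul_pow (1 + τ)]
      exact mul_le_mul_of_nonneg_right h1 (by positivity))
  rw [e, e, show ∀ x y : ℝ, 10 / 11 * (x / y) = x / (11 / 10 * y) from fun x y => by
    rw [mul_comm, mul_comm (11 / 10), ← div_div, div_eq_mul_inv _ (11 / 10 : ℝ)]; norm_num]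
  exact div_le_div_of_nonneg_left (Even.pow_nonneg (by decide) a) (by positivity) h2

theorem path2_far (p : GP) {a : ℝ} (ha : 0 < a) {ξ V : ℂ} (h0 : ∀ s : ℝ, 0 < ‖ξ + (s : ℂ) * V‖)
    (hV : p.ζ2 ≤ ‖V‖) (h1 : ∀ s, a ≤ s → ‖ξ + (s : ℂ) * V‖ ≤ 4 * p.R * s) :
    4000 ≤ ∫ s in a..(1 + p.τ) * a,
      (if p.c * s < ‖ξ + (s : ℂ) * V‖ then p.K / ‖ξ + (s : ℂ) * V‖ else 0) := by
  have hR : 0 < p.R := by linarith [p.R_ge]
  have hc := p.c_pos
  have hτ := p.τ_pos
  have hK := p.K_pos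
  have hζ := p.ζ2_pos
  obtain ⟨b, hb⟩ : ∃ b, b = (1 + p.τ) * a := ⟨_, rfl⟩
  rw [← hb]
  have hab : a ≤ b := by nlinarith
  have hb0 := ha.trans_le hab
  have hm : MeasurableSet {s : ℝ | 0 ≤ ‖ξ + (s : ℂ) * V‖ ∧ ‖ξ + (s : ℂ) * V‖ ≤ p.c * b} :=
    path2_ms (by fun_prop) (by fun_prop) (by fun_prop) (by fun_prop)
  have h2 := path2_ii hm (measurable_const (a := (1 : ℝ))) (a := a) (b := b) intervalIntegrable_const
  have h3 : ∫ s in a..b, (if 0 ≤ ‖ξ + (s : ℂ) * V‖ ∧ ‖ξ + (s : ℂ) * V‖ ≤ p.c * b then (1 : ℝ)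
      else 0) ≤ p.τ * b / 8 := by
    refine path2_le (Measurable.ite hm measurable_const measurable_const) hab (by positivity)
      (fun s _ => by split_ifs <;> norm_num) ((setLIntegral_le_lintegral _ _).trans ?_)
    refine le_trans (lintegral_mono fun s => ?_) ((lintegral_indicator_one hm).trans_le
      ((quad_measure ξ (norm_pos_iff.1 (hζ.trans_le hV)) le_rfl (by positivity)).trans
        (ENNReal.ofReal_le_ofReal ?_)))
    · simp only [indicator_apply, mem_ofPred_eq]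
      split_ifs <;> simp
    · rw [zero_pow two_ne_zero, sub_zero, Real.sqrt_sq (by positivity),
        div_le_iff₀ (hζ.trans_le hV)]
      nlinarith [mul_le_mul_of_nonneg_right p.c_le hb0.le,
        mul_le_mul_of_nonneg_left hV (mul_pos hτ hb0).le]
  refine le_trans ?_ (intervalIntegral.integral_mono_on hab
    ((intervalIntegrable_const (c := (1 : ℝ)).sub h2).const_mul (p.K / (4 * p.R * b)))
    (path2_ii (measurableSet_lt (by fun_prop) (by fun_prop)) (path2_cont h0 p.K).measurable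
      ((path2_cont h0 p.K).intervalIntegrable a b)) fun s hs => ?_)
  · rw [intervalIntegral.integral_const_mul, intervalIntegral.integral_sub intervalIntegrable_const
      h2, intervalIntegral.integral_const, smul_eq_mul, mul_one, div_mul_eq_mul_div,
      le_div_iff₀ (by positivity)]
    have h4 : p.τ * b / 2 ≤ b - a - p.τ * b / 8 := by
      rw [hb]
      nlinarith [mul_pos hτ ha, p.τ_le]
    nlinarith [mul_le_mul_of_nonneg_left (h4.trans (sub_le_sub_left h3 _)) hK.le,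
      mul_le_mul_of_nonneg_right p.K_ge hb0.le]
  · by_cases h4 : ‖ξ + (s : ℂ) * V‖ ≤ p.c * b
    · rw [if_pos ⟨norm_nonneg _, h4⟩, sub_self, mul_zero]
      split_ifs <;> positivity
    · rw [if_neg fun h => h4 h.2, if_pos ((mul_le_mul_of_nonneg_left hs.2 hc.le).trans_lt
        (not_le.1 h4)), sub_zero, mul_one]
      exact div_le_div_of_nonneg_left hK.le (h0 s)
        ((h1 s hs.1).trans (mul_le_mul_of_nonneg_left hs.2 (by linarith)))

theorem path2_layer (p : GP) {t b : ℝ} (ht : 0 < t) {ξ V : ℂ}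
    (hL : p.ζ2 * (p.c * t) ≤ |((starRingEnd ℂ) ξ * V).im|) (hV : ‖V‖ ≤ 2 * p.R) (hb : t ≤ b)
    (hb' : b ≤ p.lw * t) : p.K / p.c * ∫ s in t..b, (if p.c * s ≤ ‖ξ + (s : ℂ) * V‖ ∧
      ‖ξ + (s : ℂ) * V‖ ≤ p.c * (1 + 2 * p.σ') * s then 1 / s else 0) ≤ 500 := by
  have hR : 0 < p.R := by linarith [p.R_ge]
  have hc := p.c_pos
  have hK := p.K_pos
  have hζ := p.ζ2_pos
  have hσ := p.σ'_pos
  have hl : 0 < p.lw := by linarith [p.four_le_lw]
  have h1 : p.ζ2 * (p.c * t) ≤ ‖ξ‖ * (2 * p.R) := hL.trans ((path2_L ξ V 0).trans (by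
    simpa using mul_le_mul_of_nonneg_left hV (norm_nonneg ξ)))
  have h2 : 0 < ‖ξ‖ := pos_of_mul_pos_left (lt_of_lt_of_le (by positivity) h1) (by linarith)
  refine le_trans (mul_le_mul_of_nonneg_left (path2_le (Measurable.ite
    (path2_ms (by fun_prop) (by fun_prop) (by fun_prop) (by fun_prop)) (by fun_prop) measurable_const) hb
    (by rw [← GP.lw]; positivity) (fun s hs => ?_) ?_) (by positivity)) p.layer
  · have := ht.trans hs.1
    split_ifs <;> positivity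
  refine le_trans (lintegral_mono_set (Ioc_subset_Ioc ht.le hb')) (le_trans (le_of_eq ?_)
    ((logLayer V (norm_pos_iff.1 h2) (b := p.c * (1 + 2 * p.σ')) (S := p.lw * t) hc.le (by nlinarith)
      (by positivity)).trans (ENNReal.ofReal_le_ofReal ?_)))
  · exact lintegral_congr fun s => by split_ifs <;> simp
  have h3 : √((p.c * (1 + 2 * p.σ')) ^ 2 - p.c ^ 2) ≤ p.c * √(8 * p.σ') := by
    refine Real.sqrt_le_iff.2 ⟨by positivity, ?_⟩
    rw [mul_pow p.c (√_), Real.sq_sqrt (by positivity)]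
    nlinarith [mul_le_mul_of_nonneg_left p.σ'_le (mul_pos (pow_pos hc 2) hσ).le]
  rw [← GP.lw, div_le_div_iff₀ h2 hζ]
  have h4 : 0 ≤ p.lw * √(8 * p.σ') := by positivity
  nlinarith [mul_le_mul_of_nonneg_left h3 (show 0 ≤ 2 * (p.lw * t) * p.ζ2 by positivity),
    mul_le_mul_of_nonneg_left h1 h4]

theorem path2_core (p : GP) {t σ b : ℝ} (ht : 0 < t) (hσ : σ = 1 ∨ σ = -1) {ξ V : ℂ}
    (hL : p.ζ2 * (p.c * t) ≤ |((starRingEnd ℂ) ξ * V).im|) (hV : ‖V‖ ≤ 2 * p.R) (hb : t ≤ b)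
    (hb' : b ≤ p.lw * t) (hy : ∀ s, t ≤ s → ‖ξ + (s : ℂ) * V‖ ≤ p.y3 * s)
    (hN : 4000 ≤ ∫ s in t..b,
      (if p.c * s < ‖ξ + (s : ℂ) * V‖ then p.K / ‖ξ + (s : ℂ) * V‖ else 0)) :
    400 ≤ ∫ s in t..b, (if p.c * (1 + p.σ') * s ≤ ‖ξ + (s : ℂ) * V‖ ∧
      1 / 5 ≤ sec p.M σ (ξ + (s : ℂ) * V) then p.K / ‖ξ + (s : ℂ) * V‖ else 0) := by
  have hR : 0 < p.R := by linarith [p.R_ge]
  have hc := p.c_pos
  have hK := p.K_pos
  have hζ := p.ζ2_pos
  have hs' := p.σ'_pos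
  have hl : 0 < p.lw := by linarith [p.four_le_lw]
  have hy3 : 0 < p.y3 := by linarith [p.y3_ge]
  have hVy : ‖V‖ ≤ p.y3 := by linarith [p.y3_ge]
  have hL0 : 0 < |((starRingEnd ℂ) ξ * V).im| := lt_of_lt_of_le (by positivity) hL
  have h0 := path2_pos (abs_pos.1 hL0)
  obtain ⟨S, S', a1, a2, a3, a4, a5, a6⟩ := exists_cutoff
  have hne : ∀ s ∈ Icc t b, s ≠ 0 := fun s hs => (ht.trans_le hs.1).ne'
  have hhat : Continuous fun s : ℝ => hat (ξ + (s : ℂ) * V) :=
    Continuous.div (by fun_prop) (by fun_prop) fun s => Complex.ofReal_ne_zero.2 (h0 s).ne'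
  have hu : ContinuousOn (fun s : ℝ =>
      (‖ξ + (s : ℂ) * V‖ / s - p.c * (1 + p.σ')) / (p.c * p.σ')) (Icc t b) :=
    ((ContinuousOn.div (by fun_prop) continuousOn_id hne).sub continuousOn_const).div_const _
  obtain ⟨ψ, hψ⟩ : ∃ ψ : ℝ → ℝ,
    ψ = fun s : ℝ => S ((‖ξ + (s : ℂ) * V‖ / s - p.c * (1 + p.σ')) / (p.c * p.σ')) := ⟨_, rfl⟩
  have hψ1 : ∀ s, ψ s ∈ Icc (0 : ℝ) 1 := fun s => hψ ▸ a3 _
  have hψc : ContinuousOn ψ (Icc t b) := hψ ▸
    (continuous_iff_continuousAt.2 fun u => (a1 u).continuousAt).comp_continuousOn hu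
  have hI : ∀ j : ℕ, IntervalIntegrable (fun s : ℝ =>
      ψ s * (hat (ξ + (s : ℂ) * V) ^ j).re / ‖ξ + (s : ℂ) * V‖) volume t b := fun j =>
    ContinuousOn.intervalIntegrable_of_Icc hb ((hψc.mul (Complex.continuous_re.comp
      (hhat.pow j)).continuousOn).div (by fun_prop) fun s _ => (h0 s).ne')
  have hosc : ∀ j : ℕ, p.M ≤ j → p.K * |∫ s in t..b,
      ψ s * (hat (ξ + (s : ℂ) * V) ^ j).re / ‖ξ + (s : ℂ) * V‖| ≤ 125 := fun j hj => by
    have hM : (1 : ℝ) ≤ p.M := by exact_mod_cast p.one_le_M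
    have hj' : (p.M : ℝ) ≤ j := by exact_mod_cast hj
    have b1 := osc_line (abs_pos.1 hL0) (p.one_le_M.trans hj) hb (ρ := p.y3 * (p.lw * t))
      (D := 2 * (2 * p.y3 / t / (p.c * p.σ'))) (ψ := ψ)
      (ψ' := fun s : ℝ => S' ((‖ξ + (s : ℂ) * V‖ / s - p.c * (1 + p.σ')) / (p.c * p.σ')) *
        ((((starRingEnd ℂ) (hat (ξ + (s : ℂ) * V)) * V).re * s - ‖ξ + (s : ℂ) * V‖ * 1) / s ^ 2
          / (p.c * p.σ')))
      (fun s hs => hψ ▸ (a1 _).comp s ((((hasDerivAt_norm_line (norm_pos_iff.1 (h0 s))).div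
        (hasDerivAt_id s) (hne s hs)).sub_const _).div_const _))
      ((a2.comp_continuousOn hu).mul (ContinuousOn.div_const (ContinuousOn.div (Continuous.continuousOn
        (((Complex.continuous_re.comp ((Complex.continuous_conj.comp hhat).mul
          continuous_const)).mul continuous_id).sub (by fun_prop)))
        (by fun_prop) fun s hs => pow_ne_zero 2 (hne s hs)) _)) (fun s _ => hψ1 s)
      (fun s hs => by
        have hs0 := ht.trans_le hs.1
        rw [abs_mul, abs_div, abs_of_pos (mul_pos hc hs'), abs_div, abs_pow, abs_of_pos hs0]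
        refine mul_le_mul (a4 _) (div_le_div_of_nonneg_right ?_ (by positivity)) (by positivity)
          zero_le_two
        refine le_trans ?_ (div_le_div_of_nonneg_left (by positivity) ht hs.1)
        rw [div_le_div_iff₀ (by positivity) hs0]
        have b2 : |((starRingEnd ℂ) (hat (ξ + (s : ℂ) * V)) * V).re| ≤ p.y3 :=
          (Complex.abs_re_le_norm _).trans (by
            rw [norm_mul, Complex.norm_conj]
            exact (mul_le_of_le_one_left (norm_nonneg _) (norm_hat_le _)).trans hVy)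
        have b3 := (abs_sub _ _).trans (add_le_add
          (show |((starRingEnd ℂ) (hat (ξ + (s : ℂ) * V)) * V).re * s| ≤ p.y3 * s by
            rw [abs_mul, abs_of_pos hs0]
            exact mul_le_mul_of_nonneg_right b2 hs0.le)
          (show |‖ξ + (s : ℂ) * V‖ * 1| ≤ p.y3 * s by rw [mul_one, abs_norm]; exact hy s hs.1))
        nlinarith [mul_le_mul_of_nonneg_right b3 hs0.le])
      fun s hs => (hy s hs.1).trans (mul_le_mul_of_nonneg_left (hs.2.trans hb') hy3.le)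
    refine (mul_le_mul_of_nonneg_left (b1.trans (div_le_div₀
      (c := p.y3 * p.lw * (3 + 4 * p.y3 * p.lw / (p.c * p.σ')) * t) (by positivity) ?_
      (by positivity : 0 < p.M * (p.ζ2 * (p.c * t)))
      (mul_le_mul hj' hL (by positivity) (by positivity)))) hK.le).trans ?_
    · have b2 : b - t ≤ p.lw * t := by linarith
      have b3 := mul_le_mul hVy b2 (by linarith) hy3.le
      have b4 := mul_le_mul_of_nonneg_left b2
        (show 0 ≤ p.y3 * (p.lw * t) * (2 * (2 * p.y3 / t / (p.c * p.σ'))) by positivity)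
      have b5 : p.y3 * (p.lw * t) * (2 * (2 * p.y3 / t / (p.c * p.σ'))) * (p.lw * t)
          = p.y3 * p.lw * (4 * p.y3 * p.lw / (p.c * p.σ')) * t := by field_simp; ring
      linarith
    · rw [← mul_div_assoc, div_le_iff₀ (by positivity)]
      have := mul_le_mul_of_nonneg_right p.osc ht.le
      rw [← GP.lw] at this
      linarith
  have hm : MeasurableSet {s : ℝ | p.c * s ≤ ‖ξ + (s : ℂ) * V‖ ∧
      ‖ξ + (s : ℂ) * V‖ ≤ p.c * (1 + 2 * p.σ') * s} :=
    path2_ms (by fun_prop) (by fun_prop) (by fun_prop) (by fun_prop)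
  have hlay := path2_ii hm (f := fun s => 1 / s) (by fun_prop)
    (ContinuousOn.intervalIntegrable_of_Icc hb (continuousOn_const.div continuousOn_id hne))
  have h1 := hN.trans (intervalIntegral.integral_mono_on hb (path2_ii
    (measurableSet_lt (by fun_prop) (by fun_prop)) (path2_cont h0 p.K).measurable
    ((path2_cont h0 p.K).intervalIntegrable t b))
    (((hI 0).const_mul p.K).add (hlay.const_mul (p.K / p.c))) fun s hs => by
      have hs0 := ht.trans_le hs.1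
      have b1 := (hψ1 s).1
      have b2 := h0 s
      simp only [pow_zero, Complex.one_re, mul_one]
      split_ifs with b3 b4 b4
      · refine le_add_of_nonneg_of_le (by positivity) ?_
        rw [mul_one_div, div_div]
        exact div_le_div_of_nonneg_left hK.le (by positivity) b3.le
      · rw [mul_zero, add_zero, hψ]
        dsimp only
        rw [a6, mul_one_div]
        rw [le_div_iff₀ (by positivity), le_sub_iff_add_le, le_div_iff₀ hs0]
        linarith [not_le.1 fun h => b4 ⟨b3.le, h⟩]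
      all_goals positivity)
  rw [intervalIntegral.integral_add ((hI 0).const_mul _) (hlay.const_mul _),
    intervalIntegral.integral_const_mul, intervalIntegral.integral_const_mul] at h1
  refine le_trans ?_ (intervalIntegral.integral_mono_on hb
    ((((hI 0).const_mul (3 / 20 * p.K)).add ((hI (2 * p.M)).const_mul (p.K / 4))).add
      ((hI p.M).const_mul (2 / 5 * σ * p.K)))
    (path2_ii (path2_ms (by fun_prop) (by fun_prop) measurable_const
      ((measurable_sec _ _).comp (by fun_prop))) (path2_cont h0 p.K).measurable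
      ((path2_cont h0 p.K).intervalIntegrable t b)) fun s hs => ?_)
  · rw [intervalIntegral.integral_add (((hI 0).const_mul _).add ((hI _).const_mul _))
      ((hI _).const_mul _), intervalIntegral.integral_add ((hI 0).const_mul _) ((hI _).const_mul _),
      intervalIntegral.integral_const_mul, intervalIntegral.integral_const_mul,
      intervalIntegral.integral_const_mul]
    have b1 := path2_layer p ht hL hV hb hb'
    have b2 := hosc (2 * p.M) (by omega)
    have b3 := hosc p.M le_rfl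
    rw [← abs_of_pos hK, ← abs_mul, abs_le] at b2 b3
    rcases hσ with rfl | rfl <;> linarith [b2.1, b3.1, b3.2]
  have b1 := hψ1 s
  have b2 := h0 s
  have b3 := mul_le_mul_of_nonneg_left (sec_minorant p.M hσ (norm_pos_iff.1 b2))
    (show 0 ≤ ψ s * (p.K / ‖ξ + (s : ℂ) * V‖) from mul_nonneg b1.1 (by positivity))
  refine le_trans (le_of_eq (by simp only [pow_zero, Complex.one_re]; ring)) (b3.trans ?_)
  by_cases b4 : p.c * (1 + p.σ') * s ≤ ‖ξ + (s : ℂ) * V‖
  · simp only [b4, true_and]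
    split_ifs
    · rw [mul_one]
      exact mul_le_of_le_one_left (by positivity) b1.2
    · simp
  · simp only [b4, false_and, if_false, hψ]
    rw [a5, zero_mul, zero_mul]
    exact div_nonpos_of_nonpos_of_nonneg (sub_nonpos.2 ((div_le_iff₀ (ht.trans_le hs.1)).2
      (not_le.1 b4).le)) (by positivity)

/-- A flight with enough angular momentum spends enough weighted time in the core of either
stream before the weights deteriorate. -/
theorem path_fast (p : GP) {t σ : ℝ} (ht : 0 < t) (hσ : σ = 1 ∨ σ = -1) {ξ V : ℂ}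
    (h0 : p.c * t < ‖ξ + (t : ℂ) * V‖) (h1 : ‖ξ + (t : ℂ) * V‖ ≤ p.y3 * t)
    (hL : p.ζ2 * ‖ξ + (t : ℂ) * V‖ ≤ |((starRingEnd ℂ) ξ * V).im|) (hV : ‖V‖ ≤ 2 * p.R) :
    ∃ s₁ ∈ Icc t (p.lw * t),
      (∫ s in t..s₁, (if p.c * s < ‖ξ + (s : ℂ) * V‖ then p.K / ‖ξ + (s : ℂ) * V‖ else 0)) ≤ 4000 ∧
      400 ≤ (∫ s in t..s₁, (if p.c * (1 + p.σ') * s ≤ ‖ξ + (s : ℂ) * V‖ ∧
          1 / 5 ≤ sec p.M σ (ξ + (s : ℂ) * V) then p.K / ‖ξ + (s : ℂ) * V‖ else 0)) ∧
      ∀ s ∈ Icc t s₁, ‖ξ + (s : ℂ) * V‖ ≤ p.y3 * s ∧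
        10 / 11 * ((t ^ 121)⁻¹ * p.chi (‖ξ + (t : ℂ) * V‖ / t))
          ≤ (s ^ 121)⁻¹ * p.chi (‖ξ + (s : ℂ) * V‖ / s) ∧
        p.c * p.ζ2 / (p.y3 * p.lw) ≤ |((starRingEnd ℂ) (hat (ξ + (s : ℂ) * V)) * V).im| := by
  have hR : 0 < p.R := by linarith [p.R_ge]
  have hc := p.c_pos
  have hτ := p.τ_pos
  have h2 : p.ζ2 * (p.c * t) ≤ |((starRingEnd ℂ) ξ * V).im| :=
    (mul_le_mul_of_nonneg_left h0.le p.ζ2_pos.le).trans hL
  have h3 : p.ζ2 ≤ ‖V‖ := le_of_mul_le_mul_left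
    ((mul_comm _ _).trans_le (hL.trans (path2_L ξ V t))) ((mul_pos hc ht).trans h0)
  have h4 := path2_pos (abs_pos.1 ((mul_pos p.ζ2_pos (mul_pos hc ht)).trans_le h2))
  obtain ⟨Y, hY⟩ : ∃ Y, Y = max (‖ξ + (t : ℂ) * V‖ / t) (4 * p.R) := ⟨_, rfl⟩
  have hY1 : 4 * p.R ≤ Y := hY ▸ le_max_right _ _
  have hY2 : Y ≤ p.y3 := hY ▸ max_le ((div_le_iff₀ ht).2 h1) p.y3_ge
  have hY3 : ‖ξ + (t : ℂ) * V‖ ≤ Y * t := (div_le_iff₀ ht).1 (hY ▸ le_max_left _ _)
  have h5 : ∀ s, t ≤ s → ‖ξ + (s : ℂ) * V‖ ≤ Y * t + (s - t) * (2 * p.R) := fun s hs => by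
    rw [show ξ + (s : ℂ) * V = ξ + (t : ℂ) * V + ((s - t : ℝ) : ℂ) * V by push_cast; ring]
    refine (norm_add_le _ _).trans (add_le_add hY3 ?_)
    rw [norm_mul, Complex.norm_real, Real.norm_of_nonneg (sub_nonneg.2 hs)]
    exact mul_le_mul_of_nonneg_left hV (sub_nonneg.2 hs)
  have h6 : ∀ s, t ≤ s → ‖ξ + (s : ℂ) * V‖ ≤ p.y3 * s := fun s hs =>
    (h5 s hs).trans (by nlinarith [mul_le_mul_of_nonneg_right hY2 (ht.le.trans hs)])
  obtain ⟨a, ha⟩ : ∃ a, a = (Y / (2 * p.R) - 1) * t := ⟨_, rfl⟩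
  have ha1 : 2 * p.R * a = (Y - 2 * p.R) * t := by rw [ha]; field_simp
  have ha2 : t ≤ a := le_of_mul_le_mul_left (a := 2 * p.R) (by nlinarith) (by linarith)
  have ha3 : (1 + p.τ) * a ≤ p.lw * t := by
    refine le_of_mul_le_mul_left (a := p.R) ?_ hR
    rw [GP.lw, ← mul_assoc p.R (_ / _), mul_div_cancel₀ _ hR.ne']
    nlinarith [mul_le_mul_of_nonneg_right hY2 ht.le, mul_pos hR (ht.trans_le ha2), p.τ_le,
      mul_pos hR ht]
  have hii := fun u v => path2_ii (q := fun s => p.c * s < ‖ξ + (s : ℂ) * V‖)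
    (measurableSet_lt (by fun_prop) (by fun_prop)) (path2_cont h4 p.K).measurable
    ((path2_cont h4 p.K).intervalIntegrable u v)
  have hta : t ≤ (1 + p.τ) * a := by nlinarith
  obtain ⟨s₁, hs₁, e⟩ := intermediate_value_Icc hta
    (intervalIntegral.continuous_primitive hii t).continuousOn
    (show (4000 : ℝ) ∈ _ from ⟨by simp, by
      rw [← intervalIntegral.integral_add_adjacent_intervals (hii t a) (hii a _)]
      refine le_add_of_nonneg_of_le (intervalIntegral.integral_nonneg ha2 fun s _ => ?_)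
        (path2_far p (ht.trans_le ha2) h4 h3 fun s hs => (h5 s (ha2.trans hs)).trans ?_)
      · have := p.K_pos
        split_ifs <;> positivity
      · nlinarith [mul_le_mul_of_nonneg_left hs hR.le]⟩)
  refine ⟨s₁, ⟨hs₁.1, hs₁.2.trans ha3⟩, e.le, path2_core p ht hσ h2 hV hs₁.1 (hs₁.2.trans ha3)
    h6 e.ge, fun s hs => ⟨h6 s hs.1, ?_, ?_⟩⟩
  · have hs0 := ht.trans_le hs.1
    rw [GP.chi, GP.chi, if_pos ((div_le_iff₀ ht).2 h1), if_pos ((div_le_iff₀ hs0).2 (h6 s hs.1)),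
      ← hY]
    exact path2_chi p.τ_pos.le p.τ_le ht hs0 (by linarith) (lt_max_of_lt_right (by linarith))
      (path2_weight hτ.le hR ht hs.1 hY1 ha1 (hs.2.trans hs₁.2) (norm_nonneg _) (h5 s hs.1))
  · have hy : 0 < p.y3 := by linarith
    have hl : 0 < p.lw := by linarith [p.four_le_lw]
    rw [path2_hat, abs_div, abs_norm, im_conj_line, div_le_div_iff₀ (by positivity) (h4 s)]
    have h7 : ‖ξ + (s : ℂ) * V‖ ≤ p.y3 * (p.lw * t) := (h6 s hs.1).trans
      (mul_le_mul_of_nonneg_left (hs.2.trans (hs₁.2.trans ha3)) hy.le)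
    nlinarith [mul_le_mul_of_nonneg_left h7 (mul_pos hc p.ζ2_pos).le,
      mul_le_mul_of_nonneg_right h2 (mul_pos hy hl).le]

end

end Vale.Agent.P140
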