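import Vale.Agent.P140.Good
import Vale.Agent.P140.PtP

/-! Branching inequalities for the value functions. -/

namespace Vale.Agent.P140

open MeasureTheory Set Filter Topology
open scoped ENNReal RealInnerProductSpace

noncomputable section

theorem ptG_ca_int (v w : V) : Integrable (fun ω : S2 => |ca v w ω|) sig := by
  have c0 : Continuous fun ω : S2 => ((v, w, ω) : V × V × S2) := by fun_prop
  exact (continuous_ca.comp c0).abs.integrable_of_hasCompactSupport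
    (HasCompactSupport.of_compactSpace _)

theorem ptG_bad_meas (g e : V) (s ζ : ℝ) :
    MeasurableSet {ω : S2 | |s + ⟪g, (ω : V)⟫ * ⟪e, (ω : V)⟫| ≤ ζ} :=
  (isClosed_le (by fun_prop) continuous_const).measurableSet

theorem ptG_bad (p : GP) {v w e : V} (he : ‖e‖ = 1) (hvw : p.ζ5 ≤ ‖v - w‖) (s : ℝ) :
    ∫ ω, {ω : S2 | |s + ⟪v - w, (ω : V)⟫ * ⟪e, (ω : V)⟫| ≤ p.ζ2}.indicator
      (fun ω => |ca v w ω|) ω ∂sig ≤ ‖v - w‖ / 50 := by
  rw [integral_indicator (ptG_bad_meas _ _ _ _)]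
  exact ptP_int_le (by positivity) (p.bad (v - w) e s he hvw)

/-- The average over directions for one partner velocity. -/
theorem ptG_dir (p : GP) {v w e : V} (he : ‖e‖ = 1) (hvw : p.ζ5 ≤ ‖v - w‖) (s₁ s₂ : ℝ)
    {F : S2 → ℝ} {B : ℝ} (hB : 0 ≤ B) (F0 : ∀ ω, 0 ≤ F ω)
    (hi : Integrable (fun ω => |ca v w ω| * F ω) sig)
    (hgood : ∀ ω : S2, p.ζ2 < |s₁ + ⟪v - w, (ω : V)⟫ * ⟪e, (ω : V)⟫| →
      p.ζ2 < |s₂ + ⟪v - w, (ω : V)⟫ * ⟪e, (ω : V)⟫| → B ≤ F ω) :
    99 / 100 * B * (2 * Real.pi * ‖v - w‖) ≤ ∫ ω, |ca v w ω| * F ω ∂sig := by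
  have i0 := ptG_ca_int v w
  have i1 := i0.indicator (ptG_bad_meas (v - w) e s₁ p.ζ2)
  have i2 := i0.indicator (ptG_bad_meas (v - w) e s₂ p.ζ2)
  have h1 := ptG_bad p he hvw s₁
  have h2 := ptG_bad p he hvw s₂
  have key := integral_mono (((i0.sub i1).sub i2).const_mul B) hi fun ω => by
    have a0 := abs_nonneg (ca v w ω)
    have a1 := mul_nonneg a0 (F0 ω)
    have a2 := mul_nonneg hB a0
    simp only [Pi.sub_apply, indicator, mem_ofPred_eq]
    split_ifs with c1 c2 c2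
    · linarith
    · linarith
    · linarith
    · have := mul_le_mul_of_nonneg_left (hgood ω (not_le.1 c1) (not_le.1 c2)) a0
      linarith
  rw [integral_const_mul, integral_sub' (i0.sub i1) i2, integral_sub' i0 i1,
    integral_abs_ca] at key
  refine le_trans ?_ key
  have h3 := mul_le_mul_of_nonneg_right Real.pi_gt_three.le (norm_nonneg (v - w))
  have h4 := norm_nonneg (v - w)
  rw [mul_comm _ B, mul_assoc]
  exact mul_le_mul_of_nonneg_left (by linarith) hB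

/-- A lower bound for the dual gain from a lower bound on good scattering directions. -/
theorem dualG_ge (p : GP) {n t₀ t : ℝ} {c h k : ℝ → Ph → ℝ} (hn : 0 < n) (S : Sys n t₀ c h k)
    {φ : Ph → ℝ} {C B : ℝ} (hφ : Measurable φ) (h0 : ∀ z, 0 ≤ φ z) (hC : ∀ z, φ z ≤ C)
    (hB : 0 ≤ B) (x : T3) (v : V) {e : V} (he : ‖e‖ = 1) (s₁ s₂ : V → ℝ)
    (hgood : ∀ (w : V) (ω : S2), c t (x, w) ≠ 0 → p.ζ2 < |s₁ w + ⟪v - w, (ω : V)⟫ * ⟪e, (ω : V)⟫| →
      p.ζ2 < |s₂ w + ⟪v - w, (ω : V)⟫ * ⟪e, (ω : V)⟫| →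
      B ≤ φ (x, vp v w ω) + φ (x, wp v w ω)) :
    99 / 100 * B * rf p n c h k t (x, v) ≤ dualG n c h k t φ (x, v) := by
  have th0 := th_pos (z := (x, v)) hn (S.tot_nonneg t _)
  have C0 : 0 ≤ C := (h0 (x, v)).trans (hC _)
  have gr : ∀ (u w : V), |φ (x, u)| ≤ C * (1 + ‖w‖) ^ 4 := fun u w => by
    rw [abs_of_nonneg (h0 _)]
    exact (hC _).trans (le_mul_of_one_le_right C0 (one_le_pow₀ (by linarith [norm_nonneg w])))
  have mv : Measurable fun q : V × S2 => φ (x, vp v q.1 q.2) :=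
    hφ.comp (measurable_const.prodMk (qapi_mvp v))
  have mw : Measurable fun q : V × S2 => φ (x, wp v q.1 q.2) :=
    hφ.comp (measurable_const.prodMk (qapi_mwp v))
  have bc := S.sys_bdd hn S.mc S.c0 (fun s z =>
    (le_add_of_nonneg_right (S.h0 s z)).trans (S.sys_two_le s z)) t x
  have I1 := cInt_integrable hn.le (S.sys_bddt hn t x) v
    (H := fun w ω => φ (x, wp v w ω)) mw (fun w _ => gr _ w)
  have I2 := cInt_integrable hn.le (S.sys_bdd2 hn t x) v
    (H := fun w ω => φ (x, vp v w ω)) mv (fun w _ => gr _ w)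
  have I12 : Integrable (fun q : V × S2 => Bn n v q.1 q.2 *
      (til n (tot c h k t) (x, q.1) * φ (x, wp v q.1 q.2)
        + reg n (tot c h k t) (two c h t) (x, q.1) * φ (x, vp v q.1 q.2)))
      (volume.prod sig) := (I1.add I2).congr (Eventually.of_forall fun q => (mul_add _ _ _).symm)
  have ms : MeasurableSet {w : V | p.ζ5 ≤ ‖v - w‖} :=
    measurableSet_le measurable_const (measurable_const.sub measurable_id).norm
  have b1 : BddV (n * 1)
      (fun w => (if p.ζ5 ≤ ‖v - w‖ then reg n (tot c h k t) (c t) (x, w) else 0) * 1) :=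
    ptP_bdd_ite bc zero_le_one ms
  simp only [mul_one] at b1
  have i1 := nuN_integrable hn.le b1 v
  have key : 99 / 100 * B * nuN n
      (fun w => if p.ζ5 ≤ ‖v - w‖ then reg n (tot c h k t) (c t) (x, w) else 0) v
      ≤ cInt n v (fun w ω => til n (tot c h k t) (x, w) * φ (x, wp v w ω)
        + reg n (tot c h k t) (two c h t) (x, w) * φ (x, vp v w ω)) := by
    unfold cInt nuN
    rw [integral_prod _ I12, integral_prod _ i1, ← integral_const_mul]
    refine integral_mono_ae (i1.integral_prod_left.const_mul _) I12.integral_prod_left ?_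
    filter_upwards [I12.prod_right_ae] with w hw
    have r0 := reg_nonneg (f := c t) (z := (x, w)) hn (S.tot_nonneg t _) (S.c0 t _)
    have tw := (th_pos (z := (x, w)) hn (S.tot_nonneg t _)).le
    have r1 : reg n (tot c h k t) (c t) (x, w) ≤ reg n (tot c h k t) (two c h t) (x, w) :=
      mul_le_mul_of_nonneg_left (le_add_of_nonneg_right (S.h0 t _)) tw
    have r2 : reg n (tot c h k t) (two c h t) (x, w) ≤ til n (tot c h k t) (x, w) :=
      mul_le_mul_of_nonneg_left (S.sys_two_le t _) tw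
    have F0 : ∀ ω, 0 ≤ til n (tot c h k t) (x, w) * φ (x, wp v w ω)
        + reg n (tot c h k t) (two c h t) (x, w) * φ (x, vp v w ω) := fun ω =>
      add_nonneg (mul_nonneg (r0.trans (r1.trans r2)) (h0 _)) (mul_nonneg (r0.trans r1) (h0 _))
    have pos : 0 ≤ ∫ ω, Bn n v w ω * (til n (tot c h k t) (x, w) * φ (x, wp v w ω)
        + reg n (tot c h k t) (two c h t) (x, w) * φ (x, vp v w ω)) ∂sig :=
      integral_nonneg fun ω => mul_nonneg (Bn_nonneg _ _ _ _) (F0 ω)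
    by_cases hvw : p.ζ5 ≤ ‖v - w‖
    swap
    · simpa [hvw] using pos
    by_cases hc : c t (x, w) = 0
    · have e0 : reg n (tot c h k t) (c t) (x, w) = 0 := by rw [reg, hc, mul_zero]
      simpa [e0] using pos
    by_cases hnw : ‖v - w‖ ≤ n
    swap
    · simp [Bn, hnw]
    simp only [Bn_eq v w _ hnw, if_pos hvw] at hw ⊢
    rw [integral_mul_const, integral_abs_ca]
    refine le_trans (le_of_eq (by ring)) (ptG_dir p he hvw (s₁ w) (s₂ w)
      (B := reg n (tot c h k t) (c t) (x, w) * B) (mul_nonneg r0 hB) F0 hw fun ω g1 g2 => ?_)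
    have h1 := mul_le_mul_of_nonneg_left (hgood w ω hc g1 g2) r0
    have h2 := mul_le_mul_of_nonneg_right r1 (h0 (x, vp v w ω))
    have h3 := mul_le_mul_of_nonneg_right (r1.trans r2) (h0 (x, wp v w ω))
    linarith
  have h1 := mul_le_mul_of_nonneg_left key th0.le
  unfold dualG rf
  simp only
  linarith

theorem ptG_unit : ‖mkV 0 1‖ = 1 := by
  have h := norm_sq_eq (mkV 0 1)
  rw [tp_mkV, mkV_two, norm_zero] at h
  exact (pow_eq_one_iff_of_nonneg (norm_nonneg _) two_ne_zero).1 (by linarith)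

theorem ptG_pos (p : GP) {n t₀ t : ℝ} {c h k : ℝ → Ph → ℝ} (hn : 0 < n) (S : Sys n t₀ c h k)
    {φ : Ph → ℝ} {C : ℝ} (hφ : Measurable φ) (h0 : ∀ z, 0 ≤ φ z) (hC : ∀ z, φ z ≤ C) (z : Ph) :
    0 ≤ dualG n c h k t φ z := by
  have := dualG_ge p (t := t) hn S hφ h0 hC le_rfl z.1 z.2 ptG_unit (fun _ => 0) (fun _ => 0)
    fun w ω _ _ _ => add_nonneg (h0 _) (h0 _)
  simpa using this

theorem ptG_inner (a : ℂ) (u : V) :
    ⟪mkV (Complex.I * a) 0, u⟫ = ((starRingEnd ℂ) a * tp u).im := by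
  rw [inner_mkV]
  simp
  ring

theorem ptG_supp {p : GP} {μ e0 r1 n t₀ Tf t : ℝ} {c h k : ℝ → Ph → ℝ}
    (G : Reg p μ e0 r1 n t₀ Tf c h k) (hP : (p.cp e0 r1).Ok) (ht : t₀ ≤ t) (ht' : t ≤ 1 / 100)
    {x : T3} {w : V} (hw : c t (x, w) ≠ 0) : ‖w‖ ^ 2 ≤ 4 := by
  have h1 := ((G.sys.c0 t _).lt_of_ne' hw).trans_le (G.sys.c_le_cf G.n_pos G.init ht _)
  have h2 := (cf_supp hP (G.t_pos.trans_le ht) ht' h1.ne').2.2
  nlinarith [norm_nonneg w]

theorem small_ptG (p : GP) {μ : ℝ} (hμ : 0 ≤ μ) : ForSmall p μ (fun _ _ n t₀ Tf c h k =>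
    ∀ t ∈ Icc t₀ (Tf / p.lw), ∀ z : Ph,
      (t ^ 121)⁻¹ * gg p n c h k t z + p.chi0 / 10 * ((t ^ 121)⁻¹ * rf1 p n c h k t z)
        ≤ dualG n c h k t (Gt p n Tf c h k t) z) := by
  refine (((small_good p hμ).and (small_ok p μ)).and (small_rf_le p μ)).mono
    fun e0 r1 n t₀ Tf c h k G hs t ht z => ?_
  obtain ⟨⟨hg, hP, hT, -⟩, hrf⟩ := hs
  obtain ⟨x, v⟩ := z
  have hn := G.n_pos
  have S := G.sys
  have t0 : 0 < t := G.t_pos.trans_le ht.1
  have hl := p.four_le_lw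
  have tT : t ≤ Tf := by
    have h1 := ht.2
    rw [le_div_iff₀ (by linarith)] at h1
    nlinarith
  have ht' : t ∈ Icc t₀ Tf := ⟨ht.1, tT⟩
  have mφ : Measurable (Gt p n Tf c h k t) :=
    QMeas_app (f := Gt p n Tf c h k) (S.meas_Gt p Tf) measurable_const measurable_id
  have φ0 := S.Gt_nonneg hn p t0 tT
  obtain ⟨C, hC⟩ := S.Gt_bdd hn p G.t_pos Tf
  have φC : ∀ z, Gt p n Tf c h k t z ≤ C := fun z => (le_abs_self _).trans (hC t ht' z).1
  have pos := ptG_pos p (t := t) hn S mφ φ0 φC (x, v)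
  have r0 := S.rf_nonneg hn p t (x, v)
  by_cases hy : ‖X x‖ / t ≤ p.y3
  swap
  · simpa [gg, rf1, GP.chi, hy] using pos
  by_cases hv : ‖v‖ ^ 2 ≤ 2 * p.R ^ 2
  swap
  · simpa [gg, rf1, rf2, hv, p.ff_eq_zero (not_le.1 hv).le] using pos
  have e1 : rf1 p n c h k t (x, v) = rf p n c h k t (x, v) := by
    unfold rf1 rf2
    rw [if_pos hy, if_pos hv]
  by_cases hx : p.c * t < ‖X x‖
  swap
  · have e0 : rf p n c h k t (x, v) = 0 := by
      refine le_antisymm ((hrf t ht' (x, v)).trans_eq (if_neg hx)) r0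
    simpa [gg, e1, e0] using pos
  have x0 : X x ≠ 0 := norm_pos_iff.1 ((mul_pos p.c_pos t0).trans hx)
  have he : ‖mkV (Complex.I * hat (X x)) 0‖ = 1 := by
    have h1 := norm_sq_eq (mkV (Complex.I * hat (X x)) 0)
    rw [tp_mkV, mkV_two, norm_mul, Complex.norm_I, norm_hat x0] at h1
    exact (pow_eq_one_iff_of_nonneg (norm_nonneg _) two_ne_zero).1 (by linarith)
  have c0 := (p.chi_mem (‖X x‖ / t)).1
  have c1 := p.chi0_le hy
  have f0 := (p.ff_mem (‖v‖ ^ 2)).1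
  have f1 := (p.ff_mem (‖v‖ ^ 2)).2
  have i0 : 0 ≤ (t ^ 121)⁻¹ := by positivity
  have a0 := mul_nonneg i0 c0
  refine le_trans ?_ (dualG_ge p (t := t) hn S mφ φ0 φC
    (B := 9 / 10 * ((t ^ 121)⁻¹ * p.chi (‖X x‖ / t) * (99 / 100 + p.ff (‖v‖ ^ 2))))
    (by positivity) x v he (fun _ => -⟪mkV (Complex.I * hat (X x)) 0, v⟫)
    (fun w => ⟪mkV (Complex.I * hat (X x)) 0, w⟫) fun w ω hw g1 g2 => ?_)
  · rw [e1]
    unfold gg
    simp only
    have h1 := mul_nonneg a0 r0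
    have h2 := mul_le_mul_of_nonneg_left f1 h1
    have h3 := mul_le_mul_of_nonneg_left c1 (mul_nonneg i0 r0)
    linarith
  · have h1 := hg t ht x (vp v w ω) hx hy (by
      rw [← ptG_inner, vp, inner_sub_right, inner_smul_right, ← abs_neg, neg_sub, sub_eq_neg_add]
      exact g1.le)
    have h2 := hg t ht x (wp v w ω) hx hy (by
      rw [← ptG_inner, wp, inner_add_right, inner_smul_right]
      exact g2.le)
    have h3 := p.ff_split (sq_nonneg ‖vp v w ω‖) (sq_nonneg ‖wp v w ω‖) hv (by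
      rw [energy_post]
      linarith [ptG_supp G hP ht.1 (tT.trans hT) hw])
    have h4 := mul_le_mul_of_nonneg_left h3 a0
    linarith

theorem small_ptH (p : GP) {μ : ℝ} (hμ : 0 ≤ μ) : ForSmall p μ (fun _ _ n _ Tf c h k =>
    ∀ t ∈ Icc (Tf / p.lw) Tf, ∀ z : Ph,
      p.q / 2 * rf2 p n c h k t z ≤ dualG n c h k t (G2 p n Tf c h k t) z) := by
  refine ((small_G2_low p hμ).and (small_ok p μ)).mono
    fun e0 r1 n t₀ Tf c h k G hs t ht z => ?_
  obtain ⟨hg, hP, hT, -⟩ := hs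
  obtain ⟨x, v⟩ := z
  have hn := G.n_pos
  have S := G.sys
  have mφ : Measurable (G2 p n Tf c h k t) :=
    QMeas_app (f := G2 p n Tf c h k) (S.meas_G2 p Tf) measurable_const measurable_id
  have φ0 := fun z => (S.G2_mem hn p ht.2 z).1
  have φC := fun z => (S.G2_mem hn p ht.2 z).2
  by_cases hv : ‖v‖ ^ 2 ≤ 2 * p.R ^ 2
  swap
  · simpa [rf2, hv] using ptG_pos p (t := t) hn S mφ φ0 φC (x, v)
  have q0 : 0 ≤ p.q := (Real.exp_pos _).le
  have ee : ∀ u : V, ⟪mkV 0 1, u⟫ = u 2 := fun u => by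
    rw [inner_mkV]
    simp
  refine le_trans ?_ (dualG_ge p (t := t) hn S mφ φ0 φC q0 x v ptG_unit (fun _ => 1 - v 2)
    (fun _ => -1 - v 2) fun w ω hw g1 g2 => ?_)
  · unfold rf2
    rw [if_pos hv]
    have := mul_nonneg q0 (S.rf_nonneg hn p t (x, v))
    linarith
  · rw [ee] at g1 g2
    have e2 : vp v w ω 2 = v 2 - ⟪v - w, (ω : V)⟫ * (ω : V) 2 := rfl
    refine le_trans (hg t ht (x, vp v w ω) ⟨?_, ?_⟩ ?_) (le_add_of_nonneg_right (φ0 _))
    · refine g1.le.trans_eq ?_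
      rw [e2, ← abs_neg]
      congr 1
      ring
    · refine g2.le.trans_eq ?_
      rw [e2, ← abs_neg]
      congr 1
      ring
    · have h1 := energy_post v w ω
      have h2 := ptG_supp G hP (G.t_le'.trans ht.1) (ht.2.trans hT) hw
      have h3 := sq_nonneg ‖wp v w ω‖
      simp only
      linarith

end

end Vale.Agent.P140
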