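import Vale.Agent.P140.QMeas

/-! Bounds and bilinearity for the truncated collision operators, and the damping factor. -/

namespace Vale.Agent.P140

open MeasureTheory Set Filter Topology
open scoped ENNReal RealInnerProductSpace

noncomputable section

section Bounds

variable {n A B : ℝ} {f f' g g' φ : V → ℝ}

theorem BddV.nonneg (hf : BddV A f) : 0 ≤ A :=
  nonneg_of_mul_nonneg_left ((abs_nonneg _).trans (hf.le 0)) (Mx_pos 0)

theorem BddV.add (hf : BddV A f) (hg : BddV B g) : BddV (A + B) (fun v => f v + g v) :=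
  ⟨hf.meas.add hg.meas, fun v => (abs_add_le _ _).trans (by linarith [hf.le v, hg.le v])⟩

theorem BddV.sub (hf : BddV A f) (hg : BddV B g) : BddV (A + B) (fun v => f v - g v) :=
  ⟨hf.meas.sub hg.meas, fun v => (abs_sub _ _).trans (by linarith [hf.le v, hg.le v])⟩

theorem BddV.integrable_pow (hf : BddV A f) (p : ℕ) :
    Integrable (fun v => (1 + ‖v‖) ^ p * f v) := by
  refine ((integrable_pow_Mx p).const_mul A).mono'
    (((measurable_const.add measurable_norm).pow_const p).mul hf.meas).aestronglyMeasurable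
    (Eventually.of_forall fun v => ?_)
  rw [Real.norm_eq_abs, abs_mul, abs_of_nonneg (by positivity), mul_left_comm]
  exact mul_le_mul_of_nonneg_left (hf.le v) (by positivity)


theorem QBd_int (c : ℝ) : Integrable (fun p : V × S2 => c * Mx p.1) (volume.prod sig) :=
  (integrable_Mx.comp_fst sig).const_mul c

theorem QBd_val (c : ℝ) : ∫ p : V × S2, c * Mx p.1 ∂(volume.prod sig) = 4 * Real.pi * c := by
  rw [integral_const_mul, integral_fun_fst Mx, integral_Mx, Measure.real, sig_univ,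
    ENNReal.toReal_ofReal (by positivity), smul_eq_mul]
  ring

theorem QBd_QN (hn : 0 ≤ n) (hf : BddV A f) (hg : BddV B g) (v : V) (p : V × S2) :
    ‖Bn n v p.1 p.2 * (f (vp v p.1 p.2) * g (wp v p.1 p.2))‖ ≤ n * A * B * Mx v * Mx p.1 := by
  rw [Real.norm_eq_abs, abs_mul, abs_mul, abs_of_nonneg (Bn_nonneg _ _ _ _)]
  have h1 := mul_le_mul (hf.le (vp v p.1 p.2)) (hg.le (wp v p.1 p.2)) (abs_nonneg _)
    ((abs_nonneg _).trans (hf.le _))
  rw [mul_mul_mul_comm, Mx_post] at h1
  calc _ ≤ n * (A * B * (Mx v * Mx p.1)) := mul_le_mul (Bn_le _ _ _ hn) h1 (by positivity) hn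
    _ = _ := by ring

theorem QBd_nu (hn : 0 ≤ n) (hg : BddV B g) (v : V) (p : V × S2) :
    ‖Bn n v p.1 p.2 * g p.1‖ ≤ n * B * Mx p.1 := by
  rw [Real.norm_eq_abs, abs_mul, abs_of_nonneg (Bn_nonneg _ _ _ _), mul_assoc]
  exact mul_le_mul (Bn_le _ _ _ hn) (hg.le _) (abs_nonneg _) hn



theorem QN_integrable (hn : 0 ≤ n) (hf : BddV A f) (hg : BddV B g) (v : V) : Integrable
    (fun p : V × S2 => Bn n v p.1 p.2 * (f (vp v p.1 p.2) * g (wp v p.1 p.2)))
    (volume.prod sig) :=
  (QBd_int _).mono' ((measurable_Bn n measurable_const measurable_fst measurable_snd).mul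
    ((hf.meas.comp (measurable_vp measurable_const measurable_fst measurable_snd)).mul
      (hg.meas.comp (measurable_wp measurable_const measurable_fst
        measurable_snd)))).aestronglyMeasurable (Eventually.of_forall (QBd_QN hn hf hg v))

theorem nuN_integrable (hn : 0 ≤ n) (hg : BddV B g) (v : V) :
    Integrable (fun p : V × S2 => Bn n v p.1 p.2 * g p.1) (volume.prod sig) :=
  (QBd_int _).mono' ((measurable_Bn n measurable_const measurable_fst measurable_snd).mul
    (hg.meas.comp measurable_fst)).aestronglyMeasurable (Eventually.of_forall (QBd_nu hn hg v))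

theorem abs_QN_le (hn : 0 ≤ n) (hf : BddV A f) (hg : BddV B g) (v : V) :
    |QN n f g v| ≤ 4 * Real.pi * n * A * B * Mx v := by
  have := norm_integral_le_of_norm_le (QBd_int _) (Eventually.of_forall (QBd_QN hn hf hg v))
  rw [QBd_val] at this
  exact this.trans_eq (by ring)

theorem abs_nuN_le (hn : 0 ≤ n) (hg : BddV B g) (v : V) :
    |nuN n g v| ≤ 4 * Real.pi * n * B := by
  have := norm_integral_le_of_norm_le (QBd_int _) (Eventually.of_forall (QBd_nu hn hg v))
  rw [QBd_val] at this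
  exact this.trans_eq (by ring)

theorem QN_nonneg (hf : ∀ v, 0 ≤ f v) (hg : ∀ v, 0 ≤ g v) (v : V) : 0 ≤ QN n f g v :=
  integral_nonneg fun _ => mul_nonneg (Bn_nonneg _ _ _ _) (mul_nonneg (hf _) (hg _))

theorem nuN_nonneg (hg : ∀ v, 0 ≤ g v) (v : V) : 0 ≤ nuN n g v :=
  integral_nonneg fun _ => mul_nonneg (Bn_nonneg _ _ _ _) (hg _)

theorem QN_add_left {A' : ℝ} (hn : 0 ≤ n) (hf : BddV A f) (hf' : BddV A' f') (hg : BddV B g)
    (v : V) : QN n (fun u => f u + f' u) g v = QN n f g v + QN n f' g v := by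
  simp only [QN, add_mul, mul_add]
  exact integral_add (QN_integrable hn hf hg v) (QN_integrable hn hf' hg v)

theorem QN_add_right {B' : ℝ} (hn : 0 ≤ n) (hf : BddV A f) (hg : BddV B g) (hg' : BddV B' g')
    (v : V) : QN n f (fun u => g u + g' u) v = QN n f g v + QN n f g' v := by
  simp only [QN, mul_add]
  exact integral_add (QN_integrable hn hf hg v) (QN_integrable hn hf hg' v)

theorem QN_sub_left {A' : ℝ} (hn : 0 ≤ n) (hf : BddV A f) (hf' : BddV A' f') (hg : BddV B g)
    (v : V) : QN n (fun u => f u - f' u) g v = QN n f g v - QN n f' g v := by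
  simp only [QN, sub_mul, mul_sub]
  exact integral_sub (QN_integrable hn hf hg v) (QN_integrable hn hf' hg v)

theorem QN_sub_right {B' : ℝ} (hn : 0 ≤ n) (hf : BddV A f) (hg : BddV B g) (hg' : BddV B' g')
    (v : V) : QN n f (fun u => g u - g' u) v = QN n f g v - QN n f g' v := by
  simp only [QN, mul_sub]
  exact integral_sub (QN_integrable hn hf hg v) (QN_integrable hn hf hg' v)

theorem nuN_add {B' : ℝ} (hn : 0 ≤ n) (hg : BddV B g) (hg' : BddV B' g') (v : V) :
    nuN n (fun u => g u + g' u) v = nuN n g v + nuN n g' v := by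
  simp only [nuN, mul_add]
  exact integral_add (nuN_integrable hn hg v) (nuN_integrable hn hg' v)

theorem nuN_sub {B' : ℝ} (hn : 0 ≤ n) (hg : BddV B g) (hg' : BddV B' g') (v : V) :
    nuN n (fun u => g u - g' u) v = nuN n g v - nuN n g' v := by
  simp only [nuN, mul_sub]
  exact integral_sub (nuN_integrable hn hg v) (nuN_integrable hn hg' v)

end Bounds

section Damp

variable {n : ℝ} {F f g : Ph → ℝ} {z : Ph}

theorem th_pos (hn : 0 < n) (hF : 0 ≤ F z) : 0 < th n F z := by
  have := Mx_pos z.2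
  unfold th
  positivity

theorem th_le_one (hn : 0 < n) (hF : 0 ≤ F z) : th n F z ≤ 1 := by
  have := Mx_pos z.2
  have h : 0 ≤ F z / (n * Mx z.2) := by positivity
  rw [th, div_le_one (by positivity)]
  linarith

theorem one_sub_th_le (hn : 0 < n) (hF : 0 ≤ F z) : 1 - th n F z ≤ F z / (n * Mx z.2) := by
  have := Mx_pos z.2
  have h : 0 ≤ F z / (n * Mx z.2) := by positivity
  rw [th, sub_le_comm, le_div_iff₀ (by positivity)]
  nlinarith [sq_nonneg (F z / (n * Mx z.2))]

theorem reg_nonneg (hn : 0 < n) (hF : 0 ≤ F z) (hf : 0 ≤ f z) : 0 ≤ reg n F f z :=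
  mul_nonneg (th_pos hn hF).le hf

theorem reg_le (hn : 0 < n) (hF : 0 ≤ F z) (hf : 0 ≤ f z) : reg n F f z ≤ f z :=
  mul_le_of_le_one_left hf (th_le_one hn hF)

theorem reg_le_Mx (hn : 0 < n) (hf : 0 ≤ f z) (hfF : f z ≤ F z) :
    reg n F f z ≤ n * Mx z.2 := by
  have h0 := mul_pos hn (Mx_pos z.2)
  have hF := hf.trans hfF
  rw [reg, th, one_div, inv_mul_le_iff₀ (by positivity), add_mul, div_mul_cancel₀ _ h0.ne']
  linarith

theorem reg_add : reg n F (fun z => f z + g z) z = reg n F f z + reg n F g z :=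
  mul_add _ _ _

theorem til_nonneg (hn : 0 < n) (hF : 0 ≤ F z) : 0 ≤ til n F z :=
  reg_nonneg hn hF hF

theorem til_le (hn : 0 < n) (hF : 0 ≤ F z) : til n F z ≤ F z :=
  reg_le hn hF hF

theorem til_le_Mx (hn : 0 < n) (hF : 0 ≤ F z) : til n F z ≤ n * Mx z.2 :=
  reg_le_Mx hn hF le_rfl

theorem til_div (hn : 0 < n) (hF : 0 ≤ F z) :
    til n F z / Mx z.2 = F z / Mx z.2 / (1 + F z / Mx z.2 / n) := by
  rw [til, reg, th, div_div (F z) (Mx z.2) n, mul_comm (Mx z.2) n]
  ring

theorem bddV_reg (hn : 0 < n) (hF : Measurable F) (hf : Measurable f) (h0 : ∀ z, 0 ≤ f z)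
    (hfF : ∀ z, f z ≤ F z) (x : T3) : BddV n (sl (reg n F f) x) := by
  refine ⟨measurable_reg n (F := fun _ : V => F) (f := fun _ : V => f) (hF.comp measurable_snd)
    (hf.comp measurable_snd) (measurable_const.prodMk measurable_id), fun v => ?_⟩
  rw [sl, abs_of_nonneg (reg_nonneg hn ((h0 _).trans (hfF _)) (h0 _))]
  exact reg_le_Mx hn (h0 _) (hfF _)

theorem bddV_til (hn : 0 < n) (hF : Measurable F) (h0 : ∀ z, 0 ≤ F z) (x : T3) :
    BddV n (sl (til n F) x) :=
  bddV_reg hn hF hF h0 (fun _ => le_rfl) x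

theorem lam_nonneg (hn : 0 < n) (h0 : ∀ z, 0 ≤ F z) : 0 ≤ lam n F z :=
  mul_nonneg (th_pos hn (h0 z)).le (nuN_nonneg (fun _ => til_nonneg hn (h0 _)) _)

theorem lam_le (hn : 0 < n) (hF : Measurable F) (h0 : ∀ z, 0 ≤ F z) :
    lam n F z ≤ 4 * Real.pi * n * n :=
  (mul_le_of_le_one_left (nuN_nonneg (fun _ => til_nonneg hn (h0 _)) _)
    (th_le_one hn (h0 z))).trans ((le_abs_self _).trans
      (abs_nuN_le hn.le (bddV_til hn hF h0 z.1) z.2))

theorem lam_le_rate (hn : 0 < n) (h0 : ∀ z, 0 ≤ F z) : lam n F z ≤ rateN n (til n F) z :=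
  mul_le_of_le_one_left (nuN_nonneg (fun _ => til_nonneg hn (h0 _)) _) (th_le_one hn (h0 z))

theorem lam_mul : lam n F z * f z = reg n F f z * rateN n (til n F) z :=
  mul_right_comm _ _ _

end Damp

end

end Vale.Agent.P140
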