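import Vale.Agent.P140.Flow0
import Vale.Agent.P140.Coll

/-! Measurability of the collision operators. -/

namespace Vale.Agent.P140

open MeasureTheory Set Filter Topology
open scoped ENNReal RealInnerProductSpace

noncomputable section

section Meas

variable {X : Type} [MeasurableSpace X]


theorem QMeas_lin2 {H : X → V → S2 → ℝ≥0∞}
    (hH : Measurable fun p : (X × V) × S2 => H p.1.1 p.1.2 p.2) :
    Measurable fun x => ∫⁻ w, ∫⁻ ω, H x w ω ∂sig :=
  (hH.lintegral_prod_right' (ν := sig)).lintegral_prod_right' (ν := volume)

theorem QMeas_app {Y Z W : Type} [MeasurableSpace Y] [MeasurableSpace Z] [MeasurableSpace W]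
    {f : X → Y → Z} (hf : Measurable fun p : X × Y => f p.1 p.2) {a : W → X} {b : W → Y}
    (ha : Measurable a) (hb : Measurable b) : Measurable fun w => f (a w) (b w) :=
  hf.comp (ha.prodMk hb)

theorem QMeas_sl {Z : Type} [MeasurableSpace Z] {f : X → Ph → Z}
    (hf : Measurable fun p : X × Ph => f p.1 p.2) {y : X → T3} (hy : Measurable y) :
    Measurable fun p : X × V => f p.1 (y p.1, p.2) :=
  QMeas_app hf measurable_fst ((hy.comp measurable_fst).prodMk measurable_snd)



theorem measurable_QE (n : ℝ) {f g : X → V → ℝ≥0∞} {v : X → V}
    (hf : Measurable (fun p : X × V => f p.1 p.2)) (hg : Measurable (fun p : X × V => g p.1 p.2))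
    (hv : Measurable v) : Measurable (fun x => QE n (f x) (g x) (v x)) := by
  have a : Measurable fun p : (X × V) × S2 => v p.1.1 := hv.comp measurable_fst.fst
  have b : Measurable fun p : (X × V) × S2 => p.1.2 := measurable_fst.snd
  exact QMeas_lin2 ((measurable_Bn n a b measurable_snd).ennreal_ofReal.mul
    ((QMeas_app hf measurable_fst.fst (measurable_vp a b measurable_snd)).mul
      (QMeas_app hg measurable_fst.fst (measurable_wp a b measurable_snd))))

theorem measurable_Qe {f g : X → V → ℝ≥0∞} {v : X → V}
    (hf : Measurable (fun p : X × V => f p.1 p.2)) (hg : Measurable (fun p : X × V => g p.1 p.2))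
    (hv : Measurable v) : Measurable (fun x => Qe (f x) (g x) (v x)) := by
  have a : Measurable fun p : (X × V) × S2 => v p.1.1 := hv.comp measurable_fst.fst
  have b : Measurable fun p : (X × V) × S2 => p.1.2 := measurable_fst.snd
  exact QMeas_lin2 ((measurable_ca a b measurable_snd).abs.ennreal_ofReal.mul
    ((QMeas_app hf measurable_fst.fst (measurable_vp a b measurable_snd)).mul
      (QMeas_app hg measurable_fst.fst (measurable_wp a b measurable_snd))))

theorem measurable_QN (n : ℝ) {f g : X → V → ℝ} {v : X → V}
    (hf : Measurable (fun p : X × V => f p.1 p.2)) (hg : Measurable (fun p : X × V => g p.1 p.2))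
    (hv : Measurable v) : Measurable (fun x => QN n (f x) (g x) (v x)) := by
  have a : Measurable fun p : X × V × S2 => v p.1 := hv.comp measurable_fst
  have b : Measurable fun p : X × V × S2 => p.2.1 := measurable_snd.fst
  have c : Measurable fun p : X × V × S2 => p.2.2 := measurable_snd.snd
  exact (((measurable_Bn n a b c).mul
    ((QMeas_app hf measurable_fst (measurable_vp a b c)).mul
      (QMeas_app hg measurable_fst (measurable_wp a b c)))).stronglyMeasurable.integral_prod_right'
      (ν := volume.prod sig)).measurable

theorem measurable_nuN (n : ℝ) {g : X → V → ℝ} {v : X → V}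
    (hg : Measurable (fun p : X × V => g p.1 p.2))
    (hv : Measurable v) : Measurable (fun x => nuN n (g x) (v x)) := by
  have a : Measurable fun p : X × V × S2 => v p.1 := hv.comp measurable_fst
  have b : Measurable fun p : X × V × S2 => p.2.1 := measurable_snd.fst
  have c : Measurable fun p : X × V × S2 => p.2.2 := measurable_snd.snd
  exact (((measurable_Bn n a b c).mul
    (QMeas_app hg measurable_fst b)).stronglyMeasurable.integral_prod_right'
      (ν := volume.prod sig)).measurable

theorem measurable_Qp {f : X → V → ℝ} {v : X → V}
    (hf : Measurable (fun p : X × V => f p.1 p.2))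
    (hv : Measurable v) : Measurable (fun x => Qp (f x) (v x)) := by
  have a : Measurable fun p : (X × V) × S2 => v p.1.1 := hv.comp measurable_fst.fst
  have b : Measurable fun p : (X × V) × S2 => p.1.2 := measurable_fst.snd
  exact QMeas_lin2 (((measurable_ca a b measurable_snd).abs.mul
    (QMeas_app hf measurable_fst.fst (measurable_vp a b measurable_snd))).mul
      (QMeas_app hf measurable_fst.fst (measurable_wp a b measurable_snd))).ennreal_ofReal

theorem measurable_Qm {f : X → V → ℝ} {v : X → V}
    (hf : Measurable (fun p : X × V => f p.1 p.2))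
    (hv : Measurable v) : Measurable (fun x => Qm (f x) (v x)) := by
  have a : Measurable fun p : (X × V) × S2 => v p.1.1 := hv.comp measurable_fst.fst
  have b : Measurable fun p : (X × V) × S2 => p.1.2 := measurable_fst.snd
  exact QMeas_lin2 (((measurable_ca a b measurable_snd).abs.mul
    (QMeas_app hf measurable_fst.fst a)).mul (QMeas_app hf measurable_fst.fst b)).ennreal_ofReal

theorem measurable_jd : Measurable (fun p : ℝ × ℝ => jd p.1 p.2) := by
  unfold jd
  refine Measurable.ite (measurableSet_eq_fun measurable_fst measurable_snd) measurable_const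
    (Measurable.ite ?_ measurable_const ?_)
  · exact (measurableSet_eq_fun measurable_fst measurable_const).union
      (measurableSet_eq_fun measurable_snd measurable_const)
  · exact ((measurable_fst.sub measurable_snd).mul
      (measurable_fst.div measurable_snd).log).ennreal_ofReal

variable {f g F : X → Ph → ℝ} {z : X → Ph}

theorem measurable_gainN (n : ℝ) (hf : Measurable (fun p : X × Ph => f p.1 p.2))
    (hg : Measurable (fun p : X × Ph => g p.1 p.2)) (hz : Measurable z) :
    Measurable (fun x => gainN n (f x) (g x) (z x)) :=
  measurable_QN n (QMeas_sl hf hz.fst) (QMeas_sl hg hz.fst) hz.snd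

theorem measurable_rateN (n : ℝ) (hg : Measurable (fun p : X × Ph => g p.1 p.2))
    (hz : Measurable z) : Measurable (fun x => rateN n (g x) (z x)) :=
  measurable_nuN n (QMeas_sl hg hz.fst) hz.snd

theorem measurable_th (n : ℝ) (hF : Measurable (fun p : X × Ph => F p.1 p.2))
    (hz : Measurable z) : Measurable (fun x => th n (F x) (z x)) :=
  measurable_const.div (measurable_const.add ((QMeas_app hF measurable_id hz).div
    (measurable_const.mul (continuous_Mx.measurable.comp hz.snd))))

theorem measurable_reg (n : ℝ) (hF : Measurable (fun p : X × Ph => F p.1 p.2))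
    (hf : Measurable (fun p : X × Ph => f p.1 p.2)) (hz : Measurable z) :
    Measurable (fun x => reg n (F x) (f x) (z x)) :=
  (measurable_th n hF hz).mul (QMeas_app hf measurable_id hz)

theorem measurable_til (n : ℝ) (hF : Measurable (fun p : X × Ph => F p.1 p.2))
    (hz : Measurable z) : Measurable (fun x => til n (F x) (z x)) :=
  measurable_reg n hF hF hz

theorem measurable_lam (n : ℝ) (hF : Measurable (fun p : X × Ph => F p.1 p.2))
    (hz : Measurable z) : Measurable (fun x => lam n (F x) (z x)) :=
  (measurable_th n hF hz).mul (measurable_rateN n (g := fun x => til n (F x))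
    (measurable_til n (F := fun p : X × Ph => F p.1)
      (QMeas_app hF measurable_fst.fst measurable_snd) measurable_snd) hz)

theorem measurable_EN (n : ℝ) (hg : Measurable (fun p : X × Ph => g p.1 p.2))
    (hz : Measurable z) : Measurable (fun x => EN n (g x) (z x)) := by
  have a : Measurable fun p : (X × V) × S2 => (z p.1.1).2 := hz.snd.comp measurable_fst.fst
  have a' : Measurable fun p : (X × V) × S2 => (z p.1.1).1 := hz.fst.comp measurable_fst.fst
  have b : Measurable fun p : (X × V) × S2 => p.1.2 := measurable_fst.snd
  exact QMeas_lin2 ((measurable_Bn n a b measurable_snd).ennreal_ofReal.mul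
    (QMeas_app (f := jd) measurable_jd
      ((QMeas_app hg measurable_fst.fst (a'.prodMk (measurable_vp a b measurable_snd))).mul
        (QMeas_app hg measurable_fst.fst (a'.prodMk (measurable_wp a b measurable_snd))))
      ((QMeas_app hg measurable_fst.fst (hz.comp measurable_fst.fst)).mul
        (QMeas_app hg measurable_fst.fst (a'.prodMk b)))))

theorem measurable_QpF (hF : Measurable (fun p : X × Ph => F p.1 p.2))
    (hz : Measurable z) : Measurable (fun x => QpF (F x) (z x)) :=
  measurable_Qp (QMeas_sl hF hz.fst) hz.snd

theorem measurable_nuL (hF : Measurable (fun p : X × Ph => F p.1 p.2))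
    (hz : Measurable z) : Measurable (fun x => nuL (F x) (z x)) :=
  (((measurable_const.mul ((hz.snd.comp measurable_fst).sub measurable_snd).norm).mul
    (QMeas_sl hF hz.fst)).stronglyMeasurable.integral_prod_right' (ν := volume)).measurable

theorem measurable_rho {y : X → T3} (hF : Measurable (fun p : X × Ph => F p.1 p.2))
    (hy : Measurable y) : Measurable (fun x => rho (F x) (y x)) :=
  ((QMeas_sl hF hy).stronglyMeasurable.integral_prod_right' (ν := volume)).measurable

theorem measurable_Pd (δ : ℝ) {y : X → T3} {v w : X → V}
    (hF : Measurable (fun p : X × Ph => F p.1 p.2)) (hy : Measurable y) (hv : Measurable v)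
    (hw : Measurable w) : Measurable (fun x => Pd δ (F x) (y x) (v x) (w x)) :=
  ((QMeas_app hF measurable_id (hy.prodMk hv)).mul (QMeas_app hF measurable_id (hy.prodMk hw))).div
    (measurable_const.add (measurable_const.mul (measurable_rho hF hy)))

theorem measurable_DisN (n : ℝ) (hg : Measurable (fun p : X × Ph => g p.1 p.2)) :
    Measurable (fun x => DisN n (g x)) :=
  measurable_const.mul ((measurable_EN n (g := fun p : X × Ph => g p.1)
    (QMeas_app hg measurable_fst.fst measurable_snd) measurable_snd).lintegral_prod_right'
      (ν := volume))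

theorem measurable_Dis (hg : Measurable (fun p : X × Ph => g p.1 p.2)) :
    Measurable (fun x => Dis (g x)) := by
  have a : Measurable fun p : (((X × T3) × V) × V) × S2 => p.1.1.2 := measurable_fst.fst.snd
  have a' : Measurable fun p : (((X × T3) × V) × V) × S2 => p.1.1.1.2 :=
    measurable_fst.fst.fst.snd
  have b : Measurable fun p : (((X × T3) × V) × V) × S2 => p.1.2 := measurable_fst.snd
  have c : Measurable fun p : (((X × T3) × V) × V) × S2 => p.1.1.1.1 :=
    measurable_fst.fst.fst.fst
  have h := QMeas_lin2 (X := (X × T3) × V) (H := fun q w ω => ENNReal.ofReal |ca q.2 w ω| *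
    jd (g q.1.1 (q.1.2, vp q.2 w ω) * g q.1.1 (q.1.2, wp q.2 w ω))
      (g q.1.1 (q.1.2, q.2) * g q.1.1 (q.1.2, w)))
    ((measurable_ca a b measurable_snd).abs.ennreal_ofReal.mul
    (QMeas_app (f := jd) measurable_jd
      ((QMeas_app hg c (a'.prodMk (measurable_vp a b measurable_snd))).mul
        (QMeas_app hg c (a'.prodMk (measurable_wp a b measurable_snd))))
      ((QMeas_app hg c (a'.prodMk a)).mul (QMeas_app hg c (a'.prodMk b)))))
  exact measurable_const.mul
    ((h.lintegral_prod_right' (ν := volume)).lintegral_prod_right' (ν := volume))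

end Meas

end

end Vale.Agent.P140
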