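import Vale.Agent.P140.Rate0
import Vale.Agent.P140.CharAux

/-! Strong convergence of the collision frequency and of the integrating factors. -/

namespace Vale.Agent.P140

open MeasureTheory Set Filter Topology
open scoped ENNReal RealInnerProductSpace

noncomputable section

variable {F₀ : Ph → ℝ} {S : Seq F₀} {U : Ultrafilter ℕ} {F : ℝ → Ph → ℝ}

theorem Lam_nonneg {ν : ℝ → Ph → ℝ} (h0 : ∀ t z, 0 ≤ ν t z) {s t : ℝ} (hst : s ≤ t) (z : Ph) :
    0 ≤ Lam ν s t z :=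
  intervalIntegral.integral_nonneg hst fun _ _ => h0 _ _

theorem rate_exp_lip {a b : ℝ} (ha : 0 ≤ a) (hb : 0 ≤ b) :
    |Real.exp (-a) - Real.exp (-b)| ≤ |a - b| := by
  have key : ∀ a b : ℝ, 0 ≤ a → 0 ≤ b → Real.exp (-a) - Real.exp (-b) ≤ |a - b| := by
    intro a b ha hb
    have h1 : Real.exp (-b) = Real.exp (-a) * Real.exp (a - b) := by
      rw [← Real.exp_add]; ring_nf
    have h2 := Real.add_one_le_exp (a - b)
    have h3 : Real.exp (-a) ≤ 1 := Real.exp_le_one_iff.2 (by linarith)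
    have h4 := Real.exp_pos (-a)
    have h5 := neg_abs_le (a - b)
    have h6 := abs_nonneg (a - b)
    nlinarith
  rw [abs_le]
  constructor
  · have := key b a hb ha
    rw [abs_sub_comm] at this
    linarith
  · exact key a b ha hb

theorem rate_diff {l ν : ℝ → Ph → ℝ} (hl0 : ∀ t z, 0 ≤ l t z) (hν0 : ∀ t z, 0 ≤ ν t z) {s t : ℝ}
    (hs : s ∈ Icc 0 t) {z : Ph} (hl : IntervalIntegrable (fun τ => l τ (fl τ z)) volume 0 t)
    (hν : IntervalIntegrable (fun τ => ν τ (fl τ z)) volume 0 t) :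
    ‖Real.exp (-Lam l s t z) - Real.exp (-Lam ν s t z)‖ₑ ≤
      ∫⁻ τ in Ioc 0 t, ‖l τ (fl τ z) - ν τ (fl τ z)‖ₑ := by
  have hsub : uIcc s t ⊆ uIcc 0 t := by
    rw [uIcc_of_le hs.2, uIcc_of_le (hs.1.trans hs.2)]
    exact Icc_subset_Icc_left hs.1
  refine le_trans ?_ (lintegral_mono_set (Ioc_subset_Ioc_left hs.1))
  refine le_trans ?_ (enorm_integral_le_lintegral_enorm _)
  rw [← intervalIntegral.integral_of_le hs.2,
    intervalIntegral.integral_sub (hl.mono_set hsub) (hν.mono_set hsub),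
    Real.enorm_eq_ofReal_abs, Real.enorm_eq_ofReal_abs]
  exact ENNReal.ofReal_le_ofReal
    (rate_exp_lip (Lam_nonneg hl0 hs.2 z) (Lam_nonneg hν0 hs.2 z))

theorem rate_W (h : Lim S U F) (t R : ℝ) : Tendsto (fun k => ∫⁻ z in {z : Ph | ‖z.2‖ ≤ R},
    ∫⁻ τ in Ioc 0 t, ‖lam (S.n k) (S.F k τ) (fl τ z) - nuL (F τ) (fl τ z)‖ₑ) (U : Filter ℕ)
    (𝓝 0) :=
  tendsto_of_tendsto_of_tendsto_of_le_of_le tendsto_const_nhds (h.lam_L1 t R)
    (fun _ => zero_le) fun k => sub_swap_set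
      ((sub_meas_lam _ (S.appr k).meas).sub (sub_meas_nuL h.meas)).enorm t
      (measurableSet_le measurable_snd.norm measurable_const) fun _ hz => hz

theorem rate_l0 (S : Seq F₀) (k : ℕ) (s : ℝ) (z : Ph) : 0 ≤ lam (S.n k) (S.F k s) z :=
  lam_nonneg (S.pos k) ((S.appr k).nonneg s)

theorem rate_ae (h : Lim S U F) {t : ℝ} (ht : 0 ≤ t) : ∀ᵐ z : Ph, ∀ k, ∀ s ∈ Icc 0 t,
    ‖Real.exp (-Lam (fun τ => lam (S.n k) (S.F k τ)) s t z) -
      Real.exp (-Lam (fun τ => nuL (F τ)) s t z)‖ₑ ≤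
      ∫⁻ τ in Ioc 0 t, ‖lam (S.n k) (S.F k τ) (fl τ z) - nuL (F τ) (fl τ z)‖ₑ := by
  filter_upwards [h.ae_nuL_int ht] with z hz k s hs
  exact rate_diff (l := fun τ => lam (S.n k) (S.F k τ)) (ν := fun τ => nuL (F τ)) (rate_l0 S k)
    (fun τ => nuL_nonneg (h.nonneg τ)) hs ((S.appr k).lam_int (S.pos k) 0 t z) hz

theorem rate_exp_le {ν : ℝ → Ph → ℝ} (h0 : ∀ t z, 0 ≤ ν t z) {s t : ℝ} (hst : s ≤ t) (z : Ph) :
    Real.exp (-Lam ν s t z) ≤ 1 :=
  Real.exp_le_one_iff.2 (neg_nonpos.2 (Lam_nonneg h0 hst z))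

theorem rate_meas0 {ν : ℝ → Ph → ℝ} (hν : Measurable (fun p : ℝ × Ph => ν p.1 p.2)) (s t : ℝ) :
    Measurable fun z : Ph => Real.exp (-Lam ν s t z) :=
  (sub_meas_exp hν t).comp (f := fun z : Ph => (s, z)) measurable_prodMk_left

theorem rate_measST {ν : ℝ → Ph → ℝ} (hν : Measurable (fun p : ℝ × Ph => ν p.1 p.2)) (t : ℝ) :
    Measurable fun p : ℝ × Ph => min 1 (Real.exp (-Lam ν p.1 t (fl (-p.1) p.2))) :=
  measurable_const.min ((sub_meas_exp hν t).comp (measurable_fst.prodMk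
    (measurable_fl.comp (measurable_fst.neg.prodMk measurable_snd))))

theorem Lim.exp0 (h : Lim S U F) {t : ℝ} (ht : 0 ≤ t) : LocConv volume (U : Filter ℕ)
    (fun k z => Real.exp (-Lam (fun τ => lam (S.n k) (S.F k τ)) 0 t z))
    (fun z => Real.exp (-Lam (fun τ => nuL (F τ)) 0 t z)) := by
  refine locConv_of_exhaust (S := fun m : ℕ => {z : Ph | ‖z.2‖ ≤ m})
    (fun m => measurableSet_le measurable_snd.norm measurable_const)
    (fun m m' hm z hz => le_trans (a := ‖z.2‖) hz (Nat.cast_le.2 hm))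
    (ae_of_all _ fun z => exists_nat_ge ‖z.2‖)
    (fun k => rate_meas0 (ν := fun τ => lam (S.n k) (S.F k τ)) (sub_meas_lam _ (S.appr k).meas) 0 t)
    (rate_meas0 (ν := fun τ => nuL (F τ)) (sub_meas_nuL h.meas) 0 t) (C := 1)
    (fun k z => ?_) (fun z => ?_) fun m => ?_
  · rw [abs_of_pos (Real.exp_pos _)]
    exact rate_exp_le (rate_l0 S k) ht z
  · rw [abs_of_pos (Real.exp_pos _)]
    exact rate_exp_le (fun τ => nuL_nonneg (h.nonneg τ)) ht z
  · refine tendsto_of_tendsto_of_tendsto_of_le_of_le tendsto_const_nhds (rate_W h t m)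
      (fun _ => zero_le) fun k => lintegral_mono_ae (ae_restrict_of_ae ?_)
    filter_upwards [rate_ae h ht] with z hz using hz k 0 ⟨le_rfl, ht⟩

/-- The integrating factor, truncated at one so that it is bounded for every time. -/
theorem Lim.expST (h : Lim S U F) {t : ℝ} (ht : 0 ≤ t) : LocConv (mu3 t) (U : Filter ℕ)
    (fun k p => min 1 (Real.exp (-Lam (fun τ => lam (S.n k) (S.F k τ)) p.1 t (fl (-p.1) p.2))))
    (fun p => min 1 (Real.exp (-Lam (fun τ => nuL (F τ)) p.1 t (fl (-p.1) p.2)))) := by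
  have m1 := fun k => rate_measST (ν := fun τ => lam (S.n k) (S.F k τ))
    (sub_meas_lam _ (S.appr k).meas) t
  have m2 := rate_measST (ν := fun τ => nuL (F τ)) (sub_meas_nuL h.meas) t
  have hb : ∀ x : ℝ, |min 1 (Real.exp x)| ≤ 1 := fun x => by
    rw [abs_of_nonneg (le_min zero_le_one (Real.exp_pos _).le)]
    exact min_le_left _ _
  have hS : ∀ m : ℕ, MeasurableSet {p : ℝ × Ph | ‖p.2.2‖ ≤ m} := fun m =>
    measurableSet_le measurable_snd.snd.norm measurable_const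
  have hS' : ∀ m : ℕ, MeasurableSet {z : Ph | ‖z.2‖ ≤ m} := fun m =>
    measurableSet_le measurable_snd.norm measurable_const
  refine locConv_of_exhaust (S := fun m : ℕ => {p : ℝ × Ph | ‖p.2.2‖ ≤ m}) hS
    (fun m m' hm z hz => le_trans (a := ‖z.2.2‖) hz (Nat.cast_le.2 hm))
    (ae_of_all _ fun z => exists_nat_ge ‖z.2.2‖) m1 m2 (C := 1) (fun k z => hb _) (fun z => hb _) fun m => ?_
  have t1 := ENNReal.Tendsto.const_mul (a := ENNReal.ofReal t) (rate_W h t m)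
    (Or.inr ENNReal.ofReal_ne_top)
  rw [mul_zero] at t1
  refine tendsto_of_tendsto_of_tendsto_of_le_of_le tendsto_const_nhds t1
    (fun _ => zero_le) fun k => ?_
  simp only
  have m3 : Measurable fun p : ℝ × Ph =>
      ‖min 1 (Real.exp (-Lam (fun τ => lam (S.n k) (S.F k τ)) p.1 t (fl (-p.1) p.2))) -
        min 1 (Real.exp (-Lam (fun τ => nuL (F τ)) p.1 t (fl (-p.1) p.2)))‖ₑ :=
    ((m1 k).sub m2).enorm
  rw [← lintegral_indicator (hS m), ← sub_swap (m3.indicator (hS m)),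
    ← lintegral_const_mul' _ _ ENNReal.ofReal_ne_top, ← lintegral_indicator (hS' m)]
  refine lintegral_mono_ae ?_
  filter_upwards [rate_ae h ht] with z hz
  by_cases hm : z ∈ {z : Ph | ‖z.2‖ ≤ m}
  · rw [indicator_of_mem hm]
    refine (setLIntegral_mono' measurableSet_Ioc fun τ hτ => (indicator_le_self _ _ _).trans
      (le_trans ?_ (hz k τ ⟨hτ.1.le, hτ.2⟩))).trans_eq ?_
    · simp only [fl_neg_fl]
      rw [min_eq_right (rate_exp_le (rate_l0 S k) hτ.2 z),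
        min_eq_right (rate_exp_le (fun τ => nuL_nonneg (h.nonneg τ)) hτ.2 z)]
    · rw [setLIntegral_const, Real.volume_Ioc, sub_zero, mul_comm]
  · rw [indicator_of_notMem hm]
    refine le_of_eq ((lintegral_congr fun τ => ?_).trans lintegral_zero)
    exact indicator_of_notMem (show (τ, fl τ z) ∉ {p : ℝ × Ph | ‖p.2.2‖ ≤ m} from hm) _

theorem rate_tendsto {α ι : Type} [MeasurableSpace α] {μ : Measure α} {l : Filter ι}
    {u : ι → α → ℝ} {u₀ : α → ℝ} {d : ι → α → ℝ≥0∞} (hd : ∀ i, Measurable (d i))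
    (h1 : ∀ i x, ‖u i x - u₀ x‖ₑ ≤ d i x) (h : Tendsto (fun i => ∫⁻ x, d i x ∂μ) l (𝓝 0)) :
    Tendsto (fun i => ∫⁻ x, ENNReal.ofReal (u i x) ∂μ) l (𝓝 (∫⁻ x, ENNReal.ofReal (u₀ x) ∂μ)) := by
  have t1 := ENNReal.Tendsto.sub
    (tendsto_const_nhds (x := ∫⁻ x, ENNReal.ofReal (u₀ x) ∂μ)) h (Or.inr ENNReal.zero_ne_top)
  have t2 := (tendsto_const_nhds (x := ∫⁻ x, ENNReal.ofReal (u₀ x) ∂μ)).add h
  rw [tsub_zero] at t1
  rw [add_zero] at t2
  have key : ∀ a b : ℝ, ENNReal.ofReal a ≤ ENNReal.ofReal b + ‖a - b‖ₑ := fun a b =>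
    le_trans (by rw [add_sub_cancel]) (ENNReal.ofReal_add_le.trans
      (add_le_add le_rfl (Real.ofReal_le_enorm (a - b))))
  refine tendsto_of_tendsto_of_tendsto_of_le_of_le t1 t2 (fun i => ?_) fun i => ?_
  · rw [tsub_le_iff_right, ← lintegral_add_right _ (hd i)]
    exact lintegral_mono fun x => (key _ _).trans
      (add_le_add le_rfl ((enorm_sub_rev _ _).trans_le (h1 i x)))
  · rw [← lintegral_add_right _ (hd i)]
    exact lintegral_mono fun x => (key _ _).trans (add_le_add le_rfl (h1 i x))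

theorem Lim.init_exp (h : Lim S U F) {t : ℝ} (ht : 0 ≤ t) {A : Set Ph} (hA : MeasurableSet A) :
    Tendsto (fun k => ∫⁻ z in A, ENNReal.ofReal
        (S.F k 0 z * Real.exp (-Lam (fun τ => lam (S.n k) (S.F k τ)) 0 t z)))
      (U : Filter ℕ)
      (𝓝 (∫⁻ z in A, ENNReal.ofReal (F₀ z * Real.exp (-Lam (fun τ => nuL (F τ)) 0 t z)))) := by
  have _ := hA
  have m0 := S.datum.meas
  have m1 : ∀ k, Measurable fun z : Ph => ENNReal.ofReal (|S.F k 0 z - F₀ z| * (1 + ‖z.2‖ ^ 2)) :=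
    fun k => ((((S.appr k).meas_t 0).sub m0).abs.mul
      ((measurable_snd.norm.pow_const 2).const_add 1)).ennreal_ofReal
  have m2 : ∀ k, Measurable fun z : Ph => ‖Real.exp (-Lam (fun τ => lam (S.n k) (S.F k τ)) 0 t z) -
      Real.exp (-Lam (fun τ => nuL (F τ)) 0 t z)‖ₑ * ‖F₀ z‖ₑ := fun k =>
    ((rate_meas0 (ν := fun τ => lam (S.n k) (S.F k τ)) (sub_meas_lam _ (S.appr k).meas) 0 t).sub
      (rate_meas0 (ν := fun τ => nuL (F τ)) (sub_meas_nuL h.meas) 0 t)).enorm.mul m0.enorm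
  have t1 := (S.conv.mono_left h.le).add (h.exp0 ht F₀ m0 S.datum.integrable)
  rw [add_zero] at t1
  refine rate_tendsto (fun k => (m1 k).add (m2 k)) (fun k z => ?_)
    (tendsto_of_tendsto_of_tendsto_of_le_of_le tendsto_const_nhds t1 (fun _ => zero_le)
      fun k => (setLIntegral_le_lintegral _ _).trans_eq (lintegral_add_left (m1 k) _))
  have e : ∀ a b c d : ℝ, a * c - b * d = (a - b) * c + (c - d) * b := fun a b c d => by ring
  rw [e]
  refine (enorm_add_le _ _).trans (add_le_add ?_ (enorm_mul _ _).le)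
  rw [Real.enorm_eq_ofReal_abs, abs_mul, abs_of_pos (Real.exp_pos _)]
  refine ENNReal.ofReal_le_ofReal (mul_le_mul_of_nonneg_left ?_ (abs_nonneg _))
  linarith [rate_exp_le (ν := fun τ => lam (S.n k) (S.F k τ)) (rate_l0 S k) ht z,
    sq_nonneg ‖z.2‖]

theorem rate_sharp {G ψ : Ph → ℝ} (hG : Integrable G) (hG0 : ∀ z, 0 ≤ G z) (hψ : Measurable ψ)
    (h0 : ∀ z, 0 ≤ ψ z) {C : ℝ} (hC : ∀ z, ψ z ≤ C) (t : ℝ) :
    ∫⁻ z, ENNReal.ofReal (G (fl t z) * ψ z) = ENNReal.ofReal (∫ z, G z * ψ (fl (-t) z)) := by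
  rw [← integral_fl t fun z => G z * ψ (fl (-t) z)]
  simp only [fl_neg_fl]
  exact (ofReal_integral_eq_lintegral_ofReal (((integrable_fl t).2 hG).mul_bdd
    hψ.aestronglyMeasurable (c := C) (ae_of_all _ fun z => by
      rw [Real.norm_eq_abs, abs_of_nonneg (h0 z)]; exact hC z))
    (ae_of_all _ fun z => mul_nonneg (hG0 _) (h0 z))).symm

theorem Lim.sharp_tendsto (h : Lim S U F) {t : ℝ} (ht : 0 ≤ t) {ψ : Ph → ℝ} (hψ : Measurable ψ)
    (h0 : ∀ z, 0 ≤ ψ z) {C : ℝ} (hC : ∀ z, ψ z ≤ C) :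
    Tendsto (fun k => ∫⁻ z, ENNReal.ofReal (S.F k t (fl t z) * ψ z)) (U : Filter ℕ)
      (𝓝 (∫⁻ z, ENNReal.ofReal (F t (fl t z) * ψ z))) := by
  simp only [fun k => rate_sharp ((S.appr k).integrable ht) ((S.appr k).nonneg t) hψ h0 hC t,
    rate_sharp (h.int t ht) (h.nonneg t) hψ h0 hC t]
  exact ENNReal.tendsto_ofReal (h.weak t ht _ (hψ.comp (measurable_fl_right (-t)))
    ⟨C, fun z => by rw [abs_of_nonneg (h0 _)]; exact hC _⟩)

theorem Lim.meas_duh (h : Lim S U F) :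
    Measurable (fun p : ℝ × Ph => duh F₀ F p.1 p.2) := by
  have mL := measurable_Lam (ν := fun τ => nuL (F τ)) (sub_meas_nuL h.meas)
  have mQ : Measurable fun p : ℝ × Ph => QpF (F p.1) p.2 :=
    measurable_QpF (F := fun p : ℝ × Ph => F p.1) (sub_meas_lift h.meas) measurable_snd
  refine ((S.datum.meas.comp measurable_snd).mul
    (mL.comp (measurable_const.prodMk measurable_id)).neg.exp).ennreal_ofReal.add ?_
  have hS : MeasurableSet {q : (ℝ × Ph) × ℝ | 0 < q.2 ∧ q.2 ≤ q.1.1} :=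
    (measurableSet_lt measurable_const measurable_snd).inter
      (measurableSet_le measurable_snd measurable_fst.fst)
  have m1 : Measurable fun q : (ℝ × Ph) × ℝ => QpF (F q.2) (fl q.2 q.1.2) *
      ENNReal.ofReal (Real.exp (-Lam (fun τ => nuL (F τ)) q.2 q.1.1 q.1.2)) :=
    ((mQ.comp sub_meas_ST).comp (f := fun q : (ℝ × Ph) × ℝ => (q.2, q.1.2))
      (measurable_snd.prodMk measurable_fst.snd)).mul
      (mL.comp (f := fun q : (ℝ × Ph) × ℝ => (q.2, q.1))
        (measurable_snd.prodMk measurable_fst)).neg.exp.ennreal_ofReal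
  have m2 := Measurable.lintegral_prod_right' (ν := volume) (m1.indicator hS)
  simp only [← lintegral_indicator measurableSet_Ioc]
  exact m2

end

end Vale.Agent.P140
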