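import Vale.Agent.P140.Avg

/-! Strong convergence of the collision frequency and of the integrating factors. -/

namespace Vale.Agent.P140

open MeasureTheory Set Filter Topology
open scoped ENNReal RealInnerProductSpace

noncomputable section

theorem r0_assoc (T : ℝ) (H : ℝ × Ph → ℝ≥0∞) : ∫⁻ p, H p ∂(mu3 T)
    = ∫⁻ r : (ℝ × T3) × V, H (r.1.1, r.1.2, r.2) ∂((mu2 T).prod volume) :=
  ((measurePreserving_prodAssoc (muT T) (volume : Measure T3)
    (volume : Measure V)).lintegral_comp_emb MeasurableEquiv.prodAssoc.measurableEmbedding H).symm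

theorem r0_set (R : ℝ) : MeasurableSet {p : ℝ × Ph | ‖p.2.2‖ ≤ R} :=
  measurableSet_le measurable_snd.snd.norm measurable_const

theorem r0_ball (T R : ℝ) {H : ℝ × Ph → ℝ≥0∞} (hH : Measurable H) {c : ℝ≥0∞}
    (h : ∀ v : V, ‖v‖ ≤ R → ∫⁻ q : ℝ × T3, H (q.1, q.2, v) ∂(mu2 T) ≤ c) :
    ∫⁻ p in {p : ℝ × Ph | ‖p.2.2‖ ≤ R}, H p ∂(mu3 T)
      ≤ c * volume (Metric.closedBall (0 : V) R) := by
  rw [← lintegral_indicator (r0_set R), r0_assoc, lintegral_prod_symm _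
    ((hH.indicator (r0_set R)).fun_comp (by fun_prop)).aemeasurable, ← setLIntegral_const,
    ← lintegral_indicator measurableSet_closedBall]
  refine lintegral_mono fun v => ?_
  by_cases hv : ‖v‖ ≤ R
  · rw [indicator_of_mem (mem_closedBall_zero_iff.2 hv)]
    exact (lintegral_mono fun q => indicator_le_self _ _ _).trans (h v hv)
  · refine (lintegral_mono fun q => (indicator_of_notMem (by exact hv) _).le).trans ?_
    simp

theorem r0_mom {g : ℝ → Ph → ℝ} {C : ℝ} (hC0 : 0 ≤ C) (hC : ∀ t, 0 ≤ t →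
    ∫⁻ z : Ph, ENNReal.ofReal ((1 + ‖z.2‖ ^ 2) * g t z) ≤ ENNReal.ofReal C) (T : ℝ) :
    ∫⁻ p, ENNReal.ofReal ((1 + ‖p.2.2‖ ^ 2) * g p.1 p.2) ∂(mu3 T) ≤ ENNReal.ofReal (C * |T|) := by
  refine (lintegral_prod_le _).trans ((setLIntegral_mono' measurableSet_Ioc
    fun t ht => hC t ht.1.le).trans ?_)
  rw [setLIntegral_const, Real.volume_Ioc, ← ENNReal.ofReal_mul hC0, sub_zero]
  exact ENNReal.ofReal_le_ofReal (mul_le_mul_of_nonneg_left (le_abs_self T) hC0)

theorem r0_diff {g : ℝ → Ph → ℝ} (hm : Measurable fun p : ℝ × Ph => g p.1 p.2)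
    (h0 : ∀ t z, 0 ≤ g t z) {C : ℝ} (hC0 : 0 ≤ C) (hC : ∀ t, 0 ≤ t →
      ∫⁻ z : Ph, ENNReal.ofReal ((1 + ‖z.2‖ ^ 2) * g t z) ≤ ENNReal.ofReal C) (T : ℝ)
    {φ ψ : V → ℝ} (hφ : Measurable φ) (hψ : Measurable ψ) {B c : ℝ} (hc : 0 ≤ c)
    (hB : ∀ w, |φ w| ≤ B * (1 + ‖w‖ ^ 2)) (hd : ∀ w, |φ w - ψ w| ≤ c * (1 + ‖w‖ ^ 2)) :
    ∫⁻ q : ℝ × T3, ‖(∫ w, g q.1 (q.2, w) * φ w) - ∫ w, g q.1 (q.2, w) * ψ w‖ₑ ∂(mu2 T)
      ≤ ENNReal.ofReal (c * (C * |T|)) := by
  have h1 := r0_mom hC0 hC T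
  have hm' : Measurable fun r : (ℝ × T3) × V => g r.1.1 (r.1.2, r.2) :=
    hm.comp (f := fun r : (ℝ × T3) × V => (r.1.1, r.1.2, r.2)) (by fun_prop)
  have hW : Measurable fun r : (ℝ × T3) × V =>
      ENNReal.ofReal ((1 + ‖r.2‖ ^ 2) * g r.1.1 (r.1.2, r.2)) := by fun_prop
  rw [r0_assoc, lintegral_prod _ hW.aemeasurable] at h1
  rw [ENNReal.ofReal_mul hc]
  refine le_trans (lintegral_mono_ae ?_) ((lintegral_const_mul' _ _ ENNReal.ofReal_ne_top).trans_le
    (mul_le_mul_right h1 _))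
  filter_upwards [ae_lt_top hW.lintegral_prod_right' (h1.trans_lt ENNReal.ofReal_lt_top).ne]
    with q hq
  have hg : Measurable fun w => g q.1 (q.2, w) := hm'.comp measurable_prodMk_left
  have hi : Integrable fun w => (1 + ‖w‖ ^ 2) * g q.1 (q.2, w) :=
    ⟨(by fun_prop : Measurable _).aestronglyMeasurable, (hasFiniteIntegral_iff_ofReal
      (ae_of_all _ fun w => mul_nonneg (by positivity) (h0 _ _))).2 hq⟩
  have hb : ∀ {χ : V → ℝ} {D : ℝ}, (∀ w, |χ w| ≤ D * (1 + ‖w‖ ^ 2)) → ∀ w,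
      |g q.1 (q.2, w) * χ w| ≤ D * ((1 + ‖w‖ ^ 2) * g q.1 (q.2, w)) := fun {χ D} h w => by
    rw [abs_mul, abs_of_nonneg (h0 _ _)]
    nlinarith [mul_le_mul_of_nonneg_left (h w) (h0 q.1 (q.2, w))]
  have i1 : Integrable fun w => g q.1 (q.2, w) * φ w :=
    (hi.const_mul B).mono' (hg.mul hφ).aestronglyMeasurable (ae_of_all _ (hb hB))
  have i2 : Integrable fun w => g q.1 (q.2, w) * (φ w - ψ w) :=
    (hi.const_mul c).mono' (hg.mul (hφ.sub hψ)).aestronglyMeasurable (ae_of_all _ (hb hd))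
  have e : ∫ w, g q.1 (q.2, w) * ψ w
      = (∫ w, g q.1 (q.2, w) * φ w) - ∫ w, g q.1 (q.2, w) * (φ w - ψ w) := by
    rw [← integral_sub i1 i2]
    exact integral_congr_ae (ae_of_all _ fun w => by ring)
  rw [e, sub_sub_cancel, ← lintegral_const_mul' _ _ ENNReal.ofReal_ne_top]
  refine (enorm_integral_le_lintegral_enorm _).trans (lintegral_mono fun w => ?_)
  rw [← ENNReal.ofReal_mul hc]
  exact wk_enorm_le (hb hd w)

theorem r0_phi (v w : V) : |2 * Real.pi * ‖v - w‖| ≤ 2 * Real.pi * (1 + ‖v‖) * (1 + ‖w‖) := by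
  have hp := Real.pi_pos
  rw [abs_of_nonneg (by positivity), mul_assoc (2 * Real.pi)]
  gcongr
  nlinarith [norm_sub_le v w, mul_nonneg (norm_nonneg v) (norm_nonneg w)]

theorem r0_phi2 (v w : V) :
    |2 * Real.pi * ‖v - w‖| ≤ 2 * Real.pi * (1 + ‖v‖) * 2 * (1 + ‖w‖ ^ 2) := by
  have hp := Real.pi_pos
  rw [mul_assoc _ 2]
  exact (r0_phi v w).trans (mul_le_mul_of_nonneg_left (unif0_one _) (by positivity))

theorem r0_lip (v v' w : V) : |2 * Real.pi * ‖v - w‖ - 2 * Real.pi * ‖v' - w‖|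
    ≤ 2 * Real.pi * dist v v' * (1 + ‖w‖ ^ 2) := by
  have hp := Real.pi_pos
  rw [← mul_sub, abs_mul, abs_of_nonneg (by positivity)]
  refine le_trans ?_ (le_mul_of_one_le_right (by positivity) (le_add_of_nonneg_right (by positivity)))
  gcongr
  simpa only [← dist_eq_norm] using abs_dist_sub_le v v' w

theorem r0_trunc {v w : V} {R n : ℝ} (hv : ‖v‖ ≤ R) (hn : 2 * R ≤ n) (hn0 : 0 < n) :
    |2 * Real.pi * ‖v - w‖ - if ‖v - w‖ ≤ n then 2 * Real.pi * ‖v - w‖ else 0|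
      ≤ 8 * Real.pi / n * (1 + ‖w‖ ^ 2) := by
  have hp := Real.pi_pos
  split_ifs with h
  · rw [sub_self, abs_zero]
    positivity
  · have h1 := norm_sub_le v w
    have h2 : n < 2 * ‖w‖ := by linarith [not_le.1 h]
    have h3 : ‖v - w‖ ≤ 2 * ‖w‖ := by linarith
    rw [sub_zero, abs_of_nonneg (by positivity), div_mul_eq_mul_div, le_div_iff₀ hn0]
    have h4 : ‖v - w‖ * n ≤ 2 * ‖w‖ * (2 * ‖w‖) := by gcongr
    nlinarith

theorem r0_small {ι : Type} {l : Filter ι} {u : ι → ℝ≥0∞} {K : ℝ≥0∞} (hK : K ≠ ⊤)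
    (h : ∀ ε : ℝ, 0 < ε → ∀ᶠ i in l, u i ≤ ENNReal.ofReal ε * K) : Tendsto u l (𝓝 0) := by
  refine ENNReal.tendsto_nhds_zero.2 fun ε hε => ?_
  have h1 : Tendsto (fun η : ℝ => ENNReal.ofReal η * K) (𝓝[>] 0) (𝓝 0) := by
    have := ENNReal.Tendsto.mul_const (b := K) (ENNReal.continuous_ofReal.tendsto 0) (Or.inr hK)
    rw [ENNReal.ofReal_zero, zero_mul] at this
    exact this.mono_left nhdsWithin_le_nhds
  obtain ⟨η, h2, h3⟩ := ((h1.eventually_le_const hε).and self_mem_nhdsWithin).exists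
  exact (h η h3).mono fun i hi => hi.trans h2

variable {F₀ : Ph → ℝ} {S : Seq F₀} {U : Ultrafilter ℕ} {F : ℝ → Ph → ℝ}

theorem Lim.r0_nu (h : Lim S U F) : Measurable fun p : ℝ × Ph => nuL (F p.1) p.2 :=
  measurable_nuL (F := fun p : ℝ × Ph => F p.1)
    (h.meas.comp (measurable_fst.fst.prodMk measurable_snd)) measurable_snd

theorem Seq.r0_rate (S : Seq F₀) (k : ℕ) :
    Measurable fun p : ℝ × Ph => rateN (S.n k) (S.G k p.1) p.2 :=
  measurable_rateN (g := fun p : ℝ × Ph => S.G k p.1) _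
    ((S.measG k).comp (measurable_fst.fst.prodMk measurable_snd)) measurable_snd

theorem r0_avg {g : ℝ → Ph → ℝ} (hm : Measurable fun p : ℝ × Ph => g p.1 p.2) {φ : V → ℝ}
    (hφ : Measurable φ) : Measurable fun q : ℝ × T3 => ∫ w, g q.1 (q.2, w) * φ w :=
  (StronglyMeasurable.integral_prod_right' (f := fun r : (ℝ × T3) × V =>
    g r.1.1 (r.1.2, r.2) * φ r.2) ((hm.comp (f := fun r : (ℝ × T3) × V => (r.1.1, r.1.2, r.2))
      (by fun_prop)).mul (hφ.comp measurable_snd)).stronglyMeasurable).measurable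

theorem Lim.rate_L1 (h : Lim S U F) (T R : ℝ) :
    Tendsto (fun k => ∫⁻ p in {p : ℝ × Ph | ‖p.2.2‖ ≤ R},
      ‖rateN (S.n k) (S.G k p.1) p.2 - nuL (F p.1) p.2‖ₑ ∂(mu3 T)) (U : Filter ℕ) (𝓝 0) := by
  obtain ⟨C, hC, hm⟩ := S.mom
  obtain ⟨C', hC', hm'⟩ := h.mom
  have hp := Real.pi_pos
  have hG : ∀ k t, 0 ≤ t → ∫⁻ z : Ph, ENNReal.ofReal ((1 + ‖z.2‖ ^ 2) * S.G k t z)
      ≤ ENNReal.ofReal C := fun k t ht => le_trans (lintegral_mono fun z =>
    ENNReal.ofReal_le_ofReal (mul_le_mul_of_nonneg_left (S.G_le k t z) (by positivity))) (hm k t ht)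
  have hφ : ∀ v : V, Measurable fun w : V => 2 * Real.pi * ‖v - w‖ := fun v => by fun_prop
  set A : (ℝ → Ph → ℝ) → V → ℝ × T3 → ℝ := fun g v q =>
    ∫ w, g q.1 (q.2, w) * (2 * Real.pi * ‖v - w‖) with hA
  have hAG : ∀ k v, Measurable (A (S.G k) v) := fun k v => r0_avg (S.measG k) (hφ v)
  have hAF : ∀ v, Measurable (A F v) := fun v => r0_avg h.meas (hφ v)
  refine r0_small (K := volume (Metric.closedBall (0 : V) R)) measure_closedBall_lt_top.ne
    fun ε hε => ?_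
  have h1 := eventually_unif_of_lip' (l := (U : Filter ℕ)) (isCompact_closedBall (0 : V) R)
    (u := fun k v => ∫⁻ q, ‖A (S.G k) v q - A F v q‖ₑ ∂(mu2 T))
    (L := 2 * Real.pi * (C * |T|) + 2 * Real.pi * (C' * |T|)) (fun k v _ v' _ => ?_)
    (fun v _ => h.avg (hφ v) (r0_phi v) T) (half_pos hε)
  · filter_upwards [h1, h.le (S.n_tendsto.eventually_ge_atTop (2 * R)),
      h.le (S.n_tendsto.eventually_ge_atTop (16 * Real.pi * (C * |T|) / ε))] with k h1 h2 h3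
    have hn := S.pos k
    refine r0_ball T R ((S.r0_rate k).fun_sub h.r0_nu).enorm fun v hv => ?_
    have h4 := r0_diff (S.measG k) (S.G_nonneg k) hC (hG k) T (hφ v)
      (ψ := fun w => if ‖v - w‖ ≤ S.n k then 2 * Real.pi * ‖v - w‖ else 0)
      (Measurable.ite (measurableSet_le (by fun_prop) measurable_const) (hφ v) measurable_const)
      (by positivity) (r0_phi2 v) fun w => r0_trunc hv h2 hn
    calc _ ≤ ∫⁻ q, ‖A (S.G k) v q - A F v q‖ₑ + ‖A (S.G k) v q - ∫ w, S.G k q.1 (q.2, w) *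
            if ‖v - w‖ ≤ S.n k then 2 * Real.pi * ‖v - w‖ else 0‖ₑ ∂(mu2 T) := by
          refine lintegral_mono fun q => ?_
          have e1 : rateN (S.n k) (S.G k q.1) (q.2, v) = ∫ w, S.G k q.1 (q.2, w) *
              if ‖v - w‖ ≤ S.n k then 2 * Real.pi * ‖v - w‖ else 0 :=
            (nuN_eq hn.le (S.bddG k q.1 q.2) v).trans
              (integral_congr_ae (ae_of_all _ fun w => mul_comm _ _))
          have e2 : nuL (F q.1) (q.2, v) = A F v q :=
            integral_congr_ae (ae_of_all _ fun w => mul_comm _ _)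
          simp only
          rw [e1, e2, add_comm, enorm_sub_rev (A (S.G k) v q), ← edist_eq_enorm_sub,
            ← edist_eq_enorm_sub, ← edist_eq_enorm_sub]
          exact edist_triangle _ _ _
      _ ≤ ENNReal.ofReal (ε / 2) + ENNReal.ofReal (8 * Real.pi / S.n k * (C * |T|)) := by
          rw [lintegral_add_left ((hAG k v).fun_sub (hAF v)).enorm]
          exact add_le_add (h1 v (mem_closedBall_zero_iff.2 hv)) h4
      _ ≤ _ := by
          rw [← ENNReal.ofReal_add (by positivity) (by positivity)]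
          refine ENNReal.ofReal_le_ofReal ?_
          rw [div_le_iff₀ hε] at h3
          have : 8 * Real.pi / S.n k * (C * |T|) ≤ ε / 2 := by
            rw [div_mul_eq_mul_div, div_le_iff₀ hn]
            linarith
          linarith
  · have h4 := r0_diff (S.measG k) (S.G_nonneg k) hC (hG k) T (hφ v) (hφ v') (by positivity)
      (r0_phi2 v) (r0_lip v v')
    have h5 := r0_diff h.meas h.nonneg hC' hm' T (hφ v) (hφ v') (by positivity)
      (r0_phi2 v) (r0_lip v v')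
    calc _ ≤ ∫⁻ q, ‖A (S.G k) v q - A (S.G k) v' q‖ₑ + (‖A F v q - A F v' q‖ₑ
            + ‖A (S.G k) v' q - A F v' q‖ₑ) ∂(mu2 T) := lintegral_mono fun q => unif_tri _ _ _ _
      _ ≤ _ := by
          rw [lintegral_add_left ((hAG k v).fun_sub (hAG k v')).enorm,
            lintegral_add_left ((hAF v).fun_sub (hAF v')).enorm, ← add_assoc, add_comm]
          refine add_le_add le_rfl ((add_le_add h4 h5).trans (le_of_eq ?_))
          rw [← ENNReal.ofReal_add (by positivity) (by positivity)]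
          congr 1
          ring

theorem r0_exhaust {T C : ℝ} {l : Filter ℕ} {a : ℕ → ℝ × Ph → ℝ} {a₀ : ℝ × Ph → ℝ}
    (ham : ∀ i, Measurable (a i)) (ham₀ : Measurable a₀)
    (hC : ∀ i x, |a i x| ≤ C) (hC₀ : ∀ x, |a₀ x| ≤ C)
    (h : ∀ m : ℕ, Tendsto (fun i => ∫⁻ p in {p : ℝ × Ph | ‖p.2.2‖ ≤ m}, ‖a i p - a₀ p‖ₑ ∂(mu3 T))
      l (𝓝 0)) : LocConv (mu3 T) l a a₀ :=
  locConv_of_exhaust (fun m => r0_set m)
    (fun _ _ hm p (hp : ‖p.2.2‖ ≤ _) => (hp.trans (Nat.cast_le.2 hm) : ‖p.2.2‖ ≤ _))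
    (ae_of_all _ fun p => exists_nat_ge ‖p.2.2‖) ham ham₀ hC hC₀ h

theorem Lim.r0_th (h : Lim S U F) (T : ℝ) : LocConv (mu3 T) (U : Filter ℕ)
    (fun k p => th (S.n k) (S.F k p.1) p.2) (fun _ => 1) := by
  obtain ⟨C, hC, hm⟩ := S.mom
  refine r0_exhaust (C := 1) (fun k => measurable_th (F := fun p : ℝ × Ph => S.F k p.1) _
    ((S.measF k).comp (measurable_fst.fst.prodMk measurable_snd)) measurable_snd) measurable_const
    (fun k p => abs_le.2 ⟨by linarith [th_pos (S.pos k) ((S.appr k).nonneg p.1 p.2)],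
      th_le_one (S.pos k) ((S.appr k).nonneg p.1 p.2)⟩) (fun _ => by simp) fun m => ?_
  refine r0_small (K := ENNReal.ofReal (C * |T|)) ENNReal.ofReal_ne_top fun ε hε => ?_
  filter_upwards [h.le (S.n_tendsto.eventually_ge_atTop (16 * Real.exp ((m : ℝ) ^ 2 / 2) / ε))]
    with k hk
  refine le_trans ?_ (mul_le_mul_right (r0_mom hC (hm k) T) _)
  rw [← lintegral_const_mul' _ _ ENNReal.ofReal_ne_top]
  refine (setLIntegral_mono' (r0_set m) fun p hp => ?_).trans (setLIntegral_le_lintegral _ _)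
  rw [← ENNReal.ofReal_mul hε.le]
  have hn := S.pos k
  have h0 := (S.appr k).nonneg p.1 p.2
  have hM := Mx_pos p.2.2
  refine wk_enorm_le ?_
  rw [abs_sub_comm, abs_of_nonneg (sub_nonneg.2 (th_le_one hn h0))]
  refine (one_sub_th_le hn h0).trans ?_
  have h1 : 1 ≤ 16 * Real.exp ((m : ℝ) ^ 2 / 2) * Mx p.2.2 := by
    have h2 : ‖p.2.2‖ ^ 2 ≤ (m : ℝ) ^ 2 := pow_le_pow_left₀ (norm_nonneg _) hp 2
    calc (1 : ℝ) ≤ Real.exp ((m : ℝ) ^ 2 / 2) * Real.exp (-‖p.2.2‖ ^ 2 / 2) := by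
          rw [← Real.exp_add]
          exact Real.one_le_exp (by linarith)
      _ ≤ Real.exp ((m : ℝ) ^ 2 / 2) * (16 * Mx p.2.2) := by gcongr; exact exp_le_Mx _
      _ = _ := by ring
  rw [div_le_iff₀ hε] at hk
  rw [div_le_iff₀ (by positivity)]
  have h3 : 1 ≤ S.n k * ε * Mx p.2.2 := h1.trans (by gcongr)
  calc S.F k p.1 p.2 ≤ 1 * S.F k p.1 p.2 * (S.n k * ε * Mx p.2.2) := by nlinarith
    _ ≤ (1 + ‖p.2.2‖ ^ 2) * S.F k p.1 p.2 * (S.n k * ε * Mx p.2.2) := by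
        gcongr
        exact le_add_of_nonneg_right (by positivity)
    _ = _ := by ring

theorem Lim.lam_L1 (h : Lim S U F) (T R : ℝ) :
    Tendsto (fun k => ∫⁻ p in {p : ℝ × Ph | ‖p.2.2‖ ≤ R},
      ‖lam (S.n k) (S.F k p.1) p.2 - nuL (F p.1) p.2‖ₑ ∂(mu3 T)) (U : Filter ℕ) (𝓝 0) := by
  have hi : Integrable ({p : ℝ × Ph | ‖p.2.2‖ ≤ R}.indicator fun p => nuL (F p.1) p.2) (mu3 T) :=
    (integrable_indicator_iff (r0_set R)).2 ⟨h.r0_nu.aestronglyMeasurable,
      (hasFiniteIntegral_iff_ofReal (ae_of_all _ fun p => nuL_nonneg (h.nonneg _) _)).2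
        (h.nuL_int T R)⟩
  have h1 := (h.rate_L1 T R).add (wk_loc (h.r0_th T) hi)
  rw [add_zero] at h1
  refine tendsto_of_tendsto_of_tendsto_of_le_of_le tendsto_const_nhds h1 (fun _ => zero_le)
    fun k => ?_
  refine le_trans ?_ (add_le_add le_rfl (setLIntegral_le_lintegral {p : ℝ × Ph | ‖p.2.2‖ ≤ R} _))
  rw [← lintegral_add_left ((S.r0_rate k).fun_sub h.r0_nu).enorm]
  refine setLIntegral_mono' (r0_set R) fun p hp => ?_
  have hn := S.pos k
  have h0 := (S.appr k).nonneg p.1 p.2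
  have e : lam (S.n k) (S.F k p.1) p.2 - nuL (F p.1) p.2 = th (S.n k) (S.F k p.1) p.2
      * (rateN (S.n k) (S.G k p.1) p.2 - nuL (F p.1) p.2)
      + (th (S.n k) (S.F k p.1) p.2 - 1) * nuL (F p.1) p.2 := by
    simp only [lam, Seq.G]
    ring
  rw [indicator_of_mem hp, e]
  refine (enorm_add_le _ _).trans (add_le_add ?_ (enorm_mul _ _).le)
  rw [enorm_mul]
  refine mul_le_of_le_one_left' ((wk_enorm_le (abs_le.2 ⟨by linarith [th_pos hn h0],
    th_le_one hn h0⟩)).trans ENNReal.ofReal_one.le)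

theorem Lim.rho_loc (h : Lim S U F) {δ : ℝ} (hδ : 0 < δ) (T : ℝ) : LocConv (mu3 T) (U : Filter ℕ)
    (fun k p => 1 / (1 + δ * rho (S.G k p.1) p.2.1))
    (fun p => 1 / (1 + δ * rho (F p.1) p.2.1)) := by
  have hG : ∀ k, Measurable fun p : ℝ × Ph => rho (S.G k p.1) p.2.1 := fun k =>
    measurable_rho (F := fun p : ℝ × Ph => S.G k p.1)
      ((S.measG k).comp (measurable_fst.fst.prodMk measurable_snd)) measurable_snd.fst
  have hF : Measurable fun p : ℝ × Ph => rho (F p.1) p.2.1 :=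
    measurable_rho (F := fun p : ℝ × Ph => F p.1)
      (h.meas.comp (measurable_fst.fst.prodMk measurable_snd)) measurable_snd.fst
  have hb : ∀ x : ℝ, 0 ≤ x → |1 / (1 + δ * x)| ≤ 1 := fun x hx => by
    rw [abs_of_nonneg (by positivity), div_le_one (by positivity)]
    exact le_add_of_nonneg_right (by positivity)
  have hGm : ∀ k, Measurable fun p : ℝ × Ph => 1 / (1 + δ * rho (S.G k p.1) p.2.1) := fun k => by
    have := hG k
    fun_prop
  have hFm : Measurable fun p : ℝ × Ph => 1 / (1 + δ * rho (F p.1) p.2.1) := by fun_prop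
  refine r0_exhaust (C := 1) hGm hFm (fun k p => hb _ (rho_nonneg (S.G_nonneg k _) _))
    (fun p => hb _ (rho_nonneg (h.nonneg _) _)) fun m => ?_
  have h1 := ENNReal.Tendsto.mul_const (b := volume (Metric.closedBall (0 : V) m))
    (ENNReal.Tendsto.const_mul (a := ENNReal.ofReal δ) (h.rho_L1 T) (Or.inr ENNReal.ofReal_ne_top))
    (Or.inr measure_closedBall_lt_top.ne)
  rw [mul_zero, zero_mul] at h1
  refine tendsto_of_tendsto_of_tendsto_of_le_of_le tendsto_const_nhds h1 (fun _ => zero_le)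
    fun k => r0_ball T m ((hGm k).fun_sub hFm).enorm fun v _ => ?_
  rw [← lintegral_const_mul' _ _ ENNReal.ofReal_ne_top]
  refine lintegral_mono fun q => ?_
  have ha := rho_nonneg (S.G_nonneg k q.1) q.2
  have hb := rho_nonneg (h.nonneg q.1) q.2
  simp only
  generalize rho (S.G k q.1) q.2 = x at ha
  generalize rho (F q.1) q.2 = y at hb
  rw [← ofReal_norm (x - y), ← ENNReal.ofReal_mul hδ.le]
  refine wk_enorm_le ?_
  have e : 1 / (1 + δ * x) - 1 / (1 + δ * y) = δ * (y - x) / ((1 + δ * x) * (1 + δ * y)) := by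
    field_simp
    ring
  rw [e, abs_div, abs_mul, abs_of_pos hδ, abs_sub_comm, Real.norm_eq_abs,
    abs_of_pos (a := (1 + δ * x) * (1 + δ * y)) (by positivity)]
  refine div_le_self (by positivity) (one_le_mul_of_one_le_of_one_le ?_ ?_) <;>
    exact le_add_of_nonneg_right (by positivity)

end

end Vale.Agent.P140
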