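import Vale.Agent.P140.Cold2
import Vale.Agent.P140.Path2

/-! Collision rates in the regime. -/

namespace Vale.Agent.P140

open MeasureTheory Set Filter Topology
open scoped ENNReal RealInnerProductSpace

noncomputable section

section General

variable {p : GP} {n t₀ : ℝ} {c h k : ℝ → Ph → ℝ}

theorem Sys.meas_rf (S : Sys n t₀ c h k) (p : GP) :
    Measurable (fun q : ℝ × Ph => rf p n c h k q.1 q.2) := by
  unfold rf
  have h1 : Measurable (fun q : ℝ × Ph => th n (tot c h k q.1) q.2) :=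
    measurable_th n (F := fun q : ℝ × Ph => tot c h k q.1)
      (S.meas_tot.comp (measurable_fst.fst.prodMk measurable_snd)) measurable_snd
  have h2 : Measurable (fun r : (ℝ × Ph) × V =>
      reg n (tot c h k r.1.1) (c r.1.1) (r.1.2.1, r.2)) :=
    QMeas_sl (f := fun (q : ℝ × Ph) (z : Ph) => reg n (tot c h k q.1) (c q.1) z)
      (S.sys_reg S.mc) measurable_snd.fst
  refine h1.mul (measurable_nuN n (g := fun (q : ℝ × Ph) (w : V) =>
    if p.ζ5 ≤ ‖q.2.2 - w‖ then reg n (tot c h k q.1) (c q.1) (q.2.1, w) else 0) ?_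
    measurable_snd.snd)
  exact Measurable.ite (measurableSet_le measurable_const
    (measurable_fst.snd.snd.sub measurable_snd).norm) h2 measurable_const

theorem Sys.meas_rf2 (S : Sys n t₀ c h k) (p : GP) :
    Measurable (fun q : ℝ × Ph => rf2 p n c h k q.1 q.2) := by
  unfold rf2
  exact Measurable.ite (measurableSet_le (measurable_snd.snd.norm.pow_const 2) measurable_const)
    (S.meas_rf p) measurable_const

theorem Sys.meas_rf1 (S : Sys n t₀ c h k) (p : GP) :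
    Measurable (fun q : ℝ × Ph => rf1 p n c h k q.1 q.2) := by
  unfold rf1
  have h1 : Measurable (fun q : ℝ × Ph => X q.2.1) := measurable_X.comp measurable_snd.fst
  exact Measurable.ite (measurableSet_le (h1.norm.div measurable_fst) measurable_const)
    (S.meas_rf2 p) measurable_const

theorem rates_bdd_ite {B : ℝ} {g : V → ℝ} (hg : BddV B g) {Q : V → Prop} [DecidablePred Q]
    (hQ : MeasurableSet {w | Q w}) : BddV B (fun w => if Q w then g w else 0) := by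
  refine ⟨Measurable.ite hQ hg.meas measurable_const, fun w => ?_⟩
  split_ifs
  · exact hg.le w
  · rw [abs_zero]
    exact mul_nonneg hg.nonneg (Mx_pos w).le

theorem Sys.rates_c_le (S : Sys n t₀ c h k) (t : ℝ) (z : Ph) : c t z ≤ tot c h k t z := by
  unfold tot
  linarith [S.h0 t z, S.k0 t z]

theorem Sys.rates_h_le (S : Sys n t₀ c h k) (t : ℝ) (z : Ph) : h t z ≤ tot c h k t z := by
  unfold tot
  linarith [S.c0 t z, S.k0 t z]

theorem Sys.rates_bc (hn : 0 < n) (S : Sys n t₀ c h k) (t : ℝ) (x : T3) :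
    BddV n (fun w => reg n (tot c h k t) (c t) (x, w)) :=
  S.sys_bdd hn S.mc S.c0 S.rates_c_le t x

theorem Sys.rates_bhk (hn : 0 < n) (S : Sys n t₀ c h k) (t : ℝ) (x : T3) :
    BddV (n + n)
      (fun w => reg n (tot c h k t) (h t) (x, w) + reg n (tot c h k t) (k t) (x, w)) :=
  (S.sys_bdd hn S.mh S.h0 S.rates_h_le t x).add (S.sys_bddk hn t x)

theorem Sys.rates_hk0 (hn : 0 < n) (S : Sys n t₀ c h k) (t : ℝ) (x : T3) (w : V) :
    0 ≤ reg n (tot c h k t) (h t) (x, w) + reg n (tot c h k t) (k t) (x, w) :=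
  add_nonneg (reg_nonneg hn (S.tot_nonneg t _) (S.h0 t _))
    (reg_nonneg hn (S.tot_nonneg t _) (S.k0 t _))

theorem Sys.rates_ite0 (hn : 0 < n) (S : Sys n t₀ c h k) (t : ℝ) (x : T3) (Q : V → Prop)
    [DecidablePred Q] (w : V) : 0 ≤ if Q w then reg n (tot c h k t) (c t) (x, w) else 0 := by
  split_ifs
  · exact reg_nonneg hn (S.tot_nonneg t _) (S.c0 t _)
  · exact le_rfl

theorem Sys.rates_ite_le (hn : 0 < n) (S : Sys n t₀ c h k) (t : ℝ) (x : T3) (Q : V → Prop)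
    [DecidablePred Q] (w : V) :
    (if Q w then reg n (tot c h k t) (c t) (x, w) else 0) ≤ c t (x, w) := by
  split_ifs
  · exact reg_le hn (S.tot_nonneg t _) (S.c0 t _)
  · exact S.c0 t _

theorem rates_mfast (a : ℝ) (v : V) : MeasurableSet {w : V | a ≤ ‖v - w‖} :=
  measurableSet_le measurable_const (measurable_const.sub measurable_id).norm

theorem Sys.rates_split (hn : 0 < n) (S : Sys n t₀ c h k) (t : ℝ) (z : Ph) :
    rateN n (til n (tot c h k t)) z = nuN n (fun w => reg n (tot c h k t) (c t) (z.1, w)) z.2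
      + nuN n (fun w => reg n (tot c h k t) (h t) (z.1, w)
        + reg n (tot c h k t) (k t) (z.1, w)) z.2 := by
  rw [← nuN_add hn.le (S.rates_bc hn t z.1) (S.rates_bhk hn t z.1)]
  unfold rateN
  refine congrArg (fun g => nuN n g z.2) (funext fun w => ?_)
  unfold sl til reg tot
  ring

theorem Sys.rates_split2 (hn : 0 < n) (S : Sys n t₀ c h k) (a t : ℝ) (z : Ph) :
    nuN n (fun w => reg n (tot c h k t) (c t) (z.1, w)) z.2
      = nuN n (fun w => if a ≤ ‖z.2 - w‖ then reg n (tot c h k t) (c t) (z.1, w) else 0) z.2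
      + nuN n (fun w => if ¬a ≤ ‖z.2 - w‖ then reg n (tot c h k t) (c t) (z.1, w) else 0) z.2 := by
  rw [← nuN_add hn.le (rates_bdd_ite (S.rates_bc hn t z.1) (rates_mfast a z.2))
    (rates_bdd_ite (Q := fun w => ¬a ≤ ‖z.2 - w‖) (S.rates_bc hn t z.1) (rates_mfast a z.2).compl)]
  refine congrArg (fun g => nuN n g z.2) (funext fun w => ?_)
  by_cases hw : a ≤ ‖z.2 - w‖
  · rw [if_pos hw, if_neg (not_not.mpr hw), add_zero]
  · rw [if_neg hw, if_pos hw, zero_add]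

theorem Sys.rates_diff (hn : 0 < n) (S : Sys n t₀ c h k) (p : GP) (t : ℝ) (z : Ph) :
    lam n (tot c h k t) z - rf p n c h k t z = th n (tot c h k t) z *
      (nuN n (fun w => if ¬p.ζ5 ≤ ‖z.2 - w‖ then reg n (tot c h k t) (c t) (z.1, w) else 0) z.2
        + nuN n (fun w => reg n (tot c h k t) (h t) (z.1, w)
          + reg n (tot c h k t) (k t) (z.1, w)) z.2) := by
  unfold lam rf
  rw [S.rates_split hn, S.rates_split2 hn p.ζ5]
  ring

theorem Sys.rf_nonneg (hn : 0 < n) (S : Sys n t₀ c h k) (p : GP) (t : ℝ) (z : Ph) :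
    0 ≤ rf p n c h k t z := by
  unfold rf
  exact mul_nonneg (th_pos hn (S.tot_nonneg t z)).le (nuN_nonneg (S.rates_ite0 hn t z.1 _) _)

theorem Sys.rf_le_lam (hn : 0 < n) (S : Sys n t₀ c h k) (p : GP) (t : ℝ) (z : Ph) :
    rf p n c h k t z ≤ lam n (tot c h k t) z := by
  rw [← sub_nonneg, S.rates_diff hn]
  exact mul_nonneg (th_pos hn (S.tot_nonneg t z)).le
    (add_nonneg (nuN_nonneg (S.rates_ite0 hn t z.1 _) _) (nuN_nonneg (S.rates_hk0 hn t z.1) _))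

theorem Reg.n_pos {μ e0 r1 Tf : ℝ} (h' : Reg p μ e0 r1 n t₀ Tf c h k) : 0 < n := by
  linarith [h'.n_ge, p.R_ge]

theorem Reg.t_le' {μ e0 r1 Tf : ℝ} (h' : Reg p μ e0 r1 n t₀ Tf c h k) : t₀ ≤ Tf / p.lw := by
  rw [le_div_iff₀ (by linarith [p.four_le_lw]), mul_comm]
  exact h'.t_le

theorem ForSmall.and {μ : ℝ} {Q Q' : ℝ → ℝ → ℝ → ℝ → ℝ → (ℝ → Ph → ℝ) → (ℝ → Ph → ℝ) →
    (ℝ → Ph → ℝ) → Prop} (h1 : ForSmall p μ Q) (h2 : ForSmall p μ Q') :
    ForSmall p μ (fun e0 r1 n t₀ Tf c h k => Q e0 r1 n t₀ Tf c h k ∧ Q' e0 r1 n t₀ Tf c h k) := by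
  obtain ⟨a, ha, h1⟩ := h1
  obtain ⟨b, hb, h2⟩ := h2
  exact ⟨min a b, lt_min ha hb, fun e0 r1 n t₀ Tf c h k he hT H =>
    ⟨h1 _ _ _ _ _ _ _ _ (he.trans (min_le_left _ _)) (hT.trans (min_le_left _ _)) H,
      h2 _ _ _ _ _ _ _ _ (he.trans (min_le_right _ _)) (hT.trans (min_le_right _ _)) H⟩⟩

theorem ForSmall.mono {μ : ℝ} {Q Q' : ℝ → ℝ → ℝ → ℝ → ℝ → (ℝ → Ph → ℝ) → (ℝ → Ph → ℝ) →
    (ℝ → Ph → ℝ) → Prop} (h1 : ForSmall p μ Q)
    (h2 : ∀ e0 r1 n t₀ Tf c h k, Reg p μ e0 r1 n t₀ Tf c h k → Q e0 r1 n t₀ Tf c h k →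
      Q' e0 r1 n t₀ Tf c h k) : ForSmall p μ Q' := by
  obtain ⟨a, ha, h1⟩ := h1
  exact ⟨a, ha, fun e0 r1 n t₀ Tf c h k he hT H =>
    h2 _ _ _ _ _ _ _ _ H (h1 _ _ _ _ _ _ _ _ he hT H)⟩

theorem forSmall_le (p : GP) (μ : ℝ) {a : ℝ} (ha : 0 < a) :
    ForSmall p μ (fun e0 _ _ _ Tf _ _ _ => e0 ≤ a ∧ Tf ≤ a) := by
  exact ⟨a, ha, fun _ _ _ _ _ _ _ _ he hT _ => ⟨he, hT⟩⟩

theorem rates_cold {μ e0 r1 Tf t D : ℝ} (H : Reg p μ e0 r1 n t₀ Tf c h k)
    (hP : (p.cp e0 r1).Ok) (hT : Tf ≤ 1 / 100) (ht : t ∈ Icc t₀ Tf) (x : T3) (v : V) {g : V → ℝ}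
    (hg : BddV n g) (g0 : ∀ w, 0 ≤ g w) (gle : ∀ w, g w ≤ c t (x, w)) (hD0 : 0 ≤ D)
    (hD : ∀ w, g w ≠ 0 → cf (p.cp e0 r1) t (x, w) ≠ 0 → ‖v - w‖ ≤ D) :
    nuN n g v ≤ if p.c * t < ‖X x‖ then 2 * Real.pi * D * 256 * p.K / ‖X x‖ else 0 := by
  have hn := H.n_pos
  have hK := p.K_pos
  have hd : ∫⁻ w, ENNReal.ofReal (cf (p.cp e0 r1) t (x, w))
      ≤ if p.c * t < ‖X x‖ then ENNReal.ofReal (256 * p.K / ‖X x‖) else 0 :=
    cf_dens hP (H.t_pos.trans_le ht.1) (ht.2.trans hT) x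
  have h1 : ENNReal.ofReal (nuN n g v) ≤ ENNReal.ofReal (2 * Real.pi * D) *
      ∫⁻ w, ENNReal.ofReal (cf (p.cp e0 r1) t (x, w)) := by
    refine (ofReal_nuN_le hn.le hg g0 v).trans ?_
    rw [← lintegral_const_mul' _ _ ENNReal.ofReal_ne_top]
    refine lintegral_mono fun w => ?_
    by_cases hw : g w = 0
    · simp [hw]
    have h2 : g w ≤ cf (p.cp e0 r1) t (x, w) :=
      (gle w).trans (H.sys.c_le_cf hn H.init ht.1 _)
    have h3 : cf (p.cp e0 r1) t (x, w) ≠ 0 :=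
      (lt_of_lt_of_le (lt_of_le_of_ne (g0 w) (Ne.symm hw)) h2).ne'
    exact mul_le_mul' (ENNReal.ofReal_le_ofReal (mul_le_mul_of_nonneg_left (hD w hw h3)
      (by positivity))) (ENNReal.ofReal_le_ofReal h2)
  have h4 := h1.trans (mul_le_mul' le_rfl hd)
  split_ifs at h4 ⊢ with hc
  · rw [← ENNReal.ofReal_mul (by positivity), ENNReal.ofReal_le_ofReal_iff (by positivity)] at h4
    exact h4.trans (le_of_eq (by ring))
  · rw [mul_zero, nonpos_iff_eq_zero, ENNReal.ofReal_eq_zero] at h4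
    exact h4

theorem rates_cold2 {μ e0 r1 Tf t : ℝ} (H : Reg p μ e0 r1 n t₀ Tf c h k)
    (hP : (p.cp e0 r1).Ok) (hT : Tf ≤ 1 / 100) (ht : t ∈ Icc t₀ Tf) (x : T3) (v : V) {g : V → ℝ}
    (hg : BddV n g) (g0 : ∀ w, 0 ≤ g w) (gle : ∀ w, g w ≤ c t (x, w)) :
    nuN n g v ≤ if p.c * t < ‖X x‖ then 2 * Real.pi * (‖v‖ + 2) * 256 * p.K / ‖X x‖ else 0 := by
  refine rates_cold H hP hT ht x v hg g0 gle (by positivity) fun w _ hw => ?_
  have h1 := (cf_supp hP (H.t_pos.trans_le ht.1) (ht.2.trans hT) hw).2.2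
  linarith [norm_sub_le v w]

theorem rates_hk {μ e0 r1 Tf t : ℝ} (hμ : 0 ≤ μ) (H : Reg p μ e0 r1 n t₀ Tf c h k)
    (ht : t ∈ Icc t₀ Tf) (z : Ph) :
    nuN n (fun w => reg n (tot c h k t) (h t) (z.1, w) + reg n (tot c h k t) (k t) (z.1, w))
      z.2 ≤ 2 * Real.pi * (1 + ‖z.2‖) * μ := by
  have hn := H.n_pos
  have S := H.sys
  rw [← ENNReal.ofReal_le_ofReal_iff (by positivity), ENNReal.ofReal_mul (by positivity)]
  refine (ofReal_nuN_le hn.le (S.rates_bhk hn t z.1) (S.rates_hk0 hn t z.1) z.2).trans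
    (le_trans ?_ (mul_le_mul' le_rfl (H.mom t ht z.1)))
  rw [← lintegral_const_mul' _ _ ENNReal.ofReal_ne_top]
  refine lintegral_mono fun w => ?_
  rw [← ENNReal.ofReal_mul (by positivity), ← ENNReal.ofReal_mul (by positivity)]
  refine ENNReal.ofReal_le_ofReal ?_
  have h1 : reg n (tot c h k t) (h t) (z.1, w) + reg n (tot c h k t) (k t) (z.1, w)
      ≤ h t (z.1, w) + k t (z.1, w) :=
    add_le_add (reg_le hn (S.tot_nonneg t _) (S.h0 t _)) (reg_le hn (S.tot_nonneg t _) (S.k0 t _))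
  have h2 : ‖z.2 - w‖ ≤ (1 + ‖z.2‖) * (1 + ‖w‖) ^ 5 := by
    have h3 : 1 + ‖w‖ ≤ (1 + ‖w‖) ^ 5 :=
      le_self_pow₀ (by linarith [norm_nonneg w]) (by norm_num)
    have h4 := norm_sub_le z.2 w
    have h5 := norm_nonneg z.2
    have h6 := norm_nonneg w
    nlinarith
  calc 2 * Real.pi * ‖z.2 - w‖ *
        (reg n (tot c h k t) (h t) (z.1, w) + reg n (tot c h k t) (k t) (z.1, w))
      ≤ 2 * Real.pi * ((1 + ‖z.2‖) * (1 + ‖w‖) ^ 5) * (h t (z.1, w) + k t (z.1, w)) :=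
        mul_le_mul (mul_le_mul_of_nonneg_left h2 (by positivity)) h1 (S.rates_hk0 hn t z.1 w)
          (by positivity)
    _ = _ := by ring

end General

variable (p : GP) {μ : ℝ}

theorem small_ok (μ : ℝ) : ForSmall p μ (fun e0 r1 _ _ Tf _ _ _ =>
    (p.cp e0 r1).Ok ∧ Tf ≤ 1 / 100 ∧ r1 ≤ 1) := by
  have hc := p.c_pos
  refine (forSmall_le p μ (a := min (1 / 100) (p.c / (p.M + 1))) (by positivity)).mono
    fun e0 r1 n t₀ Tf c h k H hs => ?_
  have he1 := hs.1.trans (min_le_left _ _)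
  have he2 := hs.1.trans (min_le_right _ _)
  have hT := hs.2.trans (min_le_left _ _)
  rw [le_div_iff₀ (by positivity)] at he2
  have he := H.e_pos
  refine ⟨⟨hc, p.c_le_half, p.K_pos, he, he1.trans (by norm_num), H.r_pos.le, ?_⟩, hT, ?_⟩
  · show (p.M : ℝ) * e0 ≤ p.c
    linarith
  · have h1 := H.r_le
    have h2 := H.t_le
    have h3 := p.four_le_lw
    have h4 := H.t_pos
    have h5 : p.σ' * p.c ≤ 1 := mul_le_one₀ p.σ'_le hc.le (by linarith [p.c_le_half])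
    nlinarith

/-- Collisions with labels one and two. -/
theorem small_hrate (hμ : 0 ≤ μ) : ForSmall p μ (fun _ _ n t₀ Tf c h k => ∀ t ∈ Icc t₀ Tf,
    ∀ z : Ph, nuN n (fun w => reg n (tot c h k t) (h t) (z.1, w) + reg n (tot c h k t) (k t) (z.1, w))
      z.2 ≤ 2 * Real.pi * (1 + ‖z.2‖) * μ) := by
  exact ⟨1, one_pos, fun _ _ _ _ _ _ _ _ _ _ H _ ht z => rates_hk hμ H ht z⟩

theorem small_lam_le (hμ : 0 ≤ μ) : ForSmall p μ (fun _ _ n t₀ Tf c h k => ∀ t ∈ Icc t₀ Tf,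
    ∀ z : Ph, lam n (tot c h k t) z
      ≤ (if p.c * t < ‖X z.1‖ then 2 * Real.pi * (‖z.2‖ + 2) * 256 * p.K / ‖X z.1‖ else 0)
        + 2 * Real.pi * (1 + ‖z.2‖) * μ) := by
  refine (small_ok p μ).mono fun e0 r1 n t₀ Tf c h k H hs t ht z => ?_
  have hn := H.n_pos
  have S := H.sys
  refine (lam_le_rate hn (S.tot_nonneg t)).trans ?_
  rw [S.rates_split hn]
  exact add_le_add (rates_cold2 H hs.1 hs.2.1 ht z.1 z.2 (S.rates_bc hn t z.1)
    (fun w => reg_nonneg hn (S.tot_nonneg t _) (S.c0 t _))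
    (fun w => reg_le hn (S.tot_nonneg t _) (S.c0 t _))) (rates_hk hμ H ht z)

theorem small_rf_le (μ : ℝ) : ForSmall p μ (fun _ _ n t₀ Tf c h k => ∀ t ∈ Icc t₀ Tf,
    ∀ z : Ph, rf p n c h k t z
      ≤ if p.c * t < ‖X z.1‖ then 2 * Real.pi * (‖z.2‖ + 2) * 256 * p.K / ‖X z.1‖ else 0) := by
  refine (small_ok p μ).mono fun e0 r1 n t₀ Tf c h k H hs t ht z => ?_
  have hn := H.n_pos
  have S := H.sys
  unfold rf
  refine (mul_le_of_le_one_left (nuN_nonneg (S.rates_ite0 hn t z.1 _) _)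
    (th_le_one hn (S.tot_nonneg t z))).trans ?_
  exact rates_cold2 H hs.1 hs.2.1 ht z.1 z.2
    (rates_bdd_ite (S.rates_bc hn t z.1) (rates_mfast p.ζ5 z.2))
    (S.rates_ite0 hn t z.1 _) (S.rates_ite_le hn t z.1 _)

theorem small_rf2_le (μ : ℝ) : ForSmall p μ (fun _ _ n t₀ Tf c h k => ∀ t ∈ Icc t₀ Tf,
    ∀ z : Ph, rf2 p n c h k t z ≤ p.Cr / t) := by
  refine (small_rf_le p μ).mono fun e0 r1 n t₀ Tf c h k H hs t ht z => ?_
  have ht0 : 0 < t := H.t_pos.trans_le ht.1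
  have hc := p.c_pos
  have hK := p.K_pos
  have hR : 0 < p.R := by linarith [p.R_ge]
  have h0 : 0 ≤ p.Cr / t := by
    unfold GP.Cr
    positivity
  unfold rf2
  split_ifs with hv
  · refine (hs t ht z).trans ?_
    split_ifs with hx
    · have h1 : ‖z.2‖ ≤ 2 * p.R := by
        refine (pow_le_pow_iff_left₀ (norm_nonneg _) (by positivity) two_ne_zero).mp ?_
        nlinarith
      unfold GP.Cr
      rw [div_div]
      refine div_le_div₀ (by positivity) ?_ (by positivity) hx.le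
      gcongr
    · exact h0
  · exact h0

theorem small_slow (hμ : 0 ≤ μ) : ForSmall p μ (fun _ _ n t₀ Tf c h k => ∀ t ∈ Icc t₀ Tf,
    ∀ z : Ph, lam n (tot c h k t) z - rf p n c h k t z
      ≤ (if p.c * t < ‖X z.1‖ then 1609 * p.ζ5 * (p.K / ‖X z.1‖) else 0)
        + 2 * Real.pi * (1 + ‖z.2‖) * μ) := by
  refine (small_ok p μ).mono fun e0 r1 n t₀ Tf c h k H hs t ht z => ?_
  have hn := H.n_pos
  have S := H.sys
  rw [S.rates_diff hn]
  refine (mul_le_of_le_one_left (add_nonneg (nuN_nonneg (S.rates_ite0 hn t z.1 _) _)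
    (nuN_nonneg (S.rates_hk0 hn t z.1) _)) (th_le_one hn (S.tot_nonneg t z))).trans ?_
  refine add_le_add ((rates_cold H hs.1 hs.2.1 ht z.1 z.2
    (rates_bdd_ite (Q := fun w => ¬p.ζ5 ≤ ‖z.2 - w‖) (S.rates_bc hn t z.1)
      (rates_mfast p.ζ5 z.2).compl)
    (S.rates_ite0 hn t z.1 _) (S.rates_ite_le hn t z.1 _) p.ζ5_pos.le fun w hw _ => ?_).trans ?_)
    (rates_hk hμ H ht z)
  · by_contra h1
    exact hw (if_neg (not_not.mpr (not_le.mp h1).le))
  · split_ifs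
    · have h1 : 0 ≤ p.ζ5 * (p.K / ‖X z.1‖) := by
        have := p.ζ5_pos
        have := p.K_pos
        positivity
      have h2 : 2 * Real.pi * 256 ≤ 1609 := by linarith [Real.pi_lt_d4]
      refine le_trans (le_of_eq ?_) ((mul_le_mul_of_nonneg_right h2 h1).trans (le_of_eq ?_))
      · ring
      · ring
    · exact le_rfl

theorem rates_self {e0 r1 n t₀ Tf t σ : ℝ} {c h k : ℝ → Ph → ℝ} (hμ : 0 ≤ μ)
    (H : Reg p μ e0 r1 n t₀ Tf c h k) (hP : (p.cp e0 r1).Ok) (hT : Tf ≤ 1 / 100)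
    (ht : t ∈ Icc t₀ Tf) (hσ : σ = 1 ∨ σ = -1) {x : T3} {v : V}
    (h1 : cf1 (p.cp e0 r1) σ t (x, v) ≠ 0) :
    lam n (tot c h k t) (x, v) ≤ 1024 * p.K + 24 * μ := by
  have hn := H.n_pos
  have S := H.sys
  have ht0 : 0 < t := H.t_pos.trans_le ht.1
  have ht1 : t ≤ 1 / 100 := ht.2.trans hT
  have hK := p.K_pos
  have he := H.e_pos
  have he1 : e0 ≤ 1 := hP.e_le
  obtain ⟨a1, a2, -, a4, a5, -, -, -, a9, a10⟩ := cf1_supp hP hσ ht0 ht1 h1
  have b1 : p.c * t < ‖X x‖ := a1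
  have b4 : epsf (p.cp e0 r1).c (p.cp e0 r1).e0 t x = e0 * (‖X x‖ - p.c * t) ^ 2 := a4
  have hct : 0 < p.c * t := mul_pos p.c_pos ht0
  have hr : 0 < ‖X x‖ := hct.trans b1
  have b5 : epsf (p.cp e0 r1).c (p.cp e0 r1).e0 t x ≤ ‖X x‖ ^ 2 := by
    have h2 : (‖X x‖ - p.c * t) ^ 2 ≤ ‖X x‖ ^ 2 := pow_le_pow_left₀ (by linarith) (by linarith) 2
    rw [b4]
    exact (mul_le_of_le_one_left (sq_nonneg _) he1).trans h2
  obtain ⟨σ', hσ', c1, c2⟩ := cf_one hP ht0 ht1 x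
  have hσσ : σ' = σ := by
    by_contra hne
    have h3 : σ' = -σ := by
      rcases hσ with rfl | rfl <;> rcases hσ' with rfl | rfl <;> simp at hne ⊢
    rw [h3, sec_neg] at c1
    linarith
  subst hσσ
  refine (lam_le_rate hn (S.tot_nonneg t)).trans ?_
  rw [S.rates_split hn]
  refine add_le_add ((rates_cold H hP hT ht x v (S.rates_bc hn t x)
    (fun w => reg_nonneg hn (S.tot_nonneg t _) (S.c0 t _))
    (fun w => reg_le hn (S.tot_nonneg t _) (S.c0 t _)) (D := 8 * ‖X x‖ ^ 2) (by positivity)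
    fun w _ hw => ?_).trans ?_) ((rates_hk hμ H ht (x, v)).trans ?_)
  · rw [c2] at hw
    have d5 := (cf1_supp hP hσ ht0 ht1 hw).2.2.2.2.1
    have d6 := norm_sub_le_norm_sub_add_norm_sub v (Uf (p.cp e0 r1).c σ' t x) w
    rw [norm_sub_rev (Uf (p.cp e0 r1).c σ' t x) w] at d6
    linarith
  · rw [if_pos b1, div_le_iff₀ hr]
    have h4 : Real.pi * ‖X x‖ ≤ 4 * (1 / 16) :=
      mul_le_mul Real.pi_le_four a2 hr.le (by norm_num)
    have h5 : 0 ≤ p.K * ‖X x‖ := by positivity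
    nlinarith [mul_le_mul_of_nonneg_right h4 h5]
  · have h4 : Real.pi * (1 + ‖v‖) ≤ 4 * 3 :=
      mul_le_mul Real.pi_le_four (by linarith) (by positivity) (by norm_num)
    show 2 * Real.pi * (1 + ‖v‖) * μ ≤ 24 * μ
    nlinarith [mul_le_mul_of_nonneg_right h4 hμ]

/-- The cold label is hardly depleted. -/
theorem small_c_low (hμ : 0 ≤ μ) : ForSmall p μ (fun e0 r1 _ t₀ Tf c _ _ => ∀ t ∈ Icc t₀ Tf,
    ∀ z : Ph, 99 / 100 * cf (p.cp e0 r1) t z ≤ c t z) := by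
  have hK := p.K_pos
  refine ((small_ok p μ).and (forSmall_le p μ (a := 1 / (100 * (1024 * p.K + 24 * μ)))
    (by positivity))).mono fun e0 r1 n t₀ Tf c h k H hs t ht z => ?_
  have hn := H.n_pos
  have S := H.sys
  obtain ⟨⟨hP, hT, -⟩, -, hT2⟩ := hs
  obtain ⟨y, rfl⟩ : ∃ y, z = fl t y :=
    ⟨fl (-t) z, by rw [fl_add, add_neg_cancel, fl_zero]⟩
  rw [S.c_eq hn ht.1, H.init, cf_fl, cf_fl, mul_comm]
  by_cases h0 : cold (p.cp e0 r1) y = 0
  · rw [h0, zero_mul, zero_mul]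
  refine mul_le_mul_of_nonneg_left ?_ (cold_nonneg hP y)
  obtain ⟨σ, hσ, h1⟩ : ∃ σ : ℝ, (σ = 1 ∨ σ = -1) ∧ cold1 (p.cp e0 r1) σ y ≠ 0 := by
    by_cases h2 : cold1 (p.cp e0 r1) 1 y = 0
    · refine ⟨-1, Or.inr rfl, fun h3 => h0 ?_⟩
      unfold cold
      rw [h2, h3, add_zero]
    · exact ⟨1, Or.inl rfl, h2⟩
  have h4 : Lam (fun τ => lam n (tot c h k τ)) t₀ t y ≤ ∫ _s in t₀..t, (1024 * p.K + 24 * μ) :=
    intervalIntegral.integral_mono_on ht.1 (S.lam_int hn t₀ t y) intervalIntegrable_const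
      fun s hs => rates_self p hμ H hP hT ⟨hs.1, hs.2.trans ht.2⟩ hσ
        (x := (fl s y).1) (v := (fl s y).2) (by rw [← cf1_fl _ σ s y] at h1; exact h1)
  rw [intervalIntegral.integral_const, smul_eq_mul] at h4
  rw [le_div_iff₀ (by positivity)] at hT2
  have h5 : (t - t₀) * (1024 * p.K + 24 * μ) ≤ Tf * (1024 * p.K + 24 * μ) :=
    mul_le_mul_of_nonneg_right (by linarith [H.t_pos, ht.2]) (by positivity)
  have h6 := Real.add_one_le_exp (-Lam (fun τ => lam n (tot c h k τ)) t₀ t y)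
  linarith

/-- Lower bound for the fast rate in the core of a stream. -/
theorem small_rf_low (hμ : 0 ≤ μ) : ForSmall p μ (fun e0 r1 n t₀ Tf c h k => ∀ t ∈ Icc t₀ Tf,
    ∀ (x : T3) (v : V) (σ : ℝ), (σ = 1 ∨ σ = -1) → p.c * (1 + p.σ') * t ≤ ‖X x‖ →
      ‖X x‖ ≤ 1 / 40 → 1 / 5 ≤ sec p.M σ (X x) → 1 ≤ |v 2 - σ| → ‖v‖ ≤ 2 * p.R →
      e0 * r1 ^ 2 / 4 ≤ ‖tp v - uf p.c t x‖ → p.K / (200 * ‖X x‖) ≤ rf p n c h k t (x, v)) := by
  refine ((small_ok p μ).and (small_c_low p hμ)).mono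
    fun e0 r1 n t₀ Tf c h k H hs t ht x v σ hσ h1 h2 h3 h4 h5 h6 => ?_
  obtain ⟨⟨hP, hT, -⟩, hlow⟩ := hs
  have hn := H.n_pos
  have S := H.sys
  have ht0 : 0 < t := H.t_pos.trans_le ht.1
  have ht1 : t ≤ 1 / 100 := ht.2.trans hT
  have hK := p.K_pos
  have hR := p.R_ge
  have hcs : 0 < p.σ' * p.c := mul_pos p.σ'_pos p.c_pos
  have a1 : p.σ' * p.c * t₀ ≤ p.σ' * p.c * t := mul_le_mul_of_nonneg_left ht.1 hcs.le
  have a2 : 0 < p.σ' * p.c * t := mul_pos hcs ht0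
  have a3 : p.c * t < ‖X x‖ := by linarith
  have a4 : 2 * r1 ≤ ‖X x‖ - p.c * t := by linarith [H.r_le]
  have hr : 0 < ‖X x‖ := (mul_pos p.c_pos ht0).trans a3
  obtain ⟨B, hB, hB1, hB2⟩ := cf1_low hP hσ ht0 ht1 (x := x) a3 a4 h2 h3
  have hB3 : ENNReal.ofReal (p.K / (600 * ‖X x‖))
      ≤ ∫⁻ w in B, ENNReal.ofReal (cf1 (p.cp e0 r1) σ t (x, w)) := hB2
  have hg := rates_bdd_ite (S.rates_bc hn t x) (rates_mfast p.ζ5 v)
  have g0 := S.rates_ite0 hn t x (fun w => p.ζ5 ≤ ‖v - w‖)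
  have hBn : ∀ w, Measurable (fun ω => ENNReal.ofReal (Bn n v w ω)) := fun w =>
    (measurable_Bn n measurable_const measurable_const measurable_id).ennreal_ofReal
  have key : ENNReal.ofReal (4 * (p.K / (600 * ‖X x‖))) ≤ ENNReal.ofReal
      (nuN n (fun w => if p.ζ5 ≤ ‖v - w‖ then reg n (tot c h k t) (c t) (x, w) else 0) v) := by
    rw [ofReal_nuN hn.le hg g0 v]
    simp_rw [lintegral_mul_const _ (hBn _), lintegral_Bn]
    rw [ENNReal.ofReal_mul (by norm_num)]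
    refine (mul_le_mul' le_rfl hB3).trans (le_trans ?_ (setLIntegral_le_lintegral B _))
    rw [← lintegral_const_mul' _ _ ENNReal.ofReal_ne_top]
    refine setLIntegral_mono' hB fun w hw => ?_
    obtain ⟨b1, b2, b3⟩ := hB1 w hw
    have b4 : 99 / 100 ≤ ‖v - w‖ := by
      have c1 := abs_two_sub_le v (tp w) (w 2)
      rw [mkV_tp] at c1
      have c2 := abs_sub_le (v 2) (w 2) σ
      linarith
    have b5 : ‖v - w‖ ≤ n := by linarith [norm_sub_le v w, H.n_ge]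
    have b6 : p.ζ5 ≤ ‖v - w‖ := p.ζ5_le.trans (le_trans (by norm_num) b4)
    have b7 := H.theta t ht x w (by linarith) b1
    have b8 : cf1 (p.cp e0 r1) σ t (x, w) ≤ cf (p.cp e0 r1) t (x, w) := by
      rw [cf_eq]
      rcases hσ with rfl | rfl
      · exact le_add_of_nonneg_right (cf1_nonneg hP _ _ _)
      · exact le_add_of_nonneg_left (cf1_nonneg hP _ _ _)
    have b9 := hlow t ht (x, w)
    have b0 := cf1_nonneg hP σ t (x, w)
    rw [if_pos b5, if_pos b6, ← ENNReal.ofReal_mul (by norm_num),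
      ← ENNReal.ofReal_mul (by positivity)]
    refine ENNReal.ofReal_le_ofReal ?_
    unfold reg
    have d1 : 99 / 100 * (99 / 100 * cf1 (p.cp e0 r1) σ t (x, w))
        ≤ th n (tot c h k t) (x, w) * c t (x, w) :=
      mul_le_mul b7 (by linarith) (by positivity) (by linarith)
    have d2 : 3 * (99 / 100) ≤ Real.pi * ‖v - w‖ :=
      mul_le_mul Real.pi_gt_three.le b4 (by norm_num) Real.pi_pos.le
    have d3 := mul_le_mul d2 d1 (by positivity) (by positivity)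
    linarith
  rw [ENNReal.ofReal_le_ofReal_iff (nuN_nonneg g0 v)] at key
  have e1 := H.theta t ht x v h5 h6
  have e2 : 0 ≤ p.K / (600 * ‖X x‖) := by positivity
  have e3 := mul_le_mul e1 key (by positivity) (by linarith)
  have e4 : p.K / (200 * ‖X x‖) = 3 * (p.K / (600 * ‖X x‖)) := by
    field_simp
    norm_num
  rw [e4]
  exact le_trans (by linarith) e3

end

end Vale.Agent.P140
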