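import Vale.Agent.P140.Sub

/-! The limit is a renormalized solution. -/

namespace Vale.Agent.P140

open MeasureTheory Set Filter Topology
open scoped ENNReal RealInnerProductSpace

noncomputable section

variable {F₀ : Ph → ℝ} {S : Seq F₀} {U : Ultrafilter ℕ} {F : ℝ → Ph → ℝ}

theorem Lim.mild (h : Lim S U F) {t : ℝ} (ht : 0 ≤ t) :
    ∀ᵐ z : Ph, ENNReal.ofReal (F t (fl t z)) = duh F₀ F t z := by
  filter_upwards [h.sub ht, h.super ht] with z h1 h2 using le_antisymm h1 h2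

theorem ren0_meas_Q (h : Lim S U F) : Measurable fun p : ℝ × Ph => QpF (F p.1) p.2 :=
  measurable_QpF (F := fun p : ℝ × Ph => F p.1) (sub_meas_lift h.meas) measurable_snd

theorem ren0_mild (h : Lim S U F) (T : ℝ) :
    ∀ᵐ z : Ph, ∀ᵐ s ∂(muT T), ENNReal.ofReal (F s (fl s z)) = duh F₀ F s z := by
  refine (Measure.ae_ae_comm (p := fun s z => ENNReal.ofReal (F s (fl s z)) = duh F₀ F s z)
    (measurableSet_eq_fun (h.meas.comp sub_meas_ST).ennreal_ofReal h.meas_duh)).1 ?_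
  filter_upwards [ae_restrict_mem measurableSet_Ioc] with s hs using h.mild hs.1.le

/-- Along almost every characteristic the limit agrees with an absolutely continuous solution
of the equation. -/
theorem Lim.ae_prim (h : Lim S U F) {T : ℝ} (hT : 0 ≤ T) : ∀ᵐ z : Ph, ∃ y : ℝ → ℝ,
    y 0 = F₀ z ∧ y T = F T (fl T z) ∧ (∀ s ∈ Icc 0 T, 0 ≤ y s) ∧
    (∀ᵐ s ∂(muT T), y s = F s (fl s z) ∧ QpF (F s) (fl s z) < ⊤) ∧
    IntervalIntegrable (fun s => (QpF (F s) (fl s z)).toReal) volume 0 T ∧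
    Prim y (fun s => (QpF (F s) (fl s z)).toReal - nuL (F s) (fl s z) * y s) 0 T := by
  filter_upwards [h.mild hT, ren0_mild h T, h.ae_nuL_int hT] with z h1 h2 h3
  have n0 : ∀ s z, 0 ≤ nuL (F s) z := fun s => nuL_nonneg (h.nonneg s)
  have mQ : Measurable fun s => QpF (F s) (fl s z) :=
    (ren0_meas_Q h).comp (f := fun s : ℝ => (s, fl s z))
      (measurable_id.prodMk (measurable_fl_left z))
  have f1 : ∫⁻ s in Ioc 0 T, QpF (F s) (fl s z) ≠ ⊤ := by
    have e1 : (∫⁻ s in Ioc 0 T, QpF (F s) (fl s z)) *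
        ENNReal.ofReal (Real.exp (-Lam (fun τ => nuL (F τ)) 0 T z)) ≤ duh F₀ F T z := by
      rw [← lintegral_mul_const _ mQ]
      refine le_add_left (setLIntegral_mono' measurableSet_Ioc fun s hs => mul_le_mul_right
        (ENNReal.ofReal_le_ofReal (Real.exp_le_exp.2 (neg_le_neg ?_))) _)
      exact intervalIntegral.integral_mono_interval hs.1.le hs.2 le_rfl
        (ae_of_all _ fun _ => n0 _ _) h3
    rw [← h1] at e1
    intro ht
    rw [ht, ENNReal.top_mul (ENNReal.ofReal_pos.2 (Real.exp_pos _)).ne'] at e1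
    exact ENNReal.ofReal_ne_top (top_le_iff.1 e1)
  have f2 : ∀ᵐ s ∂(muT T), QpF (F s) (fl s z) < ⊤ := ae_lt_top mQ f1
  have i1 : IntervalIntegrable (fun s => (QpF (F s) (fl s z)).toReal) volume 0 T :=
    (intervalIntegrable_iff_integrableOn_Ioc_of_le hT).2
      (integrable_toReal_of_lintegral_ne_top mQ.aemeasurable f1)
  obtain ⟨y, hy⟩ : ∃ y : ℝ → ℝ, ∀ t, y t = F₀ z * Real.exp (-Lam (fun τ => nuL (F τ)) 0 t z) +
      ∫ s in (0 : ℝ)..t, (QpF (F s) (fl s z)).toReal *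
        Real.exp (-Lam (fun τ => nuL (F τ)) s t z) := ⟨_, fun _ => rfl⟩
  have q0 : ∀ t s, 0 ≤ (QpF (F s) (fl s z)).toReal * Real.exp (-Lam (fun τ => nuL (F τ)) s t z) :=
    fun t s => mul_nonneg ENNReal.toReal_nonneg (Real.exp_pos _).le
  have d0 : ∀ t, 0 ≤ F₀ z * Real.exp (-Lam (fun τ => nuL (F τ)) 0 t z) := fun t =>
    mul_nonneg (S.datum.nonneg z) (Real.exp_pos _).le
  have y0 : ∀ t ∈ Icc 0 T, 0 ≤ y t := fun t ht => by
    rw [hy]
    exact add_nonneg (d0 t) (intervalIntegral.integral_nonneg ht.1 fun s _ => q0 t s)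
  have y1 : ∀ t ∈ Icc 0 T, ENNReal.ofReal (y t) = duh F₀ F t z := fun t ht => by
    have i2 : Integrable (fun s => (QpF (F s) (fl s z)).toReal *
        Real.exp (-Lam (fun τ => nuL (F τ)) s t z)) (muT t) :=
      (i1.1.mono_set (Ioc_subset_Ioc_right ht.2)).mul_bdd (c := 1)
        ((sub_meas_exp (ν := fun τ => nuL (F τ)) (sub_meas_nuL h.meas) t).comp
          (f := fun τ : ℝ => (τ, z)) measurable_prodMk_right).aestronglyMeasurable
        ((ae_restrict_mem measurableSet_Ioc).mono fun τ hτ => by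
          rw [Real.norm_eq_abs, abs_of_pos (Real.exp_pos _)]
          exact rate_exp_le n0 hτ.2 z)
    rw [hy, intervalIntegral.integral_of_le ht.1,
      ENNReal.ofReal_add (d0 t) (integral_nonneg (q0 t)),
      ofReal_integral_eq_lintegral_ofReal i2 (ae_of_all _ (q0 t)), duh]
    congr 1
    refine lintegral_congr_ae ?_
    filter_upwards [ae_restrict_of_ae_restrict_of_subset (Ioc_subset_Ioc_right ht.2) f2] with s hs
    rw [ENNReal.ofReal_mul ENNReal.toReal_nonneg, ENNReal.ofReal_toReal hs.ne]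
  have y2 : ∀ t ∈ Icc 0 T, ENNReal.ofReal (F t (fl t z)) = duh F₀ F t z → y t = F t (fl t z) :=
    fun t ht e => (ENNReal.ofReal_eq_ofReal_iff (y0 t ht) (h.nonneg _ _)).1
      ((y1 t ht).trans e.symm)
  refine ⟨y, by simp [hy, Lam], y2 T ⟨hT, le_rfl⟩ h1, y0, ?_, i1,
    Prim.of_expForm hT h3 i1 (F₀ z) hy⟩
  filter_upwards [h2, f2, ae_restrict_mem measurableSet_Ioc] with s e1 e2 e3
  exact ⟨y2 s ⟨e3.1.le, e3.2⟩ e1, e2⟩

theorem ren0_meas_Mnu (h : Lim S U F) :
    Measurable fun p : ℝ × Ph => ENNReal.ofReal (Mx p.2.2 * nuL (F p.1) p.2) :=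
  (sub_meas_Mx.mul (sub_meas_nuL h.meas)).ennreal_ofReal

theorem ren0_frac {f ν M : ℝ} (hf : 0 ≤ f) (hν : 0 ≤ ν) (hM : 0 < M) :
    f * ν / (1 + f / M) ≤ M * ν := by
  rw [div_le_iff₀ (by positivity)]
  have : M * ν * (1 + f / M) = M * ν + f * ν := by field_simp
  nlinarith

theorem Lim.lossInt (h : Lim S U F) (T : ℝ) : ∫⁻ t in Ioc 0 T, ∫⁻ z : Ph,
    Qm (fun v => F t (z.1, v)) z.2 / ENNReal.ofReal (1 + F t z / Mx z.2) < ⊤ := by
  refine lt_of_le_of_lt ?_ (h.Mx_nuL_int T)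
  rw [lintegral_prod _ (ren0_meas_Mnu h).aemeasurable]
  refine lintegral_mono_ae ?_
  filter_upwards [Measure.ae_ae_of_ae_prod (h.ae_Qm T)] with t ht
  refine lintegral_mono_ae ?_
  filter_upwards [ht] with z hz
  have h0 := h.nonneg t z
  have hM := Mx_pos z.2
  rw [hz, ← ENNReal.ofReal_div_of_pos (by positivity)]
  exact ENNReal.ofReal_le_ofReal (ren0_frac h0 (nuL_nonneg (h.nonneg t) z) hM)

theorem ren0_log {y q l : ℝ → ℝ} {T M : ℝ} (hT : 0 ≤ T) (hM : 0 < M)
    (hy : ∀ s ∈ Icc 0 T, 0 ≤ y s) (hq : IntervalIntegrable q volume 0 T)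
    (hl : IntervalIntegrable l volume 0 T) (hl0 : ∀ s, 0 ≤ l s)
    (hp : Prim y (fun s => q s - l s * y s) 0 T) :
    IntervalIntegrable (fun s => q s / (1 + y s / M)) volume 0 T ∧
      ∫ s in (0 : ℝ)..T, q s / (1 + y s / M) ≤ y T + ∫ s in (0 : ℝ)..T, M * l s := by
  have hD : ∀ u : ℝ, 0 ≤ u → 0 < 1 + u / M := fun u hu => by positivity
  have cD : ContinuousOn (fun s => (1 + y s / M)⁻¹) (uIcc 0 T) := by
    rw [uIcc_of_le hT]
    exact (continuousOn_const.add (hp.continuousOn.div_const _)).inv₀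
      fun s hs => (hD _ (hy s hs)).ne'
  have i1 : IntervalIntegrable (fun s => q s / (1 + y s / M)) volume 0 T := by
    simp only [div_eq_mul_inv (q _)]
    exact hq.mul_continuousOn cD
  have i2 : IntervalIntegrable (fun s => y s * l s / (1 + y s / M)) volume 0 T := by
    simp only [div_eq_mul_inv (y _ * _)]
    refine (hl.continuousOn_mul ?_).mul_continuousOn cD
    rw [uIcc_of_le hT]
    exact hp.continuousOn
  have h1 := hp.comp_Ici (β := fun u => M * Real.log (1 + u / M))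
    (β' := fun u => (1 + u / M)⁻¹) hy
    (fun u hu => by
      refine ((((((hasDerivAt_id u).div_const M).const_add 1).log
        (hD u hu).ne').const_mul M).congr_deriv ?_).hasDerivWithinAt
      simp only [id]
      field_simp)
    ((continuousOn_const.add (continuousOn_id.div_const _)).inv₀ fun u hu => (hD u hu).ne')
  have h2 := h1.eq T ⟨hT, le_rfl⟩
  have e : ∀ s, (1 + y s / M)⁻¹ * (q s - l s * y s) =
      q s / (1 + y s / M) - y s * l s / (1 + y s / M) := fun s => by ring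
  simp only [e] at h2
  rw [intervalIntegral.integral_sub i1 i2] at h2
  have h3 : ∫ s in (0 : ℝ)..T, y s * l s / (1 + y s / M) ≤ ∫ s in (0 : ℝ)..T, M * l s :=
    intervalIntegral.integral_mono_on hT i2 (hl.const_mul M) fun s hs =>
      ren0_frac (hy s hs) (hl0 s) hM
  have h4 : 0 ≤ M * Real.log (1 + y 0 / M) := mul_nonneg hM.le (Real.log_nonneg (by
    have := div_nonneg (hy 0 ⟨le_rfl, hT⟩) hM.le
    linarith))
  have h5 : M * Real.log (1 + y T / M) ≤ y T := by
    have := Real.log_le_sub_one_of_pos (hD _ (hy T ⟨hT, le_rfl⟩))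
    have e2 : M * (y T / M) = y T := by field_simp
    nlinarith
  exact ⟨i1, by linarith⟩

theorem ren0_meas_gain (h : Lim S U F) : Measurable fun p : ℝ × Ph =>
    QpF (F p.1) p.2 / ENNReal.ofReal (1 + F p.1 p.2 / Mx p.2.2) :=
  (ren0_meas_Q h).div ((h.meas.div sub_meas_Mx).const_add 1).ennreal_ofReal

theorem ren0_gainST (h : Lim S U F) (T : ℝ) :
    ∫⁻ p, QpF (F p.1) p.2 / ENNReal.ofReal (1 + F p.1 p.2 / Mx p.2.2) ∂(mu3 T) < ⊤ := by
  rcases le_or_gt T 0 with hT | hT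
  · rw [mu3, muT, Ioc_eq_empty_of_le hT]
    simp
  have mF : Measurable fun z => ENNReal.ofReal (F T (fl T z)) :=
    ((h.meas_t T).comp (measurable_fl_right T)).ennreal_ofReal
  have b1 := ENNReal.add_lt_top.2 ⟨((integrable_fl T).2 (h.int T hT.le)).lintegral_lt_top,
    h.Mx_nuL_int T⟩
  rw [← sub_swap (ren0_meas_Mnu h), ← lintegral_add_left mF] at b1
  rw [← sub_swap (ren0_meas_gain h)]
  refine lt_of_le_of_lt (lintegral_mono_ae ?_) b1
  filter_upwards [h.ae_prim hT.le, h.ae_nuL_int hT.le] with z ⟨y, _, yT, y0, ya, iq, hp⟩ il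
  have hM := Mx_pos z.2
  have n0 : ∀ s, 0 ≤ nuL (F s) (fl s z) := fun s => nuL_nonneg (h.nonneg s) _
  obtain ⟨i1, h1⟩ := ren0_log hT.le hM y0 iq il n0 hp
  rw [intervalIntegral.integral_of_le hT.le, intervalIntegral.integral_of_le hT.le, yT] at h1
  have e1 : ∫⁻ τ in Ioc 0 T, QpF (F τ) (fl τ z) / ENNReal.ofReal (1 + F τ (fl τ z) / Mx z.2) =
      ENNReal.ofReal (∫ τ in Ioc 0 T, (QpF (F τ) (fl τ z)).toReal / (1 + y τ / Mx z.2)) := by
    rw [ofReal_integral_eq_lintegral_ofReal i1.1 (by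
      filter_upwards [ae_restrict_mem measurableSet_Ioc] with s hs
      have := y0 s ⟨hs.1.le, hs.2⟩
      positivity)]
    refine lintegral_congr_ae ?_
    filter_upwards [ya] with s hs
    have := h.nonneg s (fl s z)
    rw [hs.1, ENNReal.ofReal_div_of_pos (by positivity), ENNReal.ofReal_toReal hs.2.ne]
  exact e1.trans_le ((ENNReal.ofReal_le_ofReal h1).trans (ENNReal.ofReal_add_le.trans
    (add_le_add le_rfl (sub_ofReal_int (ae_of_all _ fun s => mul_nonneg hM.le (n0 s))))))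

theorem Lim.gainInt (h : Lim S U F) (T : ℝ) : ∫⁻ t in Ioc 0 T, ∫⁻ z : Ph,
    Qp (fun v => F t (z.1, v)) z.2 / ENNReal.ofReal (1 + F t z / Mx z.2) < ⊤ :=
  (lintegral_prod _ (ren0_meas_gain h).aemeasurable).symm.trans_lt (ren0_gainST h T)

end

end Vale.Agent.P140
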