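import Vale.Agent.P140.Ren0

/-! The limit is a renormalized solution. -/

namespace Vale.Agent.P140

open MeasureTheory Set Filter Topology
open scoped ENNReal RealInnerProductSpace

noncomputable section

variable {F₀ : Ph → ℝ} {S : Seq F₀} {U : Ultrafilter ℕ} {F : ℝ → Ph → ℝ}

theorem rn_meas {α : Type} [MeasurableSpace α] {β : ℝ → ℝ} (hβ : ContinuousOn β (Ici 0))
    {G : α → ℝ} (hG : Measurable G) (h0 : ∀ x, 0 ≤ G x) : Measurable fun x => β (G x) := by
  have h1 : Continuous fun u : ℝ => β (max u 0) :=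
    hβ.comp_continuous (continuous_id.max continuous_const) fun u => le_max_right u 0
  have h2 := h1.measurable.comp hG
  have e : ((fun u : ℝ => β (max u 0)) ∘ G) = fun x => β (G x) :=
    funext fun x => by simp [max_eq_left (h0 x)]
  rwa [e] at h2

theorem rn_bound {β β' : ℝ → ℝ} (hβ : IsRen β β') : ∃ C : ℝ, 0 ≤ C ∧ ∀ u, 0 ≤ u →
    |β u| ≤ C * u ∧ |β' u| ≤ C / (1 + u) := by
  obtain ⟨C, hC⟩ := hβ.bound
  have h0 : 0 ≤ C := by simpa using (abs_nonneg _).trans (hC 0 le_rfl)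
  refine ⟨C, h0, fun u hu => ⟨?_, hC u hu⟩⟩
  have := (convex_Ici (0 : ℝ)).norm_image_sub_le_of_norm_hasDerivWithin_le (C := C) hβ.deriv
    (fun x hx => (hC x hx).trans (div_le_self h0 (by linarith [mem_Ici.1 hx]))) self_mem_Ici hu
  simpa [hβ.zero, abs_of_nonneg hu] using this

theorem rn_char (h : Lim S U F) {β β' : ℝ → ℝ} (hβ : IsRen β β') {φ : ℝ → T3 → V → ℝ}
    (hφ : IsTest φ) {T : ℝ} (hT : 0 ≤ T) (h0 : ∀ z : Ph, φ T z.1 z.2 = 0) : ∀ᵐ z : Ph,
    Mx z.2 * β (F₀ z / Mx z.2) * φ 0 z.1 z.2 = -∫ s in Ioc 0 T,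
      (Mx z.2 * β (F s (fl s z) / Mx z.2) * trans φ s (fl s z) + β' (F s (fl s z) / Mx z.2) *
        ((QpF (F s) (fl s z)).toReal - F s (fl s z) * nuL (F s) (fl s z)) *
          φ s (fl s z).1 z.2) := by
  filter_upwards [h.ae_prim hT] with z ⟨y, y0, _, yn, ya, _, hp⟩
  have hM := Mx_pos z.2
  have h1 := ((hp.const_mul (Mx z.2)⁻¹).comp_Ici
    (fun s hs => mul_nonneg (inv_pos.2 hM).le (yn s hs)) hβ.deriv hβ.cont).const_mul (Mx z.2)
  have h2 := h1.mul (Prim.of_hasDerivAt hT (fun s _ => hφ.hasDerivAt s z)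
    (hφ.continuous_trans.comp (f := fun s : ℝ => (s, fl s z)) (continuous_id.prodMk
      (continuous_fl.comp (f := fun s : ℝ => (s, z))
        (continuous_id.prodMk continuous_const)))).continuousOn)
  have h3 := h2.eq T ⟨hT, le_rfl⟩
  have h4 : φ T (fl T z).1 z.2 = 0 := h0 (fl T z)
  rw [h4, mul_zero, y0, fl_zero, intervalIntegral.integral_of_le hT, ← div_eq_inv_mul] at h3
  rw [eq_neg_iff_add_eq_zero]
  refine Eq.trans ?_ h3.symm
  congr 1
  refine integral_congr_ae ?_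
  filter_upwards [ya] with s hs
  rw [hs.1, ← div_eq_inv_mul]
  field_simp
  ring

theorem Lim.renorm (h : Lim S U F) {β β' : ℝ → ℝ} (hβ : IsRen β β') {φ : ℝ → T3 → V → ℝ}
    (hφ : IsTest φ) :
    (∫ t in Ioi (0 : ℝ), ∫ z : Ph, Mx z.2 * β (F t z / Mx z.2) * trans φ t z)
      + (∫ z : Ph, Mx z.2 * β (F₀ z / Mx z.2) * φ 0 z.1 z.2)
      + (∫ t in Ioi (0 : ℝ), ∫ z : Ph, β' (F t z / Mx z.2) *
          ((Qp (fun v => F t (z.1, v)) z.2).toReal - (Qm (fun v => F t (z.1, v)) z.2).toReal)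
          * φ t z.1 z.2) = 0 := by
  obtain ⟨T, C, hT, hC, hz⟩ := hφ.bounds
  obtain ⟨B, hB, hb⟩ := rn_bound hβ
  have mG : Measurable fun p : ℝ × Ph => F p.1 p.2 / Mx p.2.2 := h.meas.div sub_meas_Mx
  have G0 : ∀ p : ℝ × Ph, 0 ≤ F p.1 p.2 / Mx p.2.2 := fun p =>
    div_nonneg (h.nonneg _ _) (Mx_pos _).le
  have hpos : ∀ᵐ p ∂(mu3 T), 0 ≤ p.1 :=
    Measure.quasiMeasurePreserving_fst.ae
      ((ae_restrict_mem measurableSet_Ioc).mono fun t ht => ht.1.le)
  have iF : Integrable (fun p : ℝ × Ph => F p.1 p.2) (mu3 T) :=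
    (h.intST T).mono' h.meas.aestronglyMeasurable (ae_of_all _ fun p => by
      rw [Real.norm_eq_abs, abs_of_nonneg (h.nonneg _ _)]
      exact le_mul_of_one_le_left (h.nonneg _ _) (by linarith [sq_nonneg ‖p.2.2‖]))
  have i1 : Integrable (fun p : ℝ × Ph =>
      Mx p.2.2 * β (F p.1 p.2 / Mx p.2.2) * trans φ p.1 p.2) (mu3 T) := by
    refine Integrable.mul_bdd (c := C) ((iF.const_mul B).mono' (sub_meas_Mx.mul (rn_meas
      (fun u hu => (hβ.deriv u hu).continuousWithinAt) mG G0)).aestronglyMeasurable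
      (ae_of_all _ fun p => ?_)) hφ.continuous_trans.measurable.aestronglyMeasurable
      (hpos.mono fun p hp => (hC p.1 p.2 hp).2)
    have hM := Mx_pos p.2.2
    rw [Real.norm_eq_abs, abs_mul, abs_of_pos hM]
    refine (mul_le_mul_of_nonneg_left (hb _ (G0 p)).1 hM.le).trans_eq ?_
    field_simp
  have iQ := integrable_toReal_of_lintegral_ne_top (ren0_meas_gain h).aemeasurable
    (ren0_gainST h T).ne
  have iN : Integrable (fun p : ℝ × Ph => Mx p.2.2 * nuL (F p.1) p.2) (mu3 T) :=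
    (lintegral_ofReal_ne_top_iff_integrable
      (sub_meas_Mx.mul (sub_meas_nuL h.meas)).aestronglyMeasurable (ae_of_all _ fun p =>
        mul_nonneg (Mx_pos _).le (nuL_nonneg (h.nonneg _) _))).1 (h.Mx_nuL_int T).ne
  have i2 : Integrable (fun p : ℝ × Ph => β' (F p.1 p.2 / Mx p.2.2) *
      ((QpF (F p.1) p.2).toReal - F p.1 p.2 * nuL (F p.1) p.2) * φ p.1 p.2.1 p.2.2) (mu3 T) := by
    refine Integrable.mul_bdd (c := C) (((iQ.add iN).const_mul B).mono'
      ((rn_meas hβ.cont mG G0).mul ((ren0_meas_Q h).ennreal_toReal.sub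
        (h.meas.mul (sub_meas_nuL h.meas)))).aestronglyMeasurable
      (ae_of_all _ fun p => ?_)) hφ.continuous.measurable.aestronglyMeasurable
      (hpos.mono fun p hp => (hC p.1 p.2 hp).1)
    have g0 := G0 p
    have f0 := h.nonneg p.1 p.2
    have n0 := nuL_nonneg (h.nonneg p.1) p.2
    have q0 : 0 ≤ (QpF (F p.1) p.2).toReal := ENNReal.toReal_nonneg
    have h1 := ren0_frac f0 n0 (Mx_pos p.2.2)
    simp only [Pi.add_apply, ENNReal.toReal_div]
    rw [Real.norm_eq_abs, abs_mul, ENNReal.toReal_ofReal (by positivity)]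
    calc _ ≤ B / (1 + F p.1 p.2 / Mx p.2.2) *
          ((QpF (F p.1) p.2).toReal + F p.1 p.2 * nuL (F p.1) p.2) := by
          refine mul_le_mul (hb _ g0).2 ((abs_sub _ _).trans_eq ?_) (abs_nonneg _) (by positivity)
          rw [abs_of_nonneg q0, abs_of_nonneg (mul_nonneg f0 n0)]
      _ = B * ((QpF (F p.1) p.2).toReal / (1 + F p.1 p.2 / Mx p.2.2) +
          F p.1 p.2 * nuL (F p.1) p.2 / (1 + F p.1 p.2 / Mx p.2.2)) := by ring
      _ ≤ _ := by gcongr
  have e1 := integral_congr_ae (rn_char h hβ hφ hT.le fun z => (hz T z (Or.inl le_rfl)).1)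
  have e2 := integral_prod_symm _ ((integrable_flST (muT T)).2 (i1.add i2))
  rw [integral_flST (muT T), integral_add' i1 i2, integral_prod _ i1] at e2
  have e3 : ∫ p, β' (F p.1 p.2 / Mx p.2.2) * ((QpF (F p.1) p.2).toReal -
      F p.1 p.2 * nuL (F p.1) p.2) * φ p.1 p.2.1 p.2.2 ∂(mu3 T) = ∫ t in Ioc 0 T, ∫ z : Ph,
      β' (F t z / Mx z.2) * ((Qp (fun v => F t (z.1, v)) z.2).toReal -
        (Qm (fun v => F t (z.1, v)) z.2).toReal) * φ t z.1 z.2 := by
    rw [integral_prod _ i2]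
    refine integral_congr_ae ?_
    filter_upwards [Measure.ae_ae_of_ae_prod (h.ae_Qm T)] with t ht
    refine integral_congr_ae ?_
    filter_upwards [ht] with z hz
    rw [hz, ENNReal.toReal_ofReal (mul_nonneg (h.nonneg _ _) (nuL_nonneg (h.nonneg _) _))]
    rfl
  have hout : ∀ t ∈ Ioi (0 : ℝ) \ Ioc 0 T, T ≤ t := fun t ht => by
    by_contra hn
    exact ht.2 ⟨ht.1, (not_le.1 hn).le⟩
  rw [setIntegral_eq_of_subset_of_forall_sdiff_eq_zero measurableSet_Ioi Ioc_subset_Ioi_self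
      fun t ht => by simp [fun z => (hz t z (Or.inl (hout t ht))).2],
    setIntegral_eq_of_subset_of_forall_sdiff_eq_zero measurableSet_Ioi Ioc_subset_Ioi_self
      fun t ht => by simp [fun z => (hz t z (Or.inl (hout t ht))).1],
    e1, integral_neg, ← e3]
  have e4 := e2.symm
  simp only [Pi.add_apply, fl_snd] at e4
  rw [e4]
  ring

end

end Vale.Agent.P140
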