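import Mathlib

/-! Statement-level definitions: the periodic hard-sphere Boltzmann equation and its
renormalized entropy solutions. -/

namespace Vale.Agent.P140

open MeasureTheory Set
open scoped ENNReal RealInnerProductSpace

noncomputable section

/-- Velocity space. -/
abbrev V : Type := EuclideanSpace ℝ (Fin 3)

/-- The torus `ℝ³ / ℤ³`. -/
abbrev T3 : Type := Fin 3 → UnitAddCircle

/-- Phase space `Ω`. -/
abbrev Ph : Type := T3 × V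

/-- The unit sphere. -/
abbrev S2 : Type := Metric.sphere (0 : V) 1

/-- Surface measure on the unit sphere (total mass `4π`). -/
def sig : Measure S2 := (volume : Measure V).toSphere

/-- The projection `ℝ³ → 𝕋³`. -/
def pr (y : V) : T3 := fun i => ((y i : ℝ) : UnitAddCircle)

/-- `a = (v - v_*) · ω`. -/
def ca (v w : V) (ω : S2) : ℝ := ⟪v - w, (ω : V)⟫

/-- `v' = v - a ω`. -/
def vp (v w : V) (ω : S2) : V := v - ca v w ω • (ω : V)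

/-- `v_*' = v_* + a ω`. -/
def wp (v w : V) (ω : S2) : V := w + ca v w ω • (ω : V)

/-- Gain term `Q⁺(f,f)(v)`. -/
def Qp (f : V → ℝ) (v : V) : ℝ≥0∞ :=
  ∫⁻ w, ∫⁻ ω, ENNReal.ofReal (|ca v w ω| * f (vp v w ω) * f (wp v w ω)) ∂sig

/-- Loss term `Q⁻(f,f)(v)`. -/
def Qm (f : V → ℝ) (v : V) : ℝ≥0∞ :=
  ∫⁻ w, ∫⁻ ω, ENNReal.ofReal (|ca v w ω| * f v * f w) ∂sig

/-- The Maxwellian `M`. -/
def Mx (v : V) : ℝ := (2 * Real.pi) ^ (-(3 / 2 : ℝ)) * Real.exp (-‖v‖ ^ 2 / 2)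

/-- Relative entropy `H_M(F)` (the integrand is nonnegative for `F ≥ 0`). -/
def Hm (F : Ph → ℝ) : ℝ≥0∞ :=
  ∫⁻ z, ENNReal.ofReal (F z * Real.log (F z / Mx z.2) - F z + Mx z.2)

/-- `(a - b) log (a / b)` for `a, b ≥ 0`, with its lower semicontinuous extended value where
`a` or `b` vanishes. -/
def jd (a b : ℝ) : ℝ≥0∞ :=
  if a = b then 0 else if a = 0 ∨ b = 0 then ⊤ else ENNReal.ofReal ((a - b) * Real.log (a / b))

/-- Entropy dissipation `D(F)`. -/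
def Dis (F : Ph → ℝ) : ℝ≥0∞ :=
  4⁻¹ * ∫⁻ x, ∫⁻ v, ∫⁻ w, ∫⁻ ω, ENNReal.ofReal |ca v w ω| *
    jd (F (x, vp v w ω) * F (x, wp v w ω)) (F (x, v) * F (x, w)) ∂sig

/-- `∫ F (1 + |v|² + |log F|)`. -/
def Mom (F : Ph → ℝ) : ℝ≥0∞ :=
  ∫⁻ z, ENNReal.ofReal (F z * (1 + ‖z.2‖ ^ 2 + |Real.log (F z)|))

/-- A datum. -/
structure IsDatum (F : Ph → ℝ) : Prop where
  meas : Measurable F
  nonneg : ∀ z, 0 ≤ F z
  fin : Mom F < ⊤

/-- Smooth test function on `[0,∞) × 𝕋³ × ℝ³` with compact support. -/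
structure IsTest (φ : ℝ → T3 → V → ℝ) : Prop where
  smooth : ContDiff ℝ (⊤ : ℕ∞) (fun p : ℝ × V × V => φ p.1 (pr p.2.1) p.2.2)
  supp : ∃ R : ℝ, ∀ t x v, R < t ∨ R < ‖v‖ → φ t x v = 0

/-- Smooth test function on `[0,∞) × 𝕋³` with compact support. -/
structure IsTestX (φ : ℝ → T3 → ℝ) : Prop where
  smooth : ContDiff ℝ (⊤ : ℕ∞) (fun p : ℝ × V => φ p.1 (pr p.2))
  supp : ∃ R : ℝ, ∀ t x, R < t → φ t x = 0

/-- Time derivative. -/
def dT (φ : ℝ → T3 → ℝ) (t : ℝ) (x : T3) : ℝ := deriv (fun s => φ s x) t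

/-- Derivative in the `i`-th space coordinate. -/
def dX (i : Fin 3) (φ : ℝ → T3 → ℝ) (t : ℝ) (x : T3) : ℝ :=
  deriv (fun s : ℝ => φ t (x + pr (EuclideanSpace.single i s))) 0

/-- `(∂_t + v · ∇_x) φ`. -/
def trans (φ : ℝ → T3 → V → ℝ) (t : ℝ) (z : Ph) : ℝ :=
  dT (fun s x => φ s x z.2) t z.1 + ∑ i, z.2 i * dX i (fun s x => φ s x z.2) t z.1

/-- An admissible renormalization `β` with derivative `β'`. -/
structure IsRen (β β' : ℝ → ℝ) : Prop where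
  deriv : ∀ z, 0 ≤ z → HasDerivWithinAt β (β' z) (Ici 0) z
  cont : ContinuousOn β' (Ici 0)
  zero : β 0 = 0
  bound : ∃ C : ℝ, ∀ z, 0 ≤ z → |β' z| ≤ C / (1 + z)

/-- Integral over `Ω`. -/
def intP (f : Ph → ℝ) : ℝ := ∫ z, f z

/-- Integral over `𝕋³`. -/
def intX (f : T3 → ℝ) : ℝ := ∫ x, f x

/-- Integral over velocities. -/
def intV (f : V → ℝ) : ℝ := ∫ v, f v

/-- Integral over `t > 0`. -/
def intT (f : ℝ → ℝ) : ℝ := ∫ t in Ioi (0 : ℝ), f t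

/-- Integral over `Ω` of a `[0,∞]`-valued function. -/
def lintP (f : Ph → ℝ≥0∞) : ℝ≥0∞ := ∫⁻ z, f z

/-- Integral over `0 < t ≤ T` of a `[0,∞]`-valued function. -/
def lintT (T : ℝ) (f : ℝ → ℝ≥0∞) : ℝ≥0∞ := ∫⁻ t in Ioc (0 : ℝ) T, f t

/-- Membership in `L¹(Ω)`. -/
def IsL1 (f : Ph → ℝ) : Prop := Integrable f

/-- Equality almost everywhere on `Ω`. -/
def AeEq (f g : Ph → ℝ) : Prop := ∀ᵐ z, f z = g z

/-- Joint measurability in `(t, x, v)`. -/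
def JMeas (F : ℝ → Ph → ℝ) : Prop := Measurable (fun p : ℝ × Ph => F p.1 p.2)

/-- Weak continuity in time, against bounded measurable tests. -/
def WeakCont (F : ℝ → Ph → ℝ) : Prop :=
  ∀ ψ : Ph → ℝ, Measurable ψ → (∃ C, ∀ z, |ψ z| ≤ C) →
    ContinuousOn (fun t => intP fun z => F t z * ψ z) (Ici 0)

/-- The `L¹([0,T] × Ω)` norm of `Q(F,F) / (1 + F / M)` for `Q = Q⁺` or `Q = Q⁻`. -/
def QInt (Q : (V → ℝ) → V → ℝ≥0∞) (F : ℝ → Ph → ℝ) (T : ℝ) : ℝ≥0∞ :=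
  lintT T fun t => lintP fun z =>
    Q (fun v => F t (z.1, v)) z.2 / ENNReal.ofReal (1 + F t z / Mx z.2)

/-- The collision term `Q(f,f) = Q⁺ - Q⁻` at a point of `Ω`. -/
def Qr (f : Ph → ℝ) (z : Ph) : ℝ :=
  (Qp (fun v => f (z.1, v)) z.2).toReal - (Qm (fun v => f (z.1, v)) z.2).toReal

/-- The renormalized equation with initial value, tested against `φ`. -/
def RenEq (F₀ : Ph → ℝ) (F : ℝ → Ph → ℝ) (β β' : ℝ → ℝ) (φ : ℝ → T3 → V → ℝ) : Prop :=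
  (intT fun t => intP fun z => Mx z.2 * β (F t z / Mx z.2) * trans φ t z)
    + (intP fun z => Mx z.2 * β (F₀ z / Mx z.2) * φ 0 z.1 z.2)
    + (intT fun t => intP fun z => β' (F t z / Mx z.2) * Qr (F t) z * φ t z.1 z.2) = 0

/-- The balance `B₁` with initial trace, tested against `φ`. -/
def MassEq (F₀ : Ph → ℝ) (F : ℝ → Ph → ℝ) (φ : ℝ → T3 → ℝ) : Prop :=
  (intT fun t => intX fun x => (intV fun v => F t (x, v)) * dT φ t x
      + ∑ i, (intV fun v => v i * F t (x, v)) * dX i φ t x)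
    + (intX fun x => (intV fun v => F₀ (x, v)) * φ 0 x) = 0

/-- Total momentum, `i`-th component. -/
def mom (f : Ph → ℝ) (i : Fin 3) : ℝ := intP fun z => z.2 i * f z

/-- Total energy. -/
def En (f : Ph → ℝ) : ℝ≥0∞ := lintP fun z => ENNReal.ofReal (‖z.2‖ ^ 2 * f z)

/-- Renormalized entropy solution with datum `F₀`. -/
structure IsSolution (F₀ : Ph → ℝ) (F : ℝ → Ph → ℝ) : Prop where
  meas : JMeas F
  nonneg : ∀ t z, 0 ≤ F t z
  integrable : ∀ t, 0 ≤ t → IsL1 (F t)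
  weakCont : WeakCont F
  init : AeEq (F 0) F₀
  bound : ∀ T : ℝ, ∃ C : ℝ≥0∞, C < ⊤ ∧ ∀ t ∈ Icc 0 T, Mom (F t) ≤ C
  gainInt : ∀ T : ℝ, QInt Qp F T < ⊤
  lossInt : ∀ T : ℝ, QInt Qm F T < ⊤
  renorm : ∀ β β', IsRen β β' → ∀ φ, IsTest φ → RenEq F₀ F β β' φ
  mass : ∀ φ, IsTestX φ → MassEq F₀ F φ
  momentum : ∀ t, 0 ≤ t → ∀ i, mom (F t) i = mom F₀ i
  energy : ∀ t, 0 ≤ t → En (F t) ≤ En F₀
  entropy : ∀ t, 0 ≤ t → Hm (F t) + lintT t (fun s => Dis (F s)) ≤ Hm F₀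

/-- Lebesgue measure on `(0,∞) × Ω`. -/
def volST : Measure (ℝ × Ph) := (volume.restrict (Ioi (0 : ℝ))).prod volume

/-- Equality almost everywhere on `(0,∞) × Ω`. -/
def AeEqST (F G : ℝ → Ph → ℝ) : Prop := ∀ᵐ p ∂volST, F p.1 p.2 = G p.1 p.2

end

end Vale.Agent.P140
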