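import Vale.Agent.P140.Super

/-! The limit is a subsolution in exponential form. -/

namespace Vale.Agent.P140

open MeasureTheory Set Filter Topology
open scoped ENNReal RealInnerProductSpace

noncomputable section

variable {F₀ : Ph → ℝ} {S : Seq F₀} {U : Ultrafilter ℕ} {F : ℝ → Ph → ℝ}

/-- Exponential form of the renormalized regularized equation, as an inequality. -/
theorem Appr.ren_le {n : ℝ} {f : ℝ → Ph → ℝ} (hn : 0 < n) (h : Appr n f) {δ t : ℝ} (hδ : 0 < δ)
    (ht : 0 ≤ t) (z : Ph) :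
    ENNReal.ofReal (f t (fl t z) / (1 + δ * (f t (fl t z) / Mx z.2)))
      ≤ ENNReal.ofReal (f 0 z * Real.exp (-Lam (fun τ => lam n (f τ)) 0 t z))
        + (∫⁻ τ in Ioc 0 t, ENNReal.ofReal (gainN n (til n (f τ)) (til n (f τ)) (fl τ z)
            / (1 + δ * (f τ (fl τ z) / Mx z.2)) ^ 2)
            * ENNReal.ofReal (Real.exp (-Lam (fun τ => lam n (f τ)) τ t z)))
        + ∫⁻ τ in Ioc 0 t, ENNReal.ofReal (lam n (f τ) (fl τ z) *
            (f τ (fl τ z) * (δ * (f τ (fl τ z) / Mx z.2)) / (1 + δ * (f τ (fl τ z) / Mx z.2)) ^ 2))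
            * ENNReal.ofReal (Real.exp (-Lam (fun τ => lam n (f τ)) τ t z)) := by
  have hM := Mx_pos z.2
  have hD : ∀ u : ℝ, 0 ≤ u → 0 < 1 + δ * (u / Mx z.2) := fun u hu => by positivity
  have hp := h.prim hn ht z
  have hc := hp.continuousOn
  have cD : ContinuousOn (fun s => 1 + δ * (f s (fl s z) / Mx z.2)) (Icc 0 t) :=
    continuousOn_const.add (continuousOn_const.mul (hc.div_const _))
  have nD : ∀ s ∈ Icc 0 t, (1 + δ * (f s (fl s z) / Mx z.2)) ^ 2 ≠ 0 := fun s _ =>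
    (pow_pos (hD _ (h.nonneg _ _)) 2).ne'
  have h1 := hp.comp_Ici (β := fun u => u / (1 + δ * (u / Mx z.2)))
    (β' := fun u => 1 / (1 + δ * (u / Mx z.2)) ^ 2) (fun s _ => h.nonneg _ _)
    (fun u hu => by
      have d1 : HasDerivAt (fun u => 1 + δ * (u / Mx z.2)) (δ * (1 / Mx z.2)) u :=
        (((hasDerivAt_id u).div_const _).const_mul δ).const_add 1
      refine (((hasDerivAt_id u).div d1 (hD u hu).ne').congr_deriv ?_).hasDerivWithinAt
      simp only [id]
      field_simp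
      ring)
    (continuousOn_const.div ((continuousOn_const.add
      (continuousOn_const.mul (continuousOn_id.div_const _))).pow 2)
      fun u hu => (pow_pos (hD u hu) 2).ne')
  have h2 : Prim (fun s => f s (fl s z) / (1 + δ * (f s (fl s z) / Mx z.2)))
      (fun s => (gainN n (til n (f s)) (til n (f s)) (fl s z)
            / (1 + δ * (f s (fl s z) / Mx z.2)) ^ 2 + lam n (f s) (fl s z) *
            (f s (fl s z) * (δ * (f s (fl s z) / Mx z.2)) /
              (1 + δ * (f s (fl s z) / Mx z.2)) ^ 2)) -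
        lam n (f s) (fl s z) * (f s (fl s z) / (1 + δ * (f s (fl s z) / Mx z.2)))) 0 t := by
    refine h1.congr (fun _ _ => rfl) (ae_of_all _ fun s => ?_)
    have := (hD _ (h.nonneg s (fl s z))).ne'
    field_simp
    ring
  have i1 : IntervalIntegrable (fun s => gainN n (til n (f s)) (til n (f s)) (fl s z)
      / (1 + δ * (f s (fl s z) / Mx z.2)) ^ 2) volume 0 t := by
    simp only [div_eq_mul_inv _ (_ ^ 2)]
    refine (h.gain_int hn 0 t z).mul_continuousOn ?_
    rw [uIcc_of_le ht]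
    exact (cD.pow 2).inv₀ nD
  have i2 : IntervalIntegrable (fun s => lam n (f s) (fl s z) *
      (f s (fl s z) * (δ * (f s (fl s z) / Mx z.2)) /
        (1 + δ * (f s (fl s z) / Mx z.2)) ^ 2)) volume 0 t := by
    refine (h.lam_int hn 0 t z).mul_continuousOn ?_
    rw [uIcc_of_le ht]
    exact (hc.mul (continuousOn_const.mul (hc.div_const _))).div (cD.pow 2) nD
  have h3 := h2.expForm (h.lam_int hn 0 t z) (i1.add i2) t ⟨ht, le_rfl⟩
  have g0 : ∀ s, 0 ≤ gainN n (til n (f s)) (til n (f s)) (fl s z)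
      / (1 + δ * (f s (fl s z) / Mx z.2)) ^ 2 := fun s =>
    div_nonneg (h.gain_nonneg hn _ _) (sq_nonneg _)
  have r0 : ∀ s, 0 ≤ lam n (f s) (fl s z) * (f s (fl s z) * (δ * (f s (fl s z) / Mx z.2)) /
      (1 + δ * (f s (fl s z) / Mx z.2)) ^ 2) := fun s => by
    have := h.nonneg s (fl s z)
    have := lam_nonneg (z := fl s z) hn (h.nonneg s)
    positivity
  rw [h3, add_assoc]
  refine ENNReal.ofReal_add_le.trans (add_le_add (ENNReal.ofReal_le_ofReal ?_) ?_)
  · refine mul_le_mul_of_nonneg_right ?_ (Real.exp_pos _).le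
    rw [fl_zero]
    refine div_le_self (h.nonneg _ _) ?_
    have := h.nonneg 0 z
    have : 0 ≤ δ * (f 0 z / Mx z.2) := by positivity
    linarith
  · rw [intervalIntegral.integral_of_le ht]
    refine (sub_ofReal_int (ae_of_all _ fun s =>
      mul_nonneg (add_nonneg (g0 s) (r0 s)) (Real.exp_pos _).le)).trans_eq ?_
    have m1 : Measurable fun τ => ENNReal.ofReal (gainN n (til n (f τ)) (til n (f τ)) (fl τ z)
        / (1 + δ * (f τ (fl τ z) / Mx z.2)) ^ 2)
        * ENNReal.ofReal (Real.exp (-Lam (fun τ => lam n (f τ)) τ t z)) := by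
      have e : Measurable fun τ : ℝ => (τ, fl τ z) := measurable_id.prodMk (measurable_fl_left z)
      exact (((sub_meas_gain n h.meas).comp e).div (((((h.meas.comp e).div_const _).const_mul
        δ).const_add 1).pow_const 2)).ennreal_ofReal.mul (((sub_meas_exp
        (ν := fun τ => lam n (f τ)) (sub_meas_lam n h.meas) t).comp
        (measurable_id.prodMk measurable_const)).ennreal_ofReal)
    rw [← lintegral_add_left m1]
    refine lintegral_congr fun s => ?_
    rw [ENNReal.ofReal_mul (add_nonneg (g0 s) (r0 s)), ENNReal.ofReal_add (g0 s) (r0 s), add_mul]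
    rfl

theorem sub_point {l ν g gT E δ M L : ℝ} (hg : 0 ≤ g) (hE0 : 0 ≤ E) (hE : E ≤ 1)
    (hgT : g * E ≤ gT) (hδ : 0 < δ) (hM : 0 < M) (hM1 : M ≤ 1) (hL : 0 ≤ L) (hν : 0 ≤ ν) :
    l * (g * (δ * (g / M)) / (1 + δ * (g / M)) ^ 2) * E ≤
      δ⁻¹ * |l - ν| + L * (g - g / (1 + δ * (g / M))) + (if L < ν then ν else 0) * gT := by
  obtain ⟨D, hD⟩ : ∃ D, D = δ * (g / M) := ⟨_, rfl⟩
  have hD0 : 0 ≤ D := by rw [hD]; positivity
  have hgD : g ≤ δ⁻¹ * D := by
    rw [hD, ← mul_assoc, inv_mul_cancel₀ hδ.ne', one_mul, le_div_iff₀ hM]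
    exact mul_le_of_le_one_right hg hM1
  rw [← hD]
  have h0 : 0 ≤ g * D / (1 + D) ^ 2 := by positivity
  have h1 : g * D / (1 + D) ^ 2 ≤ δ⁻¹ := by
    rw [div_le_iff₀ (by positivity)]
    have : 0 < δ⁻¹ := inv_pos.2 hδ
    nlinarith [mul_le_mul_of_nonneg_right hgD hD0]
  have h2 : g * D / (1 + D) ^ 2 ≤ g - g / (1 + D) := by
    rw [show g - g / (1 + D) = g * D * (1 + D) / (1 + D) ^ 2 by field_simp; ring]
    exact div_le_div_of_nonneg_right (le_mul_of_one_le_right (by positivity) (by linarith))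
      (by positivity)
  have h3 : g * D / (1 + D) ^ 2 ≤ g := by
    rw [div_le_iff₀ (by positivity)]
    nlinarith [mul_nonneg hg hD0, mul_nonneg (mul_nonneg hg hD0) hD0]
  generalize g * D / (1 + D) ^ 2 = r at *
  generalize g - g / (1 + D) = w at *
  have h4 : r * E ≤ r := mul_le_of_le_one_right h0 hE
  have h5 : r * E ≤ gT := (mul_le_mul_of_nonneg_right h3 hE0).trans hgT
  have h6 : 0 ≤ r * E := mul_nonneg h0 hE0
  have h7 : l ≤ |l - ν| + L + if L < ν then ν else 0 := by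
    have := le_abs_self (l - ν)
    split_ifs with h
    · linarith
    · linarith [not_lt.1 h]
  have h8 : 0 ≤ if L < ν then ν else 0 := by split_ifs <;> linarith
  rw [mul_assoc]
  calc l * (r * E) ≤ (|l - ν| + L + if L < ν then ν else 0) * (r * E) :=
        mul_le_mul_of_nonneg_right h7 h6
    _ = (r * E) * |l - ν| + L * (r * E) + (if L < ν then ν else 0) * (r * E) := by ring
    _ ≤ _ := by gcongr <;> linarith

theorem sub_tail (h : Lim S U F) {t : ℝ} (ht : 0 ≤ t) {A : Set Ph} (hA : MeasurableSet A) {L : ℝ}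
    (hL : ∀ z ∈ A, ∫⁻ τ in Ioc 0 t, ENNReal.ofReal (nuL (F τ) (fl τ z)) ≤ ENNReal.ofReal L)
    {ε : ℝ} (hε : 0 < ε) : ∃ m : ℝ, 0 ≤ m ∧ ∀ᶠ k in (U : Filter ℕ),
      ∫⁻ z in A, (∫⁻ τ in Ioc 0 t, ENNReal.ofReal
        (if m < nuL (F τ) (fl τ z) then nuL (F τ) (fl τ z) else 0)) *
          ENNReal.ofReal (S.F k t (fl t z)) ≤ ENNReal.ofReal ε := by
  have mν : Measurable fun p : ℝ × Ph => nuL (F p.1) (fl p.1 p.2) :=
    (sub_meas_nuL h.meas).comp sub_meas_ST
  have mu : ∀ m : ℝ, Measurable fun p : ℝ × Ph => ENNReal.ofReal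
      (if m < nuL (F p.1) (fl p.1 p.2) then nuL (F p.1) (fl p.1 p.2) else 0) := fun m =>
    (Measurable.ite (measurableSet_lt measurable_const mν) mν measurable_const).ennreal_ofReal
  obtain ⟨B, hB⟩ : ∃ B : ℝ → Ph → ℝ≥0∞, ∀ m z, B m z = ∫⁻ τ in Ioc 0 t, ENNReal.ofReal
      (if m < nuL (F τ) (fl τ z) then nuL (F τ) (fl τ z) else 0) := ⟨_, fun _ _ => rfl⟩
  simp only [← hB]
  have mB : ∀ m, Measurable (B m) := fun m => by
    rw [show B m = _ from funext (hB m)]
    exact sub_meas_inner (mu m) t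
  have hle : ∀ (m : ℝ) (z : Ph) (τ : ℝ), ENNReal.ofReal
      (if m < nuL (F τ) (fl τ z) then nuL (F τ) (fl τ z) else 0) ≤
      ENNReal.ofReal (nuL (F τ) (fl τ z)) := fun m z τ => by
    split_ifs <;> simp
  have bB : ∀ m, ∀ z ∈ A, B m z ≤ ENNReal.ofReal L := fun m z hz => by
    rw [hB]
    exact (lintegral_mono fun τ => hle m z τ).trans (hL z hz)
  have tB : ∀ z ∈ A, Tendsto (fun m : ℕ => B m z) atTop (𝓝 0) := fun z hz => by
    simp only [hB]
    have := tendsto_lintegral_of_dominated_convergence (μ := muT t) (f := fun _ => 0)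
      (F := fun (m : ℕ) τ => ENNReal.ofReal
        (if (m : ℝ) < nuL (F τ) (fl τ z) then nuL (F τ) (fl τ z) else 0))
      (fun τ => ENNReal.ofReal (nuL (F τ) (fl τ z)))
      (fun m => (mu m).comp (f := fun τ : ℝ => (τ, z)) measurable_prodMk_right)
      (fun m => ae_of_all _ fun τ => hle m z τ) ((hL z hz).trans_lt ENNReal.ofReal_lt_top).ne
      (ae_of_all _ fun τ => tendsto_const_nhds.congr' (by
        filter_upwards [tendsto_natCast_atTop_atTop.eventually_ge_atTop (nuL (F τ) (fl τ z))]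
          with m hm
        rw [if_neg (not_lt.2 hm), ENNReal.ofReal_zero]))
    simpa using this
  have mF : Measurable fun z => ENNReal.ofReal (F t (fl t z)) :=
    ((h.meas_t t).comp (measurable_fl_right t)).ennreal_ofReal
  have iF : ∫⁻ z, ENNReal.ofReal (F t (fl t z)) ≠ ⊤ :=
    ((integrable_fl t).2 (h.int t ht)).lintegral_lt_top.ne
  have t1 : Tendsto (fun m : ℕ => ∫⁻ z in A, B m z * ENNReal.ofReal (F t (fl t z))) atTop
      (𝓝 0) := by
    have := tendsto_lintegral_of_dominated_convergence (μ := volume.restrict A) (f := fun _ => 0)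
      (F := fun (m : ℕ) z => B m z * ENNReal.ofReal (F t (fl t z)))
      (fun z => ENNReal.ofReal L * ENNReal.ofReal (F t (fl t z))) (fun m => (mB m).mul mF)
      (fun m => (ae_restrict_mem hA).mono fun z hz => mul_le_mul_left (bB m z hz) _)
      (by
        rw [lintegral_const_mul _ mF]
        exact ENNReal.mul_ne_top ENNReal.ofReal_ne_top
          (ne_top_of_le_ne_top iF (setLIntegral_le_lintegral _ _)))
      ((ae_restrict_mem hA).mono fun z hz => by
        simpa using ENNReal.Tendsto.mul_const (tB z hz) (Or.inr ENNReal.ofReal_ne_top))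
    simpa using this
  obtain ⟨m, hm⟩ := (t1.eventually (gt_mem_nhds (ENNReal.ofReal_pos.2 hε))).exists
  refine ⟨m, Nat.cast_nonneg m, ?_⟩
  have e1 : ∀ G : Ph → ℝ, (∀ z, 0 ≤ G z) →
      ∫⁻ z, ENNReal.ofReal (G z * A.indicator (fun z => (B m z).toReal) z) =
        ∫⁻ z in A, B m z * ENNReal.ofReal (G z) := fun G hG => by
    rw [← lintegral_indicator hA]
    refine lintegral_congr fun z => ?_
    by_cases hz : z ∈ A
    · rw [indicator_of_mem hz, indicator_of_mem hz, ENNReal.ofReal_mul (hG z),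
        ENNReal.ofReal_toReal ((bB m z hz).trans_lt ENNReal.ofReal_lt_top).ne, mul_comm]
    · simp [hz]
  have t2 := h.sharp_tendsto ht (ψ := A.indicator fun z => (B m z).toReal)
    ((mB m).ennreal_toReal.indicator hA)
    (fun z => indicator_nonneg (fun _ _ => ENNReal.toReal_nonneg) z) (C := max L 0) fun z => by
      by_cases hz : z ∈ A
      · rw [indicator_of_mem hz]
        exact (ENNReal.toReal_mono ENNReal.ofReal_ne_top (bB m z hz)).trans_eq
          ENNReal.toReal_ofReal'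
      · rw [indicator_of_notMem hz]; exact le_max_right _ _
  rw [e1 _ fun z => h.nonneg _ _] at t2
  filter_upwards [t2.eventually (gt_mem_nhds hm)] with k hk
  rw [e1 _ fun z => (S.appr k).nonneg _ _] at hk
  exact hk.le

/-- The remainder term is small on sets where the accumulated rate and the speed are bounded. -/
theorem Lim.remainder (h : Lim S U F) {t : ℝ} (ht : 0 ≤ t) {A : Set Ph} (hA : MeasurableSet A)
    {R L : ℝ} (hR : ∀ z ∈ A, ‖z.2‖ ≤ R)
    (hL : ∀ z ∈ A, ∫⁻ τ in Ioc 0 t, ENNReal.ofReal (nuL (F τ) (fl τ z)) ≤ ENNReal.ofReal L)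
    {ε : ℝ} (hε : 0 < ε) : ∃ δ₀ : ℝ, 0 < δ₀ ∧ ∀ δ ∈ Ioc 0 δ₀, ∀ᶠ k in (U : Filter ℕ),
      ∫⁻ z in A, ∫⁻ τ in Ioc 0 t, ENNReal.ofReal (lam (S.n k) (S.F k τ) (fl τ z) *
          (S.F k τ (fl τ z) * (δ * (S.F k τ (fl τ z) / Mx z.2))
            / (1 + δ * (S.F k τ (fl τ z) / Mx z.2)) ^ 2))
          * ENNReal.ofReal (Real.exp (-Lam (fun τ => lam (S.n k) (S.F k τ)) τ t z))
        ≤ ENNReal.ofReal ε := by
  have hε3 : 0 < ε / 3 := by positivity
  obtain ⟨m, hm0, hm⟩ := sub_tail h ht hA hL hε3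
  obtain ⟨δ₀, hδ₀, hβ⟩ := S.beta_close t (ε := ε / 3 / ((m + 1) * (t + 1))) (by positivity)
  refine ⟨δ₀, hδ₀, fun δ hδ => ?_⟩
  filter_upwards [hm, (h.lam_L1 t R).eventually
    (ge_mem_nhds (ENNReal.ofReal_pos.2 (mul_pos hδ.1 hε3)))] with k k3 k1
  have ha := S.appr k
  have hn := S.pos k
  have m1 : Measurable fun p : ℝ × Ph => ‖lam (S.n k) (S.F k p.1) p.2 - nuL (F p.1) p.2‖ₑ :=
    ((sub_meas_lam _ ha.meas).sub (sub_meas_nuL h.meas)).enorm
  have m2 : Measurable fun p : ℝ × Ph => ENNReal.ofReal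
      (S.F k p.1 p.2 - S.F k p.1 p.2 / (1 + δ * (S.F k p.1 p.2 / Mx p.2.2))) :=
    (ha.meas.sub (ha.meas.div (((ha.meas.div sub_meas_Mx).const_mul δ).const_add 1))).ennreal_ofReal
  have mν : Measurable fun p : ℝ × Ph => nuL (F p.1) (fl p.1 p.2) :=
    (sub_meas_nuL h.meas).comp sub_meas_ST
  have m3 : Measurable fun p : ℝ × Ph => ENNReal.ofReal
      (if m < nuL (F p.1) (fl p.1 p.2) then nuL (F p.1) (fl p.1 p.2) else 0) :=
    (Measurable.ite (measurableSet_lt measurable_const mν) mν measurable_const).ennreal_ofReal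
  have k2 : ∫⁻ z in A, ∫⁻ τ in Ioc 0 t, ENNReal.ofReal (S.F k τ (fl τ z) -
      S.F k τ (fl τ z) / (1 + δ * (S.F k τ (fl τ z) / Mx z.2))) ≤
      ENNReal.ofReal (ε / 3 / ((m + 1) * (t + 1)) * t) := by
    refine (setLIntegral_le_lintegral _ _).trans ((sub_swap m2 t).trans_le ?_)
    rw [lintegral_prod _ m2.aemeasurable]
    refine (setLIntegral_mono' measurableSet_Ioc fun τ hτ =>
      hβ δ hδ k τ ⟨hτ.1.le, hτ.2⟩).trans_eq ?_
    rw [setLIntegral_const, Real.volume_Ioc, sub_zero, ENNReal.ofReal_mul (by positivity)]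
  have e : ∀ z : Ph, Measurable fun τ : ℝ => (τ, fl τ z) := fun z =>
    measurable_id.prodMk (measurable_fl_left z)
  calc _ ≤ ∫⁻ z in A, (ENNReal.ofReal δ⁻¹ * (∫⁻ τ in Ioc 0 t,
          ‖lam (S.n k) (S.F k τ) (fl τ z) - nuL (F τ) (fl τ z)‖ₑ) +
        ENNReal.ofReal m * (∫⁻ τ in Ioc 0 t, ENNReal.ofReal (S.F k τ (fl τ z) -
          S.F k τ (fl τ z) / (1 + δ * (S.F k τ (fl τ z) / Mx z.2)))) +
        (∫⁻ τ in Ioc 0 t, ENNReal.ofReal
          (if m < nuL (F τ) (fl τ z) then nuL (F τ) (fl τ z) else 0)) *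
          ENNReal.ofReal (S.F k t (fl t z))) := by
        refine lintegral_mono fun z => ?_
        have m4 : Measurable fun τ => ENNReal.ofReal
            (if m < nuL (F τ) (fl τ z) then nuL (F τ) (fl τ z) else 0) :=
          m3.comp (f := fun τ : ℝ => (τ, z)) measurable_prodMk_right
        rw [← lintegral_mul_const _ m4]
        refine le_trans (setLIntegral_mono' measurableSet_Ioc fun τ hτ => ?_)
          (sub_add3 (m1.comp (e z)) (m2.comp (e z)) _ _).le
        have l0 : ∀ s z, 0 ≤ lam (S.n k) (S.F k s) z := fun s z => lam_nonneg hn (ha.nonneg s)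
        have hE : Real.exp (-Lam (fun τ => lam (S.n k) (S.F k τ)) τ t z) ≤ 1 :=
          Real.exp_le_one_iff.2 (neg_nonpos.2 (Lam_nonneg l0 hτ.2 z))
        have hT : S.F k τ (fl τ z) * Real.exp (-Lam (fun τ => lam (S.n k) (S.F k τ)) τ t z) ≤
            S.F k t (fl t z) := by
          rw [ha.expForm hn hτ.1.le hτ.2 z]
          exact le_add_of_nonneg_right (intervalIntegral.integral_nonneg hτ.2 fun s _ =>
            mul_nonneg (ha.gain_nonneg hn _ _) (Real.exp_pos _).le)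
        have n0 := nuL_nonneg (h.nonneg τ) (fl τ z)
        have hp := sub_point (l := lam (S.n k) (S.F k τ) (fl τ z)) (ha.nonneg τ (fl τ z))
          (Real.exp_pos _).le hE hT hδ.1 (Mx_pos z.2) (Mx_le_one z.2) hm0 n0
        rw [mul_comm (ENNReal.ofReal _), ← ENNReal.ofReal_mul (Real.exp_pos _).le, mul_comm]
        refine (ENNReal.ofReal_le_ofReal hp).trans (ENNReal.ofReal_add_le.trans
          (add_le_add (ENNReal.ofReal_add_le.trans (add_le_add ?_ ?_)) ?_))
        · rw [ENNReal.ofReal_mul (inv_pos.2 hδ.1).le, ← Real.enorm_eq_ofReal_abs]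
          rfl
        · rw [ENNReal.ofReal_mul hm0]
          rfl
        · rw [ENNReal.ofReal_mul (by split_ifs <;> linarith)]
    _ ≤ ENNReal.ofReal δ⁻¹ * ENNReal.ofReal (δ * (ε / 3)) +
        ENNReal.ofReal m * ENNReal.ofReal (ε / 3 / ((m + 1) * (t + 1)) * t) +
        ENNReal.ofReal (ε / 3) := by
        have n1 := sub_meas_inner (m1.comp sub_meas_ST) t
        have n2 := sub_meas_inner (m2.comp sub_meas_ST) t
        exact (sub_add3 n1 n2 _ _).trans_le (add_le_add (add_le_add (mul_le_mul_right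
          ((sub_swap_set m1 t hA hR).trans k1) _) (mul_le_mul_right k2 _)) k3)
    _ ≤ _ := by
        have hδ0 := hδ.1
        rw [← ENNReal.ofReal_mul (by positivity), ← ENNReal.ofReal_mul hm0,
          ← ENNReal.ofReal_add (by positivity) (by positivity),
          ← ENNReal.ofReal_add (by positivity) (by positivity)]
        refine ENNReal.ofReal_le_ofReal ?_
        have e1 : δ⁻¹ * (δ * (ε / 3)) = ε / 3 := by field_simp
        have e2 : m * (ε / 3 / ((m + 1) * (t + 1)) * t) ≤ ε / 3 := by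
          rw [show m * (ε / 3 / ((m + 1) * (t + 1)) * t) =
            ε / 3 * (m * t / ((m + 1) * (t + 1))) by ring]
          refine mul_le_of_le_one_right hε3.le ?_
          rw [div_le_one (by positivity)]
          nlinarith
        linarith

theorem sub_set (h : Lim S U F) {t : ℝ} (ht : 0 ≤ t) {A : Set Ph} (hA : MeasurableSet A)
    {R L : ℝ} (hR : ∀ z ∈ A, ‖z.2‖ ≤ R)
    (hL : ∀ z ∈ A, ∫⁻ τ in Ioc 0 t, ENNReal.ofReal (nuL (F τ) (fl τ z)) ≤ ENNReal.ofReal L) :
    ∫⁻ z in A, ENNReal.ofReal (F t (fl t z)) ≤ ∫⁻ z in A, duh F₀ F t z := by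
  have mν := sub_meas_nuL h.meas
  have mI : Measurable fun z => ENNReal.ofReal
      (F₀ z * Real.exp (-Lam (fun τ => nuL (F τ)) 0 t z)) :=
    (S.datum.meas.mul ((sub_meas_exp (ν := fun τ => nuL (F τ)) mν t).comp
      (measurable_const.prodMk measurable_id))).ennreal_ofReal
  have mb : Measurable fun p : ℝ × Ph => A.indicator (fun _ => (1 : ℝ)) (fl (-p.1) p.2) :=
    (measurable_const.indicator hA).comp
      (measurable_fl.comp (measurable_fst.neg.prodMk measurable_snd))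
  have ma : ∀ {ν : ℝ → Ph → ℝ}, Measurable (fun p : ℝ × Ph => ν p.1 p.2) → Measurable
      fun p : ℝ × Ph => min 1 (Real.exp (-Lam ν p.1 t (fl (-p.1) p.2)))
        * A.indicator (fun _ => (1 : ℝ)) (fl (-p.1) p.2) := fun hν =>
    (measurable_const.min ((sub_meas_exp hν t).comp (measurable_fst.prodMk
      (measurable_fl.comp (measurable_fst.neg.prodMk measurable_snd))))).mul mb
  have hb : ∀ z : Ph, A.indicator (fun _ => (1 : ℝ)) z ∈ Icc (0 : ℝ) 1 := fun z => by
    by_cases hz : z ∈ A <;> simp [hz]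
  have hI : ∀ (x : ℝ) (z : Ph),
      min 1 (Real.exp x) * A.indicator (fun _ => (1 : ℝ)) z ∈ Icc (0 : ℝ) 1 := fun x z =>
    ⟨mul_nonneg (le_min zero_le_one (Real.exp_pos _).le) (hb z).1,
      mul_le_one₀ (min_le_left _ _) (hb z).1 (hb z).2⟩
  have e1 : ∀ G : Ph → ℝ, ∫⁻ z, ENNReal.ofReal (G z * A.indicator (fun _ => (1 : ℝ)) z) =
      ∫⁻ z in A, ENNReal.ofReal (G z) := fun G => by
    rw [← lintegral_indicator hA]
    refine lintegral_congr fun z => ?_
    by_cases hz : z ∈ A <;> simp [hz]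
  have t0 := h.sharp_tendsto ht (measurable_const.indicator hA) (fun z => (hb z).1)
    fun z => (hb z).2
  simp only [e1] at t0
  simp only [duh]
  rw [lintegral_add_left mI, duh_gain_eq (Q := fun p => QpF (F p.1) p.2)
    (measurable_QpF (F := fun p : ℝ × Ph => F p.1) (sub_meas_lift h.meas) measurable_snd) mν
    (fun s z => nuL_nonneg (h.nonneg s) z) t hA]
  refine ENNReal.le_of_forall_pos_le_add fun ε hε hfin => ?_
  have hε4 : (0 : ℝ) < ε / 4 := by positivity
  have hε4' : ENNReal.ofReal (ε / 4) ≠ 0 := (ENNReal.ofReal_pos.2 hε4).ne'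
  obtain ⟨δ₀, hδ₀, hr⟩ := h.remainder ht hA hR hL hε4
  obtain ⟨δ₁, hδ₁, hβ⟩ := S.beta_close t hε4
  obtain ⟨δ, hδ, d0, d1⟩ : ∃ δ > (0 : ℝ), δ ≤ δ₀ ∧ δ ≤ δ₁ :=
    ⟨min δ₀ δ₁, lt_min hδ₀ hδ₁, min_le_left _ _, min_le_right _ _⟩
  have g1 := h.gain_upper (T := t) (fun k => ma (ν := fun τ => lam (S.n k) (S.F k τ))
    (sub_meas_lam _ (S.appr k).meas)) (ma mν) (fun k p => hI _ _) (fun p => hI _ _)
    ((h.expST ht).mul_bdd mb (C := 1) fun p => by rw [abs_of_nonneg (hb _).1]; exact (hb _).2)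
    (R := R) (fun k p hp => by
      rw [indicator_of_notMem (a := fl (-p.1) p.2) fun hz => absurd (hR _ hz) (not_le.2 hp),
        mul_zero])
    (h.rate_L1 t R) (fun δ hδ => h.rho_loc hδ t) hδ
  have g2 := eventually_lt_of_limsup_lt (g1.trans_lt
    (ENNReal.lt_add_right (ENNReal.add_lt_top.1 hfin).2.ne hε4'))
  have g3 := (h.init_exp ht hA).eventually (gt_mem_nhds
    (ENNReal.lt_add_right (ENNReal.add_lt_top.1 hfin).1.ne hε4'))
  refine le_of_tendsto t0 ?_
  filter_upwards [g2, g3, hr δ ⟨hδ, d0⟩] with k k2 k3 k4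
  have ha := S.appr k
  have hn := S.pos k
  have ml := sub_meas_lam (S.n k) ha.meas
  have mD : Measurable fun p : ℝ × Ph => 1 + δ * (S.F k p.1 p.2 / Mx p.2.2) :=
    ((ha.meas.div sub_meas_Mx).const_mul δ).const_add 1
  have mQ : Measurable fun p : ℝ × Ph => ENNReal.ofReal
      (gainN (S.n k) (S.G k p.1) (S.G k p.1) p.2 / (1 + δ * (S.F k p.1 p.2 / Mx p.2.2)) ^ 2) :=
    ((sub_meas_gain _ ha.meas).div (mD.pow_const 2)).ennreal_ofReal
  have mE := (sub_meas_exp (ν := fun τ => lam (S.n k) (S.F k τ)) ml t).ennreal_ofReal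
  have j1 := duh_gain_eq (ν := fun τ => lam (S.n k) (S.F k τ)) mQ ml
    (fun s z => lam_nonneg hn (ha.nonneg s)) t hA
  have j2 : ∀ p : ℝ × Ph, ∀ x : ℝ, ENNReal.ofReal
      (gainN (S.n k) (S.G k p.1) (S.G k p.1) p.2 / (1 + δ * (S.F k p.1 p.2 / Mx p.2.2)) ^ 2) *
      ENNReal.ofReal x = ENNReal.ofReal (gainN (S.n k) (S.G k p.1) (S.G k p.1) p.2 * x /
        (1 + δ * (S.F k p.1 p.2 / Mx p.2.2)) ^ 2) := fun p x => by
    have : 0 ≤ gainN (S.n k) (S.G k p.1) (S.G k p.1) p.2 := ha.gain_nonneg hn _ _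
    rw [← ENNReal.ofReal_mul (div_nonneg this (sq_nonneg _)), div_mul_eq_mul_div]
  rw [lintegral_congr fun p => j2 p _] at j1
  have mβ : Measurable fun z : Ph => ENNReal.ofReal
      (S.F k t z - S.F k t z / (1 + δ * (S.F k t z / Mx z.2))) :=
    (ha.meas.sub (ha.meas.div mD)).ennreal_ofReal.comp (measurable_const.prodMk measurable_id)
  have mI' : Measurable fun z => ENNReal.ofReal
      (S.F k 0 z * Real.exp (-Lam (fun τ => lam (S.n k) (S.F k τ)) 0 t z)) :=
    ((ha.meas_t 0).mul ((sub_meas_exp (ν := fun τ => lam (S.n k) (S.F k τ)) ml t).comp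
      (measurable_const.prodMk measurable_id))).ennreal_ofReal
  have mJ := sub_meas_inner ((mQ.comp sub_meas_ST).mul mE) t
  have k1 : ∫⁻ z in A, ENNReal.ofReal (S.F k t (fl t z) -
      S.F k t (fl t z) / (1 + δ * (S.F k t (fl t z) / Mx z.2))) ≤ ENNReal.ofReal (ε / 4) :=
    (setLIntegral_le_lintegral _ _).trans ((lintegral_fl t _).trans_le
      (hβ δ ⟨hδ, d1⟩ k t ⟨ht, le_rfl⟩))
  have k5 := (lintegral_mono (μ := volume.restrict A) fun z => ha.ren_le hn hδ ht z).trans_eq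
    ((lintegral_add_left (mI'.add mJ) _).trans
      (congrArg (· + _) (lintegral_add_left mI' _)))
  calc _ ≤ ∫⁻ z in A, (ENNReal.ofReal (S.F k t (fl t z) -
          S.F k t (fl t z) / (1 + δ * (S.F k t (fl t z) / Mx z.2))) +
        ENNReal.ofReal (S.F k t (fl t z) / (1 + δ * (S.F k t (fl t z) / Mx z.2)))) :=
        lintegral_mono fun z => le_trans (by rw [sub_add_cancel]) ENNReal.ofReal_add_le
    _ ≤ _ := by
        refine (lintegral_add_left (mβ.comp (measurable_fl_right t)) _).trans_le ?_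
        refine (add_le_add k1 (k5.trans (add_le_add (add_le_add k3.le (j1.trans_le k2.le))
          k4))).trans_eq ?_
        have e4 : (ε : ℝ≥0∞) = ENNReal.ofReal (ε / 4) + ENNReal.ofReal (ε / 4) +
            ENNReal.ofReal (ε / 4) + ENNReal.ofReal (ε / 4) := by
          rw [← ENNReal.ofReal_add hε4.le hε4.le, ← ENNReal.ofReal_add (by positivity) hε4.le,
            ← ENNReal.ofReal_add (by positivity) hε4.le, ← ENNReal.ofReal_coe_nnreal]
          congr 1
          ring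
        rw [e4]
        ring

theorem Lim.sub (h : Lim S U F) {t : ℝ} (ht : 0 ≤ t) :
    ∀ᵐ z : Ph, ENNReal.ofReal (F t (fl t z)) ≤ duh F₀ F t z := by
  have mN := sub_meas_inner ((sub_meas_nuL h.meas).comp sub_meas_ST).ennreal_ofReal t
  have hA : ∀ m : ℕ, MeasurableSet {z : Ph | ‖z.2‖ ≤ m ∧
      ∫⁻ τ in Ioc 0 t, ENNReal.ofReal (nuL (F τ) (fl τ z)) ≤ ENNReal.ofReal m} := fun m =>
    (measurableSet_le measurable_snd.norm measurable_const).inter
      (measurableSet_le mN measurable_const)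
  have h1 : ∀ m : ℕ, ∀ᵐ z : Ph, (‖z.2‖ ≤ m ∧
      ∫⁻ τ in Ioc 0 t, ENNReal.ofReal (nuL (F τ) (fl τ z)) ≤ ENNReal.ofReal m) →
      ENNReal.ofReal (F t (fl t z)) ≤ duh F₀ F t z := fun m => by
    refine (ae_restrict_iff' (hA m)).1 (ae_le_of_forall_setLIntegral_le_of_sigmaFinite
      ((h.meas_t t).comp (measurable_fl_right t)).ennreal_ofReal fun s hs _ => ?_)
    rw [Measure.restrict_restrict hs]
    exact sub_set h ht (hs.inter (hA m)) (fun z hz => hz.2.1) fun z hz => hz.2.2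
  filter_upwards [ae_all_iff.2 h1, h.ae_nuL_int ht] with z h2 h3
  have h4 : ∫⁻ τ in Ioc 0 t, ENNReal.ofReal (nuL (F τ) (fl τ z)) < ⊤ := h3.1.lintegral_lt_top
  obtain ⟨m, hm⟩ := exists_nat_ge
    (max ‖z.2‖ (∫⁻ τ in Ioc 0 t, ENNReal.ofReal (nuL (F τ) (fl τ z))).toReal)
  refine h2 m ⟨(le_max_left _ _).trans hm, ?_⟩
  rw [← ENNReal.ofReal_toReal h4.ne]
  exact ENNReal.ofReal_le_ofReal ((le_max_right _ _).trans hm)

end

end Vale.Agent.P140
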