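import Vale.Agent.P140.Rate
import Vale.Agent.P140.Gain

/-! The limit is a supersolution in exponential form. -/

namespace Vale.Agent.P140

open MeasureTheory Set Filter Topology
open scoped ENNReal RealInnerProductSpace

noncomputable section

variable {F₀ : Ph → ℝ} {S : Seq F₀} {U : Ultrafilter ℕ} {F : ℝ → Ph → ℝ}

theorem sup_meas_ind {A : Set Ph} (hA : MeasurableSet A) :
    Measurable fun p : ℝ × Ph => A.indicator (fun _ => (1 : ℝ)) (fl (-p.1) p.2) :=
  (measurable_const.indicator hA).comp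
    (measurable_fl.comp (measurable_fst.neg.prodMk measurable_snd))

theorem sup_ind_mem (A : Set Ph) (z : Ph) : A.indicator (fun _ => (1 : ℝ)) z ∈ Icc (0 : ℝ) 1 := by
  by_cases hz : z ∈ A <;> simp [hz]

theorem sup_mul_mem (A : Set Ph) (x : ℝ) (z : Ph) :
    min 1 (Real.exp x) * A.indicator (fun _ => (1 : ℝ)) z ∈ Icc (0 : ℝ) 1 :=
  ⟨mul_nonneg (le_min zero_le_one (Real.exp_pos _).le) (sup_ind_mem A z).1,
    mul_le_one₀ (min_le_left _ _) (sup_ind_mem A z).1 (sup_ind_mem A z).2⟩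

theorem sup_ind_int {A : Set Ph} (hA : MeasurableSet A) (G : Ph → ℝ) :
    ∫⁻ z, ENNReal.ofReal (G z * A.indicator (fun _ => (1 : ℝ)) z) =
      ∫⁻ z in A, ENNReal.ofReal (G z) := by
  rw [← lintegral_indicator hA]
  refine lintegral_congr fun z => ?_
  by_cases hz : z ∈ A <;> simp [hz]

/-- The time-integrated gain in the Duhamel formula, restricted to a set, as a space-time
integral. -/
theorem duh_gain_eq {Q : ℝ × Ph → ℝ≥0∞} (hQ : Measurable Q) {ν : ℝ → Ph → ℝ}
    (hν : Measurable (fun p : ℝ × Ph => ν p.1 p.2)) (h0 : ∀ t z, 0 ≤ ν t z) (t : ℝ)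
    {A : Set Ph} (hA : MeasurableSet A) :
    ∫⁻ z in A, ∫⁻ τ in Ioc 0 t, Q (τ, fl τ z) * ENNReal.ofReal (Real.exp (-Lam ν τ t z))
      = ∫⁻ p, Q p * ENNReal.ofReal (min 1 (Real.exp (-Lam ν p.1 t (fl (-p.1) p.2)))
          * A.indicator (fun _ => (1 : ℝ)) (fl (-p.1) p.2)) ∂(mu3 t) := by
  have m1 : Measurable fun p : ℝ × Ph => Q p * ENNReal.ofReal
      (min 1 (Real.exp (-Lam ν p.1 t (fl (-p.1) p.2)))
        * A.indicator (fun _ => (1 : ℝ)) (fl (-p.1) p.2)) :=
    hQ.mul ((rate_measST hν t).mul (sup_meas_ind hA)).ennreal_ofReal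
  rw [← sub_swap m1, ← lintegral_indicator hA]
  refine lintegral_congr fun z => ?_
  simp only [fl_neg_fl]
  by_cases hz : z ∈ A
  · rw [indicator_of_mem hz, indicator_of_mem hz]
    refine setLIntegral_congr_fun measurableSet_Ioc fun τ hτ => ?_
    rw [min_eq_right (rate_exp_le h0 hτ.2 z), mul_one]
  · simp [hz]

theorem sup_appr {n : ℝ} {f : ℝ → Ph → ℝ} (hn : 0 < n) (h : Appr n f) {t : ℝ} (ht : 0 ≤ t)
    (z : Ph) : ENNReal.ofReal (f 0 z * Real.exp (-Lam (fun τ => lam n (f τ)) 0 t z)) +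
      ∫⁻ τ in Ioc 0 t, ENNReal.ofReal (gainN n (til n (f τ)) (til n (f τ)) (fl τ z)) *
        ENNReal.ofReal (Real.exp (-Lam (fun τ => lam n (f τ)) τ t z)) =
      ENNReal.ofReal (f t (fl t z)) := by
  have l0 : ∀ s z, 0 ≤ lam n (f s) z := fun s z => lam_nonneg hn (h.nonneg s)
  have g0 : ∀ τ, 0 ≤ gainN n (til n (f τ)) (til n (f τ)) (fl τ z) *
      Real.exp (-Lam (fun τ => lam n (f τ)) τ t z) := fun τ =>
    mul_nonneg (h.gain_nonneg hn _ _) (Real.exp_pos _).le
  have i1 : Integrable (fun τ => gainN n (til n (f τ)) (til n (f τ)) (fl τ z) *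
      Real.exp (-Lam (fun τ => lam n (f τ)) τ t z)) (muT t) :=
    (h.gain_int hn 0 t z).1.mul_bdd (c := 1) ((sub_meas_exp (ν := fun τ => lam n (f τ))
      (sub_meas_lam n h.meas) t).comp (f := fun τ : ℝ => (τ, z))
        measurable_prodMk_right).aestronglyMeasurable
      ((ae_restrict_mem measurableSet_Ioc).mono fun τ hτ => by
        rw [Real.norm_eq_abs, abs_of_pos (Real.exp_pos _)]
        exact rate_exp_le l0 hτ.2 z)
  rw [h.expForm hn le_rfl ht z, fl_zero, intervalIntegral.integral_of_le ht,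
    ENNReal.ofReal_add (mul_nonneg (h.nonneg _ _) (Real.exp_pos _).le) (integral_nonneg g0),
    ofReal_integral_eq_lintegral_ofReal i1 (ae_of_all _ g0)]
  congr 1
  exact lintegral_congr fun τ => (ENNReal.ofReal_mul (h.gain_nonneg hn _ _)).symm

theorem Lim.super (h : Lim S U F) {t : ℝ} (ht : 0 ≤ t) :
    ∀ᵐ z : Ph, duh F₀ F t z ≤ ENNReal.ofReal (F t (fl t z)) := by
  refine ae_le_of_forall_setLIntegral_le_of_sigmaFinite
    (h.meas_duh.comp (f := fun z : Ph => (t, z)) measurable_prodMk_left) fun A hA _ => ?_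
  have mν := sub_meas_nuL h.meas
  have mI : Measurable fun z => ENNReal.ofReal
      (F₀ z * Real.exp (-Lam (fun τ => nuL (F τ)) 0 t z)) :=
    (S.datum.meas.mul (rate_meas0 (ν := fun τ => nuL (F τ)) mν 0 t)).ennreal_ofReal
  have t0 := h.sharp_tendsto ht (measurable_const.indicator hA) (fun z => (sup_ind_mem A z).1)
    fun z => (sup_ind_mem A z).2
  simp only [sup_ind_int hA] at t0
  simp only [duh]
  rw [lintegral_add_left mI, duh_gain_eq (Q := fun p => QpF (F p.1) p.2)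
    (measurable_QpF (F := fun p : ℝ × Ph => F p.1) (sub_meas_lift h.meas) measurable_snd) mν
    (fun s z => nuL_nonneg (h.nonneg s) z) t hA]
  have g1 := h.gain_lower (T := t) (fun k => (rate_measST (ν := fun τ => lam (S.n k) (S.F k τ))
    (sub_meas_lam _ (S.appr k).meas) t).mul (sup_meas_ind hA))
    ((rate_measST (ν := fun τ => nuL (F τ)) mν t).mul (sup_meas_ind hA))
    (fun k p => sup_mul_mem _ _ _) (fun p => sup_mul_mem _ _ _)
    ((h.expST ht).mul_bdd (sup_meas_ind hA) (C := 1) fun p => by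
      rw [abs_of_nonneg (sup_ind_mem _ _).1]; exact (sup_ind_mem _ _).2)
  obtain ⟨J, -, hJ⟩ := isCompact_univ.ultrafilter_le_nhds (U.map fun k => ∫⁻ p, ENNReal.ofReal
    (gainN (S.n k) (S.G k p.1) (S.G k p.1) p.2 *
      (min 1 (Real.exp (-Lam (fun τ => lam (S.n k) (S.F k τ)) p.1 t (fl (-p.1) p.2))) *
        A.indicator (fun _ => (1 : ℝ)) (fl (-p.1) p.2))) ∂(mu3 t)) (by simp)
  have g2 := g1.trans_eq (Tendsto.liminf_eq hJ)
  refine (add_le_add le_rfl g2).trans (le_of_tendsto_of_tendsto' ((h.init_exp ht hA).add hJ) t0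
    fun k => le_of_eq ?_)
  have ha := S.appr k
  have hn := S.pos k
  have ml := sub_meas_lam (S.n k) ha.meas
  have j1 := duh_gain_eq (ν := fun τ => lam (S.n k) (S.F k τ))
    (sub_meas_gain (S.n k) ha.meas).ennreal_ofReal ml (rate_l0 S k) t hA
  rw [lintegral_congr fun p => (ENNReal.ofReal_mul (ha.gain_nonneg hn _ _)).symm] at j1
  have mI' : Measurable fun z => ENNReal.ofReal
      (S.F k 0 z * Real.exp (-Lam (fun τ => lam (S.n k) (S.F k τ)) 0 t z)) :=
    ((ha.meas_t 0).mul (rate_meas0 (ν := fun τ => lam (S.n k) (S.F k τ)) ml 0 t)).ennreal_ofReal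
  exact (congrArg (_ + ·) j1.symm).trans ((lintegral_add_left mI' _).symm.trans
    (lintegral_congr fun z => sup_appr hn ha ht z))

end

end Vale.Agent.P140
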