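import Vale.Agent.P140.Unif0

/-! Uniform estimates along a sequence of regularized solutions. -/

namespace Vale.Agent.P140

open MeasureTheory Set Filter Topology
open scoped ENNReal RealInnerProductSpace

noncomputable section

theorem unif_deriv {d m u : ℝ} (hd : 0 < d) (hm : 0 < m) (hu : 0 ≤ u) :
    HasDerivAt (fun u : ℝ => u / (1 + d * (u / m))) (1 / (1 + d * (u / m)) ^ 2) u := by
  have h1 : (1 + d * (u / m)) ≠ 0 := by positivity
  have h2 : HasDerivAt (fun u : ℝ => 1 + d * (u / m)) (d * (1 / m)) u :=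
    (((hasDerivAt_id u).div_const m).const_mul d).const_add 1
  refine ((hasDerivAt_id u).div h2 h1).congr_deriv ?_
  simp only [id]
  congr 1
  ring

theorem unif_pt {d m u g r q L : ℝ} {c E : ℝ≥0∞} (hd : 0 < d) (hm : 0 < m) (hg : 0 ≤ g)
    (hgu : g ≤ u) (hr : 0 ≤ r) (hq : 0 ≤ q) (hL : 0 ≤ L)
    (h : ENNReal.ofReal q ≤ ENNReal.ofReal (L * (g * r)) + c * E) :
    ‖1 / (1 + d * (u / m)) ^ 2 * (q - g * r)‖ₑ
      ≤ ENNReal.ofReal ((L + 1) / d) * ENNReal.ofReal (m * r) + c * E := by
  have hu : 0 ≤ u := hg.trans hgu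
  set b := 1 / (1 + d * (u / m)) ^ 2 with hb
  have h1 : 1 ≤ 1 + d * (u / m) := le_add_of_nonneg_right (by positivity)
  have hb0 : 0 ≤ b := by positivity
  have hb1 : b ≤ 1 := by
    rw [hb, div_le_one (by positivity)]
    exact one_le_pow₀ h1
  have hbg : b * g ≤ m / d := by
    rw [hb, div_mul_eq_mul_div, one_mul, div_le_div_iff₀ (by positivity) hd]
    have e : m * (1 + d * (u / m)) = m + d * u := by field_simp
    calc g * d ≤ (m + d * u) * 1 := by nlinarith
      _ ≤ (m + d * u) * (1 + d * (u / m)) := by gcongr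
      _ = _ := by rw [← e]; ring
  have hA : ‖b * (q - g * r)‖ₑ ≤ ENNReal.ofReal b * ENNReal.ofReal q + ENNReal.ofReal (b * g * r) := by
    rw [← ENNReal.ofReal_mul hb0, ← ENNReal.ofReal_add (by positivity) (by positivity)]
    refine wk_enorm_le (abs_le.2 ⟨?_, ?_⟩) <;>
      nlinarith [mul_nonneg hb0 hq, mul_nonneg (mul_nonneg hb0 hg) hr]
  refine hA.trans ?_
  calc _ ≤ ENNReal.ofReal b * (ENNReal.ofReal (L * (g * r)) + c * E)
          + ENNReal.ofReal (b * g * r) := by gcongr
    _ = ENNReal.ofReal ((L + 1) * (b * g * r)) + ENNReal.ofReal b * (c * E) := by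
        rw [mul_add, ← ENNReal.ofReal_mul hb0, add_right_comm,
          ← ENNReal.ofReal_add (by positivity) (by positivity)]
        congr 2
        ring
    _ ≤ _ := by
        rw [← ENNReal.ofReal_mul (by positivity)]
        refine add_le_add (ENNReal.ofReal_le_ofReal ?_) ?_
        · calc (L + 1) * (b * g * r) ≤ (L + 1) * (m / d * r) := by gcongr
            _ = _ := by ring
        · exact mul_le_of_le_one_left' (ENNReal.ofReal_le_one.2 hb1)

theorem unif_tri (a b c d : ℝ) : ‖a - b‖ₑ ≤ ‖a - c‖ₑ + (‖b - d‖ₑ + ‖c - d‖ₑ) := by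
  have e : a - b = (a - c) + ((d - b) + (c - d)) := by ring
  rw [e, enorm_sub_rev b d]
  exact (enorm_add_le _ _).trans (add_le_add le_rfl (enorm_add_le _ _))

variable {F₀ : Ph → ℝ} (S : Seq F₀)

theorem Seq.unif_char (k : ℕ) {d L s t : ℝ} (hd : 0 < d) (hL : 1 < L) (hs : 0 ≤ s) (hst : s ≤ t)
    (z : Ph) : ‖S.F k t (fl t z) / (1 + d * (S.F k t (fl t z) / Mx z.2))
      - S.F k s (fl s z) / (1 + d * (S.F k s (fl s z) / Mx z.2))‖ₑ
      ≤ ∫⁻ τ in Ioc s t, ENNReal.ofReal ((L + 1) / d)
          * ENNReal.ofReal (Mx (fl τ z).2 * rateN (S.n k) (S.G k τ) (fl τ z))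
        + ENNReal.ofReal (1 / Real.log L) * EN (S.n k) (S.G k τ) (fl τ z) := by
  have hm := Mx_pos z.2
  have hn := S.pos k
  have hP := (((S.appr k).prim hn (hs.trans hst) z).mono hs hst le_rfl).comp_Ici
    (β := fun u : ℝ => u / (1 + d * (u / Mx z.2))) (β' := fun u => 1 / (1 + d * (u / Mx z.2)) ^ 2)
    (fun τ _ => (S.appr k).nonneg τ _) (fun u hu => (unif_deriv hd hm hu).hasDerivWithinAt)
    (continuousOn_const.div (by fun_prop) fun u (hu : 0 ≤ u) => by positivity)
  have e := hP.eq t ⟨hst, le_rfl⟩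
  rw [e, add_sub_cancel_left, intervalIntegral.integral_of_le hst]
  refine (enorm_integral_le_lintegral_enorm _).trans (setLIntegral_mono' measurableSet_Ioc
    fun τ hτ => ?_)
  rw [lam_mul]
  exact unif_pt hd hm (S.G_nonneg k τ _) (S.G_le k τ _)
    (nuN_nonneg (fun v => S.G_nonneg k τ _) _) ((S.appr k).gain_nonneg hn τ _) (by linarith)
    (arkeryd hn.le ((S.measG k).comp measurable_prodMk_left) (S.G_pos k (hs.trans hτ.1.le))
      (fun w => til_le_Mx hn ((S.appr k).nonneg τ w)) hL _)

/-- Equicontinuity in `L¹` along characteristics. -/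
theorem Seq.equi (T : ℝ) {ε : ℝ} (hε : 0 < ε) : ∃ δ : ℝ, 0 < δ ∧ ∀ k, ∀ s ∈ Icc 0 T,
    ∀ t ∈ Icc 0 T, |s - t| ≤ δ →
      ∫⁻ z, ‖S.F k t (fl t z) - S.F k s (fl s z)‖ₑ ≤ ENNReal.ofReal ε := by
  obtain ⟨C, hC, hr⟩ := S.rateb
  obtain ⟨H, hH, hE⟩ := S.ENb
  obtain ⟨d, hd, hb⟩ := S.beta_close T (ε := ε / 4) (by positivity)
  replace hb := hb d ⟨hd, le_rfl⟩
  set L := Real.exp (4 * H / ε + 1) with hLd
  have hL : 1 < L := Real.one_lt_exp_iff.2 (by positivity)
  have hlog : Real.log L = 4 * H / ε + 1 := Real.log_exp _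
  set K := (L + 1) / d with hK
  have hK0 : 0 ≤ K := by positivity
  refine ⟨ε / 4 / (K * C + 1), by positivity, fun k => ?_⟩
  suffices h : ∀ s ∈ Icc 0 T, ∀ t ∈ Icc 0 T, s ≤ t → t - s ≤ ε / 4 / (K * C + 1) →
      ∫⁻ z, ‖S.F k t (fl t z) - S.F k s (fl s z)‖ₑ ≤ ENNReal.ofReal ε by
    intro s hs t ht hst
    rcases le_total s t with h1 | h1
    · exact h s hs t ht h1 (by linarith [neg_abs_le (s - t)])
    · simp only [enorm_sub_rev (S.F k t _)]
      exact h t ht s hs h1 ((le_abs_self _).trans hst)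
  intro s hs t ht hst hδ
  have hM := continuous_Mx.measurable
  have hG : Measurable fun p : (ℝ × Ph) × Ph => S.G k p.1.1 p.2 :=
    (S.measG k).comp (measurable_fst.fst.prodMk measurable_snd)
  have hm1 : Measurable fun p : ℝ × Ph =>
      ENNReal.ofReal (Mx p.2.2 * rateN (S.n k) (S.G k p.1) p.2) :=
    ((hM.comp measurable_snd.snd).mul
      (measurable_rateN (g := fun p : ℝ × Ph => S.G k p.1) _ hG measurable_snd)).ennreal_ofReal
  have hm2 : Measurable fun p : ℝ × Ph => EN (S.n k) (S.G k p.1) p.2 :=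
    measurable_EN (g := fun p : ℝ × Ph => S.G k p.1) _ hG measurable_snd
  set W : ℝ × Ph → ℝ≥0∞ := fun p => ENNReal.ofReal K
    * ENNReal.ofReal (Mx p.2.2 * rateN (S.n k) (S.G k p.1) p.2)
    + ENNReal.ofReal (1 / Real.log L) * EN (S.n k) (S.G k p.1) p.2 with hW
  have hWm : Measurable W := (hm1.const_mul _).add (hm2.const_mul _)
  set B : ℝ → Ph → ℝ≥0∞ := fun τ z =>
    ENNReal.ofReal (S.F k τ z - S.F k τ z / (1 + d * (S.F k τ z / Mx z.2))) with hB
  have hBm : ∀ τ, Measurable (B τ) := fun τ => by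
    have := (S.appr k).meas_t τ
    simp only [hB]
    fun_prop
  have hBe : ∀ τ z, ‖S.F k τ (fl τ z) - S.F k τ (fl τ z) / (1 + d * (S.F k τ (fl τ z) / Mx z.2))‖ₑ
      = B τ (fl τ z) := fun τ z => by
    have h0 := (S.appr k).nonneg τ (fl τ z)
    have hm := Mx_pos z.2
    exact Real.enorm_of_nonneg (sub_nonneg.2 (div_le_self h0
      (le_add_of_nonneg_right (by positivity))))
  have h1 : ∫⁻ z, ∫⁻ τ in Ioc s t, W (τ, fl τ z) ≤ ENNReal.ofReal (ε / 4) + ENNReal.ofReal (ε / 4) := by
    rw [← lintegral_lintegral_swap (f := fun τ z => W (τ, fl τ z))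
      (hWm.comp (measurable_fst.prodMk measurable_fl)).aemeasurable]
    calc _ ≤ ∫⁻ τ in Ioc s t, ENNReal.ofReal K * ENNReal.ofReal C
            + ENNReal.ofReal (1 / Real.log L) * ∫⁻ z, EN (S.n k) (S.G k τ) z := by
          refine setLIntegral_mono' measurableSet_Ioc fun τ hτ => ?_
          rw [lintegral_fl τ fun z => W (τ, z)]
          simp only [hW]
          rw [lintegral_add_left (f := fun z : Ph => ENNReal.ofReal K
              * ENNReal.ofReal (Mx z.2 * rateN (S.n k) (S.G k τ) z))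
              ((hm1.comp measurable_prodMk_left).const_mul _),
            lintegral_const_mul' _ _ ENNReal.ofReal_ne_top,
            lintegral_const_mul' _ _ ENNReal.ofReal_ne_top]
          gcongr
          exact hr k τ (hs.1.trans hτ.1.le)
      _ ≤ _ := by
          rw [lintegral_add_left measurable_const, setLIntegral_const, Real.volume_Ioc,
            lintegral_const_mul' _ _ ENNReal.ofReal_ne_top]
          refine add_le_add ?_ ?_
          · rw [← ENNReal.ofReal_mul hK0, ← ENNReal.ofReal_mul (by positivity)]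
            refine ENNReal.ofReal_le_ofReal ?_
            rw [le_div_iff₀ (by positivity)] at hδ
            nlinarith
          · have h2 := hE k t
            rw [lintegral_prod _ hm2.aemeasurable] at h2
            refine (mul_le_mul_right ((lintegral_mono_set (Ioc_subset_Ioc_left hs.1)).trans h2)
              _).trans ?_
            rw [← ENNReal.ofReal_mul (by rw [hlog]; positivity)]
            refine ENNReal.ofReal_le_ofReal ?_
            rw [hlog, div_mul_eq_mul_div, div_le_iff₀ (by positivity)]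
            have : ε / 4 * (4 * H / ε + 1) = H + ε / 4 := by field_simp
            linarith
  calc _ ≤ ∫⁻ z, B t (fl t z) + (B s (fl s z) + ∫⁻ τ in Ioc s t, W (τ, fl τ z)) := by
        refine lintegral_mono fun z => ?_
        rw [← hBe, ← hBe]
        refine le_trans ?_ (add_le_add le_rfl (add_le_add le_rfl (S.unif_char k hd hL hs.1 hst z)))
        exact unif_tri _ _ _ _
    _ ≤ ENNReal.ofReal (ε / 4) + (ENNReal.ofReal (ε / 4)
          + (ENNReal.ofReal (ε / 4) + ENNReal.ofReal (ε / 4))) := by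
        rw [lintegral_add_left (f := fun z => B t (fl t z)) ((hBm t).comp (measurable_fl_right t)),
          lintegral_add_left (f := fun z => B s (fl s z)) ((hBm s).comp (measurable_fl_right s)),
          lintegral_fl t (B t),
          lintegral_fl s (B s)]
        exact add_le_add (hb k t ht) (add_le_add (hb k s hs) h1)
    _ = _ := by
        rw [← ENNReal.ofReal_add (by positivity) (by positivity),
          ← ENNReal.ofReal_add (by positivity) (by positivity),
          ← ENNReal.ofReal_add (by positivity) (by positivity)]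
        congr 1
        ring

end

end Vale.Agent.P140
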