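import Vale.Agent.P140.Cons
import Vale.Agent.P140.Hth
import Vale.Agent.P140.Weak

/-! Uniform estimates along a sequence of regularized solutions. -/

namespace Vale.Agent.P140

open MeasureTheory Set Filter Topology
open scoped ENNReal RealInnerProductSpace

noncomputable section

theorem unif0_bdd {b : ℕ → ℝ≥0∞} {c : ℝ≥0∞} (hb : ∀ k, b k ≠ ⊤) (hc : c ≠ ⊤)
    (h : ∀ᶠ k in atTop, b k ≤ c) : ∃ C : ℝ, 0 ≤ C ∧ ∀ k, b k ≤ ENNReal.ofReal C := by
  obtain ⟨N, hN⟩ := eventually_atTop.1 h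
  refine ⟨(c + ∑ k ∈ Finset.range N, b k).toReal, ENNReal.toReal_nonneg, fun k => ?_⟩
  rw [ENNReal.ofReal_toReal (ENNReal.add_ne_top.2 ⟨hc, ENNReal.sum_ne_top.2 fun k _ => hb k⟩)]
  rcases le_or_gt N k with hk | hk
  · exact (hN k hk).trans le_self_add
  · exact (Finset.single_le_sum (f := b) (fun _ _ => zero_le) (Finset.mem_range.2 hk)).trans
      le_add_self

theorem unif0_comb {s : Set Ph} (hs : MeasurableSet s) {f u w : Ph → ℝ} {c : ℝ} (hc : 0 ≤ c)
    (h1 : ∀ z ∈ s, f z ≤ u z) (h2 : ∀ z ∉ s, f z ≤ c * w z) :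
    ∫⁻ z, ENNReal.ofReal (f z) ≤ (∫⁻ z in s, ENNReal.ofReal (u z)) +
      ENNReal.ofReal c * ∫⁻ z, ENNReal.ofReal (w z) := by
  rw [← lintegral_add_compl _ hs, ← lintegral_const_mul' _ _ ENNReal.ofReal_ne_top]
  refine add_le_add (setLIntegral_mono' hs fun z hz => ENNReal.ofReal_le_ofReal (h1 z hz))
    ((setLIntegral_mono' hs.compl fun z hz => ?_).trans (setLIntegral_le_lintegral _ _))
  rw [← ENNReal.ofReal_mul hc]
  exact ENNReal.ofReal_le_ofReal (h2 z hz)

theorem unif0_one (x : ℝ) : 1 + x ≤ 2 * (1 + x ^ 2) := by nlinarith [sq_nonneg (x - 1)]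

variable {F₀ : Ph → ℝ} (S : Seq F₀)

theorem Seq.two_le (k : ℕ) : 2 ≤ S.n k := by
  linarith [S.n_ge k, Nat.cast_nonneg (α := ℝ) k]

theorem Seq.pos (k : ℕ) : 0 < S.n k := by
  linarith [S.two_le k]

theorem Seq.n_tendsto : Tendsto S.n atTop atTop := by
  exact tendsto_atTop_mono S.n_ge (tendsto_atTop_add_const_right _ _ tendsto_natCast_atTop_atTop)

theorem Seq.measF (k : ℕ) : Measurable (fun p : ℝ × Ph => S.F k p.1 p.2) := (S.appr k).meas

theorem Seq.measG (k : ℕ) : Measurable (fun p : ℝ × Ph => S.G k p.1 p.2) := by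
  exact measurable_til (X := ℝ × Ph) (F := fun p => S.F k p.1) (S.n k)
    ((S.measF k).comp (measurable_fst.fst.prodMk measurable_snd)) measurable_snd

theorem Seq.G_nonneg (k : ℕ) (t : ℝ) (z : Ph) : 0 ≤ S.G k t z := by
  exact til_nonneg (S.pos k) ((S.appr k).nonneg t z)

theorem Seq.G_le (k : ℕ) (t : ℝ) (z : Ph) : S.G k t z ≤ S.F k t z := by
  exact til_le (S.pos k) ((S.appr k).nonneg t z)

theorem Seq.G_pos (k : ℕ) {t : ℝ} (ht : 0 ≤ t) (z : Ph) : 0 < S.G k t z := by
  obtain ⟨a, ha, h⟩ := (S.appr k).low t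
  exact mul_pos (th_pos (S.pos k) ((S.appr k).nonneg t z))
    ((mul_pos ha (Mx_pos _)).trans_le (h t ⟨ht, le_rfl⟩ z))

theorem Seq.bddG (k : ℕ) (t : ℝ) (x : T3) : BddV (S.n k) (sl (S.G k t) x) := by
  exact bddV_til (S.pos k) ((S.appr k).meas_t t) ((S.appr k).nonneg t) x

theorem Seq.mom : ∃ C : ℝ, 0 ≤ C ∧ ∀ k t, 0 ≤ t →
    ∫⁻ z : Ph, ENNReal.ofReal ((1 + ‖z.2‖ ^ 2) * S.F k t z) ≤ ENNReal.ofReal C := by
  have hm : Measurable fun z : Ph => ENNReal.ofReal ((1 + ‖z.2‖ ^ 2) * F₀ z) := by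
    have := S.datum.meas
    fun_prop
  obtain ⟨C, hC, h⟩ := unif0_bdd
    (b := fun k => ∫⁻ z : Ph, ENNReal.ofReal ((1 + ‖z.2‖ ^ 2) * S.F k 0 z))
    (c := (∫⁻ z : Ph, ENNReal.ofReal ((1 + ‖z.2‖ ^ 2) * F₀ z)) + 1) (fun k => by
      have := ((S.appr k).integrable_mul (C := 1) le_rfl (φ := fun z => 1 + ‖z.2‖ ^ 2) (by fun_prop)
        fun z => by
          have := norm_nonneg z.2
          rw [abs_of_nonneg (by positivity)]
          nlinarith [mul_nonneg this this, mul_nonneg this (mul_nonneg this this),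
            sq_nonneg (‖z.2‖ ^ 2)]).lintegral_lt_top
      simpa only [mul_comm] using this.ne)
    (ENNReal.add_ne_top.2 ⟨S.datum.mom2_lt_top.ne, ENNReal.one_ne_top⟩) (by
      filter_upwards [S.conv.eventually_le_const zero_lt_one] with k hk
      refine le_trans ?_ (add_le_add_right hk _)
      rw [← lintegral_add_left hm]
      refine lintegral_mono fun z => ?_
      have h0 := S.datum.nonneg z
      rw [← ENNReal.ofReal_add (by positivity) (by positivity)]
      refine ENNReal.ofReal_le_ofReal ?_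
      have h1 : 0 ≤ 1 + ‖z.2‖ ^ 2 := by positivity
      nlinarith [mul_le_mul_of_nonneg_left (le_abs_self (S.F k 0 z - F₀ z)) h1])
  exact ⟨C, hC, fun k t ht => ((S.appr k).mom2 (S.pos k) ht).trans_le (h k)⟩

theorem Seq.entb : ∃ H : ℝ, 0 ≤ H ∧ ∀ k t, 0 ≤ t →
    HN (S.n k) (S.F k t) + ∫⁻ s in Ioc 0 t, DisN (S.n k) (S.G k s) ≤ ENNReal.ofReal H := by
  have h0 := S.datum.Hm_lt_top.ne
  obtain ⟨C, hC, h⟩ := unif0_bdd (b := fun k => Hm (S.F k 0)) (c := Hm F₀ + 1)
    (fun k => (S.appr k).Hm_lt_top.ne) (ENNReal.add_ne_top.2 ⟨h0, ENNReal.one_ne_top⟩)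
    (S.ent.eventually_le_const (ENNReal.lt_add_right h0 one_ne_zero))
  refine ⟨C + 1, by linarith, fun k t ht => ((S.appr k).entropy (S.two_le k) ht).trans ?_⟩
  rw [ENNReal.ofReal_add hC zero_le_one, ENNReal.ofReal_one]
  exact add_le_add_left (h k) _

/-- Space-time bound on the pointwise dissipation. -/
theorem Seq.ENb : ∃ H : ℝ, 0 ≤ H ∧ ∀ k T,
    ∫⁻ p, EN (S.n k) (S.G k p.1) p.2 ∂(mu3 T) ≤ ENNReal.ofReal H := by
  obtain ⟨H, hH, h⟩ := S.entb
  refine ⟨4 * H, by linarith, fun k T => (lintegral_prod_le _).trans ?_⟩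
  rcases le_or_gt 0 T with hT | hT
  · have e : ∀ s, ∫⁻ z, EN (S.n k) (S.G k s) z = 4 * DisN (S.n k) (S.G k s) := fun s => by
      rw [DisN, ← mul_assoc, ENNReal.mul_inv_cancel (by norm_num) (by norm_num), one_mul]
    simp only [e]
    rw [lintegral_const_mul' _ _ (by norm_num), ENNReal.ofReal_mul (by norm_num),
      ENNReal.ofReal_ofNat]
    exact mul_le_mul_right (le_add_self.trans (h k T hT)) _
  · simp [muT, Ioc_eq_empty_of_le hT.le]

theorem Seq.rateb : ∃ C : ℝ, 0 ≤ C ∧ ∀ k t, 0 ≤ t →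
    ∫⁻ z : Ph, ENNReal.ofReal (Mx z.2 * rateN (S.n k) (S.G k t) z) ≤ ENNReal.ofReal C := by
  obtain ⟨C, hC, h⟩ := S.mom
  have hA : ∫⁻ v : V, ENNReal.ofReal (4 * Real.pi * ((1 + ‖v‖) ^ 1 * Mx v)) ≠ ⊤ :=
    ((integrable_pow_Mx 1).const_mul _).lintegral_lt_top.ne
  set A := ∫⁻ v : V, ENNReal.ofReal (4 * Real.pi * ((1 + ‖v‖) ^ 1 * Mx v)) with hAd
  refine ⟨A.toReal * C, by positivity, fun k t ht => ?_⟩
  have hm : Measurable fun z : Ph => ENNReal.ofReal ((1 + ‖z.2‖ ^ 2) * S.F k t z) := by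
    have := (S.appr k).meas_t t
    fun_prop
  rw [ENNReal.ofReal_mul ENNReal.toReal_nonneg, ENNReal.ofReal_toReal hA]
  refine le_trans ?_ (mul_le_mul_right (h k t ht) A)
  rw [Measure.volume_eq_prod, lintegral_prod _ hm.aemeasurable, ← lintegral_const_mul' _ _ hA]
  refine (lintegral_prod_le _).trans (lintegral_mono fun x => ?_)
  have hM := continuous_Mx.measurable
  rw [hAd, ← lintegral_mul_const _ (by fun_prop)]
  refine lintegral_mono fun v => ?_
  have h1 := ofReal_nuN_le (S.pos k).le (S.bddG k t x) (fun w => S.G_nonneg k t (x, w)) v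
  have hv := (Mx_pos v).le
  simp only [rateN]
  rw [ENNReal.ofReal_mul hv]
  refine (mul_le_mul_right h1 _).trans ?_
  rw [← lintegral_const_mul' _ _ ENNReal.ofReal_ne_top,
    ← lintegral_const_mul' _ _ ENNReal.ofReal_ne_top]
  refine lintegral_mono fun w => ?_
  have hp := Real.pi_pos
  rw [← ENNReal.ofReal_mul (by positivity), ← ENNReal.ofReal_mul hv,
    ← ENNReal.ofReal_mul (by positivity)]
  refine ENNReal.ofReal_le_ofReal ?_
  have h2 : ‖v - w‖ ≤ (1 + ‖v‖) * (2 * (1 + ‖w‖ ^ 2)) := by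
    refine le_trans ?_ (mul_le_mul_of_nonneg_left (unif0_one _) (by positivity))
    nlinarith [norm_sub_le v w, mul_nonneg (norm_nonneg v) (norm_nonneg w)]
  have h3 := S.G_nonneg k t (x, w)
  calc Mx v * (2 * Real.pi * ‖v - w‖ * sl (S.G k t) x w)
      ≤ Mx v * (2 * Real.pi * ((1 + ‖v‖) * (2 * (1 + ‖w‖ ^ 2))) * S.F k t (x, w)) := by
        gcongr
        exact S.G_le k t (x, w)
    _ = _ := by ring

theorem Seq.unif0_meas (k : ℕ) (t L : ℝ) : MeasurableSet {z : Ph | L * Mx z.2 ≤ S.F k t z} :=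
  measurableSet_le ((continuous_Mx.measurable.comp measurable_snd).const_mul L)
    ((S.appr k).meas_t t)

/-- Mass carried by large values of `F / M` is uniformly small. -/
theorem Seq.tail (T : ℝ) {ε : ℝ} (hε : 0 < ε) : ∃ L : ℝ, 0 < L ∧ ∀ k, ∀ t ∈ Icc 0 T,
    ∫⁻ z in {z : Ph | L * Mx z.2 ≤ S.F k t z},
      ENNReal.ofReal ((1 + ‖z.2‖) * S.F k t z) ≤ ENNReal.ofReal ε := by
  obtain ⟨C, hC, hm⟩ := S.mom
  obtain ⟨H, hH, he⟩ := S.entb
  set R := 4 * C / ε + 1 with hR
  have hR1 : 1 ≤ R := by rw [hR]; linarith [show 0 ≤ 4 * C / ε by positivity]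
  set c := 2 * (1 + R) * H / ε + 1 with hc
  have hc0 : 0 < c := by positivity
  set L0 := 2 * Real.exp (c + 1) with hL0
  have hL00 : 0 < L0 := by positivity
  have hlog : Real.log (L0 / 2) - 1 = c := by
    rw [hL0, mul_div_cancel_left₀ _ two_ne_zero, Real.log_exp]; ring
  choose B hB using fun k => (S.appr k).upp T
  have hsum : 0 ≤ ∑ k ∈ Finset.range ⌈L0⌉₊, |B k| := Finset.sum_nonneg fun _ _ => abs_nonneg _
  refine ⟨L0 + ∑ k ∈ Finset.range ⌈L0⌉₊, |B k|, by linarith, fun k t ht => ?_⟩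
  rcases le_or_gt L0 (S.n k) with hk | hk
  · have hmeas : Measurable fun z : Ph =>
        ENNReal.ofReal (2 / R) * ENNReal.ofReal ((1 + ‖z.2‖ ^ 2) * S.F k t z) := by
      have := (S.appr k).meas_t t
      fun_prop
    calc _ ≤ ∫⁻ z : Ph, (ENNReal.ofReal (2 / R) * ENNReal.ofReal ((1 + ‖z.2‖ ^ 2) * S.F k t z) +
          ENNReal.ofReal ((1 + R) / c) *
            ENNReal.ofReal (Mx z.2 * (eta (S.n k) (S.F k t z / Mx z.2) + 1))) := by
          refine (setLIntegral_mono' (S.unif0_meas k t _) fun z hz => ?_).trans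
            (setLIntegral_le_lintegral _ _)
          have h0 := (S.appr k).nonneg t z
          have hM := Mx_pos z.2
          rcases le_or_gt ‖z.2‖ R with hv | hv
          · refine le_trans ?_ le_add_self
            rw [← ENNReal.ofReal_mul (by positivity)]
            refine ENNReal.ofReal_le_ofReal ?_
            have h1 : L0 ≤ S.F k t z / Mx z.2 := by
              rw [le_div_iff₀ hM]
              exact le_trans (mul_le_mul_of_nonneg_right (by linarith) hM.le) hz
            have h2 := eta_tail hL00 h1 hk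
            rw [hlog] at h2
            have h3 : S.F k t z * c ≤ Mx z.2 * (eta (S.n k) (S.F k t z / Mx z.2) + 1) := by
              have := mul_le_mul_of_nonneg_left h2 hM.le
              rw [← mul_assoc, mul_div_cancel₀ _ hM.ne'] at this
              linarith
            calc (1 + ‖z.2‖) * S.F k t z ≤ (1 + R) * S.F k t z := by gcongr
              _ = (1 + R) / c * (S.F k t z * c) := by field_simp
              _ ≤ _ := by gcongr
          · refine le_trans ?_ le_self_add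
            rw [← ENNReal.ofReal_mul (by positivity), ← mul_assoc]
            refine ENNReal.ofReal_le_ofReal (mul_le_mul_of_nonneg_right ?_ h0)
            rw [div_mul_eq_mul_div, le_div_iff₀ (by linarith)]
            nlinarith
      _ ≤ ENNReal.ofReal (2 / R) * ENNReal.ofReal C +
          ENNReal.ofReal ((1 + R) / c) * ENNReal.ofReal H := by
          rw [lintegral_add_left hmeas, lintegral_const_mul' _ _ ENNReal.ofReal_ne_top,
            lintegral_const_mul' _ _ ENNReal.ofReal_ne_top]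
          exact add_le_add (mul_le_mul_right (hm k t ht.1) _)
            (mul_le_mul_right (le_self_add.trans (he k t ht.1)) _)
      _ ≤ _ := by
          rw [← ENNReal.ofReal_mul (by positivity), ← ENNReal.ofReal_mul (by positivity),
            ← ENNReal.ofReal_add (by positivity) (by positivity)]
          refine ENNReal.ofReal_le_ofReal ?_
          have h1 : 2 / R * C ≤ ε / 2 := by
            rw [div_mul_eq_mul_div, div_le_iff₀ (by linarith), hR]
            have : ε / 2 * (4 * C / ε + 1) = 2 * C + ε / 2 := by field_simp; ring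
            linarith
          have h2 : (1 + R) / c * H ≤ ε / 2 := by
            rw [div_mul_eq_mul_div, div_le_iff₀ hc0, hc]
            have : ε / 2 * (2 * (1 + R) * H / ε + 1) = (1 + R) * H + ε / 2 := by field_simp
            linarith
          linarith
  · have e : {z : Ph | (L0 + ∑ k ∈ Finset.range ⌈L0⌉₊, |B k|) * Mx z.2 ≤ S.F k t z} = ∅ := by
      refine eq_empty_of_forall_notMem fun z hz => ?_
      have h1 := le_of_mul_le_mul_right (le_trans hz (hB k t ht z)) (Mx_pos z.2)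
      have h2 : k ∈ Finset.range ⌈L0⌉₊ :=
        Finset.mem_range.2 (Nat.lt_ceil.2 (by linarith [S.n_ge k]))
      linarith [Finset.single_le_sum (f := fun k => |B k|) (fun _ _ => abs_nonneg _) h2,
        le_abs_self (B k)]
    rw [e, Measure.restrict_empty, lintegral_zero_measure]
    exact zero_le

theorem Seq.ui (T : ℝ) : UI volume
    (fun (i : ℕ × Icc (0 : ℝ) T) (z : Ph) => (1 + ‖z.2‖) * S.F i.1 i.2 z) := by
  intro ε hε
  obtain ⟨L, hL, h⟩ := S.tail T hε
  have hM := continuous_Mx.measurable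
  refine ⟨fun z => L * ((1 + ‖z.2‖) ^ 1 * Mx z.2), by fun_prop, (integrable_pow_Mx_Ph 1).const_mul L,
    fun z => by have := Mx_pos z.2; positivity, fun i => ?_⟩
  refine (unif0_comb (S.unif0_meas i.1 i.2 L) (w := 0) le_rfl (fun z _ => ?_)
    fun z hz => ?_).trans (by simpa using h i.1 i.2 i.2.2)
  · have h0 := (S.appr i.1).nonneg i.2 z
    have := Mx_pos z.2
    rw [abs_of_nonneg (by positivity)]
    exact sub_le_self _ (by positivity)
  · have h0 := (S.appr i.1).nonneg i.2 z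
    rw [abs_of_nonneg (by positivity), zero_mul]
    have h1 : S.F i.1 i.2 z < L * Mx z.2 := not_le.1 hz
    nlinarith [norm_nonneg z.2]

theorem Seq.ui_t {t : ℝ} (ht : 0 ≤ t) :
    UI volume (fun (k : ℕ) (z : Ph) => (1 + ‖z.2‖) * S.F k t z) := by
  exact (S.ui t).mono (fun k => (k, ⟨t, ht, le_rfl⟩)) zero_le_one fun k z => (one_mul _).ge

theorem Seq.ui_st (T : ℝ) :
    UI (mu3 T) (fun (k : ℕ) (p : ℝ × Ph) => (1 + ‖p.2.2‖) * S.F k p.1 p.2) := by
  intro ε hε
  obtain ⟨g, hg, hi, h0, h⟩ := S.ui T (ε / (|T| + 1)) (by positivity)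
  refine ⟨fun p => g p.2, hg.comp measurable_snd, hi.comp_snd _, fun p => h0 _,
    fun k => (lintegral_prod_le _).trans ?_⟩
  refine (setLIntegral_mono' measurableSet_Ioc fun t ht => h (k, ⟨t, ht.1.le, ht.2⟩)).trans ?_
  rw [setLIntegral_const, Real.volume_Ioc, ← ENNReal.ofReal_mul (by positivity)]
  refine ENNReal.ofReal_le_ofReal ?_
  rw [div_mul_eq_mul_div, div_le_iff₀ (by positivity)]
  gcongr
  linarith [le_abs_self T]

theorem Seq.til_close (T : ℝ) {ε : ℝ} (hε : 0 < ε) : ∀ᶠ k in atTop, ∀ t ∈ Icc 0 T,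
    ∫⁻ z : Ph, ENNReal.ofReal ((1 + ‖z.2‖) * (S.F k t z - S.G k t z)) ≤ ENNReal.ofReal ε := by
  obtain ⟨C, hC, hm⟩ := S.mom
  obtain ⟨L, hL, h⟩ := S.tail T (half_pos hε)
  filter_upwards [S.n_tendsto.eventually_ge_atTop (4 * L * C / ε)] with k hk t ht
  have hn := S.pos k
  refine (unif0_comb (S.unif0_meas k t L) (c := 2 * L / S.n k) (by positivity) (fun z _ => ?_)
    fun z hz => ?_).trans ((add_le_add (h k t ht) (mul_le_mul_right (hm k t ht.1) _)).trans ?_)
  · exact mul_le_mul_of_nonneg_left (sub_le_self _ (S.G_nonneg k t z)) (by positivity)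
  · have h0 := (S.appr k).nonneg t z
    have hM := Mx_pos z.2
    have h1 : S.F k t z < L * Mx z.2 := not_le.1 hz
    have h2 : 1 - th (S.n k) (S.F k t) z ≤ L / S.n k := by
      refine (one_sub_th_le hn h0).trans ?_
      rw [div_le_div_iff₀ (by positivity) hn]
      nlinarith
    calc (1 + ‖z.2‖) * (S.F k t z - S.G k t z)
        = (1 + ‖z.2‖) * ((1 - th (S.n k) (S.F k t) z) * S.F k t z) := by
          simp only [Seq.G, til, reg]; ring
      _ ≤ (2 * (1 + ‖z.2‖ ^ 2)) * (L / S.n k * S.F k t z) := by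
          gcongr
          · exact mul_nonneg (sub_nonneg.2 (th_le_one hn h0)) h0
          · exact unif0_one _
      _ = _ := by ring
  · rw [← ENNReal.ofReal_mul (by positivity), ← ENNReal.ofReal_add (by positivity) (by positivity)]
    refine ENNReal.ofReal_le_ofReal ?_
    rw [div_le_iff₀ hε] at hk
    have : 2 * L / S.n k * C ≤ ε / 2 := by
      rw [div_mul_eq_mul_div, div_le_iff₀ hn]
      linarith
    linarith

theorem Seq.beta_close (T : ℝ) {ε : ℝ} (hε : 0 < ε) : ∃ δ₀ : ℝ, 0 < δ₀ ∧ ∀ δ ∈ Ioc 0 δ₀,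
    ∀ k, ∀ t ∈ Icc 0 T, ∫⁻ z : Ph,
      ENNReal.ofReal (S.F k t z - S.F k t z / (1 + δ * (S.F k t z / Mx z.2)))
        ≤ ENNReal.ofReal ε := by
  obtain ⟨C, hC, hm⟩ := S.mom
  obtain ⟨L, hL, h⟩ := S.tail T (half_pos hε)
  refine ⟨ε / (2 * (L * C + 1)), by positivity, fun δ hδ k t ht => ?_⟩
  have hδ0 := hδ.1
  refine (unif0_comb (S.unif0_meas k t L) (c := δ * L) (by positivity) (fun z _ => ?_)
    fun z hz => ?_).trans ((add_le_add (h k t ht) (mul_le_mul_right (hm k t ht.1) _)).trans ?_)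
  · have h0 := (S.appr k).nonneg t z
    have hM := Mx_pos z.2
    refine (sub_le_self _ (by positivity)).trans ?_
    nlinarith [norm_nonneg z.2]
  · have h0 := (S.appr k).nonneg t z
    have hM := Mx_pos z.2
    have h1 : S.F k t z / Mx z.2 ≤ L := by
      rw [div_le_iff₀ hM]
      exact (not_le.1 hz).le
    have h2 : 0 ≤ S.F k t z / Mx z.2 := by positivity
    set G := S.F k t z / Mx z.2 with hG
    calc S.F k t z - S.F k t z / (1 + δ * G) = δ * G * S.F k t z / (1 + δ * G) := by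
          field_simp; ring
      _ ≤ δ * G * S.F k t z := div_le_self (by positivity) (by nlinarith)
      _ ≤ δ * L * ((1 + ‖z.2‖ ^ 2) * S.F k t z) := by
          gcongr
          nlinarith [sq_nonneg ‖z.2‖]
  · rw [← ENNReal.ofReal_mul (by positivity), ← ENNReal.ofReal_add (by positivity) (by positivity)]
    refine ENNReal.ofReal_le_ofReal ?_
    have h1 := hδ.2
    rw [le_div_iff₀ (by positivity)] at h1
    nlinarith

end

end Vale.Agent.P140
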