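import Vale.Agent.P140.Rates
import Vale.Agent.P140.Ode2

/-! Basic properties of the three test functions. -/

namespace Vale.Agent.P140

open MeasureTheory Set Filter Topology
open scoped ENNReal RealInnerProductSpace

noncomputable section

variable {p : GP} {n t₀ Tf : ℝ} {c h k : ℝ → Ph → ℝ}

theorem val_chi (p : GP) (y : ℝ) : 0 ≤ p.chi y ∧ p.chi y ≤ 1 := by
  have hR : 0 < 4 * p.R := by linarith [p.R_ge]
  have h1 : 0 < max y (4 * p.R) := lt_max_of_lt_right hR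
  unfold GP.chi
  split_ifs
  · exact ⟨by positivity,
      pow_le_one₀ (by positivity) ((div_le_one h1).2 (le_max_right _ _))⟩
  · exact ⟨le_rfl, zero_le_one⟩

theorem val_ff (p : GP) (E : ℝ) : 0 ≤ p.ff E ∧ p.ff E ≤ 1 :=
  ⟨le_max_left _ _, max_le zero_le_one (min_le_left _ _)⟩

theorem val_meas_chi (p : GP) : Measurable p.chi :=
  Measurable.ite (measurableSet_le measurable_id measurable_const)
    ((measurable_const.div (measurable_id.max measurable_const)).pow_const _) measurable_const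

theorem val_meas_ff (p : GP) : Measurable p.ff := by
  unfold GP.ff
  fun_prop

theorem val_K (p : GP) : 0 < p.K := by
  have h1 := p.K_ge
  have h2 := p.R_ge
  exact (mul_pos_iff_of_pos_right p.τ_pos).1 (by linarith)

theorem val_Lam (hn : 0 < n) (S : Sys n t₀ c h k) {t r : ℝ} (htr : t ≤ r) (z : Ph) :
    0 ≤ Lam (fun s => lam n (tot c h k s)) t r z :=
  intervalIntegral.integral_nonneg htr fun s _ => lam_nonneg hn (S.tot_nonneg s)

theorem Sys.meas_gg (S : Sys n t₀ c h k) (p : GP) :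
    Measurable (fun q : ℝ × Ph => gg p n c h k q.1 q.2) := by
  unfold gg
  exact ((measurable_const.mul ((val_meas_chi p).comp
    ((measurable_X.comp measurable_snd.fst).norm.div measurable_fst))).mul
      ((val_meas_ff p).comp (measurable_snd.snd.norm.pow_const 2))).mul (S.meas_rf p)

theorem Sys.gg_nonneg (hn : 0 < n) (S : Sys n t₀ c h k) (p : GP) (t : ℝ) (z : Ph) :
    0 ≤ gg p n c h k t z :=
  mul_nonneg (mul_nonneg (mul_nonneg (by norm_num) (val_chi p _).1) (val_ff p _).1)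
    (S.rf_nonneg hn p t z)

theorem Sys.gg_le (hn : 0 < n) (S : Sys n t₀ c h k) (p : GP) (t : ℝ) (z : Ph) :
    gg p n c h k t z ≤ 8 / 5 * rf2 p n c h k t z := by
  unfold gg rf2
  split_ifs with hv
  · refine mul_le_mul_of_nonneg_right ?_ (S.rf_nonneg hn p t z)
    rw [mul_assoc]
    exact mul_le_of_le_one_right (by norm_num)
      (mul_le_one₀ (val_chi p _).2 (val_ff p _).1 (val_ff p _).2)
  · have hR : 0 < p.R ^ 2 := by nlinarith [p.R_ge]
    have h1 : p.ff (‖z.2‖ ^ 2) = 0 := by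
      refine max_eq_left ((min_le_right _ _).trans ?_)
      rw [sub_nonpos, le_div_iff₀ hR]
      exact (not_le.1 hv).le
    simp [h1]

theorem val_q_le (hn : 0 < n) (S : Sys n t₀ c h k) (p : GP) {a t : ℝ} (ha : 0 < a) (hat : a ≤ t)
    (z : Ph) : |(t ^ 121)⁻¹ * gg p n c h k t z| ≤
      (a ^ 121)⁻¹ * (8 / 5 * (4 * Real.pi * n * n)) := by
  have ht : 0 < t := ha.trans_le hat
  have h0 := S.gg_nonneg hn p t z
  rw [abs_of_nonneg (by positivity)]
  refine mul_le_mul (inv_anti₀ (by positivity) (pow_le_pow_left₀ ha.le hat _))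
    ((S.gg_le hn p t z).trans (mul_le_mul_of_nonneg_left ?_ (by norm_num))) h0 (by positivity)
  have h1 : lam n (tot c h k t) z ≤ 4 * Real.pi * n * n :=
    lam_le hn (S.meas_tot.comp (measurable_const.prodMk measurable_id)) (S.tot_nonneg t)
  unfold rf2
  split_ifs
  · exact (S.rf_le_lam hn p t z).trans h1
  · positivity

theorem Sys.meas_Gt (S : Sys n t₀ c h k) (p : GP) (Tf : ℝ) :
    Measurable (fun q : ℝ × Ph => Gt p n Tf c h k q.1 q.2) := by
  have m0 : Measurable fun q : (ℝ × Ph) × ℝ => fl (-q.1.1) q.1.2 :=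
    measurable_fl.comp (measurable_fst.fst.neg.prodMk measurable_fst.snd)
  have hG : Measurable fun q : (ℝ × Ph) × ℝ => (q.2 ^ 121)⁻¹ *
      gg p n c h k q.2 (fl q.2 (fl (-q.1.1) q.1.2)) *
      Real.exp (-Lam (fun s => lam n (tot c h k s)) q.1.1 q.2 (fl (-q.1.1) q.1.2)) :=
    (((measurable_snd.pow_const _).inv).mul ((S.meas_gg p).comp (measurable_snd.prodMk
      (measurable_fl.comp (measurable_snd.prodMk m0))))).mul
      (((measurable_Lam S.meas_lam).comp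
        (measurable_fst.fst.prodMk (measurable_snd.prodMk m0))).neg.exp)
  exact (Flow_Ioc measurable_fst measurable_const hG).sub
    (Flow_Ioc measurable_const measurable_fst hG)

theorem Sys.Gt_nonneg (hn : 0 < n) (S : Sys n t₀ c h k) (p : GP) {t : ℝ} (ht : 0 < t)
    (ht' : t ≤ Tf) (z : Ph) : 0 ≤ Gt p n Tf c h k t z :=
  intervalIntegral.integral_nonneg ht' fun r hr => mul_nonneg
    (mul_nonneg (inv_nonneg.2 (pow_nonneg (ht.le.trans hr.1) _)) (S.gg_nonneg hn p r _))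
    (Real.exp_pos _).le

theorem Sys.Gt_bdd (hn : 0 < n) (S : Sys n t₀ c h k) (p : GP) (ht₀ : 0 < t₀) (Tf : ℝ) :
    ∃ C : ℝ, ∀ t ∈ Icc t₀ Tf, ∀ z, |Gt p n Tf c h k t z| ≤ C ∧
      |(t ^ 121)⁻¹ * gg p n c h k t z| ≤ C := by
  have hA : 0 ≤ (t₀ ^ 121)⁻¹ * (8 / 5 * (4 * Real.pi * n * n)) := by positivity
  refine ⟨(t₀ ^ 121)⁻¹ * (8 / 5 * (4 * Real.pi * n * n)) * (1 + |Tf - t₀|), fun t ht z =>
    ⟨?_, (val_q_le hn S p ht₀ ht.1 z).trans
      (le_mul_of_one_le_right hA (by linarith [abs_nonneg (Tf - t₀)]))⟩⟩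
  rw [← Real.norm_eq_abs]
  refine (intervalIntegral.norm_integral_le_of_norm_le_const
    (C := (t₀ ^ 121)⁻¹ * (8 / 5 * (4 * Real.pi * n * n))) fun r hr => ?_).trans
    (mul_le_mul_of_nonneg_left ?_ hA)
  · rw [uIoc_of_le ht.2] at hr
    rw [Real.norm_eq_abs, abs_mul, abs_of_pos (Real.exp_pos _)]
    refine (mul_le_of_le_one_right (abs_nonneg _) ?_).trans
      (val_q_le hn S p ht₀ (ht.1.trans hr.1.le) _)
    exact Real.exp_le_one_iff.2 (neg_nonpos.2 (val_Lam hn S hr.1.le _))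
  · rw [abs_of_nonneg (sub_nonneg.2 ht.2), abs_of_nonneg (sub_nonneg.2 (ht.1.trans ht.2))]
    linarith [ht.1]

theorem Gt_end (p : GP) (n Tf : ℝ) (c h k : ℝ → Ph → ℝ) (z : Ph) : Gt p n Tf c h k Tf z = 0 :=
  intervalIntegral.integral_same

theorem Sys.prim_Gt (hn : 0 < n) (S : Sys n t₀ c h k) (p : GP) {a b : ℝ} (ha : 0 < a)
    (hab : a ≤ b) (hb : b ≤ Tf) (z : Ph) : Prim (fun t => Gt p n Tf c h k t (fl t z))
      (fun t => lam n (tot c h k t) (fl t z) * Gt p n Tf c h k t (fl t z)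
        - (t ^ 121)⁻¹ * gg p n c h k t (fl t z)) a b := by
  have hq : IntervalIntegrable (fun t => (t ^ 121)⁻¹ * gg p n c h k t (fl t z)) volume a Tf := by
    refine sys_int (C := (a ^ 121)⁻¹ * (8 / 5 * (4 * Real.pi * n * n)))
      (((measurable_id.pow_const _).inv).mul (sys_char (S.meas_gg p) z)) fun s hs => ?_
    rw [uIoc_of_le (hab.trans hb)] at hs
    exact val_q_le hn S p ha hs.1.le _
  refine (Prim.backward (hab.trans hb) (S.lam_int hn a Tf z) hq fun t => ?_).mono le_rfl hab hb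
  simp only [Gt, Lam, fl_neg_fl]

theorem Sys.meas_G2 (S : Sys n t₀ c h k) (p : GP) (Tf : ℝ) :
    Measurable (fun q : ℝ × Ph => G2 p n Tf c h k q.1 q.2) := by
  unfold G2
  refine Measurable.ite ?_ ((measurable_Lam S.meas_lam).comp (measurable_fst.prodMk
    (measurable_const.prodMk
      (measurable_fl.comp (measurable_fst.neg.prodMk measurable_snd))))).neg.exp measurable_const
  exact (measurable_snd (measurableSet_Hot p.ζ2)).inter
    (measurableSet_le (measurable_snd.snd.norm.pow_const 2) measurable_const)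

theorem Sys.G2_mem (hn : 0 < n) (S : Sys n t₀ c h k) (p : GP) {t : ℝ} (ht : t ≤ Tf) (z : Ph) :
    G2 p n Tf c h k t z ∈ Icc (0 : ℝ) 1 := by
  unfold G2
  split_ifs
  · exact ⟨(Real.exp_pos _).le, Real.exp_le_one_iff.2 (neg_nonpos.2 (val_Lam hn S ht _))⟩
  · exact ⟨le_rfl, zero_le_one⟩

theorem G2_end_le (p : GP) (n Tf : ℝ) (c h k : ℝ → Ph → ℝ) (z : Ph) :
    G2 p n Tf c h k Tf z ≤ (Hot p.ζ2).indicator (fun _ => (1 : ℝ)) z := by
  unfold G2
  split_ifs with hz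
  · rw [indicator_of_mem (show z ∈ Hot p.ζ2 from hz.1)]
    simp [Lam]
  · exact indicator_nonneg (fun _ _ => zero_le_one) z

theorem Sys.prim_G2 (hn : 0 < n) (S : Sys n t₀ c h k) (p : GP) {a b : ℝ} (hab : a ≤ b)
    (hb : b ≤ Tf) (z : Ph) : Prim (fun t => G2 p n Tf c h k t (fl t z))
      (fun t => lam n (tot c h k t) (fl t z) * G2 p n Tf c h k t (fl t z) - 0) a b := by
  refine (Prim.survival (hab.trans hb) (S.lam_int hn a Tf z)
    (if (p.ζ2 ≤ |z.2 2 - 1| ∧ p.ζ2 ≤ |z.2 2 + 1|) ∧ ‖z.2‖ ^ 2 ≤ 2 * p.R ^ 2 + 4 then 1 else 0)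
    fun t => ?_).mono le_rfl hab hb
  simp only [G2, Lam, fl_neg_fl, fl_snd, ite_mul, one_mul, zero_mul]

theorem small_G2_low (p : GP) {μ : ℝ} (hμ : 0 ≤ μ) : ForSmall p μ (fun _ _ n _ Tf c h k =>
    ∀ t ∈ Icc (Tf / p.lw) Tf, ∀ z : Ph, z ∈ Hot p.ζ2 → ‖z.2‖ ^ 2 ≤ 2 * p.R ^ 2 + 4 →
      p.q ≤ G2 p n Tf c h k t z) := by
  have hR := p.R_ge
  have hK := val_K p
  have hc := p.c_pos
  have pi := Real.pi_pos
  have hA : 0 ≤ 2 * Real.pi * (1 + 2 * p.R) * μ := by positivity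
  have hlw : 0 < p.lw := div_pos (by linarith [p.y3_ge]) (by linarith)
  have hCr : 0 ≤ p.Cr := by
    unfold GP.Cr
    positivity
  refine ((small_lam_le p hμ).and (forSmall_le p μ
    (a := 1 / (2 * Real.pi * (1 + 2 * p.R) * μ + 1)) (by positivity))).mono ?_
  rintro e0 r1 n t₀ Tf c h k hr ⟨h1, -, h2⟩ t ht z hz hv
  have hT : 0 < Tf := (mul_pos hlw hr.t_pos).trans_le hr.t_le
  have hv' : ‖z.2‖ ≤ 2 * p.R := by
    apply le_of_sq_le_sq _ (by linarith)
    nlinarith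
  unfold G2
  rw [if_pos ⟨hz, hv⟩]
  refine Real.exp_le_exp.2 (neg_le_neg ?_)
  have h3 : Lam (fun s => lam n (tot c h k s)) t Tf (fl (-t) z) ≤
      ∫ _ in t..Tf, (p.Cr * p.lw / Tf + 2 * Real.pi * (1 + 2 * p.R) * μ) := by
    refine intervalIntegral.integral_mono_on ht.2 (hr.sys.lam_int hr.n_pos t Tf _)
      intervalIntegrable_const fun s hs => ?_
    have h4 : Tf / p.lw ≤ s := ht.1.trans hs.1
    have hs0 : 0 < s := (div_pos hT hlw).trans_le h4
    refine (h1 s ⟨hr.t_le'.trans h4, hs.2⟩ _).trans (add_le_add ?_ ?_)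
    · split_ifs with h5
      · simp only [fl_snd]
        calc _ ≤ 2 * Real.pi * (2 * p.R + 2) * 256 * p.K / (p.c * s) := by gcongr
          _ = p.Cr / s := by rw [GP.Cr, div_div]
          _ ≤ p.Cr / (Tf / p.lw) := by gcongr
          _ = _ := by rw [div_div_eq_mul_div]
      · positivity
    · simp only [fl_snd]
      gcongr
  refine h3.trans ?_
  rw [intervalIntegral.integral_const, smul_eq_mul]
  have h5 : 0 < t := (div_pos hT hlw).trans_le ht.1
  rw [le_div_iff₀ (by positivity)] at h2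
  calc _ ≤ Tf * (p.Cr * p.lw / Tf + 2 * Real.pi * (1 + 2 * p.R) * μ) :=
        mul_le_mul_of_nonneg_right (by linarith) (by positivity)
    _ = p.Cr * p.lw + Tf * (2 * Real.pi * (1 + 2 * p.R) * μ) := by field_simp
    _ ≤ _ := by nlinarith

theorem measurable_phi0 (p : GP) : Measurable (fun q : ℝ × Ph => phi0 p q.1 q.2) := by
  have m : ∀ σ, Measurable fun q : ℝ × Ph => dsig p.c σ q.1 (xi q.1 q.2) q.2.2 ^ 2 := fun σ =>
    ((measurable_dsig p.c σ).comp
      (measurable_fst.prodMk (measurable_xi.prodMk measurable_snd.snd))).pow_const 2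
  unfold phi0
  refine (Measurable.add (Measurable.ite ?_ (((m 1).min (m (-1))).min measurable_const)
    measurable_const) measurable_const).add (measurable_const.max
      ((measurable_snd.snd.norm.pow_const 4).sub measurable_const))
  exact (measurableSet_le measurable_snd.snd.norm measurable_const).inter
    (measurableSet_le measurable_xi.norm measurable_const)

theorem phi0_ge (p : GP) (t : ℝ) (z : Ph) :
    p.ζ4 ^ 2 + max 0 (‖z.2‖ ^ 4 - (p.R / 2) ^ 4) ≤ phi0 p t z := by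
  unfold phi0
  refine add_le_add (le_add_of_nonneg_left ?_) le_rfl
  split_ifs
  · exact le_min (le_min (sq_nonneg _) (sq_nonneg _)) zero_le_one
  · exact zero_le_one

theorem phi0_le (p : GP) (t : ℝ) (z : Ph) :
    phi0 p t z ≤ 2 + max 0 (‖z.2‖ ^ 4 - (p.R / 2) ^ 4) := by
  unfold phi0
  have h1 : p.ζ4 ^ 2 ≤ 1 := pow_le_one₀ p.ζ4_pos.le p.ζ4_le
  refine add_le_add ?_ le_rfl
  split_ifs
  · linarith [min_le_right (min (dsig p.c 1 t (xi t z) z.2 ^ 2)
      (dsig p.c (-1) t (xi t z) z.2 ^ 2)) 1]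
  · linarith

theorem abs_phi0_le (p : GP) (t : ℝ) (z : Ph) : |phi0 p t z| ≤ 2 * (1 + ‖z.2‖) ^ 4 := by
  have h0 := norm_nonneg z.2
  rw [abs_of_nonneg (le_trans (by positivity) (phi0_ge p t z))]
  refine (phi0_le p t z).trans ?_
  have h1 : max 0 (‖z.2‖ ^ 4 - (p.R / 2) ^ 4) ≤ ‖z.2‖ ^ 4 :=
    max_le (by positivity) (sub_le_self _ (by positivity))
  have h2 : 0 ≤ ‖z.2‖ ^ 2 := by positivity
  have h3 : 0 ≤ ‖z.2‖ ^ 3 := by positivity
  have h4 : 0 ≤ ‖z.2‖ ^ 4 := by positivity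
  nlinarith

theorem phi0_anti (p : GP) {a b : ℝ} (ha : 0 < a) (z : Ph) :
    AntitoneOn (fun t => phi0 p t (fl t z)) (Icc a b) := by
  intro s hs t _ hst
  have m : ∀ σ, dsig p.c σ t (X z.1) z.2 ^ 2 ≤ dsig p.c σ s (X z.1) z.2 ^ 2 := fun σ =>
    pow_le_pow_left₀ (norm_nonneg _) (dsig_anti p.c_pos.le σ (ha.trans_le hs.1) hst _ _) 2
  simp only [phi0, xi_fl, fl_snd]
  refine add_le_add (add_le_add ?_ le_rfl) le_rfl
  split_ifs
  · exact min_le_min (min_le_min (m 1) (m (-1))) le_rfl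
  · exact le_rfl

/-- Near a stream the test function is the squared distance to it. -/
theorem phi0_near (p : GP) {t σ : ℝ} (ht : 0 < t) (ht' : t ≤ 1 / 100) (hσ : σ = 1 ∨ σ = -1)
    {x : T3} (hx : ‖X x‖ ≤ 1 / 16) {v : V} (hv : ‖v - Uf p.c σ t x‖ ≤ 1) :
    phi0 p t (x, v) = ‖v - Uf p.c σ t x‖ ^ 2 + p.ζ4 ^ 2 := by
  have hc : p.c ≤ 1 / 2 := by
    have h1 := p.c_le
    have h2 := mul_le_mul p.ζ2_le p.τ_le p.τ_pos.le (by norm_num)
    linarith
  have h1 := norm_Uf_le p.c_pos.le hc hσ t x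
  have h2 : ‖v‖ ≤ 17 / 8 := by
    have := norm_le_norm_add_norm_sub' v (Uf p.c σ t x)
    linarith
  have h3 : t * ‖v‖ ≤ 1 / 100 * (17 / 8) := mul_le_mul ht' h2 (norm_nonneg _) (by norm_num)
  have h4 := norm_xi_le ht.le x v
  have h5 := xi_chart' ht.le x v (by linarith)
  have h6 : max 0 (‖v‖ ^ 4 - (p.R / 2) ^ 4) = 0 :=
    max_eq_left (sub_nonpos.2 (pow_le_pow_left₀ (norm_nonneg _) (by linarith [p.R_ge]) 4))
  have h7 : ‖v - Uf p.c σ t x‖ ^ 2 ≤ 1 := pow_le_one₀ (norm_nonneg _) hv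
  have h8 : ‖v - Uf p.c σ t x‖ ^ 2 ≤ ‖v - Uf p.c (-σ) t x‖ ^ 2 := by
    refine pow_le_pow_left₀ (norm_nonneg _) (hv.trans ?_) 2
    have a1 := abs_le.1 ((abs_two_sub_le v (uf p.c t x) σ).trans hv)
    refine le_trans ?_ (abs_two_sub_le v (uf p.c t x) (-σ))
    rcases hσ with rfl | rfl
    · exact le_abs.2 (Or.inl (by linarith [a1.1]))
    · exact le_abs.2 (Or.inr (by linarith [a1.2]))
  simp only [phi0]
  rw [if_pos ⟨by linarith, by linarith⟩, h6, add_zero, dsig_xi _ _ h5, dsig_xi _ _ h5]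
  congr 1
  rcases hσ with rfl | rfl
  · rw [min_eq_left h8, min_eq_left h7]
  · rw [neg_neg] at h8
    rw [min_eq_right h8, min_eq_left h7]

end

end Vale.Agent.P140
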