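import Vale.Agent.P140.Basic

/-! Weak compactness in L1 along ultrafilters and product lemmas. -/

namespace Vale.Agent.P140

open MeasureTheory Set Filter Topology
open scoped ENNReal RealInnerProductSpace

noncomputable section

variable {α ι κ : Type} [MeasurableSpace α] {μ : Measure α} {l : Filter ι}
  {f g a : ι → α → ℝ} {f₀ g₀ a₀ : α → ℝ}

theorem w0_set (h : UI μ f) {ε : ℝ} (hε : 0 < ε) : ∃ g : α → ℝ, Measurable g ∧
    ∫⁻ x, ENNReal.ofReal (g x) ∂μ ≠ ⊤ ∧ ∀ i s, ∫⁻ x in s, ‖f i x‖ₑ ∂μ ≤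
      ENNReal.ofReal ε + ∫⁻ x in s, ENNReal.ofReal (g x) ∂μ := by
  obtain ⟨g, hg, hi, h0, h⟩ := h ε hε
  refine ⟨g, hg, hi.lintegral_lt_top.ne, fun i s => ?_⟩
  refine le_trans ?_ (add_le_add_left ((setLIntegral_le_lintegral s _).trans (h i)) _)
  rw [← lintegral_add_right _ hg.ennreal_ofReal]
  refine lintegral_mono fun x => le_trans ?_ ENNReal.ofReal_add_le
  rw [sub_add_cancel, ← ofReal_norm, Real.norm_eq_abs]

theorem UI.bound (h : UI μ f) : ∃ C : ℝ, 0 ≤ C ∧ ∀ i, ∫⁻ x, ‖f i x‖ₑ ∂μ ≤ ENNReal.ofReal C := by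
  obtain ⟨g, -, hi, h⟩ := w0_set h one_pos
  refine ⟨1 + (∫⁻ x, ENNReal.ofReal (g x) ∂μ).toReal, by positivity, fun i => ?_⟩
  rw [ENNReal.ofReal_add zero_le_one ENNReal.toReal_nonneg, ENNReal.ofReal_toReal hi]
  simpa only [Measure.restrict_univ] using h i univ

theorem UI.integrable (h : UI μ f) (hm : ∀ i, Measurable (f i)) (i : ι) :
    Integrable (f i) μ := by
  obtain ⟨C, -, hC⟩ := h.bound
  exact ⟨(hm i).aestronglyMeasurable, (hC i).trans_lt ENNReal.ofReal_lt_top⟩

theorem UI.mono (h : UI μ f) {u : κ → α → ℝ} (e : κ → ι) {C : ℝ} (hC : 0 ≤ C)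
    (hle : ∀ j x, |u j x| ≤ C * |f (e j) x|) : UI μ u := by
  intro ε hε
  obtain ⟨g, hg, hi, h0, h⟩ := h (ε / (C + 1)) (by positivity)
  refine ⟨fun x => C * g x, hg.const_mul C, hi.const_mul C, fun x => mul_nonneg hC (h0 x),
    fun j => (lintegral_mono fun x => ?_).trans ((lintegral_const_mul' (ENNReal.ofReal C) _
      ENNReal.ofReal_ne_top).trans_le ((mul_le_mul_right (h (e j)) _).trans ?_))⟩
  · rw [← ENNReal.ofReal_mul hC]
    exact ENNReal.ofReal_le_ofReal (by linarith [hle j x])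
  · rw [← ENNReal.ofReal_mul hC, ← mul_div_assoc]
    exact ENNReal.ofReal_le_ofReal ((div_le_iff₀ (by positivity)).2 (by linarith))

theorem UI.of_le {b : α → ℝ} (hb : Measurable b) (hi : Integrable b μ)
    (hle : ∀ i x, |f i x| ≤ b x) : UI μ f := fun ε _ =>
  ⟨fun x => |b x|, hb.abs, hi.abs, fun x => abs_nonneg _, fun i => by
    simp [fun x => ENNReal.ofReal_of_nonpos (sub_nonpos.2 ((hle i x).trans (le_abs_self _)))]⟩

theorem w0_int (hf : Integrable f₀ μ) {ψ : α → ℝ} (hψ : Measurable ψ) {C : ℝ}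
    (hC : ∀ x, |ψ x| ≤ C) : Integrable (fun x => f₀ x * ψ x) μ :=
  hf.mul_bdd hψ.aestronglyMeasurable (ae_of_all _ hC)

theorem w0_real (h : UI μ f) (hm : ∀ i, Measurable (f i)) {ε : ℝ} (hε : 0 < ε) :
    ∃ g : α → ℝ, Integrable g μ ∧ ∀ i (φ : α → ℝ) (D : ℝ), Measurable φ → 0 ≤ D →
      (∀ x, |φ x| ≤ D) → |∫ x, f i x * φ x ∂μ| ≤ D * ε + ∫ x, g x * |φ x| ∂μ := by
  obtain ⟨g, hg, hi, h0, h'⟩ := h ε hε
  refine ⟨g, hi, fun i φ D hφ hD hb => ?_⟩
  have i1 : Integrable (fun x => max (|f i x| - g x) 0) μ :=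
    ((h.integrable hm i).abs.sub hi).pos_part
  have i2 := w0_int hi hφ.abs fun x => (abs_abs _).trans_le (hb x)
  have e1 : ∫ x, max (|f i x| - g x) 0 ∂μ ≤ ε := by
    simp only [← ENNReal.toReal_ofReal']
    rw [integral_toReal (f := fun x => ENNReal.ofReal (|f i x| - g x))
      ((hm i).abs.sub hg).ennreal_ofReal.aemeasurable
      (ae_of_all _ fun x => ENNReal.ofReal_lt_top)]
    exact ENNReal.toReal_le_of_le_ofReal hε.le (h' i)
  refine abs_integral_le_integral_abs.trans ((integral_mono (w0_int (h.integrable hm i) hφ hb).abs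
    ((i1.const_mul D).add i2) fun x => ?_).trans ?_)
  · simp only [Pi.add_apply, abs_mul]
    nlinarith [mul_le_mul_of_nonneg_right (le_max_left (|f i x| - g x) 0) (abs_nonneg (φ x)),
      mul_le_mul_of_nonneg_left (hb x) (le_max_right (|f i x| - g x) 0)]
  · rw [integral_add' (i1.const_mul D) i2, integral_const_mul]
    exact add_le_add_left (mul_le_mul_of_nonneg_left e1 hD) _

theorem w0_lim (h : UI μ f) (hm : ∀ i, Measurable (f i)) (h₀ : Integrable f₀ μ)
    {ψ : α → ℝ} {φ : ℕ → α → ℝ} (hψ : Measurable ψ) (hφ : ∀ n, Measurable (φ n)) {C : ℝ}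
    (hC : ∀ x, |ψ x| ≤ C) (hC' : ∀ n x, |φ n x| ≤ C)
    (hl : ∀ x, Tendsto (fun n => φ n x) atTop (𝓝 (ψ x)))
    (hg : ∀ n, Tendsto (fun i => ∫ x, f i x * φ n x ∂μ) l (𝓝 (∫ x, f₀ x * φ n x ∂μ))) :
    Tendsto (fun i => ∫ x, f i x * ψ x ∂μ) l (𝓝 (∫ x, f₀ x * ψ x ∂μ)) := by
  refine Metric.tendsto_nhds.2 fun ε hε => ?_
  have hD : ∀ n x, |ψ x - φ n x| ≤ 2 * |C| := fun n x =>
    (abs_sub _ _).trans (by linarith [hC x, hC' n x, le_abs_self C])
  have key : ∀ g : α → ℝ, Integrable g μ →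
      ∀ᶠ n in atTop, ∫ x, g x * |ψ x - φ n x| ∂μ < ε / 4 := fun g hg => by
    have := tendsto_integral_of_dominated_convergence (μ := μ) (f := fun _ => 0)
      (F := fun n x => g x * |ψ x - φ n x|) (fun x => |g x| * (2 * |C|))
      (fun n => hg.1.mul (hψ.sub (hφ n)).abs.aestronglyMeasurable) (hg.abs.mul_const _)
      (fun n => ae_of_all _ fun x => by
        rw [Real.norm_eq_abs, abs_mul, abs_abs]
        exact mul_le_mul_of_nonneg_left (hD n x) (abs_nonneg _))
      (ae_of_all _ fun x => by simpa using (((hl x).const_sub (ψ x)).abs).const_mul (g x))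
    rw [integral_zero] at this
    exact this.eventually (gt_mem_nhds (by positivity))
  obtain ⟨g, hi, hb⟩ := w0_real h hm (ε := ε / 4 / (2 * |C| + 1)) (by positivity)
  obtain ⟨n, h1, h2⟩ := ((key g hi).and (key _ h₀.abs)).exists
  filter_upwards [Metric.tendsto_nhds.1 (hg n) (ε / 4) (by positivity)] with i h3
  have h4 := hb i (fun x => ψ x - φ n x) _ (hψ.sub (hφ n)) (by positivity) (hD n)
  have h5 : |∫ x, f₀ x * (ψ x - φ n x) ∂μ| ≤ ∫ x, |f₀ x| * |ψ x - φ n x| ∂μ := by
    simpa only [abs_mul] using abs_integral_le_integral_abs (f := fun x => f₀ x * (ψ x - φ n x))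
  have h6 : 2 * |C| * (ε / 4 / (2 * |C| + 1)) ≤ ε / 4 := by
    rw [← mul_div_assoc, div_le_iff₀ (by positivity)]
    linarith
  simp only [mul_sub] at h4 h5
  rw [integral_sub (w0_int (h.integrable hm i) hψ hC)
    (w0_int (h.integrable hm i) (hφ n) (hC' n)), abs_le] at h4
  rw [integral_sub (w0_int h₀ hψ hC) (w0_int h₀ (hφ n) (hC' n)), abs_le] at h5
  rw [Real.dist_eq, abs_lt] at h3 ⊢
  constructor <;> linarith [h3.1, h3.2, h4.1, h4.2, h5.1, h5.2]

theorem w0_ind (u : α → ℝ) {A : Set α} (hA : MeasurableSet A) (c : ℝ) :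
    ∫ x, u x * A.indicator (fun _ => c) x ∂μ = (∫ x in A, u x ∂μ) * c := by
  rw [← integral_mul_const, ← integral_indicator hA]
  simp only [indicator_mul_right]

/-- Weak convergence from convergence on a generating pi-system. -/
theorem weakConv_of_pi (h : UI μ f) (hm : ∀ i, Measurable (f i)) (h₀ : Integrable f₀ μ)
    {P : Set (Set α)} (hP : IsPiSystem P)
    (hgen : ‹MeasurableSpace α› = MeasurableSpace.generateFrom P)
    (huniv : Tendsto (fun i => ∫ x, f i x ∂μ) l (𝓝 (∫ x, f₀ x ∂μ)))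
    (hA : ∀ A ∈ P, Tendsto (fun i => ∫ x in A, f i x ∂μ) l (𝓝 (∫ x in A, f₀ x ∂μ))) :
    WeakConv μ l f f₀ := by
  have hi := h.integrable hm
  have h1 : ∀ A, MeasurableSet A →
      Tendsto (fun i => ∫ x in A, f i x ∂μ) l (𝓝 (∫ x in A, f₀ x ∂μ)) := by
    refine MeasurableSpace.induction_on_inter hgen hP (by simpa using tendsto_const_nhds) hA
      (fun A hA' h => ?_) fun A hd hA' hj => ?_
    · simp only [setIntegral_compl hA' (hi _), setIntegral_compl hA' h₀]
      exact huniv.sub h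
    · have m1 := fun n => Finset.measurableSet_biUnion (Finset.range n) fun j _ => hA' j
      have b1 : ∀ (B : Set α) x, |B.indicator (fun _ => (1 : ℝ)) x| ≤ 1 := fun B x => by
        by_cases hx : x ∈ B <;> simp [hx]
      have := w0_lim (l := l) h hm h₀ (measurable_const.indicator (MeasurableSet.iUnion hA'))
        (fun n => measurable_const.indicator (m1 n)) (b1 _) (fun n => b1 _)
        (fun x => ((tendsto_indicator_biUnion_finset A _ x).comp tendsto_finset_range).mono_right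
          (pure_le_nhds _)) fun n => by
          simp only [w0_ind _ (m1 n), mul_one, integral_biUnion_finset _ (fun j _ => hA' j)
            (fun j _ k _ hjk => hd hjk) fun j _ => (hi _).integrableOn,
            integral_biUnion_finset _ (fun j _ => hA' j)
            (fun j _ k _ hjk => hd hjk) fun j _ => h₀.integrableOn]
          exact tendsto_finsetSum _ fun j _ => hj j
      simpa only [w0_ind _ (MeasurableSet.iUnion hA'), mul_one] using this
  have h2 : ∀ s : SimpleFunc α ℝ,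
      Tendsto (fun i => ∫ x, f i x * s x ∂μ) l (𝓝 (∫ x, f₀ x * s x ∂μ)) := fun s => by
    induction s using SimpleFunc.induction with
    | @const c A hA' =>
      have : ∀ x, SimpleFunc.piecewise A hA' (SimpleFunc.const α c) (SimpleFunc.const α 0) x =
          A.indicator (fun _ => c) x := fun x => by by_cases hx : x ∈ A <;> simp [hx]
      simp only [this, w0_ind _ hA']
      exact (h1 A hA').mul_const c
    | @add s t _ hs ht =>
      obtain ⟨C, hC⟩ := s.exists_forall_norm_le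
      obtain ⟨D, hD⟩ := t.exists_forall_norm_le
      simp only [SimpleFunc.coe_add, Pi.add_apply, mul_add, integral_add
        (w0_int (hi _) s.measurable hC) (w0_int (hi _) t.measurable hD), integral_add
        (w0_int h₀ s.measurable hC) (w0_int h₀ t.measurable hD)]
      exact hs.add ht
  rintro ψ hψ ⟨C, hC⟩
  exact w0_lim h hm h₀ hψ (fun n => (SimpleFunc.approxOn ψ hψ univ 0 (mem_univ _) n).measurable)
    (C := C + C) (fun x => by linarith [hC x, abs_nonneg (ψ x)])
    (fun n x => (SimpleFunc.norm_approxOn_zero_le hψ _ x n).trans (add_le_add (hC x) (hC x)))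
    (fun x => SimpleFunc.tendsto_approxOn hψ _ (by simp)) fun n => h2 _

/-- Dunford-Pettis along an ultrafilter. -/
theorem exists_weakConv [SigmaFinite μ] (U : Ultrafilter ι) (h : UI μ f)
    (hm : ∀ i, Measurable (f i)) (h0 : ∀ i x, 0 ≤ f i x) :
    ∃ f₀ : α → ℝ, Measurable f₀ ∧ (∀ x, 0 ≤ f₀ x) ∧ Integrable f₀ μ ∧
      WeakConv μ (U : Filter ι) f f₀ := by
  have hm' : ∀ A : Set α, ∃ c, Tendsto (fun i => ∫⁻ x in A, ‖f i x‖ₑ ∂μ) U (𝓝 c) := fun A =>
    ⟨_, (U.map fun i => ∫⁻ x in A, ‖f i x‖ₑ ∂μ).le_nhds_lim⟩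
  choose m hl using hm'
  have hz : ∀ A, μ A = 0 → m A = 0 := fun A hA => tendsto_nhds_unique (hl A) (by
    simp [Measure.restrict_eq_zero.2 hA])
  let ν := Measure.ofMeasurable (fun A _ => m A) (hz _ measure_empty) fun A hA hd => by
    refine le_antisymm (ENNReal.le_of_forall_pos_le_add fun ε hε _ => ?_)
      (ENNReal.tsum_le_of_sum_range_le fun n => le_of_tendsto_of_tendsto'
        (tendsto_finsetSum _ fun j _ => hl (A j)) (hl _) fun i => by
          rw [lintegral_iUnion hA hd]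
          exact ENNReal.sum_le_tsum _)
    obtain ⟨g, -, hi, hg⟩ := w0_set h (ε := ε) hε
    have h1 := ENNReal.tendsto_sum_nat_add (fun j => ∫⁻ x in A j, ENNReal.ofReal (g x) ∂μ)
      (ne_top_of_le_ne_top hi ((lintegral_iUnion hA hd _).symm.trans_le
        (setLIntegral_le_lintegral _ _)))
    have h2 := (h1.const_add (ENNReal.ofReal ε)).const_add (∑' j, m (A j))
    rw [add_zero, ENNReal.ofReal_coe_nnreal] at h2
    refine ge_of_tendsto' h2 fun n => le_trans (le_of_tendsto_of_tendsto' (hl _)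
      ((tendsto_finsetSum (Finset.range n) fun j _ => hl (A j)).add_const _) fun i => ?_)
      (add_le_add_left (ENNReal.sum_le_tsum _) _)
    have hd' : Pairwise (Function.onFun Disjoint fun j => A (j + n)) :=
      hd.comp_of_injective (add_left_injective n)
    rw [lintegral_iUnion hA hd, ← ENNReal.summable.sum_add_tsum_nat_add' (k := n),
      ← lintegral_iUnion (fun j => hA (j + n)) hd', ← lintegral_iUnion (fun j => hA (j + n)) hd',
      ← ENNReal.ofReal_coe_nnreal]
    exact add_le_add_right (hg i _) _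
  have hν : ∀ A, MeasurableSet A → ν A = m A := fun A hA => Measure.ofMeasurable_apply A hA
  obtain ⟨C, -, hC⟩ := h.bound
  have : IsFiniteMeasure ν := ⟨(hν _ MeasurableSet.univ).trans_lt ((le_of_tendsto' (hl _)
    fun i => (setLIntegral_le_lintegral _ _).trans (hC i)).trans_lt ENNReal.ofReal_lt_top)⟩
  have hac : ν ≪ μ := Measure.AbsolutelyContinuous.mk fun A hA h => (hν A hA).trans (hz A h)
  have key : ∀ A, MeasurableSet A → Tendsto (fun i => ∫ x in A, f i x ∂μ) U
      (𝓝 (∫ x in A, (ν.rnDeriv μ x).toReal ∂μ)) := fun A hA => by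
    rw [Measure.setIntegral_toReal_rnDeriv hac, measureReal_def]
    refine ((ENNReal.tendsto_toReal (measure_ne_top ν A)).comp (hν A hA ▸ hl A)).congr fun i => ?_
    rw [Function.comp_apply, ← integral_norm_eq_lintegral_enorm (hm i).aestronglyMeasurable]
    simp only [Real.norm_of_nonneg (h0 i _)]
  exact ⟨_, (ν.measurable_rnDeriv μ).ennreal_toReal, fun x => ENNReal.toReal_nonneg,
    Measure.integrable_toReal_rnDeriv, weakConv_of_pi h hm Measure.integrable_toReal_rnDeriv
      MeasurableSpace.isPiSystem_measurableSet MeasurableSpace.generateFrom_measurableSet.symm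
      (by simpa only [Measure.restrict_univ] using key _ MeasurableSet.univ) key⟩

end

end Vale.Agent.P140
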